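/-
R226 interface file (captain helper484).  Definitions only, no proofs beyond trivialities.
Layers:  A (near-diagonal geometry) ⟶ `NearDiag`;  B (global exponential map) ⟶ `GeoData`;
C (cut-locus calculus), D (c-convexity, S0349), E/F (S0350).
-/
import Crest.Prelude.Def_RiemannianMTW

set_option autoImplicit false

open MeasureTheory Bundle Set
open scoped Manifold ContDiff Bundle ENNReal Topology
open Crest.GeometryTopology.MTW

namespace Crest.Agent.R226

/-- model space of the row. -/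
abbrev EE (n : ℕ) := EuclideanSpace ℝ (Fin n)

section
variable (n : ℕ) (M : Type*) [MetricSpace M] [ChartedSpace (EuclideanSpace ℝ (Fin n)) M]
  [IsManifold (𝓡 n) ∞ M]
  [RiemannianBundle (fun p : M => TangentSpace (𝓡 n) p)]

/-- Output of Layer A: uniform near-diagonal Riemannian geometry.  `e x v` is only meaningful for
`‖v‖ < r₀`. -/
structure NearDiag where
  /-- radius -/
  r₀ : ℝ
  r₀_pos : 0 < r₀
  /-- the local exponential map -/
  e : ∀ x : M, TangentSpace (𝓡 n) x → M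
  /-- `e` is smooth on the open disc bundle of radius `r₀` -/
  smooth : ContMDiffOn (𝓡 n).tangent (𝓡 n) ∞ (fun p : TangentBundle (𝓡 n) M => e p.1 p.2)
    {p | ‖p.2‖ < r₀}
  /-- the cost is smooth near the diagonal -/
  smooth_cost : ContMDiffOn ((𝓡 n).prod (𝓡 n)) 𝓘(ℝ) ∞
    (fun q : M × M => halfDistSq q.1 q.2) {q | dist q.1 q.2 < r₀}
  e_zero : ∀ x, e x 0 = x
  /-- radial curves have initial velocity `v` -/
  vel_zero : ∀ x, ∀ v : TangentSpace (𝓡 n) x, ‖v‖ < r₀ →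
    curveVel n (fun t : ℝ => e x (t • v)) 0 = v
  /-- radial curves have constant speed -/
  norm_vel : ∀ x, ∀ v : TangentSpace (𝓡 n) x, ‖v‖ < r₀ → ∀ t : ℝ, |t| ≤ 1 →
    ‖curveVel n (fun t : ℝ => e x (t • v)) t‖ = ‖v‖
  /-- radial curves of length `< 2 r₀` (from `-1` to `1`) are minimising -/
  dist_eq : ∀ x, ∀ v : TangentSpace (𝓡 n) x, ‖v‖ < r₀ → ∀ s t : ℝ, |s| ≤ 1 → |t| ≤ 1 →
    dist (e x (s • v)) (e x (t • v)) = |s - t| * ‖v‖
  /-- every near point is reached (necessarily by a vector of norm `dist x y`) -/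
  surj : ∀ x y, dist x y < r₀ → ∃ v : TangentSpace (𝓡 n) x, ‖v‖ = dist x y ∧ e x v = y
  /-- injectivity in the disc -/
  inj : ∀ x, ∀ v w : TangentSpace (𝓡 n) x, ‖v‖ < r₀ → ‖w‖ < r₀ → e x v = e x w → v = w
  /-- first variation at the base point: for every `C¹`-at-`0` curve `γ` through `x`,
  `d/dt|₀ c(γ t, e x v) = -⟪v, γ'(0)⟫` (here along radial curves, all one needs) -/
  hasDerivAt_cost : ∀ x, ∀ v ξ : TangentSpace (𝓡 n) x, ‖v‖ < r₀ →  ‖ξ‖ < r₀ →
    HasDerivAt (fun t : ℝ => halfDistSq (e x (t • ξ)) (e x v)) (-inner ℝ v ξ) 0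

/-- Output of Layer B: the global exponential map of the compact manifold `M` and its basic
properties. -/
structure GeoData where
  /-- the exponential map -/
  ex : ∀ x : M, TangentSpace (𝓡 n) x → M
  smooth : ContMDiff (𝓡 n).tangent (𝓡 n) ∞ (fun p : TangentBundle (𝓡 n) M => ex p.1 p.2)
  ex_zero : ∀ x, ex x 0 = x
  vel_zero : ∀ x, ∀ v : TangentSpace (𝓡 n) x, curveVel n (fun t : ℝ => ex x (t • v)) 0 = v
  norm_vel : ∀ x, ∀ v : TangentSpace (𝓡 n) x, ∀ t : ℝ,
    ‖curveVel n (fun t : ℝ => ex x (t • v)) t‖ = ‖v‖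
  /-- geodesic flow property -/
  flow : ∀ x, ∀ v : TangentSpace (𝓡 n) x, ∀ t s : ℝ,
    ex (ex x (t • v)) (s • curveVel n (fun t : ℝ => ex x (t • v)) t) = ex x ((t + s) • v)
  /-- geodesics are `‖v‖`-Lipschitz -/
  dist_le : ∀ x, ∀ v : TangentSpace (𝓡 n) x, ∀ s t : ℝ,
    dist (ex x (s • v)) (ex x (t • v)) ≤ |s - t| * ‖v‖
  /-- Hopf–Rinow -/
  surj : ∀ x y, ∃ v : TangentSpace (𝓡 n) x, ex x v = y ∧ ‖v‖ = dist x y
  /-- near-diagonal radius -/
  r₀ : ℝ
  r₀_pos : 0 < r₀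
  /-- minimality of short geodesics -/
  dist_eq : ∀ x, ∀ v : TangentSpace (𝓡 n) x, ∀ s t : ℝ, |s - t| * ‖v‖ < r₀ →
    dist (ex x (s • v)) (ex x (t • v)) = |s - t| * ‖v‖
  inj : ∀ x, ∀ v w : TangentSpace (𝓡 n) x, ‖v‖ < r₀ → ‖w‖ < r₀ → ex x v = ex x w → v = w
  smooth_cost : ContMDiffOn ((𝓡 n).prod (𝓡 n)) 𝓘(ℝ) ∞
    (fun q : M × M => halfDistSq q.1 q.2) {q | dist q.1 q.2 < r₀}
  hasDerivAt_cost : ∀ x, ∀ v ξ : TangentSpace (𝓡 n) x, ‖v‖ < r₀ →
    HasDerivAt (fun t : ℝ => halfDistSq (ex x (t • ξ)) (ex x v)) (-inner ℝ v ξ) 0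
  /-- every `C¹` constant speed minimiser is a geodesic (so `injDomain` is the usual one) -/
  injDomain_eq : ∀ x, injDomain n x =
    {v : TangentSpace (𝓡 n) x | ∃ a : ℝ, 1 < a ∧ dist x (ex x (a • v)) = a * ‖v‖}

end

section
variable {n : ℕ} {M : Type*} [MetricSpace M] [ChartedSpace (EuclideanSpace ℝ (Fin n)) M]
  [IsManifold (𝓡 n) ∞ M]
  [RiemannianBundle (fun p : M => TangentSpace (𝓡 n) p)]

namespace GeoData

variable (G : GeoData n M)

/-- velocity at time `t` of the geodesic with initial velocity `v` -/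
noncomputable def vel (x : M) (v : TangentSpace (𝓡 n) x) (t : ℝ) :
    TangentSpace (𝓡 n) (G.ex x (t • v)) :=
  curveVel n (fun t : ℝ => G.ex x (t • v)) t

/-- the geodesic flow on the tangent bundle -/
noncomputable def Flow (t : ℝ) (p : TangentBundle (𝓡 n) M) : TangentBundle (𝓡 n) M :=
  ⟨G.ex p.1 (t • p.2), G.vel p.1 p.2 t⟩

/-- `K(x)`: the closed tangent injectivity domain (velocities minimising up to time `1`) -/
def K (x : M) : Set (TangentSpace (𝓡 n) x) := {v | dist x (G.ex x v) = ‖v‖}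

/-- `I(x)`: the tangent injectivity domain, in terms of `ex` (equals `injDomain n x`) -/
def I (x : M) : Set (TangentSpace (𝓡 n) x) := {v | ∃ a : ℝ, 1 < a ∧ a • v ∈ G.K x}

/-- `K` as a subset of the tangent bundle -/
def KT : Set (TangentBundle (𝓡 n) M) := {p | p.2 ∈ G.K p.1}

/-- `I` as a subset of the tangent bundle -/
def IT : Set (TangentBundle (𝓡 n) M) := {p | p.2 ∈ G.I p.1}

/-- `φ_ξ(p) = d²/dt²|₀ c(exp_x(tξ), exp_x p)` (for `p ∈ I(x)`) -/
noncomputable def phi (x : M) (ξ p : TangentSpace (𝓡 n) x) : ℝ :=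
  iteratedDeriv 2 (fun t : ℝ => halfDistSq (G.ex x (t • ξ)) (G.ex x p)) 0

/-- `P_u(x)`: the set of `w ∈ K(x)` such that `exp_x w` is a (global) `c`-subgradient of `u` at `x` -/
def P (u : M → ℝ) (x : M) : Set (TangentSpace (𝓡 n) x) :=
  {w | w ∈ G.K x ∧ ∀ x', u x + halfDistSq x (G.ex x w) ≤ u x' + halfDistSq x' (G.ex x w)}

/-- `H_u(x) = conv P_u(x)` -/
def H (u : M → ℝ) (x : M) : Set (TangentSpace (𝓡 n) x) := convexHull ℝ (G.P u x)

/-- `Good u s`: every element of `s • H_u(x)` lies in `K(x)` and is a global `c`-support of `s u`. -/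
def Good (u : M → ℝ) (s : ℝ) : Prop :=
  ∀ x, ∀ w ∈ G.H u x, s • w ∈ G.P (fun z => s * u z) x

end GeoData

/-- `u` is `c`-convex (on a compact space): it has a `c`-subgradient at every point. -/
def CConv (u : M → ℝ) : Prop :=
  ∀ x, ∃ y, ∀ x', u x + halfDistSq x y ≤ u x' + halfDistSq x' y

/-- the contact set `C_y(U) = argmin (U + c(·,y))` -/
def Cset (U : M → ℝ) (y : M) : Set M :=
  {x | ∀ x', U x + halfDistSq x y ≤ U x' + halfDistSq x' y}

/-- the `c`-transform with the sign convention `U^c(y) = sup_x (-U(x) - c(x,y))`, i.e.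
`-U^c(y) = min_x (U(x) + c(x,y))`. -/
noncomputable def ctr (U : M → ℝ) (y : M) : ℝ := ⨆ x, (-U x - halfDistSq x y)

end

end Crest.Agent.R226
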