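/-
R226 interface between Layer C (cut-locus calculus) and Layer D (c-convexity, S0349).
`CutFacts G` collects the statements (F1)-(F5), the MTW concavity and the local Loeper principle.
-/
import Crest.Agent.R226.Defs_484

set_option autoImplicit false

open MeasureTheory Bundle Set Filter
open scoped Manifold ContDiff Bundle ENNReal Topology
open Crest.GeometryTopology.MTW

namespace Crest.Agent.R226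

variable {n : ℕ} {M : Type*} [MetricSpace M] [ChartedSpace (EuclideanSpace ℝ (Fin n)) M]
  [IsManifold (𝓡 n) ∞ M]
  [RiemannianBundle (fun p : M => TangentSpace (𝓡 n) p)]

/-- the cost seen in normal coordinates at `x`: `nc x p ξ = c(exp_x ξ, exp_x p)` -/
noncomputable def GeoData.nc (G : GeoData n M) (x : M) (p ξ : TangentSpace (𝓡 n) x) : ℝ :=
  halfDistSq (G.ex x ξ) (G.ex x p)

/-- Facts not depending on MTW. -/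
structure CutFacts (G : GeoData n M) : Prop where
  /-- C0 -/
  isCompact_KT : IsCompact G.KT
  star : ∀ x, ∀ v ∈ G.K x, ∀ t : ℝ, 0 ≤ t → t ≤ 1 → t • v ∈ G.K x
  I_subset : ∀ x, G.I x ⊆ G.K x
  uniq : ∀ x, ∀ v ∈ G.I x, ∀ w ∈ G.K x, G.ex x w = G.ex x v → w = v
  /-- second half of a minimiser -/
  tail : ∀ x, ∀ v ∈ G.K x, ∀ t : ℝ, 0 ≤ t → t ≤ 1 → (1 - t) • G.vel x v t ∈ G.K (G.ex x (t • v))
  /-- reversal -/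
  rev : ∀ x, ∀ v ∈ G.K x, -(G.vel x v 1) ∈ G.K (G.ex x ((1 : ℝ) • v))
  rev_I : ∀ x, ∀ v ∈ G.I x, -(G.vel x v 1) ∈ G.I (G.ex x ((1 : ℝ) • v))
  rev_ex : ∀ x, ∀ v : TangentSpace (𝓡 n) x, ∀ t : ℝ,
    G.ex (G.ex x ((1 : ℝ) • v)) (t • (-(G.vel x v 1))) = G.ex x ((1 - t) • v)
  /-- F2 -/
  isOpen_IT : IsOpen G.IT
  smooth_cost : ∀ x, ∀ v ∈ G.I x, ContMDiffAt ((𝓡 n).prod (𝓡 n)) 𝓘(ℝ) ∞
    (fun q : M × M => halfDistSq q.1 q.2) (x, G.ex x v)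
  /-- the cost is smooth in normal coordinates, with gradient `-v` and Hessian `phi` -/
  nc_smooth : ∀ x, ∀ v ∈ G.I x, ContDiffAt ℝ ∞ (G.nc x v) 0
  nc_fderiv : ∀ x, ∀ v ∈ G.I x, ∀ ξ, fderiv ℝ (G.nc x v) 0 ξ = -inner ℝ v ξ
  nc_hess : ∀ x, ∀ v ∈ G.I x, ∀ ξ, fderiv ℝ (fderiv ℝ (G.nc x v)) 0 ξ ξ = G.phi x ξ v
  phi_smul : ∀ x, ∀ v ∈ G.I x, ∀ ξ, ∀ t : ℝ, G.phi x (t • ξ) v = t ^ 2 * G.phi x ξ v
  phi_cont : ∀ x, ContinuousOn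
    (fun q : TangentSpace (𝓡 n) x × TangentSpace (𝓡 n) x => G.phi x q.1 q.2) {q | q.2 ∈ G.I x}
  /-- F1 -/
  semiconcave : ∃ C₁ : ℝ, 0 < C₁ ∧ ∀ x, ∀ v ∈ G.K x, ∀ ξ : TangentSpace (𝓡 n) x,
    halfDistSq (G.ex x ξ) (G.ex x v) ≤ halfDistSq x (G.ex x v) - inner ℝ v ξ + C₁ * ‖ξ‖ ^ 2
  /-- strong convexity near the diagonal -/
  convex_near : ∃ r₁ : ℝ, 0 < r₁ ∧ ∀ x, ∀ v ξ : TangentSpace (𝓡 n) x, ‖v‖ ≤ r₁ → ‖ξ‖ ≤ r₁ →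
    ‖v‖ ^ 2 / 2 - inner ℝ v ξ + ‖ξ‖ ^ 2 / 4 ≤ halfDistSq (G.ex x ξ) (G.ex x v)
  /-- F3 -/
  mono : ∀ x, ∀ p ∈ G.I x, ∀ ξ : TangentSpace (𝓡 n) x, ξ ≠ 0 → ∀ t : ℝ, 0 < t → t < 1 →
    G.phi x ξ p < G.phi x ξ (t • p) / t
  /-- F4 (Gauss lemma) -/
  gauss : ∀ x, ∀ p ∈ G.I x, ∀ η : TangentSpace (𝓡 n) x, inner ℝ p η = 0 → ∀ a : ℝ,
    G.phi x (a • p + η) p = a ^ 2 * ‖p‖ ^ 2 + G.phi x η p
  /-- F5 -/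
  focal : ∀ x, ∀ p ∈ G.K x, p ∉ G.I x → (∀ w ∈ G.K x, G.ex x w = G.ex x p → w = p) →
    ∃ k : TangentSpace (𝓡 n) x, ‖k‖ = 1 ∧ inner ℝ k p = 0 ∧ ∃ C c r₁ : ℝ, 0 < c ∧ r₁ < 1 ∧
      ∀ r : ℝ, r₁ < r → r < 1 → ∀ ξ : TangentSpace (𝓡 n) x,
        G.phi x ξ (r • p) ≤ C * ‖ξ‖ ^ 2 - c * (inner ℝ ξ k) ^ 2 / (1 - r)
  /-- two-point version of F3 used in step (I): a segment `q₀ + τ q'` in `K(y)` (τ near 0),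
  `x_τ = exp_y(q₀+τq')`, written in normal coordinates at `x = x_0` as `x_τ = exp_x (ζ τ)` with
  `ζ` C² at `0`, `ζ 0 = 0`; `p₀ = - vel y q₀ 1` the reversed vector. -/
  seg : ∀ y, ∀ q₀ q' : TangentSpace (𝓡 n) y, (∀ᶠ τ : ℝ in 𝓝 0, q₀ + τ • q' ∈ G.K y) →
    ∀ ζ : ℝ → TangentSpace (𝓡 n) (G.ex y ((1 : ℝ) • q₀)), ContDiffAt ℝ 2 ζ 0 → ζ 0 = 0 →
    (∀ᶠ τ : ℝ in 𝓝 0, G.ex (G.ex y ((1 : ℝ) • q₀)) (ζ τ) = G.ex y (q₀ + τ • q')) →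
    ∀ ε : ℝ, 0 < ε → ∃ r₁ : ℝ, r₁ < 1 ∧ ∀ r : ℝ, r₁ < r → r < 1 →
      G.phi (G.ex y ((1 : ℝ) • q₀)) (deriv ζ 0) (r • (-(G.vel y q₀ 1))) ≤
        ‖q'‖ ^ 2 + inner ℝ (-(G.vel y q₀ 1)) (deriv (deriv ζ) 0) + ε

/-- Facts depending on MTW. -/
structure MTWFacts (G : GeoData n M) : Prop where
  /-- `φ_ξ` is concave along segments of `I(x)` orthogonal to `ξ` -/
  concave : ∀ x, ∀ p q ξ : TangentSpace (𝓡 n) x, segment ℝ p q ⊆ G.I x → inner ℝ (q - p) ξ = 0 →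
    ∀ t : ℝ, 0 ≤ t → t ≤ 1 →
    (1 - t) * G.phi x ξ p + t * G.phi x ξ q ≤ G.phi x ξ ((1 - t) • p + t • q)
  /-- local Loeper maximum principle, uniform on compact subsets of `I ⊂ TM` -/
  loeper : ∀ S : Set (TangentBundle (𝓡 n) M), IsCompact S → S ⊆ G.IT → ∃ r : ℝ, 0 < r ∧
    ∀ x, ∀ p q : TangentSpace (𝓡 n) x,
      (∀ w ∈ segment ℝ p q, (⟨x, w⟩ : TangentBundle (𝓡 n) M) ∈ S) →
      ∀ x', dist x x' < r → ∀ t : ℝ, 0 ≤ t → t ≤ 1 →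
        ‖(1 - t) • p + t • q‖ ^ 2 / 2 - halfDistSq x' (G.ex x ((1 - t) • p + t • q)) ≤
          max (‖p‖ ^ 2 / 2 - halfDistSq x' (G.ex x p)) (‖q‖ ^ 2 / 2 - halfDistSq x' (G.ex x q))

end Crest.Agent.R226
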