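/-
R226 task C6 (helper117): the MTW form as an iterated partial derivative, and
weak MTW ⟹ concavity of `φ_ξ` along segments of `I(x)` orthogonal to `ξ`.
Main results: `iteratedFDeriv_four_eq`, `contMDiff_fiber`, `contMDiff_ex`,
`contDiffAt_two_param`, `contDiffAt_phi_slice`, `mtwForm_eq`, `concave_of_mtw`.
-/
import Crest.Prelude.Def_RiemannianMTW
import Crest.Agent.R226.CutFacts_484

set_option autoImplicit false

open MeasureTheory Bundle Set Filter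
open scoped Manifold ContDiff Bundle ENNReal Topology
open Crest.GeometryTopology.MTW

namespace Crest.Agent.R226.MTWConc117

/-! ### Pure calculus on `ℝ × ℝ` -/

/-- the slice in the second variable -/
theorem hasDerivAt_slice_snd {F : Type*} [NormedAddCommGroup F] [NormedSpace ℝ F]
    {g : ℝ × ℝ → F} {s t : ℝ} (hg : DifferentiableAt ℝ g (s, t)) :
    HasDerivAt (fun t' => g (s, t')) (fderiv ℝ g (s, t) (0, 1)) t := by
  have h1 : HasDerivAt (fun t' : ℝ => (s, t')) ((0 : ℝ), (1 : ℝ)) t :=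
    (hasDerivAt_const t s).prodMk (hasDerivAt_id t)
  exact hg.hasFDerivAt.comp_hasDerivAt t h1

/-- the slice in the first variable -/
theorem hasDerivAt_slice_fst {F : Type*} [NormedAddCommGroup F] [NormedSpace ℝ F]
    {g : ℝ × ℝ → F} {s t : ℝ} (hg : DifferentiableAt ℝ g (s, t)) :
    HasDerivAt (fun s' => g (s', t)) (fderiv ℝ g (s, t) (1, 0)) s := by
  have h1 : HasDerivAt (fun s' : ℝ => (s', t)) ((1 : ℝ), (0 : ℝ)) s :=
    (hasDerivAt_id s).prodMk (hasDerivAt_const s t)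
  exact hg.hasFDerivAt.comp_hasDerivAt s h1

/-- directional derivative -/
noncomputable def Dd (a : ℝ × ℝ) (g : ℝ × ℝ → ℝ) (z : ℝ × ℝ) : ℝ := fderiv ℝ g z a

theorem contDiffAt_Dd {a : ℝ × ℝ} {g : ℝ × ℝ → ℝ} {z : ℝ × ℝ} {k : ℕ}
    (hg : ContDiffAt ℝ (k + 1 : ℕ) g z) : ContDiffAt ℝ k (Dd a g) z := by
  have h : ContDiffAt ℝ k (fderiv ℝ g) z := hg.fderiv_right (by norm_cast)
  exact h.clm_apply contDiffAt_const

theorem iteratedFDeriv_succ_eq_Dd {k : ℕ} {g : ℝ × ℝ → ℝ} {z : ℝ × ℝ}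
    (hg : ContDiffAt ℝ (k + 1 : ℕ) g z) (m : Fin (k + 1) → ℝ × ℝ) :
    iteratedFDeriv ℝ (k + 1) g z m =
      Dd (m 0) (fun y => iteratedFDeriv ℝ k g y (Fin.tail m)) z := by
  have h := hg.differentiableAt_iteratedFDeriv (m := k) (by exact_mod_cast Nat.lt_succ_self k)
  exact h.iteratedFDeriv_succ_apply_left'

theorem Dd_congr {a : ℝ × ℝ} {g h : ℝ × ℝ → ℝ} {z : ℝ × ℝ} (hgh : g =ᶠ[𝓝 z] h) :
    Dd a g z = Dd a h z := by
  unfold Dd
  rw [hgh.fderiv_eq]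

theorem eventually_contDiffAt {g : ℝ × ℝ → ℝ} {z : ℝ × ℝ} {k : ℕ}
    (hg : ContDiffAt ℝ k g z) : ∀ᶠ y in 𝓝 z, ContDiffAt ℝ k g y :=
  hg.eventually (by simp)

theorem iteratedFDeriv_two_eq_Dd {g : ℝ × ℝ → ℝ} {z : ℝ × ℝ}
    (hg : ContDiffAt ℝ 2 g z) (c d : ℝ × ℝ) :
    iteratedFDeriv ℝ 2 g z ![c, d] = Dd c (Dd d g) z := by
  have hg' : ContDiffAt ℝ ((1 + 1 : ℕ) : WithTop ℕ∞) g z := by exact_mod_cast hg
  rw [iteratedFDeriv_succ_eq_Dd hg']
  apply Dd_congr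
  filter_upwards [eventually_contDiffAt hg'] with y hy
  have h1 : ContDiffAt ℝ ((0 + 1 : ℕ) : WithTop ℕ∞) g y := hy.of_le (by norm_cast)
  rw [iteratedFDeriv_succ_eq_Dd h1]
  apply Dd_congr
  filter_upwards with w
  simp

theorem iteratedFDeriv_four_eq_Dd {g : ℝ × ℝ → ℝ} {z : ℝ × ℝ}
    (hg : ContDiffAt ℝ 4 g z) (a b c d : ℝ × ℝ) :
    iteratedFDeriv ℝ 4 g z ![a, b, c, d] = Dd a (Dd b (Dd c (Dd d g))) z := by
  have hg' : ContDiffAt ℝ ((3 + 1 : ℕ) : WithTop ℕ∞) g z := by exact_mod_cast hg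
  rw [iteratedFDeriv_succ_eq_Dd hg']
  apply Dd_congr
  filter_upwards [eventually_contDiffAt hg'] with y hy
  have h1 : ContDiffAt ℝ ((2 + 1 : ℕ) : WithTop ℕ∞) g y := hy.of_le (by norm_cast)
  rw [iteratedFDeriv_succ_eq_Dd h1]
  apply Dd_congr
  filter_upwards [eventually_contDiffAt h1] with w hw
  have h2 : ContDiffAt ℝ 2 g w := hw.of_le (by norm_cast)
  rw [← iteratedFDeriv_two_eq_Dd h2]
  rfl

/-- second slice derivative in the second variable. -/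
theorem iteratedDeriv_two_slice_snd {g : ℝ × ℝ → ℝ} {s t : ℝ}
    (hg : ContDiffAt ℝ 2 g (s, t)) :
    iteratedDeriv 2 (fun t' => g (s, t')) t = Dd (0, 1) (Dd (0, 1) g) (s, t) := by
  have hc : ContinuousAt (fun t' : ℝ => (s, t')) t := by fun_prop
  have hev : ∀ᶠ t' in 𝓝 t, ContDiffAt ℝ 2 g (s, t') :=
    hc.eventually (eventually_contDiffAt (k := 2) (by exact_mod_cast hg))
  have hd : deriv (fun t' => g (s, t')) =ᶠ[𝓝 t] fun t' => Dd (0, 1) g (s, t') := by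
    filter_upwards [hev] with t' ht'
    exact (hasDerivAt_slice_snd (ht'.differentiableAt (by norm_num))).deriv
  rw [iteratedDeriv_succ, iteratedDeriv_one, hd.deriv_eq]
  have h1 : ContDiffAt ℝ ((1 : ℕ) : WithTop ℕ∞) (Dd (0, 1) g) (s, t) :=
    contDiffAt_Dd (by exact_mod_cast hg)
  exact (hasDerivAt_slice_snd (h1.differentiableAt (by norm_num))).deriv

/-- second slice derivative in the first variable. -/
theorem iteratedDeriv_two_slice_fst {g : ℝ × ℝ → ℝ} {s t : ℝ}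
    (hg : ContDiffAt ℝ 2 g (s, t)) :
    iteratedDeriv 2 (fun s' => g (s', t)) s = Dd (1, 0) (Dd (1, 0) g) (s, t) := by
  have hc : ContinuousAt (fun s' : ℝ => (s', t)) s := by fun_prop
  have hev : ∀ᶠ s' in 𝓝 s, ContDiffAt ℝ 2 g (s', t) :=
    hc.eventually (eventually_contDiffAt (k := 2) (by exact_mod_cast hg))
  have hd : deriv (fun s' => g (s', t)) =ᶠ[𝓝 s] fun s' => Dd (1, 0) g (s', t) := by
    filter_upwards [hev] with s' hs'
    exact (hasDerivAt_slice_fst (hs'.differentiableAt (by norm_num))).deriv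
  rw [iteratedDeriv_succ, iteratedDeriv_one, hd.deriv_eq]
  have h1 : ContDiffAt ℝ ((1 : ℕ) : WithTop ℕ∞) (Dd (1, 0) g) (s, t) :=
    contDiffAt_Dd (by exact_mod_cast hg)
  exact (hasDerivAt_slice_fst (h1.differentiableAt (by norm_num))).deriv

/-- the slice function `s ↦ ∂²_t f(s,0)` is `∂_t∂_t f (s,0)` near `0` -/
theorem slice_two_eventuallyEq {f : ℝ × ℝ → ℝ} {s t : ℝ} (hf : ContDiffAt ℝ 2 f (s, t)) :
    (fun s' => iteratedDeriv 2 (fun t' => f (s', t')) t) =ᶠ[𝓝 s]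
      fun s' => Dd (0, 1) (Dd (0, 1) f) (s', t) := by
  have hc : ContinuousAt (fun s' : ℝ => (s', t)) s := by fun_prop
  have hev : ∀ᶠ s' in 𝓝 s, ContDiffAt ℝ 2 f (s', t) :=
    hc.eventually (eventually_contDiffAt (k := 2) (by exact_mod_cast hf))
  filter_upwards [hev] with s' hs'
  exact iteratedDeriv_two_slice_snd hs'

/-- **fourth mixed derivative**: the fourth Fréchet derivative on `ℝ²` in directions
`e_s, e_s, e_t, e_t` is the iterated partial derivative `∂²_s ∂²_t`. -/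
theorem iteratedFDeriv_four_eq {f : ℝ × ℝ → ℝ} {s t : ℝ} (hf : ContDiffAt ℝ 4 f (s, t)) :
    iteratedFDeriv ℝ 4 f (s, t) ![((1 : ℝ), (0 : ℝ)), (1, 0), (0, 1), (0, 1)] =
      iteratedDeriv 2 (fun s' => iteratedDeriv 2 (fun t' => f (s', t')) t) s := by
  rw [iteratedFDeriv_four_eq_Dd hf]
  have h2 : ContDiffAt ℝ 2 f (s, t) := hf.of_le (by norm_num)
  have h3 : ContDiffAt ℝ ((3 : ℕ) : WithTop ℕ∞) (Dd (0, 1) f) (s, t) :=
    contDiffAt_Dd (by exact_mod_cast hf)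
  have h4 : ContDiffAt ℝ ((2 : ℕ) : WithTop ℕ∞) (Dd (0, 1) (Dd (0, 1) f)) (s, t) :=
    contDiffAt_Dd (by exact_mod_cast h3)
  rw [(slice_two_eventuallyEq h2).iteratedDeriv_eq 2,
    iteratedDeriv_two_slice_fst (by exact_mod_cast h4)]

/-- smoothness of the slice function `s ↦ ∂²_t f(s,t)`. -/
theorem contDiffAt_slice_two {f : ℝ × ℝ → ℝ} {s t : ℝ} (hf : ContDiffAt ℝ 4 f (s, t)) :
    ContDiffAt ℝ 2 (fun s' => iteratedDeriv 2 (fun t' => f (s', t')) t) s := by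
  have h2 : ContDiffAt ℝ 2 f (s, t) := hf.of_le (by norm_num)
  have h3 : ContDiffAt ℝ ((3 : ℕ) : WithTop ℕ∞) (Dd (0, 1) f) (s, t) :=
    contDiffAt_Dd (by exact_mod_cast hf)
  have h4 : ContDiffAt ℝ ((2 : ℕ) : WithTop ℕ∞) (Dd (0, 1) (Dd (0, 1) f)) (s, t) :=
    contDiffAt_Dd (by exact_mod_cast h3)
  refine ContDiffAt.congr_of_eventuallyEq ?_ (slice_two_eventuallyEq h2)
  have h5 : ContDiffAt ℝ 2 (fun s' : ℝ => (s', t)) s := by fun_prop
  exact ContDiffAt.comp s (f := fun s' : ℝ => (s', t)) (g := Dd (0, 1) (Dd (0, 1) f))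
    (by exact_mod_cast h4) h5


theorem differentiableAt_deriv_of_contDiffAt_two {f : ℝ → ℝ} {s : ℝ} (hf : ContDiffAt ℝ 2 f s) :
    DifferentiableAt ℝ (deriv f) s := by
  have h1 : ContDiffAt ℝ 1 (fderiv ℝ f) s := hf.fderiv_right (by norm_num)
  have h2 : DifferentiableAt ℝ (fun y => fderiv ℝ f y 1) s :=
    (h1.differentiableAt (by norm_num)).clm_apply (differentiableAt_const _)
  exact h2

/-! ### Smoothness along fibres of the tangent bundle -/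

section
variable {n : ℕ} {M : Type*} [MetricSpace M] [ChartedSpace (EuclideanSpace ℝ (Fin n)) M]
  [IsManifold (𝓡 n) ∞ M]
  [RiemannianBundle (fun p : M => TangentSpace (𝓡 n) p)]

/-- the inclusion of a tangent space in the tangent bundle is smooth -/
theorem contMDiff_fiber (x : M) :
    ContMDiff 𝓘(ℝ, TangentSpace (𝓡 n) x) (𝓡 n).tangent ∞
      (fun w : TangentSpace (𝓡 n) x => (⟨x, w⟩ : TangentBundle (𝓡 n) M)) := by
  intro w
  rw [Bundle.contMDiffAt_totalSpace]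
  refine ⟨contMDiffAt_const, ?_⟩
  have h : (fun w' : TangentSpace (𝓡 n) x =>
      ((trivializationAt (EuclideanSpace ℝ (Fin n)) (TangentSpace (𝓡 n)) x)
        (⟨x, w'⟩ : TangentBundle (𝓡 n) M)).2) =
      fun w' => (trivializationAt (EuclideanSpace ℝ (Fin n)) (TangentSpace (𝓡 n) : M → Type _)
        x).continuousLinearMapAt ℝ x w' := by
    funext w'
    rw [Bundle.Trivialization.continuousLinearMapAt_apply,
      Bundle.Trivialization.coe_linearMapAt_of_mem _ (mem_baseSet_trivializationAt _ _ x)]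
  have h2 := ((trivializationAt (EuclideanSpace ℝ (Fin n)) (TangentSpace (𝓡 n) : M → Type _)
        x).continuousLinearMapAt ℝ x).contDiff (n := ∞)
  rw [contMDiffAt_iff_contDiffAt]
  show ContDiffAt ℝ ∞ (fun w' : TangentSpace (𝓡 n) x =>
      ((trivializationAt (EuclideanSpace ℝ (Fin n)) (TangentSpace (𝓡 n)) x)
        (⟨x, w'⟩ : TangentBundle (𝓡 n) M)).2) w
  rw [h]
  exact h2.contDiffAt


variable (G : GeoData n M)

/-- `exp_x` is smooth. -/
theorem contMDiff_ex (x : M) : ContMDiff 𝓘(ℝ, TangentSpace (𝓡 n) x) (𝓡 n) ∞ (G.ex x) :=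
  G.smooth.comp (contMDiff_fiber x)

/-- the two-parameter function of the MTW form is smooth wherever the cost is -/
theorem contDiffAt_two_param (x : M) (v ξ η : TangentSpace (𝓡 n) x) (s₀ : ℝ)
    (hs : ContMDiffAt ((𝓡 n).prod (𝓡 n)) 𝓘(ℝ) ∞ (fun q : M × M => halfDistSq q.1 q.2)
      (x, G.ex x (v + s₀ • η))) :
    ContDiffAt ℝ ∞ (fun p : ℝ × ℝ => halfDistSq (G.ex x (p.2 • ξ)) (G.ex x (v + p.1 • η)))
      (s₀, 0) := by
  rw [← contMDiffAt_iff_contDiffAt]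
  have h1 : ContMDiffAt 𝓘(ℝ, ℝ × ℝ) 𝓘(ℝ, TangentSpace (𝓡 n) x) ∞
      (fun p : ℝ × ℝ => p.2 • ξ) (s₀, 0) := by
    rw [contMDiffAt_iff_contDiffAt]
    exact contDiffAt_snd.smul contDiffAt_const
  have h2 : ContMDiffAt 𝓘(ℝ, ℝ × ℝ) 𝓘(ℝ, TangentSpace (𝓡 n) x) ∞
      (fun p : ℝ × ℝ => v + p.1 • η) (s₀, 0) := by
    rw [contMDiffAt_iff_contDiffAt]
    exact contDiffAt_const.add (contDiffAt_fst.smul contDiffAt_const)
  have h3 := ((contMDiff_ex G x).contMDiffAt (x := (((s₀, (0:ℝ)) : ℝ × ℝ).2 • ξ))).comp (s₀, 0) h1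
  have h4 := ((contMDiff_ex G x).contMDiffAt
    (x := v + ((s₀, (0:ℝ)) : ℝ × ℝ).1 • η)).comp (s₀, 0) h2
  have h5 := h3.prodMk h4
  have h6 : ((G.ex x ∘ fun p : ℝ × ℝ => p.2 • ξ) (s₀, 0),
      (G.ex x ∘ fun p : ℝ × ℝ => v + p.1 • η) (s₀, 0)) = (x, G.ex x (v + s₀ • η)) := by
    simp [G.ex_zero]
  have h7 : ContMDiffAt ((𝓡 n).prod (𝓡 n)) 𝓘(ℝ) ∞ (fun q : M × M => halfDistSq q.1 q.2)
      ((G.ex x ∘ fun p : ℝ × ℝ => p.2 • ξ) (s₀, 0),
      (G.ex x ∘ fun p : ℝ × ℝ => v + p.1 • η) (s₀, 0)) := by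
    rw [h6]; exact hs
  exact ContMDiffAt.comp (s₀, (0 : ℝ)) h7 h5

theorem phi_slice_eq (x : M) (v ξ η : TangentSpace (𝓡 n) x) :
    (fun s => G.phi x ξ (v + s • η)) = fun s : ℝ => iteratedDeriv 2
      (fun t : ℝ => (fun p : ℝ × ℝ => halfDistSq (G.ex x (p.2 • ξ)) (G.ex x (v + p.1 • η)))
        (s, t)) 0 := rfl

/-- smoothness of `s ↦ φ_ξ(v + s η)` -/
theorem contDiffAt_phi_slice (x : M) (v ξ η : TangentSpace (𝓡 n) x) (s₀ : ℝ)
    (hs : ContMDiffAt ((𝓡 n).prod (𝓡 n)) 𝓘(ℝ) ∞ (fun q : M × M => halfDistSq q.1 q.2)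
      (x, G.ex x (v + s₀ • η))) :
    ContDiffAt ℝ 2 (fun s : ℝ => G.phi x ξ (v + s • η)) s₀ := by
  have h := contDiffAt_two_param G x v ξ η s₀ hs
  have h4 : ContDiffAt ℝ 4 (fun p : ℝ × ℝ =>
      halfDistSq (G.ex x (p.2 • ξ)) (G.ex x (v + p.1 • η))) (s₀, 0) := contDiffAt_infty.1 h 4
  have h5 := contDiffAt_slice_two h4
  rw [phi_slice_eq]
  exact h5

/-- the MTW form is `-(3/2)` times the second derivative of `φ_ξ` in direction `η` -/
theorem mtwForm_eq (x : M) (v ξ η : TangentSpace (𝓡 n) x)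
    (hs : ContMDiffAt ((𝓡 n).prod (𝓡 n)) 𝓘(ℝ) ∞ (fun q : M × M => halfDistSq q.1 q.2)
      (x, G.ex x v)) :
    mtwForm n x (G.ex x) v ξ η =
      -(3 / 2) * iteratedDeriv 2 (fun s : ℝ => G.phi x ξ (v + s • η)) 0 := by
  have hs' : ContMDiffAt ((𝓡 n).prod (𝓡 n)) 𝓘(ℝ) ∞ (fun q : M × M => halfDistSq q.1 q.2)
      (x, G.ex x (v + (0 : ℝ) • η)) := by simpa using hs
  have h := contDiffAt_two_param G x v ξ η 0 hs'
  have h4 : ContDiffAt ℝ 4 (fun p : ℝ × ℝ =>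
      halfDistSq (G.ex x (p.2 • ξ)) (G.ex x (v + p.1 • η))) (0, 0) := contDiffAt_infty.1 h 4
  unfold mtwForm
  rw [iteratedFDeriv_four_eq h4]
  rfl

theorem iteratedDeriv_phi_slice_nonpos (hM : SatisfiesWeakMTW M n)
    (hexp : ∀ x, IsExpMapAt n x (G.ex x)) (x : M) (v ξ η : TangentSpace (𝓡 n) x) (s₀ : ℝ)
    (hv : v + s₀ • η ∈ injDomain n x) (hξ : inner ℝ ξ η = 0)
    (hs : ContMDiffAt ((𝓡 n).prod (𝓡 n)) 𝓘(ℝ) ∞ (fun q : M × M => halfDistSq q.1 q.2)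
      (x, G.ex x (v + s₀ • η))) :
    iteratedDeriv 2 (fun s : ℝ => G.phi x ξ (v + s • η)) s₀ ≤ 0 := by
  have h1 := hM x (G.ex x) (hexp x) (v + s₀ • η) hv ξ η hξ
  rw [mtwForm_eq G x _ ξ η hs] at h1
  have h2 : (fun s : ℝ => G.phi x ξ (v + s₀ • η + s • η)) =
      fun s : ℝ => (fun s : ℝ => G.phi x ξ (v + s • η)) (s₀ + s) := by
    funext s
    simp only [add_smul, add_assoc]
  have h3 : iteratedDeriv 2 (fun s : ℝ => G.phi x ξ (v + s₀ • η + s • η)) 0 =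
      iteratedDeriv 2 (fun s : ℝ => G.phi x ξ (v + s • η)) s₀ := by
    rw [h2, congrFun (iteratedDeriv_comp_const_add 2
      (fun s : ℝ => G.phi x ξ (v + s • η)) s₀) 0, add_zero]
  rw [h3] at h1
  linarith

/-- **MTW ⟹ concavity of `φ_ξ` along segments orthogonal to `ξ`** (exact field
`MTWFacts.concave`). -/
theorem concave_of_mtw (hM : SatisfiesWeakMTW M n) (hexp : ∀ x, IsExpMapAt n x (G.ex x))
    (hI : ∀ x, G.I x ⊆ injDomain n x)
    (hs : ∀ x, ∀ v ∈ G.I x, ContMDiffAt ((𝓡 n).prod (𝓡 n)) 𝓘(ℝ) ∞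
      (fun q : M × M => halfDistSq q.1 q.2) (x, G.ex x v)) :
    ∀ x, ∀ p q ξ : TangentSpace (𝓡 n) x, segment ℝ p q ⊆ G.I x → inner ℝ (q - p) ξ = 0 →
    ∀ t : ℝ, 0 ≤ t → t ≤ 1 →
    (1 - t) * G.phi x ξ p + t * G.phi x ξ q ≤ G.phi x ξ ((1 - t) • p + t • q) := by
  intro x p q ξ hseg hin t ht0 ht1
  have hmem : ∀ s ∈ Icc (0 : ℝ) 1, p + s • (q - p) ∈ G.I x := by
    intro s hs
    apply hseg
    rw [segment_eq_image']
    exact ⟨s, hs, rfl⟩
  have hin' : inner ℝ ξ (q - p) = 0 := by rw [real_inner_comm]; exact hin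
  have hcd : ∀ s ∈ Icc (0 : ℝ) 1,
      ContDiffAt ℝ 2 (fun s : ℝ => G.phi x ξ (p + s • (q - p))) s := fun s hsI =>
    contDiffAt_phi_slice G x p ξ (q - p) s (hs x _ (hmem s hsI))
  have hconc : ConcaveOn ℝ (Icc (0 : ℝ) 1) (fun s : ℝ => G.phi x ξ (p + s • (q - p))) := by
    apply concaveOn_of_deriv2_nonpos' (convex_Icc 0 1)
    · intro s hsI
      exact ((hcd s hsI).differentiableAt (by norm_num)).differentiableWithinAt
    · intro s hsI
      exact (differentiableAt_deriv_of_contDiffAt_two (hcd s hsI)).differentiableWithinAt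
    · intro s hsI
      have h1 := iteratedDeriv_phi_slice_nonpos G hM hexp x p ξ (q - p) s
        (hI x (hmem s hsI)) hin' (hs x _ (hmem s hsI))
      rwa [iteratedDeriv_eq_iterate] at h1
  have h := hconc.2 (left_mem_Icc.2 zero_le_one) (right_mem_Icc.2 zero_le_one)
    (sub_nonneg.2 ht1) ht0 (by ring)
  have e1 : p + ((1 - t) • (0 : ℝ) + t • (1 : ℝ)) • (q - p) = (1 - t) • p + t • q := by
    simp only [smul_eq_mul, mul_zero, mul_one, zero_add, sub_smul, one_smul, smul_sub]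
    abel
  simp only [e1] at h
  simpa using h

end

end Crest.Agent.R226.MTWConc117
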