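/-
R226 Layer D interface (sub-lead helper267): exact statements of the leaves of Layer D.
`DFacts G` = outputs of D0, D1, D2.  `StepH/I/J/K G` = outputs of D3, D4, D5, D6+D7.
Everything is to be proved from `CutFacts G`, `MTWFacts G` (and the compactness of `M`).
-/
import Crest.Agent.R226.CutFacts_484

set_option autoImplicit false

open MeasureTheory Bundle Set Filter
open scoped Manifold ContDiff Bundle ENNReal Topology
open Crest.GeometryTopology.MTW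

namespace Crest.Agent.R226

variable {n : ℕ} {M : Type*} [MetricSpace M] [ChartedSpace (EuclideanSpace ℝ (Fin n)) M]
  [IsManifold (𝓡 n) ∞ M]
  [RiemannianBundle (fun p : M => TangentSpace (𝓡 n) p)]

/-- reversal on `TM`: `(x, v) ↦ (exp_x v, - γ̇_v(1))`. -/
noncomputable def GeoData.revT (G : GeoData n M) (p : TangentBundle (𝓡 n) M) :
    TangentBundle (𝓡 n) M :=
  ⟨G.ex p.1 ((1 : ℝ) • p.2), -(G.vel p.1 p.2 1)⟩

/-- the potential `s u` (the same lambda as in `GeoData.Good`). -/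
abbrev scal (s : ℝ) (u : M → ℝ) : M → ℝ := fun z => s * u z

/-- Elementary facts of Layer D (no MTW): outputs of D0, D1, D2. -/
structure DFacts (G : GeoData n M) : Prop where
  /-- a uniform Lipschitz constant for `c`-convex functions -/
  lip : ∃ L : ℝ, 0 < L ∧ ∀ u : M → ℝ, CConv u → ∀ x x', |u x - u x'| ≤ L * dist x x'
  cont : ∀ u : M → ℝ, CConv u → Continuous u
  /-- `s u` is `c`-convex -/
  cconv_smul : ∀ u : M → ℝ, CConv u → ∀ s : ℝ, 0 ≤ s → s ≤ 1 → CConv (scal s u)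
  cconv_ctr : ∀ u : M → ℝ, Continuous u → CConv (ctr u)
  P_nonempty : ∀ u : M → ℝ, CConv u → ∀ x, (G.P u x).Nonempty
  /-- L-D -/
  P_smul : ∀ (u : M → ℝ) (x : M), ∀ w ∈ G.P u x, ∀ t : ℝ, 0 ≤ t → t ≤ 1 →
    t • w ∈ G.P (scal t u) x
  isCompact_PT : ∀ u : M → ℝ, Continuous u →
    IsCompact {p : TangentBundle (𝓡 n) M | p.2 ∈ G.P u p.1}
  isCompact_HT : ∀ u : M → ℝ, Continuous u →
    IsCompact {p : TangentBundle (𝓡 n) M | p.2 ∈ G.H u p.1}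
  isCompact_P : ∀ u : M → ℝ, Continuous u → ∀ x, IsCompact (G.P u x)
  isCompact_H : ∀ u : M → ℝ, Continuous u → ∀ x, IsCompact (G.H u x)
  /-- reversal -/
  revT_mem : ∀ p : TangentBundle (𝓡 n) M, p.2 ∈ G.K p.1 → (G.revT p).2 ∈ G.K (G.revT p).1
  revT_fst : ∀ p : TangentBundle (𝓡 n) M, (G.revT p).1 = G.ex p.1 p.2
  revT_revT : ∀ p : TangentBundle (𝓡 n) M, p.2 ∈ G.K p.1 → G.revT (G.revT p) = p
  revT_ex : ∀ p : TangentBundle (𝓡 n) M, ∀ t : ℝ,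
    G.ex (G.revT p).1 (t • (G.revT p).2) = G.ex p.1 ((1 - t) • p.2)
  /-- duality: `q ∈ P_{u^c}(y)` iff `q ∈ K(y)` and `exp_y q` is in the contact set -/
  mem_P_ctr : ∀ u : M → ℝ, CConv u → ∀ (y : M) (q : TangentSpace (𝓡 n) y),
    q ∈ G.P (ctr u) y ↔ q ∈ G.K y ∧ G.ex y q ∈ Cset u y
  /-- duality through reversal -/
  P_rev : ∀ u : M → ℝ, CConv u → ∀ p : TangentBundle (𝓡 n) M, p.2 ∈ G.P u p.1 →
    (G.revT p).2 ∈ G.P (ctr u) (G.revT p).1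
  /-- `Good` is closed, downward closed, and holds for small `s` -/
  good_mono : ∀ u : M → ℝ, ∀ s t : ℝ, 0 ≤ t → t ≤ s → G.Good u s → G.Good u t
  good_closed : ∀ u : M → ℝ, Continuous u → IsClosed {s : ℝ | G.Good u s}
  good_small : ∃ s₀ : ℝ, 0 < s₀ ∧ ∀ u : M → ℝ, CConv u → ∀ s : ℝ, 0 ≤ s → s ≤ s₀ → G.Good u s
  /-- L-A (Danskin), in the form: any strict upper bound of `⟪·, ξ⟫` on `P_u(x)` bounds the
  difference quotients from above for small `t > 0` -/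
  danskin : ∀ u : M → ℝ, CConv u → ∀ (x : M) (ξ : TangentSpace (𝓡 n) x) (m : ℝ),
    (∀ w ∈ G.P u x, inner ℝ w ξ < m) →
    ∀ᶠ t : ℝ in 𝓝[>] 0, u (G.ex x (t • ξ)) < u x + m * t
  /-- L-B -/
  LB : ∃ C₁ : ℝ, 0 < C₁ ∧ ∀ u : M → ℝ, ∀ x : M, ∀ p ∈ G.H u x, ∀ ξ : TangentSpace (𝓡 n) x,
    u x + inner ℝ p ξ - C₁ * ‖ξ‖ ^ 2 ≤ u (G.ex x ξ)
  /-- L-C -/
  LC : ∀ u : M → ℝ, CConv u → ∀ s : ℝ, 0 ≤ s → ∀ T : ℝ, 0 < T → ∀ x y : M,
    (∀ x', s * u x + halfDistSq x y / T ≤ s * u x' + halfDistSq x' y / T) →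
    ∀ v ∈ G.K x, G.ex x v = y → ∃ p ∈ G.H u x, (1 / T) • v = s • p
  /-- L-E -/
  LE : ∃ ε₀ : ℝ, 0 < ε₀ ∧ ∀ u : M → ℝ, CConv u → ∀ ε : ℝ, 0 < ε → ε ≤ ε₀ →
    ∀ p q : TangentBundle (𝓡 n) M, p.2 ∈ G.H u p.1 → q.2 ∈ G.H u q.1 →
    G.ex p.1 (ε • p.2) = G.ex q.1 (ε • q.2) → p = q

/-- Output of D3 (H): `P_φ(y)` is convex, `φ = (s u)^c`. -/
def StepH (G : GeoData n M) : Prop :=
  ∀ u : M → ℝ, CConv u → ∀ s : ℝ, 0 < s → s < 1 → G.Good u s →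
    ∀ y, Convex ℝ (G.P (ctr (scal s u)) y)

/-- Output of D4 (I), given (H): `P_φ(y)` is a singleton. -/
def StepI (G : GeoData n M) : Prop :=
  ∀ u : M → ℝ, CConv u → ∀ s : ℝ, 0 < s → s < 1 → G.Good u s →
    (∀ y, Convex ℝ (G.P (ctr (scal s u)) y)) →
    ∀ y, (G.P (ctr (scal s u)) y).Subsingleton

/-- Output of D5 (J), given (I): `s H_u(x) ⊆ I(x)`. -/
def StepJ (G : GeoData n M) : Prop :=
  ∀ u : M → ℝ, CConv u → ∀ s : ℝ, 0 < s → s < 1 → G.Good u s →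
    (∀ y, (G.P (ctr (scal s u)) y).Subsingleton) →
    ∀ x, ∀ p ∈ G.H u x, s • p ∈ G.I x

/-- Output of D6 (K, first half): uniform local support property slightly beyond `s`. -/
def StepK1 (G : GeoData n M) : Prop :=
  ∀ u : M → ℝ, CConv u → ∀ s : ℝ, 0 < s → s < 1 → G.Good u s →
    (∀ x, ∀ p ∈ G.H u x, s • p ∈ G.I x) →
    ∃ δ r : ℝ, 0 < δ ∧ 0 < r ∧ ∀ s' : ℝ, s ≤ s' → s' ≤ s + δ → ∀ x, ∀ p ∈ G.H u x,
      s' • p ∈ G.I x ∧ ∀ x', dist x x' < r →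
        s' * u x + halfDistSq x (G.ex x (s' • p)) ≤ s' * u x' + halfDistSq x' (G.ex x (s' • p))

/-- Output of D7 (K): openness. -/
def StepK (G : GeoData n M) : Prop :=
  ∀ u : M → ℝ, CConv u → ∀ s : ℝ, 0 < s → s < 1 → G.Good u s →
    (∀ y, (G.P (ctr (scal s u)) y).Subsingleton) →
    (∀ x, ∀ p ∈ G.H u x, s • p ∈ G.I x) →
    ∃ δ : ℝ, 0 < δ ∧ ∀ s' : ℝ, s ≤ s' → s' ≤ s + δ → G.Good u s'

end Crest.Agent.R226
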