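/-
R226 Layer D, final assembly (helper267): S0349 from the leaves of Layer D.
-/
import Crest.Agent.R226.DDefs_267

set_option autoImplicit false

open MeasureTheory Bundle Set Filter
open scoped Manifold ContDiff Bundle ENNReal Topology
open Crest.GeometryTopology.MTW

namespace Crest.Agent.R226.Final267

open Crest.Agent.R226

variable {n : ℕ} {M : Type*} [MetricSpace M] [ChartedSpace (EuclideanSpace ℝ (Fin n)) M]
  [IsManifold (𝓡 n) ∞ M]
  [RiemannianBundle (fun p : M => TangentSpace (𝓡 n) p)]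

/-- continuity argument: a closed, downward closed property of `s ∈ [0,1]`, true for small `s` and
open to the right at every `s ∈ (0,1)` holds at `1`. -/
theorem good_one_of_open {A : Set ℝ} (hcl : IsClosed A) (h0 : ∃ s₀ : ℝ, 0 < s₀ ∧ s₀ ∈ A)
    (hop : ∀ s, 0 < s → s < 1 → s ∈ A → ∃ δ : ℝ, 0 < δ ∧ ∀ s', s ≤ s' → s' ≤ s + δ → s' ∈ A)
    (hmono : ∀ s t : ℝ, 0 ≤ t → t ≤ s → s ∈ A → t ∈ A) : (1 : ℝ) ∈ A := by
  by_contra h1
  obtain ⟨s₀, hs₀, hs₀A⟩ := h0
  set B : Set ℝ := A ∩ Icc 0 1 with hB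
  have hBne : B.Nonempty := by
    refine ⟨min s₀ 1, hmono s₀ _ (le_min hs₀.le zero_le_one) (min_le_left _ _) hs₀A, ?_⟩
    exact ⟨le_min hs₀.le zero_le_one, min_le_right _ _⟩
  have hBc : IsCompact B := isCompact_Icc.inter_left hcl
  obtain ⟨s, hsB, hsmax⟩ := hBc.exists_isMaxOn hBne continuousOn_id
  have hspos : 0 < s := by
    have : min s₀ 1 ≤ s := hsmax (show min s₀ 1 ∈ B from
      ⟨hmono s₀ _ (le_min hs₀.le zero_le_one) (min_le_left _ _) hs₀A,
        ⟨le_min hs₀.le zero_le_one, min_le_right _ _⟩⟩)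
    exact lt_of_lt_of_le (lt_min hs₀ one_pos) this
  have hs1 : s < 1 := by
    rcases lt_or_eq_of_le hsB.2.2 with h | h
    · exact h
    · exact absurd (h ▸ hsB.1) h1
  obtain ⟨δ, hδ, hδA⟩ := hop s hspos hs1 hsB.1
  have h2 : min (s + δ) 1 ∈ B := by
    refine ⟨hδA _ (le_min (by linarith) hs1.le) (min_le_left _ _), ?_, min_le_right _ _⟩
    exact le_min (by linarith) zero_le_one
  have h3 : min (s + δ) 1 ≤ s := hsmax h2
  have h4 : s < min (s + δ) 1 := lt_min (by linarith) hs1
  linarith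

/-- **Good(1)** for every `c`-convex function, from the leaves of Layer D. -/
theorem good_one {G : GeoData n M} (hD : DFacts G) (hH : StepH G) (hI : StepI G) (hJ : StepJ G)
    (hK : StepK G) (u : M → ℝ) (hu : CConv u) : G.Good u 1 := by
  refine good_one_of_open (A := {s : ℝ | G.Good u s}) (hD.good_closed u (hD.cont u hu)) ?_ ?_ ?_
  · obtain ⟨s₀, hs₀, h⟩ := hD.good_small
    exact ⟨s₀, hs₀, h u hu s₀ hs₀.le le_rfl⟩
  · intro s hs hs1 hg
    have h1 := hI u hu s hs hs1 hg (hH u hu s hs hs1 hg)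
    exact hK u hu s hs hs1 hg h1 (hJ u hu s hs hs1 hg h1)
  · intro s t ht hts hs
    exact hD.good_mono u s t ht hts hs

/-- `P_u(x)` is convex for every `c`-convex `u`. -/
theorem H_subset_P {G : GeoData n M} {u : M → ℝ} (hg : G.Good u 1) (x : M) :
    G.H u x ⊆ G.P u x := by
  intro w hw
  have h := hg x w hw
  simpa using h

theorem convex_P {G : GeoData n M} {u : M → ℝ} (hg : G.Good u 1) (x : M) :
    Convex ℝ (G.P u x) := by
  have : G.P u x = G.H u x := Subset.antisymm (subset_convexHull ℝ _) (H_subset_P hg x)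
  rw [this]
  exact convex_convexHull ℝ _

lemma halfDistSq_ex {G : GeoData n M} {x : M} {v : TangentSpace (𝓡 n) x} (hv : v ∈ G.K x) :
    halfDistSq x (G.ex x v) = ‖v‖ ^ 2 / 2 := by
  unfold halfDistSq
  rw [show dist x (G.ex x v) = ‖v‖ from hv]

/-- the maximum of two mountains with the same value at `x` is `c`-convex and has both
feet in `P_u(x)`. -/
theorem two_mountains {G : GeoData n M} {x : M} {v w : TangentSpace (𝓡 n) x} (hv : v ∈ G.K x)
    (hw : w ∈ G.K x) : ∃ u : M → ℝ, CConv u ∧ v ∈ G.P u x ∧ w ∈ G.P u x := by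
  refine ⟨fun z => max (halfDistSq x (G.ex x v) - halfDistSq z (G.ex x v))
    (halfDistSq x (G.ex x w) - halfDistSq z (G.ex x w)), ?_, ?_, ?_⟩
  · intro z
    rcases le_total (halfDistSq x (G.ex x v) - halfDistSq z (G.ex x v))
      (halfDistSq x (G.ex x w) - halfDistSq z (G.ex x w)) with h | h
    · refine ⟨G.ex x w, fun z' => ?_⟩
      show max _ _ + _ ≤ max _ _ + _
      rw [max_eq_right h]
      have := le_max_right (halfDistSq x (G.ex x v) - halfDistSq z' (G.ex x v))
        (halfDistSq x (G.ex x w) - halfDistSq z' (G.ex x w))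
      linarith
    · refine ⟨G.ex x v, fun z' => ?_⟩
      show max _ _ + _ ≤ max _ _ + _
      rw [max_eq_left h]
      have := le_max_left (halfDistSq x (G.ex x v) - halfDistSq z' (G.ex x v))
        (halfDistSq x (G.ex x w) - halfDistSq z' (G.ex x w))
      linarith
  · refine ⟨hv, fun z' => ?_⟩
    show max _ _ + _ ≤ max _ _ + _
    rw [sub_self, sub_self, max_self]
    have := le_max_left (halfDistSq x (G.ex x v) - halfDistSq z' (G.ex x v))
        (halfDistSq x (G.ex x w) - halfDistSq z' (G.ex x w))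
    linarith
  · refine ⟨hw, fun z' => ?_⟩
    show max _ _ + _ ≤ max _ _ + _
    rw [sub_self, sub_self, max_self]
    have := le_max_right (halfDistSq x (G.ex x v) - halfDistSq z' (G.ex x v))
        (halfDistSq x (G.ex x w) - halfDistSq z' (G.ex x w))
    linarith

/-- convexity of `K(x)`. -/
theorem convex_K {G : GeoData n M} (hg : ∀ u : M → ℝ, CConv u → G.Good u 1) (x : M) :
    Convex ℝ (G.K x) := by
  intro v hv w hw a b ha hb hab
  obtain ⟨u, hu, hv', hw'⟩ := two_mountains hv hw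
  exact (convex_P (hg u hu) x hv' hw' ha hb hab).1

/-- convexity of `I(x)`. -/
theorem convex_I {G : GeoData n M} (hC : CutFacts G)
    (hg : ∀ u : M → ℝ, CConv u → G.Good u 1) (x : M) : Convex ℝ (G.I x) := by
  rintro v ⟨a₁, ha₁, hv⟩ w ⟨a₂, ha₂, hw⟩ a b ha hb hab
  set c : ℝ := min a₁ a₂ with hc
  have hc1 : 1 < c := lt_min ha₁ ha₂
  have hstar : ∀ (z : TangentSpace (𝓡 n) x) (d : ℝ), c ≤ d → d • z ∈ G.K x → c • z ∈ G.K x := by
    intro z d hcd hz
    have hd : 0 < d := by linarith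
    have h1 := hC.star x _ hz (c / d) (by positivity) ((div_le_one hd).2 hcd)
    rw [smul_smul, div_mul_cancel₀ _ hd.ne'] at h1
    exact h1
  refine ⟨c, hc1, ?_⟩
  have h2 := convex_K hg x (hstar v a₁ (min_le_left _ _) hv) (hstar w a₂ (min_le_right _ _) hw)
    ha hb hab
  rw [smul_add, smul_comm c a, smul_comm c b]
  exact h2

theorem I_eq {G : GeoData n M} (x : M) : G.I x = injDomain n x := by
  rw [G.injDomain_eq x]
  ext v
  constructor
  · rintro ⟨a, ha, hv⟩
    refine ⟨a, ha, ?_⟩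
    rw [show dist x (G.ex x (a • v)) = ‖a • v‖ from hv, norm_smul, Real.norm_eq_abs,
      abs_of_pos (by linarith)]
  · rintro ⟨a, ha, hv⟩
    refine ⟨a, ha, ?_⟩
    show dist x (G.ex x (a • v)) = ‖a • v‖
    rw [hv, norm_smul, Real.norm_eq_abs, abs_of_pos (by linarith)]

/-- **S0349** from the leaves of Layer D. -/
theorem convex_injDomain {G : GeoData n M} (hC : CutFacts G) (hD : DFacts G) (hH : StepH G)
    (hI : StepI G) (hJ : StepJ G) (hK : StepK G) (x : M) : Convex ℝ (injDomain n x) := by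
  rw [← I_eq (G := G) x]
  exact convex_I hC (good_one hD hH hI hJ hK) x

end Crest.Agent.R226.Final267
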