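/-
R226 Layer D (helper272): scaling facts for `P`, `H`, `Good` (the `Good_*` half of D0).
Everything here uses only `GeoData` (no `CutFacts`).
-/
import Crest.Agent.R226.Defs_484

set_option autoImplicit false
set_option linter.unusedSectionVars false

open MeasureTheory Bundle Set Filter
open scoped Manifold ContDiff Bundle ENNReal Topology
open Crest.GeometryTopology.MTW

namespace Crest.Agent.R226.Good272

open Crest.Agent.R226

variable {n : ℕ} {M : Type*} [MetricSpace M] [ChartedSpace (EuclideanSpace ℝ (Fin n)) M]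
  [IsManifold (𝓡 n) ∞ M]
  [RiemannianBundle (fun p : M => TangentSpace (𝓡 n) p)]

variable (G : GeoData n M)

/-- radial curves are Lipschitz, hence continuous. -/
theorem continuous_radial (x : M) (v : TangentSpace (𝓡 n) x) :
    Continuous (fun t : ℝ => G.ex x (t • v)) := by
  have h : LipschitzWith ⟨‖v‖, norm_nonneg v⟩ (fun t : ℝ => G.ex x (t • v)) := by
    refine LipschitzWith.of_dist_le_mul fun s t => ?_
    have := G.dist_le x v s t
    rw [Real.dist_eq]
    calc dist (G.ex x (s • v)) (G.ex x (t • v)) ≤ |s - t| * ‖v‖ := this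
      _ = ‖v‖ * |s - t| := mul_comm _ _
  exact h.continuous

theorem zero_mem_K (x : M) : (0 : TangentSpace (𝓡 n) x) ∈ G.K x := by
  show dist x (G.ex x 0) = ‖(0 : TangentSpace (𝓡 n) x)‖
  rw [G.ex_zero, dist_self, norm_zero]

/-- distances along a minimising geodesic -/
theorem dist_smul_of_mem_K {x : M} {v : TangentSpace (𝓡 n) x} (hv : v ∈ G.K x) {t : ℝ}
    (h0 : 0 ≤ t) (h1 : t ≤ 1) :
    dist x (G.ex x (t • v)) = t * ‖v‖ ∧ dist (G.ex x (t • v)) (G.ex x v) = (1 - t) * ‖v‖ := by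
  have hv' : dist x (G.ex x v) = ‖v‖ := hv
  have a1 := G.dist_le x v 0 t
  have a2 := G.dist_le x v t 1
  rw [zero_smul, G.ex_zero] at a1
  rw [one_smul] at a2
  have e1 : |0 - t| = t := by rw [zero_sub, abs_neg, abs_of_nonneg h0]
  have e2 : |t - 1| = 1 - t := by rw [abs_sub_comm, abs_of_nonneg (by linarith)]
  rw [e1] at a1
  rw [e2] at a2
  have a3 := dist_triangle x (G.ex x (t • v)) (G.ex x v)
  rw [hv'] at a3
  constructor
  · refine le_antisymm a1 ?_
    nlinarith
  · refine le_antisymm a2 ?_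
    nlinarith

theorem smul_mem_K {x : M} {v : TangentSpace (𝓡 n) x} (hv : v ∈ G.K x) {t : ℝ}
    (h0 : 0 ≤ t) (h1 : t ≤ 1) : t • v ∈ G.K x := by
  show dist x (G.ex x (t • v)) = ‖t • v‖
  rw [(dist_smul_of_mem_K G hv h0 h1).1, norm_smul, Real.norm_eq_abs, abs_of_nonneg h0]

/-- `c(x,z) ≤ c(x,y)/t + c(y,z)/(1-t)` -/
theorem halfDistSq_le_div {X : Type*} [MetricSpace X] (x y z : X) {t : ℝ} (h0 : 0 < t)
    (h1 : t < 1) : halfDistSq x z ≤ halfDistSq x y / t + halfDistSq y z / (1 - t) := by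
  unfold halfDistSq
  have h3 := dist_triangle x y z
  have ha : (0:ℝ) ≤ dist x y := dist_nonneg
  have hb : (0:ℝ) ≤ dist y z := dist_nonneg
  have hc : (0:ℝ) ≤ dist x z := dist_nonneg
  set a := dist x y
  set b := dist y z
  set c := dist x z
  have h1' : 0 < 1 - t := by linarith
  have key : c ^ 2 ≤ a ^ 2 / t + b ^ 2 / (1 - t) := by
    have h4 : c ^ 2 ≤ (a + b) ^ 2 := by
      exact pow_le_pow_left₀ hc h3 2
    have h5 : (a + b) ^ 2 ≤ a ^ 2 / t + b ^ 2 / (1 - t) := by
      rw [div_add_div _ _ h0.ne' h1'.ne', le_div_iff₀ (mul_pos h0 h1')]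
      nlinarith [sq_nonneg ((1 - t) * a - t * b)]
    exact h4.trans h5
  calc c ^ 2 / 2 ≤ (a ^ 2 / t + b ^ 2 / (1 - t)) / 2 := by gcongr
    _ = a ^ 2 / 2 / t + b ^ 2 / 2 / (1 - t) := by ring

theorem halfDistSq_self {X : Type*} [MetricSpace X] (x : X) : halfDistSq x x = 0 := by
  unfold halfDistSq; rw [dist_self]; norm_num

theorem halfDistSq_nonneg {X : Type*} [MetricSpace X] (x y : X) : 0 ≤ halfDistSq x y := by
  unfold halfDistSq; positivity

/-- support vectors scale: `w ∈ P_u(x)`, `t ∈ [0,1]` imply `t w ∈ P_{tu}(x)`. -/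
theorem smul_mem_P {u : M → ℝ} {x : M} {w : TangentSpace (𝓡 n) x} (hw : w ∈ G.P u x) {t : ℝ}
    (h0 : 0 ≤ t) (h1 : t ≤ 1) : t • w ∈ G.P (fun z => t * u z) x := by
  obtain ⟨hK, hs⟩ := hw
  refine ⟨smul_mem_K G hK h0 h1, fun x' => ?_⟩
  show t * u x + halfDistSq x (G.ex x (t • w)) ≤ t * u x' + halfDistSq x' (G.ex x (t • w))
  rcases h0.eq_or_lt with rfl | h0'
  · rw [zero_smul, G.ex_zero, halfDistSq_self]
    have := halfDistSq_nonneg x' x
    linarith
  rcases h1.eq_or_lt with rfl | h1'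
  · rw [one_smul, one_mul, one_mul]
    exact hs x'
  obtain ⟨d1, d2⟩ := dist_smul_of_mem_K G hK h0 h1
  have hK' : dist x (G.ex x w) = ‖w‖ := hK
  have a1 := hs x'
  have a2 := halfDistSq_le_div x' (G.ex x (t • w)) (G.ex x w) h0' h1'
  have e1 : halfDistSq x (G.ex x w) = ‖w‖ ^ 2 / 2 := by unfold halfDistSq; rw [hK']
  have e2 : halfDistSq x (G.ex x (t • w)) = t ^ 2 * ‖w‖ ^ 2 / 2 := by
    unfold halfDistSq; rw [d1]; ring
  have e3 : halfDistSq (G.ex x (t • w)) (G.ex x w) / (1 - t) = (1 - t) * ‖w‖ ^ 2 / 2 := by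
    unfold halfDistSq; rw [d2]
    have : (1 - t) ≠ 0 := by linarith
    field_simp
  rw [e1] at a1
  rw [e3] at a2
  rw [e2]
  have a3 : u x + t * ‖w‖ ^ 2 / 2 ≤ u x' + halfDistSq x' (G.ex x (t • w)) / t := by linarith
  have a4 := mul_le_mul_of_nonneg_left a3 h0
  have a5 : t * (u x' + halfDistSq x' (G.ex x (t • w)) / t) =
      t * u x' + halfDistSq x' (G.ex x (t • w)) := by
    field_simp
  rw [a5] at a4
  nlinarith

/-- a `c`-convex function has a support vector at every point. -/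
theorem P_nonempty {u : M → ℝ} (hu : CConv u) (x : M) : (G.P u x).Nonempty := by
  obtain ⟨y, hy⟩ := hu x
  obtain ⟨v, hv, hn⟩ := G.surj x y
  refine ⟨v, ?_, ?_⟩
  · show dist x (G.ex x v) = ‖v‖
    rw [hv, hn]
  · intro x'
    rw [hv]; exact hy x'

theorem H_nonempty {u : M → ℝ} (hu : CConv u) (x : M) : (G.H u x).Nonempty :=
  (P_nonempty G hu x).mono (subset_convexHull ℝ _)

theorem P_subset_H (u : M → ℝ) (x : M) : G.P u x ⊆ G.H u x := subset_convexHull ℝ _

include G in
/-- `t u` is `c`-convex for `t ∈ [0,1]`. -/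
theorem CConv_smul {u : M → ℝ} (hu : CConv u) {t : ℝ} (h0 : 0 ≤ t) (h1 : t ≤ 1) :
    CConv (fun z => t * u z) := by
  intro x
  obtain ⟨w, hw⟩ := P_nonempty G hu x
  exact ⟨G.ex x (t • w), (smul_mem_P G hw h0 h1).2⟩

theorem Good_zero (u : M → ℝ) : G.Good u 0 := by
  intro x w _
  rw [zero_smul]
  refine ⟨zero_mem_K G x, fun x' => ?_⟩
  show 0 * u x + halfDistSq x (G.ex x 0) ≤ 0 * u x' + halfDistSq x' (G.ex x 0)
  rw [G.ex_zero, halfDistSq_self]
  have := halfDistSq_nonneg x' x
  linarith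

/-- downward closedness. -/
theorem Good_mono {u : M → ℝ} {s s' : ℝ} (hs : G.Good u s) (h0 : 0 ≤ s') (h1 : s' ≤ s) :
    G.Good u s' := by
  rcases h0.eq_or_lt with rfl | h0'
  · exact Good_zero G u
  have hs0 : 0 < s := h0'.trans_le h1
  intro x w hw
  have h2 := smul_mem_P G (hs x w hw) (t := s' / s) (by positivity) ((div_le_one hs0).2 h1)
  have e1 : (s' / s) • s • w = s' • w := by
    rw [smul_smul, div_mul_cancel₀ _ hs0.ne']
  have e2 : (fun z => s' / s * (s * u z)) = fun z => s' * u z := by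
    funext z
    rw [← mul_assoc, div_mul_cancel₀ _ hs0.ne']
  rw [e1] at h2
  have e3 : G.P (fun z => s' / s * (fun z => s * u z) z) x = G.P (fun z => s' * u z) x := by
    show G.P (fun z => s' / s * (s * u z)) x = G.P (fun z => s' * u z) x
    rw [e2]
  rw [e3] at h2
  exact h2

/-- `{s | Good u s}` is closed. -/
theorem isClosed_Good (u : M → ℝ) : IsClosed {s : ℝ | G.Good u s} := by
  have hset : {s : ℝ | G.Good u s} =
      ⋂ (x : M) (w : TangentSpace (𝓡 n) x) (_ : w ∈ G.H u x) (x' : M),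
        ({s : ℝ | dist x (G.ex x (s • w)) = ‖s • w‖} ∩
          {s : ℝ | s * u x + halfDistSq x (G.ex x (s • w)) ≤
            s * u x' + halfDistSq x' (G.ex x (s • w))}) := by
    ext s
    simp only [mem_iInter, mem_inter_iff, mem_ofPred_eq]
    constructor
    · intro h x w hw x'
      exact ⟨(h x w hw).1, (h x w hw).2 x'⟩
    · intro h x w hw
      exact ⟨(h x w hw x).1, fun x' => (h x w hw x').2⟩
  rw [hset]
  refine isClosed_iInter fun x => isClosed_iInter fun w => isClosed_iInter fun _ =>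
    isClosed_iInter fun x' => ?_
  have hc := continuous_radial G x w
  refine IsClosed.inter (isClosed_eq (by fun_prop) ?_) (isClosed_le ?_ ?_)
  · have : (fun s : ℝ => ‖s • w‖) = fun s : ℝ => |s| * ‖w‖ := by
      funext s; rw [norm_smul, Real.norm_eq_abs]
    rw [this]
    fun_prop
  · unfold halfDistSq; fun_prop
  · unfold halfDistSq; fun_prop

theorem Good_of_tendsto {u : M → ℝ} {s : ℝ} {a : ℕ → ℝ} (ha : Tendsto a atTop (𝓝 s))
    (h : ∀ k, G.Good u (a k)) : G.Good u s :=
  (isClosed_Good G u).mem_of_tendsto ha (Eventually.of_forall h)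

/-- if `Good u s'` for all `0 ≤ s' < s` then `Good u s` -/
theorem Good_of_lt {u : M → ℝ} {s : ℝ} (hs : 0 < s) (h : ∀ s', 0 ≤ s' → s' < s → G.Good u s') :
    G.Good u s := by
  have h1 : Tendsto (fun k : ℕ => s * (1 - 1 / ((k : ℝ) + 1))) atTop (𝓝 s) := by
    have : Tendsto (fun k : ℕ => s * (1 - 1 / ((k : ℝ) + 1))) atTop (𝓝 (s * (1 - 0))) :=
      (tendsto_const_nhds.sub tendsto_one_div_add_atTop_nhds_zero_nat).const_mul s
    simpa using this
  refine Good_of_tendsto G h1 fun k => h _ ?_ ?_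
  · have : 1 / ((k : ℝ) + 1) ≤ 1 := by
      rw [div_le_one (by positivity)]
      have : (0:ℝ) ≤ k := Nat.cast_nonneg k
      linarith
    have : 0 ≤ 1 - 1 / ((k : ℝ) + 1) := by linarith
    positivity
  · have : 0 < 1 / ((k : ℝ) + 1) := by positivity
    nlinarith

/-- `Good u 1` says exactly that `P_u(x)` is convex for every `x`. -/
theorem Good_one_iff (u : M → ℝ) : G.Good u 1 ↔ ∀ x, Convex ℝ (G.P u x) := by
  constructor
  · intro h x
    have h2 : G.H u x ⊆ G.P u x := by
      intro w hw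
      have := h x w hw
      rw [one_smul] at this
      have e : (fun z => 1 * u z) = u := by funext z; rw [one_mul]
      rw [e] at this
      exact this
    have h3 : G.P u x = G.H u x := Subset.antisymm (P_subset_H G u x) h2
    rw [h3]
    exact convex_convexHull ℝ _
  · intro h x w hw
    have h3 : G.H u x = G.P u x := (h x).convexHull_eq
    rw [h3] at hw
    rw [one_smul]
    have e : (fun z => 1 * u z) = u := by funext z; rw [one_mul]
    rw [e]
    exact hw

end Crest.Agent.R226.Good272
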