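/-
R226 Layer F (helper624): Kantorovich potentials, Monge-optimal maps and the Alexandrov pinching,
in an abstract compact metric space with a finite Borel measure `vol`.
-/
import Crest.Agent.R226.Defs_484
import Crest.Agent.R242.KantBase

set_option autoImplicit false
set_option linter.unusedSectionVars false

open MeasureTheory Set Filter Topology
open scoped ENNReal NNReal
open Crest.GeometryTopology.MTW

namespace Crest.Agent.R226.Kant624

section Metric

variable {M : Type*} [MetricSpace M]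

/-- the `c`-subdifferential of `u` at `x`. -/
def cSub (u : M → ℝ) (x : M) : Set M :=
  {y | ∀ x', u x + halfDistSq x y ≤ u x' + halfDistSq x' y}

lemma halfDistSq_comm (x y : M) : halfDistSq x y = halfDistSq y x := by
  unfold halfDistSq; rw [dist_comm]

lemma halfDistSq_nonneg (x y : M) : 0 ≤ halfDistSq x y := by
  unfold halfDistSq; positivity

lemma continuous_halfDistSq : Continuous (fun p : M × M => halfDistSq p.1 p.2) := by
  unfold halfDistSq; fun_prop

lemma CConv_iff (u : M → ℝ) : CConv u ↔ ∀ x, (cSub u x).Nonempty := Iff.rfl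

lemma mem_Cset_iff (u : M → ℝ) (x y : M) : x ∈ Cset u y ↔ y ∈ cSub u x := Iff.rfl

section Compact

variable [CompactSpace M]

lemma halfDistSq_lip (x x' y : M) :
    halfDistSq x y - halfDistSq x' y ≤ Metric.diam (univ : Set M) * dist x x' := by
  unfold halfDistSq
  have hb : Bornology.IsBounded (univ : Set M) := isCompact_univ.isBounded
  have h1 : dist x y ≤ Metric.diam (univ : Set M) :=
    Metric.dist_le_diam_of_mem hb (mem_univ _) (mem_univ _)
  have h2 : dist x' y ≤ Metric.diam (univ : Set M) :=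
    Metric.dist_le_diam_of_mem hb (mem_univ _) (mem_univ _)
  have h3 : dist x y - dist x' y ≤ dist x x' := by
    have := dist_triangle x x' y
    linarith
  have h4 : (0:ℝ) ≤ dist x y := dist_nonneg
  have h5 : (0:ℝ) ≤ dist x' y := dist_nonneg
  have h6 : (0:ℝ) ≤ dist x x' := dist_nonneg
  nlinarith [mul_le_mul_of_nonneg_right h3 (add_nonneg h4 h5),
    mul_le_mul_of_nonneg_left (add_le_add h1 h2) h6]

/-- a `c`-convex function is Lipschitz. -/
lemma CConv.abs_sub_le {u : M → ℝ} (hu : CConv u) (x x' : M) :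
    |u x - u x'| ≤ Metric.diam (univ : Set M) * dist x x' := by
  rw [abs_le]
  constructor
  · obtain ⟨y, hy⟩ := hu x'
    have h1 := hy x
    have h2 := halfDistSq_lip x x' y
    linarith
  · obtain ⟨y, hy⟩ := hu x
    have h1 := hy x'
    have h2 := halfDistSq_lip x' x y
    rw [dist_comm] at h2
    linarith

lemma CConv.lipschitz {u : M → ℝ} (hu : CConv u) :
    LipschitzWith ⟨Metric.diam (univ : Set M), Metric.diam_nonneg⟩ u := by
  refine LipschitzWith.of_dist_le_mul fun x x' => ?_
  rw [Real.dist_eq]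
  exact CConv.abs_sub_le hu x x'

lemma CConv.continuous {u : M → ℝ} (hu : CConv u) : Continuous u :=
  (CConv.lipschitz hu).continuous

lemma exists_ctr {u : M → ℝ} (hu : Continuous u) (y : M) :
    ∃ x, ctr u y = -u x - halfDistSq x y ∧ ∀ x', -u x' - halfDistSq x' y ≤ -u x - halfDistSq x y := by
  have hc : Continuous (fun x => -u x - halfDistSq x y) := by
    unfold halfDistSq; fun_prop
  obtain ⟨x, -, hx⟩ := isCompact_univ.exists_isMaxOn ⟨y, mem_univ y⟩ hc.continuousOn
  have hx' : ∀ x', -u x' - halfDistSq x' y ≤ -u x - halfDistSq x y := fun x' => hx (mem_univ x')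
  refine ⟨x, ?_, hx'⟩
  unfold ctr
  have : Nonempty M := ⟨y⟩
  refine le_antisymm (ciSup_le hx') ?_
  exact le_ciSup (f := fun x => -u x - halfDistSq x y) ⟨_, by rintro _ ⟨z, rfl⟩; exact hx' z⟩ x

lemma le_ctr {u : M → ℝ} (hu : Continuous u) (x y : M) :
    -u x - halfDistSq x y ≤ ctr u y := by
  obtain ⟨z, hz, hz'⟩ := exists_ctr hu y
  rw [hz]; exact hz' x

lemma mem_cSub_iff {u : M → ℝ} (hu : Continuous u) (x y : M) :
    y ∈ cSub u x ↔ u x + ctr u y + halfDistSq x y = 0 := by
  constructor
  · intro h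
    obtain ⟨z, hz, hz'⟩ := exists_ctr hu y
    have h1 := h z
    have h2 := hz' x
    rw [hz]
    linarith
  · intro h x'
    have := le_ctr hu x' y
    linarith

/-- the `c`-transform of a continuous function is `c`-convex. -/
lemma CConv_ctr {u : M → ℝ} (hu : Continuous u) : CConv (ctr u) := by
  intro y
  obtain ⟨x, hx, -⟩ := exists_ctr hu y
  refine ⟨x, fun y' => ?_⟩
  rw [hx, halfDistSq_comm y x, halfDistSq_comm y' x]
  have := le_ctr hu x y'
  linarith

lemma continuous_ctr {u : M → ℝ} (hu : Continuous u) : Continuous (ctr u) :=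
  CConv.continuous (CConv_ctr hu)

lemma mem_cSub_ctr_iff {u : M → ℝ} (hu : CConv u) (x y : M) :
    x ∈ cSub (ctr u) y ↔ y ∈ cSub u x := by
  have huc := CConv.continuous hu
  constructor
  · intro h
    obtain ⟨y', hy'⟩ := hu x
    have h1 := (mem_cSub_iff huc x y').1 hy'
    have h2 := h y'
    have h3 := le_ctr huc x y
    rw [mem_cSub_iff huc]
    rw [halfDistSq_comm y x, halfDistSq_comm y' x] at h2
    linarith
  · intro h y'
    have h1 := (mem_cSub_iff huc x y).1 h
    have h3 := le_ctr huc x y'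
    rw [halfDistSq_comm y x, halfDistSq_comm y' x]
    linarith

/-- the double `c`-transform of a `c`-convex function. -/
lemma ctr_ctr {u : M → ℝ} (hu : CConv u) : ctr (ctr u) = u := by
  funext x
  have huc := CConv.continuous hu
  have hvc := continuous_ctr huc
  obtain ⟨y, hy⟩ := hu x
  have h1 : x ∈ cSub (ctr u) y := (mem_cSub_ctr_iff hu x y).2 hy
  have h2 := (mem_cSub_iff hvc y x).1 h1
  have h3 := (mem_cSub_iff huc x y).1 hy
  rw [halfDistSq_comm y x] at h2
  linarith

/-- the contact set is closed. -/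
lemma isClosed_contact {u : M → ℝ} (hu : Continuous u) :
    IsClosed {p : M × M | p.2 ∈ cSub u p.1} := by
  have : {p : M × M | p.2 ∈ cSub u p.1} =
      {p : M × M | u p.1 + ctr u p.2 + halfDistSq p.1 p.2 = 0} := by
    ext p
    exact mem_cSub_iff hu p.1 p.2
  rw [this]
  have hv := continuous_ctr hu
  refine isClosed_eq ?_ continuous_const
  have := continuous_halfDistSq (M := M)
  fun_prop

lemma isClosed_cSub {u : M → ℝ} (hu : Continuous u) (x : M) : IsClosed (cSub u x) := by
  have := (isClosed_contact hu).preimage (Continuous.prodMk_right (X := M) (Y := M) x)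
  exact this

end Compact

end Metric

section Meas

variable {M : Type*} [MetricSpace M] [CompactSpace M] [MeasurableSpace M] [BorelSpace M]

/-- **Kantorovich**: there are a `c`-convex potential and a coupling concentrated on its contact
set. -/
theorem exists_plan (μ ν : Measure M) [IsProbabilityMeasure μ] [IsProbabilityMeasure ν] :
    ∃ (u : M → ℝ) (q : Measure (M × M)), CConv u ∧ IsProbabilityMeasure q ∧
      q.map Prod.fst = μ ∧ q.map Prod.snd = ν ∧ ∀ᵐ p ∂q, p.2 ∈ cSub u p.1 := by
  obtain ⟨φ, ψ, hφc, hψc, -, -, hle, -, hopt, q, hq⟩ :=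
    Crest.Agent.R242.kantorovich_potentials (isCompact_univ (X := M)) μ ν (by simp) (by simp)
  have hnψ : Continuous (fun y => -ψ y) := hψc.neg
  refine ⟨ctr (fun y => -ψ y), q, CConv_ctr hnψ, Crest.Agent.R242.coupling_isProb hq.1,
    hq.1.1, hq.1.2, ?_⟩
  filter_upwards [(hopt q hq).1] with p hp
  intro x'
  obtain ⟨z, hz, -⟩ := exists_ctr hnψ p.1
  have h1 := hle p.1 z (mem_univ z)
  have h2 := le_ctr hnψ p.2 x'
  rw [hz]
  rw [halfDistSq_comm z p.1, halfDistSq_comm x' p.2]
  rw [neg_neg] at h2 ⊢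
  have h3 : halfDistSq p.1 p.2 = φ p.1 + ψ p.2 := hp.symm
  have h4 : φ p.1 + ψ z ≤ halfDistSq p.1 z := h1
  rw [h3]
  linarith

/-- measurable a.e. selection of the `c`-subdifferential. -/
theorem exists_selection (vol : Measure M) {u : M → ℝ} (hu : CConv u)
    (h : ∀ᵐ x ∂vol, (cSub u x).Subsingleton) :
    ∃ S : M → M, Measurable S ∧ ∀ᵐ x ∂vol, cSub u x = {S x} := by
  classical
  rcases isEmpty_or_nonempty M with hM | ⟨⟨x₀⟩⟩
  · exact ⟨id, measurable_id, Eventually.of_forall fun x => (hM.false x).elim⟩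
  have huc := CConv.continuous hu
  choose S₀ hS₀ using hu
  set N : Set M := toMeasurable vol {x | ¬ (cSub u x).Subsingleton} with hN
  have hNm : MeasurableSet N := measurableSet_toMeasurable _ _
  have hNv : vol N = 0 := by
    rw [hN, measure_toMeasurable]
    exact h
  have hsub : ∀ x, x ∉ N → (cSub u x).Subsingleton := by
    intro x hx
    by_contra hcon
    exact hx (subset_toMeasurable _ _ hcon)
  refine ⟨fun x => if x ∈ N then x₀ else S₀ x, ?_, ?_⟩
  · refine measurable_of_isClosed fun F hF => ?_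
    have h1 : (fun x => if x ∈ N then x₀ else S₀ x) ⁻¹' F =
        (N ∩ {_x | x₀ ∈ F}) ∪ (Nᶜ ∩ (Prod.fst '' ({p : M × M | p.2 ∈ cSub u p.1} ∩
          Prod.snd ⁻¹' F))) := by
      ext x
      by_cases hx : x ∈ N
      · simp [hx]
      · simp only [mem_preimage, hx, if_false, mem_union, mem_inter_iff, false_and,
          mem_compl_iff, not_false_eq_true, true_and, mem_image, mem_ofPred_eq, Prod.exists,
          exists_and_right, exists_eq_right, false_or]
        constructor
        · intro hxF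
          exact ⟨S₀ x, hS₀ x, hxF⟩
        · rintro ⟨y, hy1, hy2⟩
          have := hsub x hx (hS₀ x) hy1
          rw [this]
          exact hy2
    rw [h1]
    refine (hNm.inter (MeasurableSet.const _)).union (hNm.compl.inter ?_)
    have h2 : IsCompact ({p : M × M | p.2 ∈ cSub u p.1} ∩ Prod.snd ⁻¹' F) :=
      ((isClosed_contact huc).inter (hF.preimage continuous_snd)).isCompact
    exact (h2.image continuous_fst).measurableSet
  · have : ∀ᵐ x ∂vol, x ∉ N := by
      rw [ae_iff]
      simpa using hNv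
    filter_upwards [this] with x hx
    simp only [hx, if_false]
    refine Subset.antisymm ?_ ?_
    · intro y hy
      exact hsub x hx hy (hS₀ x)
    · rintro y rfl
      exact hS₀ x

/-- the Alexandrov pinching of a `c`-convex function (both inequalities for every Borel set). -/
def AlexPinch (vol : Measure M) (u : M → ℝ) (m : ℝ) : Prop :=
  ∀ B : Set M, MeasurableSet B →
    ENNReal.ofReal m * vol B ≤ vol (⋃ x ∈ B, cSub u x) ∧
    ENNReal.ofReal m * vol (⋃ x ∈ B, cSub u x) ≤ vol B

section Plan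

variable {vol μ ν : Measure M} {u : M → ℝ} {q : Measure (M × M)}

lemma plan_map {S : M → M} (hS : Measurable S) (hμ : μ ≪ vol)
    (hSu : ∀ᵐ x ∂vol, cSub u x = {S x}) (hq1 : q.map Prod.fst = μ) (hq2 : q.map Prod.snd = ν)
    (hq : ∀ᵐ p ∂q, p.2 ∈ cSub u p.1) : μ.map S = ν := by
  have h1 : ∀ᵐ x ∂μ, cSub u x = {S x} := hμ.ae_le hSu
  have h2 : ∀ᵐ p ∂q, cSub u p.1 = {S p.1} := by
    rw [← hq1] at h1
    exact ae_of_ae_map measurable_fst.aemeasurable h1
  have h3 : (Prod.snd : M × M → M) =ᵐ[q] S ∘ Prod.fst := by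
    filter_upwards [h2, hq] with p hp1 hp2
    rw [hp1] at hp2
    exact hp2
  rw [← hq2, ← hq1, Measure.map_map hS measurable_fst]
  exact (Measure.map_congr h3).symm

end Plan

/-- the structure of optimal transport between two absolutely continuous probability measures:
potential, forward map, backward map. -/
theorem exists_transport (vol μ ν : Measure M) [IsProbabilityMeasure μ] [IsProbabilityMeasure ν]
    (hμ : μ ≪ vol) (hν : ν ≪ vol)
    (hF3 : ∀ u : M → ℝ, CConv u → ∀ᵐ x ∂vol, (cSub u x).Subsingleton) :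
    ∃ (u : M → ℝ) (S R : M → M), CConv u ∧ Measurable S ∧ Measurable R ∧
      (∀ᵐ x ∂vol, cSub u x = {S x}) ∧ (∀ᵐ y ∂vol, cSub (ctr u) y = {R y}) ∧
      μ.map S = ν ∧ ν.map R = μ := by
  obtain ⟨u, q, hu, hqp, hq1, hq2, hq⟩ := exists_plan μ ν
  have hv : CConv (ctr u) := CConv_ctr (CConv.continuous hu)
  obtain ⟨S, hS, hS'⟩ := exists_selection vol hu (hF3 u hu)
  obtain ⟨R, hR, hR'⟩ := exists_selection vol hv (hF3 _ hv)
  refine ⟨u, S, R, hu, hS, hR, hS', hR', plan_map hS hμ hS' hq1 hq2 hq, ?_⟩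
  set q' : Measure (M × M) := q.map Prod.swap with hq'
  refine plan_map (q := q') (u := ctr u) hR hν hR' ?_ ?_ ?_
  · rw [hq', Measure.map_map measurable_fst measurable_swap]
    exact hq2
  · rw [hq', Measure.map_map measurable_snd measurable_swap]
    exact hq1
  · have hm : MeasurableSet {p : M × M | p.2 ∈ cSub (ctr u) p.1} :=
      (isClosed_contact (continuous_ctr (CConv.continuous hu))).measurableSet
    rw [hq', ae_map_iff measurable_swap.aemeasurable hm]
    filter_upwards [hq] with p hp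
    exact (mem_cSub_ctr_iff hu p.1 p.2).2 hp

/-- **Monge-optimal maps are `c`-subgradients of the Kantorovich potential a.e.** -/
theorem monge_mem (vol μ ν : Measure M) [IsProbabilityMeasure μ] [IsProbabilityMeasure ν]
    (hμ : μ ≪ vol) {u : M → ℝ} (hu : CConv u) {S : M → M} (hS : Measurable S)
    (hSu : ∀ᵐ x ∂vol, cSub u x = {S x}) (hmap : μ.map S = ν) {T : M → M}
    (hT : IsMongeOptimal μ ν T) : ∀ᵐ x ∂μ, T x ∈ cSub u x := by
  obtain ⟨hTm, hTmap, hTopt⟩ := hT
  have huc := CConv.continuous hu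
  have hvc := continuous_ctr huc
  have hcc := continuous_halfDistSq (M := M)
  have h1 := hTopt S hS hmap
  -- bounded measurable functions are integrable
  have hint : ∀ {f : M → ℝ}, Continuous f → ∀ {A : M → M}, Measurable A →
      Integrable (fun x => f (A x)) μ := by
    intro f hf A hA
    obtain ⟨C, hC⟩ := (isCompact_range hf).isBounded.exists_norm_le
    refine Integrable.of_bound (hf.measurable.comp hA).aestronglyMeasurable C ?_
    exact Eventually.of_forall fun x => hC _ (mem_range_self _)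
  have hintc : ∀ {A : M → M}, Measurable A → Integrable (fun x => halfDistSq x (A x)) μ := by
    intro A hA
    obtain ⟨C, hC⟩ := (isCompact_range hcc).isBounded.exists_norm_le
    refine Integrable.of_bound
      (hcc.measurable.comp (measurable_id.prodMk hA)).aestronglyMeasurable C ?_
    exact Eventually.of_forall fun x => hC _ (mem_range_self (x, A x))
  rw [← ofReal_integral_eq_lintegral_ofReal (hintc hTm)
    (Eventually.of_forall fun x => halfDistSq_nonneg _ _),
    ← ofReal_integral_eq_lintegral_ofReal (hintc hS)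
    (Eventually.of_forall fun x => halfDistSq_nonneg _ _)] at h1
  have h2 : ∫ x, halfDistSq x (T x) ∂μ ≤ ∫ x, halfDistSq x (S x) ∂μ :=
    (ENNReal.ofReal_le_ofReal_iff (integral_nonneg fun x => halfDistSq_nonneg _ _)).1 h1
  have hS0 : ∫ x, (u x + ctr u (S x) + halfDistSq x (S x)) ∂μ = 0 := by
    have : (fun x => u x + ctr u (S x) + halfDistSq x (S x)) =ᵐ[μ] fun _ => 0 := by
      filter_upwards [hμ.ae_le hSu] with x hx
      have : S x ∈ cSub u x := by rw [hx]; rfl
      exact (mem_cSub_iff huc x (S x)).1 this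
    rw [integral_congr_ae this]
    simp
  have hintu : Integrable u μ := hint huc measurable_id
  have hsplit : ∀ {A : M → M}, Measurable A →
      ∫ x, (u x + ctr u (A x) + halfDistSq x (A x)) ∂μ =
        ∫ x, u x ∂μ + ∫ x, ctr u (A x) ∂μ + ∫ x, halfDistSq x (A x) ∂μ := by
    intro A hA
    have hI : Integrable (fun x => u x + ctr u (A x)) μ := hintu.add (hint hvc hA)
    rw [integral_add hI (hintc hA), integral_add hintu (hint hvc hA)]
  have hvS : ∫ x, ctr u (S x) ∂μ = ∫ y, ctr u y ∂ν := by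
    rw [← hmap, integral_map hS.aemeasurable hvc.aestronglyMeasurable]
  have hvT : ∫ x, ctr u (T x) ∂μ = ∫ y, ctr u y ∂ν := by
    rw [← hTmap, integral_map hTm.aemeasurable hvc.aestronglyMeasurable]
  rw [hsplit hS, hvS] at hS0
  have hnn : 0 ≤ᵐ[μ] fun x => u x + ctr u (T x) + halfDistSq x (T x) := by
    refine Eventually.of_forall fun x => ?_
    have := le_ctr huc x (T x)
    simp only [Pi.zero_apply]
    linarith
  have hle : ∫ x, (u x + ctr u (T x) + halfDistSq x (T x)) ∂μ ≤ 0 := by
    rw [hsplit hTm, hvT]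
    linarith
  have heq : ∫ x, (u x + ctr u (T x) + halfDistSq x (T x)) ∂μ = 0 :=
    le_antisymm hle (integral_nonneg_of_ae hnn)
  have := (integral_eq_zero_iff_of_nonneg_ae hnn
    ((hintu.add (hint hvc hTm)).add (hintc hTm))).1 heq
  filter_upwards [this] with x hx
  exact (mem_cSub_iff huc x (T x)).2 hx

/-- pushforward bounds: `μ B ≤ ν(∂u(B)) ≤ μ B`. -/
theorem alex_eq {vol μ ν : Measure M} (hμ : μ ≪ vol) (hν : ν ≪ vol)
    {u : M → ℝ} (hu : CConv u) {S R : M → M} (hS : Measurable S) (hR : Measurable R)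
    (hSu : ∀ᵐ x ∂vol, cSub u x = {S x}) (hRu : ∀ᵐ y ∂vol, cSub (ctr u) y = {R y})
    (hmap : μ.map S = ν) (hmap' : ν.map R = μ) {B : Set M} (hB : MeasurableSet B) :
    ν (⋃ x ∈ B, cSub u x) = μ B := by
  refine le_antisymm ?_ ?_
  · rw [← hmap', Measure.map_apply hR hB]
    refine measure_mono_ae ?_
    filter_upwards [hν.ae_le hRu] with y hy hyA
    obtain ⟨x, hx, hxy⟩ := mem_iUnion₂.1 hyA
    have h1 : x ∈ cSub (ctr u) y := (mem_cSub_ctr_iff hu x y).2 hxy
    rw [hy] at h1
    have h2 : x = R y := h1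
    show R y ∈ B
    rw [← h2]
    exact hx
  · rw [← measure_toMeasurable (μ := ν) (⋃ x ∈ B, cSub u x)]
    conv_rhs => rw [← hmap]
    rw [Measure.map_apply hS (measurableSet_toMeasurable _ _)]
    refine measure_mono_ae ?_
    filter_upwards [hμ.ae_le hSu] with x hx hxB
    refine subset_toMeasurable _ _ ?_
    refine mem_iUnion₂.2 ⟨x, hxB, ?_⟩
    rw [hx]
    rfl

/-- pinched densities give the Alexandrov pinching. -/
theorem alexPinch_of {vol μ ν : Measure M} (hμ : μ ≪ vol) (hν : ν ≪ vol)
    {u : M → ℝ} (hu : CConv u) {S R : M → M} (hS : Measurable S) (hR : Measurable R)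
    (hSu : ∀ᵐ x ∂vol, cSub u x = {S x}) (hRu : ∀ᵐ y ∂vol, cSub (ctr u) y = {R y})
    (hmap : μ.map S = ν) (hmap' : ν.map R = μ) {lam Lam : ℝ} (hlam : 0 < lam) (hle : lam ≤ Lam)
    (h1 : ENNReal.ofReal lam • vol ≤ μ) (h2 : μ ≤ ENNReal.ofReal Lam • vol)
    (h3 : ENNReal.ofReal lam • vol ≤ ν) (h4 : ν ≤ ENNReal.ofReal Lam • vol) :
    AlexPinch vol u (lam / Lam) := by
  have hLam : 0 < Lam := hlam.trans_le hle
  have key : ∀ a b : ℝ≥0∞, ENNReal.ofReal lam * a ≤ ENNReal.ofReal Lam * b →
      ENNReal.ofReal (lam / Lam) * a ≤ b := by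
    intro a b hab
    rw [ENNReal.ofReal_div_of_pos hLam]
    have hL0 : ENNReal.ofReal Lam ≠ 0 := by simpa using hLam
    have hLt : ENNReal.ofReal Lam ≠ ∞ := ENNReal.ofReal_ne_top
    rw [div_eq_mul_inv, mul_right_comm, ← div_eq_mul_inv]
    exact ENNReal.div_le_of_le_mul' hab
  intro B hB
  have heq := alex_eq hμ hν hu hS hR hSu hRu hmap hmap' hB
  constructor
  · refine key _ _ ?_
    calc ENNReal.ofReal lam * vol B ≤ μ B := h1 B
      _ = ν (⋃ x ∈ B, cSub u x) := heq.symm
      _ ≤ ENNReal.ofReal Lam * vol (⋃ x ∈ B, cSub u x) := h4 _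
  · refine key _ _ ?_
    calc ENNReal.ofReal lam * vol (⋃ x ∈ B, cSub u x) ≤ ν (⋃ x ∈ B, cSub u x) := h3 _
      _ = μ B := heq
      _ ≤ ENNReal.ofReal Lam * vol B := h2 _

end Meas

end Crest.Agent.R226.Kant624
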