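/-
R226 / E1.1 (helper290): DASM, convex sections, local => global, from `Good(1)`.

Everything here is deduced from `GoodAll G : ∀ u, CConv u → G.Good u 1` (output of Layer D), plus, for
"local minimum => global contact", from `CutFacts G` and `DFacts G` (only semiconcavity, Danskin and
compactness of `H_u(x)` are used).
-/
import Crest.Agent.R226.Final_267
import Crest.Agent.R226.Good_272
import Crest.Agent.R226.Kant_624

set_option autoImplicit false
set_option linter.unusedSectionVars false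

open MeasureTheory Bundle Set Filter
open scoped Manifold ContDiff Bundle ENNReal Topology
open Crest.GeometryTopology.MTW

namespace Crest.Agent.R226.Dasm290

open Crest.Agent.R226 Crest.Agent.R226.Kant624

variable {n : ℕ} {M : Type*} [MetricSpace M] [ChartedSpace (EuclideanSpace ℝ (Fin n)) M]
  [IsManifold (𝓡 n) ∞ M]
  [RiemannianBundle (fun p : M => TangentSpace (𝓡 n) p)]

/-- `Good(1)` for all `c`-convex functions (output of Layer D). -/
def GoodAll (G : GeoData n M) : Prop := ∀ u : M → ℝ, CConv u → G.Good u 1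

section Basic

variable {G : GeoData n M}

lemma halfDistSq_ex' {x : M} {v : TangentSpace (𝓡 n) x} (hv : v ∈ G.K x) :
    halfDistSq (G.ex x v) x = ‖v‖ ^ 2 / 2 := by
  rw [halfDistSq_comm, Final267.halfDistSq_ex hv]

lemma convex_K (hg : GoodAll G) (x : M) : Convex ℝ (G.K x) := Final267.convex_K hg x

lemma convex_P (hg : GoodAll G) {u : M → ℝ} (hu : CConv u) (x : M) : Convex ℝ (G.P u x) :=
  Final267.convex_P (hg u hu) x

lemma P_eq_H (hg : GoodAll G) {u : M → ℝ} (hu : CConv u) (x : M) : G.P u x = G.H u x :=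
  Subset.antisymm (subset_convexHull ℝ _) (Final267.H_subset_P (hg u hu) x)

/-- `p ∈ P_u(x)` iff `p ∈ K(x)` and `exp_x p` is a `c`-subgradient. -/
lemma mem_P_iff {u : M → ℝ} {x : M} {p : TangentSpace (𝓡 n) x} :
    p ∈ G.P u x ↔ p ∈ G.K x ∧ G.ex x p ∈ cSub u x := Iff.rfl

/-- every `c`-subgradient is the endpoint of a vector of `P_u(x)`. -/
lemma exists_mem_P {u : M → ℝ} {x y : M} (hy : y ∈ cSub u x) :
    ∃ p ∈ G.P u x, G.ex x p = y := by
  obtain ⟨v, hv, hn⟩ := G.surj x y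
  refine ⟨v, ⟨?_, ?_⟩, hv⟩
  · show dist x (G.ex x v) = ‖v‖
    rw [hv, hn]
  · rw [hv]; exact hy

lemma exists_mem_K (G : GeoData n M) (x y : M) : ∃ p ∈ G.K x, G.ex x p = y := by
  obtain ⟨v, hv, hn⟩ := G.surj x y
  refine ⟨v, ?_, hv⟩
  show dist x (G.ex x v) = ‖v‖
  rw [hv, hn]

/-- **DASM** (Loeper's maximum principle, global): for `p, q ∈ K(x)` and any `x'`, the function
`w ↦ |w|²/2 - c(x', exp_x w)` is quasiconvex along `[p,q]`. -/
theorem quasi (hg : GoodAll G) {x : M} {p q : TangentSpace (𝓡 n) x} (hp : p ∈ G.K x)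
    (hq : q ∈ G.K x) {a b : ℝ} (ha : 0 ≤ a) (hb : 0 ≤ b) (hab : a + b = 1) (x' : M) :
    ‖a • p + b • q‖ ^ 2 / 2 - halfDistSq x' (G.ex x (a • p + b • q)) ≤
      max (‖p‖ ^ 2 / 2 - halfDistSq x' (G.ex x p)) (‖q‖ ^ 2 / 2 - halfDistSq x' (G.ex x q)) := by
  have hpe := Final267.halfDistSq_ex hp
  have hqe := Final267.halfDistSq_ex hq
  set u : M → ℝ := fun z => max (halfDistSq x (G.ex x p) - halfDistSq z (G.ex x p))
    (halfDistSq x (G.ex x q) - halfDistSq z (G.ex x q)) with hudef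
  have hux : u x = 0 := by simp [hudef]
  have hu : CConv u := by
    intro z
    rcases le_total (halfDistSq x (G.ex x p) - halfDistSq z (G.ex x p))
      (halfDistSq x (G.ex x q) - halfDistSq z (G.ex x q)) with h | h
    · refine ⟨G.ex x q, fun z' => ?_⟩
      show max _ _ + _ ≤ max _ _ + _
      rw [max_eq_right h]
      have := le_max_right (halfDistSq x (G.ex x p) - halfDistSq z' (G.ex x p))
        (halfDistSq x (G.ex x q) - halfDistSq z' (G.ex x q))
      linarith
    · refine ⟨G.ex x p, fun z' => ?_⟩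
      show max _ _ + _ ≤ max _ _ + _
      rw [max_eq_left h]
      have := le_max_left (halfDistSq x (G.ex x p) - halfDistSq z' (G.ex x p))
        (halfDistSq x (G.ex x q) - halfDistSq z' (G.ex x q))
      linarith
  have hpP : p ∈ G.P u x := by
    refine ⟨hp, fun z' => ?_⟩
    rw [hux]
    have := le_max_left (halfDistSq x (G.ex x p) - halfDistSq z' (G.ex x p))
        (halfDistSq x (G.ex x q) - halfDistSq z' (G.ex x q))
    show 0 + _ ≤ max _ _ + _
    linarith
  have hqP : q ∈ G.P u x := by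
    refine ⟨hq, fun z' => ?_⟩
    rw [hux]
    have := le_max_right (halfDistSq x (G.ex x p) - halfDistSq z' (G.ex x p))
        (halfDistSq x (G.ex x q) - halfDistSq z' (G.ex x q))
    show 0 + _ ≤ max _ _ + _
    linarith
  have hw := convex_P hg hu x hpP hqP ha hb hab
  have h1 := hw.2 x'
  rw [hux, zero_add, Final267.halfDistSq_ex hw.1] at h1
  have h2 : u x' = max (‖p‖ ^ 2 / 2 - halfDistSq x' (G.ex x p))
      (‖q‖ ^ 2 / 2 - halfDistSq x' (G.ex x q)) := by
    simp only [hudef]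
    rw [hpe, hqe]
  rw [← h2]
  linarith

/-- general form: for a `c`-convex potential `U`, `q ↦ U(exp_y q) + |q|²/2` is quasiconvex on
`K(y)`. -/
theorem quasi_pot (hg : GoodAll G) {U : M → ℝ} (hU : CConv U) {y : M}
    {p q : TangentSpace (𝓡 n) y} (hp : p ∈ G.K y) (hq : q ∈ G.K y) {a b : ℝ} (ha : 0 ≤ a)
    (hb : 0 ≤ b) (hab : a + b = 1) :
    U (G.ex y (a • p + b • q)) + ‖a • p + b • q‖ ^ 2 / 2 ≤
      max (U (G.ex y p) + ‖p‖ ^ 2 / 2) (U (G.ex y q) + ‖q‖ ^ 2 / 2) := by
  obtain ⟨y', hy'⟩ := hU (G.ex y (a • p + b • q))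
  have h1 := quasi hg hp hq ha hb hab y'
  have h2 := hy' (G.ex y p)
  have h3 := hy' (G.ex y q)
  rw [halfDistSq_comm _ y', halfDistSq_comm _ y'] at h2 h3
  rcases le_max_iff.1 h1 with h | h
  · exact le_max_of_le_left (by linarith)
  · exact le_max_of_le_right (by linarith)

/-- (Fam): `q ↦ U(exp_y q) + μ |q|²/2` is quasiconvex on `K(y)` for every `μ ≥ 1`. -/
theorem quasi_fam (hg : GoodAll G) {U : M → ℝ} (hU : CConv U) {μ : ℝ} (hμ : 1 ≤ μ) {y : M}
    {p q : TangentSpace (𝓡 n) y} (hp : p ∈ G.K y) (hq : q ∈ G.K y) {a b : ℝ} (ha : 0 ≤ a)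
    (hb : 0 ≤ b) (hab : a + b = 1) :
    U (G.ex y (a • p + b • q)) + μ * (‖a • p + b • q‖ ^ 2 / 2) ≤
      max (U (G.ex y p) + μ * (‖p‖ ^ 2 / 2)) (U (G.ex y q) + μ * (‖q‖ ^ 2 / 2)) := by
  have hμ0 : 0 < μ := by linarith
  have hU' : CConv (fun z => (1 / μ) * U z) :=
    Good272.CConv_smul G hU (by positivity) ((div_le_one hμ0).2 hμ)
  have h1 := quasi_pot hg hU' hp hq ha hb hab
  have key : ∀ X Y : ℝ, μ * ((1 / μ) * X + Y) = X + μ * Y := by
    intro X Y; field_simp
  have h2 := mul_le_mul_of_nonneg_left h1 hμ0.le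
  rw [mul_max_of_nonneg _ _ hμ0.le, key, key, key] at h2
  exact h2

/-- sublevel sets of `U + c(·,y)` are convex in `K(y)`. -/
theorem convex_sublevel (hg : GoodAll G) {U : M → ℝ} (hU : CConv U) (y : M) (h : ℝ) :
    Convex ℝ {q : TangentSpace (𝓡 n) y | q ∈ G.K y ∧ U (G.ex y q) + ‖q‖ ^ 2 / 2 ≤ h} := by
  rintro p ⟨hp, hp'⟩ q ⟨hq, hq'⟩ a b ha hb hab
  refine ⟨convex_K hg y hp hq ha hb hab, ?_⟩
  exact (quasi_pot hg hU hp hq ha hb hab).trans (max_le hp' hq')

/-- differences `-c(·,y') + c(·,y)`: sublevel sets are convex in `K(y)`. -/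
theorem convex_sublevel_diff (hg : GoodAll G) (y y' : M) (h : ℝ) :
    Convex ℝ {q : TangentSpace (𝓡 n) y |
      q ∈ G.K y ∧ ‖q‖ ^ 2 / 2 - halfDistSq y' (G.ex y q) ≤ h} := by
  rintro p ⟨hp, hp'⟩ q ⟨hq, hq'⟩ a b ha hb hab
  refine ⟨convex_K hg y hp hq ha hb hab, ?_⟩
  exact (quasi hg hp hq ha hb hab y').trans (max_le hp' hq')

end Basic

/-! ### the gap function `D(x,y) = u(x) + u^c(y) + c(x,y)` -/

section Gap

/-- the gap `D_u(x,y) = u(x) + u^c(y) + c(x,y) ≥ 0`. -/
noncomputable def gap (u : M → ℝ) (x y : M) : ℝ := u x + ctr u y + halfDistSq x y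

variable [CompactSpace M] {G : GeoData n M}

lemma gap_nonneg {u : M → ℝ} (hu : Continuous u) (x y : M) : 0 ≤ gap u x y := by
  have := le_ctr hu x y
  unfold gap
  linarith

lemma gap_eq_zero_iff {u : M → ℝ} (hu : Continuous u) {x y : M} :
    gap u x y = 0 ↔ y ∈ cSub u x := (mem_cSub_iff hu x y).symm

lemma gap_ctr {u : M → ℝ} (hu : CConv u) (x y : M) : gap (ctr u) y x = gap u x y := by
  unfold gap
  rw [ctr_ctr hu, halfDistSq_comm y x]
  ring

lemma continuous_gap {u : M → ℝ} (hu : Continuous u) :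
    Continuous (fun p : M × M => gap u p.1 p.2) := by
  unfold gap
  have h1 := continuous_ctr hu
  have h2 := continuous_halfDistSq (M := M)
  fun_prop

lemma gap_sub_le {u : M → ℝ} (hu : CConv u) (x x' y : M) :
    gap u x y - gap u x' y ≤ 2 * Metric.diam (univ : Set M) * dist x x' := by
  have h1 := (abs_le.1 (CConv.abs_sub_le hu x x')).2
  have h2 := halfDistSq_lip x x' y
  unfold gap
  linarith

lemma gap_sub_le' {u : M → ℝ} (hu : CConv u) (x y y' : M) :
    gap u x y - gap u x y' ≤ 2 * Metric.diam (univ : Set M) * dist y y' := by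
  have h := gap_sub_le (CConv_ctr (CConv.continuous hu)) y y' x
  rwa [gap_ctr hu, gap_ctr hu] at h

/-- if `y₁` is a contact point of `x` then `D(x,y) ≤ 2 diam · d(y, y₁)`. -/
lemma gap_le_of_mem_cSub {u : M → ℝ} (hu : CConv u) {x y₁ : M} (h : y₁ ∈ cSub u x) (y : M) :
    gap u x y ≤ 2 * Metric.diam (univ : Set M) * dist y y₁ := by
  have h1 := gap_sub_le' hu x y y₁
  rw [(gap_eq_zero_iff (CConv.continuous hu)).2 h] at h1
  linarith

/-- four point identity. -/
lemma gap_add_gap (u : M → ℝ) (x x' y y' : M) :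
    gap u x y - gap u x' y - (gap u x y' - gap u x' y') =
      halfDistSq x y - halfDistSq x' y - (halfDistSq x y' - halfDistSq x' y') := by
  unfold gap; ring

/-- the section `{q ∈ K(y) : D(exp_y q, y) ≤ h}` in the tangent space at `y`. -/
def secX (G : GeoData n M) (u : M → ℝ) (y : M) (h : ℝ) : Set (TangentSpace (𝓡 n) y) :=
  {q | q ∈ G.K y ∧ gap u (G.ex y q) y ≤ h}

/-- the dual section `{p ∈ K(x) : D(x, exp_x p) ≤ h}`. -/
def secY (G : GeoData n M) (u : M → ℝ) (x : M) (h : ℝ) : Set (TangentSpace (𝓡 n) x) :=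
  {p | p ∈ G.K x ∧ gap u x (G.ex x p) ≤ h}

theorem convex_secX (hg : GoodAll G) {u : M → ℝ} (hu : CConv u) (y : M) (h : ℝ) :
    Convex ℝ (secX G u y h) := by
  have h1 := convex_sublevel hg hu y (h - ctr u y)
  have h2 : secX G u y h =
      {q : TangentSpace (𝓡 n) y | q ∈ G.K y ∧ u (G.ex y q) + ‖q‖ ^ 2 / 2 ≤ h - ctr u y} := by
    ext q
    constructor
    · rintro ⟨hq, hq'⟩
      refine ⟨hq, ?_⟩
      rw [← halfDistSq_ex' hq]
      unfold gap at hq'
      linarith
    · rintro ⟨hq, hq'⟩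
      refine ⟨hq, ?_⟩
      rw [← halfDistSq_ex' hq] at hq'
      unfold gap
      linarith
  rw [h2]
  exact h1

theorem convex_secY (hg : GoodAll G) {u : M → ℝ} (hu : CConv u) (x : M) (h : ℝ) :
    Convex ℝ (secY G u x h) := by
  have h1 := convex_secX hg (CConv_ctr (CConv.continuous hu)) x h
  have h2 : secY G u x h = secX G (ctr u) x h := by
    ext p
    constructor
    · rintro ⟨hp, hp'⟩
      refine ⟨hp, ?_⟩
      rwa [gap_ctr hu]
    · rintro ⟨hp, hp'⟩
      refine ⟨hp, ?_⟩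
      rwa [gap_ctr hu] at hp'
  rw [h2]
  exact h1

/-- sets `{p ∈ K(x̂) : [c(x̂,y)-c(x̂,y₀)] - [c(x,y)-c(x,y₀)] ≤ B, ∀ x ∈ S}` are convex. -/
theorem convex_polar (hg : GoodAll G) (S : Set M) (xh : M) (B : M → ℝ) :
    Convex ℝ {p : TangentSpace (𝓡 n) xh |
      p ∈ G.K xh ∧ ∀ x ∈ S, halfDistSq xh (G.ex xh p) - halfDistSq x (G.ex xh p) ≤ B x} := by
  rintro p ⟨hp, hp'⟩ q ⟨hq, hq'⟩ a b ha hb hab
  have hw := convex_K hg xh hp hq ha hb hab
  refine ⟨hw, fun x hx => ?_⟩
  have h1 := quasi hg hp hq ha hb hab x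
  have h2 := hp' x hx
  have h3 := hq' x hx
  rw [Final267.halfDistSq_ex hp] at h2
  rw [Final267.halfDistSq_ex hq] at h3
  rw [Final267.halfDistSq_ex hw]
  exact h1.trans (max_le h2 h3)

end Gap

/-! ### local minimum ⇒ contact -/

section Local

variable {G : GeoData n M}

/-- **local ⇒ global**: if `x` is a local minimum of `u + c(·,y)` then `y` is a global
`c`-subgradient of `u` at `x`; moreover every minimising velocity from `x` to `y` lies in
`P_u(x)`. -/
theorem mem_P_of_localMin (hC : CutFacts G) (hD : DFacts G) (hg : GoodAll G) {u : M → ℝ}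
    (hu : CConv u) {x : M} {v : TangentSpace (𝓡 n) x} (hv : v ∈ G.K x)
    (hmin : ∀ᶠ x' in 𝓝 x, u x + halfDistSq x (G.ex x v) ≤ u x' + halfDistSq x' (G.ex x v)) :
    v ∈ G.P u x := by
  rw [P_eq_H hg hu x]
  by_contra hvH
  have hcomp : IsCompact (G.H u x) := hD.isCompact_H u (hD.cont u hu) x
  have hconv : Convex ℝ (G.H u x) := convex_convexHull ℝ _
  obtain ⟨f, m, hf1, hf2⟩ := geometric_hahn_banach_closed_point hconv hcomp.isClosed hvH
  -- `f w < m < f v`
  have : FiniteDimensional ℝ (TangentSpace (𝓡 n) x) :=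
    inferInstanceAs (FiniteDimensional ℝ (EuclideanSpace ℝ (Fin n)))
  have : CompleteSpace (TangentSpace (𝓡 n) x) := FiniteDimensional.complete ℝ _
  set ξ : TangentSpace (𝓡 n) x :=
    (InnerProductSpace.toDual ℝ (TangentSpace (𝓡 n) x)).symm f with hξ
  have hfξ : ∀ w : TangentSpace (𝓡 n) x, f w = inner ℝ w ξ := by
    intro w
    rw [real_inner_comm, hξ, InnerProductSpace.toDual_symm_apply]
  obtain ⟨C₁, hC₁, hsc⟩ := hC.semiconcave
  have hdan := hD.danskin u hu x ξ m (fun w hw => by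
    rw [← hfξ w]
    exact hf1 w (subset_convexHull ℝ _ hw))
  have hcont : Tendsto (fun t : ℝ => G.ex x (t • ξ)) (𝓝[>] 0) (𝓝 x) := by
    have h1 : Continuous (fun t : ℝ => G.ex x (t • ξ)) := Good272.continuous_radial G x ξ
    have h2 := h1.tendsto 0
    rw [zero_smul, G.ex_zero] at h2
    exact h2.mono_left nhdsWithin_le_nhds
  have h3 := hcont.eventually hmin
  have hgap : 0 < inner ℝ v ξ - m := by
    rw [← hfξ v]; linarith
  have h4 : ∀ᶠ t : ℝ in 𝓝[>] 0, C₁ * ‖ξ‖ ^ 2 * t < inner ℝ v ξ - m := by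
    have : Tendsto (fun t : ℝ => C₁ * ‖ξ‖ ^ 2 * t) (𝓝[>] 0) (𝓝 (C₁ * ‖ξ‖ ^ 2 * 0)) :=
      (tendsto_id.mono_left nhdsWithin_le_nhds).const_mul _
    rw [mul_zero] at this
    exact this.eventually (gt_mem_nhds hgap)
  have h5 : ∀ᶠ t : ℝ in 𝓝[>] 0, 0 < t := eventually_mem_nhdsWithin
  obtain ⟨t, ht1, ht2, ht3, ht4⟩ := (hdan.and (h3.and (h4.and h5))).exists
  have h6 := hsc x v hv (t • ξ)
  rw [inner_smul_right, norm_smul, Real.norm_eq_abs, mul_pow, sq_abs] at h6
  nlinarith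

theorem mem_cSub_of_localMin (hC : CutFacts G) (hD : DFacts G) (hg : GoodAll G) {u : M → ℝ}
    (hu : CConv u) {x y : M}
    (hmin : ∀ᶠ x' in 𝓝 x, u x + halfDistSq x y ≤ u x' + halfDistSq x' y) : y ∈ cSub u x := by
  obtain ⟨v, hv, rfl⟩ := exists_mem_K G x y
  exact (mem_P_of_localMin hC hD hg hu hv hmin).2

/-- if on the frontier of the (compact) set `S` the function `u + c(·,y)` exceeds its value at some
point `x̂ ∈ S`, then `y` is a `c`-subgradient at some interior point of `S`. -/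
theorem exists_mem_cSub_interior [CompactSpace M] (hC : CutFacts G) (hD : DFacts G)
    (hg : GoodAll G) {u : M → ℝ} (hu : CConv u) {S : Set M} (hS : IsClosed S) {xh y : M}
    (hxh : xh ∈ S)
    (hfr : ∀ x ∈ frontier S, u xh + halfDistSq xh y < u x + halfDistSq x y) :
    ∃ x ∈ interior S, y ∈ cSub u x := by
  have hcont : Continuous (fun x => u x + halfDistSq x y) := by
    have h1 := hD.cont u hu
    have h2 := continuous_halfDistSq (M := M)
    fun_prop
  obtain ⟨x, hxS, hx⟩ := hS.isCompact.exists_isMinOn ⟨xh, hxh⟩ hcont.continuousOn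
  have hx' : ∀ z ∈ S, u x + halfDistSq x y ≤ u z + halfDistSq z y := fun z hz => hx hz
  have hxi : x ∈ interior S := by
    by_contra hni
    have hxf : x ∈ frontier S := ⟨subset_closure hxS, hni⟩
    have := hfr x hxf
    have := hx' xh hxh
    linarith
  refine ⟨x, hxi, mem_cSub_of_localMin hC hD hg hu ?_⟩
  filter_upwards [isOpen_interior.mem_nhds hxi] with z hz
  exact hx' z (interior_subset hz)

end Local

end Crest.Agent.R226.Dasm290
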