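/-
R226 / E1 (helper964): exact shapes of the outputs of E1.1-E1.3 used in the proof of Theorem 1 of
doc 848 (engulfing), and the shape of its conclusion.  Definitions only.
-/
import Crest.Agent.R226.CutFacts_484
import Crest.Agent.R226.Kant_624

set_option autoImplicit false

open MeasureTheory Bundle Set Filter
open scoped Manifold ContDiff Bundle ENNReal Topology
open Crest.GeometryTopology.MTW

namespace Crest.Agent.R226.E1Shape964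

open Crest.Agent.R226 Crest.Agent.R226.Kant624

section Metric

variable {M : Type*} [MetricSpace M]

/-- `D(x,y) = u(x) + u^c(y) + c(x,y) ≥ 0`. -/
noncomputable def Dd (u : M → ℝ) (x y : M) : ℝ := u x + ctr u y + halfDistSq x y

/-- `F_y(x) = c(x,y₀) - c(x,y)`. -/
noncomputable def Fd (y0 y x : M) : ℝ := halfDistSq x y0 - halfDistSq x y

/-- the section `X_h(y₀) = {x | D(x,y₀) ≤ h}`. -/
def Sec (u : M → ℝ) (h : ℝ) (y0 : M) : Set M := {x | Dd u x y0 ≤ h}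

/-- `∂_c u (S)`. -/
def cImg (u : M → ℝ) (S : Set M) : Set M := ⋃ x ∈ S, cSub u x

/-- `So_B = {y | F_y - F_y(x^) ≤ B h on X_h(y₀)}`. -/
def SoB (u : M → ℝ) (h : ℝ) (y0 xh : M) (B : ℝ) : Set M :=
  {y | ∀ x ∈ Sec u h y0, Fd y0 y x - Fd y0 y xh ≤ B * h}

/-- the engulfing property of `u` with constant `K0`. -/
def EngulfP (K0 : ℝ) (u : M → ℝ) : Prop :=
  ∀ x xh y y0 : M, Dd u x y ≤ K0 * max (Dd u x y0) (max (Dd u xh y0) (Dd u xh y))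

/-- output of E1.2 (Step 1) for one potential `u`. -/
def Step1P [MeasurableSpace M] (vol : Measure M) (C1 c1 : ℝ) (u : M → ℝ) : Prop :=
  ∀ (y0 : M) (h : ℝ), 0 < h → ∃ S' : Set M, IsCompact S' ∧ S' ⊆ Sec u h y0 ∧
    ENNReal.ofReal c1 * vol (Sec u h y0) ≤ vol S' ∧
    ∀ x' ∈ S', ∀ y ∈ cSub u x', ∀ x ∈ Sec u h y0, |Fd y0 y x - Fd y0 y x'| ≤ C1 * h

end Metric

section Geo

variable {n : ℕ} {M : Type*} [MetricSpace M] [ChartedSpace (EuclideanSpace ℝ (Fin n)) M]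
  [IsManifold (𝓡 n) ∞ M]
  [RiemannianBundle (fun p : M => TangentSpace (𝓡 n) p)]

/-- quasiconvexity (DASM): output of E1.1. -/
def QCx (G : GeoData n M) : Prop :=
  ∀ x : M, Convex ℝ (G.K x) ∧ ∀ x' : M, ∀ p0 ∈ G.K x, ∀ p1 ∈ G.K x, ∀ t : ℝ, 0 ≤ t → t ≤ 1 →
    ‖(1 - t) • p0 + t • p1‖ ^ 2 / 2 - halfDistSq x' (G.ex x ((1 - t) • p0 + t • p1)) ≤
      max (‖p0‖ ^ 2 / 2 - halfDistSq x' (G.ex x p0)) (‖p1‖ ^ 2 / 2 - halfDistSq x' (G.ex x p1))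

/-- weak (Q) with step `τ`. -/
def QQw (G : GeoData n M) (τ : ℝ) : Prop :=
  ∀ x : M, ∀ x' : M, ∀ p0 ∈ G.K x, ∀ p1 ∈ G.K x, ∀ t : ℝ, 0 ≤ t → t ≤ τ →
    (‖(1 - t) • p0 + t • p1‖ ^ 2 / 2 - halfDistSq x' (G.ex x ((1 - t) • p0 + t • p1))) -
      (‖p0‖ ^ 2 / 2 - halfDistSq x' (G.ex x p0)) ≤
    max ((‖p1‖ ^ 2 / 2 - halfDistSq x' (G.ex x p1)) - (‖p0‖ ^ 2 / 2 - halfDistSq x' (G.ex x p0))) 0
      / 2

/-- (W'), volume form, for compact sets. -/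
def JMonoC [MeasurableSpace M] (G : GeoData n M) (vol : Measure M) (cW : ℝ) : Prop :=
  ∀ x : M, ∀ A : Set (TangentSpace (𝓡 n) x), A ⊆ G.K x → IsCompact A → ∀ p1 ∈ G.K x,
    ∀ t : ℝ, 0 ≤ t → t ≤ 1 / 2 →
    ENNReal.ofReal cW * vol (G.ex x '' A) ≤ vol (G.ex x '' ((fun p => (1 - t) • p + t • p1) '' A))

/-- output of E1.3 (Step 2) for one potential `u`. -/
def Step2P [MeasurableSpace M] (G : GeoData n M) (vol : Measure M) (B CB : ℝ) (u : M → ℝ) : Prop :=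
  ∀ (y0 : M) (h : ℝ), 0 < h → ∀ xh : M, Dd u xh y0 ≤ h / 2 →
    Convex ℝ {p : TangentSpace (𝓡 n) xh | p ∈ G.K xh ∧ G.ex xh p ∈ SoB u h y0 xh B} ∧
    vol (SoB u h y0 xh B) ≤ ENNReal.ofReal CB * vol (cImg u (Sec u h y0))

/-- a.e. injectivity of `ex x` on `K x` (cut locus is null). -/
def CutNullP [MeasurableSpace M] (G : GeoData n M) (vol : Measure M) : Prop :=
  ∀ x : M, ∀ᵐ y ∂vol, ∀ p ∈ G.K x, ∀ q ∈ G.K x, G.ex x p = y → G.ex x q = y → p = q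

end Geo

end Crest.Agent.R226.E1Shape964
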