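/-
R226, helper227: tangent bundle auxiliaries for Layer D (filters of tangent vectors, inner products,
compactness).
-/
import Crest.Agent.R226.Defs_484

set_option autoImplicit false

open Bundle Set Filter Module
open scoped Manifold ContDiff Bundle Topology
open Crest.GeometryTopology.MTW

namespace Crest.Agent.R226.BAux227

section
variable {n : ℕ} {M : Type*} [MetricSpace M] [ChartedSpace (EuclideanSpace ℝ (Fin n)) M]
  [IsManifold (𝓡 n) ∞ M]

/-- convergence in the tangent bundle. -/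
theorem tendsto_tm_iff {ι : Type*} {l : Filter ι} {b : ι → M}
    {v : ∀ i, TangentSpace (𝓡 n) (b i)} {x : M} {v0 : TangentSpace (𝓡 n) x} :
    Tendsto (fun i => (⟨b i, v i⟩ : TangentBundle (𝓡 n) M)) l (𝓝 ⟨x, v0⟩) ↔
      Tendsto b l (𝓝 x) ∧
      Tendsto (fun i => (trivializationAt (EuclideanSpace ℝ (Fin n)) (TangentSpace (𝓡 n)) x
        (⟨b i, v i⟩ : TangentBundle (𝓡 n) M)).2) l
        (𝓝 (trivializationAt (EuclideanSpace ℝ (Fin n)) (TangentSpace (𝓡 n)) x
        (⟨x, v0⟩ : TangentBundle (𝓡 n) M)).2) := by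
  have hx := FiberBundle.mem_baseSet_trivializationAt' (F := EuclideanSpace ℝ (Fin n))
    (E := (TangentSpace (𝓡 n) : M → Type _)) x
  have h1 : (⟨x, v0⟩ : TangentBundle (𝓡 n) M) ∈ (trivializationAt (EuclideanSpace ℝ (Fin n))
      (TangentSpace (𝓡 n) : M → Type _) x).source := by
    rw [Trivialization.mem_source]
    exact hx
  exact (trivializationAt (EuclideanSpace ℝ (Fin n))
    (TangentSpace (𝓡 n) : M → Type _) x).tendsto_nhds_iff h1

theorem triv_eq {x y : M} (hy : y ∈ (trivializationAt (EuclideanSpace ℝ (Fin n))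
    (TangentSpace (𝓡 n) : M → Type _) x).baseSet) (v : TangentSpace (𝓡 n) y) :
    (trivializationAt (EuclideanSpace ℝ (Fin n)) (TangentSpace (𝓡 n)) x
        (⟨y, v⟩ : TangentBundle (𝓡 n) M)).2 =
      (trivializationAt (EuclideanSpace ℝ (Fin n)) (TangentSpace (𝓡 n)) x).linearMapAt ℝ y v := by
  rw [Trivialization.linearMapAt_apply, if_pos hy]

theorem tendsto_sum {ι κ : Type*} [Fintype κ] {l : Filter ι} {b : ι → M}
    {v : κ → ∀ i, TangentSpace (𝓡 n) (b i)} {θ : κ → ι → ℝ} {x : M}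
    {v0 : κ → TangentSpace (𝓡 n) x} {θ0 : κ → ℝ} (hb : Tendsto b l (𝓝 x))
    (hv : ∀ j, Tendsto (fun i => (⟨b i, v j i⟩ : TangentBundle (𝓡 n) M)) l (𝓝 ⟨x, v0 j⟩))
    (hθ : ∀ j, Tendsto (θ j) l (𝓝 (θ0 j))) :
    Tendsto (fun i => (⟨b i, ∑ j, θ j i • v j i⟩ : TangentBundle (𝓡 n) M)) l
      (𝓝 ⟨x, ∑ j, θ0 j • v0 j⟩) := by
  rw [tendsto_tm_iff]
  refine ⟨hb, ?_⟩
  have hx := FiberBundle.mem_baseSet_trivializationAt' (F := EuclideanSpace ℝ (Fin n))
    (E := (TangentSpace (𝓡 n) : M → Type _)) x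
  have hev : ∀ᶠ i in l, b i ∈ (trivializationAt (EuclideanSpace ℝ (Fin n))
    (TangentSpace (𝓡 n) : M → Type _) x).baseSet :=
    hb.eventually ((trivializationAt (EuclideanSpace ℝ (Fin n))
      (TangentSpace (𝓡 n) : M → Type _) x).open_baseSet.mem_nhds hx)
  have h1 : Tendsto (fun i => ∑ j, θ j i • (trivializationAt (EuclideanSpace ℝ (Fin n))
      (TangentSpace (𝓡 n)) x (⟨b i, v j i⟩ : TangentBundle (𝓡 n) M)).2) l
      (𝓝 (∑ j, θ0 j • (trivializationAt (EuclideanSpace ℝ (Fin n))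
      (TangentSpace (𝓡 n)) x (⟨x, v0 j⟩ : TangentBundle (𝓡 n) M)).2)) :=
    tendsto_finsetSum _ fun j _ => (hθ j).smul ((tendsto_tm_iff.1 (hv j)).2)
  have h2 : ∀ y ∈ (trivializationAt (EuclideanSpace ℝ (Fin n))
      (TangentSpace (𝓡 n) : M → Type _) x).baseSet, ∀ (c : κ → ℝ)
      (w : κ → TangentSpace (𝓡 n) y), (trivializationAt (EuclideanSpace ℝ (Fin n))
      (TangentSpace (𝓡 n)) x (⟨y, ∑ j, c j • w j⟩ : TangentBundle (𝓡 n) M)).2 =
      ∑ j, c j • (trivializationAt (EuclideanSpace ℝ (Fin n))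
      (TangentSpace (𝓡 n)) x (⟨y, w j⟩ : TangentBundle (𝓡 n) M)).2 := by
    intro y hy c w
    rw [triv_eq hy, map_sum]
    refine Finset.sum_congr rfl fun j _ => ?_
    rw [map_smul, triv_eq hy]
  rw [h2 x hx]
  refine h1.congr' ?_
  filter_upwards [hev] with i hi
  rw [h2 _ hi]

theorem tendsto_lin {ι : Type*} {l : Filter ι} {b : ι → M}
    {v w : ∀ i, TangentSpace (𝓡 n) (b i)} {c d : ι → ℝ} {x : M}
    {v0 w0 : TangentSpace (𝓡 n) x} {c0 d0 : ℝ}
    (hv : Tendsto (fun i => (⟨b i, v i⟩ : TangentBundle (𝓡 n) M)) l (𝓝 ⟨x, v0⟩))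
    (hw : Tendsto (fun i => (⟨b i, w i⟩ : TangentBundle (𝓡 n) M)) l (𝓝 ⟨x, w0⟩))
    (hc : Tendsto c l (𝓝 c0)) (hd : Tendsto d l (𝓝 d0)) :
    Tendsto (fun i => (⟨b i, c i • v i + d i • w i⟩ : TangentBundle (𝓡 n) M)) l
      (𝓝 ⟨x, c0 • v0 + d0 • w0⟩) := by
  have h := tendsto_sum (κ := Fin 2) (v := ![v, w]) (θ := ![c, d]) (v0 := ![v0, w0])
    (θ0 := ![c0, d0]) (tendsto_tm_iff.1 hv).1
    (by intro j; fin_cases j <;> simpa) (by intro j; fin_cases j <;> simpa)
  simpa [Fin.sum_univ_two] using h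

theorem tendsto_smul {ι : Type*} {l : Filter ι} {b : ι → M}
    {v : ∀ i, TangentSpace (𝓡 n) (b i)} {c : ι → ℝ} {x : M}
    {v0 : TangentSpace (𝓡 n) x} {c0 : ℝ}
    (hv : Tendsto (fun i => (⟨b i, v i⟩ : TangentBundle (𝓡 n) M)) l (𝓝 ⟨x, v0⟩))
    (hc : Tendsto c l (𝓝 c0)) :
    Tendsto (fun i => (⟨b i, c i • v i⟩ : TangentBundle (𝓡 n) M)) l
      (𝓝 ⟨x, c0 • v0⟩) := by
  have h := tendsto_lin hv hv hc (tendsto_const_nhds (x := (0 : ℝ)))
  simpa using h

/-- scalar multiplication on the tangent bundle is jointly continuous. -/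
theorem continuous_smulTM :
    Continuous (fun q : ℝ × TangentBundle (𝓡 n) M =>
      (⟨q.2.1, q.1 • q.2.2⟩ : TangentBundle (𝓡 n) M)) := by
  rw [continuous_iff_continuousAt]
  rintro ⟨c, ⟨x, v⟩⟩
  exact tendsto_smul (b := fun q : ℝ × TangentBundle (𝓡 n) M => q.2.1)
    (v := fun q => q.2.2) (c := fun q => q.1) (l := 𝓝 (c, ⟨x, v⟩)) (x := x) (v0 := v)
    (continuous_snd.tendsto (c, (⟨x, v⟩ : TangentBundle (𝓡 n) M)))
    (continuous_fst.tendsto (c, (⟨x, v⟩ : TangentBundle (𝓡 n) M)))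

end

/-- Carathéodory representation with a fixed number of points. -/
theorem exists_fin_rep {V : Type*} [AddCommGroup V] [Module ℝ V] [FiniteDimensional ℝ V]
    {s : Set V} {x : V} (hx : x ∈ convexHull ℝ s) :
    ∃ (w : Fin (finrank ℝ V + 1) → ℝ) (z : Fin (finrank ℝ V + 1) → V),
      w ∈ stdSimplex ℝ (Fin (finrank ℝ V + 1)) ∧ (∀ i, z i ∈ s) ∧ ∑ i, w i • z i = x := by
  classical
  obtain ⟨s0, hs0⟩ : s.Nonempty := by
    rw [← convexHull_nonempty_iff (𝕜 := ℝ)]
    exact ⟨x, hx⟩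
  obtain ⟨ι, hι, z, w, hz, haff, hw, hw1, hx'⟩ := eq_pos_convex_span_of_mem_convexHull hx
  have hcard : Fintype.card ι ≤ finrank ℝ V + 1 := by
    refine haff.card_le_finrank_succ.trans ?_
    have := Submodule.finrank_le (vectorSpan ℝ (Set.range z))
    omega
  obtain ⟨e⟩ : Nonempty (ι ↪ Fin (finrank ℝ V + 1)) := by
    apply Function.Embedding.nonempty_of_card_le
    simpa using hcard
  refine ⟨Function.extend e w 0, Function.extend e z (fun _ => s0), ⟨?_, ?_⟩, ?_, ?_⟩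
  · intro j
    show 0 ≤ Function.extend e w 0 j
    by_cases hj : ∃ i, e i = j
    · obtain ⟨i, rfl⟩ := hj
      rw [e.injective.extend_apply]
      exact (hw i).le
    · rw [Function.extend_apply' _ _ _ hj]
      simp
  · rw [← hw1]
    symm
    apply Fintype.sum_of_injective e e.injective
    · intro j hj
      show Function.extend e w 0 j = 0
      rw [Function.extend_apply' _ _ _ hj]
      simp
    · intro i
      show w i = Function.extend e w 0 (e i)
      rw [e.injective.extend_apply]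
  · intro j
    show Function.extend e z (fun _ => s0) j ∈ s
    by_cases hj : ∃ i, e i = j
    · obtain ⟨i, rfl⟩ := hj
      rw [e.injective.extend_apply]
      exact hz ⟨i, rfl⟩
    · rw [Function.extend_apply' _ _ _ hj]
      exact hs0
  · rw [← hx']
    symm
    apply Fintype.sum_of_injective e e.injective
    · intro j hj
      show Function.extend e w 0 j • _ = _
      rw [Function.extend_apply' _ _ _ hj]
      simp
    · intro i
      show _ = Function.extend e w 0 (e i) • Function.extend e z (fun _ => s0) (e i)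
      rw [e.injective.extend_apply, e.injective.extend_apply]

/-- In finite dimension the convex hull of a compact set is compact. -/
theorem isCompact_hull {V : Type*} [AddCommGroup V] [Module ℝ V] [TopologicalSpace V]
    [ContinuousAdd V] [ContinuousSMul ℝ V] [FiniteDimensional ℝ V] {s : Set V}
    (hs : IsCompact s) : IsCompact (convexHull ℝ s) := by
  have himg : convexHull ℝ s = (fun p : (Fin (finrank ℝ V + 1) → ℝ) × (Fin (finrank ℝ V + 1) → V)
      => ∑ i, p.1 i • p.2 i) ''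
      (stdSimplex ℝ (Fin (finrank ℝ V + 1)) ×ˢ (Set.univ.pi fun _ => s)) := by
    apply Subset.antisymm
    · intro x hx
      obtain ⟨w, z, hw, hz, h⟩ := exists_fin_rep hx
      exact ⟨(w, z), ⟨hw, fun i _ => hz i⟩, h⟩
    · rintro _ ⟨⟨w, z⟩, ⟨⟨hw0, hw1⟩, hz⟩, rfl⟩
      exact (convex_convexHull ℝ s).sum_mem (fun i _ => hw0 i) hw1
        fun i _ => subset_convexHull ℝ s (hz i (Set.mem_univ i))
  rw [himg]
  refine ((isCompact_stdSimplex ℝ _).prod (isCompact_univ_pi fun _ => hs)).image ?_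
  fun_prop

section
variable {n : ℕ} {M : Type*} [MetricSpace M] [ChartedSpace (EuclideanSpace ℝ (Fin n)) M]
  [IsManifold (𝓡 n) ∞ M]
  [RiemannianBundle (fun p : M => TangentSpace (𝓡 n) p)]
  [IsContMDiffRiemannianBundle (𝓡 n) ∞ (EuclideanSpace ℝ (Fin n))
    (fun p : M => TangentSpace (𝓡 n) p)]

variable (n M) in
theorem contRiem : IsContinuousRiemannianBundle (EuclideanSpace ℝ (Fin n))
    (fun p : M => TangentSpace (𝓡 n) p) := by
  obtain ⟨g, hg, h⟩ := IsContMDiffRiemannianBundle.exists_contMDiff (IB := 𝓡 n) (n := ∞)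
    (F := EuclideanSpace ℝ (Fin n)) (E := fun p : M => TangentSpace (𝓡 n) p)
  exact ⟨g, hg.continuous, h⟩

/-- the Whitney sum, as a subspace of the product. -/
abbrev TM2 (n : ℕ) (M : Type*) [MetricSpace M] [ChartedSpace (EuclideanSpace ℝ (Fin n)) M] :
    Type _ :=
  {r : TangentBundle (𝓡 n) M × TangentBundle (𝓡 n) M // r.2.1 = r.1.1}

/-- fibrewise inner product on the Whitney sum. -/
noncomputable def ip (r : TM2 n M) : ℝ :=
  inner ℝ (r.1.1.2 : TangentSpace (𝓡 n) r.1.1.1) (r.2 ▸ r.1.2.2 : TangentSpace (𝓡 n) r.1.1.1)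

theorem continuous_ip : Continuous (ip : TM2 n M → ℝ) := by
  have := contRiem n M
  refine Continuous.inner_bundle (F := EuclideanSpace ℝ (Fin n))
    (E := fun p : M => TangentSpace (𝓡 n) p) (b := fun r : TM2 n M => r.1.1.1)
    (v := fun r => r.1.1.2) (w := fun r => (r.2 ▸ r.1.2.2 : TangentSpace (𝓡 n) r.1.1.1)) ?_ ?_
  · exact continuous_fst.comp continuous_subtype_val
  · have : (fun r : TM2 n M =>
        (⟨r.1.1.1, (r.2 ▸ r.1.2.2 : TangentSpace (𝓡 n) r.1.1.1)⟩ : TangentBundle (𝓡 n) M)) =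
        fun r => r.1.2 := by
      funext r
      obtain ⟨⟨⟨x, v⟩, ⟨y, w⟩⟩, h⟩ := r
      simp only at h
      subst h
      rfl
    rw [this]
    exact continuous_snd.comp continuous_subtype_val

/-- inner products converge along filters of pairs of tangent vectors with common base points. -/
theorem tendsto_inner {ι : Type*} {l : Filter ι} {b : ι → M}
    {v w : ∀ i, TangentSpace (𝓡 n) (b i)} {x : M} {v0 w0 : TangentSpace (𝓡 n) x}
    (hv : Tendsto (fun i => (⟨b i, v i⟩ : TangentBundle (𝓡 n) M)) l (𝓝 ⟨x, v0⟩))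
    (hw : Tendsto (fun i => (⟨b i, w i⟩ : TangentBundle (𝓡 n) M)) l (𝓝 ⟨x, w0⟩)) :
    Tendsto (fun i => inner ℝ (v i) (w i)) l (𝓝 (inner ℝ v0 w0)) := by
  have h1 : Tendsto (fun i => (⟨(⟨b i, v i⟩, ⟨b i, w i⟩), rfl⟩ : TM2 n M)) l
      (𝓝 ⟨(⟨x, v0⟩, ⟨x, w0⟩), rfl⟩) :=
    tendsto_subtype_rng.2 (hv.prodMk_nhds hw)
  exact (continuous_ip.tendsto _).comp h1

theorem tendsto_norm {ι : Type*} {l : Filter ι} {b : ι → M}
    {v : ∀ i, TangentSpace (𝓡 n) (b i)} {x : M} {v0 : TangentSpace (𝓡 n) x}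
    (hv : Tendsto (fun i => (⟨b i, v i⟩ : TangentBundle (𝓡 n) M)) l (𝓝 ⟨x, v0⟩)) :
    Tendsto (fun i => ‖v i‖) l (𝓝 ‖v0‖) := by
  have h := (tendsto_inner hv hv).sqrt
  simpa [real_inner_self_eq_norm_sq] using h

theorem continuous_norm : Continuous (fun p : TangentBundle (𝓡 n) M => ‖p.2‖) := by
  rw [continuous_iff_continuousAt]
  intro p
  exact tendsto_norm (l := 𝓝 p) (b := fun q => q.1) (v := fun q => q.2) tendsto_id

/-! ### curves and their velocities -/

omit [RiemannianBundle (fun p : M => TangentSpace (𝓡 n) p)]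
  [IsContMDiffRiemannianBundle (𝓡 n) ∞ (EuclideanSpace ℝ (Fin n))
    (fun p : M => TangentSpace (𝓡 n) p)] in
theorem contMDiff_ray (x : M) (v : TangentSpace (𝓡 n) x) :
    ContMDiff 𝓘(ℝ, ℝ) (𝓡 n).tangent ∞
      (fun t : ℝ => (⟨x, t • v⟩ : TangentBundle (𝓡 n) M)) := by
  intro t
  rw [contMDiffAt_totalSpace]
  refine ⟨contMDiffAt_const, ?_⟩
  have h : ∀ t : ℝ, (trivializationAt (EuclideanSpace ℝ (Fin n)) (TangentSpace (𝓡 n)) x
      (⟨x, t • v⟩ : TangentBundle (𝓡 n) M)).2 =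
      t • (trivializationAt (EuclideanSpace ℝ (Fin n)) (TangentSpace (𝓡 n)) x).continuousLinearMapAt
        ℝ x v := by
    intro t
    rw [← map_smul, Trivialization.continuousLinearMapAt_apply,
      Trivialization.linearMapAt_apply, if_pos]
    exact FiberBundle.mem_baseSet_trivializationAt' x
  simp only [h]
  exact (contMDiff_id.smul contMDiff_const).contMDiffAt

omit [RiemannianBundle (fun p : M => TangentSpace (𝓡 n) p)]
  [IsContMDiffRiemannianBundle (𝓡 n) ∞ (EuclideanSpace ℝ (Fin n))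
    (fun p : M => TangentSpace (𝓡 n) p)] in
theorem continuous_curveVel {γ : ℝ → M} (hγ : ContMDiff 𝓘(ℝ, ℝ) (𝓡 n) 1 γ) :
    Continuous (fun t : ℝ => (⟨γ t, curveVel n γ t⟩ : TangentBundle (𝓡 n) M)) := by
  have h1 : Continuous (tangentMap 𝓘(ℝ, ℝ) (𝓡 n) γ) := hγ.continuous_tangentMap le_rfl
  have h2 : Continuous (fun t : ℝ => (⟨t, (1 : ℝ)⟩ : TangentBundle 𝓘(ℝ, ℝ) ℝ)) := by
    have h3 : Continuous (fun t : ℝ => ((t, (1 : ℝ)) : ModelProd ℝ ℝ)) :=
      Continuous.prodMk continuous_id continuous_const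
    exact (tangentBundleModelSpaceHomeomorph 𝓘(ℝ, ℝ)).symm.continuous.comp h3
  exact h1.comp h2

variable (G : GeoData n M)

omit [IsContMDiffRiemannianBundle (𝓡 n) ∞ (EuclideanSpace ℝ (Fin n))
    (fun p : M => TangentSpace (𝓡 n) p)] in
theorem contMDiff_geod (x : M) (v : TangentSpace (𝓡 n) x) :
    ContMDiff 𝓘(ℝ, ℝ) (𝓡 n) ∞ (fun t : ℝ => G.ex x (t • v)) :=
  G.smooth.comp (contMDiff_ray x v)

omit [IsContMDiffRiemannianBundle (𝓡 n) ∞ (EuclideanSpace ℝ (Fin n))
    (fun p : M => TangentSpace (𝓡 n) p)] in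
theorem continuous_vel (x : M) (v : TangentSpace (𝓡 n) x) :
    Continuous (fun t : ℝ => (⟨G.ex x (t • v), G.vel x v t⟩ : TangentBundle (𝓡 n) M)) :=
  continuous_curveVel ((contMDiff_geod G x v).of_le (by norm_cast))

end

end Crest.Agent.R226.BAux227
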