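/-
R226, layer C, task C0 (helper478): topology of `K` and `I`.
-/
import Crest.Agent.R226.Defs_484

set_option autoImplicit false

open MeasureTheory Bundle Set Filter
open scoped Manifold ContDiff Bundle ENNReal Topology
open Crest.GeometryTopology.MTW

namespace Crest.Agent.R226.CutTop478

open Crest.Agent.R226

variable {n : ℕ} {M : Type*} [MetricSpace M] [ChartedSpace (EuclideanSpace ℝ (Fin n)) M]
  [IsManifold (𝓡 n) ∞ M]
  [RiemannianBundle (fun p : M => TangentSpace (𝓡 n) p)]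

section Disc

variable [IsContMDiffRiemannianBundle (𝓡 n) ∞ (EuclideanSpace ℝ (Fin n))
  (fun p : M => TangentSpace (𝓡 n) p)]

/-- the continuity class from the smoothness class -/
theorem isContinuousRiemannianBundle :
    IsContinuousRiemannianBundle (EuclideanSpace ℝ (Fin n)) (fun p : M => TangentSpace (𝓡 n) p) := by
  obtain ⟨g, hg, hg'⟩ := (inferInstance : IsContMDiffRiemannianBundle (𝓡 n) ∞
    (EuclideanSpace ℝ (Fin n)) (fun p : M => TangentSpace (𝓡 n) p)).exists_contMDiff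
  exact ⟨g, hg.continuous, hg'⟩

/-- the inner product is continuous on the tangent bundle (along maps) -/
theorem continuous_norm_snd :
    Continuous (fun p : TangentBundle (𝓡 n) M => ‖p.2‖) := by
  have : IsContinuousRiemannianBundle (EuclideanSpace ℝ (Fin n))
    (fun p : M => TangentSpace (𝓡 n) p) := isContinuousRiemannianBundle
  have h : Continuous (fun p : TangentBundle (𝓡 n) M => inner ℝ p.2 p.2) := by
    have hid : Continuous (fun p : TangentBundle (𝓡 n) M =>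
      (TotalSpace.mk' (EuclideanSpace ℝ (Fin n)) p.1 p.2 : TangentBundle (𝓡 n) M)) :=
      continuous_id
    exact Continuous.inner_bundle (F := EuclideanSpace ℝ (Fin n))
      (E := fun p : M => TangentSpace (𝓡 n) p) hid hid
  have h2 : (fun p : TangentBundle (𝓡 n) M => ‖p.2‖)
      = fun p : TangentBundle (𝓡 n) M => Real.sqrt (inner ℝ p.2 p.2) := by
    funext p
    rw [real_inner_self_eq_norm_sq, Real.sqrt_sq (norm_nonneg _)]
  rw [h2]
  exact Real.continuous_sqrt.comp h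

/-- Over a compact set the closed disc bundle is compact. -/
theorem isCompact_disc_over (x0 : M) (R : ℝ) [LocallyCompactSpace M] :
    ∃ N ∈ 𝓝 x0, IsClosed N ∧ IsCompact {p : TangentBundle (𝓡 n) M | p.1 ∈ N ∧ ‖p.2‖ ≤ R} := by
  have : IsContinuousRiemannianBundle (EuclideanSpace ℝ (Fin n))
    (fun p : M => TangentSpace (𝓡 n) p) := isContinuousRiemannianBundle
  obtain ⟨C, hC, hCe⟩ := eventually_norm_trivializationAt_lt (EuclideanSpace ℝ (Fin n))
    (fun p : M => TangentSpace (𝓡 n) p) x0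
  set e := trivializationAt (EuclideanSpace ℝ (Fin n)) (fun p : M => TangentSpace (𝓡 n) p) x0 with he
  have hbase : e.baseSet ∈ 𝓝 x0 :=
    e.open_baseSet.mem_nhds (FiberBundle.mem_baseSet_trivializationAt' x0)
  obtain ⟨N, hN, hNsub, hNc⟩ := local_compact_nhds (Filter.inter_mem hCe hbase)
  refine ⟨N, hN, hNc.isClosed, ?_⟩
  have himg : IsCompact (e.toOpenPartialHomeomorph.symm '' (N ×ˢ Metric.closedBall (0 : EuclideanSpace ℝ (Fin n)) (C * R))) := by
    apply IsCompact.image_of_continuousOn (hNc.prod (isCompact_closedBall _ _))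
    apply e.toOpenPartialHomeomorph.continuousOn_symm.mono
    rintro ⟨a, v⟩ ⟨ha, -⟩
    rw [e.target_eq]
    exact ⟨(hNsub ha).2, trivial⟩
  refine himg.of_isClosed_subset ?_ ?_
  · exact (hNc.isClosed.preimage (FiberBundle.continuous_proj _ _)).inter
      (isClosed_le continuous_norm_snd continuous_const)
  · rintro ⟨a, v⟩ ⟨ha, hv⟩
    have hab : a ∈ e.baseSet := (hNsub ha).2
    refine ⟨e ⟨a, v⟩, ⟨?_, ?_⟩, ?_⟩
    · rw [e.coe_fst' hab]; exact ha
    · have h1 : (e ⟨a, v⟩).2 = e.continuousLinearMapAt ℝ a v := by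
        rw [Trivialization.continuousLinearMapAt_apply, Trivialization.linearMapAt_apply,
          if_pos hab]
      rw [mem_closedBall_zero_iff, h1]
      refine (ContinuousLinearMap.le_opNorm _ _).trans ?_
      have h2 := (hNsub ha).1
      simp only [mem_ofPred_eq] at h2
      exact mul_le_mul h2.le hv (norm_nonneg _) hC.le
    · exact e.toOpenPartialHomeomorph.left_inv (e.mem_source.2 hab)

/-- the closed disc bundle of a compact manifold is compact -/
theorem isCompact_disc [CompactSpace M] (R : ℝ) :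
    IsCompact {p : TangentBundle (𝓡 n) M | ‖p.2‖ ≤ R} := by
  choose N hN hNc hNk using fun x0 : M => isCompact_disc_over (n := n) (M := M) x0 R
  obtain ⟨t, -, ht⟩ := isCompact_univ.elim_nhds_subcover N (fun x _ => hN x)
  have : {p : TangentBundle (𝓡 n) M | ‖p.2‖ ≤ R}
      = ⋃ x ∈ t, {p : TangentBundle (𝓡 n) M | p.1 ∈ N x ∧ ‖p.2‖ ≤ R} := by
    ext p
    simp only [mem_ofPred_eq, mem_iUnion, exists_prop]
    constructor
    · intro hp
      have := ht (mem_univ p.1)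
      simp only [mem_iUnion, exists_prop] at this
      obtain ⟨x, hx, hpx⟩ := this
      exact ⟨x, hx, hpx, hp⟩
    · rintro ⟨x, hx, hpx, hp⟩
      exact hp
  rw [this]
  exact t.isCompact_biUnion (fun x _ => hNk x)

end Disc

section Basic

variable (G : GeoData n M)

theorem ex_one (x : M) (v : TangentSpace (𝓡 n) x) : G.ex x ((1 : ℝ) • v) = G.ex x v := by
  rw [one_smul]

theorem ex_smul_zero (x : M) (v : TangentSpace (𝓡 n) x) : G.ex x ((0 : ℝ) • v) = x := by
  rw [zero_smul]; exact G.ex_zero x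

theorem mem_K {x : M} {v : TangentSpace (𝓡 n) x} : v ∈ G.K x ↔ dist x (G.ex x v) = ‖v‖ := Iff.rfl

theorem mem_I {x : M} {v : TangentSpace (𝓡 n) x} : v ∈ G.I x ↔ ∃ a : ℝ, 1 < a ∧ a • v ∈ G.K x :=
  Iff.rfl

theorem norm_vel (x : M) (v : TangentSpace (𝓡 n) x) (t : ℝ) : ‖G.vel x v t‖ = ‖v‖ :=
  G.norm_vel x v t

theorem flow (x : M) (v : TangentSpace (𝓡 n) x) (t s : ℝ) :
    G.ex (G.ex x (t • v)) (s • G.vel x v t) = G.ex x ((t + s) • v) := G.flow x v t s

/-- `|dist| ≤` the length along a geodesic from time `0` -/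
theorem dist_ex_le (x : M) (v : TangentSpace (𝓡 n) x) : dist x (G.ex x v) ≤ ‖v‖ := by
  have h := G.dist_le x v 0 1
  rw [ex_smul_zero, ex_one] at h
  simpa using h

theorem dist_ex_smul_le (x : M) (v : TangentSpace (𝓡 n) x) {t : ℝ} (ht : 0 ≤ t) :
    dist x (G.ex x (t • v)) ≤ t * ‖v‖ := by
  have h := dist_ex_le G x (t • v)
  rwa [norm_smul, Real.norm_of_nonneg ht] at h

/-- Distances along a minimising geodesic. -/
theorem dist_seg {x : M} {v : TangentSpace (𝓡 n) x} {a : ℝ} (hv : a • v ∈ G.K x)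
    {s t : ℝ} (hs : 0 ≤ s) (hst : s ≤ t) (hta : t ≤ a) :
    dist (G.ex x (s • v)) (G.ex x (t • v)) = (t - s) * ‖v‖ := by
  have ha : 0 ≤ a := hs.trans (hst.trans hta)
  have h0 : dist x (G.ex x (a • v)) = a * ‖v‖ := by
    have := (mem_K G).1 hv
    rwa [norm_smul, Real.norm_of_nonneg ha] at this
  have h1 := dist_ex_smul_le G x v hs
  have h2 := G.dist_le x v s t
  have h3 := G.dist_le x v t a
  rw [abs_sub_comm, abs_of_nonneg (sub_nonneg.2 hst)] at h2
  rw [abs_sub_comm, abs_of_nonneg (sub_nonneg.2 hta)] at h3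
  have h4 := dist_triangle x (G.ex x (s • v)) (G.ex x (a • v))
  have h5 := dist_triangle (G.ex x (s • v)) (G.ex x (t • v)) (G.ex x (a • v))
  apply le_antisymm h2
  nlinarith

theorem dist_from {x : M} {v : TangentSpace (𝓡 n) x} {a : ℝ} (hv : a • v ∈ G.K x)
    {t : ℝ} (ht : 0 ≤ t) (hta : t ≤ a) :
    dist x (G.ex x (t • v)) = t * ‖v‖ := by
  have := dist_seg G hv le_rfl ht hta
  rwa [ex_smul_zero, sub_zero] at this

theorem smul_mem_K_of {x : M} {v : TangentSpace (𝓡 n) x} {a : ℝ} (hv : a • v ∈ G.K x)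
    {t : ℝ} (ht : 0 ≤ t) (hta : t ≤ a) : t • v ∈ G.K x := by
  rw [mem_K, norm_smul, Real.norm_of_nonneg ht]
  exact dist_from G hv ht hta

theorem star (x : M) (v : TangentSpace (𝓡 n) x) (hv : v ∈ G.K x) (t : ℝ) (ht : 0 ≤ t)
    (ht1 : t ≤ 1) : t • v ∈ G.K x :=
  smul_mem_K_of G (a := 1) (by rwa [one_smul]) ht ht1

theorem zero_mem_K (x : M) : (0 : TangentSpace (𝓡 n) x) ∈ G.K x := by
  rw [mem_K, G.ex_zero, dist_self, norm_zero]

theorem zero_mem_I (x : M) : (0 : TangentSpace (𝓡 n) x) ∈ G.I x :=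
  ⟨2, one_lt_two, by rw [smul_zero]; exact zero_mem_K G x⟩

theorem I_subset (x : M) : G.I x ⊆ G.K x := by
  rintro v ⟨a, ha, hv⟩
  have := smul_mem_K_of G hv zero_le_one ha.le
  rwa [one_smul] at this

/-- `t • v ∈ I x` for `v ∈ K x` and `0 ≤ t < 1`. -/
theorem smul_mem_I_of_lt {x : M} {v : TangentSpace (𝓡 n) x} {a : ℝ} (hv : a • v ∈ G.K x)
    {t : ℝ} (ht : 0 ≤ t) (hta : t < a) : t • v ∈ G.I x := by
  rcases ht.eq_or_lt with rfl | ht0
  · rw [zero_smul]; exact zero_mem_I G x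
  · refine ⟨a / t, (one_lt_div ht0).2 hta, ?_⟩
    rw [smul_smul, div_mul_cancel₀ _ ht0.ne']
    exact hv

theorem smul_mem_I {x : M} {v : TangentSpace (𝓡 n) x} (hv : v ∈ G.K x)
    {t : ℝ} (ht : 0 ≤ t) (ht1 : t < 1) : t • v ∈ G.I x :=
  smul_mem_I_of_lt G (a := 1) (by rwa [one_smul]) ht ht1

/-- star-shapedness of `I` with a margin: for `v ∈ I x` there is `b > 1` with `t • v ∈ I x` for all
`0 ≤ t ≤ b`. -/
theorem exists_gt_smul_mem_I {x : M} {v : TangentSpace (𝓡 n) x} (hv : v ∈ G.I x) :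
    ∃ b : ℝ, 1 < b ∧ ∀ t : ℝ, 0 ≤ t → t ≤ b → t • v ∈ G.I x := by
  obtain ⟨a, ha, hva⟩ := hv
  obtain ⟨b, hb1, hba⟩ := exists_between ha
  exact ⟨b, hb1, fun t ht htb => smul_mem_I_of_lt G hva ht (htb.trans_lt hba)⟩

theorem star_I (x : M) (v : TangentSpace (𝓡 n) x) (hv : v ∈ G.I x) (t : ℝ) (ht : 0 ≤ t)
    (ht1 : t ≤ 1) : t • v ∈ G.I x := by
  obtain ⟨b, hb, h⟩ := exists_gt_smul_mem_I G hv
  exact h t ht (ht1.trans hb.le)

theorem I_eq_injDomain (x : M) : G.I x = injDomain n x := by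
  rw [G.injDomain_eq x]
  ext v
  constructor
  · rintro ⟨a, ha, hv⟩
    refine ⟨a, ha, ?_⟩
    rw [mem_K, norm_smul, Real.norm_of_nonneg (zero_le_one.trans ha.le)] at hv
    exact hv
  · rintro ⟨a, ha, hv⟩
    refine ⟨a, ha, ?_⟩
    rw [mem_K, norm_smul, Real.norm_of_nonneg (zero_le_one.trans ha.le)]
    exact hv

theorem exists_mem_K (x y : M) : ∃ v ∈ G.K x, G.ex x v = y := by
  obtain ⟨v, hv, hn⟩ := G.surj x y
  exact ⟨v, by rw [mem_K, hv, hn], hv⟩

theorem norm_of_mem_K {x y : M} {v : TangentSpace (𝓡 n) x} (hv : v ∈ G.K x) (h : G.ex x v = y) :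
    ‖v‖ = dist x y := by rw [← (mem_K G).1 hv, h]

/-- short vectors are in `K` and in `I` -/
theorem mem_K_of_lt {x : M} {v : TangentSpace (𝓡 n) x} (hv : ‖v‖ < G.r₀) : v ∈ G.K x := by
  have h := G.dist_eq x v 0 1 (by simpa using hv)
  rw [ex_smul_zero, ex_one] at h
  rw [mem_K, h]; simp

theorem mem_I_of_lt {x : M} {v : TangentSpace (𝓡 n) x} (hv : ‖v‖ < G.r₀) : v ∈ G.I x := by
  rcases eq_or_ne ‖v‖ 0 with h0 | h0
  · rw [norm_eq_zero] at h0
    rw [h0]; exact zero_mem_I G x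
  · have hpos : 0 < ‖v‖ := lt_of_le_of_ne (norm_nonneg _) (Ne.symm h0)
    obtain ⟨r, hr1, hr2⟩ := exists_between hv
    refine ⟨r / ‖v‖, (one_lt_div hpos).2 hr1, mem_K_of_lt G ?_⟩
    rw [norm_smul, Real.norm_of_nonneg (div_nonneg (hpos.le.trans hr1.le) hpos.le),
      div_mul_cancel₀ _ h0]
    exact hr2

/-- second part of a minimiser -/
theorem tail (x : M) (v : TangentSpace (𝓡 n) x) (hv : v ∈ G.K x) (t : ℝ) (ht : 0 ≤ t)
    (ht1 : t ≤ 1) : (1 - t) • G.vel x v t ∈ G.K (G.ex x (t • v)) := by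
  rw [mem_K, flow, norm_smul, norm_vel, Real.norm_of_nonneg (sub_nonneg.2 ht1)]
  have h := dist_seg G (a := 1) (by rwa [one_smul]) ht ht1 le_rfl
  rwa [show t + (1 - t) = 1 by ring]

theorem tail_of {x : M} {v : TangentSpace (𝓡 n) x} {a : ℝ} (hv : a • v ∈ G.K x) {t b : ℝ}
    (ht : 0 ≤ t) (htb : t ≤ b) (hba : b ≤ a) : (b - t) • G.vel x v t ∈ G.K (G.ex x (t • v)) := by
  rw [mem_K, flow, norm_smul, norm_vel, Real.norm_of_nonneg (sub_nonneg.2 htb)]
  have h := dist_seg G hv ht htb hba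
  rwa [show t + (b - t) = b by ring]

/-- second part, interior version -/
theorem tail_I (x : M) (v : TangentSpace (𝓡 n) x) (hv : v ∈ G.I x) (t : ℝ) (ht : 0 ≤ t)
    (ht1 : t ≤ 1) : (1 - t) • G.vel x v t ∈ G.I (G.ex x (t • v)) := by
  obtain ⟨a, ha, hva⟩ := hv
  have h := tail_of G hva ht (ht1.trans ha.le) le_rfl
  exact smul_mem_I_of_lt G h (sub_nonneg.2 ht1) (by linarith)

/-- reversal formula -/
theorem rev_ex (x : M) (v : TangentSpace (𝓡 n) x) (t : ℝ) :
    G.ex (G.ex x ((1 : ℝ) • v)) (t • (-(G.vel x v 1))) = G.ex x ((1 - t) • v) := by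
  rw [smul_neg, ← neg_smul, flow, sub_eq_add_neg]

/-- reversal -/
theorem rev (x : M) (v : TangentSpace (𝓡 n) x) (hv : v ∈ G.K x) :
    -(G.vel x v 1) ∈ G.K (G.ex x ((1 : ℝ) • v)) := by
  have h := rev_ex G x v 1
  rw [one_smul ℝ (-(G.vel x v 1)), sub_self, ex_smul_zero] at h
  rw [mem_K, h, norm_neg, norm_vel, dist_comm, ex_one]
  exact (mem_K G).1 hv

/-- generic reparametrisation at time `τ` -/
theorem exists_vel (x : M) (v : TangentSpace (𝓡 n) x) (τ : ℝ) {z : M} (hz : G.ex x (τ • v) = z) :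
    ∃ p : TangentSpace (𝓡 n) z, ‖p‖ = ‖v‖ ∧
      (TotalSpace.mk z p : TangentBundle (𝓡 n) M) = G.Flow τ ⟨x, v⟩ ∧
      ∀ s : ℝ, G.ex z (s • p) = G.ex x ((τ + s) • v) := by
  subst hz
  exact ⟨G.vel x v τ, norm_vel G x v τ, rfl, fun s => flow G x v τ s⟩

/-- No corner. -/
theorem no_corner {z : M} {p q : TangentSpace (𝓡 n) z} (hp : ‖p‖ < G.r₀) (hpq : ‖p‖ = ‖q‖)
    (h : ‖p‖ + ‖q‖ ≤ dist (G.ex z p) (G.ex z q)) : p + q = 0 := by
  have key : ∀ ξ : TangentSpace (𝓡 n) z, inner ℝ (p + q) ξ = 0 := by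
    intro ξ
    have h1 := G.hasDerivAt_cost z p ξ hp
    have h2 := G.hasDerivAt_cost z q ξ (hpq ▸ hp)
    have h3 := h1.add h2
    have hmin : IsLocalMin ((fun t : ℝ => halfDistSq (G.ex z (t • ξ)) (G.ex z p)) +
        fun t : ℝ => halfDistSq (G.ex z (t • ξ)) (G.ex z q)) 0 := by
      refine Filter.Eventually.of_forall fun t => ?_
      simp only [Pi.add_apply, halfDistSq, ex_smul_zero]
      have e1 := dist_ex_le G z p
      have e2 := dist_ex_le G z q
      have e3 := dist_triangle_left (G.ex z p) (G.ex z q) (G.ex z (t • ξ))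
      have e4 : dist z (G.ex z p) ^ 2 ≤ ‖p‖ ^ 2 := by gcongr
      have e5 : dist z (G.ex z q) ^ 2 ≤ ‖p‖ ^ 2 := by rw [hpq]; gcongr
      have e6 : 2 * ‖p‖ ≤ dist (G.ex z (t • ξ)) (G.ex z p) + dist (G.ex z (t • ξ)) (G.ex z q) := by
        linarith
      nlinarith [norm_nonneg p, sq_nonneg (dist (G.ex z (t • ξ)) (G.ex z p) -
        dist (G.ex z (t • ξ)) (G.ex z q))]
    have h4 := hmin.hasDerivAt_eq_zero h3
    rw [inner_add_left]
    linarith
  exact inner_self_eq_zero.1 (key (p + q))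

/-- Uniqueness of the minimising vector towards `exp_x v` for `v ∈ I(x)`. -/
theorem uniq (x : M) (v : TangentSpace (𝓡 n) x) (hv : v ∈ G.I x) (w : TangentSpace (𝓡 n) x)
    (hw : w ∈ G.K x) (hvw : G.ex x w = G.ex x v) : w = v := by
  obtain ⟨a, ha, hva⟩ := hv
  have hvK : v ∈ G.K x := I_subset G x ⟨a, ha, hva⟩
  have hnorm : ‖w‖ = ‖v‖ := by rw [← (mem_K G).1 hw, hvw, (mem_K G).1 hvK]
  rcases eq_or_ne ‖v‖ 0 with h0 | h0
  · have h1 : v = 0 := norm_eq_zero.1 h0
    have h2 : w = 0 := norm_eq_zero.1 (hnorm.trans h0)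
    rw [h1, h2]
  have hpos : 0 < ‖v‖ := lt_of_le_of_ne (norm_nonneg _) (Ne.symm h0)
  obtain ⟨p, hp1, -, hp2⟩ := exists_vel G x v 1 (z := G.ex x v) (ex_one G x v)
  obtain ⟨q, hq1, -, hq2⟩ := exists_vel G x w 1 (z := G.ex x v) (by rw [ex_one]; exact hvw)
  -- choose a small `ε`
  obtain ⟨ε, hε0, hε1, hε2, hε3⟩ : ∃ ε : ℝ, 0 < ε ∧ ε < 1 ∧ 1 + ε ≤ a ∧ ε * ‖v‖ < G.r₀ := by
    have h1 : 0 < G.r₀ / ‖v‖ := div_pos G.r₀_pos hpos
    refine ⟨min (min (1 / 2) (a - 1)) (G.r₀ / ‖v‖ / 2), ?_, ?_, ?_, ?_⟩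
    · exact lt_min (lt_min one_half_pos (sub_pos.2 ha)) (half_pos h1)
    · exact ((min_le_left _ _).trans (min_le_left _ _)).trans_lt (by norm_num)
    · have := (min_le_left (min (1 / 2) (a - 1)) (G.r₀ / ‖v‖ / 2)).trans (min_le_right _ _)
      linarith
    · have h2 := min_le_right (min (1 / 2) (a - 1)) (G.r₀ / ‖v‖ / 2)
      calc _ ≤ G.r₀ / ‖v‖ / 2 * ‖v‖ := by gcongr
        _ = G.r₀ / 2 := by field_simp
        _ < G.r₀ := half_lt_self G.r₀_pos
  have hsum : (-ε) • q + ε • p = 0 := by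
    apply no_corner G
    · rw [norm_smul, norm_neg, Real.norm_of_nonneg hε0.le, hq1, hnorm]; exact hε3
    · rw [norm_smul, norm_smul, norm_neg, hq1, hp1, hnorm]
    · rw [norm_smul, norm_smul, norm_neg, Real.norm_of_nonneg hε0.le, hq1, hp1, hnorm, hp2, hq2]
      have e1 : dist x (G.ex x ((1 + ε) • v)) = (1 + ε) * ‖v‖ :=
        dist_from G hva (by linarith) hε2
      have e2 : dist x (G.ex x ((1 + -ε) • w)) ≤ (1 + -ε) * ‖w‖ :=
        dist_ex_smul_le G x w (by linarith)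
      have e3 := dist_triangle x (G.ex x ((1 + -ε) • w)) (G.ex x ((1 + ε) • v))
      rw [hnorm] at e2
      linarith
  have hqp : q = p := by
    have : ε • (p - q) = 0 := by rw [smul_sub, sub_eq_add_neg, ← neg_smul, add_comm]; exact hsum
    rcases smul_eq_zero.1 this with h | h
    · exact absurd h hε0.ne'
    · exact (sub_eq_zero.1 h).symm
  have hcurve : (fun t : ℝ => G.ex x (t • w)) = fun t : ℝ => G.ex x (t • v) := by
    funext t
    have h1 := hp2 (t - 1)
    have h2 := hq2 (t - 1)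
    rw [show 1 + (t - 1) = t by ring] at h1 h2
    rw [← h1, ← h2, hqp]
  have hw0 := G.vel_zero x w
  have hv0 := G.vel_zero x v
  rw [← hw0, ← hv0]
  exact congrArg (fun γ : ℝ → M => (curveVel n γ 0 : EuclideanSpace ℝ (Fin n))) hcurve

end Basic

section Smooth

variable (G : GeoData n M)

theorem continuous_ex : Continuous (fun p : TangentBundle (𝓡 n) M => G.ex p.1 p.2) :=
  G.smooth.continuous

/-- the inclusion of a fibre in the tangent bundle is smooth -/
theorem contMDiff_mk (x : M) :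
    ContMDiff 𝓘(ℝ, EuclideanSpace ℝ (Fin n)) (𝓡 n).tangent ∞
      (fun v : EuclideanSpace ℝ (Fin n) => (⟨x, v⟩ : TangentBundle (𝓡 n) M)) := by
  intro v
  rw [Bundle.contMDiffAt_totalSpace]
  refine ⟨contMDiffAt_const, ?_⟩
  have hx : x ∈ (trivializationAt (EuclideanSpace ℝ (Fin n)) (TangentSpace (𝓡 n)) x).baseSet :=
    FiberBundle.mem_baseSet_trivializationAt' x
  have : (fun v : EuclideanSpace ℝ (Fin n) =>
      (trivializationAt (EuclideanSpace ℝ (Fin n)) (TangentSpace (𝓡 n)) x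
        (⟨x, v⟩ : TangentBundle (𝓡 n) M)).2)
      = fun v : EuclideanSpace ℝ (Fin n) => (Trivialization.continuousLinearMapAt ℝ
        (trivializationAt (EuclideanSpace ℝ (Fin n)) (TangentSpace (𝓡 n)) x) x) v := by
    funext v
    have hh := Trivialization.linearMapAt_apply (R := ℝ)
      (trivializationAt (EuclideanSpace ℝ (Fin n)) (TangentSpace (𝓡 n)) x)
      (b := x) (v : TangentSpace (𝓡 n) x)
    rw [if_pos hx] at hh
    exact hh.symm
  show ContMDiffAt 𝓘(ℝ, EuclideanSpace ℝ (Fin n)) 𝓘(ℝ, EuclideanSpace ℝ (Fin n)) ∞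
    (fun v : EuclideanSpace ℝ (Fin n) =>
      (trivializationAt (EuclideanSpace ℝ (Fin n)) (TangentSpace (𝓡 n)) x
        (⟨x, v⟩ : TangentBundle (𝓡 n) M)).2) v
  rw [this]
  exact (ContinuousLinearMap.contDiff _).contMDiff.contMDiffAt

theorem contMDiff_ex (x : M) :
    ContMDiff 𝓘(ℝ, EuclideanSpace ℝ (Fin n)) (𝓡 n) ∞
      (fun v : EuclideanSpace ℝ (Fin n) => G.ex x v) :=
  G.smooth.comp (contMDiff_mk x)

/-- the identity, as a continuous linear equivalence between the tangent space with its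
Riemannian norm and the model space with its usual norm -/
noncomputable def idE (x : M) : TangentSpace (𝓡 n) x ≃L[ℝ] EuclideanSpace ℝ (Fin n) :=
  ContinuousLinearEquiv.refl ℝ (TangentSpace (𝓡 n) x)

@[simp] theorem idE_apply (x : M) (v : TangentSpace (𝓡 n) x) : idE x v = v := rfl

@[simp] theorem idE_symm_apply (x : M) (v : EuclideanSpace ℝ (Fin n)) : (idE x).symm v = v := rfl

instance finiteDimensional_tangent (x : M) : FiniteDimensional ℝ (TangentSpace (𝓡 n) x) :=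
  inferInstanceAs (FiniteDimensional ℝ (EuclideanSpace ℝ (Fin n)))

theorem properSpace_tangent (x : M) : ProperSpace (TangentSpace (𝓡 n) x) :=
  FiniteDimensional.proper_real _

theorem contDiff_idE (x : M) : ContDiff ℝ ∞ (idE (n := n) x) := (idE (n := n) x).contDiff

theorem contDiff_idE_symm (x : M) : ContDiff ℝ ∞ (idE (n := n) x).symm :=
  (idE (n := n) x).symm.contDiff

/-- geodesics are smooth -/
theorem contMDiff_geo (x : M) (v : TangentSpace (𝓡 n) x) :
    ContMDiff 𝓘(ℝ, ℝ) (𝓡 n) ∞ (fun t : ℝ => G.ex x (t • v)) := by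
  have h1 : ContMDiff 𝓘(ℝ, ℝ) 𝓘(ℝ, EuclideanSpace ℝ (Fin n)) ∞
      (fun t : ℝ => t • (idE x v)) :=
    (contDiff_id.smul contDiff_const).contMDiff
  exact (contMDiff_ex G x).comp h1

/-- continuity of `t ↦ (γ(t), b γ'(t))` along a geodesic, jointly in `(t, b)` -/
theorem continuous_flow (x : M) (v : TangentSpace (𝓡 n) x) :
    Continuous (fun q : ℝ × ℝ =>
      (⟨G.ex x (q.1 • v), q.2 • G.vel x v q.1⟩ : TangentBundle (𝓡 n) M)) := by
  have h1 := (contMDiff_geo G x v).contMDiff_tangentMap (m := 0) (by exact_mod_cast le_top)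
  have h2 : Continuous (tangentMap 𝓘(ℝ, ℝ) (𝓡 n) (fun t : ℝ => G.ex x (t • v))) := h1.continuous
  have h3 : Continuous (fun q : ℝ × ℝ => (⟨q.1, q.2⟩ : TangentBundle 𝓘(ℝ, ℝ) ℝ)) := by
    have := (tangentBundleModelSpaceHomeomorph 𝓘(ℝ, ℝ)).symm.continuous
    exact this
  have h4 := h2.comp h3
  convert h4 using 1
  funext q
  simp only [Function.comp, tangentMap]
  congr 1
  have h5 := (mfderiv 𝓘(ℝ, ℝ) (𝓡 n) (fun t : ℝ => G.ex x (t • v)) q.1).map_smul q.2 (1 : ℝ)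
  refine Eq.trans h5.symm ?_
  congr 1
  exact mul_one q.2

end Smooth

section Compact

variable [IsContMDiffRiemannianBundle (𝓡 n) ∞ (EuclideanSpace ℝ (Fin n))
  (fun p : M => TangentSpace (𝓡 n) p)] [CompactSpace M] (G : GeoData n M)

omit [IsContMDiffRiemannianBundle (𝓡 n) ∞ (EuclideanSpace ℝ (Fin n))
  (fun p : M => TangentSpace (𝓡 n) p)] in
theorem norm_le_diam {x : M} {v : TangentSpace (𝓡 n) x} (hv : v ∈ G.K x) :
    ‖v‖ ≤ Metric.diam (univ : Set M) := by
  rw [← (mem_K G).1 hv]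
  exact Metric.dist_le_diam_of_mem isCompact_univ.isBounded (mem_univ _) (mem_univ _)

omit [CompactSpace M] in
theorem isClosed_KT : IsClosed G.KT := by
  have h : G.KT = {p : TangentBundle (𝓡 n) M | dist p.1 (G.ex p.1 p.2) = ‖p.2‖} := rfl
  rw [h]
  exact isClosed_eq ((FiberBundle.continuous_proj (EuclideanSpace ℝ (Fin n))
    (fun p : M => TangentSpace (𝓡 n) p)).dist (continuous_ex G)) continuous_norm_snd

theorem isCompact_KT : IsCompact G.KT :=
  (isCompact_disc (n := n) (M := M) (Metric.diam (univ : Set M))).of_isClosed_subset (isClosed_KT G)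
    (fun _ hp => norm_le_diam G hp)

omit [IsManifold (𝓡 n) ∞ M] [IsContMDiffRiemannianBundle (𝓡 n) ∞ (EuclideanSpace ℝ (Fin n))
  (fun p : M => TangentSpace (𝓡 n) p)] [CompactSpace M]
  [RiemannianBundle (fun p : M => TangentSpace (𝓡 n) p)] in
theorem continuous_mk [IsManifold (𝓡 n) ∞ M] (x : M) :
    Continuous (fun v : TangentSpace (𝓡 n) x => (⟨x, v⟩ : TangentBundle (𝓡 n) M)) :=
  FiberBundle.continuous_totalSpaceMk (EuclideanSpace ℝ (Fin n)) (fun p : M => TangentSpace (𝓡 n) p) x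

omit [CompactSpace M] in
theorem isClosed_K (x : M) : IsClosed (G.K x) :=
  (isClosed_KT G).preimage (continuous_mk x)

theorem isCompact_K (x : M) : IsCompact (G.K x) := by
  have := properSpace_tangent (n := n) x
  refine (isCompact_closedBall (0 : TangentSpace (𝓡 n) x)
    (Metric.diam (univ : Set M))).of_isClosed_subset (isClosed_K G x) ?_
  intro v hv
  rw [mem_closedBall_zero_iff]
  exact norm_le_diam G hv

/-- Compactness + uniqueness: the minimising vectors between nearby points are nearby. -/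
theorem near_unique' {x : M} {v : TangentSpace (𝓡 n) x}
    (huniq : ∀ w ∈ G.K x, G.ex x w = G.ex x v → w = v)
    {N : Set (TangentBundle (𝓡 n) M)} (hN : N ∈ 𝓝 (⟨x, v⟩ : TangentBundle (𝓡 n) M)) :
    ∀ᶠ q : M × M in 𝓝 (x, G.ex x v), ∀ w ∈ G.K q.1, G.ex q.1 w = q.2 →
      (⟨q.1, w⟩ : TangentBundle (𝓡 n) M) ∈ N := by
  have h1 : IsCompact (G.KT \ interior N) :=
    (isCompact_KT G).diff isOpen_interior
  have hcont : Continuous (fun p : TangentBundle (𝓡 n) M => (p.1, G.ex p.1 p.2)) :=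
    (FiberBundle.continuous_proj (EuclideanSpace ℝ (Fin n))
      (fun p : M => TangentSpace (𝓡 n) p)).prodMk (continuous_ex G)
  have h2 := h1.image hcont
  have h3 : (x, G.ex x v) ∉ (fun p : TangentBundle (𝓡 n) M => (p.1, G.ex p.1 p.2)) ''
      (G.KT \ interior N) := by
    rintro ⟨⟨x', w⟩, ⟨hw, hwN⟩, hEq⟩
    simp only [Prod.mk.injEq] at hEq
    obtain ⟨rfl, h4⟩ := hEq
    have := huniq w hw h4
    subst this
    exact hwN (mem_interior_iff_mem_nhds.2 hN)
  filter_upwards [h2.isClosed.isOpen_compl.mem_nhds h3] with q hq w hw hwq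
  by_contra hcon
  apply hq
  refine ⟨⟨q.1, w⟩, ⟨hw, fun hint => hcon (interior_subset hint)⟩, ?_⟩
  simp only [hwq]

theorem near_unique {x : M} {v : TangentSpace (𝓡 n) x} (hv : v ∈ G.I x)
    {N : Set (TangentBundle (𝓡 n) M)} (hN : N ∈ 𝓝 (⟨x, v⟩ : TangentBundle (𝓡 n) M)) :
    ∀ᶠ q : M × M in 𝓝 (x, G.ex x v), ∀ w ∈ G.K q.1, G.ex q.1 w = q.2 →
      (⟨q.1, w⟩ : TangentBundle (𝓡 n) M) ∈ N :=
  near_unique' G (uniq G x v hv) hN

omit [IsContMDiffRiemannianBundle (𝓡 n) ∞ (EuclideanSpace ℝ (Fin n))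
  (fun p : M => TangentSpace (𝓡 n) p)] [CompactSpace M] in
theorem isOpen_I_of_isOpen_IT (hopen : IsOpen G.IT) (x : M) : IsOpen (G.I x) :=
  hopen.preimage (continuous_mk x)

omit [IsContMDiffRiemannianBundle (𝓡 n) ∞ (EuclideanSpace ℝ (Fin n))
  (fun p : M => TangentSpace (𝓡 n) p)] [CompactSpace M] in
/-- If the injectivity domain bundle is open, a minimiser towards a non-cut point can also be
extended backwards. -/
theorem exists_back (hopen : IsOpen G.IT) {x : M} {v : TangentSpace (𝓡 n) x} (hv : v ∈ G.I x) :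
    ∃ ε : ℝ, 0 < ε ∧ dist (G.ex x ((-ε) • v)) (G.ex x ((1 : ℝ) • v)) = (1 + ε) * ‖v‖ := by
  have hc := continuous_flow G x v
  have hc2 : Continuous (fun ε : ℝ =>
      (⟨G.ex x ((-ε) • v), (1 + ε) • G.vel x v (-ε)⟩ : TangentBundle (𝓡 n) M)) :=
    hc.comp ((continuous_neg).prodMk (continuous_const.add continuous_id))
  have h0 : (⟨G.ex x ((-(0 : ℝ)) • v), (1 + (0 : ℝ)) • G.vel x v (-(0 : ℝ))⟩ :
      TangentBundle (𝓡 n) M) ∈ G.IT := by
    have : (⟨G.ex x ((-(0 : ℝ)) • v), (1 + (0 : ℝ)) • G.vel x v (-(0 : ℝ))⟩ :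
      TangentBundle (𝓡 n) M) = ⟨x, v⟩ := by
      obtain ⟨p, -, hp, -⟩ := exists_vel G x v 0 (z := x) (ex_smul_zero G x v)
      have hp' : (⟨G.ex x ((0 : ℝ) • v), G.vel x v 0⟩ : TangentBundle (𝓡 n) M) = ⟨x, p⟩ := hp.symm
      have hvp : p = v := by
        have h5 : (G.vel x v 0 : EuclideanSpace ℝ (Fin n)) = v := G.vel_zero x v
        have h6 : (G.vel x v 0 : EuclideanSpace ℝ (Fin n)) = p := by
          have := (TotalSpace.mk.injEq _ _ _ _).mp hp'
          exact eq_of_heq this.2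
        exact h6.symm.trans h5
      rw [neg_zero, add_zero, one_smul, hp', hvp]
    rw [this]; exact hv
  have h1 : ∀ᶠ ε : ℝ in 𝓝 0, (⟨G.ex x ((-ε) • v), (1 + ε) • G.vel x v (-ε)⟩ :
      TangentBundle (𝓡 n) M) ∈ G.IT := hc2.continuousAt.eventually (hopen.mem_nhds h0)
  obtain ⟨ε, hε, hε0⟩ := ((h1.filter_mono nhdsWithin_le_nhds).and
    (self_mem_nhdsWithin : Ioi (0 : ℝ) ∈ 𝓝[>] 0)).exists
  have hε1 : 0 < ε := hε0
  refine ⟨ε, hε1, ?_⟩
  have h2 := (mem_K G).1 (I_subset G _ hε)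
  rw [flow, norm_smul, norm_vel, Real.norm_of_nonneg (by linarith)] at h2
  rw [show -ε + (1 + ε) = 1 by ring] at h2
  exact h2

omit [IsContMDiffRiemannianBundle (𝓡 n) ∞ (EuclideanSpace ℝ (Fin n))
  (fun p : M => TangentSpace (𝓡 n) p)] [CompactSpace M] in
theorem rev_I_of_isOpen_IT (hopen : IsOpen G.IT) (x : M) (v : TangentSpace (𝓡 n) x)
    (hv : v ∈ G.I x) : -(G.vel x v 1) ∈ G.I (G.ex x ((1 : ℝ) • v)) := by
  obtain ⟨ε, hε, hd⟩ := exists_back G hopen hv
  refine ⟨1 + ε, by linarith, ?_⟩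
  rw [mem_K, rev_ex, norm_smul, norm_neg, norm_vel, Real.norm_of_nonneg (by linarith)]
  rw [show 1 - (1 + ε) = -ε by ring, dist_comm]
  exact hd

end Compact

end Crest.Agent.R226.CutTop478
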