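/-
R226, layer C7 (helper128): pure calculus needed for the local Loeper maximum principle.
-/
import Mathlib.Analysis.Calculus.ContDiff.Basic
import Mathlib.Analysis.Calculus.FDeriv.Symmetric
import Mathlib.Analysis.Calculus.IteratedDeriv.Lemmas
import Mathlib.Analysis.Calculus.Deriv.Prod
import Mathlib.Analysis.Calculus.MeanValue
import Mathlib.Analysis.Calculus.Deriv.MeanValue
import Mathlib.Analysis.SpecialFunctions.ExpDeriv
import Mathlib.Topology.Order.Compact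

set_option autoImplicit false

open Set Filter
open scoped Topology ContDiff

namespace Crest.Agent.R226.LoeperCalc128

/-- one-dimensional maximum principle: `g'' ≥ -C |g'|` on `[0,1]` forces `g ≤ max (g 0) (g 1)`. -/
theorem max_principle {g g' g'' : ℝ → ℝ} {C : ℝ}
    (h1 : ∀ t ∈ Icc (0 : ℝ) 1, HasDerivAt g (g' t) t)
    (h2 : ∀ t ∈ Icc (0 : ℝ) 1, HasDerivAt g' (g'' t) t)
    (hineq : ∀ t ∈ Icc (0 : ℝ) 1, -(C * |g' t|) ≤ g'' t) :
    ∀ t ∈ Icc (0 : ℝ) 1, g t ≤ max (g 0) (g 1) := by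
  -- once positive, the derivative stays positive
  have key : ∀ a ∈ Icc (0 : ℝ) 1, 0 < g' a → ∀ s ∈ Icc a 1, 0 < g' s := by
    intro a ha hpos s hs
    by_contra hcon
    push Not at hcon
    have hcont : ContinuousOn g' (Icc a s) := fun t ht =>
      (h2 t ⟨ha.1.trans ht.1, ht.2.trans hs.2⟩).continuousAt.continuousWithinAt
    -- the set of bad points
    have hcl : IsCompact {t ∈ Icc a s | g' t ≤ 0} := by
      have : {t ∈ Icc a s | g' t ≤ 0} = Icc a s ∩ g' ⁻¹' (Iic 0) := rfl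
      rw [this]
      exact isCompact_Icc.of_isClosed_subset
        (hcont.preimage_isClosed_of_isClosed isClosed_Icc isClosed_Iic) inter_subset_left
    obtain ⟨b, hb⟩ := hcl.exists_isLeast ⟨s, ⟨hs.1, le_rfl⟩, hcon⟩
    have hbm : b ∈ Icc a s := hb.1.1
    have hb0 : g' b ≤ 0 := hb.1.2
    have hpos' : ∀ t ∈ Ico a b, 0 < g' t := by
      intro t ht
      by_contra h
      push Not at h
      exact absurd (hb.2 ⟨⟨ht.1, ht.2.le.trans hbm.2⟩, h⟩) (not_le.2 ht.2)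
    -- the function `exp (C t) g' t` is monotone on `[a,b]`
    have hmono : MonotoneOn (fun t => Real.exp (C * t) * g' t) (Icc a b) := by
      have hd : ∀ t ∈ Icc a b, HasDerivAt (fun t => Real.exp (C * t) * g' t)
          (Real.exp (C * t) * C * g' t + Real.exp (C * t) * g'' t) t := by
        intro t ht
        have e1 : HasDerivAt (fun t => Real.exp (C * t)) (Real.exp (C * t) * C) t := by
          have := ((hasDerivAt_id t).const_mul C).exp
          simpa using this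
        exact e1.mul (h2 t ⟨ha.1.trans ht.1, ht.2.trans (hbm.2.trans hs.2)⟩)
      apply monotoneOn_of_deriv_nonneg (convex_Icc a b)
      · exact fun t ht => (hd t ht).continuousAt.continuousWithinAt
      · intro t ht
        rw [interior_Icc] at ht
        exact (hd t ⟨ht.1.le, ht.2.le⟩).differentiableAt.differentiableWithinAt
      · intro t ht
        rw [interior_Icc] at ht
        rw [(hd t ⟨ht.1.le, ht.2.le⟩).deriv]
        have hp := hpos' t ⟨ht.1.le, ht.2⟩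
        have hi := hineq t ⟨ha.1.trans ht.1.le, ht.2.le.trans (hbm.2.trans hs.2)⟩
        rw [abs_of_pos hp] at hi
        have he := Real.exp_pos (C * t)
        have : 0 ≤ Real.exp (C * t) * (C * g' t + g'' t) :=
          mul_nonneg he.le (by linarith)
        nlinarith [this]
    have hle := hmono (left_mem_Icc.2 hbm.1) (right_mem_Icc.2 hbm.1) hbm.1
    have h3 : 0 < Real.exp (C * a) * g' a := mul_pos (Real.exp_pos _) hpos
    have h4 : Real.exp (C * b) * g' b ≤ 0 :=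
      mul_nonpos_of_nonneg_of_nonpos (Real.exp_pos _).le hb0
    simp only at hle
    linarith
  intro t ht
  by_contra hcon
  push Not at hcon
  have hg0 : g 0 < g t := lt_of_le_of_lt (le_max_left _ _) hcon
  have hg1 : g 1 < g t := lt_of_le_of_lt (le_max_right _ _) hcon
  have h0t : 0 < t := by
    rcases lt_or_eq_of_le ht.1 with h | h
    · exact h
    · rw [← h] at hg0; exact absurd hg0 (lt_irrefl _)
  -- mean value theorem
  obtain ⟨a, ha, hda⟩ := exists_hasDerivAt_eq_slope g g' h0t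
    (fun s hs => (h1 s ⟨hs.1, hs.2.trans ht.2⟩).continuousAt.continuousWithinAt)
    (fun s hs => h1 s ⟨hs.1.le, hs.2.le.trans ht.2⟩)
  have hpa : 0 < g' a := by
    rw [hda]; apply div_pos <;> linarith
  have ham : a ∈ Icc (0 : ℝ) 1 := ⟨ha.1.le, ha.2.le.trans ht.2⟩
  have hpos := key a ham hpa
  have hmono : MonotoneOn g (Icc a 1) := by
    apply monotoneOn_of_deriv_nonneg (convex_Icc a 1)
    · exact fun s hs => (h1 s ⟨ham.1.trans hs.1, hs.2⟩).continuousAt.continuousWithinAt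
    · intro s hs
      rw [interior_Icc] at hs
      exact (h1 s ⟨ham.1.trans hs.1.le, hs.2.le⟩).differentiableAt.differentiableWithinAt
    · intro s hs
      rw [interior_Icc] at hs
      rw [(h1 s ⟨ham.1.trans hs.1.le, hs.2.le⟩).deriv]
      exact (hpos s ⟨hs.1.le, hs.2.le⟩).le
  have := hmono ⟨ha.2.le, ht.2⟩ (right_mem_Icc.2 ham.2) ht.2
  linarith

/-- second derivative of `F ∘ c`. -/
theorem iteratedDeriv_two_comp {E : Type*} [NormedAddCommGroup E] [NormedSpace ℝ E]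
    {F : E → ℝ} {c : ℝ → E} {t : ℝ} (hF : ContDiffAt ℝ 2 F (c t)) (hc : ContDiffAt ℝ 2 c t) :
    iteratedDeriv 2 (fun s => F (c s)) t =
      fderiv ℝ (fderiv ℝ F) (c t) (deriv c t) (deriv c t) + fderiv ℝ F (c t) (deriv (deriv c) t) := by
  have h2 : (2 : WithTop ℕ∞) ≠ 0 := by norm_num
  have hF1 : ∀ᶠ z in 𝓝 (c t), ContDiffAt ℝ 2 F z := hF.eventually (by simp)
  have hc1 : ∀ᶠ s in 𝓝 t, ContDiffAt ℝ 2 c s := hc.eventually (by simp)
  have hcc : ContinuousAt c t := hc.continuousAt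
  have hev : deriv (fun s => F (c s)) =ᶠ[𝓝 t] fun s => fderiv ℝ F (c s) (deriv c s) := by
    filter_upwards [hcc.eventually hF1, hc1] with s hs1 hs2
    exact ((hs1.differentiableAt (by norm_num)).hasFDerivAt.comp_hasDerivAt s
      (hs2.differentiableAt (by norm_num)).hasDerivAt).deriv
  rw [iteratedDeriv_succ, iteratedDeriv_one, hev.deriv_eq]
  have hdF : DifferentiableAt ℝ (fderiv ℝ F) (c t) :=
    (hF.fderiv_right (m := 1) (by norm_num)).differentiableAt (by norm_num)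
  have hdc : DifferentiableAt ℝ (deriv c) t := by
    have : ContDiffAt ℝ 1 (deriv c) t := by
      have h := hc.fderiv_right (m := 1) (by norm_num)
      exact h.clm_apply contDiffAt_const
    exact this.differentiableAt (by norm_num)
  have e1 : HasDerivAt (fun s => fderiv ℝ F (c s)) (fderiv ℝ (fderiv ℝ F) (c t) (deriv c t)) t :=
    hdF.hasFDerivAt.comp_hasDerivAt t (hc.differentiableAt (by norm_num)).hasDerivAt
  exact (e1.clm_apply hdc.hasDerivAt).deriv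

section mixed

variable {f : ℝ × ℝ → ℝ}

/-- `∂₁` -/
noncomputable def D1 (f : ℝ × ℝ → ℝ) (z : ℝ × ℝ) : ℝ := fderiv ℝ f z (1, 0)
/-- `∂₂` -/
noncomputable def D2 (f : ℝ × ℝ → ℝ) (z : ℝ × ℝ) : ℝ := fderiv ℝ f z (0, 1)

theorem contDiffAt_D1 {z : ℝ × ℝ} {m k : WithTop ℕ∞} (hf : ContDiffAt ℝ k f z)
    (hmk : m + 1 ≤ k) : ContDiffAt ℝ m (D1 f) z :=
  (hf.fderiv_right hmk).clm_apply contDiffAt_const

theorem contDiffAt_D2 {z : ℝ × ℝ} {m k : WithTop ℕ∞} (hf : ContDiffAt ℝ k f z)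
    (hmk : m + 1 ≤ k) : ContDiffAt ℝ m (D2 f) z :=
  (hf.fderiv_right hmk).clm_apply contDiffAt_const

theorem D1_D2_comm {z : ℝ × ℝ} (hf : ContDiffAt ℝ 2 f z) : D1 (D2 f) z = D2 (D1 f) z := by
  have hsym : IsSymmSndFDerivAt ℝ f z :=
    hf.isSymmSndFDerivAt (by simp)
  have hd : DifferentiableAt ℝ (fderiv ℝ f) z :=
    (hf.fderiv_right (m := 1) (by norm_num)).differentiableAt (by simp)
  have e1 : D1 (D2 f) z = fderiv ℝ (fderiv ℝ f) z (1, 0) (0, 1) := by
    unfold D1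
    have : HasFDerivAt (D2 f) ((fderiv ℝ (fderiv ℝ f) z).flip ((0 : ℝ), (1 : ℝ))) z := by
      have h := hd.hasFDerivAt.clm_apply (hasFDerivAt_const ((0 : ℝ), (1 : ℝ)) z)
      rw [ContinuousLinearMap.comp_zero, zero_add] at h
      exact h
    rw [this.fderiv]
    rfl
  have e2 : D2 (D1 f) z = fderiv ℝ (fderiv ℝ f) z (0, 1) (1, 0) := by
    unfold D2
    have : HasFDerivAt (D1 f) ((fderiv ℝ (fderiv ℝ f) z).flip ((1 : ℝ), (0 : ℝ))) z := by
      have h := hd.hasFDerivAt.clm_apply (hasFDerivAt_const ((1 : ℝ), (0 : ℝ)) z)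
      rw [ContinuousLinearMap.comp_zero, zero_add] at h
      exact h
    rw [this.fderiv]
    rfl
  rw [e1, e2]
  exact hsym _ _

theorem hasDerivAt_left {z : ℝ × ℝ} (hf : DifferentiableAt ℝ f z) :
    HasDerivAt (fun s => f (s, z.2)) (D1 f z) z.1 := by
  have h1 : HasDerivAt (fun s : ℝ => (s, z.2)) ((1 : ℝ), (0 : ℝ)) z.1 :=
    (hasDerivAt_id z.1).prodMk (hasDerivAt_const z.1 z.2)
  exact (show HasFDerivAt f (fderiv ℝ f z) ((fun s : ℝ => (s, z.2)) z.1) from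
    hf.hasFDerivAt).comp_hasDerivAt z.1 h1

theorem hasDerivAt_right {z : ℝ × ℝ} (hf : DifferentiableAt ℝ f z) :
    HasDerivAt (fun s => f (z.1, s)) (D2 f z) z.2 := by
  have h1 : HasDerivAt (fun s : ℝ => (z.1, s)) ((0 : ℝ), (1 : ℝ)) z.2 :=
    (hasDerivAt_const z.2 z.1).prodMk (hasDerivAt_id z.2)
  exact (show HasFDerivAt f (fderiv ℝ f z) ((fun s : ℝ => (z.1, s)) z.2) from
    hf.hasFDerivAt).comp_hasDerivAt z.2 h1

/-- second derivative in the second variable -/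
theorem iteratedDeriv_two_right {s t : ℝ} (hf : ContDiffAt ℝ 2 f (s, t)) :
    iteratedDeriv 2 (fun τ => f (s, τ)) t = D2 (D2 f) (s, t) := by
  have hev : ∀ᶠ z in 𝓝 (s, t), ContDiffAt ℝ 2 f z := hf.eventually (by simp)
  have hcont : ContinuousAt (fun τ : ℝ => (s, τ)) t := by fun_prop
  have h1 : deriv (fun τ => f (s, τ)) =ᶠ[𝓝 t] fun τ => D2 f (s, τ) := by
    filter_upwards [hcont.eventually hev] with τ hτ
    exact (hasDerivAt_right (z := (s, τ)) (hτ.differentiableAt (by simp))).deriv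
  rw [iteratedDeriv_succ, iteratedDeriv_one, h1.deriv_eq]
  exact (hasDerivAt_right (z := (s, t))
    ((contDiffAt_D2 (m := 1) hf (by norm_num)).differentiableAt (by simp))).deriv

/-- If `∂₁ f (s₀, τ)` is affine in `τ` near `t₀`, then `s ↦ ∂₂² f (s, t₀)` has zero derivative at
`s₀`. -/
theorem hasDerivAt_iteratedDeriv_two {s₀ t₀ a b : ℝ} (hf : ContDiffAt ℝ 3 f (s₀, t₀))
    (haff : ∀ᶠ τ in 𝓝 t₀, HasDerivAt (fun s => f (s, τ)) (a + τ * b) s₀) :
    HasDerivAt (fun s => iteratedDeriv 2 (fun τ => f (s, τ)) t₀) 0 s₀ := by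
  have hev : ∀ᶠ z in 𝓝 (s₀, t₀), ContDiffAt ℝ 3 f z := hf.eventually (by simp)
  have hcont1 : ContinuousAt (fun s : ℝ => (s, t₀)) s₀ := by fun_prop
  have hcont2 : ContinuousAt (fun τ : ℝ => (s₀, τ)) t₀ := by fun_prop
  have h1 : (fun s => iteratedDeriv 2 (fun τ => f (s, τ)) t₀) =ᶠ[𝓝 s₀]
      fun s => D2 (D2 f) (s, t₀) := by
    filter_upwards [hcont1.eventually hev] with s hs
    exact iteratedDeriv_two_right (hs.of_le (by norm_num))
  have hD2 : ContDiffAt ℝ 2 (D2 f) (s₀, t₀) := contDiffAt_D2 hf (by norm_num)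
  have hD1 : ContDiffAt ℝ 2 (D1 f) (s₀, t₀) := contDiffAt_D1 hf (by norm_num)
  have h2 : HasDerivAt (fun s => D2 (D2 f) (s, t₀)) (D1 (D2 (D2 f)) (s₀, t₀)) s₀ :=
    hasDerivAt_left (z := (s₀, t₀))
      ((contDiffAt_D2 (m := 1) hD2 (by norm_num)).differentiableAt (by simp))
  have h3 : D1 (D2 (D2 f)) (s₀, t₀) = D2 (D2 (D1 f)) (s₀, t₀) := by
    rw [D1_D2_comm hD2]
    have : D1 (D2 f) =ᶠ[𝓝 (s₀, t₀)] D2 (D1 f) := by
      filter_upwards [hev] with z hz
      exact D1_D2_comm (hz.of_le (by norm_num))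
    change fderiv ℝ (D1 (D2 f)) (s₀, t₀) (0, 1) = fderiv ℝ (D2 (D1 f)) (s₀, t₀) (0, 1)
    rw [this.fderiv_eq]
  have h4 : D2 (D2 (D1 f)) (s₀, t₀) = 0 := by
    rw [← iteratedDeriv_two_right hD1]
    have h5 : (fun τ => D1 f (s₀, τ)) =ᶠ[𝓝 t₀] fun τ => a + τ * b := by
      filter_upwards [haff, hcont2.eventually hev] with τ h6 h7
      exact (hasDerivAt_left (z := (s₀, τ)) (h7.differentiableAt (by simp))).unique h6
    rw [iteratedDeriv_succ, iteratedDeriv_one]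
    have h8 : deriv (fun τ => D1 f (s₀, τ)) =ᶠ[𝓝 t₀] fun _ => b := by
      have := h5.eventuallyEq_nhds
      filter_upwards [this] with τ hτ
      rw [hτ.deriv_eq]
      simp
    rw [h8.deriv_eq]
    simp
  rw [h3, h4] at h2
  exact h2.congr_of_eventuallyEq h1

end mixed

section lip

variable {E : Type*} [NormedAddCommGroup E] [NormedSpace ℝ E]

/-- local Lipschitz bound for second derivatives in the middle variable. -/
theorem exists_lip_second {H : E × E × E → ℝ} {a Q : E} (hH : ContDiffAt ℝ 3 H (a, 0, Q)) :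
    ∃ t ∈ 𝓝 (a, Q), ∃ K : ℝ, 0 ≤ K ∧ ∀ z₁ ∈ t, ∀ z₂ ∈ t, ∀ Z : E,
      |iteratedDeriv 2 (fun s : ℝ => H (z₁.1, s • Z, z₁.2)) 0 -
        iteratedDeriv 2 (fun s : ℝ => H (z₂.1, s • Z, z₂.2)) 0| ≤ K * ‖Z‖ ^ 2 * dist z₁ z₂ := by
  have hR : ContDiffAt ℝ 1 (fun z : E × E => fderiv ℝ (fderiv ℝ H) (z.1, 0, z.2)) (a, Q) := by
    have h1 : ContDiffAt ℝ 1 (fderiv ℝ (fderiv ℝ H)) (a, 0, Q) :=
      (hH.fderiv_right (m := 2) (by norm_num)).fderiv_right (m := 1) (by norm_num)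
    have h2 : ContDiffAt ℝ 1 (fun z : E × E => (z.1, (0 : E), z.2)) (a, Q) := by fun_prop
    exact h1.comp (a, Q) h2
  obtain ⟨K, t, ht, hK⟩ := hR.exists_lipschitzOnWith
  have hcont : ContinuousAt (fun z : E × E => (z.1, (0 : E), z.2)) (a, Q) := by fun_prop
  have hHev : ∀ᶠ z : E × E in 𝓝 (a, Q), ContDiffAt ℝ 3 H (z.1, 0, z.2) :=
    hcont.eventually (hH.eventually (by simp))
  refine ⟨t ∩ {z | ContDiffAt ℝ 3 H (z.1, 0, z.2)}, inter_mem ht hHev, K, K.coe_nonneg, ?_⟩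
  rintro z₁ ⟨ht1, hc1⟩ z₂ ⟨ht2, hc2⟩ Z
  have key : ∀ z : E × E, ContDiffAt ℝ 3 H (z.1, 0, z.2) →
      iteratedDeriv 2 (fun s : ℝ => H (z.1, s • Z, z.2)) 0 =
        fderiv ℝ (fderiv ℝ H) (z.1, 0, z.2) (0, Z, 0) (0, Z, 0) := by
    intro z hc
    have hc' : ContDiffAt ℝ 2 H ((fun s : ℝ => (z.1, s • Z, z.2)) 0) := by
      simp only [zero_smul]
      exact hc.of_le (by norm_num)
    have hcs : ContDiffAt ℝ 2 (fun s : ℝ => (z.1, s • Z, z.2)) 0 := by fun_prop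
    have h3 := iteratedDeriv_two_comp hc' hcs
    have hd : ∀ s : ℝ, HasDerivAt (fun s : ℝ => (z.1, s • Z, z.2)) ((0 : E), Z, (0 : E)) s := by
      intro s
      have h8 : HasDerivAt (fun s : ℝ => s • Z) Z s := by
        simpa using (hasDerivAt_id s).smul_const Z
      exact (hasDerivAt_const s _).prodMk (h8.prodMk (hasDerivAt_const s _))
    have hd1 : deriv (fun s : ℝ => (z.1, s • Z, z.2)) = fun _ => ((0 : E), Z, (0 : E)) := by
      funext s; exact (hd s).deriv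
    rw [hd1] at h3
    simp only [deriv_const, map_zero, add_zero, zero_smul] at h3
    exact h3
  rw [key z₁ hc1, key z₂ hc2]
  have h1 := hK.dist_le_mul _ ht1 _ ht2
  rw [dist_eq_norm] at h1
  obtain ⟨D, hD⟩ : ∃ D : (E × E × E) →L[ℝ] (E × E × E) →L[ℝ] ℝ,
      D = fderiv ℝ (fderiv ℝ H) (z₁.1, 0, z₁.2) - fderiv ℝ (fderiv ℝ H) (z₂.1, 0, z₂.2) := ⟨_, rfl⟩
  have h3 : ‖D‖ ≤ K * dist z₁ z₂ := by
    rw [hD]; exact h1
  have h4 : fderiv ℝ (fderiv ℝ H) (z₁.1, 0, z₁.2) (0, Z, 0) (0, Z, 0) -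
      fderiv ℝ (fderiv ℝ H) (z₂.1, 0, z₂.2) (0, Z, 0) (0, Z, 0) = D (0, Z, 0) (0, Z, 0) := by
    rw [hD]; rfl
  rw [h4, ← Real.norm_eq_abs]
  have h5 : ‖((0 : E), Z, (0 : E))‖ = ‖Z‖ := by
    simp [Prod.norm_def]
  have h6 := ContinuousLinearMap.le_opNorm₂ D ((0 : E), Z, (0 : E)) ((0 : E), Z, (0 : E))
  rw [h5] at h6
  calc ‖D (0, Z, 0) (0, Z, 0)‖ ≤ ‖D‖ * ‖Z‖ * ‖Z‖ := h6
    _ ≤ (K * dist z₁ z₂) * ‖Z‖ * ‖Z‖ := by gcongr
    _ = K * ‖Z‖ ^ 2 * dist z₁ z₂ := by ring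

end lip

end Crest.Agent.R226.LoeperCalc128
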