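/-
R226, layer C7 (helper128): manifold calculus for the local Loeper maximum principle.
-/
import Crest.Agent.R226.CutFacts_484
import Crest.Agent.R226.LoeperCalc_128

set_option autoImplicit false

open MeasureTheory Bundle Set Filter
open scoped Manifold ContDiff Bundle ENNReal Topology
open Crest.GeometryTopology.MTW

namespace Crest.Agent.R226.LoeperMfd128

open Crest.Agent.R226.LoeperCalc128

section basic

variable {n : ℕ} {M : Type*} [MetricSpace M] [ChartedSpace (EuclideanSpace ℝ (Fin n)) M]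

/-- manifold derivative of a function as a linear form on the model space. -/
noncomputable def md (h : M → ℝ) (x : M) : EE n →L[ℝ] ℝ := mfderiv (𝓡 n) 𝓘(ℝ, ℝ) h x

/-- velocity of a curve as an element of the model space. -/
noncomputable def cv (γ : ℝ → M) (t : ℝ) : EE n := curveVel n γ t

theorem hasDerivAt_comp_curve {h : M → ℝ} {γ : ℝ → M} {t : ℝ}
    (hh : MDifferentiableAt (𝓡 n) 𝓘(ℝ, ℝ) h (γ t))
    (hγ : MDifferentiableAt 𝓘(ℝ, ℝ) (𝓡 n) γ t) :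
    HasDerivAt (fun s => h (γ s)) (md (n := n) h (γ t) (cv (n := n) γ t)) t := by
  have h1 : HasMFDerivAt 𝓘(ℝ, ℝ) 𝓘(ℝ, ℝ) (h ∘ γ) t
      ((mfderiv (𝓡 n) 𝓘(ℝ, ℝ) h (γ t)).comp (mfderiv 𝓘(ℝ, ℝ) (𝓡 n) γ t)) :=
    hh.hasMFDerivAt.comp t hγ.hasMFDerivAt
  have h2 : HasFDerivAt (h ∘ γ) ((md (n := n) h (γ t)).comp
      (mfderiv 𝓘(ℝ, ℝ) (𝓡 n) γ t : ℝ →L[ℝ] EE n)) t := hasMFDerivAt_iff_hasFDerivAt.1 h1
  exact h2.hasDerivAt

end basic

variable {n : ℕ} {M : Type*} [MetricSpace M] [ChartedSpace (EuclideanSpace ℝ (Fin n)) M]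
  [IsManifold (𝓡 n) ∞ M]

theorem contMDiff_line (y : M) (q d : TangentSpace (𝓡 n) y) :
    ContMDiff 𝓘(ℝ, ℝ) (𝓡 n).tangent ∞
      (fun s : ℝ => (⟨y, q + s • d⟩ : TangentBundle (𝓡 n) M)) := by
  intro s
  rw [Bundle.contMDiffAt_totalSpace]
  refine ⟨contMDiffAt_const, ?_⟩
  have : (fun s : ℝ => ((trivializationAt (EuclideanSpace ℝ (Fin n)) (TangentSpace (𝓡 n)) y)
      (⟨y, q + s • d⟩ : TangentBundle (𝓡 n) M)).2) = fun s : ℝ =>
      (trivializationAt (EuclideanSpace ℝ (Fin n)) (TangentSpace (𝓡 n)) y).continuousLinearMapAt ℝ y q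
      + s • (trivializationAt (EuclideanSpace ℝ (Fin n)) (TangentSpace (𝓡 n)) y).continuousLinearMapAt ℝ y d := by
    funext s
    rw [← map_smul, ← map_add]
    have hy : y ∈ (trivializationAt (EuclideanSpace ℝ (Fin n)) (TangentSpace (𝓡 n)) y).baseSet :=
      FiberBundle.mem_baseSet_trivializationAt' y
    rw [Bundle.Trivialization.continuousLinearMapAt_apply,
      Bundle.Trivialization.coe_linearMapAt_of_mem _ hy]
  rw [this]
  apply ContDiffAt.contMDiffAt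
  fun_prop

/-- chain rule for a chart-valued map. -/
theorem hasDerivAt_comp_curve' {E : Type*} [NormedAddCommGroup E] [NormedSpace ℝ E]
    {h : M → E} {γ : ℝ → M} {t : ℝ} {x : M} (hx : γ t = x)
    (hh : MDifferentiableAt (𝓡 n) 𝓘(ℝ, E) h x)
    (hγ : MDifferentiableAt 𝓘(ℝ, ℝ) (𝓡 n) γ t) :
    HasDerivAt (fun s => h (γ s)) ((mfderiv (𝓡 n) 𝓘(ℝ, E) h x : EE n →L[ℝ] E)
      (cv (n := n) γ t)) t := by
  subst hx
  obtain ⟨L1, hL1⟩ : ∃ L1 : EE n →L[ℝ] E, L1 = mfderiv (𝓡 n) 𝓘(ℝ, E) h (γ t) := ⟨_, rfl⟩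
  obtain ⟨L2, hL2⟩ : ∃ L2 : ℝ →L[ℝ] EE n, L2 = mfderiv 𝓘(ℝ, ℝ) (𝓡 n) γ t := ⟨_, rfl⟩
  have h1 : HasMFDerivAt 𝓘(ℝ, ℝ) 𝓘(ℝ, E) (h ∘ γ) t
      ((mfderiv (𝓡 n) 𝓘(ℝ, E) h (γ t)).comp (mfderiv 𝓘(ℝ, ℝ) (𝓡 n) γ t)) :=
    hh.hasMFDerivAt.comp t hγ.hasMFDerivAt
  have h2 : HasFDerivAt (h ∘ γ) (L1.comp L2) t := by
    subst hL1 hL2
    exact hasMFDerivAt_iff_hasFDerivAt.1 h1
  have h3 : HasDerivAt (h ∘ γ) ((L1.comp L2) 1) t := h2.hasDerivAt
  have h4 : (L1.comp L2) 1 = L1 (cv (n := n) γ t) := by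
    subst hL2
    rfl
  rw [h4, hL1] at h3
  exact h3

theorem md_eq_fderiv {h : M → ℝ} {y : M} (hh : MDifferentiableAt (𝓡 n) 𝓘(ℝ, ℝ) h y) :
    md (n := n) h y = fderiv ℝ (fun a => h ((extChartAt (𝓡 n) y).symm a)) (extChartAt (𝓡 n) y y) := by
  unfold md
  rw [hh.mfderiv]
  simp only [writtenInExtChartAt, fderivWithin_univ, mfld_simps]
  rfl

/-- the second derivatives of `h` along two curves with the same velocity differ by a linear
function of `dh`. -/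
theorem second_deriv_two_curves {y : M} {Y Z : ℝ → M}
    (hY : ContMDiffAt 𝓘(ℝ, ℝ) (𝓡 n) 2 Y 0) (hZ : ContMDiffAt 𝓘(ℝ, ℝ) (𝓡 n) 2 Z 0)
    (hY0 : Y 0 = y) (hZ0 : Z 0 = y) (hv : cv (n := n) Y 0 = cv (n := n) Z 0) :
    ∃ A : EE n, ∀ h : M → ℝ, ContMDiffAt (𝓡 n) 𝓘(ℝ, ℝ) 2 h y →
      iteratedDeriv 2 (fun τ => h (Y τ)) 0 =
        iteratedDeriv 2 (fun τ => h (Z τ)) 0 + md (n := n) h y A := by
  have hφ : ContMDiffAt (𝓡 n) 𝓘(ℝ, EuclideanSpace ℝ (Fin n)) 2 (extChartAt (𝓡 n) y) y :=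
    contMDiffAt_extChartAt
  have key : ∀ X : ℝ → M, ContMDiffAt 𝓘(ℝ, ℝ) (𝓡 n) 2 X 0 → X 0 = y →
      ContDiffAt ℝ 2 (fun τ => extChartAt (𝓡 n) y (X τ)) 0 ∧
      deriv (fun τ => extChartAt (𝓡 n) y (X τ)) 0 =
        (mfderiv (𝓡 n) 𝓘(ℝ, EuclideanSpace ℝ (Fin n)) (extChartAt (𝓡 n) y) y :
          EE n →L[ℝ] EE n) (cv (n := n) X 0) ∧
      ∀ h : M → ℝ, ContMDiffAt (𝓡 n) 𝓘(ℝ, ℝ) 2 h y →
        iteratedDeriv 2 (fun τ => h (X τ)) 0 =
          fderiv ℝ (fderiv ℝ (fun a => h ((extChartAt (𝓡 n) y).symm a))) (extChartAt (𝓡 n) y y)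
            (deriv (fun τ => extChartAt (𝓡 n) y (X τ)) 0)
            (deriv (fun τ => extChartAt (𝓡 n) y (X τ)) 0) +
          fderiv ℝ (fun a => h ((extChartAt (𝓡 n) y).symm a)) (extChartAt (𝓡 n) y y)
            (deriv (deriv (fun τ => extChartAt (𝓡 n) y (X τ))) 0) := by
    intro X hX hX0
    have hφ' : ContMDiffAt (𝓡 n) 𝓘(ℝ, EuclideanSpace ℝ (Fin n)) 2 (extChartAt (𝓡 n) y) (X 0) := by
      rw [hX0]; exact hφ
    have h1 : ContDiffAt ℝ 2 (fun τ => extChartAt (𝓡 n) y (X τ)) 0 :=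
      contMDiffAt_iff_contDiffAt.1 (hφ'.comp 0 hX)
    refine ⟨h1, ?_, ?_⟩
    · exact (hasDerivAt_comp_curve' hX0 (hφ.mdifferentiableAt (by norm_num))
        (hX.mdifferentiableAt (by norm_num))).deriv
    · intro h hh
      have hsymm : ContMDiffAt 𝓘(ℝ, EuclideanSpace ℝ (Fin n)) (𝓡 n) 2 (extChartAt (𝓡 n) y).symm
          (extChartAt (𝓡 n) y y) :=
        (contMDiffOn_extChartAt_symm y).contMDiffAt (extChartAt_target_mem_nhds y)
      have hht : ContDiffAt ℝ 2 (fun a => h ((extChartAt (𝓡 n) y).symm a))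
          (extChartAt (𝓡 n) y y) := by
        have hh' : ContMDiffAt (𝓡 n) 𝓘(ℝ, ℝ) 2 h ((extChartAt (𝓡 n) y).symm
            (extChartAt (𝓡 n) y y)) := by
          rw [extChartAt_to_inv]; exact hh
        exact contMDiffAt_iff_contDiffAt.1 (hh'.comp _ hsymm)
      have hev : (fun τ => h (X τ)) =ᶠ[𝓝 0] fun τ =>
          (fun a => h ((extChartAt (𝓡 n) y).symm a)) ((fun τ => extChartAt (𝓡 n) y (X τ)) τ) := by
        have hsrc : ∀ᶠ τ in 𝓝 (0 : ℝ), X τ ∈ (extChartAt (𝓡 n) y).source := by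
          apply hX.continuousAt.eventually
          rw [hX0]
          exact extChartAt_source_mem_nhds y
        filter_upwards [hsrc] with τ hτ
        simp only [(extChartAt (𝓡 n) y).left_inv hτ]
      have e0 : iteratedDeriv 2 (fun τ => h (X τ)) 0 = iteratedDeriv 2 (fun τ =>
          (fun a => h ((extChartAt (𝓡 n) y).symm a)) ((fun τ => extChartAt (𝓡 n) y (X τ)) τ)) 0 := by
        exact hev.iteratedDeriv_eq 2
      have e1 := iteratedDeriv_two_comp (F := fun a => h ((extChartAt (𝓡 n) y).symm a))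
        (c := fun τ => extChartAt (𝓡 n) y (X τ)) (t := 0) (by simpa only [hX0] using hht) h1
      simp only [hX0] at e1
      exact e0.trans e1
  obtain ⟨-, hY1, hY2⟩ := key Y hY hY0
  obtain ⟨-, hZ1, hZ2⟩ := key Z hZ hZ0
  refine ⟨deriv (deriv (fun τ => extChartAt (𝓡 n) y (Y τ))) 0 -
    deriv (deriv (fun τ => extChartAt (𝓡 n) y (Z τ))) 0, ?_⟩
  intro h hh
  rw [hY2 h hh, hZ2 h hh, hY1, hZ1, hv, md_eq_fderiv (hh.mdifferentiableAt (by norm_num)),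
    map_sub]
  ring

end Crest.Agent.R226.LoeperMfd128
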