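/-
R226, layer C7 (helper128): the pointwise inequality `g'' ≥ - C |g'|` of the local Loeper principle.
-/
import Crest.Agent.R226.LoeperMfd_128

set_option autoImplicit false

open MeasureTheory Bundle Set Filter
open scoped Manifold ContDiff Bundle ENNReal Topology
open Crest.GeometryTopology.MTW

namespace Crest.Agent.R226.LoeperPt128

open Crest.Agent.R226.LoeperCalc128 Crest.Agent.R226.LoeperMfd128

variable {n : ℕ} {M : Type*} [MetricSpace M] [ChartedSpace (EuclideanSpace ℝ (Fin n)) M]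
  [IsManifold (𝓡 n) ∞ M]
  [RiemannianBundle (fun p : M => TangentSpace (𝓡 n) p)]

theorem two_le_infty : (2 : WithTop ℕ∞) ≤ ((⊤ : ℕ∞) : WithTop ℕ∞) := WithTop.coe_le_coe.2 (le_top : (2 : ℕ∞) ≤ ⊤)
theorem three_le_infty : (3 : WithTop ℕ∞) ≤ ((⊤ : ℕ∞) : WithTop ℕ∞) := WithTop.coe_le_coe.2 (le_top : (3 : ℕ∞) ≤ ⊤)

theorem contMDiff_ex_line (G : GeoData n M) (y : M) (q d : TangentSpace (𝓡 n) y) :
    ContMDiff 𝓘(ℝ, ℝ) (𝓡 n) ∞ (fun s : ℝ => G.ex y (q + s • d)) :=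
  G.smooth.comp (contMDiff_line y q d)

theorem contMDiff_ex_ray (G : GeoData n M) (y : M) (d : TangentSpace (𝓡 n) y) :
    ContMDiff 𝓘(ℝ, ℝ) (𝓡 n) ∞ (fun s : ℝ => G.ex y (s • d)) := by
  have := contMDiff_ex_line G y 0 d
  simpa using this

theorem halfDistSq_comm' (x y : M) : halfDistSq x y = halfDistSq y x := by
  unfold halfDistSq
  rw [dist_comm]

theorem contMDiffAt_slice {G : GeoData n M} (hC : CutFacts G) {x : M} {v : TangentSpace (𝓡 n) x}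
    (hv : v ∈ G.I x) :
    ContMDiffAt (𝓡 n) 𝓘(ℝ, ℝ) ∞ (fun z => halfDistSq z (G.ex x v)) x := by
  have h1 := hC.smooth_cost x v hv
  have h2 : ContMDiffAt (𝓡 n) ((𝓡 n).prod (𝓡 n)) ∞ (fun z : M => (z, G.ex x v)) x :=
    contMDiffAt_id.prodMk contMDiffAt_const
  exact ContMDiffAt.comp x h1 h2

theorem md_cost {G : GeoData n M} (hC : CutFacts G) {x : M} {v : TangentSpace (𝓡 n) x}
    (hv : v ∈ G.I x) (ξ : TangentSpace (𝓡 n) x) :
    md (n := n) (fun z => halfDistSq z (G.ex x v)) x ξ = -inner ℝ v ξ := by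
  have hs := contMDiff_ex_ray G x ξ
  have h0 : (fun s : ℝ => G.ex x (s • ξ)) 0 = x := by simp [G.ex_zero]
  have h1 := hasDerivAt_comp_curve' (h := fun z => halfDistSq z (G.ex x v))
    (γ := fun s : ℝ => G.ex x (s • ξ)) (t := 0) h0
    ((contMDiffAt_slice hC hv).mdifferentiableAt (by simp))
    (hs.contMDiffAt.mdifferentiableAt (by simp))
  have h2 : cv (n := n) (fun s : ℝ => G.ex x (s • ξ)) 0 = ξ := G.vel_zero x ξ
  rw [h2] at h1
  have h3 : HasDerivAt (fun s : ℝ => G.nc x v (s • ξ)) (fderiv ℝ (G.nc x v) 0 ξ) 0 := by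
    have e1 : HasDerivAt (fun s : ℝ => s • ξ) ξ 0 := by
      simpa using (hasDerivAt_id (0 : ℝ)).smul_const ξ
    have e2 : HasFDerivAt (G.nc x v) (fderiv ℝ (G.nc x v) 0) ((fun s : ℝ => s • ξ) 0) := by
      simp only [zero_smul]
      exact ((hC.nc_smooth x v hv).differentiableAt (by simp)).hasFDerivAt
    exact e2.comp_hasDerivAt 0 e1
  rw [hC.nc_fderiv x v hv ξ] at h3
  exact h1.unique h3

theorem continuous_line (y : M) (q d : TangentSpace (𝓡 n) y) :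
    Continuous (fun s : ℝ => (⟨y, q + s • d⟩ : TangentBundle (𝓡 n) M)) :=
  (contMDiff_line y q d).continuous

/-- the two-parameter cost function -/
noncomputable def ff (G : GeoData n M) (x y : M) (w η : TangentSpace (𝓡 n) x)
    (q₀ dq : TangentSpace (𝓡 n) y) (z : ℝ × ℝ) : ℝ :=
  halfDistSq (G.ex x (w + z.2 • η)) (G.ex y (q₀ + z.1 • dq))

theorem contDiffAt_ff {G : GeoData n M} (hC : CutFacts G) {x y : M}
    {w η : TangentSpace (𝓡 n) x} {q₀ dq : TangentSpace (𝓡 n) y} (hy : G.ex x w = y)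
    {s : ℝ} (hs : q₀ + s • dq ∈ G.I y) :
    ContDiffAt ℝ ∞ (ff G x y w η q₀ dq) (s, 0) := by
  have h1 := hC.smooth_cost y _ hs
  have h2 : ContMDiff 𝓘(ℝ, ℝ × ℝ) (𝓡 n) ∞ (fun z : ℝ × ℝ => G.ex x (w + z.2 • η)) :=
    (contMDiff_ex_line G x w η).comp (contDiff_snd.contMDiff)
  have h3 : ContMDiff 𝓘(ℝ, ℝ × ℝ) (𝓡 n) ∞ (fun z : ℝ × ℝ => G.ex y (q₀ + z.1 • dq)) :=
    (contMDiff_ex_line G y q₀ dq).comp (contDiff_fst.contMDiff)
  have h4 : ContMDiffAt 𝓘(ℝ, ℝ × ℝ) ((𝓡 n).prod (𝓡 n)) ∞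
      (fun z : ℝ × ℝ => (G.ex x (w + z.2 • η), G.ex y (q₀ + z.1 • dq))) (s, 0) :=
    (h2 (s, 0)).prodMk (h3 (s, 0))
  have h5 : ContMDiffAt ((𝓡 n).prod (𝓡 n)) 𝓘(ℝ) ∞ (fun q : M × M => halfDistSq q.1 q.2)
      ((fun z : ℝ × ℝ => (G.ex x (w + z.2 • η), G.ex y (q₀ + z.1 • dq))) (s, 0)) := by
    simpa [hy] using h1
  exact contMDiffAt_iff_contDiffAt.1 (ContMDiffAt.comp (s, (0:ℝ)) h5 h4)

/-- `F(s) = φ_ζ(q_s) - ⟪q_s, A⟫`. -/
theorem iteratedDeriv_ff {G : GeoData n M} (hC : CutFacts G) {x y : M}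
    {w η : TangentSpace (𝓡 n) x} (q₀ dq : TangentSpace (𝓡 n) y) (hy : G.ex x w = y)
    {ζ : TangentSpace (𝓡 n) y} (hζ : ζ = cv (n := n) (fun τ : ℝ => G.ex x (w + τ • η)) 0) :
    ∃ A : TangentSpace (𝓡 n) y, ∀ s : ℝ, q₀ + s • dq ∈ G.I y →
      iteratedDeriv 2 (fun τ => ff G x y w η q₀ dq (s, τ)) 0 =
        G.phi y ζ (q₀ + s • dq) - inner ℝ (q₀ + s • dq) A := by
  have hY : ContMDiffAt 𝓘(ℝ, ℝ) (𝓡 n) 2 (fun τ : ℝ => G.ex x (w + τ • η)) 0 :=
    ((contMDiff_ex_line G x w η).contMDiffAt).of_le two_le_infty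
  have hZ : ContMDiffAt 𝓘(ℝ, ℝ) (𝓡 n) 2 (fun τ : ℝ => G.ex y (τ • ζ)) 0 :=
    ((contMDiff_ex_ray G y ζ).contMDiffAt).of_le two_le_infty
  obtain ⟨A, hA⟩ := second_deriv_two_curves (y := y) hY hZ (by simp [hy]) (by simp [G.ex_zero])
    (by rw [← hζ]; exact (G.vel_zero y ζ).symm)
  refine ⟨A, fun s hs => ?_⟩
  have h1 := hA (fun z => halfDistSq z (G.ex y (q₀ + s • dq)))
    ((contMDiffAt_slice hC hs).of_le two_le_infty)
  rw [md_cost hC hs A] at h1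
  exact h1

theorem eventually_mem_I {G : GeoData n M} (hC : CutFacts G) {x : M}
    {w : TangentSpace (𝓡 n) x} (η : TangentSpace (𝓡 n) x) (hw : w ∈ G.I x) :
    ∀ᶠ τ : ℝ in 𝓝 0, w + τ • η ∈ G.I x := by
  have h1 := (continuous_line x w η).continuousAt (x := (0 : ℝ))
  have h2 : G.IT ∈ 𝓝 (⟨x, w + (0 : ℝ) • η⟩ : TangentBundle (𝓡 n) M) := by
    apply hC.isOpen_IT.mem_nhds
    simp only [zero_smul, add_zero]
    exact hw
  exact h1 h2

theorem hasDerivAt_F {G : GeoData n M} (hC : CutFacts G) {x y : M}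
    {w η : TangentSpace (𝓡 n) x} {q₀ dq : TangentSpace (𝓡 n) y} (hy : G.ex x w = y)
    (hx : G.ex y q₀ = x) (hw : w ∈ G.I x) (hq : q₀ ∈ G.I y) :
    HasDerivAt (fun s : ℝ => iteratedDeriv 2 (fun τ => ff G x y w η q₀ dq (s, τ)) 0) 0 0 := by
  have h0 : q₀ + (0 : ℝ) • dq ∈ G.I y := by simpa using hq
  have hs := contDiffAt_ff (η := η) hC hy h0
  obtain ⟨ξ, hξ⟩ : ∃ ξ : TangentSpace (𝓡 n) x, ξ = cv (n := n) (fun s : ℝ => G.ex y (q₀ + s • dq)) 0 :=
    ⟨_, rfl⟩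
  apply hasDerivAt_iteratedDeriv_two (a := -inner ℝ w ξ) (b := -inner ℝ η ξ)
    (hs.of_le three_le_infty)
  filter_upwards [eventually_mem_I hC η hw] with τ hτ
  have h1 := hasDerivAt_comp_curve' (h := fun z => halfDistSq z (G.ex x (w + τ • η)))
    (γ := fun s : ℝ => G.ex y (q₀ + s • dq)) (t := 0) (x := x) (by simp [hx])
    ((contMDiffAt_slice hC hτ).mdifferentiableAt (by simp))
    ((contMDiff_ex_line G y q₀ dq).contMDiffAt.mdifferentiableAt (by simp))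
  rw [← hξ] at h1
  have h2 : md (n := n) (fun z => halfDistSq z (G.ex x (w + τ • η))) x ξ
      = -inner ℝ w ξ + τ * -inner ℝ η ξ := by
    rw [md_cost hC hτ ξ, inner_add_left, inner_smul_left]
    simp only [conj_trivial]
    ring
  replace h1 : HasDerivAt (fun s : ℝ => halfDistSq (G.ex y (q₀ + s • dq)) (G.ex x (w + τ • η)))
    (md (n := n) (fun z => halfDistSq z (G.ex x (w + τ • η))) x ξ) 0 := h1
  rw [h2] at h1
  have h3 : (fun s : ℝ => ff G x y w η q₀ dq (s, τ)) =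
      fun s : ℝ => halfDistSq (G.ex y (q₀ + s • dq)) (G.ex x (w + τ • η)) := by
    funext s
    unfold ff
    rw [halfDistSq_comm']
  rw [h3]
  exact h1

/-- the function of the Loeper principle along a line in `T_x M` -/
noncomputable def gg (G : GeoData n M) (x x' : M) (w η : TangentSpace (𝓡 n) x) (τ : ℝ) : ℝ :=
  ‖w + τ • η‖ ^ 2 / 2 - halfDistSq x' (G.ex x (w + τ • η))

theorem gg_eventuallyEq {G : GeoData n M} (hC : CutFacts G) {x y : M}
    {w η : TangentSpace (𝓡 n) x} {q₀ q₁ : TangentSpace (𝓡 n) y}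
    (hx : G.ex y q₀ = x) (hw : w ∈ G.I x) :
    gg G x (G.ex y q₁) w η =ᶠ[𝓝 0] fun τ => ff G x y w η q₀ (q₁ - q₀) (0, τ) -
      ff G x y w η q₀ (q₁ - q₀) (1, τ) := by
  filter_upwards [eventually_mem_I hC η hw] with τ hτ
  have h1 : dist x (G.ex x (w + τ • η)) = ‖w + τ • η‖ := hC.I_subset x hτ
  unfold gg ff
  simp only [zero_smul, add_zero, one_smul, add_sub_cancel, hx]
  rw [halfDistSq_comm' (G.ex x (w + τ • η)) x, halfDistSq_comm' (G.ex x (w + τ • η)) (G.ex y q₁)]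
  congr 1
  unfold halfDistSq
  rw [h1]

theorem contDiffAt_gg {G : GeoData n M} (hC : CutFacts G) {x y : M}
    {w η : TangentSpace (𝓡 n) x} {q₀ q₁ : TangentSpace (𝓡 n) y} (hy : G.ex x w = y)
    (hx : G.ex y q₀ = x) (hw : w ∈ G.I x) (hq : q₀ ∈ G.I y) (hq1 : q₁ ∈ G.I y) :
    ContDiffAt ℝ ∞ (gg G x (G.ex y q₁) w η) 0 := by
  apply ContDiffAt.congr_of_eventuallyEq _ (gg_eventuallyEq hC hx hw)
  have h0 := contDiffAt_ff (η := η) (s := 0) (q₀ := q₀) (dq := q₁ - q₀) hC hy (by simpa using hq)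
  have h1 := contDiffAt_ff (η := η) (s := 1) (q₀ := q₀) (dq := q₁ - q₀) hC hy (by simpa using hq1)
  have e0 : ContDiffAt ℝ ∞ (fun τ : ℝ => ((0 : ℝ), τ)) 0 := by fun_prop
  have e1 : ContDiffAt ℝ ∞ (fun τ : ℝ => ((1 : ℝ), τ)) 0 := by fun_prop
  exact (h0.comp (0 : ℝ) e0).sub (h1.comp (0 : ℝ) e1)

theorem hasDerivAt_ff_right {G : GeoData n M} (hC : CutFacts G) {x y : M}
    {w η : TangentSpace (𝓡 n) x} {q₀ dq : TangentSpace (𝓡 n) y} (hy : G.ex x w = y)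
    {ζ : TangentSpace (𝓡 n) y} (hζ : ζ = cv (n := n) (fun τ : ℝ => G.ex x (w + τ • η)) 0)
    {s : ℝ} (hs : q₀ + s • dq ∈ G.I y) :
    HasDerivAt (fun τ => ff G x y w η q₀ dq (s, τ)) (-inner ℝ (q₀ + s • dq) ζ) 0 := by
  have h1 := hasDerivAt_comp_curve' (h := fun z => halfDistSq z (G.ex y (q₀ + s • dq)))
    (γ := fun τ : ℝ => G.ex x (w + τ • η)) (t := 0) (x := y) (by simp [hy])
    ((contMDiffAt_slice hC hs).mdifferentiableAt (by simp))
    ((contMDiff_ex_line G x w η).contMDiffAt.mdifferentiableAt (by simp))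
  rw [← hζ] at h1
  replace h1 : HasDerivAt (fun τ : ℝ => halfDistSq (G.ex x (w + τ • η)) (G.ex y (q₀ + s • dq)))
    (md (n := n) (fun z => halfDistSq z (G.ex y (q₀ + s • dq))) y ζ) 0 := h1
  rw [md_cost hC hs ζ] at h1
  exact h1

theorem hasDerivAt_gg {G : GeoData n M} (hC : CutFacts G) {x y : M}
    {w η : TangentSpace (𝓡 n) x} {q₀ q₁ : TangentSpace (𝓡 n) y} (hy : G.ex x w = y)
    (hx : G.ex y q₀ = x) (hw : w ∈ G.I x) (hq : q₀ ∈ G.I y) (hq1 : q₁ ∈ G.I y)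
    {ζ : TangentSpace (𝓡 n) y} (hζ : ζ = cv (n := n) (fun τ : ℝ => G.ex x (w + τ • η)) 0) :
    HasDerivAt (gg G x (G.ex y q₁) w η) (inner ℝ (q₁ - q₀) ζ) 0 := by
  have h0 := hasDerivAt_ff_right (s := 0) (q₀ := q₀) (dq := q₁ - q₀) hC hy hζ (by simpa using hq)
  have h1 := hasDerivAt_ff_right (s := 1) (q₀ := q₀) (dq := q₁ - q₀) hC hy hζ (by simpa using hq1)
  have h2 := (h0.sub h1).congr_of_eventuallyEq (gg_eventuallyEq (η := η) (q₁ := q₁) hC hx hw)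
  have h3 : inner ℝ (q₁ - q₀) ζ =
      -inner ℝ (q₀ + (0 : ℝ) • (q₁ - q₀)) ζ - -inner ℝ (q₀ + (1 : ℝ) • (q₁ - q₀)) ζ := by
    rw [zero_smul, add_zero, one_smul, add_sub_cancel, inner_sub_left]
    ring
  rw [h3]
  exact h2

theorem eventually_abs_lt_one : ∀ᶠ s : ℝ in 𝓝 0, |s| < 1 := by
  have h1 : Ioo (-1 : ℝ) 1 ∈ 𝓝 (0 : ℝ) := Ioo_mem_nhds (by norm_num) (by norm_num)
  filter_upwards [h1] with s hs
  exact abs_lt.2 hs

/-- the pointwise inequality. -/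
theorem iteratedDeriv_gg_ge {G : GeoData n M} (hC : CutFacts G)
    (hconc : ∀ x, ∀ p q ξ : TangentSpace (𝓡 n) x, segment ℝ p q ⊆ G.I x → inner ℝ (q - p) ξ = 0 →
      ∀ t : ℝ, 0 ≤ t → t ≤ 1 →
      (1 - t) * G.phi x ξ p + t * G.phi x ξ q ≤ G.phi x ξ ((1 - t) • p + t • q))
    {x y : M}
    {w η : TangentSpace (𝓡 n) x} {q₀ q₁ : TangentSpace (𝓡 n) y} (hy : G.ex x w = y)
    (hx : G.ex y q₀ = x) (hw : w ∈ G.I x)
    {ζ : TangentSpace (𝓡 n) y} (hζ : ζ = cv (n := n) (fun τ : ℝ => G.ex x (w + τ • η)) 0)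
    (hball : ∀ q : TangentSpace (𝓡 n) y, ‖q - q₀‖ ≤ ‖q₁ - q₀‖ → q ∈ G.I y) {L : ℝ}
    (hL : ∀ q q' : TangentSpace (𝓡 n) y, ‖q - q₀‖ ≤ ‖q₁ - q₀‖ → ‖q' - q₀‖ ≤ ‖q₁ - q₀‖ →
      |G.phi y ζ q - G.phi y ζ q'| ≤ L * ‖ζ‖ ^ 2 * ‖q - q'‖) :
    -(2 * L * ‖ζ‖ * |inner ℝ (q₁ - q₀) ζ|) ≤ iteratedDeriv 2 (gg G x (G.ex y q₁) w η) 0 := by
  obtain ⟨dq, hdq⟩ : ∃ dq, dq = q₁ - q₀ := ⟨_, rfl⟩
  rw [← hdq] at hball hL ⊢
  have hbs : ∀ s : ℝ, |s| ≤ 1 → q₀ + s • dq ∈ G.I y := by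
    intro s hs
    apply hball
    rw [add_sub_cancel_left, norm_smul, Real.norm_eq_abs]
    exact mul_le_of_le_one_left (norm_nonneg _) hs
  have hq : q₀ ∈ G.I y := by simpa using hbs 0 (by simp)
  obtain ⟨A, hA⟩ := iteratedDeriv_ff hC q₀ dq hy hζ
  -- second derivative of `gg`
  have hg2 : iteratedDeriv 2 (gg G x (G.ex y q₁) w η) 0 =
      G.phi y ζ q₀ - G.phi y ζ (q₀ + dq) + inner ℝ dq A := by
    have e0 : iteratedDeriv 2 (gg G x (G.ex y q₁) w η) 0 =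
        iteratedDeriv 2 (fun τ => ff G x y w η q₀ dq (0, τ) - ff G x y w η q₀ dq (1, τ)) 0 := by
      rw [hdq]
      exact (gg_eventuallyEq hC hx hw).iteratedDeriv_eq 2
    have c0 := contDiffAt_ff (η := η) (s := 0) (q₀ := q₀) (dq := dq) hC hy (hbs 0 (by simp))
    have c1 := contDiffAt_ff (η := η) (s := 1) (q₀ := q₀) (dq := dq) hC hy (hbs 1 (by simp))
    have k0 : ContDiffAt ℝ ∞ (fun τ : ℝ => ((0 : ℝ), τ)) 0 := by fun_prop
    have k1 : ContDiffAt ℝ ∞ (fun τ : ℝ => ((1 : ℝ), τ)) 0 := by fun_prop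
    have d0 : ContDiffAt ℝ 2 (fun τ => ff G x y w η q₀ dq (0, τ)) 0 :=
      (c0.comp (0 : ℝ) k0).of_le two_le_infty
    have d1 : ContDiffAt ℝ 2 (fun τ => ff G x y w η q₀ dq (1, τ)) 0 :=
      (c1.comp (0 : ℝ) k1).of_le two_le_infty
    rw [e0]
    have e1 : iteratedDeriv 2 (fun τ => ff G x y w η q₀ dq (0, τ) - ff G x y w η q₀ dq (1, τ)) 0 =
        iteratedDeriv 2 (fun τ => ff G x y w η q₀ dq (0, τ)) 0 -
        iteratedDeriv 2 (fun τ => ff G x y w η q₀ dq (1, τ)) 0 :=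
      iteratedDeriv_fun_sub d0 d1
    rw [e1, hA 0 (hbs 0 (by simp)), hA 1 (hbs 1 (by simp))]
    simp only [zero_smul, add_zero, one_smul]
    rw [inner_add_left]
    ring
  -- derivative of `φ` along the segment
  have hder : HasDerivAt (fun s : ℝ => G.phi y ζ (q₀ + s • dq)) (inner ℝ dq A) 0 := by
    have e1 := hasDerivAt_F (η := η) (q₀ := q₀) (dq := dq) hC hy hx hw hq
    have e2 : (fun s : ℝ => G.phi y ζ (q₀ + s • dq)) =ᶠ[𝓝 0]
        fun s : ℝ => iteratedDeriv 2 (fun τ => ff G x y w η q₀ dq (s, τ)) 0 +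
          inner ℝ (q₀ + s • dq) A := by
      have : ∀ᶠ s : ℝ in 𝓝 0, |s| < 1 := eventually_abs_lt_one
      filter_upwards [this] with s hs
      rw [hA s (hbs s hs.le)]
      ring
    have e3 : HasDerivAt (fun s : ℝ => inner ℝ (q₀ + s • dq) A) (inner ℝ dq A) 0 := by
      have : (fun s : ℝ => inner ℝ (q₀ + s • dq) A) =
          fun s : ℝ => inner ℝ q₀ A + s * inner ℝ dq A := by
        funext s
        rw [inner_add_left, inner_smul_left]; simp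
      rw [this]
      have h5 := ((hasDerivAt_id (0 : ℝ)).mul_const (inner ℝ dq A)).const_add (inner ℝ q₀ A)
      simpa using h5
    have e4 := (e1.add e3).congr_of_eventuallyEq e2
    simpa using e4
  -- decomposition
  rcases eq_or_ne ζ 0 with hz | hz
  · -- trivial case
    have hphi : ∀ q, ‖q - q₀‖ ≤ ‖dq‖ → G.phi y ζ q = G.phi y ζ q₀ := by
      intro q hq'
      have := hL q q₀ hq' (by simp)
      rw [hz] at this ⊢
      simp only [norm_zero, ne_eq, OfNat.ofNat_ne_zero, not_false_eq_true, zero_pow, mul_zero,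
        zero_mul, abs_nonpos_iff] at this
      linarith
    have h1 : HasDerivAt (fun s : ℝ => G.phi y ζ (q₀ + s • dq)) 0 0 := by
      apply (hasDerivAt_const (0 : ℝ) (G.phi y ζ q₀)).congr_of_eventuallyEq
      have : ∀ᶠ s : ℝ in 𝓝 0, |s| < 1 := eventually_abs_lt_one
      filter_upwards [this] with s hs
      apply hphi
      rw [add_sub_cancel_left, norm_smul, Real.norm_eq_abs]
      exact mul_le_of_le_one_left (norm_nonneg _) hs.le
    have h2 := hder.unique h1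
    rw [hg2, h2, hphi (q₀ + dq) (by simp), hz]
    simp
  · have hzn : 0 < ‖ζ‖ := norm_pos_iff.2 hz
    obtain ⟨c, hc⟩ : ∃ c : ℝ, c = inner ℝ dq ζ / ‖ζ‖ ^ 2 := ⟨_, rfl⟩
    obtain ⟨h, hh⟩ : ∃ h : TangentSpace (𝓡 n) y, h = c • ζ := ⟨_, rfl⟩
    obtain ⟨e, he⟩ : ∃ e : TangentSpace (𝓡 n) y, e = dq - h := ⟨_, rfl⟩
    have heζ : inner ℝ e ζ = 0 := by
      rw [he, hh, inner_sub_left, inner_smul_left, real_inner_self_eq_norm_sq, hc]
      simp only [conj_trivial]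
      field_simp
      ring
    have hnh : ‖h‖ * ‖ζ‖ = |inner ℝ dq ζ| := by
      rw [hh, norm_smul, hc, Real.norm_eq_abs, abs_div, abs_of_pos (pow_pos hzn 2)]
      field_simp
    have hne : ‖e‖ ≤ ‖dq‖ := by
      have h1 : ‖dq‖ ^ 2 = ‖e‖ ^ 2 + ‖h‖ ^ 2 := by
        have : dq = e + h := by rw [he]; abel
        rw [this, ← real_inner_self_eq_norm_sq, inner_add_left, inner_add_right, inner_add_right,
          real_inner_self_eq_norm_sq, real_inner_self_eq_norm_sq]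
        have h6 : inner ℝ e h = 0 := by rw [hh, inner_smul_right, heζ, mul_zero]
        have h7 : inner ℝ h e = 0 := by rw [real_inner_comm]; exact h6
        rw [h6, h7]
        ring
      nlinarith [norm_nonneg e, norm_nonneg dq, norm_nonneg h]
    -- concavity
    have hseg : segment ℝ q₀ (q₀ + e) ⊆ G.I y := by
      intro z hz'
      rw [segment_eq_image] at hz'
      obtain ⟨θ, hθ, rfl⟩ := hz'
      apply hball
      have : (1 - θ) • q₀ + θ • (q₀ + e) - q₀ = θ • e := by module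
      rw [this, norm_smul, Real.norm_eq_abs, abs_of_nonneg hθ.1]
      exact (mul_le_of_le_one_left (norm_nonneg _) hθ.2).trans hne
    have hcc : ∀ t : ℝ, 0 ≤ t → t ≤ 1 →
        G.phi y ζ q₀ + t * (G.phi y ζ (q₀ + e) - G.phi y ζ q₀) ≤ G.phi y ζ (q₀ + t • e) := by
      intro t ht0 ht1
      have h1 := hconc y q₀ (q₀ + e) ζ hseg (by rw [add_sub_cancel_left]; exact heζ) t ht0 ht1
      have h2 : (1 - t) • q₀ + t • (q₀ + e) = q₀ + t • e := by module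
      rw [h2] at h1
      linarith
    have hlow : ∀ t : ℝ, 0 < t → t ≤ 1 →
        (G.phi y ζ (q₀ + e) - G.phi y ζ q₀) - L * ‖ζ‖ ^ 2 * ‖h‖ ≤
          t⁻¹ * (G.phi y ζ (q₀ + t • dq) - G.phi y ζ q₀) := by
      intro t ht0 ht1
      have h1 := hcc t ht0.le ht1
      have h2 := hL (q₀ + t • e) (q₀ + t • dq) (by
        rw [add_sub_cancel_left, norm_smul, Real.norm_eq_abs, abs_of_pos ht0]
        exact (mul_le_of_le_one_left (norm_nonneg _) ht1).trans hne) (by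
        rw [add_sub_cancel_left, norm_smul, Real.norm_eq_abs, abs_of_pos ht0]
        exact mul_le_of_le_one_left (norm_nonneg _) ht1)
      have h3 : ‖q₀ + t • e - (q₀ + t • dq)‖ = t * ‖h‖ := by
        have : q₀ + t • e - (q₀ + t • dq) = -(t • h) := by rw [he]; module
        rw [this, norm_neg, norm_smul, Real.norm_eq_abs, abs_of_pos ht0]
      rw [h3] at h2
      have h4 := (abs_le.1 h2).2
      rw [le_inv_mul_iff₀ ht0]
      nlinarith
    have hlim : (G.phi y ζ (q₀ + e) - G.phi y ζ q₀) - L * ‖ζ‖ ^ 2 * ‖h‖ ≤ inner ℝ dq A := by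
      have h1 := hder.tendsto_slope_zero_right
      simp only [zero_add, zero_smul, add_zero, smul_eq_mul] at h1
      apply ge_of_tendsto h1
      have : ∀ᶠ t : ℝ in 𝓝[>] 0, t < 1 := by
        apply mem_nhdsWithin_of_mem_nhds
        exact Iio_mem_nhds zero_lt_one
      filter_upwards [this, self_mem_nhdsWithin] with t ht ht0
      exact hlow t ht0 ht.le
    have hup : G.phi y ζ (q₀ + dq) ≤ G.phi y ζ (q₀ + e) + L * ‖ζ‖ ^ 2 * ‖h‖ := by
      have h2 := hL (q₀ + dq) (q₀ + e) (by simp) (by simpa using hne)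
      have h3 : q₀ + dq - (q₀ + e) = h := by rw [he]; abel
      rw [h3] at h2
      linarith [(abs_le.1 h2).2]
    rw [hg2]
    have h5 : L * ‖ζ‖ ^ 2 * ‖h‖ = L * ‖ζ‖ * |inner ℝ dq ζ| := by
      rw [← hnh]; ring
    rw [h5] at hlim hup
    linarith

end Crest.Agent.R226.LoeperPt128
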