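/-
R226 layer B (sub-lead helper542): exact intermediate statements between `NearDiag` and `GeoData`.
Definitions / Props only.
-/
import Crest.Agent.R226.Defs_484

set_option autoImplicit false

open MeasureTheory Bundle Set
open scoped Manifold ContDiff Bundle ENNReal Topology
open Crest.GeometryTopology.MTW

namespace Crest.Agent.R226

section
variable {n : ℕ} {M : Type*} [MetricSpace M] [ChartedSpace (EuclideanSpace ℝ (Fin n)) M]
  [IsManifold (𝓡 n) ∞ M]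
  [RiemannianBundle (fun p : M => TangentSpace (𝓡 n) p)]

/-- the "radial curve with velocity" map attached to a map `e : T M → M`:
`(t, (x,v)) ↦ (e x (t v), d/dt e x (t v))`. -/
noncomputable def radial (e : ∀ x : M, TangentSpace (𝓡 n) x → M) (t : ℝ)
    (p : TangentBundle (𝓡 n) M) : TangentBundle (𝓡 n) M :=
  ⟨e p.1 (t • p.2), curveVel n (fun t : ℝ => e p.1 (t • p.2)) t⟩

/-- the fibrewise scaling `(x,v) ↦ (x, a v)` -/
noncomputable def scaleT (a : ℝ) (p : TangentBundle (𝓡 n) M) : TangentBundle (𝓡 n) M := ⟨p.1, a • p.2⟩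

/-- (B1 output) the local geodesic flow `ψ_t = radial N.e t` of a `NearDiag`. -/
structure SmallFlow (N : NearDiag n M) : Prop where
  cont_norm : Continuous (fun p : TangentBundle (𝓡 n) M => ‖p.2‖)
  zero : ∀ p, radial N.e 0 p = p
  norm : ∀ t p, |t| * ‖p.2‖ < N.r₀ → ‖(radial N.e t p).2‖ = ‖p.2‖
  add : ∀ t s p, |t| * ‖p.2‖ < N.r₀ → |s| * ‖p.2‖ < N.r₀ → |t + s| * ‖p.2‖ < N.r₀ →
    radial N.e s (radial N.e t p) = radial N.e (t + s) p
  scale : ∀ a t p, radial N.e t (scaleT a p) = scaleT a (radial N.e (t * a) p)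
  smooth : ContMDiffOn (𝓘(ℝ, ℝ).prod (𝓡 n).tangent) (𝓡 n).tangent ∞
    (fun q : ℝ × TangentBundle (𝓡 n) M => radial N.e q.1 q.2) {q | |q.1| * ‖q.2.2‖ < N.r₀}

/-- (B2 output) a global smooth flow on `TM` extending the local one. -/
structure GlobalFlow (N : NearDiag n M) where
  Fl : ℝ → TangentBundle (𝓡 n) M → TangentBundle (𝓡 n) M
  small : ∀ t p, |t| * ‖p.2‖ < N.r₀ → Fl t p = radial N.e t p
  norm : ∀ t p, ‖(Fl t p).2‖ = ‖p.2‖
  add : ∀ t s p, Fl s (Fl t p) = Fl (t + s) p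
  scale : ∀ a t p, Fl t (scaleT a p) = scaleT a (Fl (t * a) p)
  smooth : ContMDiff (𝓘(ℝ, ℝ).prod (𝓡 n).tangent) (𝓡 n).tangent ∞
    (fun q : ℝ × TangentBundle (𝓡 n) M => Fl q.1 q.2)

/-- the global exponential map of a global flow -/
noncomputable def GlobalFlow.ex {N : NearDiag n M} (F : GlobalFlow N) (x : M) (v : TangentSpace (𝓡 n) x) : M :=
  (F.Fl 1 ⟨x, v⟩).1

variable (n M) in
/-- (B3 output) everything in `GeoData` except `surj` and `injDomain_eq`, plus `radial ex` smooth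
flow. -/
structure GeoCore where
  ex : ∀ x : M, TangentSpace (𝓡 n) x → M
  smooth : ContMDiff (𝓡 n).tangent (𝓡 n) ∞ (fun p : TangentBundle (𝓡 n) M => ex p.1 p.2)
  ex_zero : ∀ x, ex x 0 = x
  vel_zero : ∀ x, ∀ v : TangentSpace (𝓡 n) x, curveVel n (fun t : ℝ => ex x (t • v)) 0 = v
  norm_vel : ∀ x, ∀ v : TangentSpace (𝓡 n) x, ∀ t : ℝ,
    ‖curveVel n (fun t : ℝ => ex x (t • v)) t‖ = ‖v‖
  flow : ∀ x, ∀ v : TangentSpace (𝓡 n) x, ∀ t s : ℝ,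
    ex (ex x (t • v)) (s • curveVel n (fun t : ℝ => ex x (t • v)) t) = ex x ((t + s) • v)
  dist_le : ∀ x, ∀ v : TangentSpace (𝓡 n) x, ∀ s t : ℝ,
    dist (ex x (s • v)) (ex x (t • v)) ≤ |s - t| * ‖v‖
  r₀ : ℝ
  r₀_pos : 0 < r₀
  dist_eq : ∀ x, ∀ v : TangentSpace (𝓡 n) x, ∀ s t : ℝ, |s - t| * ‖v‖ < r₀ →
    dist (ex x (s • v)) (ex x (t • v)) = |s - t| * ‖v‖
  inj : ∀ x, ∀ v w : TangentSpace (𝓡 n) x, ‖v‖ < r₀ → ‖w‖ < r₀ → ex x v = ex x w → v = w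
  smooth_cost : ContMDiffOn ((𝓡 n).prod (𝓡 n)) 𝓘(ℝ) ∞
    (fun q : M × M => halfDistSq q.1 q.2) {q | dist q.1 q.2 < r₀}
  hasDerivAt_cost : ∀ x, ∀ v ξ : TangentSpace (𝓡 n) x, ‖v‖ < r₀ →
    HasDerivAt (fun t : ℝ => halfDistSq (ex x (t • ξ)) (ex x v)) (-inner ℝ v ξ) 0
  /-- near surjectivity (inherited from `NearDiag.surj`) -/
  surj_near : ∀ x y, dist x y < r₀ → ∃ v : TangentSpace (𝓡 n) x, ‖v‖ = dist x y ∧ ex x v = y
  smooth_radial : ContMDiff (𝓘(ℝ, ℝ).prod (𝓡 n).tangent) (𝓡 n).tangent ∞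
    (fun q : ℝ × TangentBundle (𝓡 n) M => radial ex q.1 q.2)

variable (M) in
/-- (B4i) exact intermediate points (compact length space) -/
def HasBetween : Prop :=
  ∀ x y : M, ∀ t ∈ Icc (0 : ℝ) 1, ∃ z : M, dist x z = t * dist x y ∧ dist z y = (1 - t) * dist x y

variable (n M) in
/-- (B5i) `C¹` curves of speed `c` on `[0,a]` are `c`-Lipschitz there -/
def SpeedLip : Prop :=
  ∀ (γ : ℝ → M) (a c : ℝ), ContMDiff (modelWithCornersSelf ℝ ℝ) (𝓡 n) 1 γ →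
    (∀ t ∈ Icc (0 : ℝ) a, ‖curveVel n γ t‖ = c) →
    ∀ s ∈ Icc (0 : ℝ) a, ∀ t ∈ Icc (0 : ℝ) a, dist (γ s) (γ t) ≤ c * |s - t|

variable (n M) in
/-- (B5ii) from `GeoCore`: a `C¹` curve with `dist (γ s) (γ t) = c |s-t|` on `[0,a]` and speed `c`
is the geodesic. -/
def MinimiserGeodesic (C : GeoCore n M) : Prop :=
  ∀ (γ : ℝ → M) (a c : ℝ), 0 < a → ContMDiff (modelWithCornersSelf ℝ ℝ) (𝓡 n) 1 γ →
    (∀ t ∈ Icc (0 : ℝ) a, ‖curveVel n γ t‖ = c) →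
    (∀ s ∈ Icc (0 : ℝ) a, ∀ t ∈ Icc (0 : ℝ) a, dist (γ s) (γ t) = c * |s - t|) →
    γ a = C.ex (γ 0) (a • curveVel n γ 0)

end

end Crest.Agent.R226
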