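/-
R226 layer B (helper542): smoothness of fibrewise scaling and of `radial e` on `ℝ × TM`;
continuity of the norm on the tangent bundle.
-/
import Crest.Agent.R226.BDefs_542

set_option autoImplicit false

open MeasureTheory Bundle Set
open scoped Manifold ContDiff Bundle ENNReal Topology
open Crest.GeometryTopology.MTW

namespace Crest.Agent.R226

section
variable {n : ℕ} {M : Type*} [MetricSpace M] [ChartedSpace (EuclideanSpace ℝ (Fin n)) M]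
  [IsManifold (𝓡 n) ∞ M]

/-- joint smoothness of the fibrewise scaling on the tangent bundle -/
theorem contMDiff_scale :
    ContMDiff (𝓘(ℝ, ℝ).prod (𝓡 n).tangent) (𝓡 n).tangent ∞
      (fun q : ℝ × TangentBundle (𝓡 n) M => (⟨q.2.1, q.1 • q.2.2⟩ : TangentBundle (𝓡 n) M)) := by
  intro q₀
  have h2 : ContMDiffAt (𝓘(ℝ, ℝ).prod (𝓡 n).tangent) (𝓡 n).tangent ∞
      (fun q : ℝ × TangentBundle (𝓡 n) M => q.2) q₀ := contMDiffAt_snd
  rw [contMDiffAt_totalSpace] at h2 ⊢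
  refine ⟨h2.1, ?_⟩
  have hs : ContMDiffAt (𝓘(ℝ, ℝ).prod (𝓡 n).tangent) 𝓘(ℝ, EuclideanSpace ℝ (Fin n)) ∞
      (fun q : ℝ × TangentBundle (𝓡 n) M =>
        q.1 • (trivializationAt (EuclideanSpace ℝ (Fin n)) (TangentSpace (𝓡 n)) q₀.2.proj q.2).2)
      q₀ := ContMDiffAt.smul contMDiffAt_fst h2.2
  refine hs.congr_of_eventuallyEq ?_
  have hb : ∀ᶠ q : ℝ × TangentBundle (𝓡 n) M in 𝓝 q₀, q.2.proj ∈
      (trivializationAt (EuclideanSpace ℝ (Fin n)) (TangentSpace (𝓡 n)) q₀.2.proj).baseSet := by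
    apply h2.1.continuousAt
    exact (Trivialization.open_baseSet _).mem_nhds (mem_baseSet_trivializationAt _ _ _)
  filter_upwards [hb] with q hq
  have := (Trivialization.linear (R := ℝ)
    (trivializationAt (EuclideanSpace ℝ (Fin n)) (TangentSpace (𝓡 n)) q₀.2.proj) hq).map_smul
      q.1 q.2.2
  exact this

/-- the scaling, pointwise version -/
theorem contMDiff_scaleT_left (p : TangentBundle (𝓡 n) M) :
    ContMDiff 𝓘(ℝ, ℝ) (𝓡 n).tangent ∞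
      (fun t : ℝ => (⟨p.1, t • p.2⟩ : TangentBundle (𝓡 n) M)) :=
  contMDiff_scale.comp (contMDiff_id.prodMk contMDiff_const)

theorem contMDiff_scaleT_right (a : ℝ) :
    ContMDiff (𝓡 n).tangent (𝓡 n).tangent ∞
      (fun p : TangentBundle (𝓡 n) M => (⟨p.1, a • p.2⟩ : TangentBundle (𝓡 n) M)) :=
  contMDiff_scale.comp (contMDiff_const.prodMk contMDiff_id)

/-- **Smoothness of `radial e`** at a point `q₀ = (t₀,p₀)` such that `e` is smooth at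
`⟨x₀, t₀ v₀⟩`. -/
theorem contMDiffAt_radial {e : ∀ x : M, TangentSpace (𝓡 n) x → M}
    {q₀ : ℝ × TangentBundle (𝓡 n) M}
    (he : ContMDiffAt (𝓡 n).tangent (𝓡 n) ∞ (fun p : TangentBundle (𝓡 n) M => e p.1 p.2)
      (⟨q₀.2.1, q₀.1 • q₀.2.2⟩ : TangentBundle (𝓡 n) M)) :
    ContMDiffAt (𝓘(ℝ, ℝ).prod (𝓡 n).tangent) (𝓡 n).tangent ∞
      (fun q : ℝ × TangentBundle (𝓡 n) M => radial e q.1 q.2) q₀ := by
  -- the parametrised curve
  let f : ℝ × TangentBundle (𝓡 n) M → ℝ → M := fun q s => e q.2.1 (s • q.2.2)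
  have hS : ContMDiff (((𝓘(ℝ, ℝ).prod (𝓡 n).tangent)).prod 𝓘(ℝ, ℝ)) (𝓡 n).tangent ∞
      (fun w : (ℝ × TangentBundle (𝓡 n) M) × ℝ =>
        (⟨w.1.2.1, w.2 • w.1.2.2⟩ : TangentBundle (𝓡 n) M)) :=
    contMDiff_scale.comp (contMDiff_snd.prodMk (contMDiff_snd.comp contMDiff_fst))
  have hf : ContMDiffAt (((𝓘(ℝ, ℝ).prod (𝓡 n).tangent)).prod 𝓘(ℝ, ℝ)) (𝓡 n) ∞
      (Function.uncurry f) (q₀, q₀.1) := by
    have := he.comp (x := ((q₀, q₀.1) : (ℝ × TangentBundle (𝓡 n) M) × ℝ)) hS.contMDiffAt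
    exact this
  have hg : ContMDiffAt (𝓘(ℝ, ℝ).prod (𝓡 n).tangent) 𝓘(ℝ, ℝ) ∞
      (fun q : ℝ × TangentBundle (𝓡 n) M => q.1) q₀ := contMDiffAt_fst
  have hD := ContMDiffAt.mfderiv (m := ∞) (n := ∞) f (fun q => q.1) hf hg (by simp)
  have hv : ContMDiffAt (𝓘(ℝ, ℝ).prod (𝓡 n).tangent) (𝓘(ℝ, ℝ)).tangent ∞
      (fun q : ℝ × TangentBundle (𝓡 n) M => (⟨q.1, (1 : ℝ)⟩ : TangentBundle 𝓘(ℝ, ℝ) ℝ)) q₀ := by
    have h1 : ContMDiff 𝓘(ℝ, ℝ) (𝓘(ℝ, ℝ)).tangent ∞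
        (fun s : ℝ => (⟨s, (1 : ℝ)⟩ : TangentBundle 𝓘(ℝ, ℝ) ℝ)) := by
      have := (contMDiff_vectorSpace_iff_contDiff (𝕜 := ℝ) (E := ℝ) (n := ∞)
        (V := fun _ => (1 : ℝ))).2 contDiff_const
      exact this
    exact h1.contMDiffAt.comp q₀ contMDiffAt_fst
  have hb : ContMDiffAt (𝓘(ℝ, ℝ).prod (𝓡 n).tangent) (𝓡 n) ∞
      (fun q : ℝ × TangentBundle (𝓡 n) M => f q q.1) q₀ := by
    have hdiag : ContMDiffAt (𝓘(ℝ, ℝ).prod (𝓡 n).tangent)
        (((𝓘(ℝ, ℝ).prod (𝓡 n).tangent)).prod 𝓘(ℝ, ℝ)) ∞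
        (fun q : ℝ × TangentBundle (𝓡 n) M => (q, q.1)) q₀ :=
      contMDiffAt_id.prodMk contMDiffAt_fst
    exact hf.comp q₀ hdiag
  have := ContMDiffAt.clm_apply_of_inCoordinates (F₁ := ℝ) (F₂ := EuclideanSpace ℝ (Fin n))
    (E₁ := TangentSpace 𝓘(ℝ, ℝ)) (E₂ := TangentSpace (𝓡 n))
    (b₁ := fun q : ℝ × TangentBundle (𝓡 n) M => q.1)
    (b₂ := fun q : ℝ × TangentBundle (𝓡 n) M => f q q.1)
    (v := fun q => (1 : ℝ))
    (ϕ := fun q => mfderiv 𝓘(ℝ, ℝ) (𝓡 n) (f q) q.1) hD hv hb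
  exact this

theorem contMDiffOn_radial {e : ∀ x : M, TangentSpace (𝓡 n) x → M}
    {O : Set (TangentBundle (𝓡 n) M)} (hO : IsOpen O)
    (he : ContMDiffOn (𝓡 n).tangent (𝓡 n) ∞ (fun p : TangentBundle (𝓡 n) M => e p.1 p.2) O) :
    ContMDiffOn (𝓘(ℝ, ℝ).prod (𝓡 n).tangent) (𝓡 n).tangent ∞
      (fun q : ℝ × TangentBundle (𝓡 n) M => radial e q.1 q.2)
      {q | (⟨q.2.1, q.1 • q.2.2⟩ : TangentBundle (𝓡 n) M) ∈ O} :=
  fun _ hq => (contMDiffAt_radial ((he _ hq).contMDiffAt (hO.mem_nhds hq))).contMDiffWithinAt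

theorem contMDiff_radial {e : ∀ x : M, TangentSpace (𝓡 n) x → M}
    (he : ContMDiff (𝓡 n).tangent (𝓡 n) ∞ (fun p : TangentBundle (𝓡 n) M => e p.1 p.2)) :
    ContMDiff (𝓘(ℝ, ℝ).prod (𝓡 n).tangent) (𝓡 n).tangent ∞
      (fun q : ℝ × TangentBundle (𝓡 n) M => radial e q.1 q.2) :=
  fun _ => contMDiffAt_radial he.contMDiffAt

/-- radial curves are smooth where `e` is -/
theorem contMDiffAt_radial_curve {e : ∀ x : M, TangentSpace (𝓡 n) x → M} {x : M}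
    {v : TangentSpace (𝓡 n) x} {t : ℝ}
    (he : ContMDiffAt (𝓡 n).tangent (𝓡 n) ∞ (fun p : TangentBundle (𝓡 n) M => e p.1 p.2)
      (⟨x, t • v⟩ : TangentBundle (𝓡 n) M)) :
    ContMDiffAt 𝓘(ℝ, ℝ) (𝓡 n) ∞ (fun s : ℝ => e x (s • v)) t := by
  have h := (contMDiff_scaleT_left (⟨x, v⟩ : TangentBundle (𝓡 n) M)).contMDiffAt (x := t)
  exact ContMDiffAt.comp (x := t) (g := fun p : TangentBundle (𝓡 n) M => e p.1 p.2) he h

section Riem
variable [RiemannianBundle (fun p : M => TangentSpace (𝓡 n) p)]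
  [IsContMDiffRiemannianBundle (𝓡 n) ∞ (EuclideanSpace ℝ (Fin n))
    (fun p : M => TangentSpace (𝓡 n) p)]

theorem isContinuousRiemannianBundle_tangent :
    IsContinuousRiemannianBundle (EuclideanSpace ℝ (Fin n))
      (fun p : M => TangentSpace (𝓡 n) p) := by
  obtain ⟨g, g_smooth, hg⟩ := IsContMDiffRiemannianBundle.exists_contMDiff (IB := 𝓡 n) (n := ∞)
    (F := EuclideanSpace ℝ (Fin n)) (E := fun p : M => TangentSpace (𝓡 n) p)
  exact ⟨g, g_smooth.continuous, hg⟩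

theorem continuous_normT : Continuous (fun p : TangentBundle (𝓡 n) M => ‖p.2‖) := by
  have := isContinuousRiemannianBundle_tangent (n := n) (M := M)
  have h : Continuous (fun p : TangentBundle (𝓡 n) M => inner ℝ p.2 p.2) :=
    Continuous.inner_bundle (F := EuclideanSpace ℝ (Fin n))
      (E := fun p : M => TangentSpace (𝓡 n) p) (b := fun p : TangentBundle (𝓡 n) M => p.1)
      (v := fun p => p.2) (w := fun p => p.2) continuous_id continuous_id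
  have h2 : (fun p : TangentBundle (𝓡 n) M => ‖p.2‖) =
      fun p : TangentBundle (𝓡 n) M => Real.sqrt (inner ℝ p.2 p.2) := by
    funext p
    rw [real_inner_self_eq_norm_sq, Real.sqrt_sq (norm_nonneg _)]
  rw [h2]
  exact Real.continuous_sqrt.comp h

theorem isOpen_disc (r : ℝ) : IsOpen {p : TangentBundle (𝓡 n) M | ‖p.2‖ < r} :=
  isOpen_lt continuous_normT continuous_const

/-- the field `smooth` of `SmallFlow`. -/
theorem NearDiag.contMDiffOn_radial (N : NearDiag n M) :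
    ContMDiffOn (𝓘(ℝ, ℝ).prod (𝓡 n).tangent) (𝓡 n).tangent ∞
      (fun q : ℝ × TangentBundle (𝓡 n) M => radial N.e q.1 q.2)
      {q | |q.1| * ‖q.2.2‖ < N.r₀} := by
  have h := Crest.Agent.R226.contMDiffOn_radial (isOpen_disc N.r₀) N.smooth
  refine h.mono ?_
  intro q hq
  simp only [Set.mem_ofPred_eq] at hq ⊢
  rwa [norm_smul, Real.norm_eq_abs]

end Riem

end

end Crest.Agent.R226
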