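import Crest.Agent.R226.Defs_484

/-!
Layer A5: the chart of the tangent bundle at `x₀`, written with `mfderiv` of the charts of `M`, and
smoothness of maps `TM → M` which are given in such a chart by a smooth function.
-/

set_option autoImplicit false
set_option linter.unusedSectionVars false

open MeasureTheory Bundle Set Filter
open scoped Manifold ContDiff Bundle ENNReal Topology
open Crest.GeometryTopology.MTW

namespace Crest.Agent.R226.TMSmooth771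

section
variable {n : ℕ} {M : Type*} [MetricSpace M] [ChartedSpace (EuclideanSpace ℝ (Fin n)) M]
  [IsManifold (𝓡 n) ∞ M]

/-- derivative at `x` of the chart at `x₀` -/
noncomputable def dphi (x₀ x : M) : TangentSpace (𝓡 n) x →L[ℝ] EE n :=
  mfderiv (𝓡 n) 𝓘(ℝ, EE n) (extChartAt (𝓡 n) x₀) x

/-- derivative at `a` of the inverse chart at `x₀` -/
noncomputable def dpsi (x₀ : M) (a : EE n) :
    EE n →L[ℝ] TangentSpace (𝓡 n) ((extChartAt (𝓡 n) x₀).symm a) :=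
  mfderiv 𝓘(ℝ, EE n) (𝓡 n) (extChartAt (𝓡 n) x₀).symm a

/-- the tangent bundle chart at `x₀` -/
noncomputable def tmc (x₀ : M) (p : TangentBundle (𝓡 n) M) : EE n × EE n :=
  (extChartAt (𝓡 n) x₀ p.1, dphi x₀ p.1 p.2)

/-- the inverse of the tangent bundle chart at `x₀` -/
noncomputable def tmci (x₀ : M) (q : EE n × EE n) : TangentBundle (𝓡 n) M :=
  ⟨(extChartAt (𝓡 n) x₀).symm q.1, dpsi x₀ q.1 q.2⟩

/-- the base point `(x₀, 0)` -/
noncomputable def zpt (n : ℕ) {M : Type*} [MetricSpace M]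
    [ChartedSpace (EuclideanSpace ℝ (Fin n)) M]
    [IsManifold (𝓡 n) ∞ M] (x₀ : M) : TangentBundle (𝓡 n) M :=
  ⟨x₀, (0 : TangentSpace (𝓡 n) x₀)⟩

lemma dphi_dpsi (x₀ : M) {a : EE n} (ha : a ∈ (extChartAt (𝓡 n) x₀).target) (w : EE n) :
    dphi x₀ ((extChartAt (𝓡 n) x₀).symm a) (dpsi x₀ a w) = w := by
  have h := mfderiv_extChartAt_comp_mfderivWithin_extChartAt_symm (I := 𝓡 n) (x := x₀) ha
  rw [ModelWithCorners.range_eq_univ, mfderivWithin_univ] at h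
  exact congrArg (fun L : EE n →L[ℝ] EE n => L w) h

lemma extChartAt_zpt_apply (x₀ : M) {p : TangentBundle (𝓡 n) M}
    (hp : p.1 ∈ (chartAt (EuclideanSpace ℝ (Fin n)) x₀).source) :
    extChartAt (𝓡 n).tangent (zpt n x₀) p = tmc x₀ p := by
  have h1 := TangentBundle.continuousLinearMapAt_trivializationAt (I := 𝓡 n) (𝕜 := ℝ) hp
  have h2 : (trivializationAt (EE n) (TangentSpace (𝓡 n)) x₀ p).2 = dphi x₀ p.1 p.2 := by
    rw [dphi, ← h1]
    rw [Bundle.Trivialization.continuousLinearMapAt_apply]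
    exact ((trivializationAt (EE n) (TangentSpace (𝓡 n)) x₀).linearMapAt_apply p.2).trans
      (by rw [if_pos]; exact hp) |>.symm
  simp only [tmc]
  rw [← h2]
  rfl

lemma mem_extChartAt_zpt_source {x₀ : M} {p : TangentBundle (𝓡 n) M} :
    p ∈ (extChartAt (𝓡 n).tangent (zpt n x₀)).source ↔
      p.1 ∈ (chartAt (EuclideanSpace ℝ (Fin n)) x₀).source := by
  rw [extChartAt_source]
  exact TangentBundle.mem_chart_source_iff p (zpt n x₀)

lemma extChartAt_zpt_source (x₀ : M) :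
    (extChartAt (𝓡 n).tangent (zpt n x₀)).source =
      {p : TangentBundle (𝓡 n) M | p.1 ∈ (chartAt (EuclideanSpace ℝ (Fin n)) x₀).source} := by
  ext p
  exact mem_extChartAt_zpt_source

lemma tmci_mem_source {x₀ : M} {q : EE n × EE n} (hq : q.1 ∈ (extChartAt (𝓡 n) x₀).target) :
    (tmci x₀ q).1 ∈ (chartAt (EuclideanSpace ℝ (Fin n)) x₀).source := by
  have h := (extChartAt (𝓡 n) x₀).map_target hq
  rwa [extChartAt_source] at h

lemma tmc_tmci {x₀ : M} {q : EE n × EE n} (hq : q.1 ∈ (extChartAt (𝓡 n) x₀).target) :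
    tmc x₀ (tmci x₀ q) = q := by
  refine Prod.ext ?_ ?_
  · exact (extChartAt (𝓡 n) x₀).right_inv hq
  · exact dphi_dpsi x₀ hq q.2

lemma extChartAt_zpt_symm_apply (x₀ : M) {q : EE n × EE n}
    (hq : q.1 ∈ (extChartAt (𝓡 n) x₀).target) :
    (extChartAt (𝓡 n).tangent (zpt n x₀)).symm q = tmci x₀ q := by
  have h1 : tmci x₀ q ∈ (extChartAt (𝓡 n).tangent (zpt n x₀)).source :=
    mem_extChartAt_zpt_source.2 (tmci_mem_source hq)
  have h2 := (extChartAt (𝓡 n).tangent (zpt n x₀)).left_inv h1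
  rw [extChartAt_zpt_apply x₀ (tmci_mem_source hq), tmc_tmci hq] at h2
  exact h2

lemma tmci_tmc {x₀ : M} {p : TangentBundle (𝓡 n) M}
    (hp : p.1 ∈ (chartAt (EuclideanSpace ℝ (Fin n)) x₀).source) :
    tmci x₀ (tmc x₀ p) = p := by
  have h2 := (extChartAt (𝓡 n).tangent (zpt n x₀)).left_inv (mem_extChartAt_zpt_source.2 hp)
  rw [extChartAt_zpt_apply x₀ hp] at h2
  rw [← extChartAt_zpt_symm_apply x₀, h2]
  exact (extChartAt (𝓡 n) x₀).map_source (by rwa [extChartAt_source])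

lemma mem_extChartAt_zpt_target {x₀ : M} {q : EE n × EE n} :
    q ∈ (extChartAt (𝓡 n).tangent (zpt n x₀)).target ↔
      q.1 ∈ (extChartAt (𝓡 n) x₀).target := by
  constructor
  · intro hq
    have h1 := (extChartAt (𝓡 n).tangent (zpt n x₀)).map_target hq
    have h2 := (extChartAt (𝓡 n).tangent (zpt n x₀)).right_inv hq
    rw [extChartAt_zpt_apply x₀ (mem_extChartAt_zpt_source.1 h1)] at h2
    rw [← h2]
    exact (extChartAt (𝓡 n) x₀).map_source
      (by rw [extChartAt_source]; exact mem_extChartAt_zpt_source.1 h1)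
  · intro hq
    have h1 : tmci x₀ q ∈ (extChartAt (𝓡 n).tangent (zpt n x₀)).source :=
      mem_extChartAt_zpt_source.2 (tmci_mem_source hq)
    have h2 := (extChartAt (𝓡 n).tangent (zpt n x₀)).map_source h1
    rwa [extChartAt_zpt_apply x₀ (tmci_mem_source hq), tmc_tmci hq] at h2

lemma isOpen_tmc_source (x₀ : M) : IsOpen {p : TangentBundle (𝓡 n) M |
    p.1 ∈ (chartAt (EuclideanSpace ℝ (Fin n)) x₀).source} := by
  rw [← extChartAt_zpt_source]
  exact isOpen_extChartAt_source (I := (𝓡 n).tangent) (zpt n x₀)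

/-- the tangent bundle chart is smooth -/
lemma contMDiffOn_tmc (x₀ : M) :
    ContMDiffOn (𝓡 n).tangent 𝓘(ℝ, EE n × EE n) ∞ (tmc x₀)
      {p : TangentBundle (𝓡 n) M | p.1 ∈ (chartAt (EuclideanSpace ℝ (Fin n)) x₀).source} := by
  have h := contMDiffOn_extChartAt (I := (𝓡 n).tangent) (n := ∞) (x := zpt n x₀)
  refine (h.congr ?_).mono ?_
  · intro p hp
    exact (extChartAt_zpt_apply x₀ ((TangentBundle.mem_chart_source_iff p (zpt n x₀)).1 hp)).symm
  · intro p hp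
    exact (TangentBundle.mem_chart_source_iff p (zpt n x₀)).2 hp

lemma contMDiffAt_tmc {x₀ : M} {p : TangentBundle (𝓡 n) M}
    (hp : p.1 ∈ (chartAt (EuclideanSpace ℝ (Fin n)) x₀).source) :
    ContMDiffAt (𝓡 n).tangent 𝓘(ℝ, EE n × EE n) ∞ (tmc x₀) p :=
  (contMDiffOn_tmc x₀).contMDiffAt ((isOpen_tmc_source x₀).mem_nhds hp)

/-- the inverse tangent bundle chart is smooth -/
lemma contMDiffOn_tmci (x₀ : M) :
    ContMDiffOn 𝓘(ℝ, EE n × EE n) (𝓡 n).tangent ∞ (tmci x₀)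
      {q : EE n × EE n | q.1 ∈ (extChartAt (𝓡 n) x₀).target} := by
  have h := contMDiffOn_extChartAt_symm (I := (𝓡 n).tangent) (n := ∞) (zpt n x₀)
  refine (h.congr ?_).mono ?_
  · intro q hq
    exact (extChartAt_zpt_symm_apply x₀ (mem_extChartAt_zpt_target.1 hq)).symm
  · intro q hq
    exact mem_extChartAt_zpt_target.2 hq

lemma isOpen_tmci_source (x₀ : M) :
    IsOpen {q : EE n × EE n | q.1 ∈ (extChartAt (𝓡 n) x₀).target} :=
  (isOpen_extChartAt_target x₀).preimage continuous_fst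

lemma contMDiffAt_tmci {x₀ : M} {q : EE n × EE n} (hq : q.1 ∈ (extChartAt (𝓡 n) x₀).target) :
    ContMDiffAt 𝓘(ℝ, EE n × EE n) (𝓡 n).tangent ∞ (tmci x₀) q :=
  (contMDiffOn_tmci x₀).contMDiffAt ((isOpen_tmci_source x₀).mem_nhds hq)

lemma continuousAt_tmc {x₀ : M} {p : TangentBundle (𝓡 n) M}
    (hp : p.1 ∈ (chartAt (EuclideanSpace ℝ (Fin n)) x₀).source) :
    ContinuousAt (tmc x₀) p := (contMDiffAt_tmc hp).continuousAt

/-- A map `TM → M` which, near `p`, is of the form `φ₁⁻¹ ∘ F ∘ (bundle chart at x₀)` with `F`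
smooth, is smooth at `p`. -/
theorem contMDiffAt_of_chart {x₀ x₁ : M} {p : TangentBundle (𝓡 n) M}
    (hp : p.1 ∈ (chartAt (EuclideanSpace ℝ (Fin n)) x₀).source)
    {F : EE n × EE n → EE n} (hF : ContDiffAt ℝ ∞ F (tmc x₀ p))
    (hFt : F (tmc x₀ p) ∈ (extChartAt (𝓡 n) x₁).target) {f : TangentBundle (𝓡 n) M → M}
    (hf : ∀ᶠ q in 𝓝 p, f q = (extChartAt (𝓡 n) x₁).symm (F (tmc x₀ q))) :
    ContMDiffAt (𝓡 n).tangent (𝓡 n) ∞ f p := by
  have h1 : ContMDiffAt 𝓘(ℝ, EE n × EE n) 𝓘(ℝ, EE n) ∞ F (tmc x₀ p) := hF.contMDiffAt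
  have h2 : ContMDiffAt (𝓡 n).tangent 𝓘(ℝ, EE n) ∞ (F ∘ tmc x₀) p :=
    h1.comp p (contMDiffAt_tmc hp)
  have h3 : ContMDiffAt 𝓘(ℝ, EE n) (𝓡 n) ∞ (extChartAt (𝓡 n) x₁).symm (F (tmc x₀ p)) :=
    (contMDiffOn_extChartAt_symm x₁).contMDiffAt ((isOpen_extChartAt_target x₁).mem_nhds hFt)
  have h4 : ContMDiffAt (𝓡 n).tangent (𝓡 n) ∞ ((extChartAt (𝓡 n) x₁).symm ∘ (F ∘ tmc x₀)) p :=
    h3.comp p h2
  exact h4.congr_of_eventuallyEq hf

/-- A map `TM → TM` given in bundle charts by a smooth map is smooth. -/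
theorem contMDiffAt_tangent_of_chart {x₀ x₁ : M} {p : TangentBundle (𝓡 n) M}
    (hp : p.1 ∈ (chartAt (EuclideanSpace ℝ (Fin n)) x₀).source)
    {F : EE n × EE n → EE n × EE n} (hF : ContDiffAt ℝ ∞ F (tmc x₀ p))
    (hFt : (F (tmc x₀ p)).1 ∈ (extChartAt (𝓡 n) x₁).target)
    {f : TangentBundle (𝓡 n) M → TangentBundle (𝓡 n) M}
    (hf : ∀ᶠ q in 𝓝 p, f q = tmci x₁ (F (tmc x₀ q))) :
    ContMDiffAt (𝓡 n).tangent (𝓡 n).tangent ∞ f p := by
  have h1 : ContMDiffAt 𝓘(ℝ, EE n × EE n) 𝓘(ℝ, EE n × EE n) ∞ F (tmc x₀ p) := hF.contMDiffAt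
  have h2 : ContMDiffAt (𝓡 n).tangent 𝓘(ℝ, EE n × EE n) ∞ (F ∘ tmc x₀) p :=
    h1.comp p (contMDiffAt_tmc hp)
  have h4 : ContMDiffAt (𝓡 n).tangent (𝓡 n).tangent ∞ (tmci x₁ ∘ (F ∘ tmc x₀)) p :=
    (contMDiffAt_tmci (q := F (tmc x₀ p)) hFt).comp p h2
  exact h4.congr_of_eventuallyEq hf

/-- A real function on `TM` given in a bundle chart by a smooth function is smooth. -/
theorem contMDiffAt_real_of_chart {V : Type*} [NormedAddCommGroup V] [NormedSpace ℝ V]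
    {x₀ : M} {p : TangentBundle (𝓡 n) M}
    (hp : p.1 ∈ (chartAt (EuclideanSpace ℝ (Fin n)) x₀).source)
    {F : EE n × EE n → V} (hF : ContDiffAt ℝ ∞ F (tmc x₀ p))
    {f : TangentBundle (𝓡 n) M → V}
    (hf : ∀ᶠ q in 𝓝 p, f q = F (tmc x₀ q)) :
    ContMDiffAt (𝓡 n).tangent 𝓘(ℝ, V) ∞ f p := by
  have h1 : ContMDiffAt 𝓘(ℝ, EE n × EE n) 𝓘(ℝ, V) ∞ F (tmc x₀ p) := hF.contMDiffAt
  exact (h1.comp p (contMDiffAt_tmc hp)).congr_of_eventuallyEq hf

/-- near `p` the bundle chart identifies neighbourhoods -/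
lemma map_nhds_tmc {x₀ : M} {p : TangentBundle (𝓡 n) M}
    (hp : p.1 ∈ (chartAt (EuclideanSpace ℝ (Fin n)) x₀).source) {P : EE n × EE n → Prop}
    (hP : ∀ᶠ q in 𝓝 (tmc x₀ p), P q) : ∀ᶠ q in 𝓝 p, P (tmc x₀ q) :=
  (continuousAt_tmc hp).eventually hP

lemma eventually_nhds_tmci {x₀ : M} {q : EE n × EE n} (hq : q.1 ∈ (extChartAt (𝓡 n) x₀).target)
    {P : TangentBundle (𝓡 n) M → Prop}
    (hP : ∀ᶠ p in 𝓝 (tmci x₀ q), P p) : ∀ᶠ q' in 𝓝 q, P (tmci x₀ q') :=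
  (contMDiffAt_tmci hq).continuousAt.eventually hP

end

section norm
variable {n : ℕ} {M : Type*} [MetricSpace M] [ChartedSpace (EuclideanSpace ℝ (Fin n)) M]
  [IsManifold (𝓡 n) ∞ M]
  [RiemannianBundle (fun p : M => TangentSpace (𝓡 n) p)]
  [IsContMDiffRiemannianBundle (𝓡 n) ∞ (EuclideanSpace ℝ (Fin n)) (fun p : M => TangentSpace (𝓡 n) p)]

lemma contMDiff_norm_sq :
    ContMDiff (𝓡 n).tangent 𝓘(ℝ, ℝ) ∞ (fun p : TangentBundle (𝓡 n) M => ‖p.2‖ ^ 2) := by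
  have h : ContMDiff (𝓡 n).tangent 𝓘(ℝ, ℝ) ∞
      (fun p : TangentBundle (𝓡 n) M => inner ℝ p.2 p.2) :=
    ContMDiff.inner_bundle (IB := 𝓡 n) (F := EE n) (E := fun p : M => TangentSpace (𝓡 n) p)
      (b := fun p : TangentBundle (𝓡 n) M => p.1)
      (v := fun p => p.2) (w := fun p => p.2) contMDiff_id contMDiff_id
  refine h.congr fun p => ?_
  rw [real_inner_self_eq_norm_sq]

lemma continuous_norm :
    Continuous (fun p : TangentBundle (𝓡 n) M => ‖p.2‖) := by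
  have h := (contMDiff_norm_sq (n := n) (M := M)).continuous.sqrt
  refine h.congr fun p => ?_
  rw [Real.sqrt_sq (norm_nonneg _)]

lemma isOpen_norm_lt (r : ℝ) : IsOpen {p : TangentBundle (𝓡 n) M | ‖p.2‖ < r} :=
  isOpen_lt continuous_norm continuous_const

end norm

end Crest.Agent.R226.TMSmooth771
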