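/-
R226, layer C7 (helper128): local uniformity (Lipschitz bound of `φ` on the fibres, balls in fibres)
for the local Loeper principle.
-/
import Crest.Agent.R226.LoeperPt_128
import Crest.Agent.R226.TMSmooth_771
import Crest.Agent.R226.BAux_227
import Crest.Agent.R226.CutTop_478
import Crest.Agent.R226.RadialSmooth_542

set_option autoImplicit false

open MeasureTheory Bundle Set Filter
open scoped Manifold ContDiff Bundle ENNReal Topology
open Crest.GeometryTopology.MTW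

namespace Crest.Agent.R226.LoeperUnif128

open Crest.Agent.R226.LoeperCalc128 Crest.Agent.R226.LoeperMfd128 Crest.Agent.R226.LoeperPt128
open Crest.Agent.R226.TMSmooth771

variable {n : ℕ} {M : Type*} [MetricSpace M] [ChartedSpace (EuclideanSpace ℝ (Fin n)) M]
  [IsManifold (𝓡 n) ∞ M]
  [RiemannianBundle (fun p : M => TangentSpace (𝓡 n) p)]
  [IsContMDiffRiemannianBundle (𝓡 n) ∞ (EuclideanSpace ℝ (Fin n)) (fun p : M => TangentSpace (𝓡 n) p)]

/-- the derivative of the chart is the trivialization, locally bounded in both directions. -/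
theorem dphi_bounds (y : M) : ∃ C : ℝ, 0 < C ∧ ∀ᶠ z in 𝓝 y,
    z ∈ (chartAt (EuclideanSpace ℝ (Fin n)) y).source ∧
    ∀ v : TangentSpace (𝓡 n) z, ‖dphi y z v‖ ≤ C * ‖v‖ ∧ ‖v‖ ≤ C * ‖dphi y z v‖ := by
  have := BAux227.contRiem n M
  obtain ⟨C₁, hC₁, h1⟩ := eventually_norm_trivializationAt_lt (EuclideanSpace ℝ (Fin n))
    (fun p : M => TangentSpace (𝓡 n) p) y
  obtain ⟨C₂, hC₂, h2⟩ := eventually_norm_symmL_trivializationAt_lt (EuclideanSpace ℝ (Fin n))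
    (fun p : M => TangentSpace (𝓡 n) p) y
  refine ⟨max C₁ C₂, lt_max_of_lt_left hC₁, ?_⟩
  have hsrc : (chartAt (EuclideanSpace ℝ (Fin n)) y).source ∈ 𝓝 y :=
    (chartAt (EuclideanSpace ℝ (Fin n)) y).open_source.mem_nhds (mem_chart_source _ y)
  filter_upwards [h1, h2, hsrc] with z hz1 hz2 hz
  refine ⟨hz, fun v => ?_⟩
  have e1 : (trivializationAt (EuclideanSpace ℝ (Fin n)) (TangentSpace (𝓡 n)) y).continuousLinearMapAt ℝ z
      = dphi y z := TangentBundle.continuousLinearMapAt_trivializationAt (I := 𝓡 n) (𝕜 := ℝ) hz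
  constructor
  · rw [← e1]
    calc _ ≤ ‖(trivializationAt (EuclideanSpace ℝ (Fin n)) (TangentSpace (𝓡 n)) y).continuousLinearMapAt ℝ z‖ * ‖v‖ :=
          ContinuousLinearMap.le_opNorm _ _
      _ ≤ _ := by
        apply mul_le_mul_of_nonneg_right _ (norm_nonneg _)
        exact hz1.le.trans (le_max_left _ _)
  · have hzb : z ∈ (trivializationAt (EuclideanSpace ℝ (Fin n)) (TangentSpace (𝓡 n)) y).baseSet := hz
    have e2 : (trivializationAt (EuclideanSpace ℝ (Fin n)) (TangentSpace (𝓡 n)) y).symmL ℝ z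
        (dphi y z v) = v := by
      rw [← e1]
      exact (trivializationAt (EuclideanSpace ℝ (Fin n)) (TangentSpace (𝓡 n)) y).symmL_continuousLinearMapAt hzb v
    have e3 := ContinuousLinearMap.le_opNorm
      ((trivializationAt (EuclideanSpace ℝ (Fin n)) (TangentSpace (𝓡 n)) y).symmL ℝ z) (dphi y z v)
    rw [e2] at e3
    exact e3.trans (mul_le_mul_of_nonneg_right (hz2.le.trans (le_max_right _ _)) (norm_nonneg _))

/-- small fibre balls around points near `p` stay near `p`. -/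
theorem fiber_ball {y : M} {q : TangentSpace (𝓡 n) y} {N : Set (TangentBundle (𝓡 n) M)}
    (hN : N ∈ 𝓝 (⟨y, q⟩ : TangentBundle (𝓡 n) M)) :
    ∃ O ∈ 𝓝 (⟨y, q⟩ : TangentBundle (𝓡 n) M), ∀ z : M, ∀ q₀ q₁ q' : TangentSpace (𝓡 n) z,
      (⟨z, q₀⟩ : TangentBundle (𝓡 n) M) ∈ O → (⟨z, q₁⟩ : TangentBundle (𝓡 n) M) ∈ O →
      ‖q' - q₀‖ ≤ ‖q₁ - q₀‖ → (⟨z, q'⟩ : TangentBundle (𝓡 n) M) ∈ N := by
  obtain ⟨C, hC, hb⟩ := dphi_bounds (n := n) y
  have hy : (⟨y, q⟩ : TangentBundle (𝓡 n) M).1 ∈ (chartAt (EuclideanSpace ℝ (Fin n)) y).source :=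
    mem_chart_source _ y
  obtain ⟨z0, hz0⟩ : ∃ z0, z0 = tmc y (⟨y, q⟩ : TangentBundle (𝓡 n) M) := ⟨_, rfl⟩
  have hz0t : z0.1 ∈ (extChartAt (𝓡 n) y).target := by
    rw [hz0]
    exact (extChartAt (𝓡 n) y).map_source (mem_extChartAt_source y)
  have hN' : ∀ᶠ a in 𝓝 z0, tmci y a ∈ N := by
    apply eventually_nhds_tmci hz0t (P := fun p => p ∈ N)
    rw [hz0, tmci_tmc hy]
    exact hN
  obtain ⟨δ, hδ, hδN⟩ := Metric.eventually_nhds_iff.1 hN'
  obtain ⟨δ', hδ'0, hδ'⟩ : ∃ δ', 0 < δ' ∧ (2 * (C * C) + 1) * δ' < δ := by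
    refine ⟨δ / (2 * (2 * (C * C) + 1)), by positivity, ?_⟩
    have : (2 * (C * C) + 1) * (δ / (2 * (2 * (C * C) + 1))) = δ / 2 := by
      field_simp
    rw [this]; linarith
  refine ⟨{p | dist (tmc y p) z0 < δ'} ∩ {p | p.1 ∈ (chartAt (EuclideanSpace ℝ (Fin n)) y).source ∧
    ∀ v : TangentSpace (𝓡 n) p.1, ‖dphi y p.1 v‖ ≤ C * ‖v‖ ∧ ‖v‖ ≤ C * ‖dphi y p.1 v‖}, ?_, ?_⟩
  · apply inter_mem
    · have h1 := map_nhds_tmc (x₀ := y) (p := (⟨y, q⟩ : TangentBundle (𝓡 n) M)) hy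
        (P := fun a => dist a z0 < δ') (by rw [← hz0]; exact Metric.ball_mem_nhds z0 hδ'0)
      exact h1
    · have h2 : ContinuousAt (fun p : TangentBundle (𝓡 n) M => p.1)
          (⟨y, q⟩ : TangentBundle (𝓡 n) M) :=
        (FiberBundle.continuous_proj (EuclideanSpace ℝ (Fin n))
          (fun p : M => TangentSpace (𝓡 n) p)).continuousAt
      exact h2 hb
  · rintro z q₀ q₁ q' ⟨h0, hz, hzb⟩ ⟨h1, -, -⟩ hle
    change dist _ _ < _ at h0
    change dist _ _ < _ at h1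
    have e1 : ‖dphi y z q' - dphi y z q₀‖ ≤ C * (C * (2 * δ')) := by
      rw [← map_sub]
      refine ((hzb _).1).trans ?_
      gcongr
      refine (hle.trans (hzb _).2).trans ?_
      gcongr
      rw [map_sub, ← dist_eq_norm]
      have h2 : dist (dphi y z q₁) z0.2 < δ' := lt_of_le_of_lt (le_max_right _ _) h1
      have h3 : dist (dphi y z q₀) z0.2 < δ' := lt_of_le_of_lt (le_max_right _ _) h0
      have := dist_triangle_right (dphi y z q₁) (dphi y z q₀) z0.2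
      linarith
    have h4 : dist (tmc y (⟨z, q'⟩ : TangentBundle (𝓡 n) M)) z0 < δ := by
      have h5 : dist (tmc y (⟨z, q'⟩ : TangentBundle (𝓡 n) M)) (tmc y (⟨z, q₀⟩ : TangentBundle (𝓡 n) M))
          ≤ C * (C * (2 * δ')) := by
        rw [Prod.dist_eq]
        apply max_le
        · simp only [tmc, dist_self]
          positivity
        · rw [dist_eq_norm]; exact e1
      have h6 := dist_triangle (tmc y (⟨z, q'⟩ : TangentBundle (𝓡 n) M))
        (tmc y (⟨z, q₀⟩ : TangentBundle (𝓡 n) M)) z0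
      nlinarith
    have h7 := hδN h4
    rwa [tmci_tmc (x₀ := y) (p := (⟨z, q'⟩ : TangentBundle (𝓡 n) M)) hz] at h7

/-- the exponential map on the tangent bundle -/
noncomputable def exT (G : GeoData n M) (p : TangentBundle (𝓡 n) M) : M := G.ex p.1 p.2

omit [IsContMDiffRiemannianBundle (𝓡 n) ∞ (EuclideanSpace ℝ (Fin n))
  (fun p : M => TangentSpace (𝓡 n) p)] in
/-- the cost in bundle coordinates -/
theorem contDiffAt_H {G : GeoData n M} (hC : CutFacts G) {y : M} {q : TangentSpace (𝓡 n) y}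
    (hq : q ∈ G.I y) :
    ContDiffAt ℝ ∞ (fun z : EE n × EE n × EE n =>
      halfDistSq (exT G (tmci y (z.1, z.2.1))) (exT G (tmci y (z.1, z.2.2))))
      (extChartAt (𝓡 n) y y, 0, dphi y y q) := by
  have hy : (⟨y, q⟩ : TangentBundle (𝓡 n) M).1 ∈ (chartAt (EuclideanSpace ℝ (Fin n)) y).source :=
    mem_chart_source _ y
  have hyt : extChartAt (𝓡 n) y y ∈ (extChartAt (𝓡 n) y).target :=
    (extChartAt (𝓡 n) y).map_source (mem_extChartAt_source y)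
  have e1 : tmci y (extChartAt (𝓡 n) y y, dphi y y q) = (⟨y, q⟩ : TangentBundle (𝓡 n) M) :=
    tmci_tmc (x₀ := y) (p := (⟨y, q⟩ : TangentBundle (𝓡 n) M)) hy
  have e0 : tmci y (extChartAt (𝓡 n) y y, 0) = (⟨y, 0⟩ : TangentBundle (𝓡 n) M) := by
    have := tmci_tmc (x₀ := y) (p := (⟨y, 0⟩ : TangentBundle (𝓡 n) M)) hy
    unfold tmc at this
    simp only [map_zero] at this
    exact this
  have h1 : ContMDiffAt 𝓘(ℝ, EE n × EE n × EE n) 𝓘(ℝ, EE n × EE n) ∞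
      (fun z : EE n × EE n × EE n => (z.1, z.2.1)) (extChartAt (𝓡 n) y y, 0, dphi y y q) := by
    apply ContDiffAt.contMDiffAt
    fun_prop
  have h2 : ContMDiffAt 𝓘(ℝ, EE n × EE n × EE n) 𝓘(ℝ, EE n × EE n) ∞
      (fun z : EE n × EE n × EE n => (z.1, z.2.2)) (extChartAt (𝓡 n) y y, 0, dphi y y q) := by
    apply ContDiffAt.contMDiffAt
    fun_prop
  have h3 := ContMDiffAt.comp (extChartAt (𝓡 n) y y, (0 : EE n), dphi y y q)
    (contMDiffAt_tmci (x₀ := y) (q := (extChartAt (𝓡 n) y y, (0 : EE n))) hyt) h1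
  have h4 := ContMDiffAt.comp (extChartAt (𝓡 n) y y, (0 : EE n), dphi y y q)
    (contMDiffAt_tmci (x₀ := y) (q := (extChartAt (𝓡 n) y y, dphi y y q)) hyt) h2
  have hex : ContMDiff (𝓡 n).tangent (𝓡 n) ∞ (exT G) := G.smooth
  have h5 := (hex.contMDiffAt).comp (extChartAt (𝓡 n) y y, (0 : EE n), dphi y y q) h3
  have h6 := (hex.contMDiffAt).comp (extChartAt (𝓡 n) y y, (0 : EE n), dphi y y q) h4
  have h7 := h5.prodMk h6
  have h8 := hC.smooth_cost y q hq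
  have h9 : ContMDiffAt ((𝓡 n).prod (𝓡 n)) 𝓘(ℝ) ∞ (fun q : M × M => halfDistSq q.1 q.2)
      ((fun z : EE n × EE n × EE n =>
        (exT G (tmci y (z.1, z.2.1)), exT G (tmci y (z.1, z.2.2))))
        (extChartAt (𝓡 n) y y, (0 : EE n), dphi y y q)) := by
    simp only [e0, e1]
    have e2 : exT G (⟨y, 0⟩ : TangentBundle (𝓡 n) M) = y := G.ex_zero y
    rw [e2]
    exact h8
  exact contMDiffAt_iff_contDiffAt.1
    (ContMDiffAt.comp (extChartAt (𝓡 n) y y, (0 : EE n), dphi y y q) h9 h7)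

/-- local Lipschitz bound of `φ` on the fibres. -/
theorem lip_local {G : GeoData n M} (hC : CutFacts G) {y : M} {q : TangentSpace (𝓡 n) y}
    (hq : q ∈ G.I y) :
    ∃ N ∈ 𝓝 (⟨y, q⟩ : TangentBundle (𝓡 n) M), ∃ L : ℝ, 0 ≤ L ∧
      ∀ z : M, ∀ q₁ q₂ : TangentSpace (𝓡 n) z, (⟨z, q₁⟩ : TangentBundle (𝓡 n) M) ∈ N →
        (⟨z, q₂⟩ : TangentBundle (𝓡 n) M) ∈ N → ∀ ζ : TangentSpace (𝓡 n) z,
        |G.phi z ζ q₁ - G.phi z ζ q₂| ≤ L * ‖ζ‖ ^ 2 * ‖q₁ - q₂‖ := by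
  obtain ⟨C, hC0, hb⟩ := dphi_bounds (n := n) y
  have hy : (⟨y, q⟩ : TangentBundle (𝓡 n) M).1 ∈ (chartAt (EuclideanSpace ℝ (Fin n)) y).source :=
    mem_chart_source _ y
  obtain ⟨t, ht, K, hK0, hK⟩ := exists_lip_second ((contDiffAt_H hC hq).of_le three_le_infty)
  have hev : ∀ᶠ p in 𝓝 (⟨y, q⟩ : TangentBundle (𝓡 n) M), tmc y p ∈ t :=
    map_nhds_tmc (x₀ := y) (p := (⟨y, q⟩ : TangentBundle (𝓡 n) M)) hy (P := fun a => a ∈ t) ht
  have hbase : ∀ᶠ p in 𝓝 (⟨y, q⟩ : TangentBundle (𝓡 n) M),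
      p.1 ∈ (chartAt (EuclideanSpace ℝ (Fin n)) y).source ∧
      ∀ v : TangentSpace (𝓡 n) p.1, ‖dphi y p.1 v‖ ≤ C * ‖v‖ ∧ ‖v‖ ≤ C * ‖dphi y p.1 v‖ := by
    have h2 : ContinuousAt (fun p : TangentBundle (𝓡 n) M => p.1)
        (⟨y, q⟩ : TangentBundle (𝓡 n) M) :=
      (FiberBundle.continuous_proj (EuclideanSpace ℝ (Fin n))
        (fun p : M => TangentSpace (𝓡 n) p)).continuousAt
    exact h2 hb
  refine ⟨_, hev.and hbase, K * C ^ 2 * C, by positivity, ?_⟩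
  rintro z q₁ q₂ ⟨ht1, hz, hzb⟩ ⟨ht2, -, -⟩ ζ
  -- formula for `phi`
  have key : ∀ q' : TangentSpace (𝓡 n) z,
      G.phi z ζ q' = iteratedDeriv 2 (fun s : ℝ =>
        (fun z : EE n × EE n × EE n =>
          halfDistSq (exT G (tmci y (z.1, z.2.1))) (exT G (tmci y (z.1, z.2.2))))
        ((tmc y (⟨z, q'⟩ : TangentBundle (𝓡 n) M)).1, s • dphi y z ζ,
          (tmc y (⟨z, q'⟩ : TangentBundle (𝓡 n) M)).2)) 0 := by
    intro q'
    have e1 : (fun t : ℝ => halfDistSq (G.ex z (t • ζ)) (G.ex z q')) =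
        fun s : ℝ => (fun z : EE n × EE n × EE n =>
          halfDistSq (exT G (tmci y (z.1, z.2.1))) (exT G (tmci y (z.1, z.2.2))))
        ((tmc y (⟨z, q'⟩ : TangentBundle (𝓡 n) M)).1, s • dphi y z ζ,
          (tmc y (⟨z, q'⟩ : TangentBundle (𝓡 n) M)).2) := by
      funext t
      have h1 : tmci y ((tmc y (⟨z, q'⟩ : TangentBundle (𝓡 n) M)).1, t • dphi y z ζ) =
          (⟨z, t • ζ⟩ : TangentBundle (𝓡 n) M) := by
        rw [← map_smul]
        exact tmci_tmc (x₀ := y) (p := (⟨z, t • ζ⟩ : TangentBundle (𝓡 n) M)) hz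
      have h2 : tmci y ((tmc y (⟨z, q'⟩ : TangentBundle (𝓡 n) M)).1,
          (tmc y (⟨z, q'⟩ : TangentBundle (𝓡 n) M)).2) =
          (⟨z, q'⟩ : TangentBundle (𝓡 n) M) :=
        tmci_tmc (x₀ := y) (p := (⟨z, q'⟩ : TangentBundle (𝓡 n) M)) hz
      simp only [h1, h2]
      rfl
    unfold GeoData.phi
    rw [e1]
  rw [key q₁, key q₂]
  have h1 := hK _ ht1 _ ht2 (dphi y z ζ)
  refine h1.trans ?_
  have h2 : dist (tmc y (⟨z, q₁⟩ : TangentBundle (𝓡 n) M)) (tmc y (⟨z, q₂⟩ : TangentBundle (𝓡 n) M))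
      ≤ C * ‖q₁ - q₂‖ := by
    rw [Prod.dist_eq]
    apply max_le
    · simp only [tmc, dist_self]
      positivity
    · rw [dist_eq_norm]
      simp only [tmc]
      rw [← map_sub]
      exact (hzb _).1
  have h7 : ‖dphi y z ζ‖ ≤ C * ‖ζ‖ := (hzb ζ).1
  calc K * ‖dphi y z ζ‖ ^ 2 * dist (tmc y (⟨z, q₁⟩ : TangentBundle (𝓡 n) M))
        (tmc y (⟨z, q₂⟩ : TangentBundle (𝓡 n) M))
      ≤ K * (C * ‖ζ‖) ^ 2 * (C * ‖q₁ - q₂‖) := by gcongr
    _ = K * C ^ 2 * C * ‖ζ‖ ^ 2 * ‖q₁ - q₂‖ := by ring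

end Crest.Agent.R226.LoeperUnif128
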