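/-
R226, task B6 part 1 (helper616): generic facts on the tangent bundle.
-/
import Crest.Agent.R226.Defs_484

set_option autoImplicit false

open MeasureTheory Bundle Set Filter
open scoped Manifold ContDiff Bundle ENNReal Topology
open Crest.GeometryTopology.MTW

namespace Crest.Agent.R226.TB616

/-! ### Fibrewise linear operations on the tangent bundle -/
section TB

variable {n : ℕ} {M : Type*} [TopologicalSpace M] [ChartedSpace (EuclideanSpace ℝ (Fin n)) M]
  [IsManifold (𝓡 n) ∞ M]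

omit [IsManifold (𝓡 n) ∞ M] in
/-- equality in the tangent bundle, non-dependent form -/
theorem tb_ext {a b : M} {u w : EuclideanSpace ℝ (Fin n)} (h : a = b) (h' : u = w) :
    (⟨a, u⟩ : TangentBundle (𝓡 n) M) = ⟨b, w⟩ := by
  subst h; subst h'; rfl

variable {E' : Type*} [NormedAddCommGroup E'] [NormedSpace ℝ E'] {H' : Type*} [TopologicalSpace H']
  {I' : ModelWithCorners ℝ E' H'} {N : Type*} [TopologicalSpace N] [ChartedSpace H' N]

theorem triv_smul {x₀ : M} (x : M)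
    (hx : x ∈ (trivializationAt (EuclideanSpace ℝ (Fin n)) (TangentSpace (𝓡 n)) x₀).baseSet)
    (a : ℝ) (v : TangentSpace (𝓡 n) x) :
    (trivializationAt (EuclideanSpace ℝ (Fin n)) (TangentSpace (𝓡 n)) x₀
      (⟨x, a • v⟩ : TangentBundle (𝓡 n) M)).2 =
    a • (trivializationAt (EuclideanSpace ℝ (Fin n)) (TangentSpace (𝓡 n)) x₀
      (⟨x, v⟩ : TangentBundle (𝓡 n) M)).2 :=
  ((trivializationAt (EuclideanSpace ℝ (Fin n)) (TangentSpace (𝓡 n)) x₀).linear ℝ hx).2 a v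

theorem triv_add {x₀ : M} (x : M)
    (hx : x ∈ (trivializationAt (EuclideanSpace ℝ (Fin n)) (TangentSpace (𝓡 n)) x₀).baseSet)
    (v w : TangentSpace (𝓡 n) x) :
    (trivializationAt (EuclideanSpace ℝ (Fin n)) (TangentSpace (𝓡 n)) x₀
      (⟨x, v + w⟩ : TangentBundle (𝓡 n) M)).2 =
    (trivializationAt (EuclideanSpace ℝ (Fin n)) (TangentSpace (𝓡 n)) x₀
      (⟨x, v⟩ : TangentBundle (𝓡 n) M)).2 +
    (trivializationAt (EuclideanSpace ℝ (Fin n)) (TangentSpace (𝓡 n)) x₀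
      (⟨x, w⟩ : TangentBundle (𝓡 n) M)).2 :=
  ((trivializationAt (EuclideanSpace ℝ (Fin n)) (TangentSpace (𝓡 n)) x₀).linear ℝ hx).1 v w

theorem contMDiffWithinAt_smul {k : WithTop ℕ∞} {f : N → ℝ} {s : N → TangentBundle (𝓡 n) M}
    {S : Set N} {z : N}
    (hf : ContMDiffWithinAt I' 𝓘(ℝ) k f S z) (hs : ContMDiffWithinAt I' (𝓡 n).tangent k s S z) :
    ContMDiffWithinAt I' (𝓡 n).tangent k
      (fun z => (⟨(s z).1, f z • (s z).2⟩ : TangentBundle (𝓡 n) M)) S z := by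
  rw [Bundle.contMDiffWithinAt_totalSpace] at hs ⊢
  refine ⟨hs.1, ?_⟩
  have hb : ∀ᶠ y in 𝓝[S] z, (s y).1 ∈ (trivializationAt (EuclideanSpace ℝ (Fin n))
      (TangentSpace (𝓡 n)) (s z).1).baseSet :=
    hs.1.continuousWithinAt.preimage_mem_nhdsWithin
      ((trivializationAt (EuclideanSpace ℝ (Fin n)) (TangentSpace (𝓡 n)) (s z).1).open_baseSet.mem_nhds
        (FiberBundle.mem_baseSet_trivializationAt' _))
  refine (hf.smul hs.2).congr_of_eventuallyEq ?_ ?_
  · filter_upwards [hb] with y hy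
    exact triv_smul _ hy _ _
  · exact triv_smul _ (FiberBundle.mem_baseSet_trivializationAt' _) _ _

theorem contMDiffWithinAt_add {k : WithTop ℕ∞} {b : N → M} {v w : ∀ z, TangentSpace (𝓡 n) (b z)}
    {S : Set N} {z : N}
    (hv : ContMDiffWithinAt I' (𝓡 n).tangent k (fun z => (⟨b z, v z⟩ : TangentBundle (𝓡 n) M)) S z)
    (hw : ContMDiffWithinAt I' (𝓡 n).tangent k (fun z => (⟨b z, w z⟩ : TangentBundle (𝓡 n) M)) S z) :
    ContMDiffWithinAt I' (𝓡 n).tangent k
      (fun z => (⟨b z, v z + w z⟩ : TangentBundle (𝓡 n) M)) S z := by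
  rw [Bundle.contMDiffWithinAt_totalSpace] at hv hw ⊢
  refine ⟨hv.1, ?_⟩
  have hb : ∀ᶠ y in 𝓝[S] z, b y ∈ (trivializationAt (EuclideanSpace ℝ (Fin n))
      (TangentSpace (𝓡 n)) (b z)).baseSet :=
    hv.1.continuousWithinAt.preimage_mem_nhdsWithin
      ((trivializationAt (EuclideanSpace ℝ (Fin n)) (TangentSpace (𝓡 n)) (b z)).open_baseSet.mem_nhds
        (FiberBundle.mem_baseSet_trivializationAt' _))
  refine (hv.2.add hw.2).congr_of_eventuallyEq ?_ ?_
  · filter_upwards [hb] with y hy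
    exact triv_add _ hy _ _
  · exact triv_add _ (FiberBundle.mem_baseSet_trivializationAt' _) _ _

theorem contMDiffAt_smul {k : WithTop ℕ∞} {f : N → ℝ} {s : N → TangentBundle (𝓡 n) M} {z : N}
    (hf : ContMDiffAt I' 𝓘(ℝ) k f z) (hs : ContMDiffAt I' (𝓡 n).tangent k s z) :
    ContMDiffAt I' (𝓡 n).tangent k
      (fun z => (⟨(s z).1, f z • (s z).2⟩ : TangentBundle (𝓡 n) M)) z :=
  contMDiffWithinAt_smul hf hs

theorem contMDiffAt_add {k : WithTop ℕ∞} {b : N → M} {v w : ∀ z, TangentSpace (𝓡 n) (b z)} {z : N}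
    (hv : ContMDiffAt I' (𝓡 n).tangent k (fun z => (⟨b z, v z⟩ : TangentBundle (𝓡 n) M)) z)
    (hw : ContMDiffAt I' (𝓡 n).tangent k (fun z => (⟨b z, w z⟩ : TangentBundle (𝓡 n) M)) z) :
    ContMDiffAt I' (𝓡 n).tangent k
      (fun z => (⟨b z, v z + w z⟩ : TangentBundle (𝓡 n) M)) z :=
  contMDiffWithinAt_add hv hw

theorem contMDiff_smul {k : WithTop ℕ∞} {f : N → ℝ} {s : N → TangentBundle (𝓡 n) M}
    (hf : ContMDiff I' 𝓘(ℝ) k f) (hs : ContMDiff I' (𝓡 n).tangent k s) :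
    ContMDiff I' (𝓡 n).tangent k
      (fun z => (⟨(s z).1, f z • (s z).2⟩ : TangentBundle (𝓡 n) M)) :=
  fun z => contMDiffAt_smul (hf z) (hs z)

theorem contMDiff_add {k : WithTop ℕ∞} {b : N → M} {v w : ∀ z, TangentSpace (𝓡 n) (b z)}
    (hv : ContMDiff I' (𝓡 n).tangent k (fun z => (⟨b z, v z⟩ : TangentBundle (𝓡 n) M)))
    (hw : ContMDiff I' (𝓡 n).tangent k (fun z => (⟨b z, w z⟩ : TangentBundle (𝓡 n) M))) :
    ContMDiff I' (𝓡 n).tangent k
      (fun z => (⟨b z, v z + w z⟩ : TangentBundle (𝓡 n) M)) :=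
  fun z => contMDiffAt_add (hv z) (hw z)

/-- the inclusion of a fibre is smooth -/
theorem contMDiff_fibre (x : M) :
    ContMDiff 𝓘(ℝ, EuclideanSpace ℝ (Fin n)) (𝓡 n).tangent ∞
      (fun v : EuclideanSpace ℝ (Fin n) => (⟨x, v⟩ : TangentBundle (𝓡 n) M)) := by
  intro v
  rw [Bundle.contMDiffAt_totalSpace]
  refine ⟨contMDiffAt_const, ?_⟩
  have h : (fun v : EuclideanSpace ℝ (Fin n) =>
      ((trivializationAt (EuclideanSpace ℝ (Fin n)) (TangentSpace (𝓡 n)) x)
        (⟨x, v⟩ : TangentBundle (𝓡 n) M)).2) =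
      ((trivializationAt (EuclideanSpace ℝ (Fin n)) (TangentSpace (𝓡 n)) x).continuousLinearEquivAt
        ℝ x (FiberBundle.mem_baseSet_trivializationAt' _)).toContinuousLinearMap := by
    rfl
  rw [h]
  exact ContinuousLinearMap.contMDiffAt _

end TB

/-! ### Velocities of parametrised families of curves -/
section Vel

variable {n : ℕ} {M : Type*} [MetricSpace M] [ChartedSpace (EuclideanSpace ℝ (Fin n)) M]
  [IsManifold (𝓡 n) ∞ M]

variable {E' : Type*} [NormedAddCommGroup E'] [NormedSpace ℝ E'] {H' : Type*} [TopologicalSpace H']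
  {I' : ModelWithCorners ℝ E' H'} {N : Type*} [TopologicalSpace N] [ChartedSpace H' N]

theorem contMDiffAt_curveVel {k m : WithTop ℕ∞} (f : N → ℝ → M) (g : N → ℝ) (z : N)
    [IsManifold I' 1 N]
    (hf : ContMDiffAt (I'.prod 𝓘(ℝ)) (𝓡 n) m (Function.uncurry f) (z, g z))
    (hg : ContMDiffAt I' 𝓘(ℝ) m g z) (hkm : k + 1 ≤ m) :
    ContMDiffAt I' (𝓡 n).tangent k
      (fun y => (⟨f y (g y), curveVel n (f y) (g y)⟩ : TangentBundle (𝓡 n) M)) z := by
  have hkm' : k ≤ m := le_trans (le_add_of_nonneg_right zero_le_one) hkm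
  rw [Bundle.contMDiffAt_totalSpace]
  have hfg : ContMDiffAt I' (𝓡 n) m (fun y => f y (g y)) z :=
    hf.comp z (contMDiffAt_id.prodMk hg)
  refine ⟨hfg.of_le hkm', ?_⟩
  have h1 := (ContMDiffAt.mfderiv (m := k) f g hf (hg.of_le hkm') hkm)
  have h2 : ContMDiffAt I' 𝓘(ℝ, EuclideanSpace ℝ (Fin n)) k (fun y =>
      inTangentCoordinates 𝓘(ℝ, ℝ) (𝓡 n) g (fun y => f y (g y))
        (fun y => mfderiv 𝓘(ℝ, ℝ) (𝓡 n) (f y) (g y)) z y (1 : ℝ)) z :=
    h1.clm_apply contMDiffAt_const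
  refine h2.congr_of_eventuallyEq ?_
  have hb : ∀ᶠ y in 𝓝 z, f y (g y) ∈ (chartAt (EuclideanSpace ℝ (Fin n)) (f z (g z))).source :=
    hfg.continuousAt.preimage_mem_nhds
      ((chartAt (EuclideanSpace ℝ (Fin n)) (f z (g z))).open_source.mem_nhds (mem_chart_source _ _))
  filter_upwards [hb] with y hy
  have h3 := inTangentCoordinates_eq (I := 𝓘(ℝ, ℝ)) (I' := 𝓡 n) g (fun y => f y (g y))
    (fun y => mfderiv 𝓘(ℝ, ℝ) (𝓡 n) (f y) (g y)) (x₀ := z) (x := y) (mem_univ _) hy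
  rw [TangentBundle.coordChange_model_space] at h3
  have h4 := congrArg (fun L : ℝ →L[ℝ] EuclideanSpace ℝ (Fin n) => L (1 : ℝ)) h3
  exact h4.symm

end Vel

section Vel2

variable {n : ℕ} {M : Type*} [MetricSpace M] [ChartedSpace (EuclideanSpace ℝ (Fin n)) M]
  [IsManifold (𝓡 n) ∞ M]

omit [IsManifold (𝓡 n) ∞ M] in
/-- chain rule for velocities -/
theorem curveVel_comp {γ : ℝ → M} {h : ℝ → ℝ} {h' t : ℝ}
    (hγ : MDifferentiableAt 𝓘(ℝ, ℝ) (𝓡 n) γ (h t)) (hh : HasDerivAt h h' t) :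
    curveVel n (fun s => γ (h s)) t = (h' • curveVel n γ (h t) : TangentSpace (𝓡 n) (γ (h t))) := by
  have h1 : HasMFDerivAt 𝓘(ℝ, ℝ) 𝓘(ℝ, ℝ) h t (ContinuousLinearMap.toSpanSingleton ℝ h') :=
    hh.hasFDerivAt.hasMFDerivAt
  have h2 := (hγ.hasMFDerivAt.comp t h1).mfderiv
  have h3 := congrArg (fun L : ℝ →L[ℝ] EuclideanSpace ℝ (Fin n) => L (1 : ℝ)) h2
  refine (Eq.trans h3 ?_)
  have h4 : ∀ L : ℝ →L[ℝ] EuclideanSpace ℝ (Fin n), L ((1 : ℝ) • h') = h' • L 1 := by
    intro L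
    rw [← map_smul]; simp
  exact h4 _

end Vel2

section Riem

variable {n : ℕ} {M : Type*} [MetricSpace M] [ChartedSpace (EuclideanSpace ℝ (Fin n)) M]
  [IsManifold (𝓡 n) ∞ M]
  [RiemannianBundle (fun p : M => TangentSpace (𝓡 n) p)]
  [IsContMDiffRiemannianBundle (𝓡 n) ∞ (EuclideanSpace ℝ (Fin n)) (fun p : M => TangentSpace (𝓡 n) p)]

variable (n M) in
theorem isContinuousRiemannianBundle :
    IsContinuousRiemannianBundle (EuclideanSpace ℝ (Fin n)) (fun p : M => TangentSpace (𝓡 n) p) := by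
  obtain ⟨g, hg, h⟩ := IsContMDiffRiemannianBundle.exists_contMDiff (IB := 𝓡 n) (n := ∞)
    (F := EuclideanSpace ℝ (Fin n)) (E := fun p : M => TangentSpace (𝓡 n) p)
  exact ⟨⟨g, hg.continuous, h⟩⟩

/-- `p ↦ ‖p‖²` is smooth on the tangent bundle -/
theorem contMDiff_norm_sq :
    ContMDiff (𝓡 n).tangent 𝓘(ℝ) ∞ (fun p : TangentBundle (𝓡 n) M => ‖p.2‖ ^ 2) := by
  have h : ContMDiff (𝓡 n).tangent (𝓡 n).tangent ∞
      (fun p : TangentBundle (𝓡 n) M => (⟨p.1, p.2⟩ : TangentBundle (𝓡 n) M)) := contMDiff_id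
  have h2 := ContMDiff.inner_bundle (n := ∞) (IB := 𝓡 n) (F := EuclideanSpace ℝ (Fin n))
    (E := fun p : M => TangentSpace (𝓡 n) p) h h
  simpa only [real_inner_self_eq_norm_sq] using h2

/-- the norm is continuous on the tangent bundle -/
theorem continuous_norm : Continuous (fun p : TangentBundle (𝓡 n) M => ‖p.2‖) := by
  have h := (contMDiff_norm_sq (n := n) (M := M)).continuous.sqrt
  simpa only [Real.sqrt_sq (norm_nonneg _)] using h

theorem isCompact_disc [CompactSpace M] (R : ℝ) :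
    IsCompact {p : TangentBundle (𝓡 n) M | ‖p.2‖ ≤ R} := by
  have := isContinuousRiemannianBundle n M
  have key : ∀ x : M, ∃ U ∈ 𝓝 x, ∃ T : Set (TangentBundle (𝓡 n) M), IsCompact T ∧
      ∀ p : TangentBundle (𝓡 n) M, p.1 ∈ U → ‖p.2‖ ≤ R → p ∈ T := by
    intro x
    obtain ⟨C, hC, hev⟩ := eventually_norm_trivializationAt_lt (EuclideanSpace ℝ (Fin n))
      (fun p : M => TangentSpace (𝓡 n) p) x
    set e := trivializationAt (EuclideanSpace ℝ (Fin n)) (TangentSpace (𝓡 n)) x with he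
    have hU : {y | ‖e.continuousLinearMapAt ℝ y‖ < C} ∩ e.baseSet ∈ 𝓝 x :=
      inter_mem hev (e.open_baseSet.mem_nhds (FiberBundle.mem_baseSet_trivializationAt' x))
    have : LocallyCompactSpace M := inferInstance
    obtain ⟨Q, hQ, hQsub, hQc⟩ := local_compact_nhds hU
    refine ⟨Q, hQ, e.toPartialEquiv.symm '' (Q ×ˢ Metric.closedBall 0 (C * R)), ?_, ?_⟩
    · refine (hQc.prod (isCompact_closedBall _ _)).image_of_continuousOn ?_
      refine e.toOpenPartialHomeomorph.continuousOn_symm.mono ?_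
      rintro ⟨y, w⟩ ⟨hy, -⟩
      exact e.mem_target.2 (hQsub hy).2
    · rintro ⟨y, v⟩ hy hv
      have hyb : y ∈ e.baseSet := (hQsub hy).2
      refine ⟨e ⟨y, v⟩, ⟨?_, ?_⟩, ?_⟩
      · rw [e.coe_fst' hyb]; exact hy
      · rw [mem_closedBall_zero_iff]
        have h1 : (e ⟨y, v⟩).2 = e.continuousLinearMapAt ℝ y v := by
          rw [Trivialization.continuousLinearMapAt_apply, Trivialization.linearMapAt_apply, if_pos hyb]
        rw [h1]
        refine (ContinuousLinearMap.le_opNorm _ _).trans ?_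
        exact mul_le_mul (hQsub hy).1.le hv (norm_nonneg _) hC.le
      · exact e.toPartialEquiv.left_inv (e.mem_source.2 hyb)
  choose U hU T hT hmem using key
  obtain ⟨t, ht⟩ := isCompact_univ.elim_nhds_subcover U (fun x _ => hU x)
  refine IsCompact.of_isClosed_subset (t.isCompact_biUnion (fun x _ => hT x))
    (isClosed_le continuous_norm continuous_const) ?_
  intro p hp
  obtain ⟨x, hx, hpx⟩ := mem_iUnion₂.1 (ht.2 (mem_univ p.1))
  exact mem_iUnion₂.2 ⟨x, hx, hmem x p hpx hp⟩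

end Riem

section Top

variable {n : ℕ} {M : Type*} [TopologicalSpace M] [ChartedSpace (EuclideanSpace ℝ (Fin n)) M]
  [IsManifold (𝓡 n) ∞ M]

instance t2Space_tangentBundle [T2Space M] : T2Space (TangentBundle (𝓡 n) M) := by
  refine t2_iff_nhds.2 fun {p q} h => ?_
  have hc : Continuous (fun p : TangentBundle (𝓡 n) M => p.1) :=
    FiberBundle.continuous_proj (EuclideanSpace ℝ (Fin n)) (TangentSpace (𝓡 n))
  have h1 : p.1 = q.1 :=
    tendsto_nhds_unique ((hc.tendsto p).mono_left (inf_le_left : 𝓝 p ⊓ 𝓝 q ≤ 𝓝 p))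
      ((hc.tendsto q).mono_left inf_le_right)
  set e := trivializationAt (EuclideanSpace ℝ (Fin n)) (TangentSpace (𝓡 n)) p.1 with he
  have hp : p ∈ e.source := e.mem_source.2 (FiberBundle.mem_baseSet_trivializationAt' _)
  have hq : q ∈ e.source := e.mem_source.2 (h1 ▸ FiberBundle.mem_baseSet_trivializationAt' p.1)
  have h2 : e p = e q :=
    tendsto_nhds_unique ((e.continuousAt hp).tendsto.mono_left (inf_le_left : 𝓝 p ⊓ 𝓝 q ≤ 𝓝 p))
      ((e.continuousAt hq).tendsto.mono_left inf_le_right)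
  exact e.injOn hp hq h2

instance firstCountable_tangentBundle : FirstCountableTopology (TangentBundle (𝓡 n) M) := by
  refine ⟨fun p => ?_⟩
  have h := (chartAt (ModelProd (EuclideanSpace ℝ (Fin n)) (EuclideanSpace ℝ (Fin n))) p).symm_map_nhds_eq
    (mem_chart_source _ p)
  rw [← h]
  have : FirstCountableTopology (ModelProd (EuclideanSpace ℝ (Fin n)) (EuclideanSpace ℝ (Fin n))) :=
    inferInstanceAs (FirstCountableTopology ((EuclideanSpace ℝ (Fin n)) × (EuclideanSpace ℝ (Fin n))))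
  infer_instance

end Top

section Riem2

variable {n : ℕ} {M : Type*} [MetricSpace M] [ChartedSpace (EuclideanSpace ℝ (Fin n)) M]
  [IsManifold (𝓡 n) ∞ M]
  [RiemannianBundle (fun p : M => TangentSpace (𝓡 n) p)]

omit [IsManifold (𝓡 n) ∞ M] [RiemannianBundle (fun p : M => TangentSpace (𝓡 n) p)] in
theorem finDim (x : M) : FiniteDimensional ℝ (TangentSpace (𝓡 n) x) :=
  inferInstanceAs (FiniteDimensional ℝ (EuclideanSpace ℝ (Fin n)))

/-- the identity from the model space to the tangent space with its Riemannian norm -/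
noncomputable def toFib (x : M) : EuclideanSpace ℝ (Fin n) ≃L[ℝ] TangentSpace (𝓡 n) x :=
  ContinuousLinearEquiv.refl ℝ (EuclideanSpace ℝ (Fin n))

omit [IsManifold (𝓡 n) ∞ M] [RiemannianBundle (fun p : M => TangentSpace (𝓡 n) p)] in
theorem toFib_apply (x : M) (v : EuclideanSpace ℝ (Fin n)) : toFib x v = v := rfl

omit [IsManifold (𝓡 n) ∞ M] [RiemannianBundle (fun p : M => TangentSpace (𝓡 n) p)] in
theorem toFib_symm_apply (x : M) (v : TangentSpace (𝓡 n) x) : (toFib x).symm v = v := rfl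

omit [IsManifold (𝓡 n) ∞ M] in
theorem contDiff_toFib (x : M) : ContDiff ℝ ∞ (toFib (n := n) x) :=
  ContinuousLinearEquiv.contDiff (𝕜 := ℝ) (E := EuclideanSpace ℝ (Fin n))
    (F := TangentSpace (𝓡 n) x) (toFib (n := n) x)

omit [IsManifold (𝓡 n) ∞ M] in
theorem contDiff_toFib_symm (x : M) : ContDiff ℝ ∞ (toFib (n := n) x).symm :=
  ContinuousLinearEquiv.contDiff (𝕜 := ℝ) (F := EuclideanSpace ℝ (Fin n))
    (E := TangentSpace (𝓡 n) x) (toFib (n := n) x).symm

/-- the inclusion of a fibre (with its Riemannian norm) is smooth -/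
theorem contMDiff_fibre' (x : M) :
    ContMDiff 𝓘(ℝ, TangentSpace (𝓡 n) x) (𝓡 n).tangent ∞
      (fun v : TangentSpace (𝓡 n) x => (⟨x, v⟩ : TangentBundle (𝓡 n) M)) :=
  (contMDiff_fibre x).comp (contDiff_toFib_symm x).contMDiff

omit [IsManifold (𝓡 n) ∞ M] in
theorem properSpace_fib (x : M) : ProperSpace (TangentSpace (𝓡 n) x) := by
  have := finDim (n := n) x
  exact FiniteDimensional.proper_real _

variable [IsContMDiffRiemannianBundle (𝓡 n) ∞ (EuclideanSpace ℝ (Fin n))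
    (fun p : M => TangentSpace (𝓡 n) p)]

/-- bounded sequences of tangent vectors subconverge -/
theorem exists_subseq [CompactSpace M] {R : ℝ} (p : ℕ → TangentBundle (𝓡 n) M)
    (hp : ∀ k, ‖(p k).2‖ ≤ R) :
    ∃ (q : TangentBundle (𝓡 n) M) (φ : ℕ → ℕ), StrictMono φ ∧ ‖q.2‖ ≤ R ∧
      Tendsto (fun k => p (φ k)) atTop (𝓝 q) := by
  obtain ⟨q, hq, φ, hφ, h⟩ := (isCompact_disc (n := n) (M := M) R).isSeqCompact (x := p) hp
  exact ⟨q, φ, hφ, hq, h⟩

end Riem2

end Crest.Agent.R226.TB616
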