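/-
R226 (helper659): the exponential map is uniformly Lipschitz on discs of the fibres.
-/
import Crest.Agent.R226.LoeperUnif_128
import Crest.Agent.R226.VolChart_767
import Crest.Agent.R226.TB_616

set_option autoImplicit false

open MeasureTheory Bundle Set Filter
open scoped Manifold ContDiff Bundle ENNReal Topology NNReal
open Crest.GeometryTopology.MTW

namespace Crest.Agent.R226.ExLip659

open Crest.Agent.R226.LoeperUnif128 Crest.Agent.R226.TMSmooth771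

variable {n : ℕ} {M : Type*} [MetricSpace M] [ChartedSpace (EuclideanSpace ℝ (Fin n)) M]
  [IsManifold (𝓡 n) ∞ M]
  [RiemannianBundle (fun p : M => TangentSpace (𝓡 n) p)]
  [IsContMDiffRiemannianBundle (𝓡 n) ∞ (EuclideanSpace ℝ (Fin n)) (fun p : M => TangentSpace (𝓡 n) p)]

/-- tangent vectors of the same fibre at small distance are close in the tangent bundle. -/
theorem fiber_small {y : M} {q : TangentSpace (𝓡 n) y} {N : Set (TangentBundle (𝓡 n) M)}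
    (hN : N ∈ 𝓝 (⟨y, q⟩ : TangentBundle (𝓡 n) M)) :
    ∃ O ∈ 𝓝 (⟨y, q⟩ : TangentBundle (𝓡 n) M), ∃ δ : ℝ, 0 < δ ∧ ∀ z : M,
      ∀ q₁ q₂ : TangentSpace (𝓡 n) z, (⟨z, q₁⟩ : TangentBundle (𝓡 n) M) ∈ O → ‖q₂ - q₁‖ < δ →
      (⟨z, q₂⟩ : TangentBundle (𝓡 n) M) ∈ N := by
  obtain ⟨C, hC, hb⟩ := dphi_bounds (n := n) y
  have hy : (⟨y, q⟩ : TangentBundle (𝓡 n) M).1 ∈ (chartAt (EuclideanSpace ℝ (Fin n)) y).source :=
    mem_chart_source _ y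
  obtain ⟨z0, hz0⟩ : ∃ z0, z0 = tmc y (⟨y, q⟩ : TangentBundle (𝓡 n) M) := ⟨_, rfl⟩
  have hz0t : z0.1 ∈ (extChartAt (𝓡 n) y).target := by
    rw [hz0]
    exact (extChartAt (𝓡 n) y).map_source (mem_extChartAt_source y)
  have hN' : ∀ᶠ a in 𝓝 z0, tmci y a ∈ N := by
    apply eventually_nhds_tmci hz0t (P := fun p => p ∈ N)
    rw [hz0, tmci_tmc hy]
    exact hN
  obtain ⟨δ, hδ, hδN⟩ := Metric.eventually_nhds_iff.1 hN'
  refine ⟨{p | dist (tmc y p) z0 < δ / 2} ∩ {p | p.1 ∈ (chartAt (EuclideanSpace ℝ (Fin n)) y).source ∧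
    ∀ v : TangentSpace (𝓡 n) p.1, ‖dphi y p.1 v‖ ≤ C * ‖v‖ ∧ ‖v‖ ≤ C * ‖dphi y p.1 v‖}, ?_,
    δ / (2 * C), by positivity, ?_⟩
  · apply inter_mem
    · have h1 := map_nhds_tmc (x₀ := y) (p := (⟨y, q⟩ : TangentBundle (𝓡 n) M)) hy
        (P := fun a => dist a z0 < δ / 2) (by rw [← hz0]; exact Metric.ball_mem_nhds z0 (by positivity))
      exact h1
    · have h2 : ContinuousAt (fun p : TangentBundle (𝓡 n) M => p.1)
          (⟨y, q⟩ : TangentBundle (𝓡 n) M) :=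
        (FiberBundle.continuous_proj (EuclideanSpace ℝ (Fin n))
          (fun p : M => TangentSpace (𝓡 n) p)).continuousAt
      exact h2 hb
  · rintro z q₁ q₂ ⟨h0, hz, hzb⟩ hle
    change dist _ _ < _ at h0
    have e1 : ‖dphi y z q₂ - dphi y z q₁‖ < δ / 2 := by
      rw [← map_sub]
      refine ((hzb _).1).trans_lt ?_
      calc C * ‖q₂ - q₁‖ < C * (δ / (2 * C)) := by gcongr
        _ = δ / 2 := by field_simp
    have h5 : dist (tmc y (⟨z, q₂⟩ : TangentBundle (𝓡 n) M))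
        (tmc y (⟨z, q₁⟩ : TangentBundle (𝓡 n) M)) < δ / 2 := by
      rw [Prod.dist_eq]
      apply max_lt
      · simp only [tmc, dist_self]
        positivity
      · rw [dist_eq_norm]; exact e1
    have h6 := dist_triangle (tmc y (⟨z, q₂⟩ : TangentBundle (𝓡 n) M))
      (tmc y (⟨z, q₁⟩ : TangentBundle (𝓡 n) M)) z0
    have h4 : dist (tmc y (⟨z, q₂⟩ : TangentBundle (𝓡 n) M)) z0 < δ := by linarith
    have h7 := hδN h4
    rwa [tmci_tmc (x₀ := y) (p := (⟨z, q₂⟩ : TangentBundle (𝓡 n) M)) hz] at h7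

variable [IsRiemannianManifold (𝓡 n) M]

/-- local Lipschitz bound of `exp` along the fibres. -/
theorem lip_local (G : GeoData n M) (y : M) (q : TangentSpace (𝓡 n) y) :
    ∃ N ∈ 𝓝 (⟨y, q⟩ : TangentBundle (𝓡 n) M), ∃ L : ℝ, 0 ≤ L ∧
      ∀ z : M, ∀ q₁ q₂ : TangentSpace (𝓡 n) z, (⟨z, q₁⟩ : TangentBundle (𝓡 n) M) ∈ N →
        (⟨z, q₂⟩ : TangentBundle (𝓡 n) M) ∈ N → dist (G.ex z q₁) (G.ex z q₂) ≤ L * ‖q₁ - q₂‖ := by
  have := TB616.isContinuousRiemannianBundle n M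
  obtain ⟨C, hC0, hb⟩ := dphi_bounds (n := n) y
  have hy : (⟨y, q⟩ : TangentBundle (𝓡 n) M).1 ∈ (chartAt (EuclideanSpace ℝ (Fin n)) y).source :=
    mem_chart_source _ y
  have hyt : (tmc y (⟨y, q⟩ : TangentBundle (𝓡 n) M)).1 ∈ (extChartAt (𝓡 n) y).target :=
    (extChartAt (𝓡 n) y).map_source (mem_extChartAt_source y)
  have hex : ContMDiff (𝓡 n).tangent (𝓡 n) ∞ (exT G) := G.smooth
  have hf : ContMDiffAt 𝓘(ℝ, EE n × EE n) (𝓡 n) 1 (fun a => exT G (tmci y a))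
      (tmc y (⟨y, q⟩ : TangentBundle (𝓡 n) M)) :=
    ((hex.contMDiffAt).comp _ (contMDiffAt_tmci (x₀ := y) hyt)).of_le (by exact_mod_cast le_top)
  have : IsManifold (𝓡 n) 1 M := IsManifold.of_le (n := ∞) (by exact_mod_cast le_top)
  obtain ⟨K, t, ht, hK⟩ := VolChart767.exists_lipschitzOnWith_of_contMDiffAt_from hf
  have hev : ∀ᶠ p in 𝓝 (⟨y, q⟩ : TangentBundle (𝓡 n) M), tmc y p ∈ t :=
    map_nhds_tmc (x₀ := y) (p := (⟨y, q⟩ : TangentBundle (𝓡 n) M)) hy (P := fun a => a ∈ t) ht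
  have hbase : ∀ᶠ p in 𝓝 (⟨y, q⟩ : TangentBundle (𝓡 n) M),
      p.1 ∈ (chartAt (EuclideanSpace ℝ (Fin n)) y).source ∧
      ∀ v : TangentSpace (𝓡 n) p.1, ‖dphi y p.1 v‖ ≤ C * ‖v‖ ∧ ‖v‖ ≤ C * ‖dphi y p.1 v‖ := by
    have h2 : ContinuousAt (fun p : TangentBundle (𝓡 n) M => p.1)
        (⟨y, q⟩ : TangentBundle (𝓡 n) M) :=
      (FiberBundle.continuous_proj (EuclideanSpace ℝ (Fin n))
        (fun p : M => TangentSpace (𝓡 n) p)).continuousAt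
    exact h2 hb
  refine ⟨_, hev.and hbase, K * C, by positivity, ?_⟩
  rintro z q₁ q₂ ⟨ht1, hz, hzb⟩ ⟨ht2, -, -⟩
  have h1 := hK.dist_le_mul _ ht1 _ ht2
  change dist (exT G (tmci y (tmc y (⟨z, q₁⟩ : TangentBundle (𝓡 n) M)))) (exT G (tmci y (tmc y (⟨z, q₂⟩ : TangentBundle (𝓡 n) M)))) ≤ _ at h1
  rw [tmci_tmc (x₀ := y) (p := (⟨z, q₁⟩ : TangentBundle (𝓡 n) M)) hz,
    tmci_tmc (x₀ := y) (p := (⟨z, q₂⟩ : TangentBundle (𝓡 n) M)) hz] at h1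
  have h2 : dist (tmc y (⟨z, q₁⟩ : TangentBundle (𝓡 n) M)) (tmc y (⟨z, q₂⟩ : TangentBundle (𝓡 n) M))
      ≤ C * ‖q₁ - q₂‖ := by
    rw [Prod.dist_eq]
    apply max_le
    · simp only [tmc, dist_self]
      positivity
    · rw [dist_eq_norm]
      simp only [tmc]
      rw [← map_sub]
      exact (hzb _).1
  calc dist (G.ex z q₁) (G.ex z q₂) ≤ K * dist (tmc y (⟨z, q₁⟩ : TangentBundle (𝓡 n) M))
        (tmc y (⟨z, q₂⟩ : TangentBundle (𝓡 n) M)) := h1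
    _ ≤ K * (C * ‖q₁ - q₂‖) := by gcongr
    _ = K * C * ‖q₁ - q₂‖ := by ring

/-- **uniform Lipschitz bound of `exp` on discs of the fibres.** -/
theorem ex_lip [CompactSpace M] (G : GeoData n M) (R : ℝ) : ∃ L : ℝ, 0 ≤ L ∧
    ∀ z : M, ∀ q₁ q₂ : TangentSpace (𝓡 n) z, ‖q₁‖ ≤ R →
      dist (G.ex z q₁) (G.ex z q₂) ≤ L * ‖q₁ - q₂‖ := by
  have hK : IsCompact {p : TangentBundle (𝓡 n) M | ‖p.2‖ ≤ R} := TB616.isCompact_disc R
  have key : ∃ δ : ℝ, 0 < δ ∧ ∃ L : ℝ, 0 ≤ L ∧ ∀ z : M, ∀ q₁ q₂ : TangentSpace (𝓡 n) z,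
      (⟨z, q₁⟩ : TangentBundle (𝓡 n) M) ∈ {p : TangentBundle (𝓡 n) M | ‖p.2‖ ≤ R} →
      ‖q₂ - q₁‖ < δ → dist (G.ex z q₁) (G.ex z q₂) ≤ L * ‖q₁ - q₂‖ := by
    refine hK.induction_on (p := fun S => ∃ δ : ℝ, 0 < δ ∧ ∃ L : ℝ, 0 ≤ L ∧ ∀ z : M,
      ∀ q₁ q₂ : TangentSpace (𝓡 n) z, (⟨z, q₁⟩ : TangentBundle (𝓡 n) M) ∈ S →
      ‖q₂ - q₁‖ < δ → dist (G.ex z q₁) (G.ex z q₂) ≤ L * ‖q₁ - q₂‖) ?_ ?_ ?_ ?_
    · exact ⟨1, one_pos, 0, le_rfl, fun z q₁ q₂ h => absurd h (notMem_empty _)⟩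
    · rintro S T hST ⟨δ, hδ, L, hL, h⟩
      exact ⟨δ, hδ, L, hL, fun z q₁ q₂ h1 h2 => h z q₁ q₂ (hST h1) h2⟩
    · rintro S T ⟨δ, hδ, L, hL, h⟩ ⟨δ', hδ', L', hL', h'⟩
      refine ⟨min δ δ', lt_min hδ hδ', max L L', le_max_of_le_left hL, ?_⟩
      rintro z q₁ q₂ (h1 | h1) h2
      · exact (h z q₁ q₂ h1 (h2.trans_le (min_le_left _ _))).trans
          (mul_le_mul_of_nonneg_right (le_max_left _ _) (norm_nonneg _))
      · exact (h' z q₁ q₂ h1 (h2.trans_le (min_le_right _ _))).trans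
          (mul_le_mul_of_nonneg_right (le_max_right _ _) (norm_nonneg _))
    · rintro ⟨y, q⟩ -
      obtain ⟨N, hN, L, hL, h⟩ := lip_local G y q
      obtain ⟨O, hO, δ, hδ, h'⟩ := fiber_small hN
      refine ⟨O ∩ N, mem_nhdsWithin_of_mem_nhds (inter_mem hO hN), δ, hδ, L, hL, ?_⟩
      rintro z q₁ q₂ ⟨h1, h1'⟩ h2
      exact h z q₁ q₂ h1' (h' z q₁ q₂ h1 h2)
  obtain ⟨δ, hδ, L, hL, h⟩ := key
  refine ⟨max L (Metric.diam (univ : Set M) / δ), le_max_of_le_left hL, ?_⟩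
  intro z q₁ q₂ h1
  by_cases h2 : ‖q₂ - q₁‖ < δ
  · exact (h z q₁ q₂ h1 h2).trans (mul_le_mul_of_nonneg_right (le_max_left _ _) (norm_nonneg _))
  · push Not at h2
    rw [norm_sub_rev] at h2
    have h3 : dist (G.ex z q₁) (G.ex z q₂) ≤ Metric.diam (univ : Set M) :=
      Metric.dist_le_diam_of_mem isCompact_univ.isBounded (mem_univ _) (mem_univ _)
    have h4 : (0 : ℝ) ≤ Metric.diam (univ : Set M) := Metric.diam_nonneg
    calc dist (G.ex z q₁) (G.ex z q₂) ≤ Metric.diam (univ : Set M) := h3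
      _ = Metric.diam (univ : Set M) / δ * δ := by field_simp
      _ ≤ Metric.diam (univ : Set M) / δ * ‖q₁ - q₂‖ := by gcongr
      _ ≤ _ := mul_le_mul_of_nonneg_right (le_max_right _ _) (norm_nonneg _)

end Crest.Agent.R226.ExLip659
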