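/-
R226 Layer F (helper624): reduction of S0350 to
* `AEUnique`  (F3: a.e. uniqueness of the `c`-subgradient of a `c`-convex function), and
* `EStatement` (group E: regularity of Alexandrov solutions with pinched `c`-Monge–Ampère measure).
-/
import Crest.Agent.R226.Kant_624

set_option autoImplicit false
set_option linter.unusedSectionVars false

open MeasureTheory Set Filter Topology
open scoped ENNReal NNReal
open Crest.GeometryTopology.MTW

namespace Crest.Agent.R226.Reduction624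

open Crest.Agent.R226 Crest.Agent.R226.Kant624

variable {M : Type*} [MetricSpace M] [MeasurableSpace M] [BorelSpace M]

/-- F3: a.e. uniqueness of `c`-subgradients of `c`-convex functions. -/
def AEUnique (vol : Measure M) : Prop :=
  ∀ u : M → ℝ, CConv u → ∀ᵐ x ∂vol, (cSub u x).Subsingleton

/-- Target of group E (`m = lam / Lam`): uniform bi-Hölder regularity of Alexandrov solutions. -/
def EStatement (vol : Measure M) (m : ℝ) : Prop :=
  ∃ α : ℝ, 0 < α ∧ α ≤ 1 ∧ ∃ C : ℝ, ∀ u : M → ℝ, CConv u → AlexPinch vol u m →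
    AlexPinch vol (ctr u) m →
    ∃ Th : M ≃ₜ M, (∀ x, cSub u x = {Th x}) ∧
      (∀ x x' : M, dist (Th x) (Th x') ≤ C * dist x x' ^ α) ∧
      (∀ y y' : M, dist (Th.symm y) (Th.symm y') ≤ C * dist y y' ^ α)

lemma smul_le_withDensity {vol : Measure M} {ρ : M → ℝ} {lam : ℝ}
    (h : ∀ᵐ x ∂vol, lam ≤ ρ x) :
    ENNReal.ofReal lam • vol ≤ vol.withDensity fun x => ENNReal.ofReal (ρ x) := by
  rw [Measure.le_iff]
  intro B hB
  rw [withDensity_apply _ hB, Measure.smul_apply, smul_eq_mul, ← setLIntegral_const]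
  refine lintegral_mono_ae ?_
  filter_upwards [ae_restrict_of_ae h] with x hx
  exact ENNReal.ofReal_le_ofReal hx

lemma withDensity_le_smul {vol : Measure M} {ρ : M → ℝ} {Lam : ℝ}
    (h : ∀ᵐ x ∂vol, ρ x ≤ Lam) :
    (vol.withDensity fun x => ENNReal.ofReal (ρ x)) ≤ ENNReal.ofReal Lam • vol := by
  rw [Measure.le_iff]
  intro B hB
  rw [withDensity_apply _ hB, Measure.smul_apply, smul_eq_mul, ← setLIntegral_const]
  refine lintegral_mono_ae ?_
  filter_upwards [ae_restrict_of_ae h] with x hx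
  exact ENNReal.ofReal_le_ofReal hx

/-- **Reduction of S0350** for an arbitrary Borel measure `vol` on a compact metric space. -/
theorem uniform_biHolder [CompactSpace M] (vol : Measure M) {lam Lam : ℝ} (hlam : 0 < lam)
    (hle : lam ≤ Lam) (hF3 : AEUnique vol) (hE : EStatement vol (lam / Lam)) :
    ∃ α : ℝ, 0 < α ∧ α ≤ 1 ∧ ∃ C : ℝ, ∀ ρ₀ ρ₁ : M → ℝ, Measurable ρ₀ → Measurable ρ₁ →
      (∀ᵐ x ∂vol, lam ≤ ρ₀ x ∧ ρ₀ x ≤ Lam ∧ lam ≤ ρ₁ x ∧ ρ₁ x ≤ Lam) →
      (∫⁻ x, ENNReal.ofReal (ρ₀ x) ∂vol) = 1 →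
      (∫⁻ x, ENNReal.ofReal (ρ₁ x) ∂vol) = 1 →
      ∀ T : M → M,
        IsMongeOptimal (vol.withDensity fun x => ENNReal.ofReal (ρ₀ x))
          (vol.withDensity fun x => ENNReal.ofReal (ρ₁ x)) T →
        ∃ Th : M ≃ₜ M,
          (∀ᵐ x ∂(vol.withDensity fun x => ENNReal.ofReal (ρ₀ x)), T x = Th x) ∧
          (∀ x x' : M, dist (Th x) (Th x') ≤ C * dist x x' ^ α) ∧
          (∀ y y' : M, dist (Th.symm y) (Th.symm y') ≤ C * dist y y' ^ α) := by
  obtain ⟨α, hα0, hα1, C, hC⟩ := hE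
  refine ⟨α, hα0, hα1, C, ?_⟩
  intro ρ₀ ρ₁ _ _ hρ h0 h1 T hT
  set μ : Measure M := vol.withDensity fun x => ENNReal.ofReal (ρ₀ x) with hμdef
  set ν : Measure M := vol.withDensity fun x => ENNReal.ofReal (ρ₁ x) with hνdef
  have : IsProbabilityMeasure μ := ⟨by rw [hμdef, withDensity_apply _ MeasurableSet.univ,
    Measure.restrict_univ, h0]⟩
  have : IsProbabilityMeasure ν := ⟨by rw [hνdef, withDensity_apply _ MeasurableSet.univ,
    Measure.restrict_univ, h1]⟩
  have hμ : μ ≪ vol := withDensity_absolutelyContinuous _ _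
  have hν : ν ≪ vol := withDensity_absolutelyContinuous _ _
  obtain ⟨u, S, R, hu, hS, hR, hSu, hRu, hm1, hm2⟩ := exists_transport vol μ ν hμ hν hF3
  have b1 : ENNReal.ofReal lam • vol ≤ μ := smul_le_withDensity (hρ.mono fun x hx => hx.1)
  have b2 : μ ≤ ENNReal.ofReal Lam • vol := withDensity_le_smul (hρ.mono fun x hx => hx.2.1)
  have b3 : ENNReal.ofReal lam • vol ≤ ν := smul_le_withDensity (hρ.mono fun x hx => hx.2.2.1)
  have b4 : ν ≤ ENNReal.ofReal Lam • vol := withDensity_le_smul (hρ.mono fun x hx => hx.2.2.2)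
  have hP : AlexPinch vol u (lam / Lam) :=
    alexPinch_of hμ hν hu hS hR hSu hRu hm1 hm2 hlam hle b1 b2 b3 b4
  have hP' : AlexPinch vol (ctr u) (lam / Lam) := by
    refine alexPinch_of hν hμ (CConv_ctr (CConv.continuous hu)) hR hS hRu ?_ hm2 hm1 hlam hle
      b3 b4 b1 b2
    rw [ctr_ctr hu]
    exact hSu
  obtain ⟨Th, hTh, hH1, hH2⟩ := hC u hu hP hP'
  refine ⟨Th, ?_, hH1, hH2⟩
  filter_upwards [monge_mem vol μ ν hμ hu hS hSu hm1 hT] with x hx
  rw [hTh x] at hx
  exact hx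

end Crest.Agent.R226.Reduction624
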