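/-
R226 E1.10 (helper915): abstract iteration "growth ⇒ power decay" and the final assembly
`EStatement` (uniform bi-Hölder homeomorphism) from
* single-valuedness of the `c`-subdifferential (Theorem 2 of doc 848), and
* the growth claim (Theorem 3 of doc 848).
-/
import Crest.Agent.R226.Reduction_624

set_option autoImplicit false
set_option linter.unusedSectionVars false

open MeasureTheory Set Filter Topology
open scoped ENNReal NNReal
open Crest.GeometryTopology.MTW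

namespace Crest.Agent.R226.HolderEnd915

open Crest.Agent.R226 Crest.Agent.R226.Kant624 Crest.Agent.R226.Reduction624

/-! ### the iteration -/

/-- **Iteration lemma**: if every almost optimal pair at height `h ≤ h₁` produces a pair at height
`≤ N₁ R² h` which is `R ≥ 1+δ₀` times further, then distances decay like a power of the height. -/
theorem iterate {ι : Type*} (S : Set ι) (ρ d : ι → ℝ) {D δ δ₀ N₁ h₁ : ℝ}
    (hd0 : ∀ i ∈ S, 0 ≤ d i) (hd : ∀ i ∈ S, d i ≤ D) (hδ : 0 < δ) (hδ1 : δ < 1)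
    (hδδ : 1 < (1 + δ₀) * (1 - δ)) (hN : 1 ≤ N₁) (hh₁ : 0 < h₁)
    (grow : ∀ h, 0 < h → h ≤ h₁ → ∀ i ∈ S, ρ i ≤ h → 0 < d i →
      (∀ j ∈ S, ρ j ≤ h → (1 - δ) * d j ≤ d i) →
      ∃ R, 1 + δ₀ ≤ R ∧ ∃ j ∈ S, ρ j ≤ N₁ * R ^ 2 * h ∧ R * d i ≤ d j) :
    ∃ α : ℝ, 0 < α ∧ α ≤ 1 ∧ ∃ C : ℝ, 0 ≤ C ∧ ∀ i ∈ S, ∀ h, 0 < h → ρ i ≤ h → d i ≤ C * h ^ α := by
  classical
  set q : ℝ := (1 + δ₀) * (1 - δ) with hq
  have hδ' : 0 < 1 - δ := by linarith
  set N' : ℝ := N₁ / (1 - δ) ^ 2 with hN'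
  have hN'1 : 1 ≤ N' := by
    rw [hN', le_div_iff₀ (by positivity)]
    have : (1 - δ) ^ 2 ≤ 1 := by nlinarith
    linarith
  have hlogq : 0 < Real.log q := Real.log_pos hδδ
  set κ : ℝ := 2 + Real.log N' / Real.log q with hκ
  have hκ2 : 2 ≤ κ := by
    have : 0 ≤ Real.log N' / Real.log q := div_nonneg (Real.log_nonneg hN'1) hlogq.le
    linarith
  have hκ0 : 0 < κ := by linarith
  have hq0 : 0 < q := by linarith
  -- `N' r² ≤ r^κ` for `r ≥ q`
  have hpow : ∀ r : ℝ, q ≤ r → N' * r ^ 2 ≤ r ^ κ := by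
    intro r hr
    have hr0 : 0 < r := lt_of_lt_of_le hq0 hr
    have h1 : r ^ κ = r ^ (2 : ℝ) * r ^ (Real.log N' / Real.log q) := by
      rw [hκ, Real.rpow_add hr0]
    have h2 : N' ≤ r ^ (Real.log N' / Real.log q) := by
      have h3 : q ^ (Real.log N' / Real.log q) = N' := by
        rw [Real.rpow_def_of_pos hq0, mul_div_cancel₀ _ hlogq.ne', Real.exp_log (by linarith)]
      calc N' = q ^ (Real.log N' / Real.log q) := h3.symm
        _ ≤ r ^ (Real.log N' / Real.log q) :=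
          Real.rpow_le_rpow hq0.le hr (div_nonneg (Real.log_nonneg hN'1) hlogq.le)
    rw [h1, Real.rpow_two, mul_comm]
    exact mul_le_mul_of_nonneg_left h2 (by positivity)
  set α : ℝ := 1 / κ with hα
  have hα0 : 0 < α := by positivity
  have hα1 : α ≤ 1 := by
    rw [hα, div_le_one hκ0]; linarith
  set D' : ℝ := max D 0 with hD'
  have hD'0 : 0 ≤ D' := le_max_right _ _
  -- a near-optimal element
  have near : ∀ h, 0 < h → ∀ i ∈ S, ρ i ≤ h → 0 < d i →
      ∃ i' ∈ S, ρ i' ≤ h ∧ 0 < d i' ∧ (1 - δ) * d i ≤ d i' ∧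
        ∀ j ∈ S, ρ j ≤ h → (1 - δ) * d j ≤ d i' := by
    intro h _ i hi hρ hdi
    set A : Set ℝ := d '' {j | j ∈ S ∧ ρ j ≤ h} with hA
    have hne : A.Nonempty := ⟨d i, i, ⟨hi, hρ⟩, rfl⟩
    have hbdd : BddAbove A := ⟨D, by rintro _ ⟨j, hj, rfl⟩; exact hd j hj.1⟩
    have hL : d i ≤ sSup A := le_csSup hbdd ⟨i, ⟨hi, hρ⟩, rfl⟩
    have hlt : (1 - δ) * sSup A < sSup A := by nlinarith
    obtain ⟨_, ⟨i', hi', rfl⟩, hi2⟩ := exists_lt_of_lt_csSup hne hlt
    have key : ∀ j ∈ S, ρ j ≤ h → (1 - δ) * d j ≤ d i' := by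
      intro j hj hρj
      have : d j ≤ sSup A := le_csSup hbdd ⟨j, ⟨hj, hρj⟩, rfl⟩
      have := mul_le_mul_of_nonneg_left this hδ'.le
      linarith
    refine ⟨i', hi'.1, hi'.2, ?_, key i hi hρ, key⟩
    have := key i hi hρ
    nlinarith [mul_pos hδ' hdi]
  -- main induction
  set Q : ℝ := q ^ κ with hQ
  have hQ1 : 1 < Q := Real.one_lt_rpow hδδ hκ0
  have big : ∀ h, h₁ < h → ∀ i ∈ S, d i ≤ D' * (h / h₁) ^ α := by
    intro h hh i hi
    have h1 : (1 : ℝ) ≤ (h / h₁) ^ α :=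
      Real.one_le_rpow ((one_le_div hh₁).2 hh.le) hα0.le
    calc d i ≤ D' := (hd i hi).trans (le_max_left _ _)
      _ = D' * 1 := (mul_one _).symm
      _ ≤ D' * (h / h₁) ^ α := mul_le_mul_of_nonneg_left h1 hD'0
  have main : ∀ k : ℕ, ∀ h, 0 < h → h₁ < h * Q ^ k → ∀ i ∈ S, ρ i ≤ h →
      d i ≤ D' * (h / h₁) ^ α := by
    intro k
    induction k with
    | zero =>
      intro h _ hh i hi _
      rw [pow_zero, mul_one] at hh
      exact big h hh i hi
    | succ k ih =>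
      intro h hh0 hh i hi hρ
      by_cases hbig : h₁ < h
      · exact big h hbig i hi
      have hle : h ≤ h₁ := not_lt.1 hbig
      rcases eq_or_lt_of_le (hd0 i hi) with h0 | h0
      · rw [← h0]
        exact mul_nonneg hD'0 (Real.rpow_nonneg (by positivity) _)
      obtain ⟨i', hi', hρ', hdi', hii', hopt⟩ := near h hh0 i hi hρ h0
      obtain ⟨R, hR, j, hj, hρj, hdj⟩ := grow h hh0 hle i' hi' hρ' hdi' hopt
      set r : ℝ := R * (1 - δ) with hr
      have hqr : q ≤ r := by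
        rw [hq, hr]
        exact mul_le_mul_of_nonneg_right hR hδ'.le
      have hr0 : 0 < r := lt_of_lt_of_le hq0 hqr
      have hR0 : 0 < R := by
        by_contra hneg
        have : r ≤ 0 := mul_nonpos_of_nonpos_of_nonneg (not_lt.1 hneg) hδ'.le
        linarith
      have e1 : N₁ * R ^ 2 * h = N' * r ^ 2 * h := by
        rw [hN', hr]
        field_simp
      have hρj' : ρ j ≤ r ^ κ * h := by
        calc ρ j ≤ N₁ * R ^ 2 * h := hρj
          _ = N' * r ^ 2 * h := e1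
          _ ≤ r ^ κ * h := mul_le_mul_of_nonneg_right (hpow r hqr) hh0.le
      have hQr : Q ≤ r ^ κ := Real.rpow_le_rpow hq0.le hqr hκ0.le
      have hh' : 0 < r ^ κ * h := by positivity
      have hbig' : h₁ < r ^ κ * h * Q ^ k := by
        have : h * Q ^ (k + 1) ≤ r ^ κ * h * Q ^ k := by
          rw [pow_succ]
          have : 0 ≤ h * Q ^ k := by positivity
          nlinarith
        linarith
      have hfin := ih (r ^ κ * h) hh' hbig' j hj hρj'
      have e2 : (r ^ κ * h / h₁) ^ α = r * (h / h₁) ^ α := by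
        rw [mul_div_assoc, Real.mul_rpow (by positivity) (by positivity), ← Real.rpow_mul hr0.le,
          hα, mul_one_div_cancel hκ0.ne', Real.rpow_one]
      rw [e2] at hfin
      have h5 : r * d i ≤ d j := by
        calc r * d i = R * ((1 - δ) * d i) := by rw [hr]; ring
          _ ≤ R * d i' := mul_le_mul_of_nonneg_left hii' hR0.le
          _ ≤ d j := hdj
      have h6 : r * d i ≤ r * (D' * (h / h₁) ^ α) := by
        calc r * d i ≤ d j := h5
          _ ≤ D' * (r * (h / h₁) ^ α) := hfin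
          _ = r * (D' * (h / h₁) ^ α) := by ring
      exact le_of_mul_le_mul_left h6 hr0
  refine ⟨α, hα0, hα1, D' / h₁ ^ α, by positivity, ?_⟩
  intro i hi h hh hρ
  obtain ⟨k, hk⟩ := pow_unbounded_of_one_lt (h₁ / h) hQ1
  have hk' : h₁ < h * Q ^ k := by
    rw [div_lt_iff₀ hh] at hk
    linarith
  have := main k h hh hk' i hi hρ
  rw [Real.div_rpow hh.le hh₁.le] at this
  calc d i ≤ D' * (h ^ α / h₁ ^ α) := this
    _ = D' / h₁ ^ α * h ^ α := by ring

/-! ### assembly -/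

section Assembly

variable {M : Type*} [MetricSpace M] [CompactSpace M]

/-- the gap function `D(x,y) = u(x) + u^c(y) + c(x,y) ≥ 0`. -/
noncomputable def Dg (u : M → ℝ) (x y : M) : ℝ := u x + ctr u y + halfDistSq x y

lemma Dg_nonneg {u : M → ℝ} (hu : CConv u) (x y : M) : 0 ≤ Dg u x y := by
  have := le_ctr (CConv.continuous hu) x y
  unfold Dg; linarith

lemma Dg_eq_zero {u : M → ℝ} (hu : CConv u) {x y : M} : Dg u x y = 0 ↔ y ∈ cSub u x :=
  (mem_cSub_iff (CConv.continuous hu) x y).symm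

/-- moving the first point. -/
lemma Dg_le_fst {u : M → ℝ} (hu : CConv u) {x x' y' : M} (h' : y' ∈ cSub u x') :
    Dg u x y' ≤ 2 * Metric.diam (univ : Set M) * dist x x' := by
  have h0 := (Dg_eq_zero hu).2 h'
  have h1 := CConv.abs_sub_le hu x x'
  have h2 := halfDistSq_lip x x' y'
  unfold Dg at *
  have := (abs_le.1 h1).2
  linarith

/-- moving the second point. -/
lemma Dg_le_snd {u : M → ℝ} (hu : CConv u) {x y y' : M} (h : y ∈ cSub u x) :
    Dg u x y' ≤ 2 * Metric.diam (univ : Set M) * dist y y' := by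
  have h0 := (Dg_eq_zero hu).2 h
  have h1 := CConv.abs_sub_le (CConv_ctr (CConv.continuous hu)) y' y
  have h2 := halfDistSq_lip y' y x
  rw [halfDistSq_comm y' x, halfDistSq_comm y x] at h2
  unfold Dg at *
  have := (abs_le.1 h1).2
  rw [dist_comm y' y] at *
  linarith

variable [MeasurableSpace M] [BorelSpace M]

/-- the class of pinched potentials. -/
def Cls (vol : Measure M) (m : ℝ) : Set (M → ℝ) :=
  {u | CConv u ∧ AlexPinch vol u m ∧ AlexPinch vol (ctr u) m}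

lemma Cls_ctr {vol : Measure M} {m : ℝ} {u : M → ℝ} (hu : u ∈ Cls vol m) :
    ctr u ∈ Cls vol m := by
  refine ⟨CConv_ctr (CConv.continuous hu.1), hu.2.2, ?_⟩
  rw [ctr_ctr hu.1]
  exact hu.2.1

/-- **Final assembly**: single-valuedness + power decay of the gap ⇒ `EStatement`. -/
theorem estatement_of_decay (vol : Measure M) (m : ℝ)
    (hs : ∀ u ∈ Cls vol m, ∀ x, (cSub u x).Subsingleton)
    (hq : ∃ α : ℝ, 0 < α ∧ α ≤ 1 ∧ ∃ C : ℝ, ∀ u ∈ Cls vol m,
      ∀ x y x' y' : M, y ∈ cSub u x → y' ∈ cSub u x' → ∀ h : ℝ, 0 < h → Dg u x y' ≤ h →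
        dist x x' ≤ C * h ^ α ∧ dist y y' ≤ C * h ^ α) :
    EStatement vol m := by
  obtain ⟨α, hα0, hα1, C, hC⟩ := hq
  set dm : ℝ := Metric.diam (univ : Set M) with hdm
  have hdm0 : 0 ≤ dm := Metric.diam_nonneg
  set C' : ℝ := |C| * (2 * dm + 1) ^ α with hC'
  refine ⟨α, hα0, hα1, C', ?_⟩
  intro u hu hp hp'
  have hcl : u ∈ Cls vol m := ⟨hu, hp, hp'⟩
  have hcl' : ctr u ∈ Cls vol m := Cls_ctr hcl
  choose T hT using hu
  have hT' : ∀ x, T x ∈ cSub u x := hT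
  choose R hR using CConv_ctr (CConv.continuous hcl.1)
  have hR' : ∀ y, R y ∈ cSub (ctr u) y := hR
  have hRT : ∀ x, R (T x) = x := fun x =>
    hs _ hcl' (T x) (hR' _) ((mem_cSub_ctr_iff hcl.1 x (T x)).2 (hT' x))
  have hTR : ∀ y, T (R y) = y := fun y =>
    hs _ hcl (R y) (hT' _) ((mem_cSub_ctr_iff hcl.1 (R y) y).1 (hR' y))
  have hmem : ∀ y, y ∈ cSub u (R y) := fun y => (mem_cSub_ctr_iff hcl.1 (R y) y).1 (hR' y)
  have aux : ∀ s t : ℝ, 0 < s → t ≤ C * ((2 * dm + 1) * s) ^ α → t ≤ C' * s ^ α := by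
    intro s t hs' ht
    rw [Real.mul_rpow (by positivity) hs'.le] at ht
    calc t ≤ C * ((2 * dm + 1) ^ α * s ^ α) := ht
      _ ≤ |C| * ((2 * dm + 1) ^ α * s ^ α) :=
        mul_le_mul_of_nonneg_right (le_abs_self C) (by positivity)
      _ = C' * s ^ α := by rw [hC']; ring
  have H1 : ∀ x x' : M, dist (T x) (T x') ≤ C' * dist x x' ^ α := by
    intro x x'
    rcases eq_or_ne x x' with rfl | hne
    · rw [dist_self, dist_self, Real.zero_rpow hα0.ne', mul_zero]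
    have hpos : 0 < dist x x' := dist_pos.2 hne
    refine aux _ _ hpos ?_
    refine (hC u hcl x (T x) x' (T x') (hT' x) (hT' x') _ (by positivity) ?_).2
    refine (Dg_le_fst hcl.1 (hT' x')).trans ?_
    nlinarith
  have H2 : ∀ y y' : M, dist (R y) (R y') ≤ C' * dist y y' ^ α := by
    intro y y'
    rcases eq_or_ne y y' with rfl | hne
    · rw [dist_self, dist_self, Real.zero_rpow hα0.ne', mul_zero]
    have hpos : 0 < dist y y' := dist_pos.2 hne
    refine aux _ _ hpos ?_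
    refine (hC u hcl (R y) y (R y') y' (hmem y) (hmem y') _ (by positivity) ?_).1
    refine (Dg_le_snd hcl.1 (hmem y)).trans ?_
    nlinarith
  have cont : ∀ F : M → M, (∀ x x' : M, dist (F x) (F x') ≤ C' * dist x x' ^ α) →
      Continuous F := by
    intro F hF
    rw [continuous_iff_continuousAt]
    intro x
    rw [ContinuousAt, tendsto_iff_dist_tendsto_zero]
    have h1 : Tendsto (fun z : M => C' * dist z x ^ α) (𝓝 x) (𝓝 0) := by
      have h2 : Tendsto (fun z : M => dist z x) (𝓝 x) (𝓝 0) := by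
        have := (continuous_id.dist (continuous_const (y := x))).tendsto x
        simpa using this
      have h3 : Tendsto (fun z : M => dist z x ^ α) (𝓝 x) (𝓝 0) := by
        have := h2.rpow_const (p := α) (Or.inr hα0.le)
        rwa [Real.zero_rpow hα0.ne'] at this
      simpa using h3.const_mul C'
    exact squeeze_zero (fun z => dist_nonneg) (fun z => hF z x) h1
  refine ⟨⟨⟨T, R, hRT, hTR⟩, cont T H1, cont R H2⟩, ?_, H1, H2⟩
  intro x
  ext y
  constructor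
  · intro hy
    exact hs u hcl x hy (hT' x)
  · intro hy
    have : y = T x := hy
    rw [this]
    exact hT' x

/-- **E1.10**: single-valuedness + a Lipschitz "midpoint" labelling of contact pairs + the growth
claim of Theorem 3 ⇒ `EStatement`. `mid u x y` is the midpoint of the contact pair `(x,y)`. -/
theorem estatement_of_growth (vol : Measure M) (m : ℝ)
    (hs : ∀ u ∈ Cls vol m, ∀ x, (cSub u x).Subsingleton)
    (mid : (M → ℝ) → M → M → M) (Lz : ℝ) (hLz : 0 ≤ Lz)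
    (hmid : ∀ u ∈ Cls vol m, ∀ x y x' y' : M, y ∈ cSub u x → y' ∈ cSub u x' →
      dist x x' ≤ Lz * dist (mid u x y) (mid u x' y') ∧
      dist y y' ≤ Lz * dist (mid u x y) (mid u x' y'))
    {δ δ₀ N₁ h₁ : ℝ} (hδ : 0 < δ) (hδ1 : δ < 1) (hδδ : 1 < (1 + δ₀) * (1 - δ))
    (hN : 1 ≤ N₁) (hh₁ : 0 < h₁)
    (grow : ∀ h, 0 < h → h ≤ h₁ → ∀ u ∈ Cls vol m, ∀ x₁ y₁ x₂ y₂ : M,
      y₁ ∈ cSub u x₁ → y₂ ∈ cSub u x₂ → Dg u x₁ y₂ ≤ h →
      0 < dist (mid u x₁ y₁) (mid u x₂ y₂) →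
      (∀ v ∈ Cls vol m, ∀ x y x' y' : M, y ∈ cSub v x → y' ∈ cSub v x' → Dg v x y' ≤ h →
        (1 - δ) * dist (mid v x y) (mid v x' y') ≤ dist (mid u x₁ y₁) (mid u x₂ y₂)) →
      ∃ R, 1 + δ₀ ≤ R ∧ ∃ v ∈ Cls vol m, ∃ x y x' y' : M, y ∈ cSub v x ∧ y' ∈ cSub v x' ∧
        Dg v x y' ≤ N₁ * R ^ 2 * h ∧
        R * dist (mid u x₁ y₁) (mid u x₂ y₂) ≤ dist (mid v x y) (mid v x' y')) :
    EStatement vol m := by
  refine estatement_of_decay vol m hs ?_
  set S : Set ((M → ℝ) × (M × M) × (M × M)) :=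
    {i | i.1 ∈ Cls vol m ∧ i.2.1.2 ∈ cSub i.1 i.2.1.1 ∧ i.2.2.2 ∈ cSub i.1 i.2.2.1} with hS
  obtain ⟨α, hα0, hα1, C, hC0, hC⟩ := iterate S (fun i => Dg i.1 i.2.1.1 i.2.2.2)
    (fun i => dist (mid i.1 i.2.1.1 i.2.1.2) (mid i.1 i.2.2.1 i.2.2.2))
    (D := Metric.diam (univ : Set M)) (δ := δ) (δ₀ := δ₀) (N₁ := N₁) (h₁ := h₁)
    (fun i _ => dist_nonneg)
    (fun i _ => Metric.dist_le_diam_of_mem isCompact_univ.isBounded (mem_univ _) (mem_univ _))
    hδ hδ1 hδδ hN hh₁ (by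
      rintro h hh hh' ⟨u, ⟨x₁, y₁⟩, ⟨x₂, y₂⟩⟩ ⟨hu, hy₁, hy₂⟩ hρ hd hopt
      obtain ⟨R, hR, v, hv, x, y, x', y', hy, hy', hD, hdist⟩ :=
        grow h hh hh' u hu x₁ y₁ x₂ y₂ hy₁ hy₂ hρ hd
          (fun v hv x y x' y' hy hy' hD => hopt ⟨v, ⟨x, y⟩, ⟨x', y'⟩⟩ ⟨hv, hy, hy'⟩ hD)
      exact ⟨R, hR, ⟨v, ⟨x, y⟩, ⟨x', y'⟩⟩, ⟨hv, hy, hy'⟩, hD, hdist⟩)
  refine ⟨α, hα0, hα1, Lz * C, ?_⟩
  intro u hu x y x' y' hy hy' h hh hD
  have h1 := hC ⟨u, ⟨x, y⟩, ⟨x', y'⟩⟩ ⟨hu, hy, hy'⟩ h hh hD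
  obtain ⟨h2, h3⟩ := hmid u hu x y x' y' hy hy'
  have h4 := mul_le_mul_of_nonneg_left h1 hLz
  rw [← mul_assoc] at h4
  exact ⟨h2.trans h4, h3.trans h4⟩

end Assembly

end Crest.Agent.R226.HolderEnd915
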