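/-
R226 / E (helper977): leaf (L8) of the scheme 1752/1855: a power bound for the oscillation of the
cost on sections ⇒ `EStatement`.
-/
import Crest.Agent.R226.HolderEnd_915
import Crest.Agent.R226.Dasm_290
import Crest.Agent.R226.ExLip_659
import Crest.Agent.R226.E1Shape_964

set_option autoImplicit false
set_option linter.unusedSectionVars false

open MeasureTheory Bundle Set Filter
open scoped Manifold ContDiff Bundle ENNReal Topology
open Crest.GeometryTopology.MTW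

namespace Crest.Agent.R226.Osc977

open Crest.Agent.R226 Crest.Agent.R226.Kant624 Crest.Agent.R226.Reduction624
  Crest.Agent.R226.HolderEnd915 Crest.Agent.R226.E1Shape964 Crest.Agent.R226.Dasm290

section Metric

variable {M : Type*} [MetricSpace M]

/-- the set of oscillations of `c(·,y)` on the section `X_h(y)`. -/
def oscSet (u : M → ℝ) (y : M) (h : ℝ) : Set ℝ :=
  {t | ∃ x x' : M, Dd u x y ≤ h ∧ Dd u x' y ≤ h ∧ t = |halfDistSq x y - halfDistSq x' y|}

/-- `A(y,h)`: the oscillation of `c(·,y)` on the section `X_h(y) = {x | D(x,y) ≤ h}`. -/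
noncomputable def osc (u : M → ℝ) (y : M) (h : ℝ) : ℝ := sSup (oscSet u y h)

variable [CompactSpace M]

lemma dist_le_diam (x y : M) : dist x y ≤ Metric.diam (univ : Set M) :=
  Metric.dist_le_diam_of_mem isCompact_univ.isBounded (mem_univ _) (mem_univ _)

lemma halfDistSq_le_diam (x y : M) : halfDistSq x y ≤ Metric.diam (univ : Set M) ^ 2 / 2 := by
  unfold halfDistSq
  have h1 := dist_le_diam x y
  have h2 : (0 : ℝ) ≤ dist x y := dist_nonneg
  have h3 : dist x y ^ 2 ≤ Metric.diam (univ : Set M) ^ 2 := by gcongr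
  linarith

lemma osc_bound {u : M → ℝ} {y : M} {h t : ℝ} (ht : t ∈ oscSet u y h) :
    t ≤ Metric.diam (univ : Set M) ^ 2 / 2 := by
  obtain ⟨x, x', -, -, rfl⟩ := ht
  have h1 := halfDistSq_le_diam x y
  have h2 := halfDistSq_le_diam x' y
  have h3 := halfDistSq_nonneg x y
  have h4 := halfDistSq_nonneg x' y
  rw [abs_le]
  constructor <;> linarith

lemma bddAbove_oscSet (u : M → ℝ) (y : M) (h : ℝ) : BddAbove (oscSet u y h) :=
  ⟨_, fun _ ht => osc_bound ht⟩

lemma osc_nonneg (u : M → ℝ) (y : M) (h : ℝ) : 0 ≤ osc u y h := by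
  refine Real.sSup_nonneg ?_
  rintro t ⟨x, x', -, -, rfl⟩
  exact abs_nonneg _

lemma osc_le_diam (u : M → ℝ) (y : M) (h : ℝ) :
    osc u y h ≤ Metric.diam (univ : Set M) ^ 2 / 2 :=
  Real.sSup_le (fun _ ht => osc_bound ht) (by positivity)

lemma le_osc {u : M → ℝ} {y : M} {h : ℝ} {x x' : M} (hx : Dd u x y ≤ h) (hx' : Dd u x' y ≤ h) :
    |halfDistSq x y - halfDistSq x' y| ≤ osc u y h :=
  le_csSup (bddAbove_oscSet u y h) ⟨x, x', hx, hx', rfl⟩

lemma sub_le_osc {u : M → ℝ} {y : M} {h : ℝ} {x x' : M} (hx : Dd u x y ≤ h)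
    (hx' : Dd u x' y ≤ h) : halfDistSq x y - halfDistSq x' y ≤ osc u y h :=
  (le_abs_self _).trans (le_osc hx hx')

lemma osc_le {u : M → ℝ} {y : M} {h B : ℝ} (hB : 0 ≤ B)
    (H : ∀ x x' : M, Dd u x y ≤ h → Dd u x' y ≤ h → halfDistSq x y - halfDistSq x' y ≤ B) :
    osc u y h ≤ B := by
  refine Real.sSup_le ?_ hB
  rintro t ⟨x, x', hx, hx', rfl⟩
  rw [abs_le]
  have h1 := H x x' hx hx'
  have h2 := H x' x hx' hx
  constructor <;> linarith

lemma osc_mono {u : M → ℝ} {y : M} {h h' : ℝ} (hh : h ≤ h') : osc u y h ≤ osc u y h' := by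
  refine Real.sSup_le ?_ (osc_nonneg _ _ _)
  rintro t ⟨x, x', hx, hx', rfl⟩
  exact le_osc (hx.trans hh) (hx'.trans hh)

lemma Dd_nonneg {u : M → ℝ} (hu : Continuous u) (x y : M) : 0 ≤ Dd u x y := by
  have := le_ctr hu x y
  unfold Dd; linarith

lemma Dd_eq_zero {u : M → ℝ} (hu : Continuous u) {x y : M} : Dd u x y = 0 ↔ y ∈ cSub u x :=
  (mem_cSub_iff hu x y).symm

lemma Dd_ctr {u : M → ℝ} (hu : CConv u) (x y : M) : Dd (ctr u) y x = Dd u x y := by
  unfold Dd
  rw [ctr_ctr hu, halfDistSq_comm y x]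
  ring

end Metric

section Geo

variable {n : ℕ} {M : Type*} [MetricSpace M] [ChartedSpace (EuclideanSpace ℝ (Fin n)) M]
  [IsManifold (𝓡 n) ∞ M]
  [RiemannianBundle (fun p : M => TangentSpace (𝓡 n) p)]
  [CompactSpace M]

/-- the section `X_h(y)` in the tangent space at `y`: `Q_h(y) ⊆ K(y)`. -/
def QS (G : GeoData n M) (u : M → ℝ) (y : M) (h : ℝ) : Set (TangentSpace (𝓡 n) y) :=
  {q | q ∈ G.K y ∧ Dd u (G.ex y q) y ≤ h}

lemma convex_QS {G : GeoData n M} (hg : GoodAll G) {u : M → ℝ} (hu : CConv u) (y : M) (h : ℝ) :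
    Convex ℝ (QS G u y h) := by
  have h1 := convex_sublevel hg hu y (h - ctr u y)
  have h2 : QS G u y h =
      {q : TangentSpace (𝓡 n) y | q ∈ G.K y ∧ u (G.ex y q) + ‖q‖ ^ 2 / 2 ≤ h - ctr u y} := by
    ext q
    simp only [QS, mem_ofPred_eq]
    refine and_congr_right fun hq => ?_
    have := halfDistSq_ex' (G := G) hq
    unfold Dd
    rw [this]
    constructor <;> intro h3 <;> linarith
  rw [h2]
  exact h1

lemma exists_mem_QS (G : GeoData n M) {u : M → ℝ} {x y : M} {h : ℝ} (hx : Dd u x y ≤ h) :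
    ∃ q ∈ QS G u y h, G.ex y q = x := by
  obtain ⟨q, hq, hqx⟩ := exists_mem_K G y x
  refine ⟨q, ⟨hq, ?_⟩, hqx⟩
  rw [hqx]; exact hx

lemma norm_sq_sub_le (G : GeoData n M) {u : M → ℝ} {y : M} {h : ℝ}
    {p q : TangentSpace (𝓡 n) y} (hp : p ∈ QS G u y h) (hq : q ∈ QS G u y h) :
    ‖p‖ ^ 2 / 2 - ‖q‖ ^ 2 / 2 ≤ osc u y h := by
  have h1 := sub_le_osc hp.2 hq.2
  rwa [halfDistSq_ex' hp.1, halfDistSq_ex' hq.1] at h1

/-- `diam(Q_h(y))² ≤ 8 A(y,h)`. -/
theorem norm_sub_sq_le {G : GeoData n M} (hg : GoodAll G) {u : M → ℝ} (hu : CConv u) {y : M}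
    {h : ℝ} {p q : TangentSpace (𝓡 n) y} (hp : p ∈ QS G u y h) (hq : q ∈ QS G u y h) :
    ‖p - q‖ ^ 2 ≤ 8 * osc u y h := by
  have hm : (1 / 2 : ℝ) • p + (1 / 2 : ℝ) • q ∈ QS G u y h :=
    convex_QS hg hu y h hp hq (by norm_num) (by norm_num) (by norm_num)
  have h1 := norm_sq_sub_le G hp hm
  have h2 := norm_sq_sub_le G hq hm
  have h3 : (1 / 2 : ℝ) • p + (1 / 2 : ℝ) • q = (1 / 2 : ℝ) • (p + q) := by
    rw [smul_add]
  have h4 : ‖(1 / 2 : ℝ) • p + (1 / 2 : ℝ) • q‖ ^ 2 = (1 / 4) * ‖p + q‖ ^ 2 := by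
    rw [h3, norm_smul, mul_pow, Real.norm_of_nonneg (by norm_num : (0:ℝ) ≤ 1 / 2)]
    norm_num
  have h5 : ‖p + q‖ ^ 2 + ‖p - q‖ ^ 2 = 2 * (‖p‖ ^ 2 + ‖q‖ ^ 2) := by
    have := parallelogram_law_with_norm ℝ p q
    nlinarith [this]
  rw [h4] at h1 h2
  linarith

/-- nearest point: `|q - q_⊥|² ≤ |q|² - |q_⊥|²` on a convex set whose norm is minimal at `q_⊥`. -/
theorem norm_sub_sq_le_of_nearest {E : Type*} [NormedAddCommGroup E] [InnerProductSpace ℝ E]
    {Q : Set E} (hQ : Convex ℝ Q) {p q : E} (hp : p ∈ Q) (hmin : ∀ w ∈ Q, ‖p‖ ≤ ‖w‖)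
    (hq : q ∈ Q) : ‖q - p‖ ^ 2 ≤ ‖q‖ ^ 2 - ‖p‖ ^ 2 := by
  have key : 0 ≤ inner ℝ p (q - p) := by
    by_contra hneg
    push Not at hneg
    set a : ℝ := inner ℝ p (q - p) with ha
    set b : ℝ := ‖q - p‖ ^ 2 with hb
    have hb0 : 0 ≤ b := by positivity
    -- `t = min 1 (-a / (b + 1))`
    set t : ℝ := min 1 (-a / (b + 1)) with ht
    have ht0 : 0 < t := lt_min one_pos (div_pos (by linarith) (by linarith))
    have ht1 : t ≤ 1 := min_le_left _ _
    have ht2 : t * (b + 1) ≤ -a := by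
      have := min_le_right 1 (-a / (b + 1))
      rw [← ht] at this
      rwa [le_div_iff₀ (by linarith)] at this
    have hw : p + t • (q - p) ∈ Q := hQ.add_smul_sub_mem hp hq ⟨ht0.le, ht1⟩
    have h1 := hmin _ hw
    have h2 : ‖p‖ ^ 2 ≤ ‖p + t • (q - p)‖ ^ 2 := by gcongr
    have h3 : ‖p + t • (q - p)‖ ^ 2 = ‖p‖ ^ 2 + 2 * t * a + t ^ 2 * b := by
      rw [norm_add_sq_real, inner_smul_right, norm_smul, mul_pow, Real.norm_of_nonneg ht0.le]
      ring
    rw [h3] at h2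
    have h4 : t * (2 * a + t * b) ≥ 0 := by nlinarith
    have h5 : 2 * a + t * b ≥ 0 := by
      by_contra hc
      push Not at hc
      have := mul_neg_of_pos_of_neg ht0 hc
      linarith
    nlinarith
  have h1 : ‖q‖ ^ 2 = ‖p‖ ^ 2 + 2 * inner ℝ p (q - p) + ‖q - p‖ ^ 2 := by
    have := norm_add_sq_real p (q - p)
    rwa [add_sub_cancel] at this
  linarith

variable [IsContMDiffRiemannianBundle (𝓡 n) ∞ (EuclideanSpace ℝ (Fin n))
    (fun p : M => TangentSpace (𝓡 n) p)]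
  [IsRiemannianManifold (𝓡 n) M]

/-- points of a section at height `h` are `C √(osc)`-close. -/
theorem dist_le_sqrt_osc (G : GeoData n M) (hg : GoodAll G) : ∃ L : ℝ, 0 ≤ L ∧
    ∀ u : M → ℝ, CConv u → ∀ (y : M) (h : ℝ) (x x' : M), Dd u x y ≤ h → Dd u x' y ≤ h →
      dist x x' ≤ L * Real.sqrt (osc u y h) := by
  obtain ⟨L, hL, H⟩ := ExLip659.ex_lip G (Metric.diam (univ : Set M))
  refine ⟨L * Real.sqrt 8, by positivity, ?_⟩
  intro u hu y h x x' hx hx'
  obtain ⟨p, hp, hpx⟩ := exists_mem_QS G hx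
  obtain ⟨q, hq, hqx⟩ := exists_mem_QS G hx'
  have h1 := norm_sub_sq_le hg hu hp hq
  have h2 : ‖p‖ ≤ Metric.diam (univ : Set M) := by
    have : dist y (G.ex y p) = ‖p‖ := hp.1
    rw [← this]
    exact dist_le_diam _ _
  have h3 := H y p q h2
  rw [hpx, hqx] at h3
  have h4 : ‖p - q‖ ≤ Real.sqrt (8 * osc u y h) := Real.le_sqrt_of_sq_le h1
  rw [Real.sqrt_mul (by norm_num)] at h4
  calc dist x x' ≤ L * ‖p - q‖ := h3
    _ ≤ L * (Real.sqrt 8 * Real.sqrt (osc u y h)) := by gcongr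
    _ = _ := by ring

variable [MeasurableSpace M] [BorelSpace M]

/-- **(L8)**: a uniform power bound for the oscillations `A(y,h)` in the (symmetric) class of
pinched potentials implies `EStatement`. -/
theorem estatement_of_osc (G : GeoData n M) (hg : GoodAll G) (vol : Measure M) (m : ℝ)
    (hA : ∃ C g : ℝ, 0 < g ∧ ∀ u : M → ℝ, CConv u → AlexPinch vol u m →
      AlexPinch vol (ctr u) m → ∀ (y : M) (h : ℝ), 0 < h → h ≤ 1 → osc u y h ≤ C * h ^ g) :
    EStatement vol m := by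
  obtain ⟨C, g, hg0, hC⟩ := hA
  obtain ⟨L, hL, HL⟩ := dist_le_sqrt_osc G hg
  set g' : ℝ := min g 2 with hg'
  have hg'0 : 0 < g' := lt_min hg0 (by norm_num)
  set dm : ℝ := Metric.diam (univ : Set M) with hdm
  have hdm0 : 0 ≤ dm := Metric.diam_nonneg
  set C' : ℝ := L * Real.sqrt |C| + dm with hC'
  have hC'0 : 0 ≤ C' := by positivity
  -- main estimate
  have main : ∀ u ∈ Cls vol m, ∀ (y x x' : M) (h : ℝ), 0 < h → Dd u x y ≤ h → Dd u x' y ≤ h →
      dist x x' ≤ C' * h ^ (g' / 2) := by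
    intro u hu y x x' h hh hx hx'
    rcases le_total h 1 with h1 | h1
    · have e1 := HL u hu.1 y h x x' hx hx'
      have e2 := hC u hu.1 hu.2.1 hu.2.2 y h hh h1
      have e3 : C * h ^ g ≤ |C| * h ^ g' := by
        calc C * h ^ g ≤ |C| * h ^ g :=
              mul_le_mul_of_nonneg_right (le_abs_self C) (Real.rpow_nonneg hh.le _)
          _ ≤ |C| * h ^ g' := by
              refine mul_le_mul_of_nonneg_left ?_ (abs_nonneg C)
              exact Real.rpow_le_rpow_of_exponent_ge hh h1 (min_le_left _ _)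
      have e4 : Real.sqrt (osc u y h) ≤ Real.sqrt |C| * h ^ (g' / 2) := by
        calc Real.sqrt (osc u y h) ≤ Real.sqrt (|C| * h ^ g') :=
              Real.sqrt_le_sqrt (e2.trans e3)
          _ = Real.sqrt |C| * Real.sqrt (h ^ g') := Real.sqrt_mul (abs_nonneg C) _
          _ = Real.sqrt |C| * h ^ (g' / 2) := by
              congr 1
              rw [Real.sqrt_eq_rpow, ← Real.rpow_mul hh.le]
              congr 1
              ring
      calc dist x x' ≤ L * Real.sqrt (osc u y h) := e1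
        _ ≤ L * (Real.sqrt |C| * h ^ (g' / 2)) := by gcongr
        _ = L * Real.sqrt |C| * h ^ (g' / 2) := by ring
        _ ≤ C' * h ^ (g' / 2) := by
            refine mul_le_mul_of_nonneg_right ?_ (Real.rpow_nonneg hh.le _)
            rw [hC']; linarith
    · have e1 : (1 : ℝ) ≤ h ^ (g' / 2) := Real.one_le_rpow h1 (by positivity)
      calc dist x x' ≤ dm := dist_le_diam _ _
        _ ≤ C' := by
            rw [hC']
            have : 0 ≤ L * Real.sqrt |C| := by positivity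
            linarith
        _ = C' * 1 := (mul_one _).symm
        _ ≤ C' * h ^ (g' / 2) := mul_le_mul_of_nonneg_left e1 hC'0
  refine estatement_of_decay vol m ?_ ?_
  · intro u hu x y hy y' hy'
    have hcl' : ctr u ∈ Cls vol m := Cls_ctr hu
    have huc := CConv.continuous hu.1
    have h0 : Dd u x y = 0 := (Dd_eq_zero huc).2 hy
    have h0' : Dd u x y' = 0 := (Dd_eq_zero huc).2 hy'
    by_contra hne
    have hpos : 0 < dist y y' := dist_pos.2 hne
    have h1 : ∀ h : ℝ, 0 < h → dist y y' ≤ C' * h ^ (g' / 2) := by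
      intro h hh
      refine main (ctr u) hcl' x y y' h hh ?_ ?_
      · rw [Dd_ctr hu.1, h0]; exact hh.le
      · rw [Dd_ctr hu.1, h0']; exact hh.le
    have h2 : Tendsto (fun h : ℝ => C' * h ^ (g' / 2)) (𝓝[>] 0) (𝓝 0) := by
      have h3 : Tendsto (fun h : ℝ => h ^ (g' / 2)) (𝓝[>] 0) (𝓝 0) := by
        have h4 : Tendsto (fun h : ℝ => h) (𝓝[>] (0 : ℝ)) (𝓝 0) :=
          tendsto_nhdsWithin_of_tendsto_nhds tendsto_id
        have := h4.rpow_const (p := g' / 2) (Or.inr (by positivity))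
        rwa [Real.zero_rpow (by positivity)] at this
      simpa using h3.const_mul C'
    have h5 : dist y y' ≤ 0 := by
      refine ge_of_tendsto h2 ?_
      filter_upwards [self_mem_nhdsWithin] with h hh
      exact h1 h hh
    linarith
  · refine ⟨g' / 2, by positivity, ?_, C', ?_⟩
    · have := min_le_right g 2
      rw [← hg'] at this
      linarith
    · intro u hu x y x' y' hy hy' h hh hD
      have huc := CConv.continuous hu.1
      have hcl' : ctr u ∈ Cls vol m := Cls_ctr hu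
      have h0 : Dd u x y = 0 := (Dd_eq_zero huc).2 hy
      have h0' : Dd u x' y' = 0 := (Dd_eq_zero huc).2 hy'
      have hD' : Dd u x y' ≤ h := hD
      constructor
      · exact main u hu y' x x' h hh hD' (by rw [h0']; exact hh.le)
      · refine main (ctr u) hcl' x y y' h hh ?_ ?_
        · rw [Dd_ctr hu.1, h0]; exact hh.le
        · rw [Dd_ctr hu.1]; exact hD'

end Geo

end Crest.Agent.R226.Osc977
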