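/-
R226 / E (helper977): leaf (Alex): compactness and volume of contact sets.
-/
import Crest.Agent.R226.OscEnd_977
import Crest.Agent.R226.MTWConc_117

set_option autoImplicit false
set_option linter.unusedSectionVars false

open MeasureTheory Bundle Set Filter
open scoped Manifold ContDiff Bundle ENNReal Topology
open Crest.GeometryTopology.MTW

namespace Crest.Agent.R226.Alex977

open Crest.Agent.R226 Crest.Agent.R226.Kant624 Crest.Agent.R226.Reduction624
  Crest.Agent.R226.HolderEnd915 Crest.Agent.R226.E1Shape964 Crest.Agent.R226.Dasm290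
  Crest.Agent.R226.Osc977

section Metric

variable {M : Type*} [MetricSpace M]

/-- the set of contacts `x` of a set `P` of second variables. -/
def contX (u : M → ℝ) (P : Set M) : Set M := {x | ∃ y ∈ P, Dd u x y = 0}

/-- the set of contacts `y` of a set `P` of first variables. -/
def contY (u : M → ℝ) (P : Set M) : Set M := {y | ∃ x ∈ P, Dd u x y = 0}

lemma contX_mono {u : M → ℝ} {P Q : Set M} (h : P ⊆ Q) : contX u P ⊆ contX u Q :=
  fun _ ⟨y, hy, h1⟩ => ⟨y, h hy, h1⟩

variable [CompactSpace M]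

lemma contX_ctr {u : M → ℝ} (hu : CConv u) (P : Set M) : contX (ctr u) P = contY u P := by
  ext y
  constructor
  · rintro ⟨x, hx, h⟩
    exact ⟨x, hx, by rw [← Dd_ctr hu]; exact h⟩
  · rintro ⟨x, hx, h⟩
    exact ⟨x, hx, by rw [Dd_ctr hu]; exact h⟩

lemma contX_eq {u : M → ℝ} (hu : CConv u) (P : Set M) :
    contX u P = ⋃ y ∈ P, cSub (ctr u) y := by
  have huc := CConv.continuous hu
  ext x
  simp only [contX, mem_ofPred_eq, mem_iUnion, exists_prop]
  refine exists_congr fun y => and_congr_right fun _ => ?_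
  rw [mem_cSub_ctr_iff hu]
  exact Dd_eq_zero huc

lemma contY_eq {u : M → ℝ} (hu : CConv u) (P : Set M) : contY u P = ⋃ x ∈ P, cSub u x := by
  have huc := CConv.continuous hu
  ext y
  simp only [contY, mem_ofPred_eq, mem_iUnion, exists_prop]
  refine exists_congr fun x => and_congr_right fun _ => ?_
  exact Dd_eq_zero huc

lemma continuous_Dd2 {u : M → ℝ} (hu : CConv u) : Continuous (fun z : M × M => Dd u z.1 z.2) := by
  have h1 := CConv.continuous hu
  have h2 := CConv.continuous (CConv_ctr h1)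
  have h3 := continuous_halfDistSq (M := M)
  unfold Dd
  exact ((h1.comp continuous_fst).add (h2.comp continuous_snd)).add h3

theorem isCompact_contX {u : M → ℝ} (hu : CConv u) {P : Set M} (hP : IsCompact P) :
    IsCompact (contX u P) := by
  have h1 : IsClosed {z : M × M | z.2 ∈ P ∧ Dd u z.1 z.2 = 0} :=
    (hP.isClosed.preimage continuous_snd).inter (isClosed_eq (continuous_Dd2 hu) continuous_const)
  have h2 : contX u P = Prod.fst '' {z : M × M | z.2 ∈ P ∧ Dd u z.1 z.2 = 0} := by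
    ext x
    constructor
    · rintro ⟨y, hy, h⟩
      exact ⟨(x, y), ⟨hy, h⟩, rfl⟩
    · rintro ⟨⟨x', y⟩, ⟨hy, h⟩, rfl⟩
      exact ⟨y, hy, h⟩
  rw [h2]
  exact h1.isCompact.image continuous_fst

theorem isCompact_contY {u : M → ℝ} (hu : CConv u) {P : Set M} (hP : IsCompact P) :
    IsCompact (contY u P) := by
  rw [← contX_ctr hu]
  exact isCompact_contX (CConv_ctr (CConv.continuous hu)) hP

variable [MeasurableSpace M] {vol : Measure M} {m : ℝ}

/-- **volume of the contact set**: from below. -/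
theorem vol_le_contX {u : M → ℝ} (hu : CConv u) (hA : AlexPinch vol (ctr u) m) {P : Set M}
    (hP : MeasurableSet P) : ENNReal.ofReal m * vol P ≤ vol (contX u P) := by
  rw [contX_eq hu]
  exact (hA P hP).1

/-- **volume of the contact set**: from above. -/
theorem vol_contX_le {u : M → ℝ} (hu : CConv u) (hA : AlexPinch vol (ctr u) m) {P : Set M}
    (hP : MeasurableSet P) : ENNReal.ofReal m * vol (contX u P) ≤ vol P := by
  rw [contX_eq hu]
  exact (hA P hP).2

theorem vol_le_contY {u : M → ℝ} (hu : CConv u) (hA : AlexPinch vol u m) {P : Set M}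
    (hP : MeasurableSet P) : ENNReal.ofReal m * vol P ≤ vol (contY u P) := by
  rw [contY_eq hu]
  exact (hA P hP).1

theorem vol_contY_le {u : M → ℝ} (hu : CConv u) (hA : AlexPinch vol u m) {P : Set M}
    (hP : MeasurableSet P) : ENNReal.ofReal m * vol (contY u P) ≤ vol P := by
  rw [contY_eq hu]
  exact (hA P hP).2

/-- real form: `m * |P| ≤ |contX u P|`. -/
theorem toReal_le_contX [IsFiniteMeasure vol] {u : M → ℝ} (hu : CConv u)
    (hA : AlexPinch vol (ctr u) m) {P : Set M} (hP : MeasurableSet P) :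
    m * (vol P).toReal ≤ (vol (contX u P)).toReal := by
  rcases le_total m 0 with hm | hm
  · exact (mul_nonpos_of_nonpos_of_nonneg hm ENNReal.toReal_nonneg).trans ENNReal.toReal_nonneg
  · have h1 := ENNReal.toReal_mono (measure_ne_top vol _) (vol_le_contX hu hA hP)
    rwa [ENNReal.toReal_mul, ENNReal.toReal_ofReal hm] at h1

theorem toReal_le_contY [IsFiniteMeasure vol] {u : M → ℝ} (hu : CConv u)
    (hA : AlexPinch vol u m) {P : Set M} (hP : MeasurableSet P) :
    m * (vol P).toReal ≤ (vol (contY u P)).toReal := by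
  rcases le_total m 0 with hm | hm
  · exact (mul_nonpos_of_nonpos_of_nonneg hm ENNReal.toReal_nonneg).trans ENNReal.toReal_nonneg
  · have h1 := ENNReal.toReal_mono (measure_ne_top vol _) (vol_le_contY hu hA hP)
    rwa [ENNReal.toReal_mul, ENNReal.toReal_ofReal hm] at h1

end Metric

section Chart

variable {n : ℕ} {M : Type*} [MetricSpace M] [ChartedSpace (EuclideanSpace ℝ (Fin n)) M]
  [IsManifold (𝓡 n) ∞ M]
  [RiemannianBundle (fun p : M => TangentSpace (𝓡 n) p)]
  [CompactSpace M] [MeasurableSpace M] [BorelSpace M]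

/-- membership in the contact set of the image of a set of velocities. -/
lemma mem_contX_image (G : GeoData n M) (u : M → ℝ) (x₁ : M) (W : Set (TangentSpace (𝓡 n) x₁))
    (x : M) : x ∈ contX u (G.ex x₁ '' W) ↔ ∃ p ∈ W, Dd u x (G.ex x₁ p) = 0 := by
  constructor
  · rintro ⟨_, ⟨p, hp, rfl⟩, h⟩
    exact ⟨p, hp, h⟩
  · rintro ⟨p, hp, h⟩
    exact ⟨_, ⟨p, hp, rfl⟩, h⟩

lemma mem_contY_image (G : GeoData n M) (u : M → ℝ) (y₁ : M) (W : Set (TangentSpace (𝓡 n) y₁))
    (y : M) : y ∈ contY u (G.ex y₁ '' W) ↔ ∃ q ∈ W, Dd u (G.ex y₁ q) y = 0 := by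
  constructor
  · rintro ⟨_, ⟨p, hp, rfl⟩, h⟩
    exact ⟨p, hp, h⟩
  · rintro ⟨p, hp, h⟩
    exact ⟨_, ⟨p, hp, rfl⟩, h⟩

lemma isCompact_ex_image (G : GeoData n M) {x₁ : M} {W : Set (TangentSpace (𝓡 n) x₁)}
    (hW : IsCompact W) : IsCompact (G.ex x₁ '' W) :=
  hW.image (MTWConc117.contMDiff_ex G x₁).continuous

theorem isCompact_contX_image (G : GeoData n M) {u : M → ℝ} (hu : CConv u) {x₁ : M}
    {W : Set (TangentSpace (𝓡 n) x₁)} (hW : IsCompact W) :
    IsCompact (contX u (G.ex x₁ '' W)) :=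
  isCompact_contX hu (isCompact_ex_image G hW)

/-- **new mass**: the contact set of `exp W` has volume `≥ (m/C) ∫_W J`. -/
theorem lintegral_le_contX {G : GeoData n M} {vol : Measure M} {m C : ℝ} (hC : 0 < C) {u : M → ℝ}
    (hu : CConv u) (hA : AlexPinch vol (ctr u) m) {x₁ : M}
    [MeasurableSpace (TangentSpace (𝓡 n) x₁)] {μ : Measure (TangentSpace (𝓡 n) x₁)}
    {J : TangentSpace (𝓡 n) x₁ → ℝ≥0∞}
    (harea : ∀ A ⊆ G.K x₁, IsCompact A →
      ∫⁻ p in A, J p ∂μ ≤ ENNReal.ofReal C * vol (G.ex x₁ '' A))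
    {W : Set (TangentSpace (𝓡 n) x₁)} (hWK : W ⊆ G.K x₁) (hW : IsCompact W) :
    ENNReal.ofReal (m / C) * ∫⁻ p in W, J p ∂μ ≤ vol (contX u (G.ex x₁ '' W)) := by
  have hP : MeasurableSet (G.ex x₁ '' W) := (isCompact_ex_image G hW).measurableSet
  have h1 := vol_le_contX hu hA hP
  have h2 := harea W hWK hW
  calc ENNReal.ofReal (m / C) * ∫⁻ p in W, J p ∂μ
      ≤ ENNReal.ofReal (m / C) * (ENNReal.ofReal C * vol (G.ex x₁ '' W)) := by gcongr
    _ = ENNReal.ofReal m * vol (G.ex x₁ '' W) := by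
        rw [← mul_assoc, ← ENNReal.ofReal_mul' hC.le, div_mul_cancel₀ _ hC.ne']
    _ ≤ _ := h1

/-- real form of `lintegral_le_contX`. -/
theorem toReal_le_contX_image {G : GeoData n M} {vol : Measure M} [IsFiniteMeasure vol] {m C w : ℝ}
    (hC : 0 < C) (hm : 0 ≤ m) {u : M → ℝ}
    (hu : CConv u) (hA : AlexPinch vol (ctr u) m) {x₁ : M}
    [MeasurableSpace (TangentSpace (𝓡 n) x₁)] {μ : Measure (TangentSpace (𝓡 n) x₁)}
    {J : TangentSpace (𝓡 n) x₁ → ℝ≥0∞}
    (harea : ∀ A ⊆ G.K x₁, IsCompact A →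
      ∫⁻ p in A, J p ∂μ ≤ ENNReal.ofReal C * vol (G.ex x₁ '' A))
    {W : Set (TangentSpace (𝓡 n) x₁)} (hWK : W ⊆ G.K x₁) (hW : IsCompact W)
    (hw : ENNReal.ofReal w ≤ ∫⁻ p in W, J p ∂μ) :
    m / C * w ≤ (vol (contX u (G.ex x₁ '' W))).toReal := by
  have h1 := lintegral_le_contX hC hu hA harea hWK hW
  have h2 : ENNReal.ofReal (m / C * w) ≤ vol (contX u (G.ex x₁ '' W)) := by
    rw [ENNReal.ofReal_mul (by positivity)]
    exact (by gcongr : ENNReal.ofReal (m / C) * ENNReal.ofReal w ≤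
      ENNReal.ofReal (m / C) * ∫⁻ p in W, J p ∂μ).trans h1
  have h3 := ENNReal.toReal_mono (measure_ne_top vol _) h2
  rcases le_total 0 (m / C * w) with h | h
  · rwa [ENNReal.toReal_ofReal h] at h3
  · exact h.trans ENNReal.toReal_nonneg

/-- the dual statement: base `y₁`, velocities of points `x`, contacts `y`. -/
theorem lintegral_le_contY {G : GeoData n M} {vol : Measure M} {m C : ℝ} (hC : 0 < C) {u : M → ℝ}
    (hu : CConv u) (hA : AlexPinch vol u m) {y₁ : M}
    [MeasurableSpace (TangentSpace (𝓡 n) y₁)] {μ : Measure (TangentSpace (𝓡 n) y₁)}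
    {J : TangentSpace (𝓡 n) y₁ → ℝ≥0∞}
    (harea : ∀ A ⊆ G.K y₁, IsCompact A →
      ∫⁻ p in A, J p ∂μ ≤ ENNReal.ofReal C * vol (G.ex y₁ '' A))
    {W : Set (TangentSpace (𝓡 n) y₁)} (hWK : W ⊆ G.K y₁) (hW : IsCompact W) :
    ENNReal.ofReal (m / C) * ∫⁻ p in W, J p ∂μ ≤ vol (contY u (G.ex y₁ '' W)) := by
  have hA' : AlexPinch vol (ctr (ctr u)) m := by rw [ctr_ctr hu]; exact hA
  have := lintegral_le_contX hC (CConv_ctr (CConv.continuous hu)) hA' harea hWK hW
  rwa [contX_ctr hu] at this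

theorem toReal_le_contY_image {G : GeoData n M} {vol : Measure M} [IsFiniteMeasure vol] {m C w : ℝ}
    (hC : 0 < C) (hm : 0 ≤ m) {u : M → ℝ}
    (hu : CConv u) (hA : AlexPinch vol u m) {y₁ : M}
    [MeasurableSpace (TangentSpace (𝓡 n) y₁)] {μ : Measure (TangentSpace (𝓡 n) y₁)}
    {J : TangentSpace (𝓡 n) y₁ → ℝ≥0∞}
    (harea : ∀ A ⊆ G.K y₁, IsCompact A →
      ∫⁻ p in A, J p ∂μ ≤ ENNReal.ofReal C * vol (G.ex y₁ '' A))
    {W : Set (TangentSpace (𝓡 n) y₁)} (hWK : W ⊆ G.K y₁) (hW : IsCompact W)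
    (hw : ENNReal.ofReal w ≤ ∫⁻ p in W, J p ∂μ) :
    m / C * w ≤ (vol (contY u (G.ex y₁ '' W))).toReal := by
  have hA' : AlexPinch vol (ctr (ctr u)) m := by rw [ctr_ctr hu]; exact hA
  have := toReal_le_contX_image hC hm (CConv_ctr (CConv.continuous hu)) hA' harea hWK hW hw
  rwa [contX_ctr hu] at this

end Chart

end Crest.Agent.R226.Alex977
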