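/-
R226 / leaf L3 (helper683): definitions for the one-variable lemma NS1 (doc 1855 (1)).
`gg` is the difference of two costs along a `K(x)`-chord.  `T1iP` = input (helper115),
`NS1P` = output (shape agreed with helper413).
-/
import Crest.Agent.R226.CutFacts_484

set_option autoImplicit false

open MeasureTheory Bundle Set Filter
open scoped Manifold ContDiff Bundle ENNReal Topology
open Crest.GeometryTopology.MTW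

namespace Crest.Agent.R226.NS683

variable {n : ℕ} {M : Type*} [MetricSpace M] [ChartedSpace (EuclideanSpace ℝ (Fin n)) M]
  [IsManifold (𝓡 n) ∞ M]
  [RiemannianBundle (fun p : M => TangentSpace (𝓡 n) p)]

/-- `gg s = ‖p_s‖²/2 - c(x₁, exp_x p_s)`, `p_s = p₀ + s (p₁ - p₀)`;
for `p_s ∈ K(x)` this is `c(x, y_s) - c(x₁, y_s)`, `y_s = exp_x p_s`. -/
noncomputable def gg (G : GeoData n M) (x : M) (p₀ p₁ : TangentSpace (𝓡 n) x) (x₁ : M) (s : ℝ) : ℝ :=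
  ‖p₀ + s • (p₁ - p₀)‖ ^ 2 / 2 - halfDistSq x₁ (G.ex x (p₀ + s • (p₁ - p₀)))

/-- **(T1)(i)** of doc 1735, pointwise, at smooth points only (`p₀, p₁ ∈ I(x)`, `y_s ∉ cut(x₁)`),
in the consumer form of doc 1855 (1)(iii): while `g > 0`, `g'' ≥ - C |g'| ‖p₁ - p₀‖ (1 + 1/√g)`. -/
def T1iP (G : GeoData n M) (C : ℝ) : Prop :=
  ∀ (x : M) (p₀ p₁ : TangentSpace (𝓡 n) x), p₀ ∈ G.I x → p₁ ∈ G.I x →
    ∀ s : ℝ, 0 < s → s < 1 → ∀ q₁ ∈ G.I (G.ex x (p₀ + s • (p₁ - p₀))), ∀ x₁ : M,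
      G.ex (G.ex x (p₀ + s • (p₁ - p₀))) q₁ = x₁ → 0 < gg G x p₀ p₁ x₁ s →
      -(C * |deriv (gg G x p₀ p₁ x₁) s| * ‖p₁ - p₀‖ * (1 + 1 / √(gg G x p₀ p₁ x₁ s))) ≤
        deriv (deriv (gg G x p₀ p₁ x₁)) s

/-- **NS1**: if `g ≥ fs > 0` on `[0, S]` and `-g'(0+) ≤ m` then
`g 0 - g S ≤ S exp(C ‖p₁ - p₀‖ (1 + 1/√fs)) max(0, m)`. -/
def NS1P (G : GeoData n M) (C : ℝ) : Prop :=
  ∀ (x : M) (p₀ p₁ : TangentSpace (𝓡 n) x), p₀ ∈ G.K x → p₁ ∈ G.K x → ∀ x₁ : M,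
    ∀ fs S : ℝ, 0 < fs → 0 ≤ S → S ≤ 1 →
      (∀ s : ℝ, 0 ≤ s → s ≤ S → fs ≤ gg G x p₀ p₁ x₁ s) →
      ∀ m : ℝ, (∀ m' > m, ∀ᶠ s : ℝ in 𝓝[>] 0,
        gg G x p₀ p₁ x₁ 0 - m' * s ≤ gg G x p₀ p₁ x₁ s) →
      gg G x p₀ p₁ x₁ 0 - gg G x p₀ p₁ x₁ S ≤
        S * (Real.exp (C * ‖p₁ - p₀‖ * (1 + 1 / √fs)) * max 0 m)

end Crest.Agent.R226.NS683
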