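import Crest.Agent.R226.Index_77
import Crest.Agent.R226.CutTop_478

/-!
R226 (helper77), layer C1b: the cost is smooth at `(x, exp_x v)` for `v ∈ I(x)`;
`exp` is a local diffeomorphism there; `I` is open in the tangent bundle.
-/

set_option autoImplicit false

open Bundle Set Filter Topology
open scoped Manifold ContDiff
open Crest.GeometryTopology.MTW
open Crest.Agent.R226.DiffAE225 Crest.Agent.R226.EucMin77
open Crest.Agent.R226.ChartCost77 Crest.Agent.R226.Index77

namespace Crest.Agent.R226.CutSmooth77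

/-- three-point convexity of the cost -/
theorem three_point {M : Type*} [MetricSpace M] (x z y y' : M) {s : ℝ} (hs : 0 < s) :
    halfDistSq x y' / (1 + s) ≤
      2 * halfDistSq x z + 2 * halfDistSq z y + halfDistSq y y' / s := by
  unfold halfDistSq
  have h1 : dist x y' ≤ (dist x z + dist z y) + dist y y' := by
    have := dist_triangle4 x z y y'
    linarith
  set D := dist x z + dist z y with hD
  set e := dist y y' with he
  have hD0 : 0 ≤ D := by positivity
  have he0 : 0 ≤ e := dist_nonneg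
  have h2 : dist x y' ^ 2 ≤ (D + e) ^ 2 := by gcongr
  have h3 : D ^ 2 ≤ 2 * dist x z ^ 2 + 2 * dist z y ^ 2 := by
    rw [hD]; nlinarith [sq_nonneg (dist x z - dist z y)]
  have h4 : (D + e) ^ 2 ≤ (1 + s) * (D ^ 2 + e ^ 2 / s) := by
    have h5 : (1 + s) * (D ^ 2 + e ^ 2 / s) - (D + e) ^ 2 = (s * D - e) ^ 2 / s := by
      field_simp; ring
    have h6 : 0 ≤ (s * D - e) ^ 2 / s := by positivity
    linarith
  rw [div_le_iff₀ (by linarith)]
  have h7 : dist x y' ^ 2 ≤ (1 + s) * ((2 * dist x z ^ 2 + 2 * dist z y ^ 2) + e ^ 2 / s) := by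
    refine (h2.trans h4).trans ?_
    gcongr
  have h8 : (2 * (dist x z ^ 2 / 2) + 2 * (dist z y ^ 2 / 2) + e ^ 2 / 2 / s) * (1 + s) =
      ((1 + s) * ((2 * dist x z ^ 2 + 2 * dist z y ^ 2) + e ^ 2 / s)) / 2 := by ring
  rw [h8]
  linarith

section
variable {n : ℕ} {M : Type*} [MetricSpace M] [ChartedSpace (EuclideanSpace ℝ (Fin n)) M]
  [IsManifold (𝓡 n) ∞ M]
  [RiemannianBundle (fun p : M => TangentSpace (𝓡 n) p)]

/-- the cost is smooth near `(x, y)` -/
def SC (n : ℕ) {M : Type*} [MetricSpace M] [ChartedSpace (EuclideanSpace ℝ (Fin n)) M]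
    (x y : M) : Prop :=
  ContMDiffAt ((𝓡 n).prod (𝓡 n)) 𝓘(ℝ) ∞ (fun q : M × M => halfDistSq q.1 q.2) (x, y)

variable (G : GeoData n M)

theorem sc_near {x y : M} (h : dist x y < G.r₀) : SC n x y := by
  have h1 : IsOpen {q : M × M | dist q.1 q.2 < G.r₀} :=
    isOpen_lt continuous_dist continuous_const
  exact G.smooth_cost.contMDiffAt (h1.mem_nhds h)

theorem mixed_nondeg' {z y : M} {w : TangentSpace (𝓡 n) z} (hw : w ∈ G.K z)
    (hwy : G.ex z w = y) (hs : SC n z y)
    {h : EE n} (hh : ∀ k : EE n,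
      fderiv ℝ (fderiv ℝ (cc (n := n) z y)) (o z, o y) (0, k) (h, 0) = 0) :
    h = 0 := by
  subst hwy
  exact mixed_nondeg G hw (cc_contDiffAt hs) hh

/-- smoothness of `f₃` -/
theorem contDiffAt_slice {y y' : M} (h : SC n y y') :
    ContDiffAt ℝ ∞ (fun b : EE n => cc (n := n) y y' (b, o y')) (o y) := by
  have h1 := cc_contDiffAt h
  exact ContDiffAt.comp (o y) (f := fun b : EE n => (b, (o y' : EE n))) h1
    (contDiffAt_id.prodMk contDiffAt_const)

/-- **index lemma** (in charts) -/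
theorem index_pos {x : M} {v : TangentSpace (𝓡 n) x} (hv : v ∈ G.I x) {z y : M}
    (hz : G.ex x ((1 / 2 : ℝ) • v) = z) (hy : G.ex x v = y)
    (h1 : SC n x z) (h2 : SC n z y) {h : EE n} (hh : h ≠ 0) :
    0 < fderiv ℝ (fderiv ℝ (cc (n := n) x z)) (o x, o z) (0, h) (0, h) +
      fderiv ℝ (fderiv ℝ (cc (n := n) z y)) (o z, o y) (h, 0) (h, 0) := by
  have h2le : (2 : WithTop ℕ∞) ≤ ∞ := ENat.LEInfty.out
  obtain ⟨a, ha, hva⟩ := id hv
  -- choose the extension
  obtain ⟨s, hs0, hsa, hsr⟩ : ∃ s : ℝ, 0 < s ∧ 1 + s ≤ a ∧ s * ‖v‖ < G.r₀ := by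
    have h0 := G.r₀_pos
    have h1 : 0 < 1 + ‖v‖ := by positivity
    refine ⟨min (a - 1) (G.r₀ / (1 + ‖v‖) / 2), lt_min (by linarith) (by positivity), ?_, ?_⟩
    · have := min_le_left (a - 1) (G.r₀ / (1 + ‖v‖) / 2)
      linarith
    · calc min (a - 1) (G.r₀ / (1 + ‖v‖) / 2) * ‖v‖ ≤ (G.r₀ / (1 + ‖v‖) / 2) * ‖v‖ := by
            gcongr; exact min_le_right _ _
        _ ≤ (G.r₀ / (1 + ‖v‖) / 2) * (1 + ‖v‖) := by gcongr; linarith
        _ = G.r₀ / 2 := by field_simp
        _ < G.r₀ := by linarith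
  set y' := G.ex x ((1 + s) • v) with hy'
  have dxz : dist x z = 1 / 2 * ‖v‖ := by
    have := CutTop478.dist_from G hva (t := 1 / 2) (by norm_num) (by linarith)
    rwa [hz] at this
  have dzy : dist z y = 1 / 2 * ‖v‖ := by
    have := CutTop478.dist_seg G hva (s := 1 / 2) (t := 1) (by norm_num) (by norm_num) (by linarith)
    rw [hz, one_smul, hy] at this
    rw [this]; norm_num
  have dyy' : dist y y' = s * ‖v‖ := by
    have := CutTop478.dist_seg G hva (s := 1) (t := 1 + s) (by norm_num) (by linarith) hsa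
    rw [one_smul, hy, ← hy'] at this
    rw [this]; ring
  have dxy' : dist x y' = (1 + s) * ‖v‖ := by
    have := CutTop478.dist_from G hva (t := 1 + s) (by linarith) hsa
    rwa [← hy'] at this
  have h3 : SC n y y' := sc_near G (by rw [dyy']; exact hsr)
  have hc3 : ContDiffAt ℝ 2 (fun b : EE n => cc (n := n) y y' (b, o y') / s) (o y) :=
    ((contDiffAt_slice h3).of_le h2le).div_const s
  refine index_euc (f₃ := fun b : EE n => cc (n := n) y y' (b, o y') / s)
    ((cc_contDiffAt h1).of_le h2le) ((cc_contDiffAt h2).of_le h2le) hc3 ?_ ?_ hh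
  · -- the minimum
    refine Filter.Eventually.of_forall fun q => ?_
    have hq : halfDistSq x y' / (1 + s) ≤
        2 * cc (n := n) x z (o x, q.1) + 2 * cc (n := n) z y q + cc (n := n) y y' (q.2, o y') / s := by
      have := three_point x ((extChartAt (𝓡 n) z).symm q.1) ((extChartAt (𝓡 n) y).symm q.2) y' hs0
      simpa only [cc, symm_o] using this
    have h0 : 2 * cc (n := n) x z (o x, o z) + 2 * cc (n := n) z y (o z, o y) +
        cc (n := n) y y' (o y, o y') / s = halfDistSq x y' / (1 + s) := by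
      rw [cc_o, cc_o, cc_o]
      unfold halfDistSq
      rw [dxz, dzy, dyy', dxy']
      field_simp
      ring
    show 2 * cc (n := n) x z (o x, o z) + 2 * cc (n := n) z y (o z, o y) +
        cc (n := n) y y' (o y, o y') / s ≤ _
    rw [h0]
    exact hq
  · intro h hh
    -- the second half
    have hw := CutTop478.tail G x v (CutTop478.I_subset G x hv) (1 / 2) (by norm_num) (by norm_num)
    have hwy : G.ex (G.ex x ((1 / 2 : ℝ) • v)) ((1 - 1 / 2 : ℝ) • G.vel x v (1 / 2)) = y := by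
      rw [CutTop478.flow, ← hy]
      congr 1
      norm_num
    subst hz
    exact mixed_nondeg' G hw hwy h2 hh

variable [IsContMDiffRiemannianBundle (𝓡 n) ∞ (EuclideanSpace ℝ (Fin n))
    (fun p : M => TangentSpace (𝓡 n) p)] [CompactSpace M]

/-- a choice of minimising vectors -/
noncomputable def wt (q : M × M) : TangentSpace (𝓡 n) q.1 :=
  Classical.choose (CutTop478.exists_mem_K G q.1 q.2)

/-- a choice of minimising vectors, in the tangent bundle -/
noncomputable def Wt (q : M × M) : TangentBundle (𝓡 n) M := ⟨q.1, wt G q⟩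

omit [IsContMDiffRiemannianBundle (𝓡 n) ∞ (EuclideanSpace ℝ (Fin n))
    (fun p : M => TangentSpace (𝓡 n) p)] [CompactSpace M] in
theorem wt_mem (q : M × M) : wt G q ∈ G.K q.1 :=
  (Classical.choose_spec (CutTop478.exists_mem_K G q.1 q.2)).1

omit [IsContMDiffRiemannianBundle (𝓡 n) ∞ (EuclideanSpace ℝ (Fin n))
    (fun p : M => TangentSpace (𝓡 n) p)] [CompactSpace M] in
theorem wt_ex (q : M × M) : G.ex q.1 (wt G q) = q.2 :=
  (Classical.choose_spec (CutTop478.exists_mem_K G q.1 q.2)).2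

theorem tendsto_Wt {x : M} {v : TangentSpace (𝓡 n) x} (hv : v ∈ G.I x) :
    Tendsto (Wt G) (𝓝 (x, G.ex x v)) (𝓝 (⟨x, v⟩ : TangentBundle (𝓡 n) M)) := by
  intro N hN
  have h1 := CutTop478.near_unique G hv hN
  show ∀ᶠ q : M × M in 𝓝 (x, G.ex x v), Wt G q ∈ N
  filter_upwards [h1] with q hq
  exact hq _ (wt_mem G q) (wt_ex G q)

omit [RiemannianBundle (fun p : M => TangentSpace (𝓡 n) p)]
  [IsContMDiffRiemannianBundle (𝓡 n) ∞ (EuclideanSpace ℝ (Fin n))
    (fun p : M => TangentSpace (𝓡 n) p)] [CompactSpace M] in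
/-- scaling is smooth on the tangent bundle -/
theorem contMDiff_scale (t : ℝ) : ContMDiff (𝓡 n).tangent (𝓡 n).tangent ∞
    (fun p : TangentBundle (𝓡 n) M => (⟨p.1, t • p.2⟩ : TangentBundle (𝓡 n) M)) := by
  intro p
  rw [Bundle.contMDiffAt_totalSpace]
  have hp : ContMDiffAt (𝓡 n).tangent (𝓡 n).tangent ∞
    (fun p : TangentBundle (𝓡 n) M => p) p := contMDiffAt_id
  rw [Bundle.contMDiffAt_totalSpace] at hp
  refine ⟨hp.1, ?_⟩
  have h2 : (fun q : TangentBundle (𝓡 n) M => (trivializationAt (EuclideanSpace ℝ (Fin n))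
      (TangentSpace (𝓡 n) : M → Type _) p.1 (⟨q.1, t • q.2⟩ : TangentBundle (𝓡 n) M)).2) =ᶠ[𝓝 p]
      fun q => t • (trivializationAt (EuclideanSpace ℝ (Fin n))
      (TangentSpace (𝓡 n) : M → Type _) p.1 q).2 := by
    have hb : ∀ᶠ q : TangentBundle (𝓡 n) M in 𝓝 p, q.1 ∈ (trivializationAt
        (EuclideanSpace ℝ (Fin n)) (TangentSpace (𝓡 n) : M → Type _) p.1).baseSet := by
      have hc : ContinuousAt (fun q : TangentBundle (𝓡 n) M => q.1) p :=
        (FiberBundle.continuous_proj (EuclideanSpace ℝ (Fin n))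
          (TangentSpace (𝓡 n) : M → Type _)).continuousAt
      exact hc.eventually ((trivializationAt
        (EuclideanSpace ℝ (Fin n)) (TangentSpace (𝓡 n) : M → Type _) p.1).open_baseSet.mem_nhds
        (FiberBundle.mem_baseSet_trivializationAt' p.1))
    filter_upwards [hb] with q hq
    have := (trivializationAt (EuclideanSpace ℝ (Fin n))
        (TangentSpace (𝓡 n) : M → Type _) p.1).linear ℝ hq
    exact this.map_smul t q.2
  exact (contMDiffAt_const (I := (𝓡 n).tangent) (I' := 𝓘(ℝ, ℝ)) (c := t)).smul hp.2 |>.congr_of_eventuallyEq h2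

/-- **smoothness step** -/
theorem sc_step {x : M} {v : TangentSpace (𝓡 n) x} (hv : v ∈ G.I x) {z y : M}
    (hz : G.ex x ((1 / 2 : ℝ) • v) = z) (hy : G.ex x v = y)
    (h1 : SC n x z) (h2 : SC n z y) : SC n x y := by
  apply contMDiffAt_of_cc
  -- the two endpoints, the minimiser and its midpoint
  let X : EE n × EE n → M × M := fun p =>
    ((extChartAt (𝓡 n) x).symm p.1, (extChartAt (𝓡 n) y).symm p.2)
  let m : M × M → M := fun q => G.ex q.1 ((1 / 2 : ℝ) • wt G q)
  have hX : Tendsto X (𝓝 (o x, o y)) (𝓝 (x, y)) :=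
    ((tendsto_symm x).comp (continuous_fst.tendsto ((o x : EE n), (o y : EE n)))).prodMk_nhds
      ((tendsto_symm y).comp (continuous_snd.tendsto ((o x : EE n), (o y : EE n))))
  have hm : Tendsto m (𝓝 (x, y)) (𝓝 z) := by
    have hc : Continuous (fun p : TangentBundle (𝓡 n) M => G.ex p.1 ((1 / 2 : ℝ) • p.2)) :=
      (CutTop478.continuous_ex G).comp (contMDiff_scale (1 / 2 : ℝ)).continuous
    have h3 := (hc.tendsto (⟨x, v⟩ : TangentBundle (𝓡 n) M)).comp (tendsto_Wt G hv)
    rw [hy] at h3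
    rw [← hz]
    exact h3
  have hmX : Tendsto (fun p => m (X p)) (𝓝 (o x, o y)) (𝓝 z) := hm.comp hX
  have hsrc : ∀ᶠ p in 𝓝 ((o x : EE n), (o y : EE n)), m (X p) ∈ (extChartAt (𝓡 n) z).source :=
    hmX.eventually (extChartAt_source_mem_nhds (I := 𝓡 n) z)
  have hmid : ∀ q : M × M, halfDistSq q.1 q.2 =
      2 * halfDistSq q.1 (m q) + 2 * halfDistSq (m q) q.2 := by
    intro q
    have hK := wt_mem G q
    have hK' : (1 : ℝ) • wt G q ∈ G.K q.1 := by rwa [one_smul]
    have d1 : dist q.1 (m q) = 1 / 2 * ‖wt G q‖ :=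
      CutTop478.dist_from G hK' (t := 1 / 2) (by norm_num) (by norm_num)
    have d2 : dist (m q) (G.ex q.1 ((1 : ℝ) • wt G q)) = (1 - 1 / 2) * ‖wt G q‖ :=
      CutTop478.dist_seg G hK' (s := 1 / 2) (t := 1) (by norm_num) (by norm_num) le_rfl
    rw [one_smul, wt_ex] at d2
    have d3 : dist q.1 q.2 = ‖wt G q‖ := by
      have := (CutTop478.mem_K G).1 hK
      rwa [wt_ex] at this
    unfold halfDistSq
    rw [d3, d1, d2]
    ring
  have hval : ∀ᶠ p in 𝓝 ((o x : EE n), (o y : EE n)), cc (n := n) x y p =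
      2 * cc (n := n) x z (p.1, extChartAt (𝓡 n) z (m (X p))) +
      2 * cc (n := n) z y (extChartAt (𝓡 n) z (m (X p)), p.2) := by
    filter_upwards [hsrc] with p hp
    simp only [cc, (extChartAt (𝓡 n) z).left_inv hp]
    exact hmid (X p)
  refine value_step (f₁ := cc (n := n) x z) (f₂ := cc (n := n) z y)
    (ζ := fun p => extChartAt (𝓡 n) z (m (X p))) (ζ₀ := o z)
    (cc_contDiffAt h1) (cc_contDiffAt h2)
    (fun h hh => index_pos G hv hz hy h1 h2 hh) ((tendsto_chart z).comp hmX) hval ?_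
  filter_upwards [hval] with p hp
  refine Filter.Eventually.of_forall fun ζ => ?_
  show 2 * cc (n := n) x z (p.1, extChartAt (𝓡 n) z (m (X p))) +
      2 * cc (n := n) z y (extChartAt (𝓡 n) z (m (X p)), p.2) ≤ _
  rw [← hp]
  have h3 := halfDistSq_le_div ((extChartAt (𝓡 n) x).symm p.1) ((extChartAt (𝓡 n) y).symm p.2)
    ((extChartAt (𝓡 n) z).symm ζ) (s := 1 / 2) (by norm_num) (by norm_num)
  simp only [cc]
  calc _ ≤ _ := h3
    _ = _ := by ring

/-- **F2**: the cost is smooth at `(x, exp_x v)` for `v ∈ I(x)`. -/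
theorem sc_of_mem_I (x : M) (v : TangentSpace (𝓡 n) x) (hv : v ∈ G.I x) :
    SC n x (G.ex x v) := by
  have key : ∀ k : ℕ, ∀ x : M, ∀ v : TangentSpace (𝓡 n) x, v ∈ G.I x → ‖v‖ < 2 ^ k * G.r₀ →
      SC n x (G.ex x v) := by
    intro k
    induction k with
    | zero =>
      intro x v hv hn
      apply sc_near G
      rw [(CutTop478.mem_K G).1 (CutTop478.I_subset G x hv)]
      simpa using hn
    | succ k ih =>
      intro x v hv hn
      have hhalf : ‖(1 / 2 : ℝ) • v‖ < 2 ^ k * G.r₀ := by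
        rw [norm_smul, Real.norm_of_nonneg (by norm_num)]
        rw [pow_succ] at hn
        linarith
      have h1 := ih x ((1 / 2 : ℝ) • v)
        (CutTop478.star_I G x v hv (1 / 2) (by norm_num) (by norm_num)) hhalf
      have hI2 := CutTop478.tail_I G x v hv (1 / 2) (by norm_num) (by norm_num)
      have hn2 : ‖(1 - 1 / 2 : ℝ) • G.vel x v (1 / 2)‖ < 2 ^ k * G.r₀ := by
        rw [norm_smul, CutTop478.norm_vel, Real.norm_of_nonneg (by norm_num)]
        rw [pow_succ] at hn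
        linarith
      have h2 := ih _ _ hI2 hn2
      have hwy : G.ex (G.ex x ((1 / 2 : ℝ) • v)) ((1 - 1 / 2 : ℝ) • G.vel x v (1 / 2)) =
          G.ex x v := by
        rw [CutTop478.flow]
        congr 1
        norm_num
      rw [hwy] at h2
      exact sc_step G hv rfl rfl h1 h2
  obtain ⟨k, hk⟩ : ∃ k : ℕ, ‖v‖ / G.r₀ < 2 ^ k := pow_unbounded_of_one_lt _ (by norm_num)
  exact key k x v hv ((div_lt_iff₀ G.r₀_pos).1 hk)

/-- exact field `CutFacts.smooth_cost` -/
theorem smooth_cost : ∀ x, ∀ v ∈ G.I x, ContMDiffAt ((𝓡 n).prod (𝓡 n)) 𝓘(ℝ) ∞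
    (fun q : M × M => halfDistSq q.1 q.2) (x, G.ex x v) :=
  fun x v hv => sc_of_mem_I G x v hv

end

end Crest.Agent.R226.CutSmooth77
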