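/-
R226 (helper347): elementary second-order calculus in one real variable along curves in a normed
space, used for F3 (monotonicity), the two-point version `seg`, and F5 (focal blow-up).
-/
import Mathlib

set_option autoImplicit false

open Set Filter
open scoped Topology ContDiff

namespace Crest.Agent.R226.Calc347

/-- `Sec f d`: `f` is `C²` at `0` and its second derivative at `0` is `d`. -/
def Sec (f : ℝ → ℝ) (d : ℝ) : Prop := ContDiffAt ℝ 2 f 0 ∧ iteratedDeriv 2 f 0 = d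

theorem Sec.add {f g : ℝ → ℝ} {d e : ℝ} (hf : Sec f d) (hg : Sec g e) :
    Sec (fun s => f s + g s) (d + e) := by
  refine ⟨hf.1.add hg.1, ?_⟩
  have h := iteratedDeriv_add (n := 2) (f := f) (g := g) (x := (0 : ℝ)) hf.1 hg.1
  rw [hf.2, hg.2] at h
  exact h

theorem Sec.sub {f g : ℝ → ℝ} {d e : ℝ} (hf : Sec f d) (hg : Sec g e) :
    Sec (fun s => f s - g s) (d - e) := by
  refine ⟨hf.1.sub hg.1, ?_⟩
  have h := iteratedDeriv_sub (n := 2) (f := f) (g := g) (x := (0 : ℝ)) hf.1 hg.1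
  rw [hf.2, hg.2] at h
  exact h

theorem Sec.const_mul {f : ℝ → ℝ} {d : ℝ} (c : ℝ) (hf : Sec f d) :
    Sec (fun s => c * f s) (c * d) := by
  refine ⟨contDiffAt_const.mul hf.1, ?_⟩
  have h := iteratedDeriv_const_mul (n := 2) (f := f) (x := (0 : ℝ)) c hf.1
  rw [hf.2] at h
  exact h

theorem Sec.congr {f g : ℝ → ℝ} {d : ℝ} (hf : Sec f d) (h : g =ᶠ[𝓝 0] f) : Sec g d :=
  ⟨hf.1.congr_of_eventuallyEq h, by rw [h.iteratedDeriv_eq 2]; exact hf.2⟩

theorem iteratedDeriv_two_eq (f : ℝ → ℝ) (x : ℝ) : iteratedDeriv 2 f x = deriv (deriv f) x := by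
  rw [iteratedDeriv_succ, iteratedDeriv_one]

/-- necessary second order condition at a local minimum -/
theorem Sec.nonneg {f : ℝ → ℝ} {d : ℝ} (hf : Sec f d) (hmin : ∀ᶠ s in 𝓝 (0 : ℝ), f 0 ≤ f s) :
    0 ≤ d := by
  by_contra hd
  push Not at hd
  have hloc : IsLocalMin f 0 := hmin
  have h1 : deriv f 0 = 0 := hloc.deriv_eq_zero
  have h2 : deriv (deriv f) 0 < 0 := by
    rw [← iteratedDeriv_two_eq, hf.2]; exact hd
  have hmax : IsLocalMax f 0 := isLocalMax_of_deriv_deriv_neg h2 h1 hf.1.continuousAt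
  have hconst : f =ᶠ[𝓝 0] fun _ => f 0 := by
    filter_upwards [hloc, hmax] with s hs hs'
    exact le_antisymm hs' hs
  have h3 : iteratedDeriv 2 f 0 = 0 := by
    rw [hconst.iteratedDeriv_eq 2]
    simp [iteratedDeriv_const]
  rw [hf.2] at h3
  linarith

/-- comparison of second derivatives of two functions, one above the other, equal at `0` -/
theorem Sec.le {f g : ℝ → ℝ} {d e : ℝ} (hf : Sec f d) (hg : Sec g e) (h0 : f 0 = g 0)
    (hle : ∀ᶠ s in 𝓝 (0 : ℝ), f s ≤ g s) : d ≤ e := by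
  have h := (hg.sub hf).nonneg (by
    filter_upwards [hle] with s hs
    rw [h0]; linarith)
  linarith

section curve
variable {E : Type*} [NormedAddCommGroup E] [NormedSpace ℝ E]

/-- the second derivative (bilinear form) -/
noncomputable def hess (g : E → ℝ) (a : E) : E →L[ℝ] E →L[ℝ] ℝ := fderiv ℝ (fderiv ℝ g) a

theorem hess_symm {g : E → ℝ} {a : E} (hg : ContDiffAt ℝ 2 g a) (v w : E) :
    hess g a v w = hess g a w v :=
  (hg.isSymmSndFDerivAt (by simp)).eq v w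

/-- second derivative along a curve -/
theorem Sec.comp_curve {g : E → ℝ} {γ : ℝ → E} {a : E} (hg : ContDiffAt ℝ 2 g a)
    (hγ : ContDiffAt ℝ 2 γ 0) (h0 : γ 0 = a) :
    Sec (fun s => g (γ s))
      (hess g a (deriv γ 0) (deriv γ 0) + fderiv ℝ g a (deriv (deriv γ) 0)) := by
  subst h0
  refine ⟨ContDiffAt.comp (0 : ℝ) hg hγ, ?_⟩
  rw [iteratedDeriv_two_eq]
  have hγ' : ∀ᶠ s in 𝓝 (0 : ℝ), ContDiffAt ℝ 2 γ s := hγ.eventually (by simp)
  have hg' : ∀ᶠ s in 𝓝 (0 : ℝ), ContDiffAt ℝ 2 g (γ s) :=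
    hγ.continuousAt.eventually (hg.eventually (by simp))
  have hd : deriv (fun s => g (γ s)) =ᶠ[𝓝 0] fun s => fderiv ℝ g (γ s) (deriv γ s) := by
    filter_upwards [hγ', hg'] with s hs hs'
    exact ((hs'.differentiableAt (by norm_num)).hasFDerivAt.comp_hasDerivAt s
      (hs.differentiableAt (by norm_num)).hasDerivAt).deriv
  rw [hd.deriv_eq]
  have h1 : ContDiffAt ℝ 1 (fderiv ℝ g) (γ 0) := hg.fderiv_right (by norm_num)
  have h2 : HasDerivAt (fun s => fderiv ℝ g (γ s)) (fderiv ℝ (fderiv ℝ g) (γ 0) (deriv γ 0)) 0 :=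
    (h1.differentiableAt (by norm_num)).hasFDerivAt.comp_hasDerivAt (0 : ℝ)
      (hγ.differentiableAt (by norm_num)).hasDerivAt
  have h3 : DifferentiableAt ℝ (deriv γ) 0 := by
    have h4 : ContDiffAt ℝ 1 (fderiv ℝ γ) 0 := hγ.fderiv_right (by norm_num)
    have h5 : DifferentiableAt ℝ (fun y => fderiv ℝ γ y 1) 0 :=
      (h4.differentiableAt (by norm_num)).clm_apply (differentiableAt_const _)
    exact h5
  exact (h2.clm_apply h3.hasDerivAt).deriv

/-- second derivative along a line -/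
theorem Sec.comp_line {g : E → ℝ} {a : E} (hg : ContDiffAt ℝ 2 g a) (v : E) :
    Sec (fun s : ℝ => g (a + s • v)) (hess g a v v) := by
  have hd : ∀ s : ℝ, HasDerivAt (fun s : ℝ => a + s • v) v s := by
    intro s
    have := ((hasDerivAt_id s).smul_const v).const_add a
    simpa using this
  have hγ : ContDiffAt ℝ 2 (fun s : ℝ => a + s • v) 0 := by fun_prop
  have h := Sec.comp_curve hg hγ (by simp)
  have h1 : deriv (fun s : ℝ => a + s • v) = fun _ => v := by
    funext s; exact (hd s).deriv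
  rw [h1] at h
  simpa using h

end curve

section prod
variable {E F : Type*} [NormedAddCommGroup E] [NormedSpace ℝ E]
  [NormedAddCommGroup F] [NormedSpace ℝ F]

/-- partial derivative in the first variable -/
theorem fderiv_fst {g : E × F → ℝ} {a : E} {b : F} (hg : DifferentiableAt ℝ g (a, b)) (v : E) :
    fderiv ℝ g (a, b) (v, 0) = fderiv ℝ (fun a' => g (a', b)) a v := by
  have h1 : HasFDerivAt (fun a' : E => (a', b)) (ContinuousLinearMap.inl ℝ E F) a :=
    hasFDerivAt_prodMk_left a b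
  have h2 := (hg.hasFDerivAt.comp a h1).fderiv
  have h3 : fderiv ℝ (fun a' => g (a', b)) a = (fderiv ℝ g (a, b)).comp
    (ContinuousLinearMap.inl ℝ E F) := h2
  rw [h3]; simp

theorem fderiv_snd {g : E × F → ℝ} {a : E} {b : F} (hg : DifferentiableAt ℝ g (a, b)) (w : F) :
    fderiv ℝ g (a, b) (0, w) = fderiv ℝ (fun b' => g (a, b')) b w := by
  have h1 : HasFDerivAt (fun b' : F => (a, b')) (ContinuousLinearMap.inr ℝ E F) b :=
    hasFDerivAt_prodMk_right a b
  have h2 := (hg.hasFDerivAt.comp b h1).fderiv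
  have h3 : fderiv ℝ (fun b' => g (a, b')) b = (fderiv ℝ g (a, b)).comp
    (ContinuousLinearMap.inr ℝ E F) := h2
  rw [h3]; simp

/-- mixed second derivative -/
theorem hess_mixed {g : E × F → ℝ} {a : E} {b : F} (hg : ContDiffAt ℝ 2 g (a, b)) (v : E) (w : F)
    {d : ℝ} (h : HasDerivAt (fun s : ℝ => fderiv ℝ (fun a' => g (a', b + s • w)) a v) d 0) :
    hess g (a, b) (0, w) (v, 0) = d := by
  have hc : ContinuousAt (fun s : ℝ => (a, b + s • w)) 0 := by fun_prop
  have hc0 : (a, b + (0 : ℝ) • w) = (a, b) := by simp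
  have hev : ∀ᶠ s in 𝓝 (0 : ℝ), ContDiffAt ℝ 2 g (a, b + s • w) := by
    apply hc.eventually
    show ∀ᶠ y in 𝓝 (a, b + (0 : ℝ) • w), ContDiffAt ℝ 2 g y
    rw [hc0]
    exact hg.eventually (by simp)
  have h1 : (fun s : ℝ => fderiv ℝ (fun a' => g (a', b + s • w)) a v) =ᶠ[𝓝 0]
      fun s : ℝ => fderiv ℝ g (a, b + s • w) (v, 0) := by
    filter_upwards [hev] with s hs
    exact (fderiv_fst (hs.differentiableAt (by norm_num)) v).symm
  have h2 : HasDerivAt (fun s : ℝ => fderiv ℝ g (a, b + s • w) (v, 0)) d 0 :=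
    h.congr_of_eventuallyEq h1.symm
  have h3 : ContDiffAt ℝ 1 (fderiv ℝ g) (a, b + (0 : ℝ) • w) := by
    rw [hc0]; exact hg.fderiv_right (by norm_num)
  have h4 : HasDerivAt (fun s : ℝ => (a, b + s • w)) (0, w) 0 := by
    have h5 : HasDerivAt (fun s : ℝ => b + s • w) w 0 := by
      have := ((hasDerivAt_id (0 : ℝ)).smul_const w).const_add b
      simpa using this
    exact (hasDerivAt_const (0 : ℝ) a).prodMk h5
  have h6 : HasDerivAt (fun s : ℝ => fderiv ℝ g (a, b + s • w))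
      (fderiv ℝ (fderiv ℝ g) (a, b + (0 : ℝ) • w) (0, w)) 0 :=
    (h3.differentiableAt (by norm_num)).hasFDerivAt.comp_hasDerivAt (0 : ℝ) h4
  have h7 : HasDerivAt (fun s : ℝ => fderiv ℝ g (a, b + s • w) (v, 0))
      (fderiv ℝ (fderiv ℝ g) (a, b + (0 : ℝ) • w) (0, w) (v, 0)) 0 := by
    have := h6.clm_apply (hasDerivAt_const (0 : ℝ) ((v, 0) : E × F))
    simpa using this
  rw [hc0] at h7
  exact h7.unique h2

theorem hess_fst {g : E × F → ℝ} {a : E} {b : F} (hg : ContDiffAt ℝ 2 g (a, b)) (v : E) :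
    Sec (fun s : ℝ => g (a + s • v, b)) (hess g (a, b) (v, 0) (v, 0)) := by
  have h := Sec.comp_line hg ((v, 0) : E × F)
  simpa using h

theorem hess_snd {g : E × F → ℝ} {a : E} {b : F} (hg : ContDiffAt ℝ 2 g (a, b)) (w : F) :
    Sec (fun s : ℝ => g (a, b + s • w)) (hess g (a, b) (0, w) (0, w)) := by
  have h := Sec.comp_line hg ((0, w) : E × F)
  simpa using h

/-- expansion of the Hessian on a product -/
theorem hess_expand {g : E × F → ℝ} {a : E} {b : F} (hg : ContDiffAt ℝ 2 g (a, b)) (v : E) (w : F) :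
    hess g (a, b) (v, w) (v, w) = hess g (a, b) (v, 0) (v, 0) + 2 * hess g (a, b) (0, w) (v, 0)
      + hess g (a, b) (0, w) (0, w) := by
  have h : ((v, w) : E × F) = (v, 0) + (0, w) := by simp
  rw [h]
  simp only [map_add, add_apply]
  rw [hess_symm hg (v, 0) (0, w)]
  ring

end prod

theorem Sec.unique {f : ℝ → ℝ} {d e : ℝ} (hf : Sec f d) (hf' : Sec f e) : d = e :=
  hf.2.symm.trans hf'.2

/-- the second derivative of `s ↦ ‖b + s w‖² / 2` -/
theorem sec_norm_sq {E : Type*} [NormedAddCommGroup E] [InnerProductSpace ℝ E] (b w : E) :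
    Sec (fun s : ℝ => ‖b + s • w‖ ^ 2 / 2) (‖w‖ ^ 2) := by
  have h : (fun s : ℝ => ‖b + s • w‖ ^ 2 / 2) =
      fun s : ℝ => ‖b‖ ^ 2 / 2 + inner ℝ b w * s + ‖w‖ ^ 2 / 2 * s ^ 2 := by
    funext s
    rw [norm_add_sq_real, norm_smul, inner_smul_right, mul_pow, Real.norm_eq_abs, sq_abs]
    ring
  rw [h]
  refine ⟨by fun_prop, ?_⟩
  rw [iteratedDeriv_two_eq]
  have h1 : deriv (fun s : ℝ => ‖b‖ ^ 2 / 2 + inner ℝ b w * s + ‖w‖ ^ 2 / 2 * s ^ 2) =
      fun s : ℝ => inner ℝ b w + ‖w‖ ^ 2 * s := by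
    funext s
    have h2 : HasDerivAt (fun s : ℝ => ‖b‖ ^ 2 / 2 + inner ℝ b w * s + ‖w‖ ^ 2 / 2 * s ^ 2)
        (0 + inner ℝ b w * 1 + ‖w‖ ^ 2 / 2 * (2 * s)) s := by
      refine ((hasDerivAt_const s _).add ((hasDerivAt_id s).const_mul _)).add ?_
      have := (hasDerivAt_pow 2 s).const_mul (‖w‖ ^ 2 / 2)
      simpa using this
    rw [h2.deriv]; ring
  rw [h1]
  have h3 : HasDerivAt (fun s : ℝ => inner ℝ b w + ‖w‖ ^ 2 * s) (0 + ‖w‖ ^ 2 * 1) 0 :=
    (hasDerivAt_const (0 : ℝ) _).add ((hasDerivAt_id (0 : ℝ)).const_mul _)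
  rw [h3.deriv]; ring

end Crest.Agent.R226.Calc347
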