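/-
R226 (helper347): common tools for `CutFacts.mono`, `CutFacts.seg`, `CutFacts.focal`.
`Base G` collects the fields of `CutFacts G` that are used (proved by other tasks).
-/
import Crest.Agent.R226.MTWConc_117
import Crest.Agent.R226.Calc2_347

set_option autoImplicit false

open MeasureTheory Bundle Set Filter
open scoped Manifold ContDiff Bundle ENNReal Topology
open Crest.GeometryTopology.MTW
open Crest.Agent.R226.Calc347 Crest.Agent.R226.MTWConc117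

namespace Crest.Agent.R226.Base347

variable {n : ℕ} {M : Type*} [MetricSpace M] [ChartedSpace (EuclideanSpace ℝ (Fin n)) M]
  [IsManifold (𝓡 n) ∞ M]
  [RiemannianBundle (fun p : M => TangentSpace (𝓡 n) p)]

/-- the fields of `CutFacts` used for `mono`, `seg` and `focal`. -/
structure Base (G : GeoData n M) : Prop where
  isCompact_KT : IsCompact G.KT
  star : ∀ x, ∀ v ∈ G.K x, ∀ t : ℝ, 0 ≤ t → t ≤ 1 → t • v ∈ G.K x
  I_subset : ∀ x, G.I x ⊆ G.K x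
  rev : ∀ x, ∀ v ∈ G.K x, -(G.vel x v 1) ∈ G.K (G.ex x ((1 : ℝ) • v))
  rev_I : ∀ x, ∀ v ∈ G.I x, -(G.vel x v 1) ∈ G.I (G.ex x ((1 : ℝ) • v))
  rev_ex : ∀ x, ∀ v : TangentSpace (𝓡 n) x, ∀ t : ℝ,
    G.ex (G.ex x ((1 : ℝ) • v)) (t • (-(G.vel x v 1))) = G.ex x ((1 - t) • v)
  isOpen_IT : IsOpen G.IT
  smooth_cost : ∀ x, ∀ v ∈ G.I x, ContMDiffAt ((𝓡 n).prod (𝓡 n)) 𝓘(ℝ) ∞
    (fun q : M × M => halfDistSq q.1 q.2) (x, G.ex x v)
  nc_fderiv : ∀ x, ∀ v ∈ G.I x, ∀ ξ, fderiv ℝ (G.nc x v) 0 ξ = -inner ℝ v ξ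
  semiconcave : ∃ C₁ : ℝ, 0 < C₁ ∧ ∀ x, ∀ v ∈ G.K x, ∀ ξ : TangentSpace (𝓡 n) x,
    halfDistSq (G.ex x ξ) (G.ex x v) ≤ halfDistSq x (G.ex x v) - inner ℝ v ξ + C₁ * ‖ξ‖ ^ 2

/-- `CutFacts` implies `Base`. -/
theorem _root_.Crest.Agent.R226.CutFacts.base347 {G : GeoData n M} (h : CutFacts G) : Base G :=
  ⟨h.isCompact_KT, h.star, h.I_subset, h.rev, h.rev_I, h.rev_ex, h.isOpen_IT, h.smooth_cost,
    h.nc_fderiv, h.semiconcave⟩

theorem halfDistSq_comm {X : Type*} [MetricSpace X] (x y : X) :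
    halfDistSq x y = halfDistSq y x := by
  unfold halfDistSq; rw [dist_comm]

/-- weighted triangle inequality for the cost -/
theorem halfDistSq_le {X : Type*} [MetricSpace X] (x z y : X) {t : ℝ} (h0 : 0 < t) (h1 : t < 1) :
    halfDistSq x y ≤ t⁻¹ * halfDistSq x z + (1 - t)⁻¹ * halfDistSq z y := by
  have h2 : 0 < 1 - t := by linarith
  have hd := dist_triangle x z y
  have ha : 0 ≤ dist x z := dist_nonneg
  have hb : 0 ≤ dist z y := dist_nonneg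
  have hc : 0 ≤ dist x y := dist_nonneg
  have h3 : dist x y ^ 2 ≤ (dist x z + dist z y) ^ 2 := by
    apply pow_le_pow_left₀ hc hd
  have h4 : (dist x z + dist z y) ^ 2 ≤ t⁻¹ * dist x z ^ 2 + (1 - t)⁻¹ * dist z y ^ 2 := by
    have h5 : t⁻¹ * dist x z ^ 2 + (1 - t)⁻¹ * dist z y ^ 2 - (dist x z + dist z y) ^ 2 =
        ((1 - t) * dist x z - t * dist z y) ^ 2 * (t⁻¹ * (1 - t)⁻¹) := by
      field_simp
      ring
    have h6 : 0 ≤ ((1 - t) * dist x z - t * dist z y) ^ 2 * (t⁻¹ * (1 - t)⁻¹) := by positivity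
    linarith
  unfold halfDistSq
  linarith

theorem halfDistSq_le_two {X : Type*} [MetricSpace X] (x z y : X) :
    halfDistSq x y ≤ 2 * halfDistSq x z + 2 * halfDistSq z y := by
  have h := halfDistSq_le x z y (t := 1 / 2) (by norm_num) (by norm_num)
  norm_num at h
  exact h

variable (G : GeoData n M)

/-- the cost in two normal-coordinate variables -/
noncomputable def F (x : M) (q : TangentSpace (𝓡 n) x × TangentSpace (𝓡 n) x) : ℝ :=
  halfDistSq (G.ex x q.1) (G.ex x q.2)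

theorem contMDiffAt_swap {a b : M}
    (h : ContMDiffAt ((𝓡 n).prod (𝓡 n)) 𝓘(ℝ) ∞ (fun q : M × M => halfDistSq q.1 q.2) (a, b)) :
    ContMDiffAt ((𝓡 n).prod (𝓡 n)) 𝓘(ℝ) ∞ (fun q : M × M => halfDistSq q.1 q.2) (b, a) := by
  have h1 : ContMDiffAt ((𝓡 n).prod (𝓡 n)) ((𝓡 n).prod (𝓡 n)) ∞
      (fun q : M × M => (q.2, q.1)) (b, a) := contMDiffAt_snd.prodMk contMDiffAt_fst
  have h2 := ContMDiffAt.comp (b, a) (g := fun q : M × M => halfDistSq q.1 q.2)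
    (f := fun q : M × M => (q.2, q.1)) h h1
  have h3 : (fun q : M × M => halfDistSq q.1 q.2) =
      (fun q : M × M => halfDistSq q.1 q.2) ∘ fun q : M × M => (q.2, q.1) := by
    funext q; simp [halfDistSq_comm q.1 q.2]
  rw [h3]; exact h2

/-- T1: smoothness of the cost in normal coordinates at a pair of smooth points -/
theorem contDiffAt_F {x : M} {a b : TangentSpace (𝓡 n) x}
    (h : ContMDiffAt ((𝓡 n).prod (𝓡 n)) 𝓘(ℝ) ∞ (fun q : M × M => halfDistSq q.1 q.2)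
      (G.ex x a, G.ex x b)) : ContDiffAt ℝ ∞ (F G x) (a, b) := by
  rw [← contMDiffAt_iff_contDiffAt]
  have h1 : ContMDiffAt 𝓘(ℝ, TangentSpace (𝓡 n) x × TangentSpace (𝓡 n) x)
      𝓘(ℝ, TangentSpace (𝓡 n) x) ∞
      (fun p : TangentSpace (𝓡 n) x × TangentSpace (𝓡 n) x => p.1) (a, b) := by
    rw [contMDiffAt_iff_contDiffAt]; exact contDiffAt_fst
  have h2 : ContMDiffAt 𝓘(ℝ, TangentSpace (𝓡 n) x × TangentSpace (𝓡 n) x)
      𝓘(ℝ, TangentSpace (𝓡 n) x) ∞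
      (fun p : TangentSpace (𝓡 n) x × TangentSpace (𝓡 n) x => p.2) (a, b) := by
    rw [contMDiffAt_iff_contDiffAt]; exact contDiffAt_snd
  have h3 := ((contMDiff_ex G x).contMDiffAt (x := a)).comp (a, b) h1
  have h4 := ((contMDiff_ex G x).contMDiffAt (x := b)).comp (a, b) h2
  exact ContMDiffAt.comp (a, b) (g := fun q : M × M => halfDistSq q.1 q.2) h (h3.prodMk h4)

variable {G}

theorem Base.isOpen_I (hB : Base G) (x : M) : IsOpen (G.I x) :=
  hB.isOpen_IT.preimage (contMDiff_fiber x).continuous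

theorem zero_mem_K (x : M) : (0 : TangentSpace (𝓡 n) x) ∈ G.K x := by
  show dist x (G.ex x 0) = ‖(0 : TangentSpace (𝓡 n) x)‖
  rw [G.ex_zero]; simp

/-- `t • v ∈ I x` if `v ∈ K x` and `0 ≤ t < 1` -/
theorem Base.smul_mem_I (hB : Base G) {x : M} {v : TangentSpace (𝓡 n) x} (hv : v ∈ G.K x)
    {t : ℝ} (h0 : 0 ≤ t) (h1 : t < 1) : t • v ∈ G.I x := by
  refine ⟨2 / (1 + t), ?_, ?_⟩
  · rw [lt_div_iff₀ (by linarith)]; linarith
  · rw [smul_smul]
    apply hB.star x v hv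
    · positivity
    · rw [div_mul_eq_mul_div, div_le_one (by linarith)]; linarith

/-- smoothness of the cost at `(exp_x (t v), exp_x v)` for `v ∈ K x`, `0 < t ≤ 1` -/
theorem Base.smooth_mid (hB : Base G) {x : M} {v : TangentSpace (𝓡 n) x} (hv : v ∈ G.K x)
    {t : ℝ} (h0 : 0 < t) (h1 : t ≤ 1) :
    ContMDiffAt ((𝓡 n).prod (𝓡 n)) 𝓘(ℝ) ∞ (fun q : M × M => halfDistSq q.1 q.2)
      (G.ex x (t • v), G.ex x v) := by
  have hI : (1 - t) • (-(G.vel x v 1)) ∈ G.I (G.ex x ((1 : ℝ) • v)) :=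
    hB.smul_mem_I (hB.rev x v hv) (by linarith) (by linarith)
  have h2 := hB.smooth_cost _ _ hI
  rw [hB.rev_ex x v (1 - t)] at h2
  have e1 : 1 - (1 - t) = t := by ring
  rw [e1, one_smul] at h2
  exact contMDiffAt_swap h2

/-- `F` is smooth at `(t v, v)` for `v ∈ K x`, `0 < t ≤ 1` -/
theorem Base.contDiffAt_F_mid (hB : Base G) {x : M} {v : TangentSpace (𝓡 n) x} (hv : v ∈ G.K x)
    {t : ℝ} (h0 : 0 < t) (h1 : t ≤ 1) : ContDiffAt ℝ ∞ (F G x) (t • v, v) :=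
  contDiffAt_F G (hB.smooth_mid hv h0 h1)

/-- `F` is smooth at `(0, b)` for `b ∈ I x` -/
theorem Base.contDiffAt_F_zero (hB : Base G) {x : M} {b : TangentSpace (𝓡 n) x}
    (hb : b ∈ G.I x) : ContDiffAt ℝ ∞ (F G x) (0, b) := by
  apply contDiffAt_F G
  rw [G.ex_zero]
  exact hB.smooth_cost x b hb

theorem halfDistSq_of_mem_K {x : M} {v : TangentSpace (𝓡 n) x} (hv : v ∈ G.K x) :
    halfDistSq x (G.ex x v) = ‖v‖ ^ 2 / 2 := by
  unfold halfDistSq
  rw [show dist x (G.ex x v) = ‖v‖ from hv]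

theorem halfDistSq_ex_le (x : M) (v : TangentSpace (𝓡 n) x) :
    halfDistSq x (G.ex x v) ≤ ‖v‖ ^ 2 / 2 := by
  unfold halfDistSq
  have h := G.dist_le x v 0 1
  simp only [zero_smul, G.ex_zero, one_smul, zero_sub, abs_neg, abs_one, one_mul] at h
  have h2 : dist x (G.ex x v) ^ 2 ≤ ‖v‖ ^ 2 := pow_le_pow_left₀ dist_nonneg h 2
  linarith

/-- distances along a minimising geodesic -/
theorem dist_of_mem_K {x : M} {v : TangentSpace (𝓡 n) x} (hv : v ∈ G.K x) {s t : ℝ}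
    (h0 : 0 ≤ s) (hst : s ≤ t) (h1 : t ≤ 1) :
    dist (G.ex x (s • v)) (G.ex x (t • v)) = (t - s) * ‖v‖ := by
  have a1 := G.dist_le x v 0 s
  have a2 := G.dist_le x v s t
  have a3 := G.dist_le x v t 1
  have hK : dist x (G.ex x v) = ‖v‖ := hv
  simp only [zero_smul, G.ex_zero, one_smul] at a1 a3
  have b1 : |0 - s| = s := by rw [zero_sub, abs_neg, abs_of_nonneg h0]
  have b2 : |s - t| = t - s := by rw [abs_sub_comm, abs_of_nonneg (by linarith)]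
  have b3 : |t - 1| = 1 - t := by rw [abs_sub_comm, abs_of_nonneg (by linarith)]
  rw [b1] at a1; rw [b2] at a2; rw [b3] at a3
  have c1 := dist_triangle4 x (G.ex x (s • v)) (G.ex x (t • v)) (G.ex x v)
  have hn : 0 ≤ ‖v‖ := norm_nonneg v
  apply le_antisymm a2
  rw [hK] at c1
  nlinarith

theorem halfDistSq_of_mem_K' {x : M} {v : TangentSpace (𝓡 n) x} (hv : v ∈ G.K x) {s t : ℝ}
    (h0 : 0 ≤ s) (hst : s ≤ t) (h1 : t ≤ 1) :
    halfDistSq (G.ex x (s • v)) (G.ex x (t • v)) = (t - s) ^ 2 * ‖v‖ ^ 2 / 2 := by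
  unfold halfDistSq
  rw [dist_of_mem_K hv h0 hst h1]; ring

theorem nc_eq (x : M) (p : TangentSpace (𝓡 n) x) :
    G.nc x p = fun ξ => F G x (ξ, p) := rfl

/-- the Hessian of `F` at `(0,b)`: mixed part -/
theorem Base.hess_F_mixed (hB : Base G) {x : M} {b : TangentSpace (𝓡 n) x} (hb : b ∈ G.I x)
    (ξ w : TangentSpace (𝓡 n) x) :
    hess (F G x) (0, b) (0, w) (ξ, 0) = -inner ℝ w ξ := by
  have h2 : ContDiffAt ℝ 2 (F G x) (0, b) := contDiffAt_infty.1 (hB.contDiffAt_F_zero hb) 2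
  apply hess_mixed h2 ξ w
  have hc : ContinuousAt (fun s : ℝ => b + s • w) 0 := by fun_prop
  have hev : ∀ᶠ s in 𝓝 (0 : ℝ), b + s • w ∈ G.I x := by
    apply hc.eventually
    show ∀ᶠ y in 𝓝 (b + (0 : ℝ) • w), y ∈ G.I x
    rw [zero_smul, add_zero]
    exact (hB.isOpen_I x).mem_nhds hb
  have h3 : (fun s : ℝ => fderiv ℝ (fun a' => F G x (a', b + s • w)) 0 ξ) =ᶠ[𝓝 0]
      fun s : ℝ => -inner ℝ (b + s • w) ξ := by
    filter_upwards [hev] with s hs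
    exact hB.nc_fderiv x _ hs ξ
  have h4 : HasDerivAt (fun s : ℝ => -inner ℝ (b + s • w) ξ) (-inner ℝ w ξ) 0 := by
    have h5 : (fun s : ℝ => -inner ℝ (b + s • w) ξ) =
        fun s : ℝ => -inner ℝ b ξ + s * (-inner ℝ w ξ) := by
      funext s
      rw [inner_add_left, real_inner_smul_left]; ring
    rw [h5]
    have := ((hasDerivAt_id (0 : ℝ)).mul_const (-inner ℝ w ξ)).const_add (-inner ℝ b ξ)
    simpa using this
  exact h4.congr_of_eventuallyEq h3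

theorem Base.sec_phi (hB : Base G) {x : M} {b : TangentSpace (𝓡 n) x} (hb : b ∈ G.I x)
    (ξ : TangentSpace (𝓡 n) x) : Sec (fun s : ℝ => F G x (s • ξ, b)) (G.phi x ξ b) := by
  have h2 : ContDiffAt ℝ 2 (F G x) (0, b) := contDiffAt_infty.1 (hB.contDiffAt_F_zero hb) 2
  have h := hess_fst h2 ξ
  simp only [zero_add] at h
  exact ⟨h.1, rfl⟩

theorem Base.hess_F_fst (hB : Base G) {x : M} {b : TangentSpace (𝓡 n) x} (hb : b ∈ G.I x)
    (ξ : TangentSpace (𝓡 n) x) :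
    hess (F G x) (0, b) (ξ, 0) (ξ, 0) = G.phi x ξ b := by
  have h2 : ContDiffAt ℝ 2 (F G x) (0, b) := contDiffAt_infty.1 (hB.contDiffAt_F_zero hb) 2
  have h := hess_fst h2 ξ
  simp only [zero_add] at h
  exact h.unique (hB.sec_phi hb ξ)

theorem Base.hess_F_snd (hB : Base G) {x : M} {b : TangentSpace (𝓡 n) x} (hb : b ∈ G.I x)
    (w : TangentSpace (𝓡 n) x) :
    hess (F G x) (0, b) (0, w) (0, w) = ‖w‖ ^ 2 := by
  have h2 : ContDiffAt ℝ 2 (F G x) (0, b) := contDiffAt_infty.1 (hB.contDiffAt_F_zero hb) 2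
  have h := hess_snd h2 w
  refine h.unique ((sec_norm_sq b w).congr ?_)
  have hc : ContinuousAt (fun s : ℝ => b + s • w) 0 := by fun_prop
  have hev : ∀ᶠ s in 𝓝 (0 : ℝ), b + s • w ∈ G.I x := by
    apply hc.eventually
    show ∀ᶠ y in 𝓝 (b + (0 : ℝ) • w), y ∈ G.I x
    rw [zero_smul, add_zero]
    exact (hB.isOpen_I x).mem_nhds hb
  filter_upwards [hev] with s hs
  show halfDistSq (G.ex x 0) (G.ex x (b + s • w)) = _
  rw [G.ex_zero]
  exact halfDistSq_of_mem_K (hB.I_subset x hs)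

/-- **the full Hessian of `F` at `(0,b)`** -/
theorem Base.hess_F (hB : Base G) {x : M} {b : TangentSpace (𝓡 n) x} (hb : b ∈ G.I x)
    (ξ w : TangentSpace (𝓡 n) x) :
    hess (F G x) (0, b) (ξ, w) (ξ, w) = G.phi x ξ b - 2 * inner ℝ w ξ + ‖w‖ ^ 2 := by
  have h2 : ContDiffAt ℝ 2 (F G x) (0, b) := contDiffAt_infty.1 (hB.contDiffAt_F_zero hb) 2
  rw [hess_expand h2, hB.hess_F_fst hb, hB.hess_F_mixed hb, hB.hess_F_snd hb]
  ring

/-- second derivative of `s ↦ c(exp_x (s ξ), exp_x (b + s w))` -/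
theorem Base.sec_F (hB : Base G) {x : M} {b : TangentSpace (𝓡 n) x} (hb : b ∈ G.I x)
    (ξ w : TangentSpace (𝓡 n) x) :
    Sec (fun s : ℝ => F G x (s • ξ, b + s • w)) (G.phi x ξ b - 2 * inner ℝ w ξ + ‖w‖ ^ 2) := by
  have h2 : ContDiffAt ℝ 2 (F G x) (0, b) := contDiffAt_infty.1 (hB.contDiffAt_F_zero hb) 2
  have h := Sec.comp_line h2 ((ξ, w) : TangentSpace (𝓡 n) x × TangentSpace (𝓡 n) x)
  rw [hB.hess_F hb] at h
  simpa using h

end Crest.Agent.R226.Base347
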