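/-
R226, Layer B, task B0 (helper90): first consequences of `NearDiag`.
-/
import Crest.Agent.R226.Defs_484

set_option autoImplicit false
set_option linter.unusedSectionVars false

open MeasureTheory Bundle Set
open scoped Manifold ContDiff Bundle ENNReal Topology
open Crest.GeometryTopology.MTW

namespace Crest.Agent.R226.NearLem90

variable {n : ℕ} {M : Type*} [MetricSpace M] [ChartedSpace (EuclideanSpace ℝ (Fin n)) M]
  [IsManifold (𝓡 n) ∞ M]
  [RiemannianBundle (fun p : M => TangentSpace (𝓡 n) p)]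

/-- symmetry of the cost -/
theorem halfDistSq_comm (x y : M) : halfDistSq x y = halfDistSq y x := by
  unfold halfDistSq; rw [dist_comm]

omit [IsManifold (𝓡 n) ∞ M] [RiemannianBundle (fun p : M => TangentSpace (𝓡 n) p)] in
/-- a curve with nonzero velocity is differentiable there -/
theorem mdiff_of_curveVel_ne_zero {γ : ℝ → M} {t : ℝ}
    (h : curveVel n γ t ≠ 0) : MDifferentiableAt 𝓘(ℝ, ℝ) (𝓡 n) γ t := by
  by_contra hcon
  apply h
  unfold curveVel
  rw [mfderiv_zero_of_not_mdifferentiableAt hcon]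
  rfl

theorem ne_zero_of_norm_ne_zero {x : M} {v : TangentSpace (𝓡 n) x} (h : ‖v‖ ≠ 0) : v ≠ 0 := by
  rintro rfl
  exact h norm_zero

variable (N : NearDiag n M)

include N in
theorem contMDiffAt_cost {x y : M} (h : dist x y < N.r₀) :
    ContMDiffAt ((𝓡 n).prod (𝓡 n)) 𝓘(ℝ) ∞ (fun q : M × M => halfDistSq q.1 q.2) (x, y) := by
  refine N.smooth_cost.contMDiffAt ?_
  exact (isOpen_lt (continuous_fst.dist continuous_snd) continuous_const).mem_nhds h

include N in
theorem contMDiffAt_cost_left {x y : M} (h : dist x y < N.r₀) :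
    ContMDiffAt (𝓡 n) 𝓘(ℝ) ∞ (fun x' : M => halfDistSq x' y) x := by
  have := (contMDiffAt_cost N h).comp x (contMDiffAt_id.prodMk contMDiffAt_const)
  exact this

include N in
theorem mdiffAt_cost_left {x y : M} (h : dist x y < N.r₀) :
    MDifferentiableAt (𝓡 n) 𝓘(ℝ) (fun x' : M => halfDistSq x' y) x :=
  (contMDiffAt_cost_left N h).mdifferentiableAt (by simp)

variable (n) in
/-- the differential of a real function, as a real-valued functional -/
noncomputable def dL (f : M → ℝ) (x : M) : TangentSpace (𝓡 n) x →L[ℝ] ℝ :=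
  mfderiv (𝓡 n) 𝓘(ℝ) f x

/-- chain rule along a curve, in `HasDerivAt` form -/
theorem hasDerivAt_comp_curve {f : M → ℝ} {γ : ℝ → M} {t : ℝ} {x : M} (hx : γ t = x)
    (hf : MDifferentiableAt (𝓡 n) 𝓘(ℝ) f x) (hγ : MDifferentiableAt 𝓘(ℝ, ℝ) (𝓡 n) γ t) :
    HasDerivAt (fun t' => f (γ t')) (dL n f x (curveVel n γ t)) t := by
  subst hx
  have h1 := (hf.hasMFDerivAt).comp t hγ.hasMFDerivAt
  have h2 : HasFDerivAt (fun t' => f (γ t'))
      (show ℝ →L[ℝ] ℝ from (mfderiv (𝓡 n) 𝓘(ℝ) f (γ t)).comp (mfderiv 𝓘(ℝ, ℝ) (𝓡 n) γ t)) t :=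
    h1.hasFDerivAt
  exact h2.hasDerivAt

/-- differential of the cost at the base point: `d_x c(·, e x v) = -⟪v, ·⟫`. -/
theorem mfderiv_cost_left {x : M} {v : TangentSpace (𝓡 n) x} (hv : ‖v‖ < N.r₀)
    (ξ : TangentSpace (𝓡 n) x) :
    dL n (fun x' : M => halfDistSq x' (N.e x v)) x ξ = -inner ℝ v ξ := by
  have hd : dist x (N.e x v) < N.r₀ := by
    have := N.dist_eq x v hv 0 1 (by simp) (by simp)
    rw [zero_smul, one_smul, N.e_zero] at this
    rw [this]; simpa using hv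
  have hf := mdiffAt_cost_left N hd
  -- small vectors first
  have key : ∀ ξ : TangentSpace (𝓡 n) x, ‖ξ‖ < N.r₀ →
      dL n (fun x' : M => halfDistSq x' (N.e x v)) x ξ = -inner ℝ v ξ := by
    intro ξ hξ
    by_cases h0 : ξ = 0
    · subst h0; rw [map_zero, inner_zero_right, neg_zero]
    have hx : (fun t : ℝ => N.e x (t • ξ)) 0 = x := by
      simp only [zero_smul]; exact N.e_zero x
    have hvel : curveVel n (fun t : ℝ => N.e x (t • ξ)) 0 = ξ := N.vel_zero x ξ hξ
    have hγ : MDifferentiableAt 𝓘(ℝ, ℝ) (𝓡 n) (fun t : ℝ => N.e x (t • ξ)) 0 := by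
      apply mdiff_of_curveVel_ne_zero
      intro h; exact h0 (hvel.symm.trans h)
    have h1 := hasDerivAt_comp_curve hx hf hγ
    have h2 := N.hasDerivAt_cost x v ξ hv hξ
    have h3 := h1.unique h2
    rw [← h3]
    exact congrArg _ hvel.symm
  -- scaling
  obtain ⟨δ, hδ, hδξ⟩ : ∃ δ : ℝ, 0 < δ ∧ ‖δ • ξ‖ < N.r₀ := by
    refine ⟨N.r₀ / 2 / (‖ξ‖ + 1), ?_, ?_⟩
    · have := N.r₀_pos; positivity
    · have h0 := N.r₀_pos
      rw [norm_smul, Real.norm_of_nonneg (by positivity)]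
      rw [div_mul_eq_mul_div, div_lt_iff₀ (by positivity)]
      nlinarith [norm_nonneg ξ]
  have h := key (δ • ξ) hδξ
  rw [map_smul, inner_smul_right, smul_eq_mul] at h
  have h' : δ * (dL n (fun x' : M => halfDistSq x' (N.e x v)) x ξ) = δ * (-inner ℝ v ξ) := by
    rw [h]; ring
  exact mul_left_cancel₀ hδ.ne' h'

/-- first variation along any differentiable curve -/
theorem hasDerivAt_cost_curve {γ : ℝ → M} {t : ℝ} (hγ : MDifferentiableAt 𝓘(ℝ, ℝ) (𝓡 n) γ t)
    {v : TangentSpace (𝓡 n) (γ t)} (hv : ‖v‖ < N.r₀) :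
    HasDerivAt (fun t' => halfDistSq (γ t') (N.e (γ t) v)) (-inner ℝ v (curveVel n γ t)) t := by
  have hd : dist (γ t) (N.e (γ t) v) < N.r₀ := by
    have := N.dist_eq (γ t) v hv 0 1 (by simp) (by simp)
    rw [zero_smul, one_smul, N.e_zero] at this
    rw [this]; simpa using hv
  have h1 := hasDerivAt_comp_curve (x := γ t) rfl (mdiffAt_cost_left N hd) hγ
  rw [mfderiv_cost_left N hv] at h1
  exact h1

include N in
theorem dist_e {x : M} {v : TangentSpace (𝓡 n) x} (hv : ‖v‖ < N.r₀) :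
    dist x (N.e x v) = ‖v‖ := by
  have := N.dist_eq x v hv 0 1 (by simp) (by simp)
  rw [zero_smul, one_smul, N.e_zero] at this
  rw [this]; simp

/-- distance from the centre along the radial curve -/
theorem dist_e_smul {x : M} {v : TangentSpace (𝓡 n) x} (hv : ‖v‖ < N.r₀) {t : ℝ} (ht : |t| ≤ 1) :
    dist x (N.e x (t • v)) = |t| * ‖v‖ := by
  have := N.dist_eq x v hv 0 t (by simp) ht
  rw [zero_smul, N.e_zero] at this
  rw [this]; simp

end Crest.Agent.R226.NearLem90
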