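/-
R226, Layer B, task B1 (helper90): the small flow property.
-/
import Crest.Agent.R226.NearLem_90

set_option autoImplicit false
set_option linter.unusedSectionVars false

open MeasureTheory Bundle Set
open scoped Manifold ContDiff Bundle ENNReal Topology
open Crest.GeometryTopology.MTW

namespace Crest.Agent.R226.SmallFlow90

open NearLem90

variable {n : ℕ} {M : Type*} [MetricSpace M] [ChartedSpace (EuclideanSpace ℝ (Fin n)) M]
  [IsManifold (𝓡 n) ∞ M]
  [RiemannianBundle (fun p : M => TangentSpace (𝓡 n) p)]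

variable (N : NearDiag n M)

/-- the velocity of the zero radial curve is zero -/
theorem curveVel_const (x : M) (t : ℝ) : curveVel n (fun _ : ℝ => x) t = 0 := by
  unfold curveVel
  rw [mfderiv_const]
  rfl

/-- equality case of Cauchy–Schwarz, in the form needed -/
theorem eq_of_inner {V : Type*} [NormedAddCommGroup V] [InnerProductSpace ℝ V] {w u : V}
    {s a : ℝ} (hw : ‖w‖ = |s| * a) (hu : ‖u‖ = a) (h : inner ℝ w u = s * a ^ 2) :
    w = s • u := by
  have h1 : ‖w - s • u‖ ^ 2 = 0 := by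
    rw [norm_sub_sq_real, inner_smul_right, h, hw, norm_smul, hu, Real.norm_eq_abs]
    have : |s| ^ 2 = s ^ 2 := sq_abs s
    nlinarith [this]
  have h2 : ‖w - s • u‖ = 0 := by
    exact pow_eq_zero_iff (two_ne_zero) |>.1 h1
  exact sub_eq_zero.1 (norm_eq_zero.1 h2)

/-- the small flow property -/
theorem small_flow (x : M) (v : TangentSpace (𝓡 n) x) (hv : ‖v‖ < N.r₀) (t s : ℝ)
    (ht : |t| ≤ 1) (hs : |s| ≤ 1) (hts : |t + s| ≤ 1) :
    N.e (N.e x (t • v)) (s • curveVel n (fun t : ℝ => N.e x (t • v)) t) = N.e x ((t + s) • v) := by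
  by_cases h0 : v = 0
  · subst h0
    have h1 : (fun t : ℝ => N.e x (t • (0 : TangentSpace (𝓡 n) x))) = fun _ => x := by
      funext t; rw [smul_zero, N.e_zero]
    have h2 : curveVel n (fun t : ℝ => N.e x (t • (0 : TangentSpace (𝓡 n) x))) t = 0 := by
      apply norm_eq_zero.1
      rw [N.norm_vel x 0 hv t ht, norm_zero]
    rw [h2, smul_zero, N.e_zero, smul_zero, smul_zero]
  have hvn : ‖v‖ ≠ 0 := fun h => h0 (norm_eq_zero.1 h)
  set γ : ℝ → M := fun t : ℝ => N.e x (t • v) with hγdef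
  have hγv : ‖curveVel n γ t‖ = ‖v‖ := N.norm_vel x v hv t ht
  have hγd : MDifferentiableAt 𝓘(ℝ, ℝ) (𝓡 n) γ t := by
    apply mdiff_of_curveVel_ne_zero
    intro h
    rw [h, norm_zero] at hγv
    exact hvn hγv.symm
  have hdist : dist (γ t) (γ (t + s)) = |s| * ‖v‖ := by
    rw [N.dist_eq x v hv t (t + s) ht hts]
    congr 1
    rw [show t - (t + s) = -s by ring, abs_neg]
  have hlt : |s| * ‖v‖ < N.r₀ := by
    calc |s| * ‖v‖ ≤ 1 * ‖v‖ := by gcongr
      _ < N.r₀ := by simpa using hv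
  obtain ⟨w, hw, hwe⟩ := N.surj (γ t) (γ (t + s)) (by rw [hdist]; exact hlt)
  rw [hdist] at hw
  have hw' : ‖w‖ < N.r₀ := by rw [hw]; exact hlt
  have hd1 := hasDerivAt_cost_curve N hγd hw'
  rw [hwe] at hd1
  have hd2 : HasDerivWithinAt (fun t' => halfDistSq (γ t') (γ (t + s))) (-(s * ‖v‖ ^ 2))
      (Icc (-1) 1) t := by
    have h1 : HasDerivAt (fun t' : ℝ => (t' - (t + s)) ^ 2 * ‖v‖ ^ 2 / 2) (-(s * ‖v‖ ^ 2)) t := by
      have := ((((hasDerivAt_id t).sub_const (t + s)).pow 2).mul_const (‖v‖ ^ 2)).div_const 2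
      refine this.congr_deriv ?_
      simp only [id]
      push_cast
      ring
    refine h1.hasDerivWithinAt.congr_of_mem ?_ (abs_le.1 ht)
    intro t' ht'
    have : dist (γ t') (γ (t + s)) = |t' - (t + s)| * ‖v‖ :=
      N.dist_eq x v hv t' (t + s) (abs_le.2 ht') hts
    unfold halfDistSq
    rw [this, mul_pow, sq_abs]
  have hu : UniqueDiffWithinAt ℝ (Icc (-1 : ℝ) 1) t :=
    (uniqueDiffOn_Icc (by norm_num)) t (abs_le.1 ht)
  have heq := hu.eq_deriv _ hd1.hasDerivWithinAt hd2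
  have hin : inner ℝ w (curveVel n γ t) = s * ‖v‖ ^ 2 := by linarith
  have hfin : w = s • curveVel n γ t := eq_of_inner hw hγv hin
  rw [← hfin]
  exact hwe

end Crest.Agent.R226.SmallFlow90
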