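/-
R226, Layer B, task B1 (helper90): the fields `zero, norm, add, scale` of `SmallFlow`.
-/
import Crest.Agent.R226.SmallFlow_90
import Crest.Agent.R226.BDefs_542

set_option autoImplicit false
set_option linter.unusedSectionVars false

open MeasureTheory Bundle Set Filter
open scoped Manifold ContDiff Bundle ENNReal Topology
open Crest.GeometryTopology.MTW

namespace Crest.Agent.R226.SmallFlow90

open NearLem90

variable {n : ℕ} {M : Type*} [MetricSpace M] [ChartedSpace (EuclideanSpace ℝ (Fin n)) M]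
  [IsManifold (𝓡 n) ∞ M]
  [RiemannianBundle (fun p : M => TangentSpace (𝓡 n) p)]

variable (n) in
/-- the lift of a curve to the tangent bundle -/
noncomputable def curveT (γ : ℝ → M) (t : ℝ) : TangentBundle (𝓡 n) M := ⟨γ t, curveVel n γ t⟩

theorem mk_congr {x y : M} {v : TangentSpace (𝓡 n) x} {w : TangentSpace (𝓡 n) y} (h : x = y)
    (hv : (v : EuclideanSpace ℝ (Fin n)) = w) :
    (⟨x, v⟩ : TangentBundle (𝓡 n) M) = ⟨y, w⟩ := by
  subst h
  have : v = w := hv
  rw [this]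

theorem curveT_congr {γ σ : ℝ → M} {t : ℝ} (h : γ =ᶠ[𝓝 t] σ) : curveT n γ t = curveT n σ t := by
  refine mk_congr h.eq_of_nhds ?_
  have := h.mfderiv_eq (I := 𝓘(ℝ, ℝ)) (I' := 𝓡 n)
  unfold curveVel
  exact congrArg (fun L : ℝ →L[ℝ] EuclideanSpace ℝ (Fin n) => L 1) this

theorem comp_affine_aux (L : ℝ →L[ℝ] EuclideanSpace ℝ (Fin n)) (a : ℝ) :
    (L.comp (ContinuousLinearMap.toSpanSingleton ℝ a)) 1 = a • L 1 := by
  rw [ContinuousLinearMap.comp_apply, ContinuousLinearMap.toSpanSingleton_apply, one_smul,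
    ← L.map_smul, smul_eq_mul, mul_one]

theorem hasMFDerivAt_affine (a b t : ℝ) : HasMFDerivAt 𝓘(ℝ, ℝ) 𝓘(ℝ, ℝ) (fun t : ℝ => t * a + b) t
    (ContinuousLinearMap.toSpanSingleton ℝ a : ℝ →L[ℝ] ℝ) := by
  have h : HasDerivAt (fun t : ℝ => t * a + b) a t := by
    simpa using ((hasDerivAt_id t).mul_const a).add_const b
  exact h.hasFDerivAt.hasMFDerivAt

theorem curveVel_comp_affine (γ : ℝ → M) (a b t : ℝ) :
    (curveVel n (fun t => γ (t * a + b)) t : EuclideanSpace ℝ (Fin n)) =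
      a • (curveVel n γ (t * a + b) : EuclideanSpace ℝ (Fin n)) := by
  by_cases hd : MDifferentiableAt 𝓘(ℝ, ℝ) (𝓡 n) γ (t * a + b)
  · have h1 := hd.hasMFDerivAt.comp t (hasMFDerivAt_affine a b t)
    have h2 := congrArg (fun L : ℝ →L[ℝ] EuclideanSpace ℝ (Fin n) => L 1) h1.mfderiv
    exact h2.trans (comp_affine_aux _ a)
  · by_cases ha : a = 0
    · subst ha
      have h1 : (fun t : ℝ => γ (t * 0 + b)) = fun _ => γ b := by funext t; simp
      have h2 : curveVel n (fun t : ℝ => γ (t * 0 + b)) t = 0 := by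
        unfold curveVel
        rw [h1, mfderiv_const]; rfl
      rw [zero_smul]
      exact h2
    · have hnd : ¬ MDifferentiableAt 𝓘(ℝ, ℝ) (𝓡 n) (fun t => γ (t * a + b)) t := by
        intro hcon
        apply hd
        have h3 : MDifferentiableAt 𝓘(ℝ, ℝ) 𝓘(ℝ, ℝ) (fun u : ℝ => u * a⁻¹ + (-b * a⁻¹)) (t * a + b) :=
          (hasMFDerivAt_affine a⁻¹ (-b * a⁻¹) (t * a + b)).mdifferentiableAt
        have h4 : (t * a + b) * a⁻¹ + (-b * a⁻¹) = t := by field_simp; ring
        have h5 := MDifferentiableAt.comp (t * a + b) (g := fun t => γ (t * a + b))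
          (f := fun u : ℝ => u * a⁻¹ + (-b * a⁻¹)) (I' := 𝓘(ℝ, ℝ)) (by rw [h4]; exact hcon) h3
        have h6 : (fun t => γ (t * a + b)) ∘ (fun u : ℝ => u * a⁻¹ + (-b * a⁻¹)) = γ := by
          funext u; simp only [Function.comp]; congr 1; field_simp; ring
        rwa [h6] at h5
      have e1 : curveVel n (fun t : ℝ => γ (t * a + b)) t = 0 := by
        unfold curveVel
        rw [mfderiv_zero_of_not_mdifferentiableAt hnd]; rfl
      have e2 : curveVel n γ (t * a + b) = 0 := by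
        unfold curveVel
        rw [mfderiv_zero_of_not_mdifferentiableAt hd]; rfl
      have e2' : (curveVel n γ (t * a + b) : EuclideanSpace ℝ (Fin n)) = 0 := e2
      rw [e2', smul_zero]
      exact e1

/-- reparametrisation `t ↦ t * a + b` -/
theorem curveT_comp_affine (γ : ℝ → M) (a b t : ℝ) :
    curveT n (fun t => γ (t * a + b)) t = scaleT a (curveT n γ (t * a + b)) :=
  mk_congr rfl (curveVel_comp_affine γ a b t)

theorem curveT_comp_mul (γ : ℝ → M) (a t : ℝ) :
    curveT n (fun t => γ (t * a)) t = scaleT a (curveT n γ (t * a)) := by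
  have := curveT_comp_affine (n := n) γ a 0 t
  simpa using this

theorem scaleT_one (p : TangentBundle (𝓡 n) M) : scaleT 1 p = p := by
  unfold scaleT; rw [one_smul]

theorem curveT_comp_add (γ : ℝ → M) (b t : ℝ) :
    curveT n (fun t => γ (t + b)) t = curveT n γ (t + b) := by
  have := curveT_comp_affine (n := n) γ 1 b t
  rw [scaleT_one] at this
  simpa using this

theorem radial_eq (e : ∀ x : M, TangentSpace (𝓡 n) x → M) (t : ℝ) (p : TangentBundle (𝓡 n) M) :
    radial e t p = curveT n (fun t : ℝ => e p.1 (t • p.2)) t := rfl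

/-- field `scale` -/
theorem radial_scale (e : ∀ x : M, TangentSpace (𝓡 n) x → M) (a t : ℝ)
    (p : TangentBundle (𝓡 n) M) :
    radial e t (scaleT a p) = scaleT a (radial e (t * a) p) := by
  rw [radial_eq, radial_eq, ← curveT_comp_mul]
  congr 1
  funext t
  change e p.1 (t • a • p.2) = e p.1 ((t * a) • p.2)
  rw [smul_smul]

theorem norm_scaleT (a : ℝ) (p : TangentBundle (𝓡 n) M) : ‖(scaleT a p).2‖ = |a| * ‖p.2‖ := by
  change ‖a • p.2‖ = _
  rw [norm_smul, Real.norm_eq_abs]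

theorem scaleT_scaleT (a b : ℝ) (p : TangentBundle (𝓡 n) M) :
    scaleT a (scaleT b p) = scaleT (a * b) p := by
  unfold scaleT
  rw [smul_smul]

variable (N : NearDiag n M)

/-- normalisation: if `|t|‖v‖<r₀` then `p = scaleT a q` with `‖q.2‖ < r₀`, `|t a| ≤ 1`, `a > 0` -/
theorem exists_scale (p : TangentBundle (𝓡 n) M) (T : ℝ) (hT : 0 ≤ T) (h : T * ‖p.2‖ < N.r₀) :
    ∃ a : ℝ, ∃ q : TangentBundle (𝓡 n) M, 0 < a ∧ p = scaleT a q ∧ ‖q.2‖ < N.r₀ ∧ T * a ≤ 1 := by
  have hr := N.r₀_pos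
  obtain ⟨a, ha, h1, h2⟩ : ∃ a : ℝ, 0 < a ∧ ‖p.2‖ < a * N.r₀ ∧ T * a ≤ 1 := by
    rcases hT.eq_or_lt with h0 | h0
    · refine ⟨(‖p.2‖ + 1) / N.r₀, by positivity, ?_, by rw [← h0]; simp⟩
      rw [div_mul_cancel₀ _ hr.ne']; linarith
    · refine ⟨1 / T, by positivity, ?_, by rw [mul_one_div_cancel h0.ne']⟩
      rw [one_div_mul_eq_div, lt_div_iff₀ h0]; linarith
  refine ⟨a, scaleT a⁻¹ p, ha, ?_, ?_, h2⟩
  · rw [scaleT_scaleT, mul_inv_cancel₀ ha.ne', scaleT_one]
  · rw [norm_scaleT, abs_of_pos (inv_pos.2 ha), inv_mul_lt_iff₀ ha]; exact h1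

/-- field `zero` -/
theorem radial_zero (p : TangentBundle (𝓡 n) M) : radial N.e 0 p = p := by
  obtain ⟨a, q, ha, rfl, hq, -⟩ := exists_scale N p 0 le_rfl (by simpa using N.r₀_pos)
  rw [radial_scale, zero_mul]
  have : radial N.e 0 q = q := by
    refine mk_congr ?_ ?_
    · rw [zero_smul, N.e_zero]
    · exact N.vel_zero q.1 q.2 hq
  rw [this]

/-- field `norm` -/
theorem radial_norm (t : ℝ) (p : TangentBundle (𝓡 n) M) (h : |t| * ‖p.2‖ < N.r₀) :
    ‖(radial N.e t p).2‖ = ‖p.2‖ := by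
  obtain ⟨a, q, ha, rfl, hq, hta⟩ := exists_scale N p |t| (abs_nonneg t) h
  rw [radial_scale, norm_scaleT, norm_scaleT]
  congr 1
  exact N.norm_vel q.1 q.2 hq (t * a) (by rw [abs_mul, abs_of_pos ha]; exact hta)

/-- field `add`, first component -/
theorem radial_add_fst (t s : ℝ) (p : TangentBundle (𝓡 n) M) (ht : |t| * ‖p.2‖ < N.r₀)
    (hs : |s| * ‖p.2‖ < N.r₀) (hts : |t + s| * ‖p.2‖ < N.r₀) :
    (radial N.e s (radial N.e t p)).1 = (radial N.e (t + s) p).1 := by
  obtain ⟨a, q, ha, rfl, hq, hta⟩ := exists_scale N p (max (max |t| |s|) |t + s|) (by positivity)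
    (by rw [max_mul_of_nonneg _ _ (norm_nonneg _), max_mul_of_nonneg _ _ (norm_nonneg _)]
        exact max_lt (max_lt ht hs) hts)
  rw [radial_scale, radial_scale, radial_scale]
  have h1 : |t * a| ≤ 1 := by
    rw [abs_mul, abs_of_pos ha]
    exact (mul_le_mul_of_nonneg_right ((le_max_left _ _).trans (le_max_left _ _)) ha.le).trans hta
  have h2 : |s * a| ≤ 1 := by
    rw [abs_mul, abs_of_pos ha]
    exact (mul_le_mul_of_nonneg_right ((le_max_right _ _).trans (le_max_left _ _)) ha.le).trans hta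
  have h3 : |t * a + s * a| ≤ 1 := by
    rw [← add_mul, abs_mul, abs_of_pos ha]
    exact (mul_le_mul_of_nonneg_right (le_max_right _ _) ha.le).trans hta
  have := small_flow N q.1 q.2 hq (t * a) (s * a) h1 h2 h3
  rw [add_mul]
  exact this

/-- field `add` -/
theorem radial_add (t s : ℝ) (p : TangentBundle (𝓡 n) M) (ht : |t| * ‖p.2‖ < N.r₀)
    (hs : |s| * ‖p.2‖ < N.r₀) (hts : |t + s| * ‖p.2‖ < N.r₀) :
    radial N.e s (radial N.e t p) = radial N.e (t + s) p := by
  rw [radial_eq N.e s, radial_eq N.e (t + s), add_comm t s,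
    ← curveT_comp_add (fun t : ℝ => N.e p.1 (t • p.2)) t s]
  refine curveT_congr ?_
  have hev : ∀ᶠ s' in 𝓝 s, |s'| * ‖p.2‖ < N.r₀ ∧ |t + s'| * ‖p.2‖ < N.r₀ := by
    have c1 : Continuous (fun s' : ℝ => |s'| * ‖p.2‖) := by fun_prop
    have c2 : Continuous (fun s' : ℝ => |t + s'| * ‖p.2‖) := by fun_prop
    exact (c1.continuousAt.eventually_lt continuousAt_const hs).and
      (c2.continuousAt.eventually_lt continuousAt_const hts)
  filter_upwards [hev] with s' hs'
  have := radial_add_fst N t s' p ht hs'.1 hs'.2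
  rw [add_comm s' t]
  exact this

end Crest.Agent.R226.SmallFlow90
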