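/-
R226 task C5 (helper347), part 1: critical points of `N(w,b) = |w|² + 2 c(exp_x w, exp_x b)`.
-/
import Crest.Agent.R226.Base_347
import Crest.Agent.R226.SmallFlow2_90
import Crest.Agent.R226.RadialSmooth_542

set_option autoImplicit false

open MeasureTheory Bundle Set Filter
open scoped Manifold ContDiff Bundle ENNReal Topology
open Crest.GeometryTopology.MTW
open Crest.Agent.R226.Calc347 Crest.Agent.R226.MTWConc117 Crest.Agent.R226.Base347

namespace Crest.Agent.R226.Crit347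

variable {n : ℕ} {M : Type*} [MetricSpace M] [ChartedSpace (EuclideanSpace ℝ (Fin n)) M]
  [IsManifold (𝓡 n) ∞ M]
  [RiemannianBundle (fun p : M => TangentSpace (𝓡 n) p)]
  {G : GeoData n M}

variable (G) in
/-- twice the two-step energy through the intermediate point `exp_x w` -/
noncomputable def N (x : M) (q : TangentSpace (𝓡 n) x × TangentSpace (𝓡 n) x) : ℝ :=
  ‖q.1‖ ^ 2 + 2 * F G x q

theorem contDiffAt_N {x : M} {q : TangentSpace (𝓡 n) x × TangentSpace (𝓡 n) x}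
    (h : ContDiffAt ℝ ∞ (F G x) q) : ContDiffAt ℝ ∞ (N G x) q := by
  have h1 : ContDiffAt ℝ ∞
      (fun q : TangentSpace (𝓡 n) x × TangentSpace (𝓡 n) x => ‖q.1‖ ^ 2) q :=
    (contDiff_norm_sq ℝ).contDiffAt.comp q contDiffAt_fst
  exact h1.add (contDiffAt_const.mul h)

/-- derivative along a line in the first variable -/
theorem hasDerivAt_line {x : M} {g : TangentSpace (𝓡 n) x × TangentSpace (𝓡 n) x → ℝ}
    {a b : TangentSpace (𝓡 n) x} (hg : DifferentiableAt ℝ g (a, b)) (η : TangentSpace (𝓡 n) x) :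
    HasDerivAt (fun s : ℝ => g (a + s • η, b)) (fderiv ℝ g (a, b) (η, 0)) 0 := by
  have h1 : HasDerivAt (fun s : ℝ => (a + s • η, b)) (η, (0 : TangentSpace (𝓡 n) x)) 0 := by
    have h2 : HasDerivAt (fun s : ℝ => a + s • η) η 0 := by
      have := ((hasDerivAt_id (0 : ℝ)).smul_const η).const_add a
      simpa using this
    exact h2.prodMk (hasDerivAt_const (0 : ℝ) b)
  have h3 : DifferentiableAt ℝ g (a + (0 : ℝ) • η, b) := by simpa using hg
  have h4 := h3.hasFDerivAt.comp_hasDerivAt (0 : ℝ) h1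
  have e : (a + (0 : ℝ) • η, b) = (a, b) := by simp
  rw [e] at h4
  exact h4

/-- critical point of `N(·,b)` at the midpoint of a minimising geodesic to `exp_x b` -/
theorem crit_min {x : M} {v b : TangentSpace (𝓡 n) x} (hv : v ∈ G.K x)
    (hvb : G.ex x v = G.ex x b)
    (hd : DifferentiableAt ℝ (N G x) ((1 / 2 : ℝ) • v, b)) (η : TangentSpace (𝓡 n) x) :
    fderiv ℝ (N G x) ((1 / 2 : ℝ) • v, b) (η, 0) = 0 := by
  have h1 := hasDerivAt_line hd η
  have hmin : IsLocalMin (fun s : ℝ => N G x ((1 / 2 : ℝ) • v + s • η, b)) 0 := by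
    refine Eventually.of_forall fun s => ?_
    show N G x ((1 / 2 : ℝ) • v + (0 : ℝ) • η, b) ≤ N G x ((1 / 2 : ℝ) • v + s • η, b)
    rw [zero_smul, add_zero]
    have e1 : N G x ((1 / 2 : ℝ) • v, b) = ‖v‖ ^ 2 / 2 := by
      unfold N F
      have h2 := halfDistSq_of_mem_K' hv (s := 1 / 2) (t := 1) (by norm_num) (by norm_num) le_rfl
      rw [one_smul] at h2
      show ‖(1 / 2 : ℝ) • v‖ ^ 2 + 2 * halfDistSq (G.ex x ((1 / 2 : ℝ) • v)) (G.ex x b) = _
      rw [← hvb, h2, norm_smul]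
      norm_num
      ring
    rw [e1]
    have h3 := halfDistSq_le_two x (G.ex x ((1 / 2 : ℝ) • v + s • η)) (G.ex x b)
    have h4 := halfDistSq_ex_le (G := G) x ((1 / 2 : ℝ) • v + s • η)
    have h5 := halfDistSq_of_mem_K hv
    rw [hvb] at h5
    unfold N F
    show ‖v‖ ^ 2 / 2 ≤ ‖(1 / 2 : ℝ) • v + s • η‖ ^ 2 +
      2 * halfDistSq (G.ex x ((1 / 2 : ℝ) • v + s • η)) (G.ex x b)
    linarith
  exact h1.deriv ▸ hmin.deriv_eq_zero

/-- derivative of the cost in the first normal coordinate -/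
theorem hasDerivAt_nc (hB : Base G) {z : M} {b : TangentSpace (𝓡 n) z} (hb : b ∈ G.I z)
    (v : TangentSpace (𝓡 n) z) :
    HasDerivAt (fun s : ℝ => halfDistSq (G.ex z (s • v)) (G.ex z b)) (-inner ℝ b v) 0 := by
  have h1 : DifferentiableAt ℝ (F G z) (0, b) :=
    (contDiffAt_infty.1 (hB.contDiffAt_F_zero hb) 1).differentiableAt (by norm_num)
  have h2 := hasDerivAt_line h1 v
  rw [fderiv_fst h1 v] at h2
  have h3 : fderiv ℝ (fun a' : TangentSpace (𝓡 n) z => F G z (a', b)) 0 v = -inner ℝ b v :=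
    hB.nc_fderiv z b hb v
  rw [h3] at h2
  simp only [zero_add] at h2
  exact h2

theorem mdiffAt_cost_of_smooth {z y : M}
    (h : ContMDiffAt ((𝓡 n).prod (𝓡 n)) 𝓘(ℝ) ∞ (fun q : M × M => halfDistSq q.1 q.2) (z, y)) :
    MDifferentiableAt (𝓡 n) 𝓘(ℝ) (fun z' : M => halfDistSq z' y) z := by
  have h1 : ContMDiffAt (𝓡 n) 𝓘(ℝ) ∞ (fun z' : M => halfDistSq z' y) z :=
    ContMDiffAt.comp z (g := fun q : M × M => halfDistSq q.1 q.2) (f := fun z' : M => (z', y)) h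
      (contMDiffAt_id.prodMk contMDiffAt_const)
  exact h1.mdifferentiableAt (by simp)

/-- critical point of `N(·, 2w)` at `w`, when the geodesic from `exp_x w` to `exp_x (2w)` is
strictly minimising -/
theorem crit_vel (hB : Base G) {x : M} {w : TangentSpace (𝓡 n) x} (hw : w ∈ G.I x)
    (ha : radial G.ex 1 (⟨x, w⟩ : TangentBundle (𝓡 n) M) ∈ G.IT)
    (hd : DifferentiableAt ℝ (N G x) (w, (2 : ℝ) • w)) (η : TangentSpace (𝓡 n) x) :
    fderiv ℝ (N G x) (w, (2 : ℝ) • w) (η, 0) = 0 := by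
  have ha' : G.vel x w 1 ∈ G.I (G.ex x ((1 : ℝ) • w)) := ha
  have hb' : -(G.vel x w 1) ∈ G.I (G.ex x ((1 : ℝ) • w)) := hB.rev_I x w hw
  have e1 : G.ex (G.ex x ((1 : ℝ) • w)) (G.vel x w 1) = G.ex x ((2 : ℝ) • w) := by
    have h3 := G.flow x w 1 1
    have h2 : (1 : ℝ) + 1 = 2 := by norm_num
    rw [h2] at h3
    change G.ex (G.ex x ((1 : ℝ) • w)) ((1 : ℝ) • G.vel x w 1) = _ at h3
    rw [one_smul ℝ (G.vel x w 1)] at h3
    exact h3
  have e2 : G.ex (G.ex x ((1 : ℝ) • w)) (-(G.vel x w 1)) = x := by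
    have := hB.rev_ex x w 1
    rw [sub_self, zero_smul, G.ex_zero, one_smul (M := ℝ) (-(G.vel x w 1))] at this
    exact this
  have hza := hB.smooth_cost _ _ ha'
  have hzb := hB.smooth_cost _ _ hb'
  rw [e1] at hza
  rw [e2] at hzb
  have hdera := fun v => hasDerivAt_nc hB ha' v
  have hderb := fun v => hasDerivAt_nc hB hb' v
  rw [e1] at hdera
  rw [e2] at hderb
  have hz : G.ex x ((1 : ℝ) • w) = G.ex x w := by rw [one_smul]
  generalize G.vel x w 1 = a at *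
  generalize hzdef : G.ex x ((1 : ℝ) • w) = z at *
  have hmS : MDifferentiableAt (𝓡 n) 𝓘(ℝ)
      (fun z' : M => halfDistSq z' x + halfDistSq z' (G.ex x ((2 : ℝ) • w))) z :=
    (mdiffAt_cost_of_smooth hzb).add (mdiffAt_cost_of_smooth hza)
  set S : M → ℝ := fun z' : M => halfDistSq z' x + halfDistSq z' (G.ex x ((2 : ℝ) • w)) with hSdef
  have hdS : ∀ v : TangentSpace (𝓡 n) z, NearLem90.dL n S z v = 0 := by
    intro v
    have hγ : MDifferentiableAt 𝓘(ℝ, ℝ) (𝓡 n) (fun s : ℝ => G.ex z (s • v)) 0 := by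
      have h3 : ContMDiffAt 𝓘(ℝ, ℝ) 𝓘(ℝ, TangentSpace (𝓡 n) z) ∞
          (fun s : ℝ => s • v) 0 := by
        rw [contMDiffAt_iff_contDiffAt]; fun_prop
      have h4 := ((contMDiff_ex G z).contMDiffAt (x := (0 : ℝ) • v)).comp (0 : ℝ) h3
      exact h4.mdifferentiableAt (by simp)
    have hx : (fun s : ℝ => G.ex z (s • v)) 0 = z := by simp [G.ex_zero]
    have h5 := NearLem90.hasDerivAt_comp_curve hx hmS hγ
    have h6 : HasDerivAt (fun s : ℝ => S (G.ex z (s • v))) (-inner ℝ (-a) v + -inner ℝ a v) 0 :=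
      (hderb v).add (hdera v)
    have h7 := h5.unique h6
    have h8 : curveVel n (fun s : ℝ => G.ex z (s • v)) 0 = v := G.vel_zero z v
    have h9 : NearLem90.dL n S z v = -inner ℝ (-a) v + -inner ℝ a v := by
      rw [← h7]
      exact congrArg _ h8.symm
    rw [h9, inner_neg_left]; ring
  -- along the line `w + s η`
  have h10 := hasDerivAt_line hd η
  have hγ : MDifferentiableAt 𝓘(ℝ, ℝ) (𝓡 n) (fun s : ℝ => G.ex x (w + s • η)) 0 := by
    have h3 : ContMDiffAt 𝓘(ℝ, ℝ) 𝓘(ℝ, TangentSpace (𝓡 n) x) ∞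
        (fun s : ℝ => w + s • η) 0 := by
      rw [contMDiffAt_iff_contDiffAt]; fun_prop
    have h4 := ((contMDiff_ex G x).contMDiffAt (x := w + (0 : ℝ) • η)).comp (0 : ℝ) h3
    exact h4.mdifferentiableAt (by simp)
  have hx : (fun s : ℝ => G.ex x (w + s • η)) 0 = z := by
    simp only [zero_smul, add_zero]; exact hz.symm
  have h11 := NearLem90.hasDerivAt_comp_curve hx hmS hγ
  have h12 : NearLem90.dL n S z (curveVel n (fun s : ℝ => G.ex x (w + s • η)) 0) = 0 := hdS _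
  have h13 : HasDerivAt (fun s : ℝ => S (G.ex x (w + s • η))) 0 0 := by
    have h11' := h11
    rw [h12] at h11'
    exact h11'
  have h14 : HasDerivAt (fun s : ℝ => 2 * S (G.ex x (w + s • η))) (2 * 0) 0 := h13.const_mul 2
  have hev : ∀ᶠ s in 𝓝 (0 : ℝ), w + s • η ∈ G.I x := by
    have hc : ContinuousAt (fun s : ℝ => w + s • η) 0 := by fun_prop
    apply hc.eventually
    show ∀ᶠ y in 𝓝 (w + (0 : ℝ) • η), y ∈ G.I x
    rw [zero_smul, add_zero]
    exact (hB.isOpen_I x).mem_nhds hw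
  have h15 : (fun s : ℝ => N G x (w + s • η, (2 : ℝ) • w)) =ᶠ[𝓝 0]
      fun s : ℝ => 2 * S (G.ex x (w + s • η)) := by
    filter_upwards [hev] with s hs
    have h16 := halfDistSq_of_mem_K (hB.I_subset x hs)
    rw [halfDistSq_comm] at h16
    show ‖w + s • η‖ ^ 2 + 2 * halfDistSq (G.ex x (w + s • η)) (G.ex x ((2 : ℝ) • w)) =
      2 * (halfDistSq (G.ex x (w + s • η)) x +
        halfDistSq (G.ex x (w + s • η)) (G.ex x ((2 : ℝ) • w)))
    rw [h16]; ring
  have h17 := (h14.congr_of_eventuallyEq h15)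
  rw [mul_zero] at h17
  exact h10.unique h17

theorem radial_half_aux (hB : Base G) {x y : M} {p : TangentSpace (𝓡 n) x}
    {u₀ : TangentSpace (𝓡 n) y} (hu : (1 / 2 : ℝ) • u₀ ∈ G.I y)
    (hrev : ∀ t : ℝ, G.ex y (t • u₀) = G.ex x ((1 - t) • p)) :
    radial G.ex 1 (⟨x, (1 / 2 : ℝ) • p⟩ : TangentBundle (𝓡 n) M) ∈ G.IT := by
  have h2 : (⟨G.ex y ((1 : ℝ) • ((1 / 2 : ℝ) • u₀)), -(G.vel y ((1 / 2 : ℝ) • u₀) 1)⟩ :
      TangentBundle (𝓡 n) M) ∈ G.IT := hB.rev_I _ _ hu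
  have h3 : (fun s : ℝ => G.ex y (s • ((1 / 2 : ℝ) • u₀))) =
      fun s : ℝ => (fun s : ℝ => G.ex x (s • ((1 / 2 : ℝ) • p))) (s * (-1) + 2) := by
    funext s
    show G.ex y (s • ((1 / 2 : ℝ) • u₀)) = G.ex x ((s * (-1) + 2) • ((1 / 2 : ℝ) • p))
    rw [smul_smul, hrev, smul_smul]
    congr 2
    ring
  have h5 : SmallFlow90.curveT n (fun s : ℝ => (fun s : ℝ => G.ex x (s • ((1 / 2 : ℝ) • p)))
      (s * (-1) + 2)) 1 = scaleT (-1) (SmallFlow90.curveT n
        (fun s : ℝ => G.ex x (s • ((1 / 2 : ℝ) • p))) (1 * (-1) + 2)) :=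
    SmallFlow90.curveT_comp_affine (fun s : ℝ => G.ex x (s • ((1 / 2 : ℝ) • p))) (-1) 2 1
  have h4 : SmallFlow90.curveT n (fun s : ℝ => G.ex y (s • ((1 / 2 : ℝ) • u₀))) 1 =
      scaleT (-1) (radial G.ex 1 (⟨x, (1 / 2 : ℝ) • p⟩ : TangentBundle (𝓡 n) M)) := by
    rw [h3, h5]
    have h5 : (1 : ℝ) * (-1) + 2 = 1 := by norm_num
    rw [h5]
    rfl
  have h6 : (⟨G.ex y ((1 : ℝ) • ((1 / 2 : ℝ) • u₀)), -(G.vel y ((1 / 2 : ℝ) • u₀) 1)⟩ :
      TangentBundle (𝓡 n) M) =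
      scaleT (-1) (SmallFlow90.curveT n (fun s : ℝ => G.ex y (s • ((1 / 2 : ℝ) • u₀))) 1) := by
    rw [← neg_one_smul ℝ (G.vel y ((1 / 2 : ℝ) • u₀) 1)]
    rfl
  rw [h6, h4, SmallFlow90.scaleT_scaleT] at h2
  have h7 : (-1 : ℝ) * (-1) = 1 := by norm_num
  rw [h7, SmallFlow90.scaleT_one] at h2
  exact h2

/-- the end velocity of the first half of a minimising geodesic is in `I` -/
theorem radial_half_mem (hB : Base G) {x : M} {p : TangentSpace (𝓡 n) x} (hp : p ∈ G.K x) :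
    radial G.ex 1 (⟨x, (1 / 2 : ℝ) • p⟩ : TangentBundle (𝓡 n) M) ∈ G.IT :=
  radial_half_aux hB (hB.smul_mem_I (hB.rev x p hp) (by norm_num) (by norm_num)) (hB.rev_ex x p)

theorem continuous_radial_fiber (x : M) :
    Continuous (fun w : TangentSpace (𝓡 n) x =>
      radial G.ex 1 (⟨x, w⟩ : TangentBundle (𝓡 n) M)) := by
  have h1 := (contMDiff_radial G.smooth).continuous
  exact h1.comp (continuous_const.prodMk (contMDiff_fiber x).continuous)

end Crest.Agent.R226.Crit347
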