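/-
R226 task C5 (helper347): F5, the focal blow-up (`CutFacts.focal`).
-/
import Crest.Agent.R226.Crit_347

set_option autoImplicit false

open MeasureTheory Bundle Set Filter
open scoped Manifold ContDiff Bundle ENNReal Topology
open Crest.GeometryTopology.MTW
open Crest.Agent.R226.Calc347 Crest.Agent.R226.MTWConc117 Crest.Agent.R226.Base347
open Crest.Agent.R226.Crit347

namespace Crest.Agent.R226.Focal347

/-- local injectivity with a parameter -/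
theorem local_inj {V B W : Type*} [NormedAddCommGroup V] [NormedSpace ℝ V] [FiniteDimensional ℝ V]
    [NormedAddCommGroup B] [NormedSpace ℝ B] [NormedAddCommGroup W] [NormedSpace ℝ W]
    {Ψ : V × B → W} {Ψ' : V × B →L[ℝ] W} {v₀ : V} {b₀ : B}
    (h : HasStrictFDerivAt Ψ Ψ' (v₀, b₀)) (hinj : ∀ v, Ψ' (v, 0) = 0 → v = 0) :
    ∀ᶠ q : V × V × B in 𝓝 (v₀, v₀, b₀), Ψ (q.1, q.2.2) = Ψ (q.2.1, q.2.2) → q.1 = q.2.1 := by
  let L : V →ₗ[ℝ] W := (Ψ'.comp (ContinuousLinearMap.inl ℝ V B) : V →ₗ[ℝ] W)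
  have hL : ∀ v, L v = Ψ' (v, 0) := fun v => rfl
  have hker : LinearMap.ker L = ⊥ := by
    rw [LinearMap.ker_eq_bot']
    intro v hv
    exact hinj v (by rw [← hL]; exact hv)
  obtain ⟨K, hK0, hK⟩ := L.exists_antilipschitzWith hker
  have hK1 : ∀ v, ‖v‖ ≤ K * ‖L v‖ := by
    intro v
    have := hK.le_mul_dist v 0
    simpa using this
  have hKpos : (0 : ℝ) < K := by exact_mod_cast hK0
  have h1 := h.isLittleO.def (c := 1 / (2 * (K : ℝ))) (by positivity)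
  have hcont : ContinuousAt (fun q : V × V × B => ((q.1, q.2.2), (q.2.1, q.2.2)))
      (v₀, v₀, b₀) := by fun_prop
  have h2 : ∀ᶠ q : V × V × B in 𝓝 (v₀, v₀, b₀),
      ‖Ψ (q.1, q.2.2) - Ψ (q.2.1, q.2.2) - Ψ' ((q.1, q.2.2) - (q.2.1, q.2.2))‖ ≤
        1 / (2 * (K : ℝ)) * ‖(q.1, q.2.2) - (q.2.1, q.2.2)‖ := hcont.eventually h1
  filter_upwards [h2] with q hq heq
  have e1 : (q.1, q.2.2) - (q.2.1, q.2.2) = (q.1 - q.2.1, (0 : B)) := by
    rw [Prod.mk_sub_mk, sub_self]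
  rw [heq, sub_self, zero_sub, norm_neg, e1, ← hL] at hq
  have e2 : ‖((q.1 - q.2.1, 0) : V × B)‖ = ‖q.1 - q.2.1‖ := by
    rw [Prod.norm_mk, norm_zero]; exact max_eq_left (norm_nonneg _)
  rw [e2] at hq
  have h3 := hK1 (q.1 - q.2.1)
  have h4 : ‖L (q.1 - q.2.1)‖ ≤ 1 / 2 * ‖L (q.1 - q.2.1)‖ := by
    calc ‖L (q.1 - q.2.1)‖ ≤ 1 / (2 * (K : ℝ)) * ‖q.1 - q.2.1‖ := hq
      _ ≤ 1 / (2 * (K : ℝ)) * (K * ‖L (q.1 - q.2.1)‖) :=
          mul_le_mul_of_nonneg_left h3 (by positivity)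
      _ = 1 / 2 * ‖L (q.1 - q.2.1)‖ := by field_simp
  have h5 : ‖L (q.1 - q.2.1)‖ = 0 := by
    have := norm_nonneg (L (q.1 - q.2.1))
    linarith
  rw [h5, mul_zero] at h3
  exact sub_eq_zero.1 (norm_le_zero_iff.1 h3)

/-- derivative of `fderiv g` along a curve -/
theorem hess_curve {E : Type*} [NormedAddCommGroup E] [NormedSpace ℝ E] {g : E → ℝ} {a v : E}
    (hg : ContDiffAt ℝ 2 g a) {γ : ℝ → E} (hγ : HasDerivAt γ v 0) (h0 : γ 0 = a) (w : E) :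
    HasDerivAt (fun s => fderiv ℝ g (γ s) w) (hess g a v w) 0 := by
  subst h0
  have h1 : ContDiffAt ℝ 1 (fderiv ℝ g) (γ 0) := hg.fderiv_right (by norm_num)
  have h2 : HasDerivAt (fun s => fderiv ℝ g (γ s)) (fderiv ℝ (fderiv ℝ g) (γ 0) v) 0 :=
    (h1.differentiableAt (by norm_num)).hasFDerivAt.comp_hasDerivAt (0 : ℝ) hγ
  have h3 := h2.clm_apply (hasDerivAt_const (0 : ℝ) w)
  simpa [hess] using h3

variable {n : ℕ} {M : Type*} [MetricSpace M] [ChartedSpace (EuclideanSpace ℝ (Fin n)) M]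
  [IsManifold (𝓡 n) ∞ M]
  [RiemannianBundle (fun p : M => TangentSpace (𝓡 n) p)]
  {G : GeoData n M}

instance instFD (x : M) : FiniteDimensional ℝ (TangentSpace (𝓡 n) x) :=
  inferInstanceAs (FiniteDimensional ℝ (EuclideanSpace ℝ (Fin n)))

theorem continuous_ex (x : M) : Continuous (G.ex x) := (contMDiff_ex G x).continuous

/-- `K x` is compact -/
theorem isCompact_K (hB : Base G) (x : M) : IsCompact (G.K x) := by
  have hclosed : IsClosed (G.K x) :=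
    isClosed_eq (continuous_const.dist (continuous_ex x)) continuous_norm
  have hcomp : IsCompact ((fun p : TangentBundle (𝓡 n) M => G.ex p.1 p.2) '' G.KT) :=
    hB.isCompact_KT.image G.smooth.continuous
  obtain ⟨R, hR⟩ := hcomp.isBounded.subset_closedBall x
  refine Metric.isCompact_of_isClosed_isBounded hclosed ?_
  refine (Metric.isBounded_closedBall (x := (0 : TangentSpace (𝓡 n) x)) (r := R)).subset ?_
  intro v hv
  have h1 : G.ex x v ∈ Metric.closedBall x R := hR ⟨⟨x, v⟩, hv, rfl⟩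
  rw [Metric.mem_closedBall, dist_comm, show dist x (G.ex x v) = ‖v‖ from hv] at h1
  simpa using h1

/-- the first partial differential of `N`, as a map to the dual -/
noncomputable def Psi (G : GeoData n M) (x : M)
    (q : TangentSpace (𝓡 n) x × TangentSpace (𝓡 n) x) : TangentSpace (𝓡 n) x →L[ℝ] ℝ :=
  (fderiv ℝ (N G x) q).comp
    (ContinuousLinearMap.inl ℝ (TangentSpace (𝓡 n) x) (TangentSpace (𝓡 n) x))

/-- existence of a kernel direction of the Hessian of `N(·,p)` at `p/2` when `p ∈ K ∖ I` is the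
only minimising velocity. -/
theorem exists_kernel (hB : Base G) {x : M} {p : TangentSpace (𝓡 n) x} (hp : p ∈ G.K x)
    (hpI : p ∉ G.I x) (huniq : ∀ w ∈ G.K x, G.ex x w = G.ex x p → w = p) :
    ∃ ζ : TangentSpace (𝓡 n) x, ζ ≠ 0 ∧
      ∀ η, hess (N G x) ((1 / 2 : ℝ) • p, p) (ζ, 0) (η, 0) = 0 := by
  by_contra hcon
  push Not at hcon
  have hsm : ContDiffAt ℝ ∞ (N G x) ((1 / 2 : ℝ) • p, p) :=
    contDiffAt_N (hB.contDiffAt_F_mid hp (by norm_num) (by norm_num))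
  -- strict differentiability of `Psi`
  have h1 : ContDiffAt ℝ 1 (fderiv ℝ (N G x)) ((1 / 2 : ℝ) • p, p) :=
    (contDiffAt_infty.1 hsm 2).fderiv_right (by norm_num)
  have h2 : ContDiffAt ℝ 1 (Psi G x) ((1 / 2 : ℝ) • p, p) :=
    h1.clm_comp contDiffAt_const
  have h3 := h2.hasStrictFDerivAt (by norm_num)
  have h4 : ∀ v η : TangentSpace (𝓡 n) x,
      fderiv ℝ (Psi G x) ((1 / 2 : ℝ) • p, p) (v, 0) η =
        hess (N G x) ((1 / 2 : ℝ) • p, p) (v, 0) (η, 0) := by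
    intro v η
    have h5 : HasFDerivAt (fderiv ℝ (N G x)) (fderiv ℝ (fderiv ℝ (N G x)) ((1 / 2 : ℝ) • p, p))
        ((1 / 2 : ℝ) • p, p) := (h1.differentiableAt (by norm_num)).hasFDerivAt
    have h6 := h5.clm_comp (hasFDerivAt_const
      (ContinuousLinearMap.inl ℝ (TangentSpace (𝓡 n) x) (TangentSpace (𝓡 n) x))
      (((1 / 2 : ℝ) • p, p) : TangentSpace (𝓡 n) x × TangentSpace (𝓡 n) x))
    have h7 : fderiv ℝ (Psi G x) ((1 / 2 : ℝ) • p, p) = _ := h6.fderiv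
    rw [h7]
    simp [hess]
  have hinj : ∀ v, fderiv ℝ (Psi G x) ((1 / 2 : ℝ) • p, p) (v, 0) = 0 → v = 0 := by
    intro v hv
    by_contra hv0
    obtain ⟨η, hη⟩ := hcon v hv0
    apply hη
    rw [← h4, hv]; rfl
  have hloc := local_inj h3 hinj
  -- differentiability of `N` near the base point
  have hdiff : ∀ᶠ q in 𝓝 (((1 / 2 : ℝ) • p, p) : TangentSpace (𝓡 n) x × TangentSpace (𝓡 n) x),
      DifferentiableAt ℝ (N G x) q := by
    have := (contDiffAt_infty.1 hsm 1).eventually (by simp)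
    filter_upwards [this] with q hq
    exact hq.differentiableAt (by norm_num)
  -- `I` and velocity conditions near `p/2`
  have hhalf : (1 / 2 : ℝ) • p ∈ G.I x := hB.smul_mem_I hp (by norm_num) (by norm_num)
  have hev1 : ∀ᶠ w in 𝓝 ((1 / 2 : ℝ) • p), w ∈ G.I x := (hB.isOpen_I x).mem_nhds hhalf
  have hev2 : ∀ᶠ w in 𝓝 ((1 / 2 : ℝ) • p),
      radial G.ex 1 (⟨x, w⟩ : TangentBundle (𝓡 n) M) ∈ G.IT :=
    (continuous_radial_fiber (G := G) x).continuousAt.preimage_mem_nhds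
      (hB.isOpen_IT.mem_nhds (radial_half_mem hB hp))
  -- the sequence
  let t : ℕ → ℝ := fun k => 1 + 1 / ((k : ℝ) + 1)
  have ht : Tendsto t atTop (𝓝 1) := by
    have h9 := (tendsto_one_div_add_atTop_nhds_zero_nat (𝕜 := ℝ)).const_add 1
    rw [add_zero] at h9
    exact h9
  have ht1 : ∀ k, 1 < t k := by
    intro k
    have : (0 : ℝ) < 1 / ((k : ℝ) + 1) := by positivity
    show 1 < 1 + 1 / ((k : ℝ) + 1)
    linarith
  have hv : ∀ k, ∃ v ∈ G.K x, G.ex x v = G.ex x (t k • p) := by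
    intro k
    obtain ⟨v, hv1, hv2⟩ := G.surj x (G.ex x (t k • p))
    refine ⟨v, ?_, hv1⟩
    show dist x (G.ex x v) = ‖v‖
    rw [hv1, hv2]
  choose v hvK hvex using hv
  obtain ⟨a, haK, φ, hφ, ha⟩ := (isCompact_K hB x).tendsto_subseq hvK
  have htφ : Tendsto (fun k => t (φ k)) atTop (𝓝 1) := ht.comp hφ.tendsto_atTop
  have htp : Tendsto (fun k => t (φ k) • p) atTop (𝓝 p) := by
    have := htφ.smul_const p
    simpa using this
  have hap : a = p := by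
    apply huniq a haK
    have e1 : Tendsto (fun k => G.ex x (v (φ k))) atTop (𝓝 (G.ex x a)) :=
      (continuous_ex x).continuousAt.tendsto.comp ha
    have e2 : Tendsto (fun k => G.ex x (t (φ k) • p)) atTop (𝓝 (G.ex x p)) :=
      (continuous_ex x).continuousAt.tendsto.comp htp
    have e3 : (fun k => G.ex x (v (φ k))) = fun k => G.ex x (t (φ k) • p) := by
      funext k; exact hvex (φ k)
    rw [e3] at e1
    exact tendsto_nhds_unique e1 e2
  rw [hap] at ha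
  have hva : Tendsto (fun k => (1 / 2 : ℝ) • v (φ k)) atTop (𝓝 ((1 / 2 : ℝ) • p)) :=
    ha.const_smul (1 / 2 : ℝ)
  have hta : Tendsto (fun k => (1 / 2 : ℝ) • (t (φ k) • p)) atTop (𝓝 ((1 / 2 : ℝ) • p)) :=
    htp.const_smul (1 / 2 : ℝ)
  have c1 : Tendsto (fun k => ((1 / 2 : ℝ) • v (φ k), (1 / 2 : ℝ) • (t (φ k) • p),
      t (φ k) • p)) atTop (𝓝 ((1 / 2 : ℝ) • p, (1 / 2 : ℝ) • p, p)) :=
    hva.prodMk_nhds (hta.prodMk_nhds htp)
  have c2 : Tendsto (fun k => ((1 / 2 : ℝ) • v (φ k), t (φ k) • p)) atTop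
      (𝓝 ((1 / 2 : ℝ) • p, p)) := hva.prodMk_nhds htp
  have c3 : Tendsto (fun k => ((1 / 2 : ℝ) • (t (φ k) • p), t (φ k) • p)) atTop
      (𝓝 ((1 / 2 : ℝ) • p, p)) := hta.prodMk_nhds htp
  obtain ⟨k, hk1, hk2, hk3, hk4, hk5⟩ := ((c1.eventually hloc).and
    ((c2.eventually hdiff).and ((c3.eventually hdiff).and
      ((hta.eventually hev1).and (hta.eventually hev2))))).exists
  have hcrit1 : Psi G x ((1 / 2 : ℝ) • v (φ k), t (φ k) • p) = 0 := by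
    ext η
    exact crit_min (hvK (φ k)) (hvex (φ k)) hk2 η
  have e2 : (2 : ℝ) • ((1 / 2 : ℝ) • (t (φ k) • p)) = t (φ k) • p := by
    rw [smul_smul]; norm_num
  have hcrit2 : Psi G x ((1 / 2 : ℝ) • (t (φ k) • p), t (φ k) • p) = 0 := by
    ext η
    have h8 := crit_vel hB hk4 hk5 (by rw [e2]; exact hk3) η
    rw [e2] at h8
    exact h8
  have heq := hk1 (hcrit1.trans hcrit2.symm)
  have heq2 : v (φ k) = t (φ k) • p := by
    have h9 : (2 : ℝ) • ((1 / 2 : ℝ) • v (φ k)) = (2 : ℝ) • ((1 / 2 : ℝ) • (t (φ k) • p)) :=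
      congrArg (fun w => (2 : ℝ) • w) heq
    rw [e2, smul_smul] at h9
    norm_num at h9
    exact h9
  exact hpI ⟨t (φ k), ht1 _, heq2 ▸ hvK (φ k)⟩

/-- Hessian of `N` in terms of the Hessian of `F` -/
theorem hess_N_fst {x : M} {a b : TangentSpace (𝓡 n) x} (h : ContDiffAt ℝ 2 (F G x) (a, b))
    (hN : ContDiffAt ℝ 2 (N G x) (a, b)) (k : TangentSpace (𝓡 n) x) :
    hess (N G x) (a, b) (k, 0) (k, 0) = 2 * ‖k‖ ^ 2 + 2 * hess (F G x) (a, b) (k, 0) (k, 0) := by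
  have h1 := hess_fst hN k
  have h2 := ((sec_norm_sq a k).const_mul 2).add ((hess_fst h k).const_mul 2)
  refine h1.unique (h2.congr (Eventually.of_forall fun s => ?_))
  show ‖a + s • k‖ ^ 2 + 2 * F G x (a + s • k, b) = 2 * (‖a + s • k‖ ^ 2 / 2) +
    2 * F G x (a + s • k, b)
  ring

/-- Gauss lemma for `N(·,p)` along the ray: `∂_w N(θ p, p) η = (4 θ - 2) ⟨p, η⟩`. -/
theorem fderiv_N_ray (hB : Base G) {x : M} {p : TangentSpace (𝓡 n) x} (hp : p ∈ G.K x)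
    {θ : ℝ} (h0 : 0 < θ) (h1 : θ < 1) (η : TangentSpace (𝓡 n) x) :
    fderiv ℝ (N G x) (θ • p, p) (η, 0) = (4 * θ - 2) * inner ℝ p η := by
  have hF : DifferentiableAt ℝ (F G x) (θ • p, p) :=
    (contDiffAt_infty.1 (hB.contDiffAt_F_mid hp h0 h1.le) 1).differentiableAt (by norm_num)
  have hNd : DifferentiableAt ℝ (N G x) (θ • p, p) :=
    (contDiffAt_infty.1 (contDiffAt_N (hB.contDiffAt_F_mid hp h0 h1.le)) 1).differentiableAt
      (by norm_num)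
  have hsq : HasDerivAt (fun s : ℝ => ‖θ • p + s • η‖ ^ 2) (2 * (θ * inner ℝ p η)) 0 := by
    have e1 : (fun s : ℝ => ‖θ • p + s • η‖ ^ 2) =
        fun s : ℝ => ‖θ • p‖ ^ 2 + s * (2 * (θ * inner ℝ p η)) + ‖η‖ ^ 2 * s ^ 2 := by
      funext s
      rw [norm_add_sq_real, norm_smul s η, inner_smul_right, real_inner_smul_left, mul_pow,
        Real.norm_eq_abs, sq_abs]
      ring
    rw [e1]
    have h2 : HasDerivAt (fun s : ℝ => ‖θ • p‖ ^ 2 + s * (2 * (θ * inner ℝ p η)) + ‖η‖ ^ 2 * s ^ 2)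
        (0 + 1 * (2 * (θ * inner ℝ p η)) + ‖η‖ ^ 2 * (2 * (0 : ℝ))) 0 := by
      refine ((hasDerivAt_const (0 : ℝ) _).add ((hasDerivAt_id (0 : ℝ)).mul_const _)).add ?_
      have := (hasDerivAt_pow 2 (0 : ℝ)).const_mul (‖η‖ ^ 2)
      simpa using this
    have e2 : 0 + 1 * (2 * (θ * inner ℝ p η)) + ‖η‖ ^ 2 * (2 * (0 : ℝ)) =
        2 * (θ * inner ℝ p η) := by ring
    rw [e2] at h2
    exact h2
  have hFl := hasDerivAt_line hF η
  -- minimality at `θ p`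
  have hcomb : HasDerivAt (fun s : ℝ => θ⁻¹ * (‖θ • p + s • η‖ ^ 2 / 2) +
      (1 - θ)⁻¹ * F G x (θ • p + s • η, p))
      (θ⁻¹ * (2 * (θ * inner ℝ p η) / 2) + (1 - θ)⁻¹ * fderiv ℝ (F G x) (θ • p, p) (η, 0)) 0 :=
    ((hsq.div_const 2).const_mul θ⁻¹).add (hFl.const_mul (1 - θ)⁻¹)
  have hmin : IsLocalMin (fun s : ℝ => θ⁻¹ * (‖θ • p + s • η‖ ^ 2 / 2) +
      (1 - θ)⁻¹ * F G x (θ • p + s • η, p)) 0 := by
    refine Eventually.of_forall fun s => ?_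
    show θ⁻¹ * (‖θ • p + (0 : ℝ) • η‖ ^ 2 / 2) + (1 - θ)⁻¹ * F G x (θ • p + (0 : ℝ) • η, p) ≤ _
    rw [zero_smul, add_zero]
    have e1 : F G x (θ • p, p) = (1 - θ) ^ 2 * ‖p‖ ^ 2 / 2 := by
      have := halfDistSq_of_mem_K' hp h0.le h1.le (le_refl 1)
      simp only [one_smul] at this
      exact this
    have e3 : θ⁻¹ * (‖θ • p‖ ^ 2 / 2) + (1 - θ)⁻¹ * F G x (θ • p, p) = ‖p‖ ^ 2 / 2 := by
      rw [e1, norm_smul, mul_pow, Real.norm_eq_abs, sq_abs]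
      have h3 : (1 - θ) ≠ 0 := by linarith
      field_simp
      ring
    rw [e3]
    have h4 := halfDistSq_le x (G.ex x (θ • p + s • η)) (G.ex x p) h0 h1
    have h5 := halfDistSq_ex_le (G := G) x (θ • p + s • η)
    rw [halfDistSq_of_mem_K hp] at h4
    show ‖p‖ ^ 2 / 2 ≤ θ⁻¹ * (‖θ • p + s • η‖ ^ 2 / 2) + (1 - θ)⁻¹ * F G x (θ • p + s • η, p)
    have h6 : θ⁻¹ * halfDistSq x (G.ex x (θ • p + s • η)) ≤
        θ⁻¹ * (‖θ • p + s • η‖ ^ 2 / 2) := mul_le_mul_of_nonneg_left h5 (by positivity)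
    unfold F
    linarith
  have hz : θ⁻¹ * (2 * (θ * inner ℝ p η) / 2) +
      (1 - θ)⁻¹ * fderiv ℝ (F G x) (θ • p, p) (η, 0) = 0 :=
    hcomb.deriv ▸ hmin.deriv_eq_zero
  have hF2 : fderiv ℝ (F G x) (θ • p, p) (η, 0) = -((1 - θ) * inner ℝ p η) := by
    have h3 : (1 - θ) ≠ 0 := by linarith
    field_simp at hz
    linarith
  have hNl := hasDerivAt_line hNd η
  have hNl' : HasDerivAt (fun s : ℝ => N G x (θ • p + s • η, p))
      (2 * (θ * inner ℝ p η) + 2 * fderiv ℝ (F G x) (θ • p, p) (η, 0)) 0 :=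
    hsq.add (hFl.const_mul 2)
  rw [hNl.unique hNl', hF2]
  ring

/-- `D²_w N(p/2, p)(p, η) = 4 ⟨p, η⟩` -/
theorem hess_N_ray (hB : Base G) {x : M} {p : TangentSpace (𝓡 n) x} (hp : p ∈ G.K x)
    (η : TangentSpace (𝓡 n) x) :
    hess (N G x) ((1 / 2 : ℝ) • p, p) (p, 0) (η, 0) = 4 * inner ℝ p η := by
  have hsm : ContDiffAt ℝ ∞ (N G x) ((1 / 2 : ℝ) • p, p) :=
    contDiffAt_N (hB.contDiffAt_F_mid hp (by norm_num) (by norm_num))
  have hc : HasDerivAt (fun s : ℝ => ((1 / 2 + s) • p, p)) (p, (0 : TangentSpace (𝓡 n) x)) 0 := by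
    have h2 : HasDerivAt (fun s : ℝ => (1 / 2 + s) • p) p 0 := by
      have := ((hasDerivAt_id (0 : ℝ)).const_add (1 / 2 : ℝ)).smul_const p
      simpa using this
    exact h2.prodMk (hasDerivAt_const (0 : ℝ) p)
  have h6 : HasDerivAt (fun s : ℝ => fderiv ℝ (N G x) ((1 / 2 + s) • p, p) (η, 0))
      (hess (N G x) ((1 / 2 : ℝ) • p, p) (p, 0) (η, 0)) 0 :=
    hess_curve (contDiffAt_infty.1 hsm 2) hc (by rw [add_zero]) (η, 0)
  have hev : (fun s : ℝ => fderiv ℝ (N G x) ((1 / 2 + s) • p, p) (η, 0)) =ᶠ[𝓝 0]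
      fun s : ℝ => (4 * inner ℝ p η) * s := by
    have : Ioo (-(1 / 4) : ℝ) (1 / 4) ∈ 𝓝 (0 : ℝ) := Ioo_mem_nhds (by norm_num) (by norm_num)
    filter_upwards [this] with s hs
    rw [fderiv_N_ray hB hp (by linarith [hs.1]) (by linarith [hs.2])]
    ring
  have h7 : HasDerivAt (fun s : ℝ => (4 * inner ℝ p η) * s) (4 * inner ℝ p η) 0 := by
    simpa using (hasDerivAt_id (0 : ℝ)).const_mul (4 * inner ℝ p η)
  exact h6.unique (h7.congr_of_eventuallyEq hev)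

/-- the quadratic inequality behind the blow-up -/
theorem phi_le (hB : Base G) {x : M} {p : TangentSpace (𝓡 n) x} (hp : p ∈ G.K x) {r : ℝ}
    (h0 : 0 < r) (h1 : r < 1) (hF : ContDiffAt ℝ 2 (F G x) ((r / 2) • p, r • p))
    (ξ w : TangentSpace (𝓡 n) x) :
    G.phi x ξ (r • p) ≤ 2 * G.phi x ξ ((r / 2) • p) - 4 * inner ℝ w ξ + 2 * ‖w‖ ^ 2 +
      2 * hess (F G x) ((r / 2) • p, r • p) (w, 0) (w, 0) := by
  have hr : r • p ∈ G.I x := hB.smul_mem_I hp h0.le h1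
  have hr2 : (r / 2) • p ∈ G.I x := hB.smul_mem_I hp (by linarith) (by linarith)
  have hA := hB.sec_phi hr ξ
  have hC := ((hB.sec_F hr2 ξ w).const_mul 2).add ((hess_fst hF w).const_mul 2)
  have h := hA.le hC ?_ ?_
  · linarith
  · show F G x ((0 : ℝ) • ξ, r • p) = 2 * F G x ((0 : ℝ) • ξ, (r / 2) • p + (0 : ℝ) • w) +
      2 * F G x ((r / 2) • p + (0 : ℝ) • w, r • p)
    rw [zero_smul, zero_smul, add_zero]
    have e1 : F G x (0, r • p) = r ^ 2 * ‖p‖ ^ 2 / 2 := by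
      have := halfDistSq_of_mem_K' hp (le_refl 0) h0.le h1.le
      simp only [zero_smul, sub_zero] at this
      exact this
    have e2 : F G x (0, (r / 2) • p) = (r / 2) ^ 2 * ‖p‖ ^ 2 / 2 := by
      have := halfDistSq_of_mem_K' hp (le_refl 0) (t := r / 2) (by linarith) (by linarith)
      simp only [zero_smul, sub_zero] at this
      exact this
    have e3 : F G x ((r / 2) • p, r • p) = (r - r / 2) ^ 2 * ‖p‖ ^ 2 / 2 :=
      halfDistSq_of_mem_K' hp (by linarith) (by linarith) h1.le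
    rw [e1, e2, e3]; ring
  · exact Eventually.of_forall fun s => halfDistSq_le_two _ _ _

theorem phi_le_semiconcave (hB : Base G) {C₁ : ℝ}
    (hC : ∀ x, ∀ v ∈ G.K x, ∀ ξ : TangentSpace (𝓡 n) x,
      halfDistSq (G.ex x ξ) (G.ex x v) ≤ halfDistSq x (G.ex x v) - inner ℝ v ξ + C₁ * ‖ξ‖ ^ 2)
    {x : M} {v : TangentSpace (𝓡 n) x} (hv : v ∈ G.I x) (ξ : TangentSpace (𝓡 n) x) :
    G.phi x ξ v ≤ 2 * C₁ * ‖ξ‖ ^ 2 := by
  have hA := hB.sec_phi hv ξ
  have hQ : Sec (fun s : ℝ => halfDistSq x (G.ex x v) - s * inner ℝ v ξ + C₁ * ‖s • ξ‖ ^ 2)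
      (2 * C₁ * ‖ξ‖ ^ 2) := by
    have h1 := (sec_norm_sq (0 : TangentSpace (𝓡 n) x) ξ).const_mul (2 * C₁)
    have h2 : Sec (fun s : ℝ => halfDistSq x (G.ex x v) - s * inner ℝ v ξ) 0 := by
      refine ⟨by fun_prop, ?_⟩
      rw [iteratedDeriv_two_eq]
      have h3 : deriv (fun s : ℝ => halfDistSq x (G.ex x v) - s * inner ℝ v ξ) =
          fun _ => -inner ℝ v ξ := by
        funext s
        have h4 := ((hasDerivAt_id s).mul_const (inner ℝ v ξ)).const_sub (halfDistSq x (G.ex x v))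
        have h5 : HasDerivAt (fun s : ℝ => halfDistSq x (G.ex x v) - s * inner ℝ v ξ)
          (-(1 * inner ℝ v ξ)) s := h4
        rw [h5.deriv, one_mul]
      rw [h3]
      simp
    have h6 := h2.add h1
    rw [zero_add] at h6
    refine h6.congr (Eventually.of_forall fun s => ?_)
    show _ = halfDistSq x (G.ex x v) - s * inner ℝ v ξ + 2 * C₁ * (‖0 + s • ξ‖ ^ 2 / 2)
    rw [zero_add]; ring
  refine hA.le hQ ?_ (Eventually.of_forall fun s => ?_)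
  · show halfDistSq (G.ex x ((0 : ℝ) • ξ)) (G.ex x v) = halfDistSq x (G.ex x v) -
      (0 : ℝ) * inner ℝ v ξ + C₁ * ‖(0 : ℝ) • ξ‖ ^ 2
    rw [zero_smul, G.ex_zero]; simp
  · have := hC x v (hB.I_subset x hv) (s • ξ)
    rw [inner_smul_right] at this
    exact this

/-- **F5, focal blow-up** (exact field `CutFacts.focal`) -/
theorem focal (hB : Base G) : ∀ x, ∀ p ∈ G.K x, p ∉ G.I x →
    (∀ w ∈ G.K x, G.ex x w = G.ex x p → w = p) →
    ∃ k : TangentSpace (𝓡 n) x, ‖k‖ = 1 ∧ inner ℝ k p = 0 ∧ ∃ C c r₁ : ℝ, 0 < c ∧ r₁ < 1 ∧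
      ∀ r : ℝ, r₁ < r → r < 1 → ∀ ξ : TangentSpace (𝓡 n) x,
        G.phi x ξ (r • p) ≤ C * ‖ξ‖ ^ 2 - c * (inner ℝ ξ k) ^ 2 / (1 - r) := by
  intro x p hp hpI huniq
  obtain ⟨ζ, hζ0, hζ⟩ := exists_kernel hB hp hpI huniq
  have hζn : 0 < ‖ζ‖ := norm_pos_iff.2 hζ0
  obtain ⟨C₁, hC₁, hsc⟩ := hB.semiconcave
  have hFsm : ContDiffAt ℝ ∞ (F G x) ((1 / 2 : ℝ) • p, p) :=
    hB.contDiffAt_F_mid hp (by norm_num) (by norm_num)
  have hNsm : ContDiffAt ℝ ∞ (N G x) ((1 / 2 : ℝ) • p, p) := contDiffAt_N hFsm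
  set k : TangentSpace (𝓡 n) x := ‖ζ‖⁻¹ • ζ with hk
  have hkn : ‖k‖ = 1 := by
    rw [hk, norm_smul, norm_inv, norm_norm]
    exact inv_mul_cancel₀ hζn.ne'
  have hkζ : (k, (0 : TangentSpace (𝓡 n) x)) = ‖ζ‖⁻¹ • (ζ, (0 : TangentSpace (𝓡 n) x)) := by
    rw [Prod.smul_mk, smul_zero]
  have hkη : ∀ η, hess (N G x) ((1 / 2 : ℝ) • p, p) (k, 0) (η, 0) = 0 := by
    intro η
    rw [hkζ, map_smul, smul_apply, hζ, smul_zero]
  have hkp : inner ℝ k p = 0 := by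
    have h1 := hess_N_ray hB hp k
    rw [hess_symm (contDiffAt_infty.1 hNsm 2), hkη] at h1
    rw [real_inner_comm]
    linarith
  refine ⟨k, hkn, hkp, ?_⟩
  -- the function `h`
  let h : ℝ → ℝ := fun r => hess (N G x) ((r / 2) • p, r • p) (k, 0) (k, 0)
  have e0 : (((1 : ℝ) / 2) • p, (1 : ℝ) • p) = ((1 / 2 : ℝ) • p, p) := by rw [one_smul]
  have hpath : ContinuousAt (fun r : ℝ => (((r / 2) • p, r • p) :
      TangentSpace (𝓡 n) x × TangentSpace (𝓡 n) x)) 1 := by fun_prop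
  have hdiff : DifferentiableAt ℝ h 1 := by
    have h1 : ContDiffAt ℝ 2 (fderiv ℝ (N G x)) ((1 / 2 : ℝ) • p, p) :=
      (contDiffAt_infty.1 hNsm 3).fderiv_right (by norm_num)
    have h2 : ContDiffAt ℝ 1 (hess (N G x)) ((1 / 2 : ℝ) • p, p) := h1.fderiv_right (by norm_num)
    have h3 : DifferentiableAt ℝ (hess (N G x)) (((1 : ℝ) / 2) • p, (1 : ℝ) • p) := by
      rw [e0]; exact h2.differentiableAt (by norm_num)
    have h4 : DifferentiableAt ℝ (fun r : ℝ => (((r / 2) • p, r • p) :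
      TangentSpace (𝓡 n) x × TangentSpace (𝓡 n) x)) 1 := by fun_prop
    have h5 : DifferentiableAt ℝ (fun r : ℝ => hess (N G x) ((r / 2) • p, r • p)) 1 :=
      DifferentiableAt.comp (1 : ℝ) (g := hess (N G x)) h3 h4
    exact (h5.clm_apply (differentiableAt_const _)).clm_apply (differentiableAt_const _)
  have hh1 : h 1 = 0 := by
    show hess (N G x) (((1 : ℝ) / 2) • p, (1 : ℝ) • p) (k, 0) (k, 0) = 0
    rw [e0]; exact hkη k
  obtain ⟨C', hC', hbd⟩ := hdiff.hasDerivAt.isBigO_sub.exists_pos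
  rw [Asymptotics.isBigOWith_iff] at hbd
  have hevF : ∀ᶠ r in 𝓝 (1 : ℝ), ContDiffAt ℝ 2 (F G x) ((r / 2) • p, r • p) := by
    apply hpath.eventually
    show ∀ᶠ z in 𝓝 ((((1 : ℝ) / 2) • p, (1 : ℝ) • p) :
      TangentSpace (𝓡 n) x × TangentSpace (𝓡 n) x), ContDiffAt ℝ 2 (F G x) z
    rw [e0]
    exact (contDiffAt_infty.1 hFsm 2).eventually (by simp)
  have hevN : ∀ᶠ r in 𝓝 (1 : ℝ), ContDiffAt ℝ 2 (N G x) ((r / 2) • p, r • p) := by
    apply hpath.eventually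
    show ∀ᶠ z in 𝓝 ((((1 : ℝ) / 2) • p, (1 : ℝ) • p) :
      TangentSpace (𝓡 n) x × TangentSpace (𝓡 n) x), ContDiffAt ℝ 2 (N G x) z
    rw [e0]
    exact (contDiffAt_infty.1 hNsm 2).eventually (by simp)
  have hevp : ∀ᶠ r in 𝓝 (1 : ℝ), (0 : ℝ) < r := Ioi_mem_nhds (by norm_num)
  obtain ⟨δ, hδ, hball⟩ := Metric.eventually_nhds_iff.1 (hbd.and (hevF.and (hevN.and hevp)))
  refine ⟨4 * C₁, 4 / C', 1 - δ, by positivity, by linarith, fun r hr1 hr2 ξ => ?_⟩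
  have hdist : dist r 1 < δ := by
    rw [Real.dist_eq, abs_sub_comm, abs_of_pos (by linarith)]; linarith
  obtain ⟨hb, hF, hN, hr0⟩ := hball hdist
  rw [hh1, sub_zero, Real.norm_eq_abs, Real.norm_eq_abs, abs_sub_comm r 1,
    abs_of_pos (by linarith : 0 < 1 - r)] at hb
  have hhr : h r ≤ C' * (1 - r) := le_trans (le_abs_self _) hb
  have hhr' : h r = 2 + 2 * hess (F G x) ((r / 2) • p, r • p) (k, 0) (k, 0) := by
    show hess (N G x) ((r / 2) • p, r • p) (k, 0) (k, 0) = _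
    rw [hess_N_fst hF hN, hkn]; norm_num
  set a : ℝ := inner ℝ ξ k with ha
  have hpos : 0 < C' * (1 - r) := mul_pos hC' (by linarith)
  set μ : ℝ := 2 * a / (C' * (1 - r)) with hμ
  have h1 := phi_le hB hp hr0 hr2 hF ξ (μ • k)
  have e1 : ((μ • k, 0) : TangentSpace (𝓡 n) x × TangentSpace (𝓡 n) x) = μ • (k, 0) := by
    rw [Prod.smul_mk, smul_zero]
  have e2 : hess (F G x) ((r / 2) • p, r • p) (μ • k, 0) (μ • k, 0) =
      μ ^ 2 * hess (F G x) ((r / 2) • p, r • p) (k, 0) (k, 0) := by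
    rw [e1, map_smul, map_smul, smul_apply, smul_eq_mul, smul_eq_mul]; ring
  have e3 : inner ℝ (μ • k) ξ = μ * a := by
    rw [real_inner_smul_left, real_inner_comm]
  have e4 : ‖μ • k‖ ^ 2 = μ ^ 2 := by
    rw [norm_smul, hkn, mul_one, Real.norm_eq_abs, sq_abs]
  rw [e2, e3, e4] at h1
  have h2 := phi_le_semiconcave hB hsc (hB.smul_mem_I hp (t := r / 2) (by linarith)
    (by linarith)) ξ
  have h3 : μ ^ 2 * h r ≤ μ ^ 2 * (C' * (1 - r)) := mul_le_mul_of_nonneg_left hhr (by positivity)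
  have h4 : G.phi x ξ (r • p) ≤ 4 * C₁ * ‖ξ‖ ^ 2 - 4 * (μ * a) + μ ^ 2 * (C' * (1 - r)) := by
    have h5 : μ ^ 2 * h r = 2 * μ ^ 2 +
        2 * (μ ^ 2 * hess (F G x) ((r / 2) • p, r • p) (k, 0) (k, 0)) := by
      rw [hhr']; ring
    linarith
  have h6 : - 4 * (μ * a) + μ ^ 2 * (C' * (1 - r)) = -(4 / C' * a ^ 2 / (1 - r)) := by
    rw [hμ]
    have h7 : (1 - r) ≠ 0 := by linarith
    field_simp
    ring
  linarith

end Crest.Agent.R226.Focal347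

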