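import Crest.Agent.R226.ChartCost_77

/-!
R226 (helper77), layer C1a: the index lemma (Euclidean form) and the smoothness step.
-/

set_option autoImplicit false

open Bundle Set Filter Topology
open scoped Manifold ContDiff
open Crest.GeometryTopology.MTW
open Crest.Agent.R226.DiffAE225 Crest.Agent.R226.EucMin77 Crest.Agent.R226.MTWConc117
open Crest.Agent.R226.ChartCost77

namespace Crest.Agent.R226.Index77

section euc
variable {E : Type*} [NormedAddCommGroup E] [NormedSpace ℝ E]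
variable {E' : Type*} [NormedAddCommGroup E'] [NormedSpace ℝ E']

theorem eventually_diff {f : E → ℝ} {p : E} (hf : ContDiffAt ℝ 2 f p) :
    ∀ᶠ q in 𝓝 p, DifferentiableAt ℝ f q := by
  have := (hf.of_le (m := 1) (by norm_num)).eventually (by simp)
  filter_upwards [this] with x hx using hx.differentiableAt (by simp)

theorem hasFDerivAt_fderiv {f : E → ℝ} {p : E} (hf : ContDiffAt ℝ 2 f p) :
    HasFDerivAt (fderiv ℝ f) (fderiv ℝ (fderiv ℝ f) p) p :=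
  ((hf.fderiv_right (m := 1) (by norm_num)).differentiableAt (by simp)).hasFDerivAt

theorem hess_comp_affine {f : E → ℝ} (L : E' →L[ℝ] E) (c : E) {p : E'}
    (hf : ContDiffAt ℝ 2 f (L p + c)) (u v : E') :
    fderiv ℝ (fderiv ℝ (fun q => f (L q + c))) p u v =
      fderiv ℝ (fderiv ℝ f) (L p + c) (L u) (L v) := by
  have hc : ContinuousAt (fun q => L q + c) p := by fun_prop
  have h1 : fderiv ℝ (fun q => f (L q + c)) =ᶠ[𝓝 p]
      fun q => (ContinuousLinearMap.compL ℝ E' E ℝ).flip L (fderiv ℝ f (L q + c)) := by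
    filter_upwards [hc.eventually (eventually_diff hf)] with q hq
    have h2 : HasFDerivAt (fun q => L q + c) L q := L.hasFDerivAt.add_const c
    exact (hq.hasFDerivAt.comp q h2).fderiv
  rw [h1.fderiv_eq]
  have h2 : HasFDerivAt (fun q => L q + c) L p := L.hasFDerivAt.add_const c
  have h3 := (hasFDerivAt_fderiv hf).comp p h2
  have h4 := (((ContinuousLinearMap.compL ℝ E' E ℝ).flip L).hasFDerivAt).comp p h3
  have h5 : fderiv ℝ (fun q => (ContinuousLinearMap.compL ℝ E' E ℝ).flip L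
      (fderiv ℝ f (L q + c))) p = _ := h4.fderiv
  rw [h5]
  rfl

theorem hess_add {f g : E → ℝ} {p : E} (hf : ContDiffAt ℝ 2 f p) (hg : ContDiffAt ℝ 2 g p)
    (u v : E) :
    fderiv ℝ (fderiv ℝ (fun q => f q + g q)) p u v =
      fderiv ℝ (fderiv ℝ f) p u v + fderiv ℝ (fderiv ℝ g) p u v := by
  have h1 : fderiv ℝ (fun q => f q + g q) =ᶠ[𝓝 p] fun q => fderiv ℝ f q + fderiv ℝ g q := by
    filter_upwards [eventually_diff hf, eventually_diff hg] with q hq hq'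
    exact (hq.hasFDerivAt.add hq'.hasFDerivAt).fderiv
  rw [h1.fderiv_eq]
  have h2 : fderiv ℝ (fun q => fderiv ℝ f q + fderiv ℝ g q) p = _ :=
    ((hasFDerivAt_fderiv hf).add (hasFDerivAt_fderiv hg)).fderiv
  rw [h2]
  rfl

theorem hess_const_mul {f : E → ℝ} {p : E} (hf : ContDiffAt ℝ 2 f p) (c : ℝ) (u v : E) :
    fderiv ℝ (fderiv ℝ (fun q => c * f q)) p u v = c * fderiv ℝ (fderiv ℝ f) p u v := by
  have h1 : fderiv ℝ (fun q => c * f q) =ᶠ[𝓝 p] fun q => c • fderiv ℝ f q := by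
    filter_upwards [eventually_diff hf] with q hq
    exact (hq.hasFDerivAt.const_mul c).fderiv
  rw [h1.fderiv_eq]
  have h2 : fderiv ℝ (fun q => c • fderiv ℝ f q) p = _ :=
    ((hasFDerivAt_fderiv hf).const_smul c).fderiv
  rw [h2]
  rfl

theorem hess_symm {f : E → ℝ} {p : E} (hf : ContDiffAt ℝ 2 f p) (u v : E) :
    fderiv ℝ (fderiv ℝ f) p u v = fderiv ℝ (fderiv ℝ f) p v u :=
  (hf.isSymmSndFDerivAt (by simp)).eq u v

/-- **index lemma**, Euclidean form. -/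
theorem index_euc {f₁ f₂ : E × E → ℝ} {f₃ : E → ℝ} {a₀ ζ₀ β₀ : E}
    (h1 : ContDiffAt ℝ 2 f₁ (a₀, ζ₀)) (h2 : ContDiffAt ℝ 2 f₂ (ζ₀, β₀))
    (h3 : ContDiffAt ℝ 2 f₃ β₀)
    (hmin : IsLocalMin (fun q : E × E => 2 * f₁ (a₀, q.1) + 2 * f₂ q + f₃ q.2) (ζ₀, β₀))
    (hnd : ∀ h : E, (∀ k : E, fderiv ℝ (fderiv ℝ f₂) (ζ₀, β₀) (0, k) (h, 0) = 0) → h = 0)
    {h : E} (hh : h ≠ 0) :
    0 < fderiv ℝ (fderiv ℝ f₁) (a₀, ζ₀) (0, h) (0, h) +
      fderiv ℝ (fderiv ℝ f₂) (ζ₀, β₀) (h, 0) (h, 0) := by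
  let L₁ : E × E →L[ℝ] E × E := (ContinuousLinearMap.inr ℝ E E) ∘L (ContinuousLinearMap.fst ℝ E E)
  let c₁ : E × E := (a₀, 0)
  have hL₁ : ∀ q : E × E, L₁ q + c₁ = (a₀, q.1) := by
    intro q; simp [L₁, c₁]
  let L₃ : E × E →L[ℝ] E := ContinuousLinearMap.snd ℝ E E
  have hL₃ : ∀ q : E × E, L₃ q + 0 = q.2 := by
    intro q; simp [L₃]
  have h1' : ContDiffAt ℝ 2 f₁ (L₁ (ζ₀, β₀) + c₁) := by rw [hL₁]; exact h1
  have h3' : ContDiffAt ℝ 2 f₃ (L₃ (ζ₀, β₀) + 0) := by rw [hL₃]; exact h3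
  have hg1 : ContDiffAt ℝ 2 (fun q : E × E => f₁ (L₁ q + c₁)) (ζ₀, β₀) :=
    ContDiffAt.comp (ζ₀, β₀) (f := fun q => L₁ q + c₁) h1' (by fun_prop)
  have hg3 : ContDiffAt ℝ 2 (fun q : E × E => f₃ (L₃ q + 0)) (ζ₀, β₀) :=
    ContDiffAt.comp (ζ₀, β₀) (f := fun q => L₃ q + 0) h3' (by fun_prop)
  have hg1' : ContDiffAt ℝ 2 (fun q : E × E => 2 * f₁ (L₁ q + c₁)) (ζ₀, β₀) :=
    contDiffAt_const.mul hg1
  have hg2' : ContDiffAt ℝ 2 (fun q : E × E => 2 * f₂ q) (ζ₀, β₀) := contDiffAt_const.mul h2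
  have hg12 := hg1'.add hg2'
  have hF := hg12.add hg3
  have hFeq : (fun q : E × E => 2 * f₁ (a₀, q.1) + 2 * f₂ q + f₃ q.2) =
      fun q : E × E => (2 * f₁ (L₁ q + c₁) + 2 * f₂ q) + f₃ (L₃ q + 0) := by
    funext q; rw [hL₁, hL₃]
  rw [hFeq] at hmin
  set F : E × E → ℝ := fun q : E × E => (2 * f₁ (L₁ q + c₁) + 2 * f₂ q) + f₃ (L₃ q + 0) with hFdef
  have hF2 : ContDiffAt ℝ 2 F (ζ₀, β₀) := hF
  have hD : ∀ u v : E × E, fderiv ℝ (fderiv ℝ F) (ζ₀, β₀) u v =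
      2 * fderiv ℝ (fderiv ℝ f₁) (a₀, ζ₀) (0, u.1) (0, v.1) +
      2 * fderiv ℝ (fderiv ℝ f₂) (ζ₀, β₀) u v + fderiv ℝ (fderiv ℝ f₃) β₀ u.2 v.2 := by
    intro u v
    have e1 := hess_add (f := fun q => 2 * f₁ (L₁ q + c₁) + 2 * f₂ q)
      (g := fun q => f₃ (L₃ q + 0)) hg12 hg3 u v
    have e2 := hess_add (f := fun q => 2 * f₁ (L₁ q + c₁)) (g := fun q => 2 * f₂ q) hg1' hg2' u v
    have e3 := hess_const_mul hg1 2 u v
    have e4 := hess_const_mul h2 2 u v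
    have e5 := hess_comp_affine L₁ c₁ h1' u v
    have e6 := hess_comp_affine L₃ 0 h3' u v
    rw [hL₁] at e5
    rw [hL₃] at e6
    rw [hFdef, e1, e2, e3, e4, e5, e6]
    simp [L₁, L₃]
  have hpos : ∀ u, 0 ≤ fderiv ℝ (fderiv ℝ F) (ζ₀, β₀) u u := hess_nonneg_of_isLocalMin hF2 hmin
  have hsy : ∀ u v, fderiv ℝ (fderiv ℝ F) (ζ₀, β₀) u v = fderiv ℝ (fderiv ℝ F) (ζ₀, β₀) v u :=
    hess_symm hF2
  have hval : fderiv ℝ (fderiv ℝ F) (ζ₀, β₀) (h, 0) (h, 0) =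
      2 * (fderiv ℝ (fderiv ℝ f₁) (a₀, ζ₀) (0, h) (0, h) +
      fderiv ℝ (fderiv ℝ f₂) (ζ₀, β₀) (h, 0) (h, 0)) := by
    rw [hD]; simp; ring
  by_contra hcon
  push Not at hcon
  have hzero : fderiv ℝ (fderiv ℝ F) (ζ₀, β₀) (h, 0) (h, 0) = 0 := by
    have := hpos (h, 0)
    rw [hval] at this ⊢
    linarith
  apply hh
  apply hnd
  intro k
  have h5 := cross_zero hsy hpos (a := (h, 0)) (b := (0, k)) hzero
  rw [hD] at h5
  simp only [map_zero, ContinuousLinearMap.zero_apply, Prod.mk_zero_zero, mul_zero, zero_add,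
    add_zero] at h5
  rw [hess_symm h2]
  linarith

/-- **smoothness step**, Euclidean form. -/
theorem value_step [FiniteDimensional ℝ E] {f₁ f₂ : E × E → ℝ} {V : E × E → ℝ} {a₀ ζ₀ β₀ : E}
    (h1 : ContDiffAt ℝ ∞ f₁ (a₀, ζ₀)) (h2 : ContDiffAt ℝ ∞ f₂ (ζ₀, β₀))
    (hpos : ∀ h : E, h ≠ 0 → 0 < fderiv ℝ (fderiv ℝ f₁) (a₀, ζ₀) (0, h) (0, h) +
      fderiv ℝ (fderiv ℝ f₂) (ζ₀, β₀) (h, 0) (h, 0))
    {ζ : E × E → E} (hζ : Tendsto ζ (𝓝 (a₀, β₀)) (𝓝 ζ₀))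
    (hV : ∀ᶠ p in 𝓝 (a₀, β₀), V p = 2 * f₁ (p.1, ζ p) + 2 * f₂ (ζ p, p.2))
    (hmin : ∀ᶠ p in 𝓝 (a₀, β₀),
      IsLocalMin (fun z => 2 * f₁ (p.1, z) + 2 * f₂ (z, p.2)) (ζ p)) :
    ContDiffAt ℝ ∞ V (a₀, β₀) := by
  have : CompleteSpace E := FiniteDimensional.complete ℝ E
  let L₁ : (E × E) × E →L[ℝ] E × E :=
    ((ContinuousLinearMap.fst ℝ E E) ∘L (ContinuousLinearMap.fst ℝ (E × E) E)).prod
      (ContinuousLinearMap.snd ℝ (E × E) E)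
  let L₂ : (E × E) × E →L[ℝ] E × E :=
    (ContinuousLinearMap.snd ℝ (E × E) E).prod
      ((ContinuousLinearMap.snd ℝ E E) ∘L (ContinuousLinearMap.fst ℝ (E × E) E))
  have hL₁ : ∀ q : (E × E) × E, L₁ q + 0 = (q.1.1, q.2) := by intro q; simp [L₁]
  have hL₂ : ∀ q : (E × E) × E, L₂ q + 0 = (q.2, q.1.2) := by intro q; simp [L₂]
  set g : (E × E) × E → ℝ := fun q => 2 * f₁ (L₁ q + 0) + 2 * f₂ (L₂ q + 0) with hg
  have hgq : ∀ (p : E × E) (z : E), g (p, z) = 2 * f₁ (p.1, z) + 2 * f₂ (z, p.2) := by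
    intro p z; simp only [hg, hL₁, hL₂]
  have h1' : ContDiffAt ℝ ∞ f₁ (L₁ ((a₀, β₀), ζ₀) + 0) := by rw [hL₁]; exact h1
  have h2' : ContDiffAt ℝ ∞ f₂ (L₂ ((a₀, β₀), ζ₀) + 0) := by rw [hL₂]; exact h2
  have hg1 : ContDiffAt ℝ ∞ (fun q => f₁ (L₁ q + 0)) ((a₀, β₀), ζ₀) :=
    ContDiffAt.comp _ (f := fun q => L₁ q + 0) h1' (by fun_prop)
  have hg2 : ContDiffAt ℝ ∞ (fun q => f₂ (L₂ q + 0)) ((a₀, β₀), ζ₀) :=
    ContDiffAt.comp _ (f := fun q => L₂ q + 0) h2' (by fun_prop)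
  have hg1' : ContDiffAt ℝ ∞ (fun q => 2 * f₁ (L₁ q + 0)) ((a₀, β₀), ζ₀) :=
    contDiffAt_const.mul hg1
  have hg2' : ContDiffAt ℝ ∞ (fun q => 2 * f₂ (L₂ q + 0)) ((a₀, β₀), ζ₀) :=
    contDiffAt_const.mul hg2
  have hgs : ContDiffAt ℝ ∞ g ((a₀, β₀), ζ₀) := hg1'.add hg2'
  have h2le : (2 : WithTop ℕ∞) ≤ ∞ := ENat.LEInfty.out
  have hD : ∀ u v : (E × E) × E, fderiv ℝ (fderiv ℝ g) ((a₀, β₀), ζ₀) u v =
      2 * fderiv ℝ (fderiv ℝ f₁) (a₀, ζ₀) (L₁ u) (L₁ v) +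
      2 * fderiv ℝ (fderiv ℝ f₂) (ζ₀, β₀) (L₂ u) (L₂ v) := by
    intro u v
    have e1 := hess_add (f := fun q => 2 * f₁ (L₁ q + 0)) (g := fun q => 2 * f₂ (L₂ q + 0))
      (hg1'.of_le h2le) (hg2'.of_le h2le) u v
    have e3 := hess_const_mul (hg1.of_le h2le) 2 u v
    have e4 := hess_const_mul (hg2.of_le h2le) 2 u v
    have e5 := hess_comp_affine L₁ 0 (h1'.of_le h2le) u v
    have e6 := hess_comp_affine L₂ 0 (h2'.of_le h2le) u v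
    rw [hL₁] at e5
    rw [hL₂] at e6
    rw [hg, e1, e3, e4, e5, e6]
  have hζ₀ : ζ (a₀, β₀) = ζ₀ := eq_of_tendsto_nhds hζ
  have hgdiff : DifferentiableAt ℝ g ((a₀, β₀), ζ₀) := hgs.differentiableAt (by simp)
  have hfirst : fderiv ℝ g ((a₀, β₀), ζ₀) ∘L ContinuousLinearMap.inr ℝ (E × E) E = 0 := by
    have h5 : HasFDerivAt (fun z : E => g ((a₀, β₀), z))
        (fderiv ℝ g ((a₀, β₀), ζ₀) ∘L ContinuousLinearMap.inr ℝ (E × E) E) ζ₀ :=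
      hgdiff.hasFDerivAt.comp ζ₀ (hasFDerivAt_prodMk_right _ _)
    have h6 := hmin.self_of_nhds
    rw [hζ₀] at h6
    have h7 : IsLocalMin (fun z : E => g ((a₀, β₀), z)) ζ₀ := by
      simpa only [hgq] using h6
    exact h7.hasFDerivAt_eq_zero h5
  refine contDiffAt_value hgs ?_ hζ hfirst ?_ ?_
  · intro h hh
    rw [hD]
    have := hpos h hh
    have e1 : L₁ (0, h) = (0, h) := by simp [L₁]
    have e2 : L₂ (0, h) = (h, 0) := by simp [L₂]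
    rw [e1, e2]
    linarith
  · filter_upwards [hV] with p hp
    rw [hgq, hp]
  · filter_upwards [hmin] with p hp
    simpa only [hgq] using hp

end euc

end Crest.Agent.R226.Index77
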