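import Mathlib

/-!
R226 (helper77): Euclidean calculus lemmas for the cut-locus layer.
* `hess_nonneg_of_isLocalMin` : second order necessary condition
* `contDiffAt_value` : smoothness of a value function `V p = min_z g (p, z)` at a nondegenerate minimiser
* `cross_zero` : a positive semidefinite Hessian with a null vector in one block has zero cross term
-/

set_option autoImplicit false

open Set Filter Topology
open scoped ContDiff

namespace Crest.Agent.R226.EucMin77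

variable {E : Type*} [NormedAddCommGroup E] [NormedSpace ℝ E]
variable {E₁ : Type*} [NormedAddCommGroup E₁] [NormedSpace ℝ E₁]
variable {E₂ : Type*} [NormedAddCommGroup E₂] [NormedSpace ℝ E₂]

/-- derivative along a line, `C²` at the point: near `0` -/
theorem hasDerivAt_line {f : E → ℝ} {p h : E} (hf : ContDiffAt ℝ 1 f p) :
    ∀ᶠ t : ℝ in 𝓝 0, HasDerivAt (fun t : ℝ => f (p + t • h)) (fderiv ℝ f (p + t • h) h) t := by
  have h1 : ∀ᶠ x in 𝓝 p, DifferentiableAt ℝ f x := by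
    have := hf.eventually (by simp)
    filter_upwards [this] with x hx using hx.differentiableAt (by simp)
  have h2 : Tendsto (fun t : ℝ => p + t • h) (𝓝 0) (𝓝 p) := by
    have : Continuous (fun t : ℝ => p + t • h) := by fun_prop
    simpa using this.tendsto 0
  filter_upwards [h2.eventually h1] with t ht
  have h3 : HasDerivAt (fun t : ℝ => p + t • h) h t := by
    simpa using (((hasDerivAt_id t).smul_const h).const_add p)
  exact ht.hasFDerivAt.comp_hasDerivAt t h3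

theorem hasDerivAt_line2 {f : E → ℝ} {p h : E} (hf : ContDiffAt ℝ 2 f p) :
    HasDerivAt (fun t : ℝ => fderiv ℝ f (p + t • h) h) (fderiv ℝ (fderiv ℝ f) p h h) 0 := by
  have h1 : ContDiffAt ℝ 1 (fderiv ℝ f) p := hf.fderiv_right (by norm_num)
  have h2 : HasFDerivAt (fderiv ℝ f) (fderiv ℝ (fderiv ℝ f) p) p :=
    (h1.differentiableAt (by simp)).hasFDerivAt
  have h3 : HasDerivAt (fun t : ℝ => p + t • h) h 0 := by
    simpa using (((hasDerivAt_id (0 : ℝ)).smul_const h).const_add p)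
  have h4 : HasFDerivAt (fderiv ℝ f) (fderiv ℝ (fderiv ℝ f) p) (p + (0 : ℝ) • h) := by
    simpa using h2
  have h5 := h4.comp_hasDerivAt (0 : ℝ) h3
  have h6 := h5.clm_apply (hasDerivAt_const (0 : ℝ) h)
  simpa using h6

theorem hess_nonneg_of_isLocalMin {f : E → ℝ} {p : E} (hf : ContDiffAt ℝ 2 f p)
    (hmin : IsLocalMin f p) (h : E) : 0 ≤ fderiv ℝ (fderiv ℝ f) p h h := by
  by_contra hneg
  push Not at hneg
  set g : ℝ → ℝ := fun t => f (p + t • h) with hg
  have hg1 : ∀ᶠ t : ℝ in 𝓝 0, deriv g t = fderiv ℝ f (p + t • h) h := by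
    filter_upwards [hasDerivAt_line (h := h) (hf.of_le (by norm_num))] with t ht using ht.deriv
  have hg2 : deriv (deriv g) 0 = fderiv ℝ (fderiv ℝ f) p h h := by
    rw [Filter.EventuallyEq.deriv_eq hg1]
    exact (hasDerivAt_line2 hf).deriv
  have hcont : Continuous (fun t : ℝ => p + t • h) := by fun_prop
  have htend : Tendsto (fun t : ℝ => p + t • h) (𝓝 0) (𝓝 p) := by
    simpa using hcont.tendsto 0
  have hgmin : IsLocalMin g 0 := by
    have := htend.eventually hmin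
    simpa [IsLocalMin, IsMinFilter, hg] using this
  have hg0 : deriv g 0 = 0 := hgmin.deriv_eq_zero
  have hgc : ContinuousAt g 0 := by
    have : ContinuousAt f (p + (0 : ℝ) • h) := by simpa using hf.continuousAt
    exact ContinuousAt.comp (f := fun t : ℝ => p + t • h) this hcont.continuousAt
  have hgmax : IsLocalMax g 0 :=
    isLocalMax_of_deriv_deriv_neg (by rw [hg2]; exact hneg) hg0 hgc
  have hconst : g =ᶠ[𝓝 0] fun _ => g 0 := by
    filter_upwards [hgmin, hgmax] with t h1 h2 using le_antisymm h2 h1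
  have hd : deriv g =ᶠ[𝓝 0] fun _ => 0 := by
    filter_upwards [hconst.deriv] with t ht
    rw [ht]; simp
  have : deriv (deriv g) 0 = 0 := by
    rw [hd.deriv_eq]; simp
  rw [hg2] at this
  linarith

/-- If `Q ≥ 0` is a symmetric bilinear form and `Q (a + s b, a + s b) ≥ 0` with `Q (a, a) = 0`
then the cross term vanishes. -/
theorem cross_zero {Q : E →L[ℝ] E →L[ℝ] ℝ} (hsymm : ∀ u v, Q u v = Q v u)
    (hpos : ∀ u, 0 ≤ Q u u) {a b : E} (ha : Q a a = 0) : Q a b = 0 := by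
  have key : ∀ s : ℝ, 0 ≤ 2 * s * Q a b + s ^ 2 * Q b b := by
    intro s
    have h := hpos (a + s • b)
    simp only [map_add, ContinuousLinearMap.add_apply, map_smul, ContinuousLinearMap.smul_apply,
      smul_eq_mul] at h
    rw [hsymm b a, ha] at h
    nlinarith
  by_contra hne
  have hb := hpos b
  -- choose s = - ε * Q a b
  rcases eq_or_lt_of_le hb with h0 | h0
  · have := key (-(Q a b))
    rw [← h0] at this
    have h2 : 0 < (Q a b) ^ 2 := by positivity
    nlinarith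
  · have := key (-(Q a b) / (Q b b))
    have h2 : 0 < (Q a b) ^ 2 := by positivity
    have h3 : 2 * (-(Q a b) / (Q b b)) * Q a b + (-(Q a b) / (Q b b)) ^ 2 * Q b b
        = -((Q a b) ^ 2 / Q b b) := by
      field_simp
      ring
    rw [h3] at this
    have h4 : 0 < (Q a b) ^ 2 / Q b b := by positivity
    linarith

/-- Smoothness of a value function at a nondegenerate minimiser. -/
theorem contDiffAt_value [CompleteSpace E₁] [FiniteDimensional ℝ E₂]
    {g : E₁ × E₂ → ℝ} {p₀ : E₁} {z₀ : E₂} (hg : ContDiffAt ℝ ∞ g (p₀, z₀))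
    (hpos : ∀ h : E₂, h ≠ 0 → 0 < fderiv ℝ (fderiv ℝ g) (p₀, z₀) (0, h) (0, h))
    {V : E₁ → ℝ} {ζ : E₁ → E₂} (hζ : Tendsto ζ (𝓝 p₀) (𝓝 z₀))
    (h0 : fderiv ℝ g (p₀, z₀) ∘L ContinuousLinearMap.inr ℝ E₁ E₂ = 0)
    (hV : ∀ᶠ p in 𝓝 p₀, V p = g (p, ζ p))
    (hmin : ∀ᶠ p in 𝓝 p₀, IsLocalMin (fun z => g (p, z)) (ζ p)) :
    ContDiffAt ℝ ∞ V p₀ := by
  haveI : CompleteSpace E₂ := FiniteDimensional.complete ℝ E₂
  set F : E₁ × E₂ → (E₂ →L[ℝ] ℝ) := fun q => fderiv ℝ g q ∘L ContinuousLinearMap.inr ℝ E₁ E₂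
    with hF
  have hfd : ContDiffAt ℝ ∞ (fderiv ℝ g) (p₀, z₀) := hg.fderiv_right (by simp)
  have hFc : ContDiffAt ℝ ∞ F (p₀, z₀) := by
    have : ContDiffAt ℝ ∞ (fun q : E₁ × E₂ => ((ContinuousLinearMap.compL ℝ E₂ (E₁ × E₂) ℝ).flip
        (ContinuousLinearMap.inr ℝ E₁ E₂)) (fderiv ℝ g q)) (p₀, z₀) :=
      ContDiffAt.continuousLinearMap_comp _ hfd
    exact this
  have hFd : fderiv ℝ F (p₀, z₀) = ((ContinuousLinearMap.compL ℝ E₂ (E₁ × E₂) ℝ).flip
        (ContinuousLinearMap.inr ℝ E₁ E₂)) ∘L (fderiv ℝ (fderiv ℝ g) (p₀, z₀)) := by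
    have h1 : HasFDerivAt (fderiv ℝ g) (fderiv ℝ (fderiv ℝ g) (p₀, z₀)) (p₀, z₀) :=
      (hfd.differentiableAt (by simp)).hasFDerivAt
    exact ((((ContinuousLinearMap.compL ℝ E₂ (E₁ × E₂) ℝ).flip
        (ContinuousLinearMap.inr ℝ E₁ E₂)).hasFDerivAt).comp _ h1).fderiv
  have happ : ∀ h k : E₂, (fderiv ℝ F (p₀, z₀) ∘L ContinuousLinearMap.inr ℝ E₁ E₂) h k =
      fderiv ℝ (fderiv ℝ g) (p₀, z₀) (0, h) (0, k) := by
    intro h k
    rw [hFd]
    simp
  have hinj : Function.Injective (fderiv ℝ F (p₀, z₀) ∘L ContinuousLinearMap.inr ℝ E₁ E₂) := by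
    rw [injective_iff_map_eq_zero]
    intro h hh
    by_contra hne
    have h1 := hpos h hne
    rw [← happ h h, hh] at h1
    simp at h1
  have hfin : Module.finrank ℝ E₂ = Module.finrank ℝ (E₂ →L[ℝ] ℝ) := by
    rw [← (LinearMap.toContinuousLinearMap (𝕜 := ℝ) (E := E₂) (F' := ℝ)).finrank_eq]
    exact (Subspace.dual_finrank_eq (K := ℝ) (V := E₂)).symm
  have hinv : (fderiv ℝ F (p₀, z₀) ∘L ContinuousLinearMap.inr ℝ E₁ E₂).IsInvertible := by
    set L := (fderiv ℝ F (p₀, z₀) ∘L ContinuousLinearMap.inr ℝ E₁ E₂)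
    have e := LinearEquiv.ofInjectiveOfFinrankEq (L : E₂ →ₗ[ℝ] (E₂ →L[ℝ] ℝ)) hinj hfin
    refine ⟨(LinearEquiv.ofInjectiveOfFinrankEq (L : E₂ →ₗ[ℝ] (E₂ →L[ℝ] ℝ)) hinj hfin).toContinuousLinearEquiv, ?_⟩
    ext x y
    rfl
  have hne : (∞ : WithTop ℕ∞) ≠ 0 := by simp
  have key := hFc.eventually_apply_eq_iff_implicitFunction hne hinv
  have hψ := hFc.contDiffAt_implicitFunction hne hinv
  have hψ0 := hFc.implicitFunction_apply_self hne hinv
  set ψ := hFc.implicitFunction hne hinv with hψdef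
  have htend : Tendsto (fun p => (p, ζ p)) (𝓝 p₀) (𝓝 (p₀, z₀)) :=
    (tendsto_id).prodMk_nhds hζ
  have hFz : ∀ᶠ p in 𝓝 p₀, F (p, ζ p) = 0 := by
    have hdiff : ∀ᶠ q in 𝓝 (p₀, z₀), DifferentiableAt ℝ g q := by
      have := (hg.of_le (m := 1) (by simp)).eventually (by simp)
      filter_upwards [this] with q hq using hq.differentiableAt (by simp)
    filter_upwards [hmin, htend.eventually hdiff] with p hp hd
    have h1 : HasFDerivAt (fun z => g (p, z)) (fderiv ℝ g (p, ζ p) ∘L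
        ContinuousLinearMap.inr ℝ E₁ E₂) (ζ p) :=
      hd.hasFDerivAt.comp (ζ p) (hasFDerivAt_prodMk_right p (ζ p))
    exact hp.hasFDerivAt_eq_zero h1
  have hFu : F (p₀, z₀) = 0 := h0
  have heq : ∀ᶠ p in 𝓝 p₀, ψ p = ζ p := by
    filter_upwards [htend.eventually key, hFz] with p hp hz
    exact hp.1 (by rw [hz, hFu])
  have hV' : V =ᶠ[𝓝 p₀] fun p => g (p, ψ p) := by
    filter_upwards [hV, heq] with p hp hz
    rw [hp, hz]
  refine ContDiffAt.congr_of_eventuallyEq ?_ hV'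
  have hψ0' : ψ p₀ = z₀ := hψ0
  have h1 : ContDiffAt ℝ ∞ g (p₀, ψ p₀) := by rw [hψ0']; exact hg
  exact ContDiffAt.comp (f := fun p => (p, ψ p)) p₀ h1 (contDiffAt_id.prodMk hψ)

end Crest.Agent.R226.EucMin77
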