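/-
R226 / E2-NF (helper946): abstract calculus of the normal form.
`F : E × E → ℝ` stands for `F G x (w, b) = c(exp_x w, exp_x b)`; `Hf G x = HfA (F G x)` by `rfl`.
-/
import Crest.Agent.R226.Calc2_347
import Crest.Agent.R226.EucMin_77

set_option autoImplicit false

open Set Filter
open scoped ContDiff Topology
open Crest.Agent.R226.Calc347

namespace Crest.Agent.R226.NF946

theorem two_le_infty : (2 : WithTop ℕ∞) ≤ (∞ : WithTop ℕ∞) := ENat.LEInfty.out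

theorem one_le_infty : (1 : WithTop ℕ∞) ≤ (∞ : WithTop ℕ∞) := ENat.LEInfty.out

theorem one_le_two' : (1 : WithTop ℕ∞) ≤ 2 := by norm_num

section gen
variable {E : Type*} [NormedAddCommGroup E] [NormedSpace ℝ E]
variable {E' : Type*} [NormedAddCommGroup E'] [NormedSpace ℝ E']

theorem eventually_contDiffAt {f : E → ℝ} {p : E} {k : ℕ} (hf : ContDiffAt ℝ k f p) :
    ∀ᶠ q in 𝓝 p, ContDiffAt ℝ k f q := hf.eventually (by simp)

theorem eventually_diffAt {f : E → ℝ} {p : E} (hf : ContDiffAt ℝ 1 f p) :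
    ∀ᶠ q in 𝓝 p, DifferentiableAt ℝ f q := by
  filter_upwards [hf.eventually (by simp)] with x hx using hx.differentiableAt (by simp)

theorem hasFDerivAt_fderiv' {f : E → ℝ} {p : E} (hf : ContDiffAt ℝ 2 f p) :
    HasFDerivAt (fderiv ℝ f) (hess f p) p :=
  ((hf.fderiv_right (m := 1) (by norm_num)).differentiableAt (by simp)).hasFDerivAt

theorem hess_comp_affine' {f : E → ℝ} (L : E' →L[ℝ] E) (c : E) {p : E'}
    (hf : ContDiffAt ℝ 2 f (L p + c)) (u v : E') :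
    hess (fun q => f (L q + c)) p u v = hess f (L p + c) (L u) (L v) := by
  have hc : ContinuousAt (fun q => L q + c) p := by fun_prop
  have h1 : fderiv ℝ (fun q => f (L q + c)) =ᶠ[𝓝 p]
      fun q => (ContinuousLinearMap.compL ℝ E' E ℝ).flip L (fderiv ℝ f (L q + c)) := by
    filter_upwards [hc.eventually (eventually_diffAt (hf.of_le one_le_two'))] with q hq
    have h2 : HasFDerivAt (fun q => L q + c) L q := L.hasFDerivAt.add_const c
    exact (hq.hasFDerivAt.comp q h2).fderiv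
  unfold hess
  rw [h1.fderiv_eq]
  have h2 : HasFDerivAt (fun q => L q + c) L p := L.hasFDerivAt.add_const c
  have h3 := (hasFDerivAt_fderiv' hf).comp p h2
  have h4 := (((ContinuousLinearMap.compL ℝ E' E ℝ).flip L).hasFDerivAt).comp p h3
  have h5 : fderiv ℝ (fun q => (ContinuousLinearMap.compL ℝ E' E ℝ).flip L
      (fderiv ℝ f (L q + c))) p = _ := h4.fderiv
  rw [h5]
  rfl

theorem hess_add' {f g : E → ℝ} {p : E} (hf : ContDiffAt ℝ 2 f p) (hg : ContDiffAt ℝ 2 g p)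
    (u v : E) :
    hess (fun q => f q + g q) p u v = hess f p u v + hess g p u v := by
  have h1 : fderiv ℝ (fun q => f q + g q) =ᶠ[𝓝 p] fun q => fderiv ℝ f q + fderiv ℝ g q := by
    filter_upwards [eventually_diffAt (hf.of_le one_le_two'),
      eventually_diffAt (hg.of_le one_le_two')] with q hq hq'
    exact (hq.hasFDerivAt.add hq'.hasFDerivAt).fderiv
  unfold hess
  rw [h1.fderiv_eq]
  have h2 : fderiv ℝ (fun q => fderiv ℝ f q + fderiv ℝ g q) p = _ :=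
    ((hasFDerivAt_fderiv' hf).add (hasFDerivAt_fderiv' hg)).fderiv
  rw [h2]
  rfl

theorem hess_const_mul' {f : E → ℝ} {p : E} (hf : ContDiffAt ℝ 2 f p) (c : ℝ) (u v : E) :
    hess (fun q => c * f q) p u v = c * hess f p u v := by
  have h1 : fderiv ℝ (fun q => c * f q) =ᶠ[𝓝 p] fun q => c • fderiv ℝ f q := by
    filter_upwards [eventually_diffAt (hf.of_le one_le_two')] with q hq
    exact (hq.hasFDerivAt.const_mul c).fderiv
  unfold hess
  rw [h1.fderiv_eq]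
  have h2 : fderiv ℝ (fun q => c • fderiv ℝ f q) p = _ :=
    ((hasFDerivAt_fderiv' hf).const_smul c).fderiv
  rw [h2]
  rfl

end gen

section abs
variable {E : Type*} [NormedAddCommGroup E] [InnerProductSpace ℝ E]

noncomputable local instance (priority := 2000) iP1 : NormedAddCommGroup (E × E) :=
  Prod.normedAddCommGroup
noncomputable local instance (priority := 2000) iP2 : NormedSpace ℝ (E × E) := Prod.normedSpace

theorem hess_norm_sq (p u v : E) : hess (fun q : E => ‖q‖ ^ 2) p u v = 2 * inner ℝ u v := by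
  have h1 : fderiv ℝ (fun q : E => ‖q‖ ^ 2) = fun q => (2 • innerSL ℝ) q := by
    funext q
    exact (hasStrictFDerivAt_norm_sq q).hasFDerivAt.fderiv
  unfold hess
  rw [h1, (2 • innerSL ℝ : E →L[ℝ] E →L[ℝ] ℝ).fderiv]
  show (2 • innerSL ℝ u : E →L[ℝ] ℝ) v = _
  simp

/-- `rho(p') = ‖p'‖²/4 + 2 F(p'/2, p)` -/
noncomputable def rhoA (F : E × E → ℝ) (p p' : E) : ℝ := ‖p'‖ ^ 2 / 4 + 2 * F ((1 / 2 : ℝ) • p', p)

/-- the normal form Hessian -/
noncomputable def HfA (F : E × E → ℝ) (p : E) : E →L[ℝ] E →L[ℝ] ℝ :=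
  fderiv ℝ (fderiv ℝ (rhoA F p)) p

theorem HfA_apply {F : E × E → ℝ} {p : E} (h : ContDiffAt ℝ 2 F ((1 / 2 : ℝ) • p, p)) (u v : E) :
    HfA F p u v = inner ℝ u v / 2 + hess F ((1 / 2 : ℝ) • p, p) (u, 0) (v, 0) / 2 := by
  let L : E →L[ℝ] E × E := (1 / 2 : ℝ) • ContinuousLinearMap.inl ℝ E E
  have hL : ∀ q : E, L q + (0, p) = ((1 / 2 : ℝ) • q, p) := by intro q; simp [L]
  have e : rhoA F p = fun q => (1 / 4 : ℝ) * ‖q‖ ^ 2 + 2 * F (L q + (0, p)) := by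
    funext q
    rw [hL]; unfold rhoA; ring
  have h1 : ContDiffAt ℝ 2 (fun q : E => ‖q‖ ^ 2) p := (contDiff_norm_sq ℝ).contDiffAt
  have h1' : ContDiffAt ℝ 2 (fun q : E => (1 / 4 : ℝ) * ‖q‖ ^ 2) p := contDiffAt_const.mul h1
  have h2 : ContDiffAt ℝ 2 F (L p + (0, p)) := by rw [hL]; exact h
  have h3 : ContDiffAt ℝ 2 (fun q => F (L q + (0, p))) p :=
    ContDiffAt.comp p (f := fun q => L q + (0, p)) h2 (by fun_prop)
  have h3' : ContDiffAt ℝ 2 (fun q => 2 * F (L q + (0, p))) p := contDiffAt_const.mul h3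
  show hess (rhoA F p) p u v = _
  rw [e, hess_add' h1' h3', hess_const_mul' h1, hess_const_mul' h3, hess_comp_affine' L _ h2,
    hess_norm_sq, hL]
  have e1 : L u = (1 / 2 : ℝ) • ((u, 0) : E × E) := by simp [L]
  have e2 : L v = (1 / 2 : ℝ) • ((v, 0) : E × E) := by simp [L]
  rw [e1, e2, map_smul, map_smul, smul_apply, smul_eq_mul, smul_eq_mul]
  ring

/-- joint smoothness of `rhoA` -/
theorem contDiffAt_rhoA {F : E × E → ℝ} {p p' : E} (h : ContDiffAt ℝ ∞ F ((1 / 2 : ℝ) • p', p)) :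
    ContDiffAt ℝ ∞ (fun q : E × E => rhoA F q.1 q.2) (p, p') := by
  have h1 : ContDiffAt ℝ ∞ (fun q : E × E => ‖q.2‖ ^ 2 / 4) (p, p') :=
    ((contDiff_norm_sq ℝ).contDiffAt.comp (p, p') contDiffAt_snd).div_const 4
  have h2 : ContDiffAt ℝ ∞ (fun q : E × E => ((1 / 2 : ℝ) • q.2, q.1)) (p, p') := by fun_prop
  have h3 : ContDiffAt ℝ ∞ (fun q : E × E => F ((1 / 2 : ℝ) • q.2, q.1)) (p, p') :=
    ContDiffAt.comp (p, p') (g := F) h h2
  exact h1.add (contDiffAt_const.mul h3)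

theorem contDiffAt_rhoA_snd {F : E × E → ℝ} {p p' : E}
    (h : ContDiffAt ℝ ∞ F ((1 / 2 : ℝ) • p', p)) : ContDiffAt ℝ ∞ (rhoA F p) p' := by
  have h2 : ContDiffAt ℝ ∞ (fun p' : E => (p, p')) p' := contDiffAt_const.prodMk contDiffAt_id
  exact ContDiffAt.comp p' (g := fun q : E × E => rhoA F q.1 q.2) (contDiffAt_rhoA h) h2

/-- the derivatives of `N(q) = ‖q.1‖² + 2 F q` -/
theorem hess_NA {F : E × E → ℝ} {q : E × E} (h : ContDiffAt ℝ 2 F q) (u v : E) :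
    hess (fun q : E × E => ‖q.1‖ ^ 2 + 2 * F q) q (u, 0) (v, 0) =
      2 * inner ℝ u v + 2 * hess F q (u, 0) (v, 0) := by
  have hsq : ContDiffAt ℝ 2 (fun q : E × E => ‖q.1‖ ^ 2) q :=
    (contDiff_norm_sq ℝ).contDiffAt.comp q contDiffAt_fst
  have h2F : ContDiffAt ℝ 2 (fun q => 2 * F q) q := contDiffAt_const.mul h
  have h3 : hess (fun q : E × E => ‖q.1‖ ^ 2) q (u, 0) (v, 0) = 2 * inner ℝ u v := by
    have h4 := hess_comp_affine' (f := fun q : E => ‖q‖ ^ 2)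
      (ContinuousLinearMap.fst ℝ E E) 0 (p := q) (contDiff_norm_sq ℝ).contDiffAt (u, 0) (v, 0)
    rw [hess_norm_sq] at h4
    simpa using h4
  rw [hess_add' hsq h2F, hess_const_mul' h, h3]

theorem fderiv_NA {F : E × E → ℝ} {q : E × E} (h : DifferentiableAt ℝ F q) (v : E) :
    fderiv ℝ (fun q : E × E => ‖q.1‖ ^ 2 + 2 * F q) q (v, 0) =
      2 * inner ℝ q.1 v + 2 * fderiv ℝ F q (v, 0) := by
  have h1 : HasFDerivAt (fun q : E × E => q.1) (ContinuousLinearMap.fst ℝ E E) q := hasFDerivAt_fst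
  have hsq : HasFDerivAt (fun q : E × E => ‖q.1‖ ^ 2)
      ((2 • (innerSL ℝ q.1)).comp (ContinuousLinearMap.fst ℝ E E)) q :=
    (hasStrictFDerivAt_norm_sq q.1).hasFDerivAt.comp q h1
  have h2 := (hsq.add (h.hasFDerivAt.const_mul 2)).fderiv
  have h4 := congrArg (fun L : E × E →L[ℝ] ℝ => L (v, 0)) h2
  refine h4.trans ?_
  simp

/-- joint smoothness of the first derivative of `rhoA` -/
theorem contDiffAt_fderiv_rhoA {F : E × E → ℝ} {p p' : E}
    (h : ContDiffAt ℝ ∞ F ((1 / 2 : ℝ) • p', p)) :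
    ContDiffAt ℝ ∞ (fun q : E × E => fderiv ℝ (rhoA F q.1) q.2) (p, p') := by
  have h2 : ContDiffAt ℝ ∞ (fun z : (E × E) × E => (z.1.1, z.2)) ((p, p'), p') := by fun_prop
  have h1 : ContDiffAt ℝ ∞ (Function.uncurry (fun (q : E × E) (p'' : E) => rhoA F q.1 p''))
      ((p, p'), p') :=
    ContDiffAt.comp ((p, p'), p') (g := fun q : E × E => rhoA F q.1 q.2) (contDiffAt_rhoA h) h2
  exact ContDiffAt.fderiv (f := fun (q : E × E) (p'' : E) => rhoA F q.1 p'')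
    (g := fun q : E × E => q.2) (x₀ := (p, p')) (m := ∞) h1 contDiffAt_snd (by simp)

/-- smoothness of the normal form Hessian -/
theorem contDiffAt_HfA {F : E × E → ℝ} {p : E} (h : ContDiffAt ℝ ∞ F ((1 / 2 : ℝ) • p, p)) :
    ContDiffAt ℝ ∞ (HfA F) p :=
  ContDiffAt.fderiv (f := fun (p p' : E) => fderiv ℝ (rhoA F p) p')
    (g := fun p : E => p) (x₀ := p) (m := ∞) (contDiffAt_fderiv_rhoA h) contDiffAt_id (by simp)

theorem HfA_symm {F : E × E → ℝ} {p : E} (h : ContDiffAt ℝ 2 F ((1 / 2 : ℝ) • p, p)) (u v : E) :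
    HfA F p u v = HfA F p v u := by
  rw [HfA_apply h, HfA_apply h, hess_symm h, real_inner_comm]

/-- derivative of the relation `D_w F(p/2, p) η = -⟪p, η⟫/2` : the mixed derivative is `-HfA` -/
theorem HfA_mixed {F : E × E → ℝ} {p : E} (h : ContDiffAt ℝ 2 F ((1 / 2 : ℝ) • p, p))
    {η : E} (hrel : ∀ᶠ q in 𝓝 p, fderiv ℝ F ((1 / 2 : ℝ) • q, q) (η, 0) = -(inner ℝ q η) / 2)
    (θ : E) : hess F ((1 / 2 : ℝ) • p, p) (0, θ) (η, 0) = -HfA F p θ η := by
  have hγ : HasDerivAt (fun s : ℝ => (((1 / 2 : ℝ) • (p + s • θ), p + s • θ) : E × E))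
      ((1 / 2 : ℝ) • θ, θ) 0 := by
    have h2 : HasDerivAt (fun s : ℝ => p + s • θ) θ 0 := by
      have := ((hasDerivAt_id (0 : ℝ)).smul_const θ).const_add p
      simpa using this
    exact (h2.const_smul (1 / 2 : ℝ)).prodMk h2
  have hc : ContinuousAt (fun s : ℝ => p + s • θ) 0 := by fun_prop
  have hc0 : p + (0 : ℝ) • θ = p := by simp
  have h3 : HasFDerivAt (fderiv ℝ F) (hess F ((1 / 2 : ℝ) • p, p))
      ((1 / 2 : ℝ) • (p + (0 : ℝ) • θ), p + (0 : ℝ) • θ) := by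
    rw [hc0]; exact hasFDerivAt_fderiv' h
  have h4 := h3.comp_hasDerivAt (0 : ℝ) hγ
  have h5 : HasDerivAt (fun s : ℝ => fderiv ℝ F ((1 / 2 : ℝ) • (p + s • θ), p + s • θ) (η, 0))
      (hess F ((1 / 2 : ℝ) • p, p) ((1 / 2 : ℝ) • θ, θ) (η, 0)) 0 := by
    have := h4.clm_apply (hasDerivAt_const (0 : ℝ) ((η, 0) : E × E))
    simpa using this
  have h6 : ∀ᶠ s : ℝ in 𝓝 0, fderiv ℝ F ((1 / 2 : ℝ) • (p + s • θ), p + s • θ) (η, 0) =
      -(inner ℝ (p + s • θ) η) / 2 := by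
    have h9 : ∀ᶠ y in 𝓝 (p + (0 : ℝ) • θ),
        fderiv ℝ F ((1 / 2 : ℝ) • y, y) (η, 0) = -(inner ℝ y η) / 2 := by
      rw [hc0]; exact hrel
    exact hc.eventually h9
  have h7 : HasDerivAt (fun s : ℝ => -(inner ℝ (p + s • θ) η) / 2) (-(inner ℝ θ η) / 2) 0 := by
    have e : (fun s : ℝ => -(inner ℝ (p + s • θ) η) / 2) =
        fun s : ℝ => -(inner ℝ p η) / 2 + s * (-(inner ℝ θ η) / 2) := by
      funext s
      rw [inner_add_left, real_inner_smul_left]; ring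
    rw [e]
    have := ((hasDerivAt_id (0 : ℝ)).mul_const (-(inner ℝ θ η) / 2)).const_add (-(inner ℝ p η) / 2)
    simpa using this
  have h8 := h5.unique (h7.congr_of_eventuallyEq h6)
  have e1 : (((1 / 2 : ℝ) • θ, θ) : E × E) = (1 / 2 : ℝ) • (θ, 0) + (0, θ) := by simp
  rw [e1, map_add, map_smul, add_apply, smul_apply, smul_eq_mul] at h8
  rw [HfA_apply h]
  linarith

end abs

section value
variable {E₁ : Type*} [NormedAddCommGroup E₁] [NormedSpace ℝ E₁]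
variable {E₂ : Type*} [NormedAddCommGroup E₂] [NormedSpace ℝ E₂]

/-- Smoothness of a nondegenerate minimiser (same proof as `EucMin77.contDiffAt_value`). -/
theorem contDiffAt_minimiser [CompleteSpace E₁] [FiniteDimensional ℝ E₂]
    {g : E₁ × E₂ → ℝ} {p₀ : E₁} {z₀ : E₂} (hg : ContDiffAt ℝ ∞ g (p₀, z₀))
    (hpos : ∀ h : E₂, h ≠ 0 → 0 < fderiv ℝ (fderiv ℝ g) (p₀, z₀) (0, h) (0, h))
    {ζ : E₁ → E₂} (hζ : Tendsto ζ (𝓝 p₀) (𝓝 z₀))
    (h0 : fderiv ℝ g (p₀, z₀) ∘L ContinuousLinearMap.inr ℝ E₁ E₂ = 0)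
    (hmin : ∀ᶠ p in 𝓝 p₀, IsLocalMin (fun z => g (p, z)) (ζ p)) :
    ContDiffAt ℝ ∞ ζ p₀ := by
  have : CompleteSpace E₂ := FiniteDimensional.complete ℝ E₂
  set F : E₁ × E₂ → (E₂ →L[ℝ] ℝ) := fun q => fderiv ℝ g q ∘L ContinuousLinearMap.inr ℝ E₁ E₂
    with hF
  have hfd : ContDiffAt ℝ ∞ (fderiv ℝ g) (p₀, z₀) := hg.fderiv_right (by simp)
  have hFc : ContDiffAt ℝ ∞ F (p₀, z₀) := by
    have : ContDiffAt ℝ ∞ (fun q : E₁ × E₂ => ((ContinuousLinearMap.compL ℝ E₂ (E₁ × E₂) ℝ).flip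
        (ContinuousLinearMap.inr ℝ E₁ E₂)) (fderiv ℝ g q)) (p₀, z₀) :=
      ContDiffAt.continuousLinearMap_comp _ hfd
    exact this
  have hFd : fderiv ℝ F (p₀, z₀) = ((ContinuousLinearMap.compL ℝ E₂ (E₁ × E₂) ℝ).flip
        (ContinuousLinearMap.inr ℝ E₁ E₂)) ∘L (fderiv ℝ (fderiv ℝ g) (p₀, z₀)) := by
    have h1 : HasFDerivAt (fderiv ℝ g) (fderiv ℝ (fderiv ℝ g) (p₀, z₀)) (p₀, z₀) :=
      (hfd.differentiableAt (by simp)).hasFDerivAt
    exact ((((ContinuousLinearMap.compL ℝ E₂ (E₁ × E₂) ℝ).flip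
        (ContinuousLinearMap.inr ℝ E₁ E₂)).hasFDerivAt).comp _ h1).fderiv
  have happ : ∀ h k : E₂, (fderiv ℝ F (p₀, z₀) ∘L ContinuousLinearMap.inr ℝ E₁ E₂) h k =
      fderiv ℝ (fderiv ℝ g) (p₀, z₀) (0, h) (0, k) := by
    intro h k
    rw [hFd]
    simp
  have hinj : Function.Injective (fderiv ℝ F (p₀, z₀) ∘L ContinuousLinearMap.inr ℝ E₁ E₂) := by
    rw [injective_iff_map_eq_zero]
    intro h hh
    by_contra hne
    have h1 := hpos h hne
    rw [← happ h h, hh] at h1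
    simp at h1
  have hfin : Module.finrank ℝ E₂ = Module.finrank ℝ (E₂ →L[ℝ] ℝ) := by
    rw [← (LinearMap.toContinuousLinearMap (𝕜 := ℝ) (E := E₂) (F' := ℝ)).finrank_eq]
    exact (Subspace.dual_finrank_eq (K := ℝ) (V := E₂)).symm
  have hinv : (fderiv ℝ F (p₀, z₀) ∘L ContinuousLinearMap.inr ℝ E₁ E₂).IsInvertible := by
    set L := (fderiv ℝ F (p₀, z₀) ∘L ContinuousLinearMap.inr ℝ E₁ E₂)
    refine ⟨(LinearEquiv.ofInjectiveOfFinrankEq (L : E₂ →ₗ[ℝ] (E₂ →L[ℝ] ℝ)) hinj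
      hfin).toContinuousLinearEquiv, ?_⟩
    ext x y
    rfl
  have hne : (∞ : WithTop ℕ∞) ≠ 0 := by simp
  have key := hFc.eventually_apply_eq_iff_implicitFunction hne hinv
  have hψ := hFc.contDiffAt_implicitFunction hne hinv
  set ψ := hFc.implicitFunction hne hinv with hψdef
  have htend : Tendsto (fun p => (p, ζ p)) (𝓝 p₀) (𝓝 (p₀, z₀)) :=
    (tendsto_id).prodMk_nhds hζ
  have hFz : ∀ᶠ p in 𝓝 p₀, F (p, ζ p) = 0 := by
    have hdiff : ∀ᶠ q in 𝓝 (p₀, z₀), DifferentiableAt ℝ g q := by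
      have := (hg.of_le (m := 1) (by simp)).eventually (by simp)
      filter_upwards [this] with q hq using hq.differentiableAt (by simp)
    filter_upwards [hmin, htend.eventually hdiff] with p hp hd
    have h1 : HasFDerivAt (fun z => g (p, z)) (fderiv ℝ g (p, ζ p) ∘L
        ContinuousLinearMap.inr ℝ E₁ E₂) (ζ p) :=
      hd.hasFDerivAt.comp (ζ p) (hasFDerivAt_prodMk_right p (ζ p))
    exact hp.hasFDerivAt_eq_zero h1
  have hFu : F (p₀, z₀) = 0 := h0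
  have heq : ψ =ᶠ[𝓝 p₀] ζ := by
    filter_upwards [htend.eventually key, hFz] with p hp hz
    exact hp.1 (by rw [hz, hFu])
  exact hψ.congr_of_eventuallyEq heq.symm

end value

end Crest.Agent.R226.NF946
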