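/-
R226 / E2-NF (helper946, shape agreed with helper344): the clean normal form of the cost near
(possibly focal) cut points.  Definitions only.
-/
import Crest.Agent.R226.Defs_484

set_option autoImplicit false

open MeasureTheory Bundle Set Filter
open scoped Manifold ContDiff Bundle ENNReal Topology
open Crest.GeometryTopology.MTW

namespace Crest.Agent.R226.NF946

variable {n : ℕ} {M : Type*} [MetricSpace M] [ChartedSpace (EuclideanSpace ℝ (Fin n)) M]
  [IsManifold (𝓡 n) ∞ M]
  [RiemannianBundle (fun p : M => TangentSpace (𝓡 n) p)]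

/-- `rho(p') = ‖p'‖²/4 + 2 c(exp_x (p'/2), exp_x p)` -/
noncomputable def rho (G : GeoData n M) (x : M) (p p' : TangentSpace (𝓡 n) x) : ℝ :=
  ‖p'‖ ^ 2 / 4 + 2 * halfDistSq (G.ex x ((1 / 2 : ℝ) • p')) (G.ex x p)

/-- the normal form Hessian: the second derivative of `rho G x p` at `p` -/
noncomputable def Hf (G : GeoData n M) (x : M) (p : TangentSpace (𝓡 n) x) :
    TangentSpace (𝓡 n) x →L[ℝ] TangentSpace (𝓡 n) x →L[ℝ] ℝ :=
  fderiv ℝ (fderiv ℝ (rho G x p)) p

end Crest.Agent.R226.NF946
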