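/-
R226 / E2-NF (helper946): the clean normal form of the cost near (possibly focal) cut points, part 1
(pointwise facts N1, N3).  `Hf G x = HfA (F G x)` by `rfl`.
-/
import Crest.Agent.R226.NFDef_946
import Crest.Agent.R226.NFAbs_946
import Crest.Agent.R226.Focal_347
import Crest.Agent.R226.Index_77
import Crest.Agent.R226.CutSmooth_77

set_option autoImplicit false

open MeasureTheory Bundle Set Filter
open scoped Manifold ContDiff Bundle ENNReal Topology
open Crest.GeometryTopology.MTW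
open Crest.Agent.R226.Calc347 Crest.Agent.R226.MTWConc117 Crest.Agent.R226.Base347
open Crest.Agent.R226.Crit347 Crest.Agent.R226.Focal347

namespace Crest.Agent.R226.NF946

variable {n : ℕ} {M : Type*} [MetricSpace M] [ChartedSpace (EuclideanSpace ℝ (Fin n)) M]
  [IsManifold (𝓡 n) ∞ M]
  [RiemannianBundle (fun p : M => TangentSpace (𝓡 n) p)]
  {G : GeoData n M}

theorem Hf_eq_HfA (G : GeoData n M) (x : M) : Hf G x = HfA (F G x) := rfl

theorem contDiffAt_F_half (hB : Base G) {x : M} {p : TangentSpace (𝓡 n) x} (hp : p ∈ G.K x) :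
    ContDiffAt ℝ ∞ (F G x) ((1 / 2 : ℝ) • p, p) :=
  hB.contDiffAt_F_mid hp (by norm_num) (by norm_num)

/-- `N` is smooth near `(p/2, p)`, `p ∈ K` -/
theorem contDiffAt_N_mid (hB : Base G) {x : M} {p : TangentSpace (𝓡 n) x} (hp : p ∈ G.K x) :
    ContDiffAt ℝ ∞ (N G x) ((1 / 2 : ℝ) • p, p) :=
  contDiffAt_N (contDiffAt_F_half hB hp)

theorem Hf_apply (hB : Base G) {x : M} {p : TangentSpace (𝓡 n) x} (hp : p ∈ G.K x)
    (u v : TangentSpace (𝓡 n) x) :
    Hf G x p u v = inner ℝ u v / 2 + hess (F G x) ((1 / 2 : ℝ) • p, p) (u, 0) (v, 0) / 2 :=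
  HfA_apply ((contDiffAt_F_half hB hp).of_le two_le_infty) u v

theorem Hf_symm (hB : Base G) {x : M} {p : TangentSpace (𝓡 n) x} (hp : p ∈ G.K x)
    (u v : TangentSpace (𝓡 n) x) : Hf G x p u v = Hf G x p v u :=
  HfA_symm ((contDiffAt_F_half hB hp).of_le two_le_infty) u v

/-- smoothness of `Hf` at the points of `K` -/
theorem contDiffAt_Hf (hB : Base G) {x : M} {p : TangentSpace (𝓡 n) x} (hp : p ∈ G.K x) :
    ContDiffAt ℝ ∞ (HfA (F G x)) p :=
  contDiffAt_HfA (contDiffAt_F_half hB hp)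

/-- smoothness of the entries of `Hf` -/
theorem contDiffAt_Hf_apply (hB : Base G) {x : M} {p : TangentSpace (𝓡 n) x} (hp : p ∈ G.K x)
    (u v : TangentSpace (𝓡 n) x) : ContDiffAt ℝ ∞ (fun q => Hf G x q u v) p :=
  ((contDiffAt_Hf hB hp).clm_apply contDiffAt_const).clm_apply contDiffAt_const

/-- minimality: `rho G x p ≥ ‖p‖²/2`, with equality at `p`, for `p ∈ K`. -/
theorem rho_self {x : M} {p : TangentSpace (𝓡 n) x} (hp : p ∈ G.K x) :
    rho G x p p = ‖p‖ ^ 2 / 2 := by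
  have h2 := halfDistSq_of_mem_K' hp (s := 1 / 2) (t := 1) (by norm_num) (by norm_num) le_rfl
  rw [one_smul] at h2
  unfold rho
  rw [h2]; ring

theorem rho_ge {x : M} {p : TangentSpace (𝓡 n) x} (hp : p ∈ G.K x) (p' : TangentSpace (𝓡 n) x) :
    ‖p‖ ^ 2 / 2 ≤ rho G x p p' := by
  have h3 := halfDistSq_le_two x (G.ex x ((1 / 2 : ℝ) • p')) (G.ex x p)
  have h4 := halfDistSq_ex_le (G := G) x ((1 / 2 : ℝ) • p')
  rw [norm_smul, mul_pow, Real.norm_eq_abs, sq_abs] at h4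
  have h5 := halfDistSq_of_mem_K hp
  unfold rho
  linarith

theorem contDiffAt_rho (hB : Base G) {x : M} {p : TangentSpace (𝓡 n) x} (hp : p ∈ G.K x) :
    ContDiffAt ℝ ∞ (rho G x p) p :=
  contDiffAt_rhoA_snd (F := F G x) (contDiffAt_F_half hB hp)

/-- `Hf ≥ 0` on `K` -/
theorem Hf_nonneg (hB : Base G) {x : M} {p : TangentSpace (𝓡 n) x} (hp : p ∈ G.K x)
    (v : TangentSpace (𝓡 n) x) : 0 ≤ Hf G x p v v := by
  refine EucMin77.hess_nonneg_of_isLocalMin ((contDiffAt_rho hB hp).of_le two_le_infty)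
    (Eventually.of_forall fun p' => ?_) v
  rw [rho_self hp]
  exact rho_ge hp p'

/-- **Gauss lemma** `Hf(p) p = p` -/
theorem Hf_gauss (hB : Base G) {x : M} {p : TangentSpace (𝓡 n) x} (hp : p ∈ G.K x)
    (η : TangentSpace (𝓡 n) x) : Hf G x p p η = inner ℝ p η := by
  have h1 := hess_N_ray hB hp η
  have h2 := hess_NA (F := F G x) (q := ((1 / 2 : ℝ) • p, p))
    ((contDiffAt_F_half hB hp).of_le two_le_infty) p η
  have e : N G x = fun q => ‖q.1‖ ^ 2 + 2 * F G x q := rfl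
  rw [e, h2] at h1
  rw [Hf_apply hB hp]
  linarith

/-- the first-order relation: `D_w F(p/2, p) η = -⟪p, η⟫/2` for `p ∈ K` -/
theorem fderiv_F_half (hB : Base G) {x : M} {p : TangentSpace (𝓡 n) x} (hp : p ∈ G.K x)
    (η : TangentSpace (𝓡 n) x) :
    fderiv ℝ (F G x) ((1 / 2 : ℝ) • p, p) (η, 0) = -(inner ℝ p η) / 2 := by
  have h1 := fderiv_N_ray hB hp (θ := 1 / 2) (by norm_num) (by norm_num) η
  have hF : DifferentiableAt ℝ (F G x) ((1 / 2 : ℝ) • p, p) :=
    ((contDiffAt_F_half hB hp).of_le one_le_infty).differentiableAt (by norm_num)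
  have e : N G x = fun q => ‖q.1‖ ^ 2 + 2 * F G x q := rfl
  have h2 := fderiv_NA hF η
  rw [e, h2] at h1
  simp only [real_inner_smul_left] at h1
  linarith

/-- equality on `I` of two functions continuous at a point of `K` gives equality there -/
theorem eq_of_eq_on_I (hB : Base G) {x : M} {p : TangentSpace (𝓡 n) x} (hp : p ∈ G.K x)
    {f g : TangentSpace (𝓡 n) x → ℝ} (hf : ContinuousAt f p) (hg : ContinuousAt g p)
    (h : ∀ q ∈ G.I x, f q = g q) : f p = g p := by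
  have ht : Tendsto (fun r : ℝ => r • p) (𝓝[<] 1) (𝓝 p) := by
    have h1 : Continuous (fun r : ℝ => r • p) := by fun_prop
    have h2 := h1.tendsto 1
    rw [one_smul] at h2
    exact h2.mono_left nhdsWithin_le_nhds
  have h1 : Tendsto (fun r : ℝ => f (r • p)) (𝓝[<] 1) (𝓝 (f p)) := hf.tendsto.comp ht
  have h2 : Tendsto (fun r : ℝ => g (r • p)) (𝓝[<] 1) (𝓝 (g p)) := hg.tendsto.comp ht
  have hev : (fun r : ℝ => f (r • p)) =ᶠ[𝓝[<] 1] fun r : ℝ => g (r • p) := by
    have h3 : Ioo (0 : ℝ) 1 ∈ 𝓝[<] (1 : ℝ) := Ioo_mem_nhdsLT (by norm_num)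
    filter_upwards [h3] with r hr
    exact h _ (hB.smul_mem_I hp hr.1.le hr.2)
  exact tendsto_nhds_unique (h1.congr' hev) h2

/-- inequality on `I` passes to `K` -/
theorem le_of_le_on_I (hB : Base G) {x : M} {p : TangentSpace (𝓡 n) x} (hp : p ∈ G.K x)
    {f g : TangentSpace (𝓡 n) x → ℝ} (hf : ContinuousAt f p) (hg : ContinuousAt g p)
    (h : ∀ q ∈ G.I x, f q ≤ g q) : f p ≤ g p := by
  have ht : Tendsto (fun r : ℝ => r • p) (𝓝[<] 1) (𝓝 p) := by
    have h1 : Continuous (fun r : ℝ => r • p) := by fun_prop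
    have h2 := h1.tendsto 1
    rw [one_smul] at h2
    exact h2.mono_left nhdsWithin_le_nhds
  have h1 : Tendsto (fun r : ℝ => f (r • p)) (𝓝[<] 1) (𝓝 (f p)) := hf.tendsto.comp ht
  have h2 : Tendsto (fun r : ℝ => g (r • p)) (𝓝[<] 1) (𝓝 (g p)) := hg.tendsto.comp ht
  refine le_of_tendsto_of_tendsto h1 h2 ?_
  have h3 : Ioo (0 : ℝ) 1 ∈ 𝓝[<] (1 : ℝ) := Ioo_mem_nhdsLT (by norm_num)
  filter_upwards [h3] with r hr
  exact h _ (hB.smul_mem_I hp hr.1.le hr.2)

/-- **mixed identity** on `I`, then on `K`: `D_w D_b F(p/2, p)(η, θ) = -Hf(p)(θ, η)` -/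
theorem Hf_mixed (hB : Base G) {x : M} {p : TangentSpace (𝓡 n) x} (hp : p ∈ G.K x)
    (θ η : TangentSpace (𝓡 n) x) :
    hess (F G x) ((1 / 2 : ℝ) • p, p) (0, θ) (η, 0) = -Hf G x p θ η := by
  have hcp : ContinuousAt (fun q : TangentSpace (𝓡 n) x => ((1 / 2 : ℝ) • q, q)) p := by fun_prop
  refine eq_of_eq_on_I hB hp (f := fun q => hess (F G x) ((1 / 2 : ℝ) • q, q) (0, θ) (η, 0))
    (g := fun q => -Hf G x q θ η) ?_ ?_ ?_
  · have h1 : ContDiffAt ℝ 1 (fderiv ℝ (F G x)) ((1 / 2 : ℝ) • p, p) :=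
      ((contDiffAt_F_half hB hp).of_le two_le_infty).fderiv_right (by norm_num)
    have h2 : ContDiffAt ℝ 0 (hess (F G x)) ((1 / 2 : ℝ) • p, p) := h1.fderiv_right (by norm_num)
    have h3 : ContinuousAt (fun q : TangentSpace (𝓡 n) x => hess (F G x) ((1 / 2 : ℝ) • q, q)) p :=
      ContinuousAt.comp (g := hess (F G x)) (f := fun q => ((1 / 2 : ℝ) • q, q)) h2.continuousAt hcp
    exact (h3.clm_apply continuousAt_const).clm_apply continuousAt_const
  · exact (contDiffAt_Hf_apply hB hp θ η).continuousAt.neg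
  · intro q hq
    refine HfA_mixed ((contDiffAt_F_half hB (hB.I_subset x hq)).of_le two_le_infty) ?_ θ
    filter_upwards [(hB.isOpen_I x).mem_nhds hq] with q' hq'
    exact fderiv_F_half hB (hB.I_subset x hq') η

/-- the basic upper bound for `phi` -/
theorem phi_le_Hf (hB : Base G) {x : M} {p : TangentSpace (𝓡 n) x} (hp : p ∈ G.I x)
    (ξ w : TangentSpace (𝓡 n) x) :
    G.phi x ξ p ≤ 2 * G.phi x ξ ((1 / 2 : ℝ) • p) - 4 * inner ℝ w ξ + 4 * Hf G x p w w := by
  obtain ⟨a, ha, haK⟩ := id hp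
  have ha0 : a ≠ 0 := by linarith
  have e1 : (1 / a) • (a • p) = p := by
    rw [smul_smul, one_div_mul_cancel ha0, one_smul]
  have e2' : 1 / a / 2 * a = 1 / 2 := by field_simp
  have e2 : (1 / a / 2) • (a • p) = (1 / 2 : ℝ) • p := by rw [smul_smul, e2']
  have hpK := hB.I_subset x hp
  have hF : ContDiffAt ℝ 2 (F G x) ((1 / a / 2) • (a • p), (1 / a) • (a • p)) := by
    rw [e1, e2]; exact (contDiffAt_F_half hB hpK).of_le two_le_infty
  have h := phi_le hB haK (r := 1 / a) (by positivity) (by rw [div_lt_one (by linarith)]; exact ha)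
    hF ξ w
  rw [e1, e2] at h
  rw [Hf_apply hB hpK, real_inner_self_eq_norm_sq]
  linarith

/-- `Hf > 0` on `I` -/
theorem Hf_pos (hB : Base G) {x : M} {p : TangentSpace (𝓡 n) x} (hp : p ∈ G.I x)
    {v : TangentSpace (𝓡 n) x} (hv : v ≠ 0) : 0 < Hf G x p v v := by
  have h0 := Hf_nonneg hB (hB.I_subset x hp) v
  rcases h0.eq_or_lt with h | h
  · exfalso
    have hvv : 0 < inner ℝ v v := by
      rw [real_inner_self_eq_norm_sq]; have := norm_pos_iff.2 hv; positivity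
    set s : ℝ := (2 * G.phi x v ((1 / 2 : ℝ) • p) - G.phi x v p + 1) / (4 * inner ℝ v v) with hs
    have h1 := phi_le_Hf hB hp v (s • v)
    have e : Hf G x p (s • v) (s • v) = s ^ 2 * Hf G x p v v := by
      rw [map_smul, map_smul, smul_apply, smul_eq_mul, smul_eq_mul]; ring
    rw [e, ← h, real_inner_smul_left] at h1
    have h2 : 4 * (s * inner ℝ v v) = 2 * G.phi x v ((1 / 2 : ℝ) • p) - G.phi x v p + 1 := by
      rw [hs]; field_simp
    linarith
  · exact h

end Crest.Agent.R226.NF946
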