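/-
R226, layer D, task D4 (step (I) of docs 350), helper371.
Main result: `stepI` : for `Good u s`, `0 < s < 1`, the set
`{q ∈ K y | ex y q ∈ Cset (s u) y}` is a subsingleton, given its convexity (step (H)) and (L-C).
Reusable: `contMDiff_fibre`, `contMDiff_ex`, `curveVel_eq_deriv`, `exists_log` (smooth local
logarithm in a chart), `exists_lift` (lift of a smooth curve to normal coordinates),
`deriv_deriv_comp`, `deriv_deriv_nonneg_of_isLocalMin`, `halfDistSq_triangle`, `smul_support` (L-D).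
-/
import Crest.Agent.R226.CutFacts_484

set_option autoImplicit false

open MeasureTheory Bundle Set Filter
open scoped Manifold ContDiff Bundle ENNReal Topology
open Crest.GeometryTopology.MTW

namespace Crest.Agent.R226.StepI371

variable {n : ℕ} {M : Type*} [MetricSpace M] [ChartedSpace (EuclideanSpace ℝ (Fin n)) M]
  [IsManifold (𝓡 n) ∞ M]
  [RiemannianBundle (fun p : M => TangentSpace (𝓡 n) p)]

/-- the fibre inclusion is smooth -/
lemma contMDiff_fibre (x : M) :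
    ContMDiff 𝓘(ℝ, TangentSpace (𝓡 n) x) (𝓡 n).tangent ∞
      (fun v : TangentSpace (𝓡 n) x => (⟨x, v⟩ : TangentBundle (𝓡 n) M)) := by
  intro v
  rw [Bundle.contMDiffAt_totalSpace]
  refine ⟨contMDiffAt_const, ?_⟩
  simp only
  have h : (fun v : TangentSpace (𝓡 n) x =>
      ((trivializationAt (EuclideanSpace ℝ (Fin n)) (TangentSpace (𝓡 n)) x)
        (⟨x, v⟩ : TangentBundle (𝓡 n) M)).2) =
      fun v => ((trivializationAt (EuclideanSpace ℝ (Fin n)) (TangentSpace (𝓡 n)) x).continuousLinearMapAt ℝ x) v := by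
    funext v
    rw [Trivialization.continuousLinearMapAt_apply, Trivialization.linearMapAt_apply, if_pos]
    exact FiberBundle.mem_baseSet_trivializationAt' x
  rw [h]
  exact (ContinuousLinearMap.contDiff _).contMDiff.contMDiffAt

lemma contMDiff_ex (G : GeoData n M) (x : M) :
    ContMDiff 𝓘(ℝ, TangentSpace (𝓡 n) x) (𝓡 n) ∞ (G.ex x) :=
  G.smooth.comp (contMDiff_fibre x)

omit [IsManifold (𝓡 n) ∞ M] [RiemannianBundle (fun p : M => TangentSpace (𝓡 n) p)] in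
lemma curveVel_eq_deriv {γ : ℝ → M} {t : ℝ} (hγ : MDifferentiableAt 𝓘(ℝ) (𝓡 n) γ t) {x : M}
    (hx : γ t = x) :
    (show EE n from curveVel n γ t) = deriv (fun s => extChartAt (𝓡 n) x (γ s)) t := by
  subst hx
  have h1 : curveVel n γ t = (fderivWithin ℝ (writtenInExtChartAt 𝓘(ℝ, ℝ) (𝓡 n) t γ)
      (range (𝓘(ℝ, ℝ) : ℝ → ℝ)) ((extChartAt 𝓘(ℝ, ℝ) t) t) : ℝ →L[ℝ] EE n) 1 := by
    unfold curveVel
    rw [hγ.mfderiv]
    rfl
  have h2 : (fderivWithin ℝ (writtenInExtChartAt 𝓘(ℝ, ℝ) (𝓡 n) t γ)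
      (range (𝓘(ℝ, ℝ) : ℝ → ℝ)) ((extChartAt 𝓘(ℝ, ℝ) t) t) : ℝ →L[ℝ] EE n) 1 =
      deriv (fun s => extChartAt (𝓡 n) (γ t) (γ s)) t := by
    simp only [modelWithCornersSelf_coe, range_id, fderivWithin_univ, extChartAt_model_space_eq_id]
    rfl
  exact h1.trans h2

/-- the exponential map read in the chart at `x` -/
noncomputable def exc (G : GeoData n M) (x : M) (v : TangentSpace (𝓡 n) x) : EE n :=
  extChartAt (𝓡 n) x (G.ex x v)

lemma contDiffAt_exc (G : GeoData n M) (x : M) : ContDiffAt ℝ ∞ (exc G x) 0 := by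
  rw [← contMDiffAt_iff_contDiffAt]
  refine ContMDiffAt.comp (I' := 𝓡 n) (0 : TangentSpace (𝓡 n) x) ?_ (contMDiff_ex G x).contMDiffAt
  rw [G.ex_zero]
  exact contMDiffAt_extChartAt

lemma deriv_exc (G : GeoData n M) (x : M) (v : TangentSpace (𝓡 n) x) :
    fderiv ℝ (exc G x) 0 v = (show EE n from v) := by
  have h1 : HasDerivAt (fun t : ℝ => exc G x (t • v)) (fderiv ℝ (exc G x) 0 v) 0 := by
    have h2 : HasFDerivAt (exc G x) (fderiv ℝ (exc G x) 0) ((0 : ℝ) • v) := by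
      rw [zero_smul]
      exact ((contDiffAt_exc G x).differentiableAt (by simp)).hasFDerivAt
    have h3 : HasDerivAt (fun t : ℝ => t • v) v 0 := by
      simpa using (hasDerivAt_id (0 : ℝ)).smul_const v
    exact h2.comp_hasDerivAt 0 h3
  have h2 := G.vel_zero x v
  have h3 : MDifferentiableAt 𝓘(ℝ) (𝓡 n) (fun t : ℝ => G.ex x (t • v)) 0 := by
    have : ContMDiffAt 𝓘(ℝ) (𝓡 n) ∞ (fun t : ℝ => G.ex x (t • v)) 0 := by
      refine ContMDiffAt.comp (I' := 𝓘(ℝ, TangentSpace (𝓡 n) x)) (0 : ℝ) (contMDiff_ex G x).contMDiffAt ?_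
      rw [contMDiffAt_iff_contDiffAt]
      fun_prop
    exact this.mdifferentiableAt (by simp)
  have h4 := curveVel_eq_deriv h3 (x := x) (by simp [G.ex_zero])
  have h5 : deriv (fun s : ℝ => extChartAt (𝓡 n) x (G.ex x (s • v))) 0 = fderiv ℝ (exc G x) 0 v := h1.deriv
  rw [← h5, ← h4]
  exact h2


/-- a smooth local logarithm in the chart at `x` -/
lemma exists_log (G : GeoData n M) (x : M) :
    ∃ l : EE n → TangentSpace (𝓡 n) x, ContDiffAt ℝ ∞ l (extChartAt (𝓡 n) x x) ∧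
      l (extChartAt (𝓡 n) x x) = 0 ∧
      ∀ᶠ a in 𝓝 (extChartAt (𝓡 n) x x), exc G x (l a) = a := by
  have hex0 : exc G x 0 = extChartAt (𝓡 n) x x := by unfold exc; rw [G.ex_zero]
  have hc := contDiffAt_exc G x
  have hinj : Function.Injective (fderiv ℝ (exc G x) 0).toLinearMap := by
    intro v w hvw
    have h1 := deriv_exc G x v
    have h2 := deriv_exc G x w
    have h3 : fderiv ℝ (exc G x) 0 v = fderiv ℝ (exc G x) 0 w := hvw
    rw [h1, h2] at h3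
    exact h3
  have : FiniteDimensional ℝ (TangentSpace (𝓡 n) x) :=
    inferInstanceAs (FiniteDimensional ℝ (EE n))
  have hdim : Module.finrank ℝ (TangentSpace (𝓡 n) x) = Module.finrank ℝ (EE n) := rfl
  let e : TangentSpace (𝓡 n) x ≃L[ℝ] EE n :=
    (LinearMap.linearEquivOfInjective (fderiv ℝ (exc G x) 0).toLinearMap hinj hdim).toContinuousLinearEquiv
  have he : (e : TangentSpace (𝓡 n) x →L[ℝ] EE n) = fderiv ℝ (exc G x) 0 := by
    ext v
    rfl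
  have hd : HasFDerivAt (exc G x) (e : TangentSpace (𝓡 n) x →L[ℝ] EE n) 0 := by
    rw [he]; exact (hc.differentiableAt (by simp)).hasFDerivAt
  have : CompleteSpace (TangentSpace (𝓡 n) x) := FiniteDimensional.complete ℝ _
  refine ⟨hc.localInverse hd (by simp), ?_, ?_, ?_⟩
  · rw [← hex0]; exact hc.to_localInverse hd (by simp)
  · rw [← hex0]; exact hc.localInverse_apply_image hd (by simp)
  · rw [← hex0]
    have hs : HasStrictFDerivAt (exc G x) (e : TangentSpace (𝓡 n) x →L[ℝ] EE n) 0 :=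
      hc.hasStrictFDerivAt' hd (by simp)
    exact hs.eventually_right_inverse

/-- lifting a smooth curve through `x` to normal coordinates at `x` -/
lemma exists_lift (G : GeoData n M) (x : M) (γ : ℝ → M)
    (hγ : ContMDiffAt 𝓘(ℝ) (𝓡 n) ∞ γ 0) (hγ0 : γ 0 = x) :
    ∃ ζ : ℝ → TangentSpace (𝓡 n) x, ContDiffAt ℝ ∞ ζ 0 ∧ ζ 0 = 0 ∧
      ∀ᶠ σ in 𝓝 (0 : ℝ), G.ex x (ζ σ) = γ σ := by
  subst hγ0
  obtain ⟨l, hl1, hl2, hl3⟩ := exists_log G (γ 0)
  have hcγ : ContDiffAt ℝ ∞ (fun σ => extChartAt (𝓡 n) (γ 0) (γ σ)) 0 := by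
    rw [← contMDiffAt_iff_contDiffAt]
    exact ContMDiffAt.comp (I' := 𝓡 n) (0 : ℝ) contMDiffAt_extChartAt hγ
  have hz : ContDiffAt ℝ ∞ (fun σ => l (extChartAt (𝓡 n) (γ 0) (γ σ))) 0 := by
    exact ContDiffAt.comp (0 : ℝ) hl1 hcγ
  refine ⟨fun σ => l (extChartAt (𝓡 n) (γ 0) (γ σ)), hz, hl2, ?_⟩
  have h1 : ∀ᶠ σ in 𝓝 (0 : ℝ), exc G (γ 0) (l (extChartAt (𝓡 n) (γ 0) (γ σ))) =
      extChartAt (𝓡 n) (γ 0) (γ σ) := hcγ.continuousAt.eventually hl3
  have h2 : ∀ᶠ σ in 𝓝 (0 : ℝ), γ σ ∈ (extChartAt (𝓡 n) (γ 0)).source :=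
    hγ.continuousAt.eventually (extChartAt_source_mem_nhds (γ 0))
  have h3 : ∀ᶠ σ in 𝓝 (0 : ℝ), G.ex (γ 0) (l (extChartAt (𝓡 n) (γ 0) (γ σ))) ∈
      (extChartAt (𝓡 n) (γ 0)).source := by
    have hc : ContinuousAt (fun σ => G.ex (γ 0) (l (extChartAt (𝓡 n) (γ 0) (γ σ)))) 0 :=
      ContinuousAt.comp (f := fun σ => l (extChartAt (𝓡 n) (γ 0) (γ σ)))
        (contMDiff_ex G (γ 0)).continuous.continuousAt hz.continuousAt
    refine hc.eventually ?_
    simp only [hl2, G.ex_zero]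
    exact extChartAt_source_mem_nhds (γ 0)
  filter_upwards [h1, h2, h3] with σ e1 e2 e3
  exact (extChartAt (𝓡 n) (γ 0)).injOn e3 e2 e1


/-! ### one-dimensional calculus -/

omit [IsManifold (𝓡 n) ∞ M] [RiemannianBundle (fun p : M => TangentSpace (𝓡 n) p)] in
/-- second order necessary condition at a local minimum -/
lemma deriv_deriv_nonneg_of_isLocalMin {f : ℝ → ℝ} {a : ℝ} (hf : IsLocalMin f a)
    (hfc : ContinuousAt f a) : 0 ≤ deriv (deriv f) a := by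
  by_contra h
  push Not at h
  have h1 : deriv f a = 0 := hf.deriv_eq_zero
  have h2 : IsLocalMax f a := isLocalMax_of_deriv_deriv_neg h h1 hfc
  have h3 : ∀ᶠ x in 𝓝 a, f x = f a := by
    filter_upwards [hf, h2] with x hx1 hx2
    exact le_antisymm hx2 hx1
  have h4 : f =ᶠ[𝓝 a] fun _ => f a := h3
  have h5 : deriv f =ᶠ[𝓝 a] deriv (fun _ => f a) := h4.deriv
  have h6 : deriv (deriv f) a = 0 := by
    rw [h5.deriv_eq]
    simp
  linarith

/-- chain rule to second order -/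
lemma deriv_deriv_comp {V : Type*} [NormedAddCommGroup V] [NormedSpace ℝ V] {h : V → ℝ}
    {ζ : ℝ → V} {a : ℝ} (hh : ContDiffAt ℝ 2 h (ζ a)) (hζ : ContDiffAt ℝ 2 ζ a) :
    deriv (fun σ => h (ζ σ)) a = fderiv ℝ h (ζ a) (deriv ζ a) ∧
    deriv (deriv (fun σ => h (ζ σ))) a =
      fderiv ℝ (fderiv ℝ h) (ζ a) (deriv ζ a) (deriv ζ a) +
        fderiv ℝ h (ζ a) (deriv (deriv ζ) a) := by
  have hd : ∀ σ, DifferentiableAt ℝ h (ζ σ) → DifferentiableAt ℝ ζ σ →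
      deriv (fun σ => h (ζ σ)) σ = fderiv ℝ h (ζ σ) (deriv ζ σ) := by
    intro σ h1 h2
    exact (h1.hasFDerivAt.comp_hasDerivAt σ h2.hasDerivAt).deriv
  have e1 : ∀ᶠ v in 𝓝 (ζ a), DifferentiableAt ℝ h v := by
    have := hh.eventually (by simp)
    filter_upwards [this] with v hv
    exact hv.differentiableAt (by simp)
  have e2 : ∀ᶠ σ in 𝓝 a, DifferentiableAt ℝ ζ σ := by
    have := hζ.eventually (by simp)
    filter_upwards [this] with v hv
    exact hv.differentiableAt (by simp)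
  have e3 : deriv (fun σ => h (ζ σ)) =ᶠ[𝓝 a] fun σ => fderiv ℝ h (ζ σ) (deriv ζ σ) := by
    filter_upwards [hζ.continuousAt.eventually e1, e2] with σ h1 h2
    exact hd σ h1 h2
  refine ⟨e3.self_of_nhds, ?_⟩
  rw [e3.deriv_eq]
  have f1 : DifferentiableAt ℝ (fderiv ℝ h) (ζ a) := by
    have := hh.fderiv_right (m := 1) (by norm_num)
    exact this.differentiableAt (by simp)
  have f2 : HasDerivAt (fun σ => fderiv ℝ h (ζ σ)) (fderiv ℝ (fderiv ℝ h) (ζ a) (deriv ζ a)) a :=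
    f1.hasFDerivAt.comp_hasDerivAt a (hζ.differentiableAt (by simp)).hasDerivAt
  have f3 : HasDerivAt (deriv ζ) (deriv (deriv ζ) a) a := by
    have : ContDiffAt ℝ 1 (deriv ζ) a := by
      have := hζ.fderiv_right (m := 1) (by norm_num)
      have h2 : deriv ζ = fun σ => fderiv ℝ ζ σ 1 := by
        funext σ; rfl
      rw [h2]
      exact this.clm_apply contDiffAt_const
    exact (this.differentiableAt (by simp)).hasDerivAt
  exact (f2.clm_apply f3).deriv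

/-! ### scaling of supports (L-D) -/

lemma sq_add_le {a b t : ℝ} (ht0 : 0 < t) (ht1 : t < 1) :
    (a + b) ^ 2 ≤ a ^ 2 / t + b ^ 2 / (1 - t) := by
  have h1 : 0 < 1 - t := by linarith
  rw [div_add_div _ _ ht0.ne' h1.ne', le_div_iff₀ (mul_pos ht0 h1)]
  nlinarith [sq_nonneg (a * (1 - t) - b * t)]

lemma halfDistSq_triangle (x z y : M) {t : ℝ} (ht0 : 0 < t) (ht1 : t < 1) :
    halfDistSq x y ≤ halfDistSq x z / t + halfDistSq z y / (1 - t) := by
  unfold halfDistSq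
  have h1 : dist x y ≤ dist x z + dist z y := dist_triangle x z y
  have h2 : dist x y ^ 2 ≤ (dist x z + dist z y) ^ 2 := by
    exact pow_le_pow_left₀ dist_nonneg h1 2
  have h3 := sq_add_le (a := dist x z) (b := dist z y) ht0 ht1
  have e1 : dist x z ^ 2 / 2 / t = dist x z ^ 2 / t / 2 := by ring
  have e2 : dist z y ^ 2 / 2 / (1 - t) = dist z y ^ 2 / (1 - t) / 2 := by ring
  rw [e1, e2]
  linarith

lemma halfDistSq_of_mem_K {G : GeoData n M} {x : M} {v : TangentSpace (𝓡 n) x} (hv : v ∈ G.K x) :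
    halfDistSq x (G.ex x v) = ‖v‖ ^ 2 / 2 := by
  unfold halfDistSq
  rw [show dist x (G.ex x v) = ‖v‖ from hv]

lemma smul_support {G : GeoData n M} {u : M → ℝ} {x : M}
    {w : TangentSpace (𝓡 n) x} (hw : w ∈ G.P u x) {t : ℝ} (ht0 : 0 < t) (ht1 : t < 1) (x' : M) :
    t * u x + t ^ 2 * (‖w‖ ^ 2 / 2) ≤ t * u x' + halfDistSq x' (G.ex x (t • w)) := by
  obtain ⟨hwK, hw2⟩ := hw
  have h1 := hw2 x'
  rw [halfDistSq_of_mem_K hwK] at h1
  have h2 := halfDistSq_triangle x' (G.ex x (t • w)) (G.ex x w) ht0 ht1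
  have h3 : halfDistSq (G.ex x (t • w)) (G.ex x w) ≤ (1 - t) ^ 2 * (‖w‖ ^ 2 / 2) := by
    have h4 := G.dist_le x w t 1
    rw [one_smul] at h4
    have h5 : |t - 1| = 1 - t := by rw [abs_sub_comm, abs_of_pos (by linarith)]
    rw [h5] at h4
    unfold halfDistSq
    have h6 : dist (G.ex x (t • w)) (G.ex x w) ^ 2 ≤ ((1 - t) * ‖w‖) ^ 2 :=
      pow_le_pow_left₀ dist_nonneg h4 2
    nlinarith
  have h7 : 0 < 1 - t := by linarith
  have h8 : halfDistSq (G.ex x (t • w)) (G.ex x w) / (1 - t) ≤ (1 - t) * (‖w‖ ^ 2 / 2) := by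
    rw [div_le_iff₀ h7]
    nlinarith
  have h9 : t * halfDistSq x' (G.ex x w) ≤
      halfDistSq x' (G.ex x (t • w)) + t * ((1 - t) * (‖w‖ ^ 2 / 2)) := by
    have h10 : t * halfDistSq x' (G.ex x w) ≤
        t * (halfDistSq x' (G.ex x (t • w)) / t + (1 - t) * (‖w‖ ^ 2 / 2)) :=
      mul_le_mul_of_nonneg_left (h2.trans (by linarith)) ht0.le
    have h11 : t * (halfDistSq x' (G.ex x (t • w)) / t + (1 - t) * (‖w‖ ^ 2 / 2)) =
        halfDistSq x' (G.ex x (t • w)) + t * ((1 - t) * (‖w‖ ^ 2 / 2)) := by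
      field_simp
    linarith
  nlinarith

lemma mem_I_of_smul {G : GeoData n M} {x : M} {w : TangentSpace (𝓡 n) x} (hw : w ∈ G.K x) {t : ℝ}
    (ht0 : 0 < t) (ht1 : t < 1) : t • w ∈ G.I x := by
  refine ⟨1 / t, by rw [lt_div_iff₀ ht0]; linarith, ?_⟩
  rw [smul_smul, one_div, inv_mul_cancel₀ ht0.ne', one_smul]
  exact hw

/-- the comparison at one support vector: first and second order conditions -/
lemma compare_one {G : GeoData n M} (hC : CutFacts G) {u : M → ℝ} {s : ℝ} (hs0 : 0 < s)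
    {y : M} {q q' : TangentSpace (𝓡 n) y}
    (hq : ∀ᶠ τ : ℝ in 𝓝 0, q + τ • q' ∈ G.K y ∧
      G.ex y (q + τ • q') ∈ Cset (fun z => s * u z) y)
    {x : M} (hx : G.ex y q = x) {ζ : ℝ → TangentSpace (𝓡 n) x} (hζ : ContDiffAt ℝ 2 ζ 0)
    (hζ0 : ζ 0 = 0) (hζe : ∀ᶠ τ : ℝ in 𝓝 0, G.ex x (ζ τ) = G.ex y (q + τ • q'))
    {p : TangentSpace (𝓡 n) x} (hp : p ∈ G.P u x) {t : ℝ} (hst : s < t) (ht1 : t < 1) :
    s * inner ℝ p (deriv ζ 0) = -inner ℝ q q' ∧
    ‖q'‖ ^ 2 + s * inner ℝ p (deriv (deriv ζ) 0) ≤ (s / t) * G.phi x (deriv ζ 0) (t • p) := by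
  have ht0 : 0 < t := hs0.trans hst
  have hpI : t • p ∈ G.I x := mem_I_of_smul hp.1 ht0 ht1
  have hpK : t • p ∈ G.K x := hC.I_subset x hpI
  set h : TangentSpace (𝓡 n) x → ℝ := G.nc x (t • p) with hh
  have hhs : ContDiffAt ℝ 2 h (ζ 0) := by
    rw [hζ0]; exact (hC.nc_smooth x _ hpI).of_le ENat.LEInfty.out
  -- the function
  set f : ℝ → ℝ := fun σ => ‖q‖ ^ 2 / 2 - ‖q + σ • q'‖ ^ 2 / 2 -
    (s / t) * (t ^ 2 * (‖p‖ ^ 2 / 2) - h (ζ σ)) with hf
  have hq0 := hq.self_of_nhds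
  simp only [zero_smul, add_zero] at hq0
  have hxm : Cset (fun z => s * u z) y x := hx ▸ hq0.2
  have hxy : halfDistSq x y = ‖q‖ ^ 2 / 2 := by
    have := halfDistSq_of_mem_K hq0.1
    rw [hx] at this
    unfold halfDistSq at this ⊢
    rw [dist_comm]; exact this
  have hnn : ∀ᶠ σ : ℝ in 𝓝 0, 0 ≤ f σ := by
    filter_upwards [hq, hζe] with σ hσ1 hσ2
    have h1 : Cset (fun z => s * u z) y (G.ex y (q + σ • q')) := hσ1.2
    have h2 : halfDistSq (G.ex y (q + σ • q')) y = ‖q + σ • q'‖ ^ 2 / 2 := by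
      have := halfDistSq_of_mem_K hσ1.1
      unfold halfDistSq at this ⊢
      rw [dist_comm]; exact this
    have h3 := h1 x
    have h4 := hxm (G.ex y (q + σ • q'))
    simp only at h3 h4
    rw [hxy, h2] at h3 h4
    have h5 := smul_support hp ht0 ht1 (G.ex y (q + σ • q'))
    have h6 : halfDistSq (G.ex y (q + σ • q')) (G.ex x (t • p)) = h (ζ σ) := by
      rw [hh, GeoData.nc, hσ2]
    rw [h6] at h5
    have h7 : (s / t) * (t ^ 2 * (‖p‖ ^ 2 / 2) - h (ζ σ)) ≤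
        s * u (G.ex y (q + σ • q')) - s * u x := by
      have h8 : (s / t) * (t ^ 2 * (‖p‖ ^ 2 / 2) - h (ζ σ)) ≤
          (s / t) * (t * u (G.ex y (q + σ • q')) - t * u x) :=
        mul_le_mul_of_nonneg_left (by linarith) (div_pos hs0 ht0).le
      have h9 : (s / t) * (t * u (G.ex y (q + σ • q')) - t * u x) =
          s * u (G.ex y (q + σ • q')) - s * u x := by
        field_simp
      linarith
    simp only [hf]
    linarith
  have hf0 : f 0 = 0 := by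
    have h1 : h (ζ 0) = t ^ 2 * (‖p‖ ^ 2 / 2) := by
      rw [hζ0, hh, GeoData.nc, G.ex_zero, halfDistSq_of_mem_K hpK, norm_smul, Real.norm_eq_abs,
        abs_of_pos ht0]
      ring
    simp [hf, h1]
  have hmin : IsLocalMin f 0 := by
    filter_upwards [hnn] with σ hσ
    rw [hf0]; exact hσ
  have hfs : ContDiffAt ℝ 2 f 0 := by
    have h1 : ContDiffAt ℝ 2 (fun σ : ℝ => h (ζ σ)) 0 := hhs.comp (0 : ℝ) hζ
    have h2 : ContDiffAt ℝ 2 (fun σ : ℝ => ‖q + σ • q'‖ ^ 2) 0 := by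
      apply ContDiffAt.norm_sq ℝ
      fun_prop
    simp only [hf]
    exact ((contDiffAt_const.sub (h2.div_const 2))).sub
      (contDiffAt_const.mul (contDiffAt_const.sub h1))
  obtain ⟨hc1, hc2⟩ := deriv_deriv_comp hhs hζ
  -- derivative of the quadratic part
  have hquad : ∀ σ : ℝ, ‖q + σ • q'‖ ^ 2 = ‖q‖ ^ 2 + 2 * σ * inner ℝ q q' + σ ^ 2 * ‖q'‖ ^ 2 := by
    intro σ
    rw [norm_add_sq_real, norm_smul, inner_smul_right, Real.norm_eq_abs, mul_pow, sq_abs]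
    ring
  have hfe : f = fun σ => (-(σ * inner ℝ q q') - σ ^ 2 * (‖q'‖ ^ 2 / 2)) +
      (-((s / t) * (t ^ 2 * (‖p‖ ^ 2 / 2))) + (s / t) * h (ζ σ)) := by
    funext σ
    simp only [hf, hquad]
    ring
  have hhζ : ContDiffAt ℝ 2 (fun σ : ℝ => h (ζ σ)) 0 := hhs.comp (0 : ℝ) hζ
  have hd1 : deriv f =ᶠ[𝓝 0] fun σ => (-(inner ℝ q q') - σ * ‖q'‖ ^ 2) +
      (s / t) * deriv (fun σ => h (ζ σ)) σ := by
    have e1 := hhζ.eventually (by simp)
    filter_upwards [e1] with σ hσ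
    rw [hfe]
    have g1 : HasDerivAt (fun σ : ℝ => h (ζ σ)) (deriv (fun σ => h (ζ σ)) σ) σ :=
      (hσ.differentiableAt (by simp)).hasDerivAt
    have g2 : HasDerivAt (fun σ : ℝ => -(σ * inner ℝ q q') - σ ^ 2 * (‖q'‖ ^ 2 / 2))
        (-(inner ℝ q q') - σ * ‖q'‖ ^ 2) σ := by
      have := ((hasDerivAt_id σ).mul_const (inner ℝ q q')).neg.sub
        ((hasDerivAt_pow 2 σ).mul_const (‖q'‖ ^ 2 / 2))
      refine this.congr_deriv ?_
      simp only [one_mul]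
      ring
    have g3 := g2.add ((g1.const_mul (s / t)).const_add (-((s / t) * (t ^ 2 * (‖p‖ ^ 2 / 2)))))
    exact g3.deriv
  have hd2 : deriv (deriv f) 0 = -‖q'‖ ^ 2 + (s / t) * deriv (deriv (fun σ => h (ζ σ))) 0 := by
    rw [hd1.deriv_eq]
    have g1 : HasDerivAt (deriv (fun σ : ℝ => h (ζ σ))) (deriv (deriv (fun σ => h (ζ σ))) 0) 0 := by
      have : ContDiffAt ℝ 1 (deriv (fun σ : ℝ => h (ζ σ))) 0 := by
        have h1 := hhζ.fderiv_right (m := 1) (by norm_num)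
        have h2 : deriv (fun σ : ℝ => h (ζ σ)) = fun σ => fderiv ℝ (fun σ : ℝ => h (ζ σ)) σ 1 := by
          funext σ; rfl
        rw [h2]
        exact h1.clm_apply contDiffAt_const
      exact (this.differentiableAt (by simp)).hasDerivAt
    have g2 : HasDerivAt (fun σ : ℝ => -(inner ℝ q q') - σ * ‖q'‖ ^ 2) (-‖q'‖ ^ 2) 0 := by
      have := ((hasDerivAt_id (0 : ℝ)).mul_const (‖q'‖ ^ 2)).const_sub (-(inner ℝ q q'))
      simpa using this
    exact (g2.add (g1.const_mul (s / t))).deriv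
  have hz1 : deriv f 0 = 0 := hmin.deriv_eq_zero
  have hz2 : 0 ≤ deriv (deriv f) 0 :=
    deriv_deriv_nonneg_of_isLocalMin hmin hfs.continuousAt
  rw [hd1.self_of_nhds] at hz1
  beta_reduce at hz1
  rw [hc1, hζ0, hh, hC.nc_fderiv x _ hpI, inner_smul_left] at hz1
  rw [hd2, hc2, hζ0, hh, hC.nc_fderiv x _ hpI, hC.nc_hess x _ hpI, inner_smul_left] at hz2
  simp only [conj_trivial, zero_mul, sub_zero] at hz1 hz2
  have e1 : s / t * -(t * inner ℝ p (deriv ζ 0)) = -(s * inner ℝ p (deriv ζ 0)) := by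
    field_simp
  have e2 : s / t * (G.phi x (deriv ζ 0) (t • p) + -(t * inner ℝ p (deriv (deriv ζ) 0))) =
      s / t * G.phi x (deriv ζ 0) (t • p) - s * inner ℝ p (deriv (deriv ζ) 0) := by
    field_simp
    ring
  rw [e1] at hz1
  rw [e2] at hz2
  exact ⟨by linarith, by linarith⟩

/-! ### non-constancy -/

omit [IsManifold (𝓡 n) ∞ M] in
lemma norm_sq_line {y : M} (q q' : TangentSpace (𝓡 n) y) (σ : ℝ) :
    ‖q + σ • q'‖ ^ 2 = ‖q‖ ^ 2 + 2 * σ * inner ℝ q q' + σ ^ 2 * ‖q'‖ ^ 2 := by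
  rw [norm_add_sq_real, norm_smul, inner_smul_right, Real.norm_eq_abs, mul_pow, sq_abs]
  ring

lemma contMDiffAt_line (G : GeoData n M) (y : M) (q q' : TangentSpace (𝓡 n) y) (σ : ℝ) :
    ContMDiffAt 𝓘(ℝ) (𝓡 n) ∞ (fun τ : ℝ => G.ex y (q + τ • q')) σ := by
  refine ContMDiffAt.comp (I' := 𝓘(ℝ, TangentSpace (𝓡 n) y)) σ (contMDiff_ex G y).contMDiffAt ?_
  rw [contMDiffAt_iff_contDiffAt]
  fun_prop

lemma exists_moving {G : GeoData n M} {y : M} {q q' : TangentSpace (𝓡 n) y} (hne : q' ≠ 0)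
    (hK : ∀ τ : ℝ, 0 < τ → τ < 1 → q + τ • q' ∈ G.K y) :
    ∃ τ₀ : ℝ, 0 < τ₀ ∧ τ₀ < 1 ∧
      ∃ ζ : ℝ → TangentSpace (𝓡 n) (G.ex y ((1 : ℝ) • (q + τ₀ • q'))),
        ContDiffAt ℝ ∞ ζ 0 ∧ ζ 0 = 0 ∧
        (∀ᶠ τ : ℝ in 𝓝 0, G.ex (G.ex y ((1 : ℝ) • (q + τ₀ • q'))) (ζ τ) =
          G.ex y ((q + τ₀ • q') + τ • q')) ∧ deriv ζ 0 ≠ 0 := by
  by_contra hcon
  push Not at hcon
  set X : ℝ → M := fun τ => G.ex y (q + τ • q') with hX
  have hder : ∀ τ₀ : ℝ, 0 < τ₀ → τ₀ < 1 → HasDerivAt (fun τ => dist (X τ) (X (1 / 2))) 0 τ₀ := by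
    intro τ₀ h0 h1
    obtain ⟨ζ, hζ1, hζ2, hζ3⟩ := exists_lift G (G.ex y ((1 : ℝ) • (q + τ₀ • q')))
      (fun τ : ℝ => G.ex y ((q + τ₀ • q') + τ • q')) (contMDiffAt_line G y _ q' 0) (by simp)
    have hζ4 := hcon τ₀ h0 h1 ζ hζ1 hζ2 hζ3
    have hζ5 : HasDerivAt ζ 0 0 := by
      have := (hζ1.differentiableAt (by simp)).hasDerivAt
      rwa [hζ4] at this
    rw [hasDerivAt_iff_isLittleO_nhds_zero] at hζ5 ⊢
    simp only [zero_add, hζ2, sub_zero, smul_zero] at hζ5 ⊢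
    refine Asymptotics.IsBigO.trans_isLittleO ?_ hζ5
    refine Asymptotics.IsBigO.of_bound 1 ?_
    filter_upwards [hζ3] with σ hσ
    rw [one_mul, Real.norm_eq_abs]
    have e1 : X (τ₀ + σ) = G.ex (G.ex y ((1 : ℝ) • (q + τ₀ • q'))) ((1 : ℝ) • (ζ σ)) := by
      rw [one_smul ℝ (ζ σ), hσ, hX]
      simp only
      congr 1
      rw [add_smul, add_assoc]
    have e2 : X τ₀ = G.ex (G.ex y ((1 : ℝ) • (q + τ₀ • q'))) ((0 : ℝ) • (ζ σ)) := by
      rw [zero_smul, G.ex_zero, one_smul]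
    have e3 : dist (X (τ₀ + σ)) (X τ₀) ≤ ‖ζ σ‖ := by
      rw [e1, e2]
      refine (G.dist_le _ _ _ _).trans ?_
      simp
    refine (abs_dist_sub_le _ _ _).trans e3
  have hconst : ∀ τ : ℝ, 0 < τ → τ < 1 → X τ = X (1 / 2) := by
    intro τ h0 h1
    have h2 : (fun τ => dist (X τ) (X (1 / 2))) τ = (fun τ => dist (X τ) (X (1 / 2))) (1 / 2) := by
      refine IsOpen.is_const_of_deriv_eq_zero (𝕜 := ℝ) (G := ℝ)
        (f := fun τ => dist (X τ) (X (1 / 2))) (s := Ioo (0 : ℝ) 1) isOpen_Ioo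
        isPreconnected_Ioo ?_ ?_ (show τ ∈ Ioo (0 : ℝ) 1 from ⟨h0, h1⟩)
        (show (1 / 2 : ℝ) ∈ Ioo (0 : ℝ) 1 from ⟨by norm_num, by norm_num⟩)
      · intro σ hσ
        exact (hder σ hσ.1 hσ.2).differentiableAt.differentiableWithinAt
      · intro σ hσ
        exact (hder σ hσ.1 hσ.2).deriv
    simpa using h2
  have hnorm : ∀ τ : ℝ, 0 < τ → τ < 1 → ‖q + τ • q'‖ = dist y (X (1 / 2)) := by
    intro τ h0 h1
    rw [← hconst τ h0 h1]
    exact (hK τ h0 h1).symm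
  have h1 := norm_sq_line q q' (1 / 4)
  have h2 := norm_sq_line q q' (1 / 2)
  have h3 := norm_sq_line q q' (3 / 4)
  rw [hnorm _ (by norm_num) (by norm_num)] at h1 h2 h3
  have h4 : ‖q'‖ ^ 2 = 0 := by nlinarith
  exact hne (norm_eq_zero.1 (pow_eq_zero_iff (by norm_num) |>.1 h4))

/-! ### the contradiction at a moving point -/

lemma smul_mem_I_of_good {G : GeoData n M} {u : M → ℝ} {s : ℝ} (hgood : G.Good u s) {x : M}
    {w : TangentSpace (𝓡 n) x} (hw : w ∈ G.H u x) {r : ℝ} (hr0 : 0 < r) (hr1 : r < 1) :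
    (r * s) • w ∈ G.I x := by
  have h1 := (hgood x w hw).1
  have h2 := mem_I_of_smul h1 hr0 hr1
  rwa [smul_smul] at h2

lemma concaveOn_phi {G : GeoData n M} (hM : MTWFacts G) {u : M → ℝ} {s : ℝ}
    (hgood : G.Good u s) (x : M) (ξ : TangentSpace (𝓡 n) x) (κ : ℝ) {r : ℝ} (hr0 : 0 < r)
    (hr1 : r < 1) :
    ConcaveOn ℝ (G.H u x ∩ {w | inner ℝ w ξ = κ}) (fun w => G.phi x ξ ((r * s) • w)) := by
  have hHc : Convex ℝ (G.H u x) := convex_convexHull ℝ _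
  have hconv : Convex ℝ (G.H u x ∩ {w | inner ℝ w ξ = κ}) := by
    refine hHc.inter ?_
    intro a ha b hb α β hα hβ hαβ
    simp only [mem_ofPred_eq] at ha hb ⊢
    rw [inner_add_left, inner_smul_left, inner_smul_left, ha, hb]
    simp only [conj_trivial]
    rw [← add_mul, hαβ, one_mul]
  refine ⟨hconv, ?_⟩
  intro a ha b hb α β hα hβ hαβ
  have hseg : segment ℝ ((r * s) • a) ((r * s) • b) ⊆ G.I x := by
    rintro v ⟨α', β', hα', hβ', hαβ', rfl⟩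
    have h1 : α' • ((r * s) • a) + β' • ((r * s) • b) = (r * s) • (α' • a + β' • b) := by
      rw [smul_add, smul_smul, smul_smul, smul_smul, smul_smul, mul_comm α', mul_comm β']
    rw [h1]
    exact smul_mem_I_of_good hgood (hHc ha.1 hb.1 hα' hβ' hαβ') hr0 hr1
  have horth : inner ℝ ((r * s) • b - (r * s) • a) ξ = 0 := by
    rw [← smul_sub, inner_smul_left, inner_sub_left, show inner ℝ b ξ = κ from hb.2,
      show inner ℝ a ξ = κ from ha.2]
    simp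
  have h1 := hM.concave x ((r * s) • a) ((r * s) • b) ξ hseg horth β hβ (by linarith)
  have hα' : 1 - β = α := by linarith
  rw [hα'] at h1
  have h2 : α • ((r * s) • a) + β • ((r * s) • b) = (r * s) • (α • a + β • b) := by
    rw [smul_add, smul_smul, smul_smul, smul_smul, smul_smul, mul_comm α, mul_comm β]
  rw [h2] at h1
  simpa [smul_eq_mul] using h1

lemma tendsto_phi {G : GeoData n M} (hC : CutFacts G) {x : M} (ξ : TangentSpace (𝓡 n) x)
    {z : TangentSpace (𝓡 n) x} (hz : z ∈ G.K x) {s : ℝ} (hs0 : 0 < s) (hs1 : s < 1) :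
    Tendsto (fun r : ℝ => G.phi x ξ ((r * s) • z)) (𝓝[<] 1) (𝓝 (G.phi x ξ (s • z))) := by
  have hI : s • z ∈ G.I x := mem_I_of_smul hz hs0 hs1
  have h1 : ContinuousWithinAt
      (fun q : TangentSpace (𝓡 n) x × TangentSpace (𝓡 n) x => G.phi x q.1 q.2)
      {q | q.2 ∈ G.I x} (ξ, s • z) := hC.phi_cont x (ξ, s • z) hI
  have h2 : Tendsto (fun r : ℝ => ((ξ, (r * s) • z) : TangentSpace (𝓡 n) x × TangentSpace (𝓡 n) x))
      (𝓝[<] 1) (𝓝[{q | q.2 ∈ G.I x}] (ξ, s • z)) := by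
    refine tendsto_nhdsWithin_iff.2 ⟨?_, ?_⟩
    · have h3 : Tendsto (fun r : ℝ => ((ξ, (r * s) • z) :
          TangentSpace (𝓡 n) x × TangentSpace (𝓡 n) x)) (𝓝 1) (𝓝 (ξ, ((1 : ℝ) * s) • z)) := by
        apply Continuous.tendsto
        fun_prop
      rw [one_mul] at h3
      exact h3.mono_left nhdsWithin_le_nhds
    · have h3 : ∀ᶠ r : ℝ in 𝓝[<] 1, r ∈ Ioo (0 : ℝ) 1 := Ioo_mem_nhdsLT (by norm_num)
      filter_upwards [h3] with r hr
      have h4 : 0 < r * s := mul_pos hr.1 hs0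
      have h5 : r * s < 1 := by
        calc r * s < 1 * s := mul_lt_mul_of_pos_right hr.2 hs0
          _ = s := one_mul s
          _ < 1 := hs1
      exact mem_I_of_smul hz h4 h5
  have h3 := h1.tendsto.comp h2
  simpa only [Function.comp_def] using h3

lemma core' {G : GeoData n M} (hC : CutFacts G) (hM : MTWFacts G) {u : M → ℝ} {s : ℝ}
    (hs0 : 0 < s) (hs1 : s < 1) (hgood : G.Good u s) {y : M} {q q' : TangentSpace (𝓡 n) y}
    (hq : ∀ᶠ τ : ℝ in 𝓝 0, q + τ • q' ∈ G.K y ∧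
      G.ex y (q + τ • q') ∈ Cset (fun z => s * u z) y)
    {x : M} (hx1 : G.ex y q = x)
    {ζ : ℝ → TangentSpace (𝓡 n) x} (hζ : ContDiffAt ℝ 2 ζ 0)
    (hζ0 : ζ 0 = 0)
    (hζe : ∀ᶠ τ : ℝ in 𝓝 0, G.ex x (ζ τ) = G.ex y (q + τ • q'))
    (hζ' : deriv ζ 0 ≠ 0) {p₀ w : TangentSpace (𝓡 n) x}
    (hwH : w ∈ G.H u x) (hpw : p₀ = s • w)
    (hseg : ∀ ε : ℝ, 0 < ε → ∃ r₁ : ℝ, r₁ < 1 ∧ ∀ r : ℝ, r₁ < r → r < 1 →
      G.phi x (deriv ζ 0) (r • p₀) ≤ ‖q'‖ ^ 2 + inner ℝ p₀ (deriv (deriv ζ) 0) + ε) : False := by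
  have hwH' := hwH
  rw [GeoData.H, convexHull_eq] at hwH'
  obtain ⟨ι, T, θ, z, hθ0, hθ1, hz, hw⟩ := hwH'
  rw [Finset.centerMass_eq_of_sum_1 _ _ hθ1] at hw
  set ξ : TangentSpace (𝓡 n) x := deriv ζ 0 with hξ
  set t : ℝ := (s + 1) / 2 with ht
  have hst : s < t := by rw [ht]; linarith
  have ht1 : t < 1 := by rw [ht]; linarith
  have ht0 : 0 < t := hs0.trans hst
  have hA : ∀ i ∈ T, s * inner ℝ (z i) ξ = -inner ℝ q q' ∧
      ‖q'‖ ^ 2 + s * inner ℝ (z i) (deriv (deriv ζ) 0) ≤ (s / t) * G.phi x ξ (t • z i) :=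
    fun i hi => compare_one hC hs0 hq hx1 hζ hζ0 hζe (hz i hi) hst ht1
  set A : ℝ := ‖q'‖ ^ 2 + inner ℝ p₀ (deriv (deriv ζ) 0) with hAdef
  -- step 1
  have hsum1 : A ≤ ∑ i ∈ T, θ i * ((s / t) * G.phi x ξ (t • z i)) := by
    have h1 : A = ∑ i ∈ T, θ i * (‖q'‖ ^ 2 + s * inner ℝ (z i) (deriv (deriv ζ) 0)) := by
      rw [hAdef, hpw, ← hw]
      simp only [mul_add, Finset.sum_add_distrib]
      rw [← Finset.sum_mul, hθ1, one_mul, inner_smul_left, sum_inner, Finset.mul_sum]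
      simp only [conj_trivial]
      congr 1
      refine Finset.sum_congr rfl fun i _ => ?_
      rw [inner_smul_left]
      simp only [conj_trivial]
      ring
    rw [h1]
    exact Finset.sum_le_sum fun i hi => mul_le_mul_of_nonneg_left (hA i hi).2 (hθ0 i hi)
  -- step 2 : strict monotonicity
  have hmono : ∀ i ∈ T, (s / t) * G.phi x ξ (t • z i) < G.phi x ξ (s • z i) := by
    intro i hi
    have hI : t • z i ∈ G.I x := mem_I_of_smul (hz i hi).1 ht0 ht1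
    have h1 := hC.mono x (t • z i) hI ξ hζ' (s / t) (div_pos hs0 ht0)
      (by rw [div_lt_one ht0]; exact hst)
    rw [smul_smul, div_mul_cancel₀ _ ht0.ne', lt_div_iff₀ (div_pos hs0 ht0)] at h1
    linarith [mul_comm (s / t) (G.phi x ξ (t • z i))]
  have hpos : ∃ i ∈ T, 0 < θ i := by
    by_contra hcon
    push Not at hcon
    have : ∑ i ∈ T, θ i ≤ 0 := Finset.sum_nonpos hcon
    rw [hθ1] at this
    linarith
  have hstrict : ∑ i ∈ T, θ i * ((s / t) * G.phi x ξ (t • z i)) <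
      ∑ i ∈ T, θ i * G.phi x ξ (s • z i) := by
    refine Finset.sum_lt_sum (fun i hi =>
      mul_le_mul_of_nonneg_left (hmono i hi).le (hθ0 i hi)) ?_
    obtain ⟨i, hi, hi0⟩ := hpos
    exact ⟨i, hi, mul_lt_mul_of_pos_left (hmono i hi) hi0⟩
  -- step 3 : Jensen
  have hJ : ∀ r : ℝ, 0 < r → r < 1 →
      ∑ i ∈ T, θ i * G.phi x ξ ((r * s) • z i) ≤ G.phi x ξ (r • p₀) := by
    intro r hr0 hr1
    have hcc := concaveOn_phi hM hgood x ξ (-inner ℝ q q' / s) hr0 hr1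
    have hmem : ∀ i ∈ T, z i ∈ G.H u x ∩ {w | inner ℝ w ξ = -inner ℝ q q' / s} := by
      intro i hi
      refine ⟨subset_convexHull ℝ _ (hz i hi), ?_⟩
      simp only [mem_ofPred_eq]
      rw [eq_div_iff hs0.ne', mul_comm]
      exact (hA i hi).1
    have h1 := hcc.le_map_sum hθ0 hθ1 hmem
    rw [hw] at h1
    simp only [smul_eq_mul] at h1
    rw [hpw, smul_smul]
    exact h1
  -- step 4 : limit
  have hlim : Tendsto (fun r : ℝ => ∑ i ∈ T, θ i * G.phi x ξ ((r * s) • z i)) (𝓝[<] 1)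
      (𝓝 (∑ i ∈ T, θ i * G.phi x ξ (s • z i))) := by
    refine tendsto_finsetSum _ fun i hi => ?_
    exact Tendsto.const_mul _ (tendsto_phi hC ξ (hz i hi).1 hs0 hs1)
  have hfin : ∑ i ∈ T, θ i * G.phi x ξ (s • z i) ≤ A := by
    refine le_of_forall_pos_le_add fun ε hε => ?_
    obtain ⟨r₁, hr₁, hr⟩ := hseg ε hε
    have h3 : ∀ᶠ r : ℝ in 𝓝[<] 1, r ∈ Ioo (max r₁ 0) 1 :=
      Ioo_mem_nhdsLT (max_lt hr₁ (by norm_num))
    refine le_of_tendsto hlim ?_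
    filter_upwards [h3] with r hr2
    have h4 := hr r ((le_max_left _ _).trans_lt hr2.1) hr2.2
    exact (hJ r ((le_max_right _ _).trans_lt hr2.1) hr2.2).trans h4
  linarith

lemma core {G : GeoData n M} (hC : CutFacts G) (hM : MTWFacts G) {u : M → ℝ} {s : ℝ}
    (hs0 : 0 < s) (hs1 : s < 1) (hgood : G.Good u s) {y : M} {q q' : TangentSpace (𝓡 n) y}
    (hq : ∀ᶠ τ : ℝ in 𝓝 0, q + τ • q' ∈ G.K y ∧
      G.ex y (q + τ • q') ∈ Cset (fun z => s * u z) y)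
    {ζ : ℝ → TangentSpace (𝓡 n) (G.ex y ((1 : ℝ) • q))} (hζ : ContDiffAt ℝ 2 ζ 0)
    (hζ0 : ζ 0 = 0)
    (hζe : ∀ᶠ τ : ℝ in 𝓝 0, G.ex (G.ex y ((1 : ℝ) • q)) (ζ τ) = G.ex y (q + τ • q'))
    (hζ' : deriv ζ 0 ≠ 0)
    (hLC : ∃ w ∈ G.H u (G.ex y ((1 : ℝ) • q)), -(G.vel y q 1) = s • w) : False := by
  obtain ⟨w, hwH, hpw⟩ := hLC
  exact core' hC hM hs0 hs1 hgood hq (by rw [one_smul]) hζ hζ0 hζe hζ' hwH hpw
    (hC.seg y q q' (hq.mono fun τ h => h.1) ζ hζ hζ0 hζe)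

/-- **Step (I)**: `P_φ(y)` is a singleton. -/
theorem stepI {G : GeoData n M} (hC : CutFacts G) (hM : MTWFacts G) {u : M → ℝ} {s : ℝ}
    (hs0 : 0 < s) (hs1 : s < 1) (hgood : G.Good u s) (y : M)
    (hLC : ∀ x, x ∈ Cset (fun z => s * u z) y → ∀ v ∈ G.K x, G.ex x v = y →
      ∃ w ∈ G.H u x, v = s • w)
    (hconv : Convex ℝ {q | q ∈ G.K y ∧ G.ex y q ∈ Cset (fun z => s * u z) y}) :
    {q | q ∈ G.K y ∧ G.ex y q ∈ Cset (fun z => s * u z) y}.Subsingleton := by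
  intro q₀ h₀ q₁ h₁
  by_contra hne
  set q' : TangentSpace (𝓡 n) y := q₁ - q₀ with hq'
  have hq'0 : q' ≠ 0 := by
    rw [hq']; exact sub_ne_zero.2 (Ne.symm hne)
  have hmem : ∀ τ : ℝ, 0 ≤ τ → τ ≤ 1 →
      q₀ + τ • q' ∈ {q | q ∈ G.K y ∧ G.ex y q ∈ Cset (fun z => s * u z) y} := by
    intro τ h0 h1
    have h2 := hconv h₀ h₁ (a := 1 - τ) (b := τ) (by linarith) h0 (by ring)
    have h3 : (1 - τ) • q₀ + τ • q₁ = q₀ + τ • q' := by
      rw [hq', sub_smul, one_smul, smul_sub]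
      abel
    rwa [h3] at h2
  obtain ⟨τ₀, h0, h1, ζ, hζ1, hζ2, hζ3, hζ4⟩ :=
    exists_moving hq'0 (fun τ h0 h1 => (hmem τ h0.le h1.le).1)
  set q : TangentSpace (𝓡 n) y := q₀ + τ₀ • q' with hqd
  have hev : ∀ᶠ τ : ℝ in 𝓝 0, q + τ • q' ∈ G.K y ∧
      G.ex y (q + τ • q') ∈ Cset (fun z => s * u z) y := by
    have h2 : ∀ᶠ τ : ℝ in 𝓝 0, τ ∈ Ioo (-τ₀) (1 - τ₀) := Ioo_mem_nhds (by linarith) (by linarith)
    filter_upwards [h2] with τ hτ
    have h3 := hmem (τ₀ + τ) (by linarith [hτ.1]) (by linarith [hτ.2])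
    have h4 : q₀ + (τ₀ + τ) • q' = q + τ • q' := by
      rw [hqd, add_smul, add_assoc]
    rw [h4] at h3
    exact h3
  have hself := hev.self_of_nhds
  rw [zero_smul, add_zero] at hself
  refine core hC hM hs0 hs1 hgood hev (hζ1.of_le ENat.LEInfty.out) hζ2 hζ3 hζ4 ?_
  have hrev := hC.rev y q hself.1
  have hrevex := hC.rev_ex y q 1
  rw [sub_self, zero_smul, G.ex_zero, one_smul ℝ (-(G.vel y q 1))] at hrevex
  refine hLC _ ?_ _ hrev hrevex
  rw [one_smul]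
  exact hself.2

end Crest.Agent.R226.StepI371
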