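/-
R226 (helper413): symmetry of the derivative of the exponential map along two minimising chords,
through the midpoint (no non-focality assumption), and the slope comparison used in doc 1855 (1).
-/
import Crest.Agent.R226.NF1_946
import Crest.Agent.R226.StepI_371

set_option autoImplicit false
set_option linter.unusedSectionVars false
set_option linter.unusedVariables false

open MeasureTheory Bundle Set Filter
open scoped Manifold ContDiff Bundle ENNReal Topology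
open Crest.GeometryTopology.MTW
open Crest.Agent.R226.Calc347 Crest.Agent.R226.MTWConc117 Crest.Agent.R226.Base347
open Crest.Agent.R226.Crit347 Crest.Agent.R226.Focal347 Crest.Agent.R226.NF946

namespace Crest.Agent.R226.SymExp413

variable {n : ℕ} {M : Type*} [MetricSpace M] [ChartedSpace (EuclideanSpace ℝ (Fin n)) M]
  [IsManifold (𝓡 n) ∞ M]
  [RiemannianBundle (fun p : M => TangentSpace (𝓡 n) p)]
  {G : GeoData n M}

section calcA
variable {E : Type*} [NormedAddCommGroup E] [NormedSpace ℝ E]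

/-- a `C²` function composed with a differentiable curve: derivative of `fderiv g (γ σ) w`. -/
theorem hasDerivAt_fderiv_curve {g : E → ℝ} {γ : ℝ → E} {γ' : E} {s : ℝ}
    (hg : ContDiffAt ℝ 2 g (γ s)) (hγ : HasDerivAt γ γ' s) (w : E) :
    HasDerivAt (fun σ => fderiv ℝ g (γ σ) w) (hess g (γ s) γ' w) s := by
  have h1 := (hasFDerivAt_fderiv' hg).comp_hasDerivAt s hγ
  have h2 := h1.clm_apply (hasDerivAt_const s w)
  simpa using h2

/-- if two differentiable functions agree on the right of `s`, the derivatives agree. -/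
theorem deriv_unique_right {f g : ℝ → ℝ} {f' g' s : ℝ} (hf : HasDerivAt f f' s)
    (hg : HasDerivAt g g' s) (h : ∀ᶠ σ in 𝓝[>] s, f σ = g σ) : f' = g' := by
  have h1 : HasDerivAt (fun σ => f σ - g σ) (f' - g') s := hf.sub hg
  have h0 : f s = g s := by
    have a1 : Tendsto f (𝓝[>] s) (𝓝 (f s)) := hf.continuousAt.tendsto.mono_left nhdsWithin_le_nhds
    have a2 : Tendsto g (𝓝[>] s) (𝓝 (g s)) := hg.continuousAt.tendsto.mono_left nhdsWithin_le_nhds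
    exact tendsto_nhds_unique (a1.congr' h) a2
  have h2 : HasDerivWithinAt (fun σ => f σ - g σ) (f' - g') (Ioi s) s := h1.hasDerivWithinAt
  have h3 : HasDerivWithinAt (fun _ : ℝ => (0 : ℝ)) 0 (Ioi s) s := hasDerivWithinAt_const s _ _
  have h4 : HasDerivWithinAt (fun σ => f σ - g σ) 0 (Ioi s) s := by
    refine h3.congr_of_eventuallyEq ?_ (by simp [h0])
    filter_upwards [h] with σ hσ
    simp [hσ]
  have h5 := (uniqueDiffWithinAt_Ioi s).eq_deriv _ h2 h4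
  linarith

end calcA

variable (G) in
/-- the two-step energy with a moving first point -/
noncomputable def gE (y : M) (z : M) (q q' : TangentSpace (𝓡 n) y)
    (a : ℝ × TangentSpace (𝓡 n) z) : ℝ :=
  2 * halfDistSq (G.ex y (q + a.1 • q')) (G.ex z a.2) + 2 * halfDistSq y (G.ex z a.2)

variable (G) in
/-- the two-step energy through `ex z ξ` -/
noncomputable def eE (x y z : M) (ξ : TangentSpace (𝓡 n) z) : ℝ :=
  2 * halfDistSq x (G.ex z ξ) + 2 * halfDistSq y (G.ex z ξ)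

theorem contDiffAt_pair {x y z : M} {V : Type*} [NormedAddCommGroup V] [NormedSpace ℝ V]
    {γ₁ γ₂ : V → M} {a : V} (h : ContMDiffAt ((𝓡 n).prod (𝓡 n)) 𝓘(ℝ) ∞
      (fun q : M × M => halfDistSq q.1 q.2) (γ₁ a, γ₂ a))
    (h1 : ContMDiffAt 𝓘(ℝ, V) (𝓡 n) ∞ γ₁ a) (h2 : ContMDiffAt 𝓘(ℝ, V) (𝓡 n) ∞ γ₂ a) :
    ContDiffAt ℝ ∞ (fun b => halfDistSq (γ₁ b) (γ₂ b)) a := by
  rw [← contMDiffAt_iff_contDiffAt]
  exact ContMDiffAt.comp a (g := fun q : M × M => halfDistSq q.1 q.2) h (h1.prodMk h2)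

theorem contMDiffAt_ex_comp {z : M} {V : Type*} [NormedAddCommGroup V] [NormedSpace ℝ V]
    {f : V → TangentSpace (𝓡 n) z} {a : V} (hf : ContDiffAt ℝ ∞ f a) :
    ContMDiffAt 𝓘(ℝ, V) (𝓡 n) ∞ (fun b => G.ex z (f b)) a := by
  have h3 : ContMDiffAt 𝓘(ℝ, V) 𝓘(ℝ, TangentSpace (𝓡 n) z) ∞ f a := by
    rw [contMDiffAt_iff_contDiffAt]; exact hf
  exact ContMDiffAt.comp a (MTWConc117.contMDiff_ex G z).contMDiffAt h3

theorem contDiffAt_gE (hB : Base G) {x y z : M} {q q' : TangentSpace (𝓡 n) y}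
    (hq : q ∈ G.K y) (hqx : G.ex y q = x) (hqz : G.ex y ((1 / 2 : ℝ) • q) = z)
    {p : TangentSpace (𝓡 n) x} (hp : p ∈ G.K x) (hpz : G.ex x ((1 / 2 : ℝ) • p) = z) :
    ContDiffAt ℝ ∞ (gE G y z q q') (0, 0) := by
  have c1 := hB.smooth_cost x _ (hB.smul_mem_I hp (t := 1 / 2) (by norm_num) (by norm_num))
  have c2 := hB.smooth_cost y _ (hB.smul_mem_I hq (t := 1 / 2) (by norm_num) (by norm_num))
  rw [hpz] at c1
  rw [hqz] at c2
  have m1 : ContMDiffAt 𝓘(ℝ, ℝ × TangentSpace (𝓡 n) z) (𝓡 n) ∞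
      (fun a : ℝ × TangentSpace (𝓡 n) z => G.ex y (q + a.1 • q')) (0, 0) :=
    contMDiffAt_ex_comp (by fun_prop)
  have m2 : ContMDiffAt 𝓘(ℝ, ℝ × TangentSpace (𝓡 n) z) (𝓡 n) ∞
      (fun a : ℝ × TangentSpace (𝓡 n) z => G.ex z a.2) (0, 0) :=
    contMDiffAt_ex_comp contDiffAt_snd
  have m3 : ContMDiffAt 𝓘(ℝ, ℝ × TangentSpace (𝓡 n) z) (𝓡 n) ∞
      (fun a : ℝ × TangentSpace (𝓡 n) z => y) (0, 0) := contMDiffAt_const
  have d1 : ContDiffAt ℝ ∞ (fun a : ℝ × TangentSpace (𝓡 n) z =>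
      halfDistSq (G.ex y (q + a.1 • q')) (G.ex z a.2)) (0, 0) := by
    refine contDiffAt_pair (x := x) (y := y) (z := z) ?_ m1 m2
    simp only [zero_smul, add_zero, G.ex_zero, hqx]
    exact c1
  have d2 : ContDiffAt ℝ ∞ (fun a : ℝ × TangentSpace (𝓡 n) z =>
      halfDistSq y (G.ex z a.2)) (0, 0) := by
    refine contDiffAt_pair (x := x) (y := y) (z := z) ?_ m3 m2
    simp only [G.ex_zero]
    exact c2
  exact (contDiffAt_const.mul d1).add (contDiffAt_const.mul d2)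


theorem hess_snd_snd {V W : Type*} [NormedAddCommGroup V] [NormedSpace ℝ V] [NormedAddCommGroup W]
    [NormedSpace ℝ W] {g : V × W → ℝ} {a : V} {b : W} (hg : ContDiffAt ℝ 2 g (a, b)) (v w : W) :
    hess g (a, b) (0, v) (0, w) = hess (fun b' => g (a, b')) b v w := by
  have hg' : ContDiffAt ℝ 2 (fun b' => g (a, b')) b :=
    ContDiffAt.comp b hg (contDiffAt_const.prodMk contDiffAt_id)
  have hc : HasDerivAt (fun s : ℝ => b + s • v) v 0 := by
    have := ((hasDerivAt_id (0 : ℝ)).smul_const v).const_add b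
    simpa using this
  have hc2 : HasDerivAt (fun s : ℝ => (a, b + s • v)) ((0 : V), v) 0 :=
    (hasDerivAt_const (0 : ℝ) a).prodMk hc
  have h1 := hess_curve hg hc2 (by simp) ((0 : V), w)
  have h2 := hess_curve hg' hc (by simp) w
  refine h1.unique (h2.congr_of_eventuallyEq ?_)
  have hev : ∀ᶠ q in 𝓝 (a, b), ContDiffAt ℝ 2 g q := hg.eventually (by simp)
  have hcc : ContinuousAt (fun s : ℝ => (a, b + s • v)) 0 := hc2.continuousAt
  have hcc' : Tendsto (fun s : ℝ => (a, b + s • v)) (𝓝 0) (𝓝 (a, b)) := by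
    have := hcc.tendsto
    simpa using this
  filter_upwards [hcc'.eventually hev] with s hs
  exact fderiv_snd (hs.differentiableAt (by norm_num)) w

/-- the two-step energy is at least the cost -/
theorem gE_ge {y z : M} {q q' : TangentSpace (𝓡 n) y} {σ : ℝ} (hq : q + σ • q' ∈ G.K y)
    (ξ : TangentSpace (𝓡 n) z) : ‖q + σ • q'‖ ^ 2 / 2 ≤ gE G y z q q' (σ, ξ) := by
  have h1 := halfDistSq_le_two y (G.ex z ξ) (G.ex y (q + σ • q'))
  rw [halfDistSq_of_mem_K hq, halfDistSq_comm (G.ex z ξ)] at h1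
  show _ ≤ 2 * halfDistSq (G.ex y (q + σ • q')) (G.ex z ξ) + 2 * halfDistSq y (G.ex z ξ)
  linarith

theorem gE_mid (hB : Base G) {y z : M} {q q' : TangentSpace (𝓡 n) y} {σ : ℝ}
    (hq : q + σ • q' ∈ G.K y)
    {ξ : TangentSpace (𝓡 n) z} (hξ : G.ex z ξ = G.ex y ((1 / 2 : ℝ) • (q + σ • q'))) :
    gE G y z q q' (σ, ξ) = ‖q + σ • q'‖ ^ 2 / 2 := by
  show 2 * halfDistSq (G.ex y (q + σ • q')) (G.ex z ξ) + 2 * halfDistSq y (G.ex z ξ) = _
  have h1 := halfDistSq_of_mem_K' hq (s := 1 / 2) (t := 1) (by norm_num) (by norm_num) le_rfl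
  have h2 := halfDistSq_of_mem_K (hB.star y _ hq (1 / 2) (by norm_num) (by norm_num))
  rw [one_smul] at h1
  rw [norm_smul, mul_pow, Real.norm_eq_abs, sq_abs] at h2
  rw [hξ, halfDistSq_comm (G.ex y (q + σ • q')), h1, h2]
  ring

/-- **half lemma** -/
theorem half (hB : Base G) {x y z : M} {q q' : TangentSpace (𝓡 n) y}
    (hq : q ∈ G.K y) (hqx : G.ex y q = x) (hqz : G.ex y ((1 / 2 : ℝ) • q) = z)
    (hqK : ∀ᶠ σ : ℝ in 𝓝[>] 0, q + σ • q' ∈ G.K y)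
    {p p' : TangentSpace (𝓡 n) x} (hp : p ∈ G.K x)
    (hpz : G.ex x ((1 / 2 : ℝ) • p) = z)
    (hpK : ∀ᶠ s : ℝ in 𝓝[>] 0, p + s • p' ∈ G.K x)
    {ζ : ℝ → TangentSpace (𝓡 n) x} {ζ' : TangentSpace (𝓡 n) x} (hζ : HasDerivAt ζ ζ' 0)
    (hζ0 : ζ 0 = 0) (hζe : ∀ᶠ σ in 𝓝 (0 : ℝ), G.ex x (ζ σ) = G.ex y (q + σ • q'))
    {α β : ℝ → TangentSpace (𝓡 n) z} {α' β' : TangentSpace (𝓡 n) z}
    (hα : HasDerivAt α α' 0) (hα0 : α 0 = 0)
    (hαe : ∀ᶠ σ in 𝓝 (0 : ℝ), G.ex z (α σ) = G.ex y ((1 / 2 : ℝ) • (q + σ • q')))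
    (hβ : HasDerivAt β β' 0) (hβ0 : β 0 = 0)
    (hβe : ∀ᶠ s in 𝓝 (0 : ℝ), G.ex z (β s) = G.ex x ((1 / 2 : ℝ) • (p + s • p'))) :
    hess (eE G x y z) 0 α' β' = inner ℝ p' ζ' ∧ inner ℝ q q' = -inner ℝ p ζ' := by
  have hgi := contDiffAt_gE hB (q' := q') hq hqx hqz hp hpz
  set g := gE G y z q q' with hgdef
  have hg : ContDiffAt ℝ 2 g (0, 0) := contDiffAt_infty.1 hgi 2
  have hev : ∀ᶠ a in 𝓝 ((0 : ℝ), (0 : TangentSpace (𝓡 n) z)), DifferentiableAt ℝ g a := by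
    filter_upwards [hg.eventually (by simp)] with a ha
    exact ha.differentiableAt (by norm_num)
  -- the two curves
  have hγ1 : HasDerivAt (fun σ : ℝ => (σ, α σ)) ((1 : ℝ), α') 0 :=
    (hasDerivAt_id (0 : ℝ)).prodMk hα
  have hγ2 : HasDerivAt (fun σ : ℝ => ((0 : ℝ), β σ)) ((0 : ℝ), β') 0 :=
    (hasDerivAt_const (0 : ℝ) (0 : ℝ)).prodMk hβ
  have t1 : Tendsto (fun σ : ℝ => (σ, α σ)) (𝓝 0) (𝓝 (0, 0)) := by
    have := hγ1.continuousAt.tendsto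
    simpa [hα0] using this
  have t2 : Tendsto (fun σ : ℝ => ((0 : ℝ), β σ)) (𝓝 0) (𝓝 (0, 0)) := by
    have := hγ2.continuousAt.tendsto
    simpa [hβ0] using this
  -- criticality
  have hcrit : ∀ θ : TangentSpace (𝓡 n) z, ∀ σ : ℝ, q + σ • q' ∈ G.K y →
      G.ex z (α σ) = G.ex y ((1 / 2 : ℝ) • (q + σ • q')) → DifferentiableAt ℝ g (σ, α σ) →
      fderiv ℝ g (σ, α σ) (0, θ) = 0 := by
    intro θ σ h1 h2 h3
    have h4 : HasDerivAt (fun t : ℝ => (σ, α σ + t • θ)) ((0 : ℝ), θ) 0 := by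
      have h5 : HasDerivAt (fun t : ℝ => α σ + t • θ) θ 0 := by
        have := ((hasDerivAt_id (0 : ℝ)).smul_const θ).const_add (α σ)
        simpa using this
      exact (hasDerivAt_const (0 : ℝ) σ).prodMk h5
    have h6 : HasFDerivAt g (fderiv ℝ g (σ, α σ)) (σ, α σ + (0 : ℝ) • θ) := by
      rw [zero_smul, add_zero]; exact h3.hasFDerivAt
    have h7 := h6.comp_hasDerivAt (0 : ℝ) h4
    have h8 : IsLocalMin (g ∘ fun t : ℝ => (σ, α σ + t • θ)) 0 := by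
      refine Eventually.of_forall fun t => ?_
      show g (σ, α σ + (0 : ℝ) • θ) ≤ g (σ, α σ + t • θ)
      rw [zero_smul, add_zero, hgdef, gE_mid hB h1 h2]
      exact gE_ge h1 _
    exact h8.hasDerivAt_eq_zero h7
  have hq0 : q + (0 : ℝ) • q' ∈ G.K y := by rw [zero_smul, add_zero]; exact hq
  -- (i)
  have hi : ∀ θ : TangentSpace (𝓡 n) z, hess g (0, 0) ((1 : ℝ), α') (0, θ) = 0 := by
    intro θ
    have h1 := hess_curve hg hγ1 (by simp [hα0]) ((0 : ℝ), θ)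
    refine deriv_unique_right h1 (hasDerivAt_const (0 : ℝ) (0 : ℝ)) ?_
    filter_upwards [hqK, hαe.filter_mono nhdsWithin_le_nhds,
      (t1.eventually hev).filter_mono nhdsWithin_le_nhds] with σ a1 a2 a3
    exact hcrit θ σ a1 a2 a3
  -- (ii) the σ-derivative at σ = 0
  have hii : ∀ s : ℝ, p + s • p' ∈ G.K x →
      G.ex z (β s) = G.ex x ((1 / 2 : ℝ) • (p + s • p')) → DifferentiableAt ℝ g (0, β s) →
      fderiv ℝ g (0, β s) (1, 0) = -inner ℝ (p + s • p') ζ' := by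
    intro s h1 h2 h3
    have hv : (1 / 2 : ℝ) • (p + s • p') ∈ G.I x := hB.smul_mem_I h1 (by norm_num) (by norm_num)
    have h4 : HasDerivAt (fun σ : ℝ => (σ, β s)) ((1 : ℝ), (0 : TangentSpace (𝓡 n) z)) 0 :=
      (hasDerivAt_id (0 : ℝ)).prodMk (hasDerivAt_const (0 : ℝ) (β s))
    have h5 : HasDerivAt (g ∘ fun σ : ℝ => (σ, β s)) (fderiv ℝ g (0, β s) (1, 0)) 0 :=
      h3.hasFDerivAt.comp_hasDerivAt (0 : ℝ) h4
    have h6 : DifferentiableAt ℝ (fun ξ => F G x (ξ, (1 / 2 : ℝ) • (p + s • p'))) 0 := by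
      have := (contDiffAt_infty.1 (hB.contDiffAt_F_zero hv) 1).differentiableAt (by norm_num)
      exact DifferentiableAt.comp (0 : TangentSpace (𝓡 n) x) (f := fun ξ => (ξ, _)) this
        (by fun_prop)
    have h7 : HasFDerivAt (fun ξ => F G x (ξ, (1 / 2 : ℝ) • (p + s • p')))
        (fderiv ℝ (G.nc x ((1 / 2 : ℝ) • (p + s • p'))) 0) (ζ 0) := by
      rw [hζ0]; exact h6.hasFDerivAt
    have h8 := h7.comp_hasDerivAt (0 : ℝ) hζ
    rw [hB.nc_fderiv x _ hv, real_inner_smul_left] at h8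
    have h9 := (h8.const_mul 2).add_const (2 * halfDistSq y (G.ex z (β s)))
    have h10 : HasDerivAt (g ∘ fun σ : ℝ => (σ, β s))
        (2 * -(1 / 2 * inner ℝ (p + s • p') ζ')) 0 := by
      refine h9.congr_of_eventuallyEq ?_
      filter_upwards [hζe] with σ hσ
      show 2 * halfDistSq (G.ex y (q + σ • q')) (G.ex z (β s)) + 2 * halfDistSq y (G.ex z (β s)) =
        2 * halfDistSq (G.ex x (ζ σ)) (G.ex x ((1 / 2 : ℝ) • (p + s • p'))) +
          2 * halfDistSq y (G.ex z (β s))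
      rw [hσ, h2]
    rw [h5.unique h10]; ring
  have hp0 : p + (0 : ℝ) • p' ∈ G.K x := by rw [zero_smul, add_zero]; exact hp
  have hiii : hess g (0, 0) ((0 : ℝ), β') (1, 0) = -inner ℝ p' ζ' := by
    have h1 := hess_curve hg hγ2 (by simp [hβ0]) ((1 : ℝ), (0 : TangentSpace (𝓡 n) z))
    have h2 : HasDerivAt (fun s : ℝ => -inner ℝ (p + s • p') ζ') (-inner ℝ p' ζ') 0 := by
      have h5 : (fun s : ℝ => -inner ℝ (p + s • p') ζ') =
          fun s : ℝ => -inner ℝ p ζ' + s * (-inner ℝ p' ζ') := by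
        funext s
        rw [inner_add_left, real_inner_smul_left]; ring
      rw [h5]
      have := ((hasDerivAt_id (0 : ℝ)).mul_const (-inner ℝ p' ζ')).const_add (-inner ℝ p ζ')
      simpa using this
    refine deriv_unique_right h1 h2 ?_
    filter_upwards [hpK, hβe.filter_mono nhdsWithin_le_nhds,
      (t2.eventually hev).filter_mono nhdsWithin_le_nhds] with σ a1 a2 a3
    exact hii σ a1 a2 a3
  have hsnd : hess g (0, 0) ((0 : ℝ), α') (0, β') = hess (eE G x y z) 0 α' β' := by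
    rw [hess_snd_snd hg]
    congr 3
    funext b
    show 2 * halfDistSq (G.ex y (q + (0 : ℝ) • q')) (G.ex z b) + 2 * halfDistSq y (G.ex z b) = _
    rw [zero_smul, add_zero, hqx]; rfl
  constructor
  · have h1 := hi β'
    have h2 : ((1 : ℝ), α') = ((1 : ℝ), (0 : TangentSpace (𝓡 n) z)) + ((0 : ℝ), α') := by simp
    rw [h2, map_add, add_apply, hsnd,
      hess_symm hg ((1 : ℝ), (0 : TangentSpace (𝓡 n) z)) (0, β'), hiii] at h1
    linarith
  · -- differentiate `g (σ, α σ) = ‖q + σ q'‖² / 2`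
    have h1 : HasFDerivAt g (fderiv ℝ g (0, 0)) ((0 : ℝ), α 0) := by
      rw [hα0]; exact (hg.differentiableAt (by norm_num)).hasFDerivAt
    have h2 := h1.comp_hasDerivAt (0 : ℝ) hγ1
    have h3 : HasDerivAt (fun σ : ℝ => ‖q + σ • q'‖ ^ 2 / 2) (inner ℝ q q') 0 := by
      have h5 : (fun σ : ℝ => ‖q + σ • q'‖ ^ 2 / 2) =
          fun σ : ℝ => ‖q‖ ^ 2 / 2 + σ * inner ℝ q q' + σ ^ 2 * (‖q'‖ ^ 2 / 2) := by
        funext σ
        rw [norm_add_sq_real, norm_smul, inner_smul_right, mul_pow, Real.norm_eq_abs, sq_abs]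
        ring
      rw [h5]
      have a1 := ((hasDerivAt_id (0 : ℝ)).mul_const (inner ℝ q q')).const_add (‖q‖ ^ 2 / 2)
      have a2 := ((hasDerivAt_id (0 : ℝ)).pow 2).mul_const (‖q'‖ ^ 2 / 2)
      exact (a1.add a2).congr_deriv (by simp)
    have h4 : fderiv ℝ g (0, 0) ((1 : ℝ), α') = inner ℝ q q' := by
      refine deriv_unique_right h2 h3 ?_
      filter_upwards [hqK, hαe.filter_mono nhdsWithin_le_nhds] with σ a1 a2
      show gE G y z q q' (σ, α σ) = _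
      exact gE_mid hB a1 a2
    have h5 := hcrit α' 0 hq0 (by rw [hα0, G.ex_zero, zero_smul, add_zero, hqz])
      (by rw [hα0]; exact hg.differentiableAt (by norm_num))
    have h6 := hii 0 hp0 (by rw [hβ0, G.ex_zero, zero_smul, add_zero, hpz])
      (by rw [hβ0]; exact hg.differentiableAt (by norm_num))
    rw [hα0] at h5
    rw [hβ0, zero_smul, add_zero] at h6
    have h2' : ((1 : ℝ), α') = ((1 : ℝ), (0 : TangentSpace (𝓡 n) z)) + ((0 : ℝ), α') := by simp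
    rw [h2', map_add, h5, h6] at h4
    linarith


/-- reversal with a free base point -/
theorem exists_rev (hB : Base G) {x y : M} {q : TangentSpace (𝓡 n) y} (hq : q ∈ G.K y)
    (hx : G.ex y q = x) :
    ∃ p ∈ G.K x, ∀ t : ℝ, G.ex x (t • p) = G.ex y ((1 - t) • q) := by
  have key : ∀ x' : M, G.ex y ((1 : ℝ) • q) = x' →
      ∃ p ∈ G.K x', ∀ t : ℝ, G.ex x' (t • p) = G.ex y ((1 - t) • q) := by
    rintro _ rfl
    exact ⟨_, hB.rev y q hq, hB.rev_ex y q⟩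
  exact key x (by rw [one_smul]; exact hx)

theorem eE_comm (x y z : M) : eE G y x z = eE G x y z := by
  funext ξ
  unfold eE
  ring

/-- **symmetry**: `⟨ṗ, D(exp_y) q̇⟩ = ⟨q̇, D(exp_x) ṗ⟩` for one-sided minimising chords at the two
ends of a minimising geodesic (possibly cut or focal), with the two Gauss lemmas. -/
theorem sym (hB : Base G) {x y : M} {q q' : TangentSpace (𝓡 n) y}
    (hq : q ∈ G.K y) (hqx : G.ex y q = x)
    (hqK : ∀ᶠ σ : ℝ in 𝓝[>] 0, q + σ • q' ∈ G.K y)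
    {p p' : TangentSpace (𝓡 n) x} (hp : p ∈ G.K x) (hpy : G.ex x p = y)
    (hmid : G.ex x ((1 / 2 : ℝ) • p) = G.ex y ((1 / 2 : ℝ) • q))
    (hpK : ∀ᶠ s : ℝ in 𝓝[>] 0, p + s • p' ∈ G.K x)
    {ζ : ℝ → TangentSpace (𝓡 n) x} {ζ' : TangentSpace (𝓡 n) x} (hζ : HasDerivAt ζ ζ' 0)
    (hζ0 : ζ 0 = 0) (hζe : ∀ᶠ σ in 𝓝 (0 : ℝ), G.ex x (ζ σ) = G.ex y (q + σ • q'))
    {η : ℝ → TangentSpace (𝓡 n) y} {η' : TangentSpace (𝓡 n) y} (hη : HasDerivAt η η' 0)
    (hη0 : η 0 = 0) (hηe : ∀ᶠ s in 𝓝 (0 : ℝ), G.ex y (η s) = G.ex x (p + s • p')) :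
    inner ℝ p' ζ' = inner ℝ q' η' ∧ inner ℝ q q' = -inner ℝ p ζ' ∧
      inner ℝ p p' = -inner ℝ q η' := by
  obtain ⟨z, hz⟩ : ∃ z, G.ex y ((1 / 2 : ℝ) • q) = z := ⟨_, rfl⟩
  rw [hz] at hmid
  have m1 : ContMDiffAt 𝓘(ℝ) (𝓡 n) ∞ (fun σ : ℝ => G.ex y ((1 / 2 : ℝ) • (q + σ • q'))) 0 :=
    contMDiffAt_ex_comp (by fun_prop)
  have m2 : ContMDiffAt 𝓘(ℝ) (𝓡 n) ∞ (fun σ : ℝ => G.ex x ((1 / 2 : ℝ) • (p + σ • p'))) 0 :=
    contMDiffAt_ex_comp (by fun_prop)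
  obtain ⟨α, hα1, hα0, hαe⟩ := StepI371.exists_lift G z _ m1
    (by rw [zero_smul, add_zero]; exact hz)
  obtain ⟨β, hβ1, hβ0, hβe⟩ := StepI371.exists_lift G z _ m2
    (by rw [zero_smul, add_zero]; exact hmid)
  have hα : HasDerivAt α (deriv α 0) 0 := (hα1.differentiableAt (by simp)).hasDerivAt
  have hβ : HasDerivAt β (deriv β 0) 0 := (hβ1.differentiableAt (by simp)).hasDerivAt
  have h1 := half hB hq hqx hz hqK hp hmid hpK hζ hζ0 hζe hα hα0 hαe hβ hβ0 hβe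
  have h2 := half hB hp hpy hmid hpK hq hz hqK hη hη0 hηe hβ hβ0 hβe hα hα0 hαe
  have hsm : ContDiffAt ℝ 2 (eE G x y z) 0 := by
    have a1 : ContDiffAt ℝ 2 (gE G y z q q') (0, 0) :=
      contDiffAt_infty.1 (contDiffAt_gE hB (q' := q') hq hqx hz hp hmid) 2
    have a2 : ContDiffAt ℝ 2 (fun ξ : TangentSpace (𝓡 n) z => gE G y z q q' ((0 : ℝ), ξ)) 0 :=
      ContDiffAt.comp (0 : TangentSpace (𝓡 n) z) a1 (contDiffAt_const.prodMk contDiffAt_id)
    have a3 : (fun ξ : TangentSpace (𝓡 n) z => gE G y z q q' ((0 : ℝ), ξ)) = eE G x y z := by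
      funext ξ
      show 2 * halfDistSq (G.ex y (q + (0 : ℝ) • q')) (G.ex z ξ) +
        2 * halfDistSq y (G.ex z ξ) = _
      rw [zero_smul, add_zero, hqx]; rfl
    rw [a3] at a2
    exact a2
  refine ⟨?_, h1.2, h2.2⟩
  rw [← h1.1, ← h2.1, eE_comm x y z, hess_symm hsm]

/-- a differentiable function lies above a line of smaller slope, on the right -/
theorem ev_ge {f : ℝ → ℝ} {f' c : ℝ} (hf : HasDerivAt f f' 0) (hc : c < f') :
    ∀ᶠ s : ℝ in 𝓝[>] 0, f 0 + c * s ≤ f s := by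
  have h1 := hf.tendsto_slope_zero_right
  have h2 : ∀ᶠ t : ℝ in 𝓝[>] 0, c < t⁻¹ • (f (0 + t) - f 0) := h1.eventually (lt_mem_nhds hc)
  filter_upwards [h2, self_mem_nhdsWithin] with t ht ht0
  have ht0' : 0 < t := ht0
  rw [zero_add, smul_eq_mul, inv_mul_eq_div, lt_div_iff₀ ht0'] at ht
  linarith

/-- **slope comparison** between the `K(y)`-chord through `q` and the `K(x)`-chord `p₀ → p₁`. -/
theorem slope_comparison (hB : Base G) {x y x₁ : M} {q q₁ : TangentSpace (𝓡 n) y}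
    (hq : q ∈ G.K y) (hqx : G.ex y q = x) (hq₁ : q₁ ∈ G.K y) (hq₁x : G.ex y q₁ = x₁)
    (hqK : ∀ᶠ σ : ℝ in 𝓝[>] 0, q + σ • (q - q₁) ∈ G.K y)
    {p₀ p₁ : TangentSpace (𝓡 n) x} (hp₀ : p₀ ∈ G.K x)
    (hrev : ∀ t : ℝ, G.ex x (t • p₀) = G.ex y ((1 - t) • q))
    (hp₁ : p₁ ∈ G.K x)
    (hpK : ∀ᶠ s : ℝ in 𝓝[>] 0, p₀ + s • (p₁ - p₀) ∈ G.K x)
    {m : ℝ} (hm : ∃ᶠ σ : ℝ in 𝓝[>] 0,
      ‖q + σ • (q - q₁)‖ ^ 2 / 2 - halfDistSq (G.ex y (q + σ • (q - q₁))) (G.ex x p₁) ≤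
        ‖q‖ ^ 2 / 2 - halfDistSq x (G.ex x p₁) + m * σ) :
    ∀ m' > m, ∀ᶠ s : ℝ in 𝓝[>] 0,
      (‖p₀‖ ^ 2 / 2 - halfDistSq x₁ y) - m' * s ≤
        ‖p₀ + s • (p₁ - p₀)‖ ^ 2 / 2 - halfDistSq x₁ (G.ex x (p₀ + s • (p₁ - p₀))) := by
  obtain ⟨C₁, hC₁, hsc⟩ := hB.semiconcave
  have hpy : G.ex x p₀ = y := by
    have := hrev 1
    simpa [G.ex_zero] using this
  have hmid : G.ex x ((1 / 2 : ℝ) • p₀) = G.ex y ((1 / 2 : ℝ) • q) := by
    rw [hrev]; norm_num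
  have m1 : ContMDiffAt 𝓘(ℝ) (𝓡 n) ∞ (fun σ : ℝ => G.ex y (q + σ • (q - q₁))) 0 :=
    contMDiffAt_ex_comp (by fun_prop)
  have m2 : ContMDiffAt 𝓘(ℝ) (𝓡 n) ∞ (fun s : ℝ => G.ex x (p₀ + s • (p₁ - p₀))) 0 :=
    contMDiffAt_ex_comp (by fun_prop)
  obtain ⟨ζ, hζ1, hζ0, hζe⟩ := StepI371.exists_lift G x _ m1 (by simp [hqx])
  obtain ⟨η, hη1, hη0, hηe⟩ := StepI371.exists_lift G y _ m2 (by simp [hpy])
  have hζ : HasDerivAt ζ (deriv ζ 0) 0 := (hζ1.differentiableAt (by simp)).hasDerivAt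
  have hη : HasDerivAt η (deriv η 0) 0 := (hη1.differentiableAt (by simp)).hasDerivAt
  obtain ⟨s1, s2, s3⟩ := sym hB hq hqx hqK hp₀ hpy hmid hpK hζ hζ0 hζe hη hη0 hηe
  set ζ' := deriv ζ 0 with hζ'
  set η' := deriv η 0 with hη'
  -- derivative of `σ ↦ ‖a + σ b‖²/2`
  have hnsq : ∀ {V : Type _} [NormedAddCommGroup V] [InnerProductSpace ℝ V] (a b : V),
      HasDerivAt (fun σ : ℝ => ‖a + σ • b‖ ^ 2 / 2) (inner ℝ a b) 0 := by
    intro V _ _ a b
    have h5 : (fun σ : ℝ => ‖a + σ • b‖ ^ 2 / 2) =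
        fun σ : ℝ => ‖a‖ ^ 2 / 2 + σ * inner ℝ a b + σ ^ 2 * (‖b‖ ^ 2 / 2) := by
      funext σ
      rw [norm_add_sq_real, norm_smul, inner_smul_right, mul_pow, Real.norm_eq_abs, sq_abs]
      ring
    rw [h5]
    have a1 := ((hasDerivAt_id (0 : ℝ)).mul_const (inner ℝ a b)).const_add (‖a‖ ^ 2 / 2)
    have a2 := ((hasDerivAt_id (0 : ℝ)).pow 2).mul_const (‖b‖ ^ 2 / 2)
    exact (a1.add a2).congr_deriv (by simp)
  -- derivative of the semiconcavity bound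
  have hsd : ∀ {V : Type _} [NormedAddCommGroup V] [InnerProductSpace ℝ V] (v : V) {γ : ℝ → V}
      {γ' : V}, HasDerivAt γ γ' 0 → γ 0 = 0 →
      HasDerivAt (fun σ : ℝ => inner ℝ v (γ σ) - C₁ * ‖γ σ‖ ^ 2) (inner ℝ v γ') 0 := by
    intro V _ _ v γ γ' hγ h0
    have a1 : HasDerivAt (fun σ : ℝ => inner ℝ v (γ σ)) (inner ℝ v γ') 0 := by
      have := (hasDerivAt_const (0 : ℝ) v).inner ℝ hγ
      simpa using this
    have a2 : HasDerivAt (fun σ : ℝ => ‖γ σ‖ ^ 2) (2 * inner ℝ (γ 0) γ') 0 := hγ.norm_sq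
    have a3 := a1.sub (a2.const_mul C₁)
    refine a3.congr_deriv ?_
    rw [h0, inner_zero_left]; ring
  -- (2): slope of `F` at `q`
  have hle : inner ℝ q (q - q₁) + inner ℝ p₁ ζ' ≤ m := by
    by_contra hcon
    push Not at hcon
    have a1 := (hnsq q (q - q₁)).add (hsd p₁ hζ hζ0)
    have a2 := ev_ge a1 hcon
    obtain ⟨c, hc1, hc2⟩ := exists_between hcon
    have a3 := ev_ge a1 hc2
    have a4 : ∀ᶠ σ : ℝ in 𝓝[>] 0, ¬ (‖q + σ • (q - q₁)‖ ^ 2 / 2 -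
        halfDistSq (G.ex y (q + σ • (q - q₁))) (G.ex x p₁) ≤
        ‖q‖ ^ 2 / 2 - halfDistSq x (G.ex x p₁) + m * σ) := by
      filter_upwards [a3, hζe.filter_mono nhdsWithin_le_nhds, self_mem_nhdsWithin] with σ b1 b2 b3
      have b3' : 0 < σ := b3
      have b4 := hsc x p₁ hp₁ (ζ σ)
      rw [b2] at b4
      simp only [Pi.add_apply, zero_smul, add_zero, hζ0, inner_zero_right, norm_zero] at b1
      intro b5
      have b6 : m * σ < c * σ := mul_lt_mul_of_pos_right hc1 b3'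
      norm_num at b1
      linarith
    exact hm a4
  -- (3)
  have hkey : -m ≤ inner ℝ p₀ (p₁ - p₀) + inner ℝ q₁ η' := by
    have e1 : inner ℝ (p₁ - p₀) ζ' = inner ℝ p₁ ζ' - inner ℝ p₀ ζ' := inner_sub_left _ _ _
    have e2 : inner ℝ (q - q₁) η' = inner ℝ q η' - inner ℝ q₁ η' := inner_sub_left _ _ _
    rw [e1, e2] at s1
    linarith
  intro m' hm'
  have a1 := (hnsq p₀ (p₁ - p₀)).add (hsd q₁ hη hη0)
  have a2 := ev_ge a1 (c := -m') (by linarith)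
  filter_upwards [a2, hηe.filter_mono nhdsWithin_le_nhds] with s b1 b2
  have b4 := hsc y q₁ hq₁ (η s)
  rw [b2, hq₁x, halfDistSq_comm _ x₁, halfDistSq_comm y x₁] at b4
  simp only [Pi.add_apply, zero_smul, add_zero, hη0, inner_zero_right, norm_zero] at b1
  norm_num at b1
  linarith

end Crest.Agent.R226.SymExp413
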