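/-
R226 / leaf L5 (helper413): step (b2) of the scheme 1752/1855.  Along an outward `K(y₀)`-chord
`q₀ → q₁` in the section `Q_H(y₀)`, the contact `y` of the point at `9/16` satisfies
`D(x₀, y) ≤ C H`, as soon as the rows `x_τ`, `τ ∈ [3/4, 1]` have oscillation `≤ R` and the level
`α` is `≫ H`.
-/
import Crest.Agent.R226.SymExp_413
import Crest.Agent.R226.NS1Def_683
import Crest.Agent.R226.OscEnd_977

set_option autoImplicit false
set_option linter.unusedSectionVars false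

open MeasureTheory Bundle Set Filter
open scoped Manifold ContDiff Bundle ENNReal Topology
open Crest.GeometryTopology.MTW

namespace Crest.Agent.R226.B2_413

open Crest.Agent.R226 Crest.Agent.R226.Kant624 Crest.Agent.R226.E1Shape964
  Crest.Agent.R226.Dasm290 Crest.Agent.R226.Osc977 Crest.Agent.R226.NS683
  Crest.Agent.R226.Base347 Crest.Agent.R226.SymExp413

/-- growth of a function from lower bounds of its right slopes -/
theorem growth_of_slope {f : ℝ → ℝ} {a b κ : ℝ} (hab : a ≤ b) (hf : ContinuousOn f (Icc a b))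
    (h : ∀ t ∈ Ico a b, ∀ m < κ, ∀ᶠ z in 𝓝[>] t, f t + m * (z - t) < f z) :
    f a + κ * (b - a) ≤ f b := by
  have key : ∀ k < κ, f a + k * (b - a) ≤ f b := by
    intro k hk
    have h1 := image_le_of_liminf_slope_right_lt_deriv_boundary (f := fun t => -f t)
      (f' := fun _ => -κ) (a := a) (b := b) hf.neg ?_ (B := fun t => -f a - k * (t - a))
      (B' := fun _ => -k) ?_ ?_ ?_ (x := b) ⟨hab, le_rfl⟩
    · linarith
    · intro t ht r hr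
      obtain ⟨m, hm1, hm2⟩ := exists_between (show -r < κ by linarith)
      refine Eventually.frequently ?_
      filter_upwards [h t ht m hm2, self_mem_nhdsWithin] with z hz hz0
      have hz0' : 0 < z - t := sub_pos.2 hz0
      rw [slope_def_field, div_lt_iff₀ hz0']
      nlinarith
    · simp
    · intro t
      have h1 : HasDerivAt (fun t : ℝ => t - a) 1 t := (hasDerivAt_id t).sub_const a
      have h2 := (h1.const_mul k).const_sub (-f a)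
      exact h2.congr_deriv (by ring)
    · intro t _ _
      linarith
  rcases hab.eq_or_lt with rfl | hab'
  · simp
  by_contra hcon
  push Not at hcon
  have hba : 0 < b - a := by linarith
  have h1 : (f b - f a) / (b - a) < κ := by
    rw [div_lt_iff₀ hba]; linarith
  obtain ⟨k, hk1, hk2⟩ := exists_between h1
  have h2 := key k hk2
  rw [div_lt_iff₀ hba] at hk1
  linarith

variable {n : ℕ} {M : Type*} [MetricSpace M] [ChartedSpace (EuclideanSpace ℝ (Fin n)) M]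
  [IsManifold (𝓡 n) ∞ M]
  [RiemannianBundle (fun p : M => TangentSpace (𝓡 n) p)]
  [CompactSpace M] {G : GeoData n M}

theorem continuous_gg (x : M) (p₀ p₁ : TangentSpace (𝓡 n) x) (x₁ : M) :
    Continuous (gg G x p₀ p₁ x₁) := by
  have h1 : Continuous (G.ex x) := (MTWConc117.contMDiff_ex G x).continuous
  have h2 : Continuous fun s : ℝ => G.ex x (p₀ + s • (p₁ - p₀)) := h1.comp (by fun_prop)
  unfold gg halfDistSq
  fun_prop

/-- NS1 in alternative form: the loss is at least `min(gg 0 / 2, gg 0 - gg 1)`. -/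
theorem ns1_alt {C : ℝ} (hC : 0 ≤ C) (hNS : NS1P G C) {x : M} {p₀ p₁ : TangentSpace (𝓡 n) x}
    (h0 : p₀ ∈ G.K x) (h1 : p₁ ∈ G.K x) {x₁ : M} {α m L : ℝ} (hα : 0 < α)
    (hg0 : α ≤ gg G x p₀ p₁ x₁ 0) (hL : ‖p₁ - p₀‖ ≤ L)
    (hm : ∀ m' > m, ∀ᶠ s : ℝ in 𝓝[>] 0,
      gg G x p₀ p₁ x₁ 0 - m' * s ≤ gg G x p₀ p₁ x₁ s) :
    min (α / 2) (gg G x p₀ p₁ x₁ 0 - gg G x p₀ p₁ x₁ 1) ≤
      Real.exp (C * L * (1 + √(2 / α))) * max 0 m := by
  set g := gg G x p₀ p₁ x₁ with hgdef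
  have hgc : Continuous g := continuous_gg x p₀ p₁ x₁
  set fs := g 0 / 2 with hfs
  have hfs0 : α / 2 ≤ fs := by rw [hfs]; linarith
  have hfs1 : 0 < fs := by linarith
  have hw : C * ‖p₁ - p₀‖ * (1 + 1 / √fs) ≤ C * L * (1 + √(2 / α)) := by
    have e1 : 1 / √fs ≤ √(2 / α) := by
      rw [Real.sqrt_div (by norm_num : (0 : ℝ) ≤ 2), div_le_div_iff₀ (Real.sqrt_pos.2 hfs1)
        (Real.sqrt_pos.2 hα), one_mul, ← Real.sqrt_mul (by norm_num)]
      exact Real.sqrt_le_sqrt (by linarith)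
    have e2 : 0 ≤ 1 / √fs := by positivity
    have e3 : 0 ≤ ‖p₁ - p₀‖ := norm_nonneg _
    have e4 : 0 ≤ C * L := mul_nonneg hC (e3.trans hL)
    gcongr
  have hexp : Real.exp (C * ‖p₁ - p₀‖ * (1 + 1 / √fs)) ≤ Real.exp (C * L * (1 + √(2 / α))) :=
    Real.exp_le_exp.2 hw
  have hmax : 0 ≤ max 0 m := le_max_left _ _
  -- bound for a good parameter
  have hgood : ∀ S : ℝ, 0 ≤ S → S ≤ 1 → (∀ s : ℝ, 0 ≤ s → s ≤ S → fs ≤ g s) →
      g 0 - g S ≤ Real.exp (C * L * (1 + √(2 / α))) * max 0 m := by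
    intro S hS0 hS1 hS
    have e1 := hNS x p₀ p₁ h0 h1 x₁ fs S hfs1 hS0 hS1 hS m hm
    calc g 0 - g S ≤ S * (Real.exp (C * ‖p₁ - p₀‖ * (1 + 1 / √fs)) * max 0 m) := e1
      _ ≤ 1 * (Real.exp (C * L * (1 + √(2 / α))) * max 0 m) := by gcongr
      _ = _ := one_mul _
  by_cases hA : ∀ s : ℝ, 0 ≤ s → s ≤ 1 → fs ≤ g s
  · exact (min_le_right _ _).trans (hgood 1 zero_le_one le_rfl hA)
  · push Not at hA
    obtain ⟨s₁, a1, a2, a3⟩ := hA
    -- least point of `{g ≤ fs}`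
    have hcomp : IsCompact (Icc (0 : ℝ) 1 ∩ {s | g s ≤ fs}) :=
      isCompact_Icc.inter_right (isClosed_le hgc continuous_const)
    obtain ⟨S, ⟨hS1, hS2⟩, hS3⟩ := hcomp.exists_isLeast ⟨s₁, ⟨a1, a2⟩, a3.le⟩
    have hS2' : g S ≤ fs := hS2
    have hSpos : 0 < S := by
      rcases hS1.1.eq_or_lt with h | h
      · exfalso
        rw [← h] at hS2'
        linarith
      · exact h
    have hlt : ∀ s ∈ Ico (0 : ℝ) S, fs ≤ g s := by
      intro s hs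
      by_contra hcon
      push Not at hcon
      have := hS3 ⟨⟨hs.1, hs.2.le.trans hS1.2⟩, hcon.le⟩
      linarith [hs.2]
    have hcl : Icc (0 : ℝ) S ⊆ {s | fs ≤ g s} := by
      rw [← closure_Ico hSpos.ne]
      exact closure_minimal hlt (isClosed_le continuous_const hgc)
    have h2 := hgood S hSpos.le hS1.2 (fun s hs0 hs1 => hcl ⟨hs0, hs1⟩)
    refine (min_le_left _ _).trans (le_trans ?_ h2)
    linarith

/-- **(b2), core form.**  `f τ = c(x_τ, y₀) - c(x_τ, y)` along the chord `x_τ = exp_{y₀} q_τ`;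
if for `τ ∈ [3/4, 1)` the chord `p_{y₀} → p_y` in `K(x_τ)` has length `≤ L` and the level of `q_τ`
above `q₀` is `≥ α`, then `min (α/2, f(3/4) - f(0)) ≤ 4 e^W (f(1) - f(3/4))`. -/
theorem b2_core (hB : Base G) (hg : GoodAll G) {C : ℝ} (hC : 0 ≤ C) (hNS : NS1P G C)
    {y₀ y : M} {q₀ q₁ : TangentSpace (𝓡 n) y₀} (h0 : q₀ ∈ G.K y₀) (h1 : q₁ ∈ G.K y₀)
    {L α : ℝ} (hα : 0 < α)
    (hrow : ∀ τ : ℝ, 3 / 4 ≤ τ → τ < 1 → ∀ p ∈ G.K (G.ex y₀ (q₀ + τ • (q₁ - q₀))),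
      ∀ p' ∈ G.K (G.ex y₀ (q₀ + τ • (q₁ - q₀))),
      G.ex (G.ex y₀ (q₀ + τ • (q₁ - q₀))) p = y₀ → G.ex (G.ex y₀ (q₀ + τ • (q₁ - q₀))) p' = y →
      ‖p' - p‖ ≤ L)
    (hlev : ∀ τ : ℝ, 3 / 4 ≤ τ → τ < 1 →
      α ≤ ‖q₀ + τ • (q₁ - q₀)‖ ^ 2 / 2 - ‖q₀‖ ^ 2 / 2) {f : ℝ → ℝ}
    (hfdef : ∀ τ : ℝ, f τ = ‖q₀ + τ • (q₁ - q₀)‖ ^ 2 / 2 -
      halfDistSq (G.ex y₀ (q₀ + τ • (q₁ - q₀))) y) :
    min (α / 2) (f (3 / 4) - f 0) ≤
      4 * Real.exp (C * L * (1 + √(2 / α))) * max 0 (f 1 - f (3 / 4)) := by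
  have hexc : Continuous (G.ex y₀) := (MTWConc117.contMDiff_ex G y₀).continuous
  obtain ⟨qt, hqt⟩ : ∃ qt : ℝ → TangentSpace (𝓡 n) y₀, qt = fun τ => q₀ + τ • (q₁ - q₀) :=
    ⟨_, rfl⟩
  have hqte : ∀ τ, q₀ + τ • (q₁ - q₀) = qt τ := fun τ => by rw [hqt]
  simp only [hqte] at hlev hfdef
  have hqtc : Continuous qt := by rw [hqt]; fun_prop
  have hqt0 : qt 0 = q₀ := by simp [hqt]
  have hf : f = fun τ => ‖qt τ‖ ^ 2 / 2 - halfDistSq (G.ex y₀ (qt τ)) y := funext hfdef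
  have hfc : Continuous f := by
    rw [hf]; unfold halfDistSq; fun_prop
  have hKy := convex_K hg y₀
  have hQS : ∀ τ : ℝ, 0 ≤ τ → τ ≤ 1 → qt τ ∈ G.K y₀ := fun τ a b => by
    rw [hqt]; exact hKy.add_smul_sub_mem h0 h1 ⟨a, b⟩
  set b := f (3 / 4) - f 0 with hb
  set W := C * L * (1 + √(2 / α)) with hW
  have hmax : 0 ≤ max 0 (f 1 - f (3 / 4)) := le_max_left _ _
  rcases le_or_gt b 0 with hb0 | hb0
  · refine (min_le_right _ _).trans (hb0.trans ?_)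
    positivity
  set κ₀ := min (α / 2) b with hκ₀
  have hκ₀pos : 0 < κ₀ := lt_min (by linarith) hb0
  set κ := κ₀ * Real.exp (-W) with hκ
  -- quasiconvexity
  have hquasi : ∀ τ : ℝ, 3 / 4 ≤ τ → τ ≤ 1 → f (3 / 4) ≤ f τ := by
    intro τ a1 a2
    have hτ : 0 < τ := by linarith
    have e1 := quasi hg (hQS 0 le_rfl zero_le_one) (hQS τ hτ.le a2)
      (a := 1 - (3 / 4) / τ) (b := (3 / 4) / τ)
      (by rw [sub_nonneg, div_le_one hτ]; exact a1) (by positivity) (by ring) y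
    have e2 : (1 - (3 / 4) / τ) • qt 0 + ((3 / 4) / τ) • qt τ = qt (3 / 4) := by
      have e3 : (3 / 4 : ℝ) / τ * τ = 3 / 4 := by field_simp
      simp only [hqt, zero_smul, add_zero, smul_add, smul_smul, e3, sub_smul, one_smul]
      abel
    rw [e2] at e1
    have e4 : ∀ τ' : ℝ, ‖qt τ'‖ ^ 2 / 2 - halfDistSq y (G.ex y₀ (qt τ')) = f τ' := by
      intro τ'
      rw [hf, Base347.halfDistSq_comm]
    rw [e4, e4, e4] at e1
    rcases le_max_iff.1 e1 with h | h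
    · linarith
    · exact h
  -- growth
  have hgrow : ∀ t ∈ Ico (3 / 4 : ℝ) 1, ∀ m < κ, ∀ᶠ z in 𝓝[>] t, f t + m * (z - t) < f z := by
    intro t ht m hm
    by_contra hcon
    have hfr : ∃ᶠ z in 𝓝[>] t, f z ≤ f t + m * (z - t) := by
      intro h
      exact hcon (h.mono fun z hz => not_le.1 hz)
    have ht0 : 0 < t := by linarith [ht.1]
    have htQ := hQS t ht0.le ht.2.le
    have hrt := hrow t ht.1 ht.2
    obtain ⟨x, hx⟩ : ∃ x, G.ex y₀ (qt t) = x := ⟨_, rfl⟩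
    rw [hqte t, hx] at hrt
    obtain ⟨x₁, hx₁⟩ : ∃ x₁, G.ex y₀ q₀ = x₁ := ⟨_, rfl⟩
    obtain ⟨p₀, hp₀, hrev⟩ := exists_rev hB htQ hx
    obtain ⟨p₁, hp₁, hp₁y⟩ := exists_mem_K G x y
    have hp₀y : G.ex x p₀ = y₀ := by
      have := hrev 1
      simpa [G.ex_zero] using this
    have hKx := convex_K hg x
    have hL : ‖p₁ - p₀‖ ≤ L := hrt p₀ hp₀ p₁ hp₁ hp₀y hp₁y
    -- slopes
    have hdiff : qt t - q₀ = t • (q₁ - q₀) := by simp [hqt]
    have hline : ∀ σ : ℝ, qt t + σ • (qt t - q₀) = qt (t + t * σ) := by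
      intro σ
      rw [hdiff, smul_smul]
      simp only [hqt, add_smul]
      rw [mul_comm σ t]
      abel
    have hqK : ∀ᶠ σ : ℝ in 𝓝[>] 0, qt t + σ • (qt t - q₀) ∈ G.K y₀ := by
      have e1 : Tendsto (fun σ : ℝ => t + t * σ) (𝓝 0) (𝓝 t) := by
        have : Continuous fun σ : ℝ => t + t * σ := by fun_prop
        simpa using this.tendsto 0
      have e2 : ∀ᶠ σ : ℝ in 𝓝 0, t + t * σ < 1 := e1.eventually (gt_mem_nhds ht.2)
      filter_upwards [e2.filter_mono nhdsWithin_le_nhds, self_mem_nhdsWithin] with σ b1 b2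
      have b2' : 0 < σ := b2
      rw [hline]
      exact hQS _ (by positivity) b1.le
    have hpK : ∀ᶠ s : ℝ in 𝓝[>] 0, p₀ + s • (p₁ - p₀) ∈ G.K x := by
      have e2 : ∀ᶠ s : ℝ in 𝓝 0, s < 1 := gt_mem_nhds zero_lt_one
      filter_upwards [e2.filter_mono nhdsWithin_le_nhds, self_mem_nhdsWithin] with s b1 b2
      have b2' : 0 < s := b2
      exact hKx.add_smul_sub_mem hp₀ hp₁ ⟨b2'.le, b1.le⟩
    have hfr' : ∃ᶠ σ : ℝ in 𝓝[>] 0,
        ‖qt t + σ • (qt t - q₀)‖ ^ 2 / 2 -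
          halfDistSq (G.ex y₀ (qt t + σ • (qt t - q₀))) (G.ex x p₁) ≤
        ‖qt t‖ ^ 2 / 2 - halfDistSq x (G.ex x p₁) + (t * m) * σ := by
      intro hev
      refine hfr ?_
      have e1 : Tendsto (fun z : ℝ => (z - t) / t) (𝓝[>] t) (𝓝[>] 0) := by
        refine tendsto_nhdsWithin_iff.2 ⟨?_, ?_⟩
        · have : Continuous fun z : ℝ => (z - t) / t := by fun_prop
          have h2 := this.tendsto t
          rw [sub_self, zero_div] at h2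
          exact h2.mono_left nhdsWithin_le_nhds
        · filter_upwards [self_mem_nhdsWithin] with z hz
          have hz' : t < z := hz
          exact div_pos (by linarith) ht0
      filter_upwards [e1.eventually hev] with z hz
      rw [hline] at hz
      have e2 : t + t * ((z - t) / t) = z := by field_simp; ring
      rw [e2, hp₁y, ← hx] at hz
      have e3 : t * m * ((z - t) / t) = m * (z - t) := by field_simp
      rw [e3] at hz
      rw [hf]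
      exact hz
    have hsc := slope_comparison hB htQ hx h0 hx₁ hqK hp₀ hrev hp₁ hpK hfr'
    have hg0e : gg G x p₀ p₁ x₁ 0 = ‖p₀‖ ^ 2 / 2 - halfDistSq x₁ y₀ := by
      unfold gg
      rw [zero_smul, add_zero, hp₀y]
    have hg1e : gg G x p₀ p₁ x₁ 1 = ‖p₁‖ ^ 2 / 2 - halfDistSq x₁ y := by
      unfold gg
      rw [one_smul, add_sub_cancel, hp₁y]
    have hn0 : ‖p₀‖ ^ 2 / 2 = ‖qt t‖ ^ 2 / 2 := by
      rw [← halfDistSq_of_mem_K hp₀, hp₀y, Base347.halfDistSq_comm, ← hx,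
        halfDistSq_of_mem_K htQ]
    have hn1 : ‖p₁‖ ^ 2 / 2 = halfDistSq x y := by
      rw [← halfDistSq_of_mem_K hp₁, hp₁y]
    have hx1 : halfDistSq x₁ y₀ = ‖q₀‖ ^ 2 / 2 := by
      rw [Base347.halfDistSq_comm, ← hx₁, halfDistSq_of_mem_K h0]
    have hα0 : α ≤ gg G x p₀ p₁ x₁ 0 := by
      rw [hg0e, hn0, hx1]
      exact hlev t ht.1 ht.2
    have hmain := ns1_alt hC hNS hp₀ hp₁ hα hα0 hL (m := t * m) (by
      intro m' hm'
      rw [hg0e]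
      exact hsc m' hm')
    have hdiffg : b ≤ gg G x p₀ p₁ x₁ 0 - gg G x p₀ p₁ x₁ 1 := by
      rw [hg0e, hg1e, hn0, hn1, hx1]
      have e1 := hquasi t ht.1 ht.2.le
      have e2 : f t = ‖qt t‖ ^ 2 / 2 - halfDistSq x y := by rw [hf, ← hx]
      have e3 : f 0 = ‖q₀‖ ^ 2 / 2 - halfDistSq x₁ y := by
        rw [hf]
        simp only [hqt0, hx₁]
      rw [hb]
      linarith
    have hmain2 : κ₀ ≤ Real.exp W * max 0 (t * m) := (min_le_min_left _ hdiffg).trans hmain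
    rcases le_or_gt m 0 with hm0 | hm0
    · rw [max_eq_left (mul_nonpos_of_nonneg_of_nonpos ht0.le hm0), mul_zero] at hmain2
      linarith
    · have e1 : t * m ≤ m := by nlinarith [ht.2]
      have e2 : max 0 (t * m) ≤ m := max_le hm0.le e1
      have e3 : κ₀ ≤ Real.exp W * m := hmain2.trans
        (mul_le_mul_of_nonneg_left e2 (Real.exp_pos W).le)
      have e4 : Real.exp W * m < Real.exp W * κ := mul_lt_mul_of_pos_left hm (Real.exp_pos W)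
      have e5 : Real.exp W * κ = κ₀ := by
        rw [hκ, mul_comm κ₀, ← mul_assoc, ← Real.exp_add, add_neg_cancel, Real.exp_zero, one_mul]
      linarith
  have hfin := growth_of_slope (by norm_num : (3 / 4 : ℝ) ≤ 1) hfc.continuousOn hgrow
  have e1 : κ ≤ 4 * max 0 (f 1 - f (3 / 4)) := by
    have := le_max_right 0 (f 1 - f (3 / 4))
    linarith
  have e5 : Real.exp W * κ = κ₀ := by
    rw [hκ, mul_comm κ₀, ← mul_assoc, ← Real.exp_add, add_neg_cancel, Real.exp_zero, one_mul]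
  calc κ₀ = Real.exp W * κ := e5.symm
    _ ≤ Real.exp W * (4 * max 0 (f 1 - f (3 / 4))) :=
        mul_le_mul_of_nonneg_left e1 (Real.exp_pos W).le
    _ = 4 * Real.exp W * max 0 (f 1 - f (3 / 4)) := by ring

/-- **(b2), window form**: `y` is seen at level `H₁` by the rows `x_τ`, `τ ∈ [3/4, 1]`. -/
theorem b2w (hB : Base G) (hg : GoodAll G) {C : ℝ} (hC : 0 ≤ C) (hNS : NS1P G C)
    {u : M → ℝ} (hu : CConv u) {y₀ y : M} {H H₁ : ℝ}
    {q₀ q₁ : TangentSpace (𝓡 n) y₀} (h0 : q₀ ∈ QS G u y₀ H) (h1 : q₁ ∈ QS G u y₀ H)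
    (hy : ∀ τ : ℝ, 3 / 4 ≤ τ → τ ≤ 1 → Dd u (G.ex y₀ (q₀ + τ • (q₁ - q₀))) y ≤ H₁)
    {R α : ℝ} (hα : 0 < α)
    (hrow : ∀ τ : ℝ, 3 / 4 ≤ τ → τ ≤ 1 →
      osc (ctr u) (G.ex y₀ (q₀ + τ • (q₁ - q₀))) (max H H₁) ≤ R)
    (hlev : ∀ τ : ℝ, 3 / 4 ≤ τ → τ ≤ 1 →
      α ≤ ‖q₀ + τ • (q₁ - q₀)‖ ^ 2 / 2 - ‖q₀‖ ^ 2 / 2) :
    min (α / 2) (Dd u (G.ex y₀ q₀) y - (H + H₁)) ≤
      4 * Real.exp (C * √(8 * R) * (1 + √(2 / α))) * (H + H₁) := by
  have huc := CConv.continuous hu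
  have hcu : CConv (ctr u) := Kant624.CConv_ctr huc
  obtain ⟨f, hf⟩ : ∃ f : ℝ → ℝ, ∀ τ : ℝ, f τ = ‖q₀ + τ • (q₁ - q₀)‖ ^ 2 / 2 -
      halfDistSq (G.ex y₀ (q₀ + τ • (q₁ - q₀))) y := ⟨_, fun _ => rfl⟩
  have hQS : ∀ τ : ℝ, 0 ≤ τ → τ ≤ 1 → q₀ + τ • (q₁ - q₀) ∈ QS G u y₀ H := fun τ a b =>
    (convex_QS hg hu y₀ H).add_smul_sub_mem h0 h1 ⟨a, b⟩
  have hfD : ∀ τ : ℝ, 0 ≤ τ → τ ≤ 1 → f τ = Dd u (G.ex y₀ (q₀ + τ • (q₁ - q₀))) y₀ -
      Dd u (G.ex y₀ (q₀ + τ • (q₁ - q₀))) y + (ctr u y - ctr u y₀) := by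
    intro τ a b
    rw [hf, ← halfDistSq_of_mem_K (hQS τ a b).1, Base347.halfDistSq_comm y₀]
    unfold Dd; ring
  have key := b2_core hB hg hC hNS h0.1 h1.1 (y := y) (L := √(8 * R)) hα ?_
    (fun τ a b => hlev τ a b.le) hf
  · have e0 := hfD 0 le_rfl zero_le_one
    have e1 := hfD (3 / 4) (by norm_num) (by norm_num)
    have e2 := hfD 1 zero_le_one le_rfl
    have e3 := Dd_nonneg huc (G.ex y₀ (q₀ + (3 / 4 : ℝ) • (q₁ - q₀))) y₀
    have e4 := hy (3 / 4) le_rfl (by norm_num)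
    have e5 := (hQS 1 zero_le_one le_rfl).2
    have e6 := Dd_nonneg huc (G.ex y₀ (q₀ + (1 : ℝ) • (q₁ - q₀))) y
    have e7 := (hQS 0 le_rfl zero_le_one).2
    have e8 := Dd_nonneg huc (G.ex y₀ (q₀ + (3 / 4 : ℝ) • (q₁ - q₀))) y
    have e9 := Dd_nonneg huc (G.ex y₀ (q₀ + (1 : ℝ) • (q₁ - q₀))) y₀
    rw [zero_smul, add_zero] at e0 e7
    have hH : 0 ≤ H + H₁ := by linarith
    have h2 : max 0 (f 1 - f (3 / 4)) ≤ H + H₁ := max_le hH (by linarith)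
    have h3 : min (α / 2) (Dd u (G.ex y₀ q₀) y - (H + H₁)) ≤ min (α / 2) (f (3 / 4) - f 0) := by
      refine min_le_min_left _ ?_
      linarith
    refine h3.trans (key.trans ?_)
    gcongr
  · intro τ a b p hp p' hp' hpy hpy'
    have hτ0 : 0 ≤ τ := by linarith
    have hS : p ∈ QS G (ctr u) (G.ex y₀ (q₀ + τ • (q₁ - q₀))) (max H H₁) := by
      refine ⟨hp, ?_⟩
      rw [hpy, Dd_ctr hu]
      exact (hQS τ hτ0 b.le).2.trans (le_max_left _ _)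
    have hS' : p' ∈ QS G (ctr u) (G.ex y₀ (q₀ + τ • (q₁ - q₀))) (max H H₁) := by
      refine ⟨hp', ?_⟩
      rw [hpy', Dd_ctr hu]
      exact (hy τ a b.le).trans (le_max_right _ _)
    refine Real.le_sqrt_of_sq_le ?_
    exact (norm_sub_sq_le hg hcu hS' hS).trans
      (mul_le_mul_of_nonneg_left (hrow τ a b.le) (by norm_num))

/-- **(b2)** -/
theorem b2 (hB : Base G) (hg : GoodAll G) {C : ℝ} (hC : 0 ≤ C) (hNS : NS1P G C)
    {u : M → ℝ} (hu : CConv u) {y₀ y : M} {H : ℝ}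
    {q₀ q₁ : TangentSpace (𝓡 n) y₀} (h0 : q₀ ∈ QS G u y₀ H) (h1 : q₁ ∈ QS G u y₀ H)
    (hy : Dd u (G.ex y₀ (q₀ + (9 / 16 : ℝ) • (q₁ - q₀))) y ≤ 0)
    {R α : ℝ} (hα : 0 < α)
    (hrow : ∀ τ : ℝ, 3 / 4 ≤ τ → τ ≤ 1 →
      osc (ctr u) (G.ex y₀ (q₀ + τ • (q₁ - q₀))) H ≤ R)
    (hlev : ∀ τ : ℝ, 3 / 4 ≤ τ → τ ≤ 1 →
      α ≤ ‖q₀ + τ • (q₁ - q₀)‖ ^ 2 / 2 - ‖q₀‖ ^ 2 / 2) :
    min (α / 2) (Dd u (G.ex y₀ q₀) y - H) ≤
      4 * Real.exp (C * √(8 * R) * (1 + √(2 / α))) * H := by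
  have huc := CConv.continuous hu
  have hcu : CConv (ctr u) := Kant624.CConv_ctr huc
  obtain ⟨f, hf⟩ : ∃ f : ℝ → ℝ, ∀ τ : ℝ, f τ = ‖q₀ + τ • (q₁ - q₀)‖ ^ 2 / 2 -
      halfDistSq (G.ex y₀ (q₀ + τ • (q₁ - q₀))) y := ⟨_, fun _ => rfl⟩
  have hQS : ∀ τ : ℝ, 0 ≤ τ → τ ≤ 1 → q₀ + τ • (q₁ - q₀) ∈ QS G u y₀ H := fun τ a b =>
    (convex_QS hg hu y₀ H).add_smul_sub_mem h0 h1 ⟨a, b⟩
  have hfD : ∀ τ : ℝ, 0 ≤ τ → τ ≤ 1 → f τ = Dd u (G.ex y₀ (q₀ + τ • (q₁ - q₀))) y₀ -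
      Dd u (G.ex y₀ (q₀ + τ • (q₁ - q₀))) y + (ctr u y - ctr u y₀) := by
    intro τ a b
    rw [hf, ← halfDistSq_of_mem_K (hQS τ a b).1, Base347.halfDistSq_comm y₀]
    unfold Dd; ring
  have hHn : 0 ≤ H := (Dd_nonneg huc _ _).trans h0.2
  have e0 := hfD 0 le_rfl zero_le_one
  have e7 := (hQS 0 le_rfl zero_le_one).2
  rw [zero_smul, add_zero] at e0 e7
  have e9 := hfD (9 / 16) (by norm_num) (by norm_num)
  have e10 := Dd_nonneg huc (G.ex y₀ (q₀ + (9 / 16 : ℝ) • (q₁ - q₀))) y₀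
  by_cases hb : f (9 / 16) ≤ f 0
  · refine (min_le_right _ _).trans ?_
    have : Dd u (G.ex y₀ q₀) y - H ≤ 0 := by linarith
    exact this.trans (by positivity)
  push Not at hb
  -- quasiconvexity
  have hquasi : ∀ τ : ℝ, 9 / 16 ≤ τ → τ ≤ 1 → f (9 / 16) ≤ f τ := by
    intro τ a1 a2
    have hτ : 0 < τ := by linarith
    have e1 := quasi hg (hQS 0 le_rfl zero_le_one).1 (hQS τ hτ.le a2).1
      (a := 1 - (9 / 16) / τ) (b := (9 / 16) / τ)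
      (by rw [sub_nonneg, div_le_one hτ]; exact a1) (by positivity) (by ring) y
    have e2 : (1 - (9 / 16) / τ) • (q₀ + (0 : ℝ) • (q₁ - q₀)) +
        ((9 / 16) / τ) • (q₀ + τ • (q₁ - q₀)) = q₀ + (9 / 16 : ℝ) • (q₁ - q₀) := by
      have e3 : (9 / 16 : ℝ) / τ * τ = 9 / 16 := by field_simp
      simp only [zero_smul, add_zero, smul_add, smul_smul, e3, sub_smul, one_smul]
      abel
    rw [e2] at e1
    have e4 : ∀ τ' : ℝ, ‖q₀ + τ' • (q₁ - q₀)‖ ^ 2 / 2 -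
        halfDistSq y (G.ex y₀ (q₀ + τ' • (q₁ - q₀))) = f τ' := by
      intro τ'
      rw [hf, Base347.halfDistSq_comm]
    rw [e4, e4, e4] at e1
    rcases le_max_iff.1 e1 with h | h
    · linarith
    · exact h
  have hDτ : ∀ τ : ℝ, 9 / 16 ≤ τ → τ ≤ 1 → Dd u (G.ex y₀ (q₀ + τ • (q₁ - q₀))) y ≤ H := by
    intro τ a b
    have e1 := hfD τ (by linarith) b
    have e2 := hquasi τ a b
    have e3 := (hQS τ (by linarith) b).2
    linarith
  have key := b2_core hB hg hC hNS h0.1 h1.1 (y := y) (L := √(8 * R)) hα ?_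
    (fun τ a b => hlev τ a b.le) hf
  · have e1 := hfD (3 / 4) (by norm_num) (by norm_num)
    have e2 := hfD 1 zero_le_one le_rfl
    have e5 := (hQS 1 zero_le_one le_rfl).2
    have e6 := Dd_nonneg huc (G.ex y₀ (q₀ + (1 : ℝ) • (q₁ - q₀))) y
    have e12 := hquasi (3 / 4) (by norm_num) (by norm_num)
    have h2 : max 0 (f 1 - f (3 / 4)) ≤ H := max_le hHn (by linarith)
    have h3 : min (α / 2) (Dd u (G.ex y₀ q₀) y - H) ≤ min (α / 2) (f (3 / 4) - f 0) := by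
      refine min_le_min_left _ ?_
      linarith
    refine h3.trans (key.trans ?_)
    gcongr
  · intro τ a b p hp p' hp' hpy hpy'
    have hτ0 : 0 ≤ τ := by linarith
    have hS : p ∈ QS G (ctr u) (G.ex y₀ (q₀ + τ • (q₁ - q₀))) H := by
      refine ⟨hp, ?_⟩
      rw [hpy, Dd_ctr hu]
      exact (hQS τ hτ0 b.le).2
    have hS' : p' ∈ QS G (ctr u) (G.ex y₀ (q₀ + τ • (q₁ - q₀))) H := by
      refine ⟨hp', ?_⟩
      rw [hpy', Dd_ctr hu]
      exact hDτ τ (by linarith) b.le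
    refine Real.le_sqrt_of_sq_le ?_
    exact (norm_sub_sq_le hg hcu hS' hS).trans
      (mul_le_mul_of_nonneg_left (hrow τ a b.le) (by norm_num))

end Crest.Agent.R226.B2_413
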