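/-
R226 (helper345).  General facts on the tangent bundle of a compact Riemannian manifold and on
parametric derivatives.
-/
import Crest.Agent.R226.Defs_484

set_option autoImplicit false

open MeasureTheory Bundle Set Filter Manifold
open scoped Manifold ContDiff Bundle ENNReal Topology
open Crest.GeometryTopology.MTW

namespace Crest.Agent.R226.BundleTop345

section param

variable {EN : Type*} [NormedAddCommGroup EN] [NormedSpace ℝ EN] {HN : Type*} [TopologicalSpace HN]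
  {J : ModelWithCorners ℝ EN HN} {N : Type*} [TopologicalSpace N] [ChartedSpace HN N]
  {F : Type*} [NormedAddCommGroup F] [NormedSpace ℝ F]

/-- Parametric derivative: if `(x,t) ↦ f x t` is smooth at `(x₀,t₀)` then so is
`(x,t) ↦ deriv (f x) t`. -/
theorem contMDiffAt_deriv_snd [IsManifold J ∞ N] (f : N → ℝ → F) (x₀ : N) (t₀ : ℝ)
    (hf : ContMDiffAt (J.prod 𝓘(ℝ, ℝ)) 𝓘(ℝ, F) ∞ (fun q : N × ℝ => f q.1 q.2) (x₀, t₀)) :
    ContMDiffAt (J.prod 𝓘(ℝ, ℝ)) 𝓘(ℝ, F) ∞ (fun q : N × ℝ => deriv (f q.1) q.2) (x₀, t₀) := by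
  have h1 : ContMDiffAt ((J.prod 𝓘(ℝ, ℝ)).prod 𝓘(ℝ, ℝ)) 𝓘(ℝ, F) ∞
      (Function.uncurry (fun (q : N × ℝ) (s : ℝ) => f q.1 s)) ((x₀, t₀), t₀) := by
    have h2 : ContMDiffAt ((J.prod 𝓘(ℝ, ℝ)).prod 𝓘(ℝ, ℝ)) (J.prod 𝓘(ℝ, ℝ)) ∞
        (fun p : (N × ℝ) × ℝ => (p.1.1, p.2)) ((x₀, t₀), t₀) :=
      (contMDiffAt_fst.comp _ contMDiffAt_fst).prodMk contMDiffAt_snd
    exact ContMDiffAt.comp (g := fun q : N × ℝ => f q.1 q.2) ((x₀, t₀), t₀) hf h2
  have h3 : ContMDiffAt (J.prod 𝓘(ℝ, ℝ)) 𝓘(ℝ, ℝ) ∞ (fun q : N × ℝ => q.2) (x₀, t₀) :=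
    contMDiffAt_snd
  have h4 := ContMDiffAt.mfderiv (m := ∞) (n := ∞)
    (fun (q : N × ℝ) (s : ℝ) => f q.1 s) (fun q : N × ℝ => q.2) h1 h3 (by simp)
  have h4' : ContMDiffAt (J.prod 𝓘(ℝ, ℝ)) 𝓘(ℝ, ℝ →L[ℝ] F) ∞
      (fun q : N × ℝ => fderiv ℝ (f q.1) q.2) (x₀, t₀) := by
    have h6 := inTangentCoordinates_model_space (I := 𝓘(ℝ, ℝ)) (I' := 𝓘(ℝ, F))
      (fun q : N × ℝ => q.2) (fun q : N × ℝ => f q.1 q.2)
      (fun q : N × ℝ => fderiv ℝ (f q.1) q.2) (x₀, t₀)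
    rw [← h6]
    have h7 : (fun x : N × ℝ => (mfderiv 𝓘(ℝ, ℝ) 𝓘(ℝ, F) (fun s => f x.1 s) x.2 : ℝ →L[ℝ] F)) =
        fun q : N × ℝ => fderiv ℝ (f q.1) q.2 := by
      funext q
      exact mfderiv_eq_fderiv
    rw [← h7]
    exact h4
  have h5 := h4'.clm_apply (contMDiffAt_const (c := (1 : ℝ)))
  exact h5

end param

section bundle

variable {n : ℕ} {M : Type*} [MetricSpace M] [ChartedSpace (EuclideanSpace ℝ (Fin n)) M]
  [IsManifold (𝓡 n) ∞ M]

/-- scalar multiplication `(p,t) ↦ ⟨p.1, t • p.2⟩` is smooth on `TM × ℝ`. -/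
theorem contMDiff_smul :
    ContMDiff ((𝓡 n).tangent.prod 𝓘(ℝ, ℝ)) (𝓡 n).tangent ∞
      (fun q : TangentBundle (𝓡 n) M × ℝ => (⟨q.1.1, q.2 • q.1.2⟩ : TangentBundle (𝓡 n) M)) := by
  intro q₀
  rw [contMDiffAt_totalSpace]
  refine ⟨ContMDiffAt.comp q₀ (g := fun p : TangentBundle (𝓡 n) M => p.1)
    (f := fun q : TangentBundle (𝓡 n) M × ℝ => q.1)
    (contMDiff_proj (TangentSpace (𝓡 n))).contMDiffAt contMDiffAt_fst, ?_⟩
  set e := trivializationAt (EuclideanSpace ℝ (Fin n)) (TangentSpace (𝓡 n) : M → Type _) q₀.1.1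
    with he
  have h1 : ContMDiffAt ((𝓡 n).tangent.prod 𝓘(ℝ, ℝ)) 𝓘(ℝ, EuclideanSpace ℝ (Fin n)) ∞
      (fun q : TangentBundle (𝓡 n) M × ℝ => (e q.1).2) q₀ := by
    have h2 : ContMDiffAt ((𝓡 n).tangent.prod 𝓘(ℝ, ℝ)) (𝓡 n).tangent ∞
        (fun q : TangentBundle (𝓡 n) M × ℝ => q.1) q₀ := contMDiffAt_fst
    exact (contMDiffAt_totalSpace.1 h2).2
  have h3 : ContMDiffAt ((𝓡 n).tangent.prod 𝓘(ℝ, ℝ)) 𝓘(ℝ, EuclideanSpace ℝ (Fin n)) ∞
      (fun q : TangentBundle (𝓡 n) M × ℝ => q.2 • (e q.1).2) q₀ :=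
    ContMDiffAt.smul contMDiffAt_snd h1
  refine h3.congr_of_eventuallyEq ?_
  have h4 : ∀ᶠ q : TangentBundle (𝓡 n) M × ℝ in 𝓝 q₀, q.1.1 ∈ e.baseSet := by
    have hc : Continuous (fun q : TangentBundle (𝓡 n) M × ℝ => q.1.1) :=
      (FiberBundle.continuous_proj (EuclideanSpace ℝ (Fin n)) (TangentSpace (𝓡 n))).comp
        continuous_fst
    exact hc.continuousAt.eventually (e.open_baseSet.mem_nhds
      (FiberBundle.mem_baseSet_trivializationAt' q₀.1.1))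
  filter_upwards [h4] with q hq
  have h5 := e.linear ℝ hq
  have := h5.map_smul q.2 q.1.2
  exact this

variable [RiemannianBundle (fun p : M => TangentSpace (𝓡 n) p)]
  [IsContMDiffRiemannianBundle (𝓡 n) ∞ (EuclideanSpace ℝ (Fin n))
    (fun p : M => TangentSpace (𝓡 n) p)]

/-- the smooth Riemannian bundle is a continuous Riemannian bundle -/
instance instContinuous : IsContinuousRiemannianBundle (EuclideanSpace ℝ (Fin n))
    (fun p : M => TangentSpace (𝓡 n) p) := by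
  obtain ⟨g, hg, h⟩ := IsContMDiffRiemannianBundle.exists_contMDiff (IB := 𝓡 n) (n := ∞)
    (F := EuclideanSpace ℝ (Fin n)) (E := fun p : M => TangentSpace (𝓡 n) p)
  exact ⟨g, hg.continuous, h⟩

theorem continuous_norm : Continuous (fun p : TangentBundle (𝓡 n) M => ‖p.2‖) := by
  have h1 : Continuous (fun p : TangentBundle (𝓡 n) M => inner ℝ p.2 p.2) :=
    Continuous.inner_bundle (F := EuclideanSpace ℝ (Fin n)) (b := fun p : TangentBundle (𝓡 n) M => p.1)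
      (v := fun p => p.2) (w := fun p => p.2) continuous_id continuous_id
  have h2 : (fun p : TangentBundle (𝓡 n) M => ‖p.2‖) =
      fun p : TangentBundle (𝓡 n) M => Real.sqrt (inner ℝ p.2 p.2) := by
    funext p
    rw [real_inner_self_eq_norm_sq, Real.sqrt_sq (norm_nonneg _)]
  rw [h2]
  exact h1.sqrt

/-- closed disc bundles over a compact manifold are compact -/
theorem isCompact_disc [CompactSpace M] (R : ℝ) :
    IsCompact {p : TangentBundle (𝓡 n) M | ‖p.2‖ ≤ R} := by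
  classical
  have hloc : ∀ x : M, ∃ K : Set M, K ∈ 𝓝 x ∧ IsCompact K ∧
      IsCompact {p : TangentBundle (𝓡 n) M | p.1 ∈ K ∧ ‖p.2‖ ≤ R} := by
    intro x
    set e := trivializationAt (EuclideanSpace ℝ (Fin n)) (TangentSpace (𝓡 n) : M → Type _) x
      with he
    obtain ⟨C, hC0, hC⟩ := eventually_norm_trivializationAt_lt (EuclideanSpace ℝ (Fin n))
      (fun p : M => TangentSpace (𝓡 n) p) x
    have hb : e.baseSet ∈ 𝓝 x := e.open_baseSet.mem_nhds
      (FiberBundle.mem_baseSet_trivializationAt' x)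
    obtain ⟨K, hKx, hKs, hKc⟩ := local_compact_nhds (Filter.inter_mem hC hb)
    refine ⟨K, hKx, hKc, ?_⟩
    have hcomp : IsCompact (K ×ˢ Metric.closedBall (0 : EuclideanSpace ℝ (Fin n)) (C * R)) :=
      hKc.prod (isCompact_closedBall _ _)
    have hsub : K ×ˢ Metric.closedBall (0 : EuclideanSpace ℝ (Fin n)) (C * R) ⊆ e.target := by
      rintro ⟨y, w⟩ ⟨hy, -⟩
      rw [e.mem_target]
      exact (hKs hy).2
    have himg : IsCompact (e.toOpenPartialHomeomorph.symm ''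
        (K ×ˢ Metric.closedBall (0 : EuclideanSpace ℝ (Fin n)) (C * R))) :=
      hcomp.image_of_continuousOn (e.toOpenPartialHomeomorph.symm.continuousOn.mono hsub)
    refine himg.of_isClosed_subset ?_ ?_
    · have hp : Continuous (fun p : TangentBundle (𝓡 n) M => p.1) :=
        FiberBundle.continuous_proj (EuclideanSpace ℝ (Fin n)) (TangentSpace (𝓡 n))
      exact (hKc.isClosed.preimage hp).inter (isClosed_le continuous_norm continuous_const)
    · rintro p ⟨hp1, hp2⟩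
      refine ⟨e p, ⟨?_, ?_⟩, ?_⟩
      · have : (e p).1 = p.1 := e.coe_fst' (hKs hp1).2
        rw [this]; exact hp1
      · rw [Metric.mem_closedBall, dist_zero_right]
        have h1 : (e p).2 = e.continuousLinearMapAt ℝ p.1 p.2 := by
          rw [Trivialization.continuousLinearMapAt_apply,
            Trivialization.coe_linearMapAt_of_mem _ (hKs hp1).2]
        rw [h1]
        have h2 := (e.continuousLinearMapAt ℝ p.1).le_opNorm p.2
        have h3 : ‖e.continuousLinearMapAt ℝ p.1‖ ≤ C := (hKs hp1).1.le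
        calc ‖e.continuousLinearMapAt ℝ p.1 p.2‖ ≤ ‖e.continuousLinearMapAt ℝ p.1‖ * ‖p.2‖ := h2
          _ ≤ C * R := mul_le_mul h3 hp2 (norm_nonneg _) hC0.le
      · exact e.toOpenPartialHomeomorph.left_inv (e.mem_source.2 (hKs hp1).2)
  choose K hKn _ hKc2 using hloc
  obtain ⟨t, ht⟩ := (isCompact_univ (X := M)).elim_nhds_subcover K (fun x _ => hKn x)
  have hU : IsCompact (⋃ x ∈ t, {p : TangentBundle (𝓡 n) M | p.1 ∈ K x ∧ ‖p.2‖ ≤ R}) :=
    t.isCompact_biUnion fun x _ => hKc2 x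
  refine hU.of_isClosed_subset (isClosed_le continuous_norm continuous_const) ?_
  intro p hp
  have := ht.2 (mem_univ p.1)
  simp only [mem_iUnion] at this ⊢
  obtain ⟨x, hx, hpx⟩ := this
  exact ⟨x, hx, hpx, hp⟩

end bundle

section ex

variable {n : ℕ} {M : Type*} [MetricSpace M] [ChartedSpace (EuclideanSpace ℝ (Fin n)) M]
  [IsManifold (𝓡 n) ∞ M]
  [RiemannianBundle (fun p : M => TangentSpace (𝓡 n) p)]

/-- `(p,t) ↦ exp_{p.1}(t p.2)` is smooth on `TM × ℝ`. -/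
theorem contMDiff_ex_smul (G : GeoData n M) :
    ContMDiff ((𝓡 n).tangent.prod 𝓘(ℝ, ℝ)) (𝓡 n) ∞
      (fun q : TangentBundle (𝓡 n) M × ℝ => G.ex q.1.1 (q.2 • q.1.2)) :=
  G.smooth.comp contMDiff_smul

/-- `x ↦ ex x 0`, continuity of `(p,t) ↦ ex p.1 (t • p.2)`. -/
theorem continuous_ex_smul (G : GeoData n M) :
    Continuous (fun q : TangentBundle (𝓡 n) M × ℝ => G.ex q.1.1 (q.2 • q.1.2)) :=
  (contMDiff_ex_smul G).continuous

theorem continuous_ex (G : GeoData n M) :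
    Continuous (fun p : TangentBundle (𝓡 n) M => G.ex p.1 p.2) :=
  G.smooth.continuous

end ex

end Crest.Agent.R226.BundleTop345
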