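/-
R226 layer B, step B3 (helper542): from a global flow extending the local radial flow to `GeoCore`.
-/
import Crest.Agent.R226.RadialSmooth_542

set_option autoImplicit false

open MeasureTheory Bundle Set
open scoped Manifold ContDiff Bundle ENNReal Topology
open Crest.GeometryTopology.MTW

namespace Crest.Agent.R226

section
variable {n : ℕ} {M : Type*} [MetricSpace M] [ChartedSpace (EuclideanSpace ℝ (Fin n)) M]

/-- the velocity of a curve as an element of the tangent bundle -/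
noncomputable def bvel (n : ℕ) {M : Type*} [MetricSpace M]
    [ChartedSpace (EuclideanSpace ℝ (Fin n)) M] (γ : ℝ → M) (t : ℝ) : TangentBundle (𝓡 n) M :=
  ⟨γ t, curveVel n γ t⟩

theorem radial_eq_bvel (e : ∀ x : M, TangentSpace (𝓡 n) x → M) (t : ℝ)
    (p : TangentBundle (𝓡 n) M) : radial e t p = bvel n (fun t : ℝ => e p.1 (t • p.2)) t := rfl

theorem bvel_congr {γ γ' : ℝ → M} {t : ℝ} (h : γ =ᶠ[𝓝 t] γ') : bvel n γ t = bvel n γ' t := by
  have h1 : γ t = γ' t := h.self_of_nhds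
  have h2 : (curveVel n γ t : EuclideanSpace ℝ (Fin n)) =
      (curveVel n γ' t : EuclideanSpace ℝ (Fin n)) := by
    unfold curveVel
    rw [h.mfderiv_eq]
    rfl
  unfold bvel
  exact TotalSpace.ext h1 (heq_of_eq h2)

/-- affine reparametrisation -/
theorem bvel_comp_affine {γ : ℝ → M} {a b t : ℝ}
    (hγ : MDifferentiableAt 𝓘(ℝ, ℝ) (𝓡 n) γ (a * t + b)) :
    bvel n (fun s => γ (a * s + b)) t = scaleT a (bvel n γ (a * t + b)) := by
  have hA : HasDerivAt (fun s : ℝ => a * s + b) a t := by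
    simpa using ((hasDerivAt_id t).const_mul a).add_const b
  have hA' : HasMFDerivAt 𝓘(ℝ, ℝ) 𝓘(ℝ, ℝ) (fun s : ℝ => a * s + b) t
      (ContinuousLinearMap.toSpanSingleton ℝ a) := hA.hasFDerivAt.hasMFDerivAt
  have h := (hγ.hasMFDerivAt.comp t hA').mfderiv
  have h2 : (curveVel n (fun s => γ (a * s + b)) t : EuclideanSpace ℝ (Fin n)) =
      (a • (curveVel n γ (a * t + b)) : TangentSpace (𝓡 n) (γ (a * t + b))) := by
    unfold curveVel
    change (mfderiv 𝓘(ℝ, ℝ) (𝓡 n) (γ ∘ (fun s : ℝ => a * s + b)) t) (1 : ℝ) = _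
    rw [h]
    change (mfderiv 𝓘(ℝ, ℝ) (𝓡 n) γ (a * t + b)) ((1 : ℝ) • a) = _
    rw [show ((1 : ℝ) • a : ℝ) = a • (1 : ℝ) by simp]
    exact (mfderiv 𝓘(ℝ, ℝ) (𝓡 n) γ (a * t + b)).map_smul a (1 : ℝ)
  unfold bvel scaleT
  exact TotalSpace.ext rfl (heq_of_eq h2)

end

section
variable {n : ℕ} {M : Type*} [MetricSpace M] [ChartedSpace (EuclideanSpace ℝ (Fin n)) M]
  [IsManifold (𝓡 n) ∞ M]
  [RiemannianBundle (fun p : M => TangentSpace (𝓡 n) p)]

namespace GlobalFlow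

variable {N : NearDiag n M} (F : GlobalFlow N)

theorem ex_smul (x : M) (v : TangentSpace (𝓡 n) x) (t : ℝ) :
    F.ex x (t • v) = (F.Fl t ⟨x, v⟩).1 := by
  have h := F.scale t 1 ⟨x, v⟩
  rw [one_mul] at h
  have h2 := congrArg (fun p : TangentBundle (𝓡 n) M => p.1) h
  exact h2

theorem ex_eq_e {x : M} {v : TangentSpace (𝓡 n) x} (hv : ‖v‖ < N.r₀) : F.ex x v = N.e x v := by
  have h := F.small 1 ⟨x, v⟩ (by simpa using hv)
  have h2 := congrArg (fun p : TangentBundle (𝓡 n) M => p.1) h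
  have h3 : (radial N.e 1 ⟨x, v⟩ : TangentBundle (𝓡 n) M).1 = N.e x ((1 : ℝ) • v) := rfl
  rw [one_smul] at h3
  exact h2.trans h3

theorem e_smul {x : M} {v : TangentSpace (𝓡 n) x} {t : ℝ} (hv : |t| * ‖v‖ < N.r₀) :
    F.ex x (t • v) = N.e x (t • v) :=
  F.ex_eq_e (by rwa [norm_smul, Real.norm_eq_abs])

/-- the geodesic `t ↦ ex x (t v)` near `t₀` in terms of the local exponential at time `t₀` -/
theorem ex_smul_near (x : M) (v : TangentSpace (𝓡 n) x) (s t : ℝ) (h : |t - s| * ‖v‖ < N.r₀) :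
    F.ex x (t • v) = N.e (F.Fl s ⟨x, v⟩).1 ((t - s) • (F.Fl s ⟨x, v⟩).2) := by
  rw [F.ex_smul]
  have h1 : F.Fl t ⟨x, v⟩ = F.Fl (t - s) (F.Fl s ⟨x, v⟩) := by
    rw [F.add]; congr 1; ring
  rw [h1, F.small]
  · rfl
  · rw [F.norm]; exact h

theorem radial_ex (S : SmallFlow N) (t : ℝ) (p : TangentBundle (𝓡 n) M) :
    radial F.ex t p = F.Fl t p := by
  obtain ⟨x, v⟩ := p
  set q := F.Fl t ⟨x, v⟩ with hq
  have hev : (fun s : ℝ => F.ex x (s • v)) =ᶠ[𝓝 t] fun s => N.e q.1 ((1 * s + (-t)) • q.2) := by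
    have hopen : ∀ᶠ s in 𝓝 t, |s - t| * ‖v‖ < N.r₀ := by
      have hc : Continuous (fun s : ℝ => |s - t| * ‖v‖) := by fun_prop
      apply hc.continuousAt.eventually_lt continuousAt_const
      simpa using N.r₀_pos
    filter_upwards [hopen] with s hs
    rw [F.ex_smul_near x v t s hs, one_mul, ← sub_eq_add_neg]
  rw [radial_eq_bvel]
  change bvel n (fun s : ℝ => F.ex x (s • v)) t = q
  rw [bvel_congr hev]
  have hd : MDifferentiableAt 𝓘(ℝ, ℝ) (𝓡 n) (fun s : ℝ => N.e q.1 (s • q.2)) (1 * t + -t) := by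
    have h0 : (1 : ℝ) * t + -t = 0 := by ring
    rw [h0]
    have hS := S.smooth (0, q) (by simpa using N.r₀_pos)
    have hS' : ContMDiffAt (𝓘(ℝ, ℝ).prod (𝓡 n).tangent) (𝓡 n).tangent ∞
        (fun q : ℝ × TangentBundle (𝓡 n) M => radial N.e q.1 q.2) (0, q) := by
      refine hS.contMDiffAt ?_
      have hc : Continuous (fun q : ℝ × TangentBundle (𝓡 n) M => |q.1| * ‖q.2.2‖) :=
        (continuous_abs.comp continuous_fst).mul (S.cont_norm.comp continuous_snd)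
      exact (isOpen_lt hc continuous_const).mem_nhds (by simpa using N.r₀_pos)
    have hproj : ContMDiff (𝓡 n).tangent (𝓡 n) ∞ (fun p : TangentBundle (𝓡 n) M => p.1) :=
      contMDiff_proj _
    have h1 : ContMDiffAt (𝓘(ℝ, ℝ).prod (𝓡 n).tangent) (𝓡 n) ∞
        (fun q : ℝ × TangentBundle (𝓡 n) M => (radial N.e q.1 q.2).1) (0, q) :=
      hproj.contMDiffAt.comp _ hS'
    have h2 : ContMDiffAt 𝓘(ℝ, ℝ) (𝓡 n) ∞ (fun s : ℝ => (radial N.e s q).1) 0 := by
      have h3 : ContMDiffAt 𝓘(ℝ, ℝ) (𝓘(ℝ, ℝ).prod (𝓡 n).tangent) ∞ (fun s : ℝ => (s, q)) 0 :=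
        contMDiffAt_id.prodMk contMDiffAt_const
      exact ContMDiffAt.comp (x := (0 : ℝ))
        (g := fun q : ℝ × TangentBundle (𝓡 n) M => (radial N.e q.1 q.2).1) h1 h3
    exact h2.mdifferentiableAt (by simp)
  rw [bvel_comp_affine (γ := fun s : ℝ => N.e q.1 (s • q.2)) (a := 1) (b := -t) hd]
  have h0 : (1 : ℝ) * t + -t = 0 := by ring
  rw [h0]
  have hz := S.zero q
  rw [radial_eq_bvel] at hz
  rw [hz]
  unfold scaleT
  simp

theorem norm_vel (S : SmallFlow N) (x : M) (v : TangentSpace (𝓡 n) x) (t : ℝ) :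
    ‖curveVel n (fun t : ℝ => F.ex x (t • v)) t‖ = ‖v‖ := by
  have h := F.radial_ex S t ⟨x, v⟩
  have h2 : ‖(radial F.ex t ⟨x, v⟩).2‖ = ‖(F.Fl t ⟨x, v⟩).2‖ := by rw [h]
  rw [F.norm] at h2
  exact h2

theorem ex_zero (x : M) : F.ex x 0 = x := by
  rw [F.ex_eq_e (by simpa using N.r₀_pos)]
  exact N.e_zero x

theorem vel_zero (S : SmallFlow N) (x : M) (v : TangentSpace (𝓡 n) x) :
    curveVel n (fun t : ℝ => F.ex x (t • v)) 0 = v := by
  have h := F.radial_ex S 0 ⟨x, v⟩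
  rw [F.small 0 ⟨x, v⟩ (by simpa using N.r₀_pos), S.zero] at h
  exact congrArg (fun p : TangentBundle (𝓡 n) M => (p.2 : EuclideanSpace ℝ (Fin n))) h

theorem flow (S : SmallFlow N) (x : M) (v : TangentSpace (𝓡 n) x) (t s : ℝ) :
    F.ex (F.ex x (t • v)) (s • curveVel n (fun t : ℝ => F.ex x (t • v)) t) =
      F.ex x ((t + s) • v) := by
  rw [F.ex_smul (F.ex x (t • v)) (curveVel n (fun t : ℝ => F.ex x (t • v)) t) s,
    F.ex_smul x v (t + s)]
  have h := F.radial_ex S t ⟨x, v⟩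
  have h1 : (⟨F.ex x (t • v), curveVel n (fun t : ℝ => F.ex x (t • v)) t⟩ :
      TangentBundle (𝓡 n) M) = F.Fl t ⟨x, v⟩ := h
  rw [h1, F.add]

theorem dist_eq (x : M) (v : TangentSpace (𝓡 n) x) (s t : ℝ)
    (h : |s - t| * ‖v‖ < N.r₀) :
    dist (F.ex x (s • v)) (F.ex x (t • v)) = |s - t| * ‖v‖ := by
  have h' : |t - s| * ‖v‖ < N.r₀ := by rwa [abs_sub_comm]
  rw [F.ex_smul_near x v s t h']
  set q := F.Fl s ⟨x, v⟩ with hq
  have hn : ‖q.2‖ = ‖v‖ := F.norm s ⟨x, v⟩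
  have h1 : F.ex x (s • v) = q.1 := F.ex_smul x v s
  rw [h1]
  have h2 := N.dist_eq q.1 ((t - s) • q.2) (by rwa [norm_smul, Real.norm_eq_abs, hn])
    0 1 (by simp) (by simp)
  rw [zero_smul, one_smul, N.e_zero] at h2
  rw [h2, norm_smul, Real.norm_eq_abs, hn, abs_sub_comm s t]
  simp

theorem dist_le_aux (x : M) (v : TangentSpace (𝓡 n) x) (k : ℕ) : ∀ s t : ℝ,
    |s - t| * ‖v‖ < 2 ^ k * N.r₀ →
    dist (F.ex x (s • v)) (F.ex x (t • v)) ≤ |s - t| * ‖v‖ := by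
  induction k with
  | zero =>
    intro s t h
    exact (F.dist_eq x v s t (by simpa using h)).le
  | succ k ih =>
    intro s t h
    have e1 : |s - (s + t) / 2| = |s - t| / 2 := by
      rw [show s - (s + t) / 2 = (s - t) / 2 by ring, abs_div, abs_two]
    have e2 : |(s + t) / 2 - t| = |s - t| / 2 := by
      rw [show (s + t) / 2 - t = (s - t) / 2 by ring, abs_div, abs_two]
    have h1 := ih s ((s + t) / 2) (by rw [e1]; rw [pow_succ] at h; linarith)
    have h2 := ih ((s + t) / 2) t (by rw [e2]; rw [pow_succ] at h; linarith)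
    rw [e1] at h1
    rw [e2] at h2
    have h3 := dist_triangle (F.ex x (s • v)) (F.ex x (((s + t) / 2) • v)) (F.ex x (t • v))
    linarith

theorem dist_le (x : M) (v : TangentSpace (𝓡 n) x) (s t : ℝ) :
    dist (F.ex x (s • v)) (F.ex x (t • v)) ≤ |s - t| * ‖v‖ := by
  obtain ⟨k, hk⟩ := pow_unbounded_of_one_lt (|s - t| * ‖v‖ / N.r₀) (one_lt_two)
  refine F.dist_le_aux x v k s t ?_
  rwa [div_lt_iff₀ N.r₀_pos] at hk

theorem hasDerivAt_cost (x : M) (v ξ : TangentSpace (𝓡 n) x) (hv : ‖v‖ < N.r₀) :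
    HasDerivAt (fun t : ℝ => halfDistSq (F.ex x (t • ξ)) (F.ex x v)) (-inner ℝ v ξ) 0 := by
  -- choose a scale
  obtain ⟨ε, hε, hε1⟩ : ∃ ε : ℝ, 0 < ε ∧ ‖ε • ξ‖ < N.r₀ := by
    refine ⟨N.r₀ / (‖ξ‖ + 1), div_pos N.r₀_pos (by positivity), ?_⟩
    rw [norm_smul, Real.norm_eq_abs, abs_of_pos (div_pos N.r₀_pos (by positivity)),
      div_mul_eq_mul_div, div_lt_iff₀ (by positivity)]
    nlinarith [N.r₀_pos, norm_nonneg ξ]
  have h := N.hasDerivAt_cost x v (ε • ξ) hv hε1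
  have hc : HasDerivAt (fun t : ℝ => t / ε) (1 / ε) 0 := by
    simpa using (hasDerivAt_id (0 : ℝ)).div_const ε
  have h' : HasDerivAt (fun t : ℝ => halfDistSq (N.e x (t • (ε • ξ))) (N.e x v))
      (-inner ℝ v (ε • ξ)) ((0 : ℝ) / ε) := by simpa using h
  have h2 := HasDerivAt.comp (0 : ℝ) h' hc
  have h3 : -inner ℝ v (ε • ξ) * (1 / ε) = -inner ℝ v ξ := by
    rw [inner_smul_right]; field_simp
  rw [h3] at h2
  refine h2.congr_of_eventuallyEq ?_
  have hopen : ∀ᶠ t in 𝓝 (0 : ℝ), |t| * ‖ξ‖ < N.r₀ := by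
    have hc : Continuous (fun s : ℝ => |s| * ‖ξ‖) := by fun_prop
    apply hc.continuousAt.eventually_lt continuousAt_const
    simpa using N.r₀_pos
  filter_upwards [hopen] with t ht
  simp only [Function.comp_def]
  rw [F.e_smul ht, F.ex_eq_e hv, smul_smul, div_mul_cancel₀ _ hε.ne']

theorem smooth_ex : ContMDiff (𝓡 n).tangent (𝓡 n) ∞
    (fun p : TangentBundle (𝓡 n) M => F.ex p.1 p.2) := by
  have hproj : ContMDiff (𝓡 n).tangent (𝓡 n) ∞ (fun p : TangentBundle (𝓡 n) M => p.1) :=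
    contMDiff_proj _
  have h : ContMDiff (𝓡 n).tangent (𝓡 n).tangent ∞
      (fun p : TangentBundle (𝓡 n) M => F.Fl 1 p) :=
    F.smooth.comp (contMDiff_const.prodMk contMDiff_id)
  exact hproj.comp h

/-- **B3**: a global flow extending the local one gives the core of the geodesic package. -/
noncomputable def geoCore (S : SmallFlow N) : GeoCore n M where
  ex := F.ex
  smooth := F.smooth_ex
  ex_zero := F.ex_zero
  vel_zero := F.vel_zero S
  norm_vel := F.norm_vel S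
  flow := F.flow S
  dist_le := F.dist_le
  r₀ := N.r₀
  r₀_pos := N.r₀_pos
  dist_eq := F.dist_eq
  inj := by
    intro x v w hv hw h
    rw [F.ex_eq_e hv, F.ex_eq_e hw] at h
    exact N.inj x v w hv hw h
  smooth_cost := N.smooth_cost
  hasDerivAt_cost := F.hasDerivAt_cost
  surj_near := by
    intro x y h
    obtain ⟨v, hv, he⟩ := N.surj x y h
    exact ⟨v, hv, by rw [F.ex_eq_e (by rw [hv]; exact h)]; exact he⟩
  smooth_radial := contMDiff_radial F.smooth_ex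

end GlobalFlow

end

end Crest.Agent.R226
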