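/-
R226 Layer D (helper227), D0: compactness of the graphs of `P_u` and `H_u`, reversal, duality.
-/
import Crest.Agent.R226.DDefs_267
import Crest.Agent.R226.BAux_227
import Crest.Agent.R226.Good_272
import Crest.Agent.R226.Kant_624
import Crest.Agent.R226.BundleTop_345
import Crest.Agent.R226.GeoCore_542

set_option autoImplicit false

open Bundle Set Filter Module
open scoped Manifold ContDiff Bundle Topology
open Crest.GeometryTopology.MTW

namespace Crest.Agent.R226.CC0227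

open Crest.Agent.R226

variable {n : ℕ} {M : Type*} [MetricSpace M] [ChartedSpace (EuclideanSpace ℝ (Fin n)) M]
  [IsManifold (𝓡 n) ∞ M]
  [RiemannianBundle (fun p : M => TangentSpace (𝓡 n) p)]

omit [IsManifold (𝓡 n) ∞ M] [RiemannianBundle (fun p : M => TangentSpace (𝓡 n) p)] in
/-- `TangentSpace` is finite-dimensional. -/
theorem finiteDim (x : M) : FiniteDimensional ℝ (TangentSpace (𝓡 n) x) :=
  inferInstanceAs (FiniteDimensional ℝ (EuclideanSpace ℝ (Fin n)))

section hulls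

variable {S : Set (TangentBundle (𝓡 n) M)}

/-- index type of Carathéodory representations. -/
abbrev Idx (n : ℕ) := Fin (finrank ℝ (EuclideanSpace ℝ (Fin n)) + 1)

/-- the configurations: weights and points of `S` over one base point. -/
def Conf (S : Set (TangentBundle (𝓡 n) M)) :
    Set ((Idx n → ℝ) × (Idx n → TangentBundle (𝓡 n) M)) :=
  (stdSimplex ℝ (Idx n) ×ˢ (Set.univ.pi fun _ => S)) ∩ {q | ∀ i, (q.2 i).1 = (q.2 0).1}

omit [RiemannianBundle (fun p : M => TangentSpace (𝓡 n) p)] in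
theorem isCompact_Conf (hS : IsCompact S) : IsCompact (Conf S) := by
  refine IsCompact.inter_right ((isCompact_stdSimplex ℝ _).prod (isCompact_univ_pi fun _ => hS)) ?_
  have h1 : ∀ i : Idx n, Continuous fun q : (Idx n → ℝ) × (Idx n → TangentBundle (𝓡 n) M) =>
      (q.2 i).1 := fun i =>
    (FiberBundle.continuous_proj (EuclideanSpace ℝ (Fin n))
      (TangentSpace (𝓡 n) : M → Type _)).comp ((continuous_apply i).comp continuous_snd)
  have h2 : {q : (Idx n → ℝ) × (Idx n → TangentBundle (𝓡 n) M) | ∀ i, (q.2 i).1 = (q.2 0).1} =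
      ⋂ i, {q | (q.2 i).1 = (q.2 0).1} := by
    ext q
    simp
  rw [h2]
  exact isClosed_iInter fun i => isClosed_eq (h1 i) (h1 0)

/-- the barycentre of a configuration. -/
noncomputable def bary (S : Set (TangentBundle (𝓡 n) M)) (q : Conf S) : TangentBundle (𝓡 n) M :=
  ⟨(q.1.2 0).1, ∑ i, q.1.1 i • ((q.2.2 i) ▸ (q.1.2 i).2 : TangentSpace (𝓡 n) (q.1.2 0).1)⟩

omit [IsManifold (𝓡 n) ∞ M] [RiemannianBundle (fun p : M => TangentSpace (𝓡 n) p)] in
theorem mk_cast {x y : M} (h : x = y) (v : TangentSpace (𝓡 n) x) :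
    (⟨y, (h ▸ v : TangentSpace (𝓡 n) y)⟩ : TangentBundle (𝓡 n) M) = ⟨x, v⟩ := by
  subst h; rfl

omit [RiemannianBundle (fun p : M => TangentSpace (𝓡 n) p)] in
theorem continuous_bary (S : Set (TangentBundle (𝓡 n) M)) : Continuous (bary S) := by
  rw [continuous_iff_continuousAt]
  intro q0
  have hp : ∀ i : Idx n, Continuous fun q : Conf S => q.1.2 i := fun i =>
    (continuous_apply i).comp (continuous_snd.comp continuous_subtype_val)
  have hθ : ∀ i : Idx n, Continuous fun q : Conf S => q.1.1 i := fun i =>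
    (continuous_apply i).comp (continuous_fst.comp continuous_subtype_val)
  have hb : Continuous fun q : Conf S => (q.1.2 0).1 :=
    (FiberBundle.continuous_proj (EuclideanSpace ℝ (Fin n))
      (TangentSpace (𝓡 n) : M → Type _)).comp (hp 0)
  refine BAux227.tendsto_sum (l := 𝓝 q0) (b := fun q : Conf S => (q.1.2 0).1)
    (v := fun i q => ((q.2.2 i) ▸ (q.1.2 i).2 : TangentSpace (𝓡 n) (q.1.2 0).1))
    (θ := fun i q => q.1.1 i) (x := (q0.1.2 0).1)
    (v0 := fun i => ((q0.2.2 i) ▸ (q0.1.2 i).2 : TangentSpace (𝓡 n) (q0.1.2 0).1))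
    (θ0 := fun i => q0.1.1 i) (hb.tendsto q0) (fun i => ?_) (fun i => (hθ i).tendsto q0)
  have h1 := (hp i).tendsto q0
  simp only [mk_cast]
  exact h1

omit [RiemannianBundle (fun p : M => TangentSpace (𝓡 n) p)] in
/-- the fibrewise convex hull of a compact set is compact. -/
theorem isCompact_fibHull (hS : IsCompact S) :
    IsCompact {p : TangentBundle (𝓡 n) M |
      p.2 ∈ convexHull ℝ {w : TangentSpace (𝓡 n) p.1 | (⟨p.1, w⟩ : TangentBundle (𝓡 n) M) ∈ S}} := by
  have : CompactSpace (Conf S) := isCompact_iff_compactSpace.1 (isCompact_Conf hS)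
  have h1 : {p : TangentBundle (𝓡 n) M |
      p.2 ∈ convexHull ℝ {w : TangentSpace (𝓡 n) p.1 | (⟨p.1, w⟩ : TangentBundle (𝓡 n) M) ∈ S}} =
      range (bary S) := by
    ext p
    constructor
    · intro hp
      obtain ⟨x, v⟩ := p
      have := finiteDim (n := n) x
      obtain ⟨w, z, hw, hz, h⟩ := BAux227.exists_fin_rep (V := TangentSpace (𝓡 n) x) (x := v) hp
      refine ⟨⟨(w, fun i => ⟨x, z i⟩), ⟨⟨hw, fun i _ => hz i⟩, fun i => rfl⟩⟩, ?_⟩
      show (⟨x, ∑ i, w i • z i⟩ : TangentBundle (𝓡 n) M) = ⟨x, v⟩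
      rw [← h]
    · rintro ⟨q, rfl⟩
      show (∑ i, q.1.1 i • ((q.2.2 i) ▸ (q.1.2 i).2 : TangentSpace (𝓡 n) (q.1.2 0).1)) ∈
        convexHull ℝ {w : TangentSpace (𝓡 n) (q.1.2 0).1 |
          (⟨(q.1.2 0).1, w⟩ : TangentBundle (𝓡 n) M) ∈ S}
      refine (convex_convexHull ℝ _).sum_mem (fun i _ => q.2.1.1.1 i) q.2.1.1.2 fun i _ => ?_
      refine subset_convexHull ℝ _ ?_
      show (⟨(q.1.2 0).1, _⟩ : TangentBundle (𝓡 n) M) ∈ S
      rw [mk_cast]
      exact q.2.1.2 i (Set.mem_univ i)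
  rw [h1]
  exact isCompact_range (continuous_bary S)

end hulls

section

variable (G : GeoData n M)

/-- `w ∈ P_u(x)` in terms of `TM`. -/
theorem isCompact_PT (hK : IsCompact G.KT) {u : M → ℝ} (hu : Continuous u) :
    IsCompact {p : TangentBundle (𝓡 n) M | p.2 ∈ G.P u p.1} := by
  have hex := BundleTop345.continuous_ex G
  have hpr := FiberBundle.continuous_proj (EuclideanSpace ℝ (Fin n))
      (TangentSpace (𝓡 n) : M → Type _)
  have hc := Kant624.continuous_halfDistSq (M := M)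
  have h1 : {p : TangentBundle (𝓡 n) M | p.2 ∈ G.P u p.1} =
      G.KT ∩ ⋂ x', {p : TangentBundle (𝓡 n) M | u p.1 + halfDistSq p.1 (G.ex p.1 p.2) ≤
        u x' + halfDistSq x' (G.ex p.1 p.2)} := by
    ext p
    simp only [mem_inter_iff, mem_iInter]
    rfl
  rw [h1]
  refine hK.inter_right (isClosed_iInter fun x' => isClosed_le ?_ ?_)
  · exact (hu.comp hpr).add (hc.comp (hpr.prodMk hex))
  · exact continuous_const.add (hc.comp (continuous_const.prodMk hex))

theorem isCompact_HT (hK : IsCompact G.KT) {u : M → ℝ} (hu : Continuous u) :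
    IsCompact {p : TangentBundle (𝓡 n) M | p.2 ∈ G.H u p.1} := by
  have h := isCompact_fibHull (isCompact_PT G hK hu)
  have h2 : {p : TangentBundle (𝓡 n) M | p.2 ∈ G.H u p.1} =
      {p : TangentBundle (𝓡 n) M | p.2 ∈ convexHull ℝ {w : TangentSpace (𝓡 n) p.1 |
        (⟨p.1, w⟩ : TangentBundle (𝓡 n) M) ∈ {p : TangentBundle (𝓡 n) M | p.2 ∈ G.P u p.1}}} := by
    ext p
    exact Iff.rfl
  rw [h2]
  exact h

omit [IsManifold (𝓡 n) ∞ M] [RiemannianBundle (fun p : M => TangentSpace (𝓡 n) p)] in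
/-- compact sets of `TM` have compact fibres. -/
theorem isCompact_fibre [IsManifold (𝓡 n) ∞ M] {S : Set (TangentBundle (𝓡 n) M)}
    (hS : IsCompact S) (x : M) :
    IsCompact {w : TangentSpace (𝓡 n) x | (⟨x, w⟩ : TangentBundle (𝓡 n) M) ∈ S} :=
  (FiberBundle.totalSpaceMk_isClosedEmbedding (EuclideanSpace ℝ (Fin n))
    (TangentSpace (𝓡 n) : M → Type _) x).isCompact_preimage hS

theorem isCompact_P (hK : IsCompact G.KT) {u : M → ℝ} (hu : Continuous u) (x : M) :
    IsCompact (G.P u x) :=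
  isCompact_fibre (isCompact_PT G hK hu) x

theorem isCompact_H (hK : IsCompact G.KT) {u : M → ℝ} (hu : Continuous u) (x : M) :
    IsCompact (G.H u x) :=
  isCompact_fibre (isCompact_HT G hK hu) x

/-! ### reversal -/

theorem revT_fst (p : TangentBundle (𝓡 n) M) : (G.revT p).1 = G.ex p.1 p.2 := by
  show G.ex p.1 ((1 : ℝ) • p.2) = _
  rw [one_smul]

theorem revT_mem (hC : CutFacts G) (p : TangentBundle (𝓡 n) M) (hp : p.2 ∈ G.K p.1) :
    (G.revT p).2 ∈ G.K (G.revT p).1 := hC.rev p.1 p.2 hp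

theorem revT_ex (hC : CutFacts G) (p : TangentBundle (𝓡 n) M) (t : ℝ) :
    G.ex (G.revT p).1 (t • (G.revT p).2) = G.ex p.1 ((1 - t) • p.2) := hC.rev_ex p.1 p.2 t

theorem revT_revT (hC : CutFacts G) (p : TangentBundle (𝓡 n) M) : G.revT (G.revT p) = p := by
  have h1 : G.revT (G.revT p) =
      scaleT (-1) (bvel n (fun t : ℝ => G.ex (G.revT p).1 (t • (G.revT p).2)) 1) := by
    show (⟨_, -_⟩ : TangentBundle (𝓡 n) M) = ⟨_, (-1 : ℝ) • _⟩
    rw [neg_one_smul]
    rfl
  have h2 : (fun t : ℝ => G.ex (G.revT p).1 (t • (G.revT p).2)) =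
      fun t : ℝ => (fun s : ℝ => G.ex p.1 (s • p.2)) ((-1) * t + 1) := by
    funext t
    rw [revT_ex G hC]
    congr 2
    ring
  have hd : MDifferentiableAt 𝓘(ℝ, ℝ) (𝓡 n) (fun s : ℝ => G.ex p.1 (s • p.2)) ((-1) * 1 + 1) :=
    ((BAux227.contMDiff_geod G p.1 p.2).mdifferentiable (by simp)) _
  rw [h1, h2, bvel_comp_affine hd]
  have h3 : bvel n (fun s : ℝ => G.ex p.1 (s • p.2)) ((-1) * 1 + 1) = p := by
    have e0 : ((-1 : ℝ) * 1 + 1) = 0 := by norm_num
    rw [e0]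
    obtain ⟨x, v⟩ := p
    have e1 := G.vel_zero x v
    have e2 : G.ex x ((0 : ℝ) • v) = x := by rw [zero_smul, G.ex_zero]
    refine TotalSpace.ext e2 ?_
    exact heq_of_eq (show (curveVel n (fun t : ℝ => G.ex x (t • v)) 0 : EuclideanSpace ℝ (Fin n)) =
      (v : EuclideanSpace ℝ (Fin n)) from e1)
  rw [h3]
  obtain ⟨x, v⟩ := p
  show (⟨x, (-1 : ℝ) • (-1 : ℝ) • v⟩ : TangentBundle (𝓡 n) M) = ⟨x, v⟩
  rw [smul_smul]
  norm_num

/-! ### duality -/

theorem mem_P_iff {u : M → ℝ} {x : M} {w : TangentSpace (𝓡 n) x} :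
    w ∈ G.P u x ↔ w ∈ G.K x ∧ G.ex x w ∈ Kant624.cSub u x := Iff.rfl

variable [CompactSpace M]

theorem mem_P_ctr {u : M → ℝ} (hu : CConv u) (y : M) (q : TangentSpace (𝓡 n) y) :
    q ∈ G.P (ctr u) y ↔ q ∈ G.K y ∧ G.ex y q ∈ Cset u y := by
  rw [mem_P_iff, Kant624.mem_cSub_ctr_iff hu, Kant624.mem_Cset_iff]

theorem P_rev (hC : CutFacts G) {u : M → ℝ} (hu : CConv u) (p : TangentBundle (𝓡 n) M)
    (hp : p.2 ∈ G.P u p.1) : (G.revT p).2 ∈ G.P (ctr u) (G.revT p).1 := by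
  rw [mem_P_ctr G hu]
  refine ⟨revT_mem G hC p hp.1, ?_⟩
  have h1 := revT_ex G hC p 1
  rw [one_smul, sub_self, zero_smul, G.ex_zero] at h1
  rw [h1, Kant624.mem_Cset_iff, revT_fst]
  exact hp.2

end

end Crest.Agent.R226.CC0227
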