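/-
R226 Layer D (helper227), D1: L-B, L-A (Danskin), L-C, and `Good` for small `s`.
-/
import Crest.Agent.R226.CC0_227

set_option autoImplicit false

open Bundle Set Filter Module
open scoped Manifold ContDiff Bundle Topology
open Crest.GeometryTopology.MTW

namespace Crest.Agent.R226.CC1227

open Crest.Agent.R226

variable {n : ℕ} {M : Type*} [MetricSpace M] [ChartedSpace (EuclideanSpace ℝ (Fin n)) M]
  [IsManifold (𝓡 n) ∞ M]
  [RiemannianBundle (fun p : M => TangentSpace (𝓡 n) p)]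

variable (G : GeoData n M)

/-- L-B for `P`. -/
theorem LB_P {C₁ : ℝ} (hC₁ : ∀ x, ∀ v ∈ G.K x, ∀ ξ : TangentSpace (𝓡 n) x,
      halfDistSq (G.ex x ξ) (G.ex x v) ≤ halfDistSq x (G.ex x v) - inner ℝ v ξ + C₁ * ‖ξ‖ ^ 2)
    {u : M → ℝ} {x : M} {p : TangentSpace (𝓡 n) x} (hp : p ∈ G.P u x)
    (ξ : TangentSpace (𝓡 n) x) :
    u x + inner ℝ p ξ - C₁ * ‖ξ‖ ^ 2 ≤ u (G.ex x ξ) := by
  have h1 := hp.2 (G.ex x ξ)
  have h2 := hC₁ x p hp.1 ξ
  linarith

/-- L-B. -/
theorem LB_H {C₁ : ℝ} (hC₁ : ∀ x, ∀ v ∈ G.K x, ∀ ξ : TangentSpace (𝓡 n) x,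
      halfDistSq (G.ex x ξ) (G.ex x v) ≤ halfDistSq x (G.ex x v) - inner ℝ v ξ + C₁ * ‖ξ‖ ^ 2)
    {u : M → ℝ} {x : M} {p : TangentSpace (𝓡 n) x} (hp : p ∈ G.H u x)
    (ξ : TangentSpace (𝓡 n) x) :
    u x + inner ℝ p ξ - C₁ * ‖ξ‖ ^ 2 ≤ u (G.ex x ξ) := by
  have hconv : Convex ℝ {p : TangentSpace (𝓡 n) x |
      u x + inner ℝ p ξ - C₁ * ‖ξ‖ ^ 2 ≤ u (G.ex x ξ)} := by
    intro p hp q hq a b ha hb hab
    simp only [mem_ofPred_eq] at hp hq ⊢
    rw [inner_add_left, real_inner_smul_left, real_inner_smul_left]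
    have e : b = 1 - a := by linarith
    subst e
    nlinarith [mul_le_mul_of_nonneg_left hp ha, mul_le_mul_of_nonneg_left hq hb]
  exact convexHull_min (fun q hq => LB_P G hC₁ hq ξ) hconv hp

variable {G}

theorem LB (hC : CutFacts G) : ∃ C₁ : ℝ, 0 < C₁ ∧ ∀ u : M → ℝ, ∀ x : M, ∀ p ∈ G.H u x,
    ∀ ξ : TangentSpace (𝓡 n) x, u x + inner ℝ p ξ - C₁ * ‖ξ‖ ^ 2 ≤ u (G.ex x ξ) := by
  obtain ⟨C₁, h0, h1⟩ := hC.semiconcave
  exact ⟨C₁, h0, fun u x p hp ξ => LB_H G h1 hp ξ⟩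

variable [IsContMDiffRiemannianBundle (𝓡 n) ∞ (EuclideanSpace ℝ (Fin n))
    (fun p : M => TangentSpace (𝓡 n) p)] [CompactSpace M]

/-- L-A (Danskin). -/
theorem danskin (hC : CutFacts G) {u : M → ℝ} (hu : CConv u) (x : M)
    (ξ : TangentSpace (𝓡 n) x) (m : ℝ) (hm : ∀ w ∈ G.P u x, inner ℝ w ξ < m) :
    ∀ᶠ t : ℝ in 𝓝[>] 0, u (G.ex x (t • ξ)) < u x + m * t := by
  obtain ⟨C₁, hC₁0, hC₁⟩ := hC.semiconcave
  by_contra hcon
  rw [not_eventually] at hcon
  have hucont := Kant624.CConv.continuous hu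
  choose w hw using fun t : ℝ => Good272.P_nonempty G hu (G.ex x (t • ξ))
  -- main inequality
  have hkey : ∀ t : ℝ, 0 < t → ¬ (u (G.ex x (t • ξ)) < u x + m * t) →
      m ≤ inner ℝ (w t) (G.vel x ξ t) + C₁ * ‖ξ‖ ^ 2 * t := by
    intro t ht hbad
    have h1 := hC₁ (G.ex x (t • ξ)) (w t) (hw t).1 ((-t) • G.vel x ξ t)
    have h2 : G.ex (G.ex x (t • ξ)) ((-t) • G.vel x ξ t) = x := by
      have := G.flow x ξ t (-t)
      rw [show t + -t = 0 by ring, zero_smul, G.ex_zero] at this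
      exact this
    have h3 := (hw t).2 x
    have h4 : ‖(-t) • G.vel x ξ t‖ = t * ‖ξ‖ := by
      rw [norm_smul, Real.norm_eq_abs, abs_neg, abs_of_pos ht]
      congr 1
      exact G.norm_vel x ξ t
    rw [h2, real_inner_smul_right, h4] at h1
    have h5 : t * m ≤ t * (inner ℝ (w t) (G.vel x ξ t) + C₁ * ‖ξ‖ ^ 2 * t) := by
      have h6 := not_lt.1 hbad
      nlinarith
    exact le_of_mul_le_mul_left h5 ht
  have hfreq : ∃ᶠ t : ℝ in 𝓝[>] 0,
      m ≤ inner ℝ (w t) (G.vel x ξ t) + C₁ * ‖ξ‖ ^ 2 * t := by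
    refine (hcon.and_eventually self_mem_nhdsWithin).mono ?_
    rintro t ⟨h1, h2⟩
    exact hkey t h2 h1
  -- an ultrafilter
  have hne : (𝓝[>] (0:ℝ) ⊓ 𝓟 {t : ℝ |
      m ≤ inner ℝ (w t) (G.vel x ξ t) + C₁ * ‖ξ‖ ^ 2 * t}).NeBot :=
    frequently_mem_iff_neBot.1 hfreq
  obtain ⟨l, hl⟩ := @Ultrafilter.exists_le _ _ hne
  have hl1 : (l : Filter ℝ) ≤ 𝓝[>] 0 := hl.trans inf_le_left
  have hl0 : (l : Filter ℝ) ≤ 𝓝 0 := hl1.trans nhdsWithin_le_nhds
  have hl2 : ∀ᶠ t in (l : Filter ℝ), m ≤ inner ℝ (w t) (G.vel x ξ t) + C₁ * ‖ξ‖ ^ 2 * t :=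
    hl (mem_inf_of_right (mem_principal_self _))
  have hcomp := CC0227.isCompact_PT G hC.isCompact_KT hucont
  obtain ⟨p0, hp0, hlim⟩ := hcomp.ultrafilter_le_nhds
    (l.map fun t => (⟨G.ex x (t • ξ), w t⟩ : TangentBundle (𝓡 n) M))
    (by
      rw [le_principal_iff]
      show ∀ᶠ t in (l : Filter ℝ), _
      exact Eventually.of_forall fun t => hw t)
  have hlim' : Tendsto (fun t => (⟨G.ex x (t • ξ), w t⟩ : TangentBundle (𝓡 n) M)) l (𝓝 p0) := hlim
  have hvel := ((BAux227.continuous_vel G x ξ).tendsto 0).mono_left hl0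
  have hx0 : G.ex x ((0 : ℝ) • ξ) = x := by rw [zero_smul, G.ex_zero]
  have hvel0 : (⟨G.ex x ((0:ℝ) • ξ), G.vel x ξ 0⟩ : TangentBundle (𝓡 n) M) = ⟨x, ξ⟩ := by
    refine TotalSpace.ext hx0 ?_
    exact heq_of_eq (show (curveVel n (fun t : ℝ => G.ex x (t • ξ)) 0 :
      EuclideanSpace ℝ (Fin n)) = (ξ : EuclideanSpace ℝ (Fin n)) from G.vel_zero x ξ)
  rw [hvel0] at hvel
  obtain ⟨x0, w0⟩ := p0
  have hxx : x0 = x := by
    have h1 := (BAux227.tendsto_tm_iff.1 hlim').1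
    have h2 := (BAux227.tendsto_tm_iff.1 hvel).1
    exact tendsto_nhds_unique h1 h2
  subst hxx
  have hin := BAux227.tendsto_inner hlim' hvel
  have ht0 : Tendsto (fun t : ℝ => C₁ * ‖ξ‖ ^ 2 * t) l (𝓝 (C₁ * ‖ξ‖ ^ 2 * 0)) :=
    (tendsto_id.mono_left hl0).const_mul _
  have hfin := ge_of_tendsto (hin.add ht0) hl2
  rw [mul_zero, add_zero] at hfin
  exact absurd (hm w0 hp0) (not_lt.2 hfin)

/-- L-C. -/
theorem LC (hC : CutFacts G) {u : M → ℝ} (hu : CConv u) {s : ℝ} (hs : 0 ≤ s) {T : ℝ}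
    (hT : 0 < T) {x y : M}
    (hmin : ∀ x', s * u x + halfDistSq x y / T ≤ s * u x' + halfDistSq x' y / T)
    {v : TangentSpace (𝓡 n) x} (hv : v ∈ G.K x) (hvy : G.ex x v = y) :
    ∃ p ∈ G.H u x, (1 / T) • v = s • p := by
  obtain ⟨p0, hp0⟩ := Good272.H_nonempty G hu x
  rcases hs.eq_or_lt with rfl | hs0
  · -- `s = 0`: `x = y`, `v = 0`
    refine ⟨p0, hp0, ?_⟩
    have h1 := hmin y
    have h2 : halfDistSq y y = 0 := Good272.halfDistSq_self y
    rw [h2, zero_div] at h1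
    have h3 : halfDistSq x y / T ≤ 0 := by linarith
    have h4 : halfDistSq x y ≤ 0 := by
      rw [div_le_iff₀ hT] at h3
      linarith
    have h5 : dist x (G.ex x v) = ‖v‖ := hv
    rw [hvy] at h5
    have h6 : ‖v‖ ^ 2 ≤ 0 := by
      rw [← h5]
      unfold halfDistSq at h4
      linarith
    have h7 : ‖v‖ = 0 := by
      have := sq_nonneg ‖v‖
      exact pow_eq_zero_iff (two_ne_zero) |>.1 (le_antisymm h6 this)
    rw [norm_eq_zero.1 h7]
    simp
  · by_contra hcon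
    push Not at hcon
    have hfd := CC0227.finiteDim (n := n) x
    have hcs : CompleteSpace (TangentSpace (𝓡 n) x) := FiniteDimensional.complete ℝ _
    have hucont := Kant624.CConv.continuous hu
    have hHc := CC0227.isCompact_H G hC.isCompact_KT hucont x
    have hA : IsClosed ((fun p : TangentSpace (𝓡 n) x => s • p) '' G.H u x) :=
      (hHc.image (continuous_const_smul s)).isClosed
    have hAc : Convex ℝ ((fun p : TangentSpace (𝓡 n) x => s • p) '' G.H u x) := by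
      have := (convex_convexHull ℝ (G.P u x)).smul s
      exact this
    have hnot : (1 / T) • v ∉ (fun p : TangentSpace (𝓡 n) x => s • p) '' G.H u x := by
      rintro ⟨p, hp, h⟩
      exact hcon p hp h.symm
    obtain ⟨f, a, hfa, hfv⟩ := geometric_hahn_banach_closed_point hAc hA hnot
    set ξ : TangentSpace (𝓡 n) x := (InnerProductSpace.toDual ℝ (TangentSpace (𝓡 n) x)).symm f
      with hξ
    have hf : ∀ z, f z = inner ℝ ξ z := fun z => by
      rw [hξ, InnerProductSpace.toDual_symm_apply]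
    have hm : ∀ w ∈ G.P u x, inner ℝ w ξ < a / s := by
      intro w hw
      have h1 := hfa (s • w) ⟨w, Good272.P_subset_H G u x hw, rfl⟩
      rw [hf, real_inner_smul_right, real_inner_comm] at h1
      rw [lt_div_iff₀ hs0]
      linarith
    have hd := danskin hC hu x ξ (a / s) hm
    obtain ⟨C₁, hC₁0, hC₁⟩ := hC.semiconcave
    have hlt : a < inner ℝ v ξ / T := by
      rw [hf, real_inner_smul_right, real_inner_comm] at hfv
      rw [one_div, inv_mul_eq_div] at hfv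
      exact hfv
    have hev : ∀ᶠ t : ℝ in 𝓝[>] 0, inner ℝ v ξ / T ≤ a + C₁ * ‖ξ‖ ^ 2 / T * t := by
      filter_upwards [hd, self_mem_nhdsWithin] with t ht ht0
      have ht0' : (0:ℝ) < t := ht0
      have h1 := hmin (G.ex x (t • ξ))
      have h2 := hC₁ x v hv (t • ξ)
      rw [hvy, real_inner_smul_right, norm_smul, Real.norm_eq_abs, abs_of_pos ht0'] at h2
      have h3 : halfDistSq (G.ex x (t • ξ)) y / T ≤
          (halfDistSq x y - t * inner ℝ v ξ + C₁ * (t * ‖ξ‖) ^ 2) / T := by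
        gcongr
      have h4 : s * u (G.ex x (t • ξ)) < s * u x + a * t := by
        have := mul_lt_mul_of_pos_left ht hs0
        have e : s * (u x + a / s * t) = s * u x + a * t := by
          field_simp
        rw [e] at this
        exact this
      have h5 : (halfDistSq x y - t * inner ℝ v ξ + C₁ * (t * ‖ξ‖) ^ 2) / T =
          halfDistSq x y / T - t * (inner ℝ v ξ / T) + t * (C₁ * ‖ξ‖ ^ 2 / T * t) := by
        field_simp
      rw [h5] at h3
      have h6 : t * (inner ℝ v ξ / T) ≤ t * (a + C₁ * ‖ξ‖ ^ 2 / T * t) := by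
        nlinarith
      exact le_of_mul_le_mul_left h6 ht0'
    have hlim : Tendsto (fun t : ℝ => a + C₁ * ‖ξ‖ ^ 2 / T * t) (𝓝[>] 0)
        (𝓝 (a + C₁ * ‖ξ‖ ^ 2 / T * 0)) :=
      ((tendsto_id.const_mul _).const_add a).mono_left nhdsWithin_le_nhds
    have := ge_of_tendsto hlim hev
    rw [mul_zero, add_zero] at this
    exact absurd hlt (not_lt.2 this)

omit [IsContMDiffRiemannianBundle (𝓡 n) ∞ (EuclideanSpace ℝ (Fin n))
    (fun p : M => TangentSpace (𝓡 n) p)] in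
variable (G) in
theorem norm_le_of_mem_H {u : M → ℝ} {x : M} {p : TangentSpace (𝓡 n) x} (hp : p ∈ G.H u x) :
    ‖p‖ ≤ Metric.diam (univ : Set M) := by
  have h1 : G.P u x ⊆ Metric.closedBall 0 (Metric.diam (univ : Set M)) := by
    intro w hw
    rw [mem_closedBall_zero_iff]
    have h2 : dist x (G.ex x w) = ‖w‖ := hw.1
    rw [← h2]
    exact Metric.dist_le_diam_of_mem isCompact_univ.isBounded (mem_univ _) (mem_univ _)
  have h2 := convexHull_min h1 (convex_closedBall _ _) hp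
  rwa [mem_closedBall_zero_iff] at h2

omit [IsContMDiffRiemannianBundle (𝓡 n) ∞ (EuclideanSpace ℝ (Fin n))
    (fun p : M => TangentSpace (𝓡 n) p)] in
/-- `Good` for small `s`. -/
theorem good_small (hC : CutFacts G) : ∃ s₀ : ℝ, 0 < s₀ ∧ ∀ u : M → ℝ, CConv u → ∀ s : ℝ,
    0 ≤ s → s ≤ s₀ → G.Good u s := by
  obtain ⟨C₁, hC₁0, hC₁⟩ := hC.semiconcave
  obtain ⟨r₁, hr₁, hconv⟩ := hC.convex_near
  set D : ℝ := Metric.diam (univ : Set M) with hD
  have hD0 : 0 ≤ D := Metric.diam_nonneg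
  have hr0 := G.r₀_pos
  obtain ⟨s₀, hs₀, h1, h2, h3⟩ : ∃ s₀ : ℝ, 0 < s₀ ∧ s₀ * C₁ ≤ 1 / 4 ∧
      s₀ * (2 * D + 1) ≤ r₁ / 2 ∧ s₀ * (D + 1) < G.r₀ := by
    have e1 : ∀ᶠ s : ℝ in 𝓝[>] 0, s * C₁ < 1 / 4 := by
      have : Tendsto (fun s : ℝ => s * C₁) (𝓝[>] 0) (𝓝 (0 * C₁)) :=
        (tendsto_id.mul_const _).mono_left nhdsWithin_le_nhds
      rw [zero_mul] at this
      exact this.eventually (gt_mem_nhds (by norm_num))
    have e2 : ∀ᶠ s : ℝ in 𝓝[>] 0, s * (2 * D + 1) < r₁ / 2 := by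
      have : Tendsto (fun s : ℝ => s * (2 * D + 1)) (𝓝[>] 0) (𝓝 (0 * (2 * D + 1))) :=
        (tendsto_id.mul_const _).mono_left nhdsWithin_le_nhds
      rw [zero_mul] at this
      exact this.eventually (gt_mem_nhds (by linarith))
    have e3 : ∀ᶠ s : ℝ in 𝓝[>] 0, s * (D + 1) < G.r₀ := by
      have : Tendsto (fun s : ℝ => s * (D + 1)) (𝓝[>] 0) (𝓝 (0 * (D + 1))) :=
        (tendsto_id.mul_const _).mono_left nhdsWithin_le_nhds
      rw [zero_mul] at this
      exact this.eventually (gt_mem_nhds hr0)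
    obtain ⟨s, ⟨⟨a1, a2⟩, a3⟩, a4⟩ := (((e1.and e2).and e3).and self_mem_nhdsWithin).exists
    exact ⟨s, a4, a1.le, a2.le, a3⟩
  refine ⟨s₀, hs₀, fun u hu s hs hss x p hp => ?_⟩
  have hpD : ‖p‖ ≤ D := norm_le_of_mem_H G hp
  have hsp : ‖s • p‖ = s * ‖p‖ := by rw [norm_smul, Real.norm_eq_abs, abs_of_nonneg hs]
  have hspD : s * ‖p‖ ≤ s₀ * D := mul_le_mul hss hpD (norm_nonneg _) hs₀.le
  have hK : s • p ∈ G.K x := by
    have h4 := G.dist_eq x (s • p) 0 1 (by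
      rw [zero_sub, abs_neg, abs_one, one_mul, hsp]
      nlinarith)
    rw [zero_smul, G.ex_zero, one_smul, zero_sub, abs_neg, abs_one, one_mul] at h4
    exact h4
  have hK' : dist x (G.ex x (s • p)) = s * ‖p‖ := by
    rw [← hsp]; exact hK
  refine ⟨hK, fun x' => ?_⟩
  show s * u x + halfDistSq x (G.ex x (s • p)) ≤ s * u x' + halfDistSq x' (G.ex x (s • p))
  have e0 : halfDistSq x (G.ex x (s • p)) = (s * ‖p‖) ^ 2 / 2 := by
    unfold halfDistSq
    rw [hK']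
  rw [e0]
  rcases le_or_gt (dist x x') r₁ with hd | hd
  · obtain ⟨ξ, hξ, hξn⟩ := G.surj x x'
    have h5 := hconv x (s • p) ξ (by rw [hsp]; nlinarith) (by rw [hξn]; exact hd)
    rw [hξ, hsp, real_inner_smul_left] at h5
    have h6 := LB_H G hC₁ hp ξ
    rw [hξ] at h6
    have h7 := mul_le_mul_of_nonneg_left h6 hs
    have h8 : s * C₁ ≤ 1 / 4 := (mul_le_mul_of_nonneg_right hss hC₁0.le).trans h1
    nlinarith [sq_nonneg ‖ξ‖, mul_le_mul_of_nonneg_right h8 (sq_nonneg ‖ξ‖)]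
  · have h5 := Kant624.CConv.abs_sub_le hu x x'
    rw [← hD, abs_le] at h5
    have h6 : dist x x' - s * ‖p‖ ≤ dist x' (G.ex x (s • p)) := by
      have := dist_triangle_right x x' (G.ex x (s • p))
      rw [hK'] at this
      linarith
    have h7 : s * ‖p‖ ≤ r₁ / 2 := by nlinarith
    have h8 : (dist x x' - s * ‖p‖) ^ 2 ≤ dist x' (G.ex x (s • p)) ^ 2 :=
      pow_le_pow_left₀ (by linarith) h6 2
    have h9 : s * (D + ‖p‖) ≤ dist x x' / 2 := by
      have : s * (D + ‖p‖) ≤ s₀ * (2 * D + 1) := by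
        apply mul_le_mul hss (by linarith) (by positivity) hs₀.le
      linarith
    have h10 : s * (u x - u x') ≤ s * (D * dist x x') := mul_le_mul_of_nonneg_left h5.2 hs
    have h11 : s * D * dist x x' + s * ‖p‖ * dist x x' ≤ dist x x' ^ 2 / 2 := by
      have := mul_le_mul_of_nonneg_right h9 (dist_nonneg (x := x) (y := x'))
      nlinarith
    unfold halfDistSq
    nlinarith

/-- all the fields of `DFacts` except `LE`. -/
theorem dFacts (hC : CutFacts G)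
    (hLE : ∃ ε₀ : ℝ, 0 < ε₀ ∧ ∀ u : M → ℝ, CConv u → ∀ ε : ℝ, 0 < ε → ε ≤ ε₀ →
      ∀ p q : TangentBundle (𝓡 n) M, p.2 ∈ G.H u p.1 → q.2 ∈ G.H u q.1 →
      G.ex p.1 (ε • p.2) = G.ex q.1 (ε • q.2) → p = q) : DFacts G where
  lip := by
    refine ⟨Metric.diam (univ : Set M) + 1, by
      have := Metric.diam_nonneg (s := (univ : Set M)); linarith, fun u hu x x' => ?_⟩
    have h1 := Kant624.CConv.abs_sub_le hu x x'
    have h2 := dist_nonneg (x := x) (y := x')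
    linarith
  cont := fun u hu => Kant624.CConv.continuous hu
  cconv_smul := fun u hu s h0 h1 => Good272.CConv_smul G hu h0 h1
  cconv_ctr := fun u hu => Kant624.CConv_ctr hu
  P_nonempty := fun u hu x => Good272.P_nonempty G hu x
  P_smul := fun u x w hw t h0 h1 => Good272.smul_mem_P G hw h0 h1
  isCompact_PT := fun u hu => CC0227.isCompact_PT G hC.isCompact_KT hu
  isCompact_HT := fun u hu => CC0227.isCompact_HT G hC.isCompact_KT hu
  isCompact_P := fun u hu x => CC0227.isCompact_P G hC.isCompact_KT hu x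
  isCompact_H := fun u hu x => CC0227.isCompact_H G hC.isCompact_KT hu x
  revT_mem := fun p hp => CC0227.revT_mem G hC p hp
  revT_fst := fun p => CC0227.revT_fst G p
  revT_revT := fun p _ => CC0227.revT_revT G hC p
  revT_ex := fun p t => CC0227.revT_ex G hC p t
  mem_P_ctr := fun u hu y q => CC0227.mem_P_ctr G hu y q
  P_rev := fun u hu p hp => CC0227.P_rev G hC hu p hp
  good_mono := fun u s t h0 h1 h => Good272.Good_mono G h h0 h1
  good_closed := fun u _ => Good272.isClosed_Good G u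
  good_small := good_small hC
  danskin := fun u hu x ξ m hm => danskin hC hu x ξ m hm
  LB := LB hC
  LC := fun u hu s hs T hT x y hmin v hv hvy => LC hC hu hs hT hmin hv hvy
  LE := hLE

end Crest.Agent.R226.CC1227
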