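/-
R226, task D2 (helper229): (L-B), (L-D), (L-E) of docs 350.
-/
import Crest.Agent.R226.CutFacts_484

set_option autoImplicit false

open MeasureTheory Bundle Set Filter
open scoped Manifold ContDiff Bundle ENNReal Topology
open Crest.GeometryTopology.MTW

namespace Crest.Agent.R226.CC2229

variable {n : ℕ} {M : Type*} [MetricSpace M] [ChartedSpace (EuclideanSpace ℝ (Fin n)) M]
  [IsManifold (𝓡 n) ∞ M]
  [RiemannianBundle (fun p : M => TangentSpace (𝓡 n) p)]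

/-- distance along a radial geodesic, upper bound -/
theorem dist_ex_le (G : GeoData n M) (x : M) (v : TangentSpace (𝓡 n) x) :
    dist x (G.ex x v) ≤ ‖v‖ := by
  have h := G.dist_le x v 0 1
  simpa [G.ex_zero] using h

/-- for `w ∈ K x` and `0 ≤ t ≤ 1`, `dist (ex x (t w)) (ex x w) ≤ (1-t)‖w‖`. -/
theorem dist_smul_le (G : GeoData n M) (x : M) (w : TangentSpace (𝓡 n) x) {t : ℝ} (ht1 : t ≤ 1) :
    dist (G.ex x (t • w)) (G.ex x w) ≤ (1 - t) * ‖w‖ := by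
  have h := G.dist_le x w t 1
  rw [one_smul] at h
  refine h.trans (le_of_eq ?_)
  rw [abs_sub_comm, abs_of_nonneg (by linarith)]

/-- the weighted triangle inequality for `c = d²/2`. -/
theorem half_triangle (x z y : M) {t : ℝ} (ht : 0 < t) (ht1 : t < 1) :
    halfDistSq x y ≤ halfDistSq x z / t + halfDistSq z y / (1 - t) := by
  have h1 : 0 < 1 - t := by linarith
  have htri := dist_triangle x z y
  unfold halfDistSq
  have hxz : 0 ≤ dist x z := dist_nonneg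
  have hzy : 0 ≤ dist z y := dist_nonneg
  have hxy : 0 ≤ dist x y := dist_nonneg
  have hsq : dist x y ^ 2 ≤ (dist x z + dist z y) ^ 2 := by
    apply pow_le_pow_left₀ hxy htri
  have key : (dist x z + dist z y) ^ 2 ≤ dist x z ^ 2 / t + dist z y ^ 2 / (1 - t) := by
    rw [div_add_div _ _ ht.ne' h1.ne', le_div_iff₀ (mul_pos ht h1)]
    nlinarith [sq_nonneg ((1 - t) * dist x z - t * dist z y)]
  calc dist x y ^ 2 / 2 ≤ (dist x z ^ 2 / t + dist z y ^ 2 / (1 - t)) / 2 := by linarith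
    _ = _ := by ring

/-- (L-D): `w ∈ P_u(x)`, `0 ≤ t ≤ 1` ⟹ `t w ∈ P_{tu}(x)`. -/
theorem smul_mem_P {G : GeoData n M}
    (hstar : ∀ x, ∀ v ∈ G.K x, ∀ t : ℝ, 0 ≤ t → t ≤ 1 → t • v ∈ G.K x)
    {u : M → ℝ} {x : M} {w : TangentSpace (𝓡 n) x}
    (hw : w ∈ G.P u x) {t : ℝ} (ht : 0 ≤ t) (ht1 : t ≤ 1) :
    t • w ∈ G.P (fun z => t * u z) x := by
  obtain ⟨hK, hP⟩ := hw
  refine ⟨hstar x w hK t ht ht1, fun x' => ?_⟩
  rcases eq_or_lt_of_le ht with h0 | h0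
  · subst h0
    simp only [zero_smul, G.ex_zero, zero_mul, zero_add]
    unfold halfDistSq
    have : (0 : ℝ) ≤ dist x' x ^ 2 / 2 := by positivity
    simpa using this
  rcases eq_or_lt_of_le ht1 with h1 | h1
  · subst h1
    simpa using hP x'
  have hKt := hstar x w hK t ht ht1
  have e1 : halfDistSq x (G.ex x (t • w)) = t ^ 2 * ‖w‖ ^ 2 / 2 := by
    unfold halfDistSq
    have : dist x (G.ex x (t • w)) = ‖t • w‖ := hKt
    rw [this, norm_smul, Real.norm_eq_abs, abs_of_pos h0]; ring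
  have e2 : halfDistSq x (G.ex x w) = ‖w‖ ^ 2 / 2 := by
    unfold halfDistSq
    have : dist x (G.ex x w) = ‖w‖ := hK
    rw [this]
  have e3 : halfDistSq (G.ex x (t • w)) (G.ex x w) ≤ (1 - t) ^ 2 * ‖w‖ ^ 2 / 2 := by
    unfold halfDistSq
    have h := dist_smul_le G x w ht1
    have h' : dist (G.ex x (t • w)) (G.ex x w) ^ 2 ≤ ((1 - t) * ‖w‖) ^ 2 :=
      pow_le_pow_left₀ dist_nonneg h 2
    calc _ ≤ ((1 - t) * ‖w‖) ^ 2 / 2 := by linarith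
      _ = _ := by ring
  have h1t : 0 < 1 - t := by linarith
  have tri := half_triangle x' (G.ex x (t • w)) (G.ex x w) h0 h1
  have hp := hP x'
  rw [e2] at hp
  have e4 : halfDistSq (G.ex x (t • w)) (G.ex x w) / (1 - t) ≤ (1 - t) * ‖w‖ ^ 2 / 2 := by
    rw [div_le_iff₀ h1t]
    calc _ ≤ (1 - t) ^ 2 * ‖w‖ ^ 2 / 2 := e3
      _ = _ := by ring
  have main : u x + ‖w‖ ^ 2 / 2 ≤ u x' + halfDistSq x' (G.ex x (t • w)) / t
      + (1 - t) * ‖w‖ ^ 2 / 2 := by linarith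
  have main2 : t * u x + t ^ 2 * ‖w‖ ^ 2 / 2 ≤ t * u x' + halfDistSq x' (G.ex x (t • w)) := by
    have := mul_le_mul_of_nonneg_left main h0.le
    have e5 : t * (halfDistSq x' (G.ex x (t • w)) / t) = halfDistSq x' (G.ex x (t • w)) := by
      field_simp
    nlinarith
  rw [e1]
  exact main2

/-- (L-B): semiconvexity of `u` with every `p ∈ H_u(x)` as a subgradient. -/
theorem H_support {G : GeoData n M} {C₁ : ℝ}
    (hsc : ∀ x, ∀ v ∈ G.K x, ∀ ξ : TangentSpace (𝓡 n) x,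
      halfDistSq (G.ex x ξ) (G.ex x v) ≤ halfDistSq x (G.ex x v) - inner ℝ v ξ + C₁ * ‖ξ‖ ^ 2)
    {u : M → ℝ} {x : M} {p : TangentSpace (𝓡 n) x} (hp : p ∈ G.H u x)
    (ξ : TangentSpace (𝓡 n) x) :
    u x + inner ℝ p ξ - C₁ * ‖ξ‖ ^ 2 ≤ u (G.ex x ξ) := by
  have hconv : Convex ℝ {p : TangentSpace (𝓡 n) x | u x + inner ℝ p ξ - C₁ * ‖ξ‖ ^ 2 ≤ u (G.ex x ξ)} := by
    have : {p : TangentSpace (𝓡 n) x | u x + inner ℝ p ξ - C₁ * ‖ξ‖ ^ 2 ≤ u (G.ex x ξ)} =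
        {p : TangentSpace (𝓡 n) x | inner ℝ p ξ ≤ u (G.ex x ξ) - u x + C₁ * ‖ξ‖ ^ 2} := by
      ext p; constructor <;> intro h <;> simp only [mem_ofPred_eq] at h ⊢ <;> linarith
    rw [this]
    intro a ha b hb s t hs ht hst
    simp only [mem_ofPred_eq] at ha hb ⊢
    rw [inner_add_left, real_inner_smul_left, real_inner_smul_left]
    calc s * inner ℝ a ξ + t * inner ℝ b ξ
        ≤ s * (u (G.ex x ξ) - u x + C₁ * ‖ξ‖ ^ 2) + t * (u (G.ex x ξ) - u x + C₁ * ‖ξ‖ ^ 2) :=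
          add_le_add (mul_le_mul_of_nonneg_left ha hs) (mul_le_mul_of_nonneg_left hb ht)
      _ = u (G.ex x ξ) - u x + C₁ * ‖ξ‖ ^ 2 := by rw [← add_mul, hst, one_mul]
  have hsub : G.P u x ⊆ {p : TangentSpace (𝓡 n) x | u x + inner ℝ p ξ - C₁ * ‖ξ‖ ^ 2 ≤ u (G.ex x ξ)} := by
    intro v hv
    obtain ⟨hK, hP⟩ := hv
    have h1 := hP (G.ex x ξ)
    have h2 := hsc x v hK ξ
    simp only [mem_ofPred_eq]
    linarith
  exact convexHull_min hsub hconv hp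

/-- norms of elements of `H_u(x)` are bounded by a diameter bound. -/
theorem norm_H_le {G : GeoData n M} {D : ℝ} (hD : ∀ x y : M, dist x y ≤ D)
    {u : M → ℝ} {x : M} {p : TangentSpace (𝓡 n) x} (hp : p ∈ G.H u x) : ‖p‖ ≤ D := by
  have hsub : G.P u x ⊆ Metric.closedBall (0 : TangentSpace (𝓡 n) x) D := by
    intro v hv
    have : dist x (G.ex x v) = ‖v‖ := hv.1
    simp only [mem_closedBall_zero_iff]
    rw [← this]; exact hD _ _
  have := convexHull_min hsub (convex_closedBall _ _) hp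
  simpa using this

/-- real arithmetic used in `inj_small`. -/
theorem real_aux {C₁ ε a b i j d A B : ℝ} (hε : 0 < ε) (hb : ε * (8 * C₁) ≤ 1)
    (h1 : (ε * a) ^ 2 / 2 - ε * i + d ^ 2 / 4 ≤ A) (h2 : (ε * b) ^ 2 / 2 - ε * j + d ^ 2 / 4 ≤ B)
    (hA : A ≤ (ε * b) ^ 2 / 2) (hB : B ≤ (ε * a) ^ 2 / 2) (h : i + j ≤ 2 * C₁ * d ^ 2) : d = 0 := by
  have k1 : d ^ 2 / 2 ≤ ε * (i + j) := by
    have : ε * (i + j) = ε * i + ε * j := by ring
    linarith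
  have k2 : ε * (i + j) ≤ ε * (2 * C₁ * d ^ 2) := mul_le_mul_of_nonneg_left h hε.le
  have k3 : ε * (2 * C₁ * d ^ 2) = (ε * (8 * C₁)) * (d ^ 2 / 4) := by ring
  have k4 : (ε * (8 * C₁)) * (d ^ 2 / 4) ≤ 1 * (d ^ 2 / 4) :=
    mul_le_mul_of_nonneg_right hb (by positivity)
  have k5 : d ^ 2 ≤ 0 := by linarith
  exact pow_eq_zero_iff (two_ne_zero) |>.1 (le_antisymm k5 (sq_nonneg _))

/-- (L-E): for small `ε` (uniform in `u`!), `(x, p ∈ H_u(x)) ↦ ex x (ε p)` is injective. -/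
theorem inj_small {G : GeoData n M} (CF : CutFacts G) {D : ℝ} (hD : ∀ x y : M, dist x y ≤ D) :
    ∃ ε₀ : ℝ, 0 < ε₀ ∧ ∀ ε : ℝ, 0 < ε → ε ≤ ε₀ → ∀ u : M → ℝ, ∀ x x' : M,
      ∀ p ∈ G.H u x, ∀ p' ∈ G.H u x', G.ex x (ε • p) = G.ex x' (ε • p') →
      (⟨x, p⟩ : TangentBundle (𝓡 n) M) = ⟨x', p'⟩ := by
  obtain ⟨C₁, hC₁, hsc⟩ := CF.semiconcave
  obtain ⟨r₁, hr₁, hcn⟩ := CF.convex_near
  have hr₀ := G.r₀_pos
  refine ⟨min (1 / (8 * C₁)) (min (r₁ / (2 * (|D| + 1))) (G.r₀ / (2 * (|D| + 1)))), ?_, ?_⟩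
  · have : 0 < |D| + 1 := by positivity
    positivity
  intro ε hε hεle u x x' p hp p' hp' heq
  have hD1 : 0 < |D| + 1 := by positivity
  have hε1 : ε ≤ 1 / (8 * C₁) := hεle.trans (min_le_left _ _)
  have hε2 : ε ≤ r₁ / (2 * (|D| + 1)) := hεle.trans ((min_le_right _ _).trans (min_le_left _ _))
  have hε3 : ε ≤ G.r₀ / (2 * (|D| + 1)) := hεle.trans ((min_le_right _ _).trans (min_le_right _ _))
  have hpD : ‖p‖ ≤ |D| := (norm_H_le hD hp).trans (le_abs_self D)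
  have hpD' : ‖p'‖ ≤ |D| := (norm_H_le hD hp').trans (le_abs_self D)
  have hεp : ‖ε • p‖ = ε * ‖p‖ := by rw [norm_smul, Real.norm_eq_abs, abs_of_pos hε]
  have hεp' : ‖ε • p'‖ = ε * ‖p'‖ := by rw [norm_smul, Real.norm_eq_abs, abs_of_pos hε]
  have hb2 : ε * (2 * (|D| + 1)) ≤ r₁ := by rwa [le_div_iff₀ (by positivity)] at hε2
  have hb3 : ε * (2 * (|D| + 1)) ≤ G.r₀ := by rwa [le_div_iff₀ (by positivity)] at hε3
  have hb1 : ε * (8 * C₁) ≤ 1 := by rwa [le_div_iff₀ (by positivity)] at hε1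
  have hεpD : ε * ‖p‖ ≤ ε * |D| := mul_le_mul_of_nonneg_left hpD hε.le
  have hεpD' : ε * ‖p'‖ ≤ ε * |D| := mul_le_mul_of_nonneg_left hpD' hε.le
  -- distance bounds
  have hd1 : dist x (G.ex x (ε • p)) ≤ ε * ‖p‖ := by
    have := dist_ex_le G x (ε • p); rwa [hεp] at this
  have hd2 : dist x' (G.ex x (ε • p)) ≤ ε * ‖p'‖ := by
    rw [heq]
    have := dist_ex_le G x' (ε • p'); rwa [hεp'] at this
  have hxx' : dist x x' ≤ ε * (2 * |D|) := by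
    have := dist_triangle_right x x' (G.ex x (ε • p))
    linarith
  have hεe : 0 < ε * (|D| + 1) := by positivity
  have hsmall : ∀ a : ℝ, a ≤ |D| → ε * a < ε * (2 * (|D| + 1)) := fun a ha =>
    mul_lt_mul_of_pos_left (by linarith [abs_nonneg D]) hε
  obtain ⟨ξ, hξ, hξn⟩ := G.surj x x'
  obtain ⟨ξ', hξ', hξn'⟩ := G.surj x' x
  rw [dist_comm] at hξn'
  have hdr : dist x x' ≤ r₁ := hxx'.trans ((mul_le_mul_of_nonneg_left (by linarith) hε.le).trans hb2)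
  have hn1 : ‖ε • p‖ ≤ r₁ := hεp.le.trans ((hsmall _ hpD).le.trans hb2)
  have hn2 : ‖ε • p'‖ ≤ r₁ := hεp'.le.trans ((hsmall _ hpD').le.trans hb2)
  have A := hcn x (ε • p) ξ hn1 (by rw [hξn]; exact hdr)
  have B := hcn x' (ε • p') ξ' hn2 (by rw [hξn']; exact hdr)
  rw [hξ] at A
  rw [hξ', ← heq] at B
  have S1 := H_support hsc hp ξ
  have S2 := H_support hsc hp' ξ'
  rw [hξ] at S1
  rw [hξ'] at S2
  have U1 : halfDistSq x' (G.ex x (ε • p)) ≤ (ε * ‖p'‖) ^ 2 / 2 := by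
    unfold halfDistSq
    have := pow_le_pow_left₀ dist_nonneg hd2 2
    linarith
  have U2 : halfDistSq x (G.ex x (ε • p)) ≤ (ε * ‖p‖) ^ 2 / 2 := by
    unfold halfDistSq
    have := pow_le_pow_left₀ dist_nonneg hd1 2
    linarith
  rw [hεp, real_inner_smul_left, hξn] at A
  rw [hεp', real_inner_smul_left, hξn'] at B
  rw [hξn] at S1
  rw [hξn'] at S2
  have hd0 : dist x x' = 0 :=
    real_aux hε hb1 A B U1 U2 (by linarith)
  have hxeq : x = x' := dist_eq_zero.1 hd0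
  subst hxeq
  have hlt1 : ‖ε • p‖ < G.r₀ := hεp.le.trans_lt ((hsmall _ hpD).trans_le hb3)
  have hlt2 : ‖ε • p'‖ < G.r₀ := hεp'.le.trans_lt ((hsmall _ hpD').trans_le hb3)
  have hpp := G.inj x (ε • p) (ε • p') hlt1 hlt2 heq
  have : p = p' := smul_right_injective _ hε.ne' hpp
  rw [this]

/-- field `LE` of `DFacts`. -/
theorem LE_field [CompactSpace M] {G : GeoData n M} (CF : CutFacts G) :
    ∃ ε₀ : ℝ, 0 < ε₀ ∧ ∀ u : M → ℝ, CConv u → ∀ ε : ℝ, 0 < ε → ε ≤ ε₀ →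
    ∀ p q : TangentBundle (𝓡 n) M, p.2 ∈ G.H u p.1 → q.2 ∈ G.H u q.1 →
    G.ex p.1 (ε • p.2) = G.ex q.1 (ε • q.2) → p = q := by
  have hb : Bornology.IsBounded (univ : Set M) := isCompact_univ.isBounded
  have hD : ∀ x y : M, dist x y ≤ Metric.diam (univ : Set M) := fun x y =>
    Metric.dist_le_diam_of_mem hb (mem_univ _) (mem_univ _)
  obtain ⟨ε₀, hε₀, h⟩ := inj_small CF hD
  exact ⟨ε₀, hε₀, fun u _ ε hε hle p q hp hq he => h ε hε hle u p.1 q.1 p.2 hp q.2 hq he⟩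

/-- field `LB` of `DFacts`. -/
theorem LB_field {G : GeoData n M} (CF : CutFacts G) :
    ∃ C₁ : ℝ, 0 < C₁ ∧ ∀ u : M → ℝ, ∀ x : M, ∀ p ∈ G.H u x, ∀ ξ : TangentSpace (𝓡 n) x,
      u x + inner ℝ p ξ - C₁ * ‖ξ‖ ^ 2 ≤ u (G.ex x ξ) := by
  obtain ⟨C₁, hC₁, hsc⟩ := CF.semiconcave
  exact ⟨C₁, hC₁, fun u x p hp ξ => H_support hsc hp ξ⟩

/-- field `P_smul` of `DFacts`. -/
theorem P_smul_field {G : GeoData n M} (CF : CutFacts G) (u : M → ℝ) (x : M) :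
    ∀ w ∈ G.P u x, ∀ t : ℝ, 0 ≤ t → t ≤ 1 → t • w ∈ G.P (fun z => t * u z) x :=
  fun _ hw _ ht ht1 => smul_mem_P CF.star hw ht ht1

end Crest.Agent.R226.CC2229
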