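/-
R226 E1.2 (helper700): pure convex geometry for Step 1 of Theorem 1 (doc 848).
* `exists_center` : a compact convex set `C` of dimension `≤ m` has a point `c` with
  `-(1/m)(C - c) ⊆ C - c` (Helly).
* `walk` : the weak-QQ walk.
* `step1_abs` : the abstract Step 1.
-/
import Mathlib.Analysis.Convex.Radon
import Mathlib.Analysis.Convex.Combination
import Mathlib.Analysis.SpecificLimits.Basic
import Mathlib.Topology.Algebra.Module.Basic
import Mathlib.Tactic

set_option autoImplicit false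

open Set Module

namespace Crest.Agent.R226.CentGeo700

universe u

section Center

variable {V : Type u} [AddCommGroup V] [Module ℝ V] [TopologicalSpace V] [T2Space V]
  [IsTopologicalAddGroup V] [ContinuousSMul ℝ V] [FiniteDimensional ℝ V]

/-- A compact convex set of dimension `≤ m` has a point of asymmetry `≤ m`. -/
theorem exists_center {C : Set V} (hC : IsCompact C) (hconv : Convex ℝ C) (hne : C.Nonempty)
    {m : ℕ} (hm : finrank ℝ V ≤ m) (hm0 : 0 < m) :
    ∃ c ∈ C, ∀ x ∈ C, c - (1 / (m : ℝ)) • (x - c) ∈ C := by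
  classical
  set ε : ℝ := 1 / (m : ℝ) with hε
  have hmr : (0 : ℝ) < m := by exact_mod_cast hm0
  have hε0 : 0 < ε := by positivity
  let F : C → Set V := fun x => C ∩ (fun q : V => q - ε • ((x : V) - q)) ⁻¹' C
  have key : (⋂ i, F i).Nonempty := by
    refine Convex.helly_theorem_compact' (𝕜 := ℝ) ?_ ?_ ?_
    · intro x
      refine hconv.inter ?_
      intro a ha b hb s t hs ht hst
      simp only [mem_preimage] at ha hb ⊢
      have : s • a + t • b - ε • ((x : V) - (s • a + t • b))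
          = s • (a - ε • ((x : V) - a)) + t • (b - ε • ((x : V) - b)) := by
        have hx : (x : V) = s • (x : V) + t • (x : V) := by rw [← add_smul, hst, one_smul]
        calc s • a + t • b - ε • ((x : V) - (s • a + t • b))
            = s • a + t • b - ε • ((s • (x : V) + t • (x : V)) - (s • a + t • b)) := by
              rw [← hx]
          _ = s • (a - ε • ((x : V) - a)) + t • (b - ε • ((x : V) - b)) := by module
      rw [this]
      exact hconv ha hb hs ht hst
    · intro x
      refine hC.inter_right (hC.isClosed.preimage ?_)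
      fun_prop
    · intro I hI
      rcases I.eq_empty_or_nonempty with rfl | hIne
      · simp
      have hcard : (0 : ℝ) < I.card := by exact_mod_cast hIne.card_pos
      set w : ℝ := 1 / (I.card : ℝ) with hw
      have hw0 : 0 < w := by positivity
      have hwsum : ∑ _i ∈ I, w = 1 := by
        rw [Finset.sum_const, nsmul_eq_mul, hw]; field_simp
      set q : V := ∑ i ∈ I, w • (i : V) with hq
      have hqC : q ∈ C := hconv.sum_mem (fun _ _ => hw0.le) hwsum (fun i _ => i.2)
      refine ⟨q, ?_⟩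
      simp only [mem_iInter]
      intro j hj
      refine ⟨hqC, ?_⟩
      simp only [mem_preimage]
      have hsum : q - ε • ((j : V) - q)
          = ∑ i ∈ I, ((1 + ε) * w - if i = j then ε else 0) • (i : V) := by
        have h1 : ∑ i ∈ I, ((1 + ε) * w - if i = j then ε else 0) • (i : V)
            = (1 + ε) • q - ε • (j : V) := by
          simp_rw [sub_smul]
          rw [Finset.sum_sub_distrib, hq, Finset.smul_sum]
          congr 1
          · refine Finset.sum_congr rfl fun i _ => ?_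
            rw [mul_smul]
          · simp_rw [ite_smul, zero_smul]
            rw [Finset.sum_ite_eq' I j]
            simp [hj]
        rw [h1]; module
      rw [hsum]
      refine hconv.sum_mem ?_ ?_ (fun i _ => i.2)
      · intro i _
        have hcm : (I.card : ℝ) ≤ m + 1 := by
          have : I.card ≤ m + 1 := hI.trans (by omega)
          exact_mod_cast this
        have hle : ε ≤ (1 + ε) * w := by
          rw [hw, mul_one_div, le_div_iff₀ hcard]
          have : ε * (m : ℝ) = 1 := by rw [hε]; field_simp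
          nlinarith
        split_ifs
        · linarith
        · simp only [sub_zero]; positivity
      · rw [Finset.sum_sub_distrib, Finset.sum_ite_eq' I j, if_pos hj, Finset.sum_const,
          nsmul_eq_mul]
        have : (I.card : ℝ) * ((1 + ε) * w) = 1 + ε := by rw [hw]; field_simp
        rw [this]; ring
  obtain ⟨c, hc⟩ := key
  simp only [mem_iInter] at hc
  obtain ⟨x0, hx0⟩ := hne
  exact ⟨c, (hc ⟨x0, hx0⟩).1, fun x hx => (hc ⟨x, hx⟩).2⟩

end Center

section Walk

variable {V : Type u} [AddCommGroup V] [Module ℝ V]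

/-- weak quantitative quasiconvexity of `f` on `C` with constant `t₀` -/
def WQ (f : V → ℝ) (C : Set V) (t₀ : ℝ) : Prop :=
  ∀ p₀ ∈ C, ∀ p₁ ∈ C, ∀ t : ℝ, 0 ≤ t → t ≤ t₀ →
    f ((1 - t) • p₀ + t • p₁) - f p₀ ≤ max (f p₁ - f p₀) 0 / 2

theorem WQ.mono {f : V → ℝ} {C C' : Set V} {t₀ : ℝ} (h : WQ f C t₀) (hC : C' ⊆ C) :
    WQ f C' t₀ := fun p₀ h₀ p₁ h₁ t ht ht' => h p₀ (hC h₀) p₁ (hC h₁) t ht ht'

/-- The walk: from `p(s₀) = q'` to `p(1) = qx` along `p(s) = qe + s (qx - qe)`. -/
theorem walk {f : V → ℝ} {C : Set V} (hconv : Convex ℝ C) {t₀ : ℝ} (ht0 : 0 < t₀) (ht1 : t₀ < 1)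
    (hQ : WQ f C t₀) {h : ℝ} (hh : 0 ≤ h) {qe qx : V} (hqe : qe ∈ C) (hqx : qx ∈ C)
    {s₀ : ℝ} (hs0 : 0 < s₀) (hs1 : s₀ ≤ 1)
    (hup : f qe ≤ f (qe + s₀ • (qx - qe)) + h) :
    ∀ k : ℕ, ∀ s : ℝ, s₀ ≤ s → s ≤ 1 → s * (1 - t₀) ^ k ≤ s₀ →
      f (qe + s₀ • (qx - qe)) - f (qe + s • (qx - qe)) ≤ (2 ^ k - 1) * h := by
  intro k
  induction k with
  | zero =>
    intro s h1 h2 h3
    have : s = s₀ := le_antisymm (by simpa using h3) h1
    subst this; simp
  | succ k ih =>
    intro s h1 h2 h3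
    have hs : 0 < s := lt_of_lt_of_le hs0 h1
    set s1 : ℝ := max s₀ (s * (1 - t₀)) with hs1def
    have a1 : s₀ ≤ s1 := le_max_left _ _
    have a2 : s1 ≤ s := max_le h1 (by nlinarith)
    have a3 : s1 * (1 - t₀) ^ k ≤ s₀ := by
      rcases le_total s₀ (s * (1 - t₀)) with hle | hle
      · rw [hs1def, max_eq_right hle]
        calc s * (1 - t₀) * (1 - t₀) ^ k = s * (1 - t₀) ^ (k + 1) := by ring
          _ ≤ s₀ := h3
      · rw [hs1def, max_eq_left hle]
        have : (1 - t₀) ^ k ≤ 1 := pow_le_one₀ (by linarith) (by linarith)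
        nlinarith
    have b1 := ih s1 a1 (a2.trans h2) a3
    have memp : ∀ r : ℝ, 0 ≤ r → r ≤ 1 → qe + r • (qx - qe) ∈ C := by
      intro r hr0 hr1
      have := hconv hqe hqx (a := 1 - r) (b := r) (by linarith) hr0 (by ring)
      convert this using 1
      module
    set t : ℝ := 1 - s1 / s with ht
    have ht00 : 0 ≤ t := by
      have : s1 / s ≤ 1 := by rw [div_le_one hs]; exact a2
      linarith
    have htt : t ≤ t₀ := by
      have : 1 - t₀ ≤ s1 / s := by
        rw [le_div_iff₀ hs]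
        have := le_max_right s₀ (s * (1 - t₀))
        linarith
      linarith
    have hq := hQ (qe + s • (qx - qe)) (memp s hs.le h2) qe hqe t ht00 htt
    have hpt : (1 - t) • (qe + s • (qx - qe)) + t • qe = qe + s1 • (qx - qe) := by
      have e1 : (1 - t) * s = s1 := by rw [ht]; field_simp; ring
      calc (1 - t) • (qe + s • (qx - qe)) + t • qe
          = qe + ((1 - t) * s) • (qx - qe) := by module
        _ = _ := by rw [e1]
    rw [hpt] at hq
    set A := f (qe + s₀ • (qx - qe)) with hA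
    set B := f (qe + s • (qx - qe)) with hB
    set B1 := f (qe + s1 • (qx - qe)) with hB1
    have h2k : (2 : ℝ) ^ (k + 1) = 2 * 2 ^ k := by ring
    have h2k1 : (1 : ℝ) ≤ 2 ^ k := one_le_pow₀ (by norm_num)
    rcases le_total (f qe - B) 0 with hneg | hpos
    · rw [max_eq_right hneg] at hq
      rw [h2k]; nlinarith
    · rw [max_eq_left hpos] at hq
      rw [h2k]; nlinarith

end Walk

section Abs

/-- the constant of Step 1: number of steps -/
theorem exists_steps (m : ℕ) (hm : 0 < m) {t₀ : ℝ} (ht0 : 0 < t₀) (ht1 : t₀ < 1) :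
    ∃ k : ℕ, (1 - t₀) ^ k ≤ (1 / (2 * (m : ℝ))) / (1 + 1 / (2 * (m : ℝ))) := by
  have hmr : (0 : ℝ) < m := by exact_mod_cast hm
  have hpos : 0 < (1 / (2 * (m : ℝ))) / (1 + 1 / (2 * (m : ℝ))) := by positivity
  obtain ⟨k, hk⟩ := exists_pow_lt_of_lt_one hpos (show (1 - t₀) < 1 by linarith)
  exact ⟨k, hk.le⟩

variable {V : Type u} [AddCommGroup V] [Module ℝ V]

/-- Step 1 from a point `c` of asymmetry `≤ m`; `f` satisfies weak QQ on `C`, and its values on `C`
do not exceed the value at an inner point `c + (1/4)(z - c)` by more than `h`. -/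
theorem step1_of_center {C : Set V} (hconv : Convex ℝ C) {m : ℕ} (hm : 0 < m) {c : V}
    (hcC : c ∈ C) (hc : ∀ x ∈ C, c - (1 / (m : ℝ)) • (x - c) ∈ C) {t₀ : ℝ} (ht0 : 0 < t₀)
    (ht1 : t₀ < 1) {k : ℕ}
    (hk : (1 - t₀) ^ k ≤ (1 / (2 * (m : ℝ))) / (1 + 1 / (2 * (m : ℝ)))) {f : V → ℝ}
    (hQ : WQ f C t₀) {h : ℝ} (hh : 0 ≤ h) {z : V} (hz : z ∈ C)
    (hup : ∀ q ∈ C, f q ≤ f (c + (1 / 4 : ℝ) • (z - c)) + h) {q : V} (hq : q ∈ C) :
    f (c + (1 / 4 : ℝ) • (z - c)) - f q ≤ (2 ^ k - 1) * h := by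
  have hmr : (0 : ℝ) < m := by exact_mod_cast hm
  have hmr1 : (1 : ℝ) ≤ m := by exact_mod_cast hm
  set κ : ℝ := 1 / (2 * (m : ℝ)) with hκ
  have hκ0 : 0 < κ := by positivity
  have hκm : κ * m = 1 / 2 := by rw [hκ]; field_simp
  have hκ1 : κ ≤ 1 / 2 := by nlinarith
  set q' : V := c + (1 / 4 : ℝ) • (z - c) with hq'
  -- the exit point
  set qe : V := (1 + κ) • q' - κ • q with hqe
  have hqeC : qe ∈ C := by
    -- `qe - c = (1+κ)/4 (z - c) + κ m (-(1/m)(q - c))`
    have hy := hc q hq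
    set y : V := c - (1 / (m : ℝ)) • (q - c) with hydef
    have hsum := hconv.sum_mem (t := (Finset.univ : Finset (Fin 3)))
      (w := ![1 - (1 + κ) / 4 - κ * m, (1 + κ) / 4, κ * m]) (z := ![c, z, y]) ?_ ?_ ?_
    · convert hsum using 1
      simp only [Fin.sum_univ_three, Matrix.cons_val_zero, Matrix.cons_val_one,
        Matrix.cons_val_two, Matrix.head_cons, Matrix.tail_cons, Matrix.cons_val]
      rw [hydef, hqe, hq']
      have e : (κ * (m : ℝ)) • (c - (1 / (m : ℝ)) • (q - c))
          = (κ * (m : ℝ)) • c - κ • (q - c) := by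
        rw [smul_sub, smul_smul]
        congr 2
        field_simp
      rw [e]
      module
    · intro i _
      fin_cases i
      · show (0 : ℝ) ≤ 1 - (1 + κ) / 4 - κ * m
        rw [hκm]; linarith
      · show (0 : ℝ) ≤ (1 + κ) / 4
        positivity
      · show (0 : ℝ) ≤ κ * m
        exact mul_nonneg hκ0.le hmr.le
    · simp only [Fin.sum_univ_three, Matrix.cons_val_zero, Matrix.cons_val_one, Matrix.cons_val]
      ring
    · intro i _
      fin_cases i
      · simpa using hcC
      · simpa using hz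
      · simpa using hy
  set s₀ : ℝ := κ / (1 + κ) with hs₀
  have hs00 : 0 < s₀ := by positivity
  have hs01 : s₀ ≤ 1 := by rw [hs₀, div_le_one (by positivity)]; linarith
  have hqs : qe + s₀ • (q - qe) = q' := by
    have e2 : s₀ * (1 + κ) = κ := by rw [hs₀]; field_simp
    have e3 : (1 - s₀) * (1 + κ) = 1 := by linarith
    have e4 : s₀ - (1 - s₀) * κ = 0 := by linarith
    calc qe + s₀ • (q - qe) = ((1 - s₀) * (1 + κ)) • q' + (s₀ - (1 - s₀) * κ) • q := by
          rw [hqe]; module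
      _ = q' := by rw [e3, e4]; simp
  have hw := walk hconv ht0 ht1 hQ hh hqeC hq hs00 hs01 (by rw [hqs]; exact hup qe hqeC) k 1
    hs01 le_rfl (by rw [one_mul]; exact hk)
  rw [hqs] at hw
  convert hw using 3
  rw [one_smul]; abel

end Abs

section Main

/-- **Abstract Step 1.**  A constant depending only on the dimension bound `m` and on `t₀`. -/
theorem step1_abs (m : ℕ) (hm : 0 < m) {t₀ : ℝ} (ht0 : 0 < t₀) (ht1 : t₀ < 1) :
    ∃ C₁ : ℝ, 1 ≤ C₁ ∧ ∀ (V : Type u) [AddCommGroup V] [Module ℝ V] [TopologicalSpace V]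
      [T2Space V] [IsTopologicalAddGroup V] [ContinuousSMul ℝ V] [FiniteDimensional ℝ V],
      finrank ℝ V ≤ m → ∀ C : Set V, IsCompact C → Convex ℝ C → C.Nonempty →
      ∃ c ∈ C, ∀ (f : V → ℝ) (h : ℝ), 0 ≤ h → WQ f C t₀ → ∀ z ∈ C,
        (∀ q ∈ C, f q ≤ f (c + (1 / 4 : ℝ) • (z - c)) + h) →
        ∀ q ∈ C, |f q - f (c + (1 / 4 : ℝ) • (z - c))| ≤ C₁ * h := by
  obtain ⟨k, hk⟩ := exists_steps m hm ht0 ht1
  refine ⟨2 ^ k, one_le_pow₀ (by norm_num), ?_⟩
  intro V _ _ _ _ _ _ _ hV C hC hconv hne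
  obtain ⟨c, hcC, hc⟩ := exists_center hC hconv hne hV hm
  refine ⟨c, hcC, ?_⟩
  intro f h hh hQ z hz hup q hq
  have h1 := step1_of_center hconv hm hcC hc ht0 ht1 hk hQ hh hz hup hq
  have h2 := hup q hq
  have h3 : (1 : ℝ) ≤ 2 ^ k := one_le_pow₀ (by norm_num)
  rw [abs_le]
  constructor <;> nlinarith

end Main

end Crest.Agent.R226.CentGeo700
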