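import Crest.Agent.R226.CutFacts_484
import Crest.Agent.R226.DiffAE_225
import Crest.Agent.R226.MTWConc_117
import Crest.Agent.R226.EucMin_77

/-!
R226 (helper77), layer C1: the cost `c = d²/2` in charts.
-/

set_option autoImplicit false

open Bundle Set Filter Topology
open scoped Manifold ContDiff
open Crest.GeometryTopology.MTW
open Crest.Agent.R226.DiffAE225 Crest.Agent.R226.EucMin77 Crest.Agent.R226.MTWConc117

namespace Crest.Agent.R226.ChartCost77

section chart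
variable {n : ℕ} {M : Type*} [MetricSpace M] [ChartedSpace (EuclideanSpace ℝ (Fin n)) M]

/-- the cost in the charts at `x₀`, `y₀` -/
noncomputable def cc (x₀ y₀ : M) (p : EE n × EE n) : ℝ :=
  halfDistSq ((extChartAt (𝓡 n) x₀).symm p.1) ((extChartAt (𝓡 n) y₀).symm p.2)

/-- centre of the chart -/
noncomputable def o (x₀ : M) : EE n := extChartAt (𝓡 n) x₀ x₀

theorem symm_o (x₀ : M) : (extChartAt (𝓡 n) x₀).symm (o x₀) = x₀ := extChartAt_to_inv x₀

theorem target_mem (x₀ : M) : (extChartAt (𝓡 n) x₀).target ∈ 𝓝 (o (n := n) x₀) :=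
  extChartAt_target_mem_nhds x₀

theorem tendsto_symm (x₀ : M) :
    Tendsto (extChartAt (𝓡 n) x₀).symm (𝓝 (o x₀)) (𝓝 x₀) := by
  have := continuousAt_extChartAt_symm (I := 𝓡 n) x₀
  have h2 : Tendsto (extChartAt (𝓡 n) x₀).symm (𝓝 (o x₀))
    (𝓝 ((extChartAt (𝓡 n) x₀).symm (o x₀))) := this
  rwa [symm_o] at h2

theorem tendsto_chart (x₀ : M) :
    Tendsto (extChartAt (𝓡 n) x₀) (𝓝 x₀) (𝓝 (o x₀)) :=
  continuousAt_extChartAt (I := 𝓡 n) x₀

theorem cc_o (x₀ y₀ : M) : cc (n := n) x₀ y₀ (o x₀, o y₀) = halfDistSq x₀ y₀ := by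
  unfold cc; simp only [symm_o]

variable [IsManifold (𝓡 n) ∞ M]

theorem contMDiffAt_symm (x₀ : M) :
    ContMDiffAt 𝓘(ℝ, EE n) (𝓡 n) ∞ (extChartAt (𝓡 n) x₀).symm (o x₀) :=
  (contMDiffOn_extChartAt_symm x₀).contMDiffAt (target_mem x₀)

/-- smoothness of the cost read in charts -/
theorem cc_contDiffAt {x₀ y₀ : M}
    (h : ContMDiffAt ((𝓡 n).prod (𝓡 n)) 𝓘(ℝ) ∞ (fun q : M × M => halfDistSq q.1 q.2) (x₀, y₀)) :
    ContDiffAt ℝ ∞ (cc (n := n) x₀ y₀) (o x₀, o y₀) := by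
  rw [← contMDiffAt_iff_contDiffAt]
  have h1 : ContMDiffAt 𝓘(ℝ, EE n × EE n) (𝓡 n) ∞
      (fun p : EE n × EE n => (extChartAt (𝓡 n) x₀).symm p.1) (o x₀, o y₀) :=
    ContMDiffAt.comp (o x₀, o y₀) (g := (extChartAt (𝓡 n) x₀).symm) (f := Prod.fst)
      (contMDiffAt_symm x₀) contDiff_fst.contMDiff.contMDiffAt
  have h2 : ContMDiffAt 𝓘(ℝ, EE n × EE n) (𝓡 n) ∞
      (fun p : EE n × EE n => (extChartAt (𝓡 n) y₀).symm p.2) (o x₀, o y₀) :=
    ContMDiffAt.comp (o x₀, o y₀) (g := (extChartAt (𝓡 n) y₀).symm) (f := Prod.snd)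
      (contMDiffAt_symm y₀) contDiff_snd.contMDiff.contMDiffAt
  have h3 := h1.prodMk h2
  have h4 : ((extChartAt (𝓡 n) x₀).symm (o x₀), (extChartAt (𝓡 n) y₀).symm (o y₀)) = (x₀, y₀) := by
    simp only [symm_o]
  have h5 : ContMDiffAt ((𝓡 n).prod (𝓡 n)) 𝓘(ℝ) ∞ (fun q : M × M => halfDistSq q.1 q.2)
      ((extChartAt (𝓡 n) x₀).symm (o x₀), (extChartAt (𝓡 n) y₀).symm (o y₀)) := by rwa [h4]
  exact ContMDiffAt.comp (o x₀, o y₀) h5 h3

/-- conversely, the cost is smooth if it is smooth in charts -/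
theorem contMDiffAt_of_cc {x₀ y₀ : M} (h : ContDiffAt ℝ ∞ (cc (n := n) x₀ y₀) (o x₀, o y₀)) :
    ContMDiffAt ((𝓡 n).prod (𝓡 n)) 𝓘(ℝ) ∞ (fun q : M × M => halfDistSq q.1 q.2) (x₀, y₀) := by
  have h1 : ContMDiffAt ((𝓡 n).prod (𝓡 n)) 𝓘(ℝ, EE n) ∞
      (fun q : M × M => extChartAt (𝓡 n) x₀ q.1) (x₀, y₀) :=
    ContMDiffAt.comp (x₀, y₀) (g := extChartAt (𝓡 n) x₀) (f := Prod.fst)
      contMDiffAt_extChartAt contMDiffAt_fst
  have h2 : ContMDiffAt ((𝓡 n).prod (𝓡 n)) 𝓘(ℝ, EE n) ∞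
      (fun q : M × M => extChartAt (𝓡 n) y₀ q.2) (x₀, y₀) :=
    ContMDiffAt.comp (x₀, y₀) (g := extChartAt (𝓡 n) y₀) (f := Prod.snd)
      contMDiffAt_extChartAt contMDiffAt_snd
  have h3 : ContMDiffAt ((𝓡 n).prod (𝓡 n)) 𝓘(ℝ, EE n × EE n) ∞
      (fun q : M × M => (extChartAt (𝓡 n) x₀ q.1, extChartAt (𝓡 n) y₀ q.2)) (x₀, y₀) :=
    h1.prodMk_space h2
  have h4 : ContMDiffAt 𝓘(ℝ, EE n × EE n) 𝓘(ℝ) ∞ (cc (n := n) x₀ y₀) (o x₀, o y₀) :=
    contMDiffAt_iff_contDiffAt.2 h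
  have h5 := ContMDiffAt.comp (x₀, y₀) (g := cc (n := n) x₀ y₀)
    (f := fun q : M × M => (extChartAt (𝓡 n) x₀ q.1, extChartAt (𝓡 n) y₀ q.2)) h4 h3
  refine h5.congr_of_eventuallyEq ?_
  have hx : ∀ᶠ q : M × M in 𝓝 (x₀, y₀), q.1 ∈ (extChartAt (𝓡 n) x₀).source :=
    continuousAt_fst.eventually (extChartAt_source_mem_nhds (I := 𝓡 n) x₀)
  have hy : ∀ᶠ q : M × M in 𝓝 (x₀, y₀), q.2 ∈ (extChartAt (𝓡 n) y₀).source :=
    continuousAt_snd.eventually (extChartAt_source_mem_nhds (I := 𝓡 n) y₀)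
  filter_upwards [hx, hy] with q hq1 hq2
  simp only [Function.comp_apply, cc, (extChartAt (𝓡 n) x₀).left_inv hq1,
    (extChartAt (𝓡 n) y₀).left_inv hq2]

end chart

section geo
variable {n : ℕ} {M : Type*} [MetricSpace M] [ChartedSpace (EuclideanSpace ℝ (Fin n)) M]
  [IsManifold (𝓡 n) ∞ M]
  [RiemannianBundle (fun p : M => TangentSpace (𝓡 n) p)]
variable (G : GeoData n M)

/-- velocity of a curve in the chart -/
theorem hasDerivAt_chart_curve {γ : ℝ → M} {t₀ : ℝ} (hγ : MDifferentiableAt 𝓘(ℝ) (𝓡 n) γ t₀) :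
    HasDerivAt (fun t : ℝ => extChartAt (𝓡 n) (γ t₀) (γ t)) (curveVel n γ t₀ : EE n) t₀ := by
  have h0 := hγ.hasMFDerivAt.2
  simp only [writtenInExtChartAt, extChartAt_model_space_eq_id, PartialEquiv.refl_symm,
    PartialEquiv.refl_coe, Function.comp_id, id_eq, modelWithCornersSelf_coe, range_id] at h0
  let L : ℝ →L[ℝ] EE n := mfderiv 𝓘(ℝ) (𝓡 n) γ t₀
  have h1 : HasFDerivAt (𝕜 := ℝ) (E := ℝ) (F := EE n)
      (fun t : ℝ => extChartAt (𝓡 n) (γ t₀) (γ t)) L t₀ := hasFDerivWithinAt_univ.1 h0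
  exact h1.hasDerivAt

/-- the radial curve in the chart at its origin -/
theorem hasDerivAt_chart_radial (x : M) (ξ : TangentSpace (𝓡 n) x) :
    HasDerivAt (fun t : ℝ => extChartAt (𝓡 n) x (G.ex x (t • ξ))) (ξ : EE n) 0 := by
  have h1 : MDifferentiableAt 𝓘(ℝ) (𝓡 n) (fun t : ℝ => G.ex x (t • ξ)) 0 :=
    (contMDiff_radial G x ξ).mdifferentiable (by simp) 0
  have h2 := hasDerivAt_chart_curve h1
  rw [G.vel_zero x ξ] at h2
  have h3 : G.ex x ((0 : ℝ) • ξ) = x := by rw [zero_smul, G.ex_zero]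
  simp only [h3] at h2
  exact h2

/-- **gradient of the cost in a chart**: if the cost read in charts is differentiable at
`(o z, b)` then its first partial derivative is `-⟨w, ·⟩_z` for every minimiser `w`. -/
theorem fderiv_cc_fst {z y : M} {b : EE n} (hd : DifferentiableAt ℝ (cc (n := n) z y) (o z, b))
    {w : TangentSpace (𝓡 n) z} (hw : w ∈ G.K z)
    (hwb : G.ex z w = (extChartAt (𝓡 n) y).symm b) (ξ : TangentSpace (𝓡 n) z) :
    fderiv ℝ (cc (n := n) z y) (o z, b) ((ξ : EE n), (0 : EE n)) = -inner ℝ w ξ := by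
  -- the curve in coordinates
  have h1 := hasDerivAt_chart_radial G z ξ
  have h2 : HasDerivAt (fun t : ℝ => (extChartAt (𝓡 n) z (G.ex z (t • ξ)), b))
      ((ξ : EE n), (0 : EE n)) 0 := h1.prodMk (hasDerivAt_const _ _)
  have h3 : (extChartAt (𝓡 n) z (G.ex z ((0 : ℝ) • ξ)), b) = (o z, b) := by
    rw [zero_smul, G.ex_zero]; rfl
  have h4 : HasFDerivAt (cc (n := n) z y) (fderiv ℝ (cc (n := n) z y) (o z, b))
      (extChartAt (𝓡 n) z (G.ex z ((0 : ℝ) • ξ)), b) := by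
    rw [h3]; exact hd.hasFDerivAt
  have h5 := h4.comp_hasDerivAt (0 : ℝ) h2
  have h6 : HasDerivAt (fun t : ℝ => -halfDistSq (G.ex z (t • ξ)) (G.ex z w))
      (-fderiv ℝ (cc (n := n) z y) (o z, b) ((ξ : EE n), (0 : EE n))) 0 := by
    refine h5.neg.congr_of_eventuallyEq ?_
    have hc : ContinuousAt (fun t : ℝ => G.ex z (t • ξ)) 0 :=
      (contMDiff_radial G z ξ).continuous.continuousAt
    have hs : ∀ᶠ t : ℝ in 𝓝 0, G.ex z (t • ξ) ∈ (extChartAt (𝓡 n) z).source := by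
      apply hc.eventually
      simp only [zero_smul, G.ex_zero]
      exact extChartAt_source_mem_nhds (I := 𝓡 n) z
    filter_upwards [hs] with t ht
    simp only [cc, Pi.neg_apply, Function.comp_apply, (extChartAt (𝓡 n) z).left_inv ht, hwb]
  have hP : w ∈ G.P (fun x' => -halfDistSq x' (G.ex z w)) z := by
    refine ⟨hw, fun x' => ?_⟩
    simp
  have h7 := deriv_eq_inner G hP h6
  linarith

/-- the exponential map of the fibre over `z`, read in the chart at `y` -/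
noncomputable def ec (z y : M) (w : TangentSpace (𝓡 n) z) : EE n :=
  extChartAt (𝓡 n) y (G.ex z w)

theorem ec_contDiffAt (z : M) (w : TangentSpace (𝓡 n) z) :
    ContDiffAt ℝ ∞ (ec G z (G.ex z w)) w := by
  rw [← contMDiffAt_iff_contDiffAt]
  exact ContMDiffAt.comp w (g := extChartAt (𝓡 n) (G.ex z w)) (f := G.ex z)
    contMDiffAt_extChartAt ((contMDiff_ex G z).contMDiffAt)

/-- Riesz representation in the fibre over `z`, as functionals on the model space. -/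
theorem exists_riesz (z : M) : ∃ e : TangentSpace (𝓡 n) z ≃ₗ[ℝ] (EE n →L[ℝ] ℝ),
    ∀ w ξ : TangentSpace (𝓡 n) z, e w (ξ : EE n) = inner ℝ w ξ := by
  let J0 : TangentSpace (𝓡 n) z →ₗ[ℝ] EE n →ₗ[ℝ] ℝ :=
    LinearMap.mk₂ ℝ (fun (w : TangentSpace (𝓡 n) z) (ξ : EE n) =>
      (inner ℝ w (ξ : TangentSpace (𝓡 n) z) : ℝ))
      (fun a b c => inner_add_left (𝕜 := ℝ) (E := TangentSpace (𝓡 n) z) a b c)
      (fun r a c => real_inner_smul_left (F := TangentSpace (𝓡 n) z) a c r)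
      (fun a b c => inner_add_right (𝕜 := ℝ) (E := TangentSpace (𝓡 n) z) a b c)
      (fun r a c => real_inner_smul_right (F := TangentSpace (𝓡 n) z) a c r)
  let J : TangentSpace (𝓡 n) z →ₗ[ℝ] (EE n →L[ℝ] ℝ) :=
    (LinearMap.toContinuousLinearMap (𝕜 := ℝ) (E := EE n) (F' := ℝ)).toLinearMap ∘ₗ J0
  have hJ : ∀ w ξ : TangentSpace (𝓡 n) z, J w (ξ : EE n) = inner ℝ w ξ := fun w ξ => rfl
  have hinj : Function.Injective J := by
    rw [injective_iff_map_eq_zero]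
    intro w hw
    have h1 := hJ w w
    rw [hw] at h1
    exact inner_self_eq_zero.1 (h1.symm.trans rfl)
  have hfin : Module.finrank ℝ (TangentSpace (𝓡 n) z) = Module.finrank ℝ (EE n →L[ℝ] ℝ) := by
    have h1 : Module.finrank ℝ (EE n) = Module.finrank ℝ (EE n →L[ℝ] ℝ) := by
      rw [← (LinearMap.toContinuousLinearMap (𝕜 := ℝ) (E := EE n) (F' := ℝ)).finrank_eq]
      exact (Subspace.dual_finrank_eq (K := ℝ) (V := EE n)).symm
    exact h1
  haveI : FiniteDimensional ℝ (TangentSpace (𝓡 n) z) :=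
    inferInstanceAs (FiniteDimensional ℝ (EE n))
  exact ⟨LinearEquiv.ofInjectiveOfFinrankEq J hinj hfin, fun w ξ => hJ w ξ⟩

/-- **nondegeneracy**: where the cost is smooth, `exp_z` has a differentiable right inverse. -/
theorem exists_right_inverse {z : M} {w : TangentSpace (𝓡 n) z} (hw : w ∈ G.K z)
    (hs : ContDiffAt ℝ ∞ (cc (n := n) z (G.ex z w)) (o z, o (G.ex z w))) :
    ∃ S : EE n →L[ℝ] TangentSpace (𝓡 n) z,
      (∀ k, fderiv ℝ (ec G z (G.ex z w)) w (S k) = k) ∧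
      ∀ (k : EE n) (ξ : TangentSpace (𝓡 n) z), inner ℝ (S k) ξ =
        -fderiv ℝ (fderiv ℝ (cc (n := n) z (G.ex z w))) (o z, o (G.ex z w)) (0, k)
          ((ξ : EE n), (0 : EE n)) := by
  set y := G.ex z w with hy
  set f := cc (n := n) z y with hf
  have : FiniteDimensional ℝ (TangentSpace (𝓡 n) z) :=
    inferInstanceAs (FiniteDimensional ℝ (EE n))
  obtain ⟨e, he⟩ := exists_riesz (n := n) z
  let ec' : (EE n →L[ℝ] ℝ) →L[ℝ] TangentSpace (𝓡 n) z :=
    LinearMap.toContinuousLinearMap e.symm.toLinearMap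
  let cl : ((EE n × EE n) →L[ℝ] ℝ) →L[ℝ] (EE n →L[ℝ] ℝ) :=
    (ContinuousLinearMap.compL ℝ (EE n) (EE n × EE n) ℝ).flip
      (ContinuousLinearMap.inl ℝ (EE n) (EE n))
  let W : EE n → TangentSpace (𝓡 n) z := fun b => -(ec' (cl (fderiv ℝ f (o z, b))))
  let D2 := fderiv ℝ (fderiv ℝ f) (o z, o y)
  let W' : EE n →L[ℝ] TangentSpace (𝓡 n) z :=
    -(ec' ∘L cl ∘L D2 ∘L ContinuousLinearMap.inr ℝ (EE n) (EE n))
  -- derivative of `W`
  have h1 : HasFDerivAt (fderiv ℝ f) D2 (o z, o y) :=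
    ((hs.fderiv_right (m := ∞) (by simp)).differentiableAt (by simp)).hasFDerivAt
  have h2 : HasFDerivAt (fun b : EE n => ((o z : EE n), b))
      (ContinuousLinearMap.inr ℝ (EE n) (EE n)) (o y) := hasFDerivAt_prodMk_right _ _
  have h3 : HasFDerivAt (fun b : EE n => fderiv ℝ f (o z, b))
      (D2 ∘L ContinuousLinearMap.inr ℝ (EE n) (EE n)) (o y) := h1.comp (o y) h2
  have hW : HasFDerivAt W W' (o y) :=
    (ec'.hasFDerivAt.comp (o y) (cl.hasFDerivAt.comp (o y) h3)).neg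
  -- `W b` is a minimiser
  have hW1 : ∀ b, DifferentiableAt ℝ f (o z, b) → ∀ w' ∈ G.K z,
      G.ex z w' = (extChartAt (𝓡 n) y).symm b → W b = w' := by
    intro b hb w' hw' hwb
    have h5 : e w' = -(cl (fderiv ℝ f (o z, b))) := by
      ext ξ
      rw [he w' ξ]
      have := fderiv_cc_fst G hb hw' hwb ξ
      show _ = -(fderiv ℝ f (o z, b) (ξ, 0))
      rw [this, neg_neg]
    have h6 : w' = e.symm (-(cl (fderiv ℝ f (o z, b)))) := by
      rw [← h5, LinearEquiv.symm_apply_apply]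
    rw [h6, map_neg]
    rfl
  have hdiff : ∀ᶠ b in 𝓝 (o (n := n) y), DifferentiableAt ℝ f (o z, b) := by
    have h7 : ∀ᶠ p in 𝓝 ((o z : EE n), (o y : EE n)), DifferentiableAt ℝ f p := by
      have := (hs.of_le (m := 1) (by exact_mod_cast le_top)).eventually (by simp)
      filter_upwards [this] with x hx using hx.differentiableAt (by simp)
    have h8 : Tendsto (fun b : EE n => ((o z : EE n), b)) (𝓝 (o y)) (𝓝 ((o z : EE n), (o y : EE n))) :=
      (Continuous.prodMk_right (o z)).tendsto _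
    exact h8.eventually h7
  have hWw : W (o y) = w := by
    apply hW1 (o y) hdiff.self_of_nhds w hw
    rw [symm_o]
  have hid : (fun b => ec G z y (W b)) =ᶠ[𝓝 (o y)] fun b => b := by
    filter_upwards [hdiff, target_mem (n := n) y] with b hb hbt
    obtain ⟨w', hw', hw'n⟩ := G.surj z ((extChartAt (𝓡 n) y).symm b)
    have hK : w' ∈ G.K z := by
      show dist z (G.ex z w') = ‖w'‖
      rw [hw', hw'n]
    rw [hW1 b hb w' hK hw']
    unfold ec
    rw [hw', (extChartAt (𝓡 n) y).right_inv hbt]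
  have hec : HasFDerivAt (ec G z y) (fderiv ℝ (ec G z y) w) (W (o y)) := by
    rw [hWw]
    exact ((ec_contDiffAt G z w).differentiableAt (by simp)).hasFDerivAt
  have hcomp := hec.comp (o y) hW
  have hidd : HasFDerivAt (fun b => ec G z y (W b)) (ContinuousLinearMap.id ℝ (EE n)) (o y) :=
    (hasFDerivAt_id (o y)).congr_of_eventuallyEq hid
  have huniq := hcomp.unique hidd
  refine ⟨W', fun k => ?_, fun k ξ => ?_⟩
  · have := congrArg (fun L : EE n →L[ℝ] EE n => L k) huniq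
    simpa using this
  · have h9 : W' k = -(e.symm (cl (D2 (0, k)))) := rfl
    rw [h9, inner_neg_left, ← he, LinearEquiv.apply_symm_apply]
    rfl

/-- nondegeneracy of the mixed second derivative of the cost (first argument). -/
theorem mixed_nondeg {z : M} {w : TangentSpace (𝓡 n) z} (hw : w ∈ G.K z)
    (hs : ContDiffAt ℝ ∞ (cc (n := n) z (G.ex z w)) (o z, o (G.ex z w)))
    {h : EE n} (hh : ∀ k : EE n,
      fderiv ℝ (fderiv ℝ (cc (n := n) z (G.ex z w))) (o z, o (G.ex z w)) (0, k) (h, 0) = 0) :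
    h = 0 := by
  obtain ⟨S, hS1, hS2⟩ := exists_right_inverse G hw hs
  have : FiniteDimensional ℝ (TangentSpace (𝓡 n) z) :=
    inferInstanceAs (FiniteDimensional ℝ (EE n))
  have hSinj : Function.Injective S := by
    intro a b hab
    rw [← hS1 a, ← hS1 b, hab]
  have hfin : Module.finrank ℝ (EE n) = Module.finrank ℝ (TangentSpace (𝓡 n) z) := rfl
  have hSsurj : Function.Surjective S :=
    (LinearMap.injective_iff_surjective_of_finrank_eq_finrank hfin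
      (f := (S : EE n →ₗ[ℝ] TangentSpace (𝓡 n) z))).1 hSinj
  obtain ⟨k, hk⟩ := hSsurj (h : TangentSpace (𝓡 n) z)
  have h1 := hS2 k (h : TangentSpace (𝓡 n) z)
  rw [hk, hh k, neg_zero] at h1
  have h2 : (h : TangentSpace (𝓡 n) z) = 0 :=
    (inner_self_eq_zero (𝕜 := ℝ) (E := TangentSpace (𝓡 n) z)).1 h1
  exact h2

end geo

end Crest.Agent.R226.ChartCost77
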