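/-
R226 (helper915): consequences of (W) off the foot (doc 1281 of helper954, remark (1) of
helper504 doc 1152), abstract form.

`WArea K e vol μ J C c`: `J` is a Jacobian of `e` on `K` (area formula with constant `C`) with the
pointwise monotonicity off the foot with constant `c`.

* `WArea.contract`  : for `Q ⊆ K` convex compact, `p₁ ∈ Q`, contraction to `p₁` with factor `a`
                      keeps a fixed fraction of the volume;
* `WArea.leb`       : `vol (e '' Q) ≤ B vol (e '' A)`, `A ⊆ Q` ⇒ `μ Q ≤ C' B μ A`.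
-/
import Mathlib.MeasureTheory.Measure.Haar.InnerProductSpace
import Mathlib.MeasureTheory.Function.Jacobian
import Mathlib.Analysis.Convex.Topology
import Mathlib.MeasureTheory.Measure.Lebesgue.EqHaar
import Mathlib.Analysis.Calculus.FDeriv.Add
import Mathlib.Tactic

set_option autoImplicit false
set_option linter.unusedSectionVars false
set_option linter.unusedVariables false

open MeasureTheory Set Filter Topology Module
open scoped ENNReal RealInnerProductSpace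

namespace Crest.Agent.R226.WOff915

variable {E : Type*} [NormedAddCommGroup E] [InnerProductSpace ℝ E] [FiniteDimensional ℝ E]
  [MeasurableSpace E] [BorelSpace E]
variable {M : Type*} [MeasurableSpace M]

/-- `(W)` off the foot: `J p₀ ≤ J p_t / c` for `0 < t ≤ 1/2`, `p_t = p₀ + t (p₁ - p₀)`, as soon as
the foot of `0` on the line is at distance `≥ t ‖p₁ - p₀‖ / 16` of `p_t`. -/
def WOffP (K : Set E) (J : E → ℝ≥0∞) (c : ℝ) : Prop :=
  ∀ p₀ ∈ K, ∀ p₁ ∈ K, ∀ t : ℝ, 0 < t → t ≤ 1 / 2 →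
    t / 16 * ‖p₁ - p₀‖ ^ 2 ≤ |⟪p₀ + t • (p₁ - p₀), p₁ - p₀⟫| →
    ENNReal.ofReal c * J p₀ ≤ J (p₀ + t • (p₁ - p₀))

/-- the Jacobian data of `e` on `K`. -/
structure WArea (K : Set E) (e : E → M) (vol : Measure M) (μ : Measure E) (J : E → ℝ≥0∞)
    (C c : ℝ) : Prop where
  meas : Measurable J
  le : ∀ A ⊆ K, IsCompact A → vol (e '' A) ≤ ENNReal.ofReal C * ∫⁻ p in A, J p ∂μ
  ge : ∀ A ⊆ K, IsCompact A → ∫⁻ p in A, J p ∂μ ≤ ENNReal.ofReal C * vol (e '' A)
  woff : WOffP K J c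

/-- for every segment, one of the two times `1/4`, `1/2` is off the foot. -/
theorem two_times {K : Set E} {J : E → ℝ≥0∞} {c : ℝ} (h : WOffP K J c) {p₀ p₁ : E} (h₀ : p₀ ∈ K)
    (h₁ : p₁ ∈ K) :
    ENNReal.ofReal c * J p₀ ≤ J (p₀ + (1 / 4 : ℝ) • (p₁ - p₀)) + J (p₀ + (1 / 2 : ℝ) • (p₁ - p₀)) := by
  by_cases hb : (1 / 4 : ℝ) / 16 * ‖p₁ - p₀‖ ^ 2 ≤ |⟪p₀ + (1 / 4 : ℝ) • (p₁ - p₀), p₁ - p₀⟫|
  · exact (h p₀ h₀ p₁ h₁ (1 / 4) (by norm_num) (by norm_num) hb).trans le_self_add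
  · have hb' : (1 / 2 : ℝ) / 16 * ‖p₁ - p₀‖ ^ 2 ≤ |⟪p₀ + (1 / 2 : ℝ) • (p₁ - p₀), p₁ - p₀⟫| := by
      push Not at hb
      rw [inner_add_left, inner_smul_left, real_inner_self_eq_norm_sq] at hb ⊢
      simp only [conj_trivial] at hb ⊢
      have h1 := (abs_lt.1 hb).1
      refine le_trans ?_ (le_abs_self _)
      nlinarith [sq_nonneg ‖p₁ - p₀‖]
    exact (h p₀ h₀ p₁ h₁ (1 / 2) (by norm_num) (by norm_num) hb').trans le_add_self

/-- contraction to `p₁` with factor `a`. -/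
def con (p₁ : E) (a : ℝ) (p : E) : E := p₁ + a • (p - p₁)

lemma continuous_con (p₁ : E) (a : ℝ) : Continuous (con p₁ a) := by
  unfold con; fun_prop

lemma con_con (p₁ : E) (a b : ℝ) (p : E) : con p₁ a (con p₁ b p) = con p₁ (a * b) p := by
  unfold con; module

lemma con_image_image (p₁ : E) (a b : ℝ) (A : Set E) :
    con p₁ a '' (con p₁ b '' A) = con p₁ (a * b) '' A := by
  rw [image_image]
  exact image_congr fun p _ => con_con p₁ a b p

lemma con_one_image (p₁ : E) (A : Set E) : con p₁ 1 '' A = A := by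
  have : con p₁ 1 = id := by
    funext p; unfold con; simp
  rw [this, image_id]

lemma con_mem {Q : Set E} (hQ : Convex ℝ Q) {p₁ p : E} (h₁ : p₁ ∈ Q) (h : p ∈ Q) {a : ℝ}
    (ha : 0 ≤ a) (ha' : a ≤ 1) : con p₁ a p ∈ Q := by
  have := hQ h₁ h (a := 1 - a) (b := a) (by linarith) ha (by ring)
  convert this using 1
  unfold con; module

lemma con_image_subset {Q : Set E} (hQ : Convex ℝ Q) {p₁ : E} (h₁ : p₁ ∈ Q) {a b : ℝ}
    (ha : 0 ≤ a) (hab : a ≤ b) (hb : 0 < b) : con p₁ a '' Q ⊆ con p₁ b '' Q := by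
  rintro _ ⟨p, hp, rfl⟩
  refine ⟨con p₁ (a / b) p, con_mem hQ h₁ hp (by positivity) ((div_le_one hb).2 hab), ?_⟩
  rw [con_con]
  congr 1
  field_simp

lemma con_image_subset_self {Q : Set E} (hQ : Convex ℝ Q) {p₁ : E} (h₁ : p₁ ∈ Q) {a : ℝ}
    (ha : 0 ≤ a) (ha' : a ≤ 1) : con p₁ a '' Q ⊆ Q := by
  rintro _ ⟨p, hp, rfl⟩
  exact con_mem hQ h₁ hp ha ha'

lemma convex_con {Q : Set E} (hQ : Convex ℝ Q) (p₁ : E) (a : ℝ) : Convex ℝ (con p₁ a '' Q) := by
  rintro _ ⟨p, hp, rfl⟩ _ ⟨q, hq, rfl⟩ s t hs ht hst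
  refine ⟨s • p + t • q, hQ hp hq hs ht hst, ?_⟩
  unfold con
  have : s = 1 - t := by linarith
  subst this
  module

lemma mem_con {Q : Set E} {p₁ : E} (h₁ : p₁ ∈ Q) (a : ℝ) : p₁ ∈ con p₁ a '' Q :=
  ⟨p₁, h₁, by unfold con; simp⟩

variable (μ : Measure E) [μ.IsAddHaarMeasure]

/-- change of variables for a contraction. -/
lemma lintegral_con (p₁ : E) {a : ℝ} (ha : 0 < a) {A : Set E} (hA : MeasurableSet A)
    (f : E → ℝ≥0∞) :
    ∫⁻ p in con p₁ a '' A, f p ∂μ =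
      ENNReal.ofReal (a ^ finrank ℝ E) * ∫⁻ p in A, f (con p₁ a p) ∂μ := by
  have hd : ∀ p ∈ A, HasFDerivWithinAt (con p₁ a) (a • ContinuousLinearMap.id ℝ E) A p := by
    intro p _
    have h0 : HasFDerivAt (fun p : E => p - p₁) (ContinuousLinearMap.id ℝ E) p :=
      (hasFDerivAt_sub_const_iff p₁).2 (hasFDerivAt_id p)
    have h1 : HasFDerivAt (fun p : E => a • (p - p₁)) (a • ContinuousLinearMap.id ℝ E) p :=
      h0.const_smul a
    have h2 : HasFDerivAt (fun p : E => p₁ + a • (p - p₁)) (a • ContinuousLinearMap.id ℝ E) p :=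
      h1.const_add p₁
    exact h2.hasFDerivWithinAt
  have hinj : InjOn (con p₁ a) A := by
    intro p _ q _ hpq
    unfold con at hpq
    have h1 := add_left_cancel hpq
    have h2 := smul_right_injective E ha.ne' h1
    exact sub_left_injective h2
  rw [lintegral_image_eq_lintegral_abs_det_fderiv_mul μ hA hd hinj]
  have hdet : (a • ContinuousLinearMap.id ℝ E).det = a ^ finrank ℝ E := by
    have : ((a • ContinuousLinearMap.id ℝ E : E →L[ℝ] E) : E →ₗ[ℝ] E) =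
        a • (LinearMap.id : E →ₗ[ℝ] E) := rfl
    rw [ContinuousLinearMap.det, this, LinearMap.det_smul, LinearMap.det_id, mul_one]
  simp only [hdet, abs_of_pos (pow_pos ha _)]
  rw [lintegral_const_mul' _ _ ENNReal.ofReal_ne_top]

variable {μ}

section Main

variable {K : Set E} {e : E → M} {vol : Measure M} {J : E → ℝ≥0∞} {C c : ℝ}

/-- one contraction step (factor `3/4`). -/
theorem lintegral_step (hJ : Measurable J) (hc : 0 < c) (h : WOffP K J c) {Q : Set E}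
    (hQ : Convex ℝ Q) (hQc : IsCompact Q) (hQK : Q ⊆ K) {p₁ : E} (h₁ : p₁ ∈ Q) :
    ∫⁻ p in Q, J p ∂μ ≤
      ENNReal.ofReal (c⁻¹ * ((4 / 3) ^ finrank ℝ E + 2 ^ finrank ℝ E)) *
        ∫⁻ p in con p₁ (3 / 4) '' Q, J p ∂μ := by
  have hQm : MeasurableSet Q := hQc.isClosed.measurableSet
  have h34 : ∀ p : E, con p₁ (3 / 4) p = p + (1 / 4 : ℝ) • (p₁ - p) := by
    intro p; unfold con; module
  have h12 : ∀ p : E, con p₁ (1 / 2) p = p + (1 / 2 : ℝ) • (p₁ - p) := by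
    intro p; unfold con; module
  have hpt : ∀ p ∈ Q, J p ≤ ENNReal.ofReal c⁻¹ * (J (con p₁ (3 / 4) p) + J (con p₁ (1 / 2) p)) := by
    intro p hp
    have h2 := two_times h (hQK hp) (hQK h₁)
    rw [← h34, ← h12] at h2
    calc J p = ENNReal.ofReal c⁻¹ * (ENNReal.ofReal c * J p) := by
          rw [← mul_assoc, ← ENNReal.ofReal_mul (by positivity), inv_mul_cancel₀ hc.ne',
            ENNReal.ofReal_one, one_mul]
      _ ≤ _ := by gcongr
  have hm : Measurable fun p => J (con p₁ (3 / 4) p) := hJ.comp (continuous_con _ _).measurable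
  have i34 := lintegral_con μ p₁ (a := 3 / 4) (by norm_num) hQm J
  have i12 := lintegral_con μ p₁ (a := 1 / 2) (by norm_num) hQm J
  have j34 : ∫⁻ p in Q, J (con p₁ (3 / 4) p) ∂μ =
      ENNReal.ofReal ((4 / 3) ^ finrank ℝ E) * ∫⁻ p in con p₁ (3 / 4) '' Q, J p ∂μ := by
    rw [i34, ← mul_assoc, ← ENNReal.ofReal_mul (by positivity), ← mul_pow]
    norm_num
  have j12 : ∫⁻ p in Q, J (con p₁ (1 / 2) p) ∂μ =
      ENNReal.ofReal (2 ^ finrank ℝ E) * ∫⁻ p in con p₁ (1 / 2) '' Q, J p ∂μ := by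
    rw [i12, ← mul_assoc, ← ENNReal.ofReal_mul (by positivity), ← mul_pow]
    norm_num
  have hsub : con p₁ (1 / 2) '' Q ⊆ con p₁ (3 / 4) '' Q :=
    con_image_subset hQ h₁ (by norm_num) (by norm_num) (by norm_num)
  calc ∫⁻ p in Q, J p ∂μ
      ≤ ∫⁻ p in Q, ENNReal.ofReal c⁻¹ * (J (con p₁ (3 / 4) p) + J (con p₁ (1 / 2) p)) ∂μ :=
        setLIntegral_mono' hQm hpt
    _ = ENNReal.ofReal c⁻¹ * (∫⁻ p in Q, J (con p₁ (3 / 4) p) ∂μ +
          ∫⁻ p in Q, J (con p₁ (1 / 2) p) ∂μ) := by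
        rw [lintegral_const_mul' _ _ ENNReal.ofReal_ne_top, lintegral_add_left hm]
    _ ≤ ENNReal.ofReal c⁻¹ * (ENNReal.ofReal ((4 / 3) ^ finrank ℝ E) *
          ∫⁻ p in con p₁ (3 / 4) '' Q, J p ∂μ + ENNReal.ofReal (2 ^ finrank ℝ E) *
          ∫⁻ p in con p₁ (3 / 4) '' Q, J p ∂μ) := by
        rw [j34, j12]
        gcongr
    _ = _ := by
        rw [← add_mul, ← ENNReal.ofReal_add (by positivity) (by positivity), ← mul_assoc,
          ← ENNReal.ofReal_mul (by positivity)]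

/-- iterated contraction: factor `(3/4)^k`. -/
theorem lintegral_steps (hJ : Measurable J) (hc : 0 < c) (h : WOffP K J c) {Q : Set E}
    (hQ : Convex ℝ Q) (hQc : IsCompact Q) (hQK : Q ⊆ K) {p₁ : E} (h₁ : p₁ ∈ Q) (k : ℕ) :
    ∫⁻ p in Q, J p ∂μ ≤
      ENNReal.ofReal ((c⁻¹ * ((4 / 3) ^ finrank ℝ E + 2 ^ finrank ℝ E)) ^ k) *
        ∫⁻ p in con p₁ ((3 / 4) ^ k) '' Q, J p ∂μ := by
  induction k with
  | zero => simp [con_one_image]
  | succ k ih =>
    have hsub : con p₁ ((3 / 4) ^ k) '' Q ⊆ Q :=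
      con_image_subset_self hQ h₁ (by positivity) (pow_le_one₀ (by norm_num) (by norm_num))
    have h2 := lintegral_step (μ := μ) hJ hc h (convex_con hQ p₁ ((3 / 4) ^ k))
      (hQc.image (continuous_con _ _)) (hsub.trans hQK) (mem_con h₁ _)
    rw [con_image_image] at h2
    refine ih.trans ?_
    rw [pow_succ, ENNReal.ofReal_mul (by positivity), mul_assoc, pow_succ' (3 / 4 : ℝ)]
    gcongr

/-- **L1**: contraction of convex sets. -/
theorem exists_contract {d : ℕ} {C c : ℝ} (hC : 0 < C) (hc : 0 < c) {a : ℝ} (ha : 0 < a) :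
    ∃ c' : ℝ, 0 < c' ∧ ∀ {E : Type*} [NormedAddCommGroup E] [InnerProductSpace ℝ E]
      [FiniteDimensional ℝ E] [MeasurableSpace E] [BorelSpace E] {M : Type*} [MeasurableSpace M]
      {μ : Measure E} [μ.IsAddHaarMeasure] {K : Set E} {e : E → M} {vol : Measure M}
      {J : E → ℝ≥0∞}, finrank ℝ E = d → WArea K e vol μ J C c →
      ∀ Q ⊆ K, Convex ℝ Q → IsCompact Q → ∀ p₁ ∈ Q,
        ENNReal.ofReal c' * vol (e '' Q) ≤ vol (e '' (con p₁ a '' Q)) := by
  obtain ⟨k, hk⟩ := exists_pow_lt_of_lt_one ha (by norm_num : (3 / 4 : ℝ) < 1)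
  set B : ℝ := (c⁻¹ * ((4 / 3) ^ d + 2 ^ d)) ^ k with hB
  have hB0 : 0 < B := by positivity
  refine ⟨(C * B * C)⁻¹, by positivity, ?_⟩
  intro E _ _ _ _ _ M _ μ _ K e vol J hd h Q hQK hQ hQc p₁ h₁
  have hpk : (0 : ℝ) < (3 / 4) ^ k := by positivity
  have hpk1 : (3 / 4 : ℝ) ^ k ≤ 1 := pow_le_one₀ (by norm_num) (by norm_num)
  have s1 := lintegral_steps (μ := μ) h.meas hc h.woff hQ hQc hQK h₁ k
  rw [hd, ← hB] at s1
  have hsubQ : con p₁ ((3 / 4) ^ k) '' Q ⊆ Q := con_image_subset_self hQ h₁ hpk.le hpk1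
  have s2 := h.ge _ (hsubQ.trans hQK) (hQc.image (continuous_con p₁ ((3 / 4) ^ k)))
  have s3 := h.le Q hQK hQc
  have s4 : vol (e '' (con p₁ ((3 / 4) ^ k) '' Q)) ≤ vol (e '' (con p₁ a '' Q)) :=
    measure_mono (image_mono (con_image_subset hQ h₁ hpk.le hk.le ha))
  have s5 : vol (e '' Q) ≤ ENNReal.ofReal (C * B * C) * vol (e '' (con p₁ a '' Q)) := by
    calc vol (e '' Q) ≤ ENNReal.ofReal C * ∫⁻ p in Q, J p ∂μ := s3
      _ ≤ ENNReal.ofReal C * (ENNReal.ofReal B *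
            (ENNReal.ofReal C * vol (e '' (con p₁ a '' Q)))) := by
          gcongr
          exact s1.trans (by gcongr; exact s2.trans (by gcongr))
      _ = _ := by
          rw [ENNReal.ofReal_mul (by positivity), ENNReal.ofReal_mul hC.le]
          ring
  calc ENNReal.ofReal (C * B * C)⁻¹ * vol (e '' Q)
      ≤ ENNReal.ofReal (C * B * C)⁻¹ *
          (ENNReal.ofReal (C * B * C) * vol (e '' (con p₁ a '' Q))) := by gcongr
    _ = vol (e '' (con p₁ a '' Q)) := by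
        rw [← mul_assoc, ← ENNReal.ofReal_mul (by positivity),
          inv_mul_cancel₀ (by positivity), ENNReal.ofReal_one, one_mul]

/-- **L2**: `sup_Q J ≤ C avg_Q J`. -/
theorem sup_le (hJ : Measurable J) (hc : 0 < c) (h : WOffP K J c) {Q : Set E}
    (hQ : Convex ℝ Q) (hQc : IsCompact Q) (hQK : Q ⊆ K) {p₀ : E} (h₀ : p₀ ∈ Q) :
    J p₀ * μ Q ≤ ENNReal.ofReal (c⁻¹ * (4 ^ finrank ℝ E + 2 ^ finrank ℝ E)) *
      ∫⁻ p in Q, J p ∂μ := by
  have hQm : MeasurableSet Q := hQc.isClosed.measurableSet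
  have h14 : ∀ p : E, con p₀ (1 / 4) p = p₀ + (1 / 4 : ℝ) • (p - p₀) := fun p => rfl
  have h12 : ∀ p : E, con p₀ (1 / 2) p = p₀ + (1 / 2 : ℝ) • (p - p₀) := fun p => rfl
  have hpt : ∀ p ∈ Q, J p₀ ≤ ENNReal.ofReal c⁻¹ * (J (con p₀ (1 / 4) p) + J (con p₀ (1 / 2) p)) := by
    intro p hp
    have h2 := two_times h (hQK h₀) (hQK hp)
    rw [← h14, ← h12] at h2
    calc J p₀ = ENNReal.ofReal c⁻¹ * (ENNReal.ofReal c * J p₀) := by
          rw [← mul_assoc, ← ENNReal.ofReal_mul (by positivity), inv_mul_cancel₀ hc.ne',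
            ENNReal.ofReal_one, one_mul]
      _ ≤ _ := by gcongr
  have hm : Measurable fun p => J (con p₀ (1 / 4) p) := hJ.comp (continuous_con _ _).measurable
  have i14 := lintegral_con μ p₀ (a := 1 / 4) (by norm_num) hQm J
  have i12 := lintegral_con μ p₀ (a := 1 / 2) (by norm_num) hQm J
  have j14 : ∫⁻ p in Q, J (con p₀ (1 / 4) p) ∂μ =
      ENNReal.ofReal (4 ^ finrank ℝ E) * ∫⁻ p in con p₀ (1 / 4) '' Q, J p ∂μ := by
    rw [i14, ← mul_assoc, ← ENNReal.ofReal_mul (by positivity), ← mul_pow]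
    norm_num
  have j12 : ∫⁻ p in Q, J (con p₀ (1 / 2) p) ∂μ =
      ENNReal.ofReal (2 ^ finrank ℝ E) * ∫⁻ p in con p₀ (1 / 2) '' Q, J p ∂μ := by
    rw [i12, ← mul_assoc, ← ENNReal.ofReal_mul (by positivity), ← mul_pow]
    norm_num
  have s14 : con p₀ (1 / 4) '' Q ⊆ Q := con_image_subset_self hQ h₀ (by norm_num) (by norm_num)
  have s12 : con p₀ (1 / 2) '' Q ⊆ Q := con_image_subset_self hQ h₀ (by norm_num) (by norm_num)
  calc J p₀ * μ Q = ∫⁻ _p in Q, J p₀ ∂μ := by rw [setLIntegral_const]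
    _ ≤ ∫⁻ p in Q, ENNReal.ofReal c⁻¹ * (J (con p₀ (1 / 4) p) + J (con p₀ (1 / 2) p)) ∂μ :=
        setLIntegral_mono' hQm hpt
    _ = ENNReal.ofReal c⁻¹ * (∫⁻ p in Q, J (con p₀ (1 / 4) p) ∂μ +
          ∫⁻ p in Q, J (con p₀ (1 / 2) p) ∂μ) := by
        rw [lintegral_const_mul' _ _ ENNReal.ofReal_ne_top, lintegral_add_left hm]
    _ ≤ ENNReal.ofReal c⁻¹ * (ENNReal.ofReal (4 ^ finrank ℝ E) *
          ∫⁻ p in Q, J p ∂μ + ENNReal.ofReal (2 ^ finrank ℝ E) *
          ∫⁻ p in Q, J p ∂μ) := by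
        rw [j14, j12]
        gcongr
    _ = _ := by
        rw [← add_mul, ← ENNReal.ofReal_add (by positivity) (by positivity), ← mul_assoc,
          ← ENNReal.ofReal_mul (by positivity)]

/-- **L3**: comparison of Lebesgue measures. -/
theorem leb (hC : 0 < C) (hc : 0 < c) (h : WArea K e vol μ J C c) {Q A : Set E}
    (hQ : Convex ℝ Q) (hQc : IsCompact Q) (hQK : Q ⊆ K) (hAQ : A ⊆ Q) (hA : IsCompact A) {B : ℝ}
    (hB : 0 < B) (hvol : vol (e '' Q) ≤ ENNReal.ofReal B * vol (e '' A))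
    (hpos : vol (e '' A) ≠ 0) (hfin : vol (e '' A) ≠ ∞) :
    μ Q ≤ ENNReal.ofReal ((c⁻¹ * (4 ^ finrank ℝ E + 2 ^ finrank ℝ E)) * C ^ 2 * B) * μ A := by
  set D : ℝ := c⁻¹ * (4 ^ finrank ℝ E + 2 ^ finrank ℝ E) with hD
  have hD0 : 0 < D := by positivity
  have hAm : MeasurableSet A := hA.isClosed.measurableSet
  set I : ℝ≥0∞ := ∫⁻ p in A, J p ∂μ with hI
  have hAK : A ⊆ K := hAQ.trans hQK
  have hI0 : I ≠ 0 := by
    intro h0
    have h1 := h.le A hAK hA
    rw [← hI, h0, mul_zero] at h1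
    exact hpos (le_antisymm h1 zero_le)
  have hIt : I ≠ ∞ := by
    refine ne_top_of_le_ne_top ?_ (h.ge A hAK hA)
    exact ENNReal.mul_ne_top ENNReal.ofReal_ne_top hfin
  have hQI : ∫⁻ p in Q, J p ∂μ ≤ ENNReal.ofReal (C ^ 2 * B) * I := by
    calc ∫⁻ p in Q, J p ∂μ ≤ ENNReal.ofReal C * vol (e '' Q) := h.ge Q hQK hQc
      _ ≤ ENNReal.ofReal C * (ENNReal.ofReal B * (ENNReal.ofReal C * I)) := by
          gcongr
          exact hvol.trans (by gcongr; exact h.le A hAK hA)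
      _ = ENNReal.ofReal (C ^ 2 * B) * I := by
          rw [ENNReal.ofReal_mul (by positivity), ENNReal.ofReal_pow hC.le]
          ring
  have hpt : ∀ p ∈ A, J p * μ Q ≤ ENNReal.ofReal (D * C ^ 2 * B) * I := by
    intro p hp
    calc J p * μ Q ≤ ENNReal.ofReal D * ∫⁻ p in Q, J p ∂μ :=
          sup_le h.meas hc h.woff hQ hQc hQK (hAQ hp)
      _ ≤ ENNReal.ofReal D * (ENNReal.ofReal (C ^ 2 * B) * I) := by gcongr
      _ = _ := by rw [← mul_assoc, ← ENNReal.ofReal_mul hD0.le, mul_assoc D]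
  have hint : I * μ Q ≤ (ENNReal.ofReal (D * C ^ 2 * B) * I) * μ A := by
    calc I * μ Q = ∫⁻ p in A, J p * μ Q ∂μ := by
          rw [hI, lintegral_mul_const _ h.meas]
      _ ≤ ∫⁻ _p in A, ENNReal.ofReal (D * C ^ 2 * B) * I ∂μ := setLIntegral_mono' hAm hpt
      _ = _ := by rw [setLIntegral_const]
  have h2 : I * μ Q ≤ I * (ENNReal.ofReal (D * C ^ 2 * B) * μ A) := by
    refine hint.trans (le_of_eq ?_)
    ring
  exact (ENNReal.mul_le_mul_iff_right hI0 hIt).1 h2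

/-- Lebesgue measure of a copy. -/
theorem le_copy (pL : E) {P : Set E} {t : ℝ} (ht : 0 ≤ t) (ht' : t ≤ 1 / 2) :
    ENNReal.ofReal ((1 / 2) ^ finrank ℝ E) * μ P ≤ μ ((fun p => (1 - t) • p + t • pL) '' P) := by
  have h1 : (fun p : E => (1 - t) • p + t • pL) '' P = AffineMap.homothety pL (1 - t) '' P := by
    refine image_congr fun p _ => ?_
    rw [AffineMap.homothety_apply, vsub_eq_sub, vadd_eq_add]
    module
  have ht2 : 0 ≤ 1 - t := by linarith
  rw [h1, Measure.addHaar_image_homothety, abs_of_nonneg (by positivity)]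
  gcongr
  linarith

end Main

end Crest.Agent.R226.WOff915
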