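/-
R226 / leaf (C) of the pair scheme (doc of helper579 / 619): disjoint copies towards `p_*`
(helper301), abstract part.

`con p₀ t p = p₀ + t (p - p₀)`.  If a point `con p₀ t p`, `p ∈ A`, can be in `A` only for
`(1-t)^4 Γ ≤ B` (slope law, `Copy_977.escape`), then the copies `con p₀ (r^k) '' A`, `k < N`,
`r = 1 - 1/(2N)`, are pairwise disjoint as soon as `B < (2N)^{-4} Γ`, and their `J`-masses add up.
-/
import Crest.Agent.R226.WOff_915

set_option autoImplicit false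
set_option linter.unusedSectionVars false
set_option linter.unusedVariables false

open MeasureTheory Set Filter Topology Module
open scoped ENNReal RealInnerProductSpace

namespace Crest.Agent.R226.Copies301

open Crest.Agent.R226.WOff915

/-- the ratio of the copies. -/
noncomputable def rat (N : ℕ) : ℝ := 1 - 1 / (2 * (N : ℝ))

theorem rat_pos {N : ℕ} (hN : 0 < N) : 0 < rat N := by
  have h1 : (1 : ℝ) ≤ N := by exact_mod_cast hN
  unfold rat
  have h2 : 1 / (2 * (N : ℝ)) ≤ 1 / 2 := by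
    apply one_div_le_one_div_of_le <;> linarith
  linarith

theorem rat_lt_one {N : ℕ} (hN : 0 < N) : rat N < 1 := by
  have h1 : (0 : ℝ) < N := by exact_mod_cast hN
  unfold rat
  have : 0 < 1 / (2 * (N : ℝ)) := by positivity
  linarith

/-- `1/2 ≤ r^k` for `k ≤ N`. -/
theorem half_le_rat_pow {N : ℕ} (hN : 0 < N) {k : ℕ} (hk : k ≤ N) : 1 / 2 ≤ rat N ^ k := by
  have h1 : (1 : ℝ) ≤ N := by exact_mod_cast hN
  have hN0 : (0 : ℝ) < N := by linarith
  have hd : 1 / (2 * (N : ℝ)) ≤ 1 / 2 := by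
    apply one_div_le_one_div_of_le <;> linarith
  have hB := one_add_mul_le_pow (a := -(1 / (2 * (N : ℝ)))) (by linarith) N
  have h2 : (1 : ℝ) + N * -(1 / (2 * (N : ℝ))) = 1 / 2 := by
    field_simp
    ring
  have h3 : 1 / 2 ≤ rat N ^ N := by
    have e : rat N = 1 + -(1 / (2 * (N : ℝ))) := by unfold rat; ring
    rw [e]; linarith
  exact h3.trans (pow_le_pow_of_le_one (rat_pos hN).le (rat_lt_one hN).le hk)

section Abs

variable {E : Type*} [NormedAddCommGroup E] [InnerProductSpace ℝ E] [FiniteDimensional ℝ E]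
  [MeasurableSpace E] [BorelSpace E]

/-- a point of `A` is not a proper copy of a point of `A`. -/
theorem con_notMem {A : Set E} {p₀ : E} {B Γ : ℝ} {N : ℕ} (hN : 0 < N) (hB : 0 ≤ B)
    (hesc : ∀ p ∈ A, ∀ t : ℝ, 0 ≤ t → t < 1 → con p₀ t p ∈ A → (1 - t) ^ 4 * Γ ≤ B)
    (hgap : B < (1 / (2 * (N : ℝ))) ^ 4 * Γ) {p : E} (hp : p ∈ A) {m : ℕ}
    (hm : 0 < m) : con p₀ (rat N ^ m) p ∉ A := by
  intro hmem
  have hr0 := rat_pos hN
  have hr1 := rat_lt_one hN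
  have hN0 : (0 : ℝ) < N := by exact_mod_cast hN
  set t : ℝ := rat N ^ m with ht
  have ht0 : 0 ≤ t := by positivity
  have ht1 : t ≤ rat N := by
    have := pow_le_pow_of_le_one hr0.le hr1.le (Nat.one_le_iff_ne_zero.2 hm.ne')
    simpa using this
  have h1 := hesc p hp t ht0 (ht1.trans_lt hr1) hmem
  have hd : 1 / (2 * (N : ℝ)) ≤ 1 - t := by
    have : rat N = 1 - 1 / (2 * (N : ℝ)) := rfl
    linarith
  have hd0 : 0 ≤ 1 / (2 * (N : ℝ)) := by positivity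
  have hd4 : (1 / (2 * (N : ℝ))) ^ 4 ≤ (1 - t) ^ 4 := by gcongr
  have hΓ : 0 < Γ := by
    by_contra hneg
    push Not at hneg
    have : (1 / (2 * (N : ℝ))) ^ 4 * Γ ≤ 0 := mul_nonpos_of_nonneg_of_nonpos (by positivity) hneg
    linarith
  have h2 : (1 / (2 * (N : ℝ))) ^ 4 * Γ ≤ (1 - t) ^ 4 * Γ :=
    mul_le_mul_of_nonneg_right hd4 hΓ.le
  linarith

theorem con_injective (p₀ : E) {a : ℝ} (ha : a ≠ 0) : Function.Injective (con p₀ a) := by
  intro p q hpq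
  unfold con at hpq
  have h1 := add_left_cancel hpq
  have h2 := smul_right_injective E ha h1
  exact sub_left_injective h2

/-- **disjointness of the copies.** -/
theorem copies_disjoint {A : Set E} {p₀ : E} {B Γ : ℝ} {N : ℕ} (hN : 0 < N) (hB : 0 ≤ B)
    (hesc : ∀ p ∈ A, ∀ t : ℝ, 0 ≤ t → t < 1 → con p₀ t p ∈ A → (1 - t) ^ 4 * Γ ≤ B)
    (hgap : B < (1 / (2 * (N : ℝ))) ^ 4 * Γ) :
    Pairwise (Function.onFun Disjoint (fun k : ℕ => con p₀ (rat N ^ k) '' A)) := by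
  have hr0 := rat_pos hN
  have key : ∀ i j : ℕ, i < j →
      Disjoint (con p₀ (rat N ^ i) '' A) (con p₀ (rat N ^ j) '' A) := by
    intro i j hij
    rw [Set.disjoint_left]
    rintro _ ⟨p, hp, rfl⟩ ⟨q, hq, hqp⟩
    have h1 : con p₀ (rat N ^ i) (con p₀ (rat N ^ (j - i)) q) = con p₀ (rat N ^ i) p := by
      rw [con_con, ← pow_add, Nat.add_sub_cancel' hij.le, hqp]
    have h2 := con_injective p₀ (pow_pos hr0 i).ne' h1
    refine con_notMem hN hB hesc hgap hq (Nat.sub_pos_of_lt hij) ?_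
    rw [h2]; exact hp
  intro i j hij
  rcases lt_or_gt_of_ne hij with h | h
  · exact key i j h
  · exact (key j i h).symm

theorem measurableSet_con {A : Set E} (hA : MeasurableSet A) (p₀ : E) {a : ℝ} (ha : a ≠ 0) :
    MeasurableSet (con p₀ a '' A) := by
  have hinj := con_injective p₀ ha
  have hemb : MeasurableEmbedding (con p₀ a) := by
    refine (continuous_con p₀ a).measurableEmbedding hinj
  exact hemb.measurableSet_image.2 hA

variable {μ : Measure E} [μ.IsAddHaarMeasure]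

/-- mass of one copy. -/
theorem mass_copy {J : E → ℝ≥0∞} {A : Set E} (hA : MeasurableSet A)
    {p₀ : E} {c : ℝ} (hc : 0 ≤ c) {t : ℝ} (ht : 1 / 2 ≤ t)
    (hmono : ∀ p ∈ A, ENNReal.ofReal c * J p ≤ J (con p₀ t p)) :
    ENNReal.ofReal (c * (1 / 2) ^ finrank ℝ E) * ∫⁻ p in A, J p ∂μ ≤
      ∫⁻ p in con p₀ t '' A, J p ∂μ := by
  have ht0 : 0 < t := by linarith
  rw [lintegral_con μ p₀ ht0 hA J]
  have h1 : ENNReal.ofReal c * ∫⁻ p in A, J p ∂μ ≤ ∫⁻ p in A, J (con p₀ t p) ∂μ := by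
    rw [← lintegral_const_mul' _ _ ENNReal.ofReal_ne_top]
    exact setLIntegral_mono' hA hmono
  have h2 : ENNReal.ofReal ((1 / 2) ^ finrank ℝ E) ≤ ENNReal.ofReal (t ^ finrank ℝ E) := by
    apply ENNReal.ofReal_le_ofReal
    gcongr
  rw [mul_comm c, ENNReal.ofReal_mul (by positivity), mul_assoc]
  exact mul_le_mul' h2 h1

/-- the union of the copies. -/
noncomputable def copies (p₀ : E) (N : ℕ) (A : Set E) : Set E :=
  ⋃ k ∈ Finset.range N, con p₀ (rat N ^ k) '' A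

theorem measurableSet_copies {A : Set E} (hA : MeasurableSet A) (p₀ : E) {N : ℕ} (hN : 0 < N) :
    MeasurableSet (copies p₀ N A) :=
  Finset.measurableSet_biUnion _ fun k _ =>
    measurableSet_con hA p₀ (pow_pos (rat_pos hN) k).ne'

theorem mem_copies {A : Set E} {p₀ : E} {N : ℕ} {v : E} :
    v ∈ copies p₀ N A ↔ ∃ k < N, ∃ p ∈ A, con p₀ (rat N ^ k) p = v := by
  unfold copies
  simp only [Set.mem_iUnion, Finset.mem_range, Set.mem_image, exists_prop]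

/-- every copy point is `con p₀ t p` with `1/2 ≤ t ≤ 1`. -/
theorem exists_of_mem_copies {A : Set E} {p₀ : E} {N : ℕ} (hN : 0 < N) {v : E}
    (hv : v ∈ copies p₀ N A) : ∃ t : ℝ, 1 / 2 ≤ t ∧ t ≤ 1 ∧ ∃ p ∈ A, con p₀ t p = v := by
  obtain ⟨k, hk, p, hp, rfl⟩ := mem_copies.1 hv
  exact ⟨rat N ^ k, half_le_rat_pow hN hk.le, pow_le_one₀ (rat_pos hN).le (rat_lt_one hN).le,
    p, hp, rfl⟩

/-- **(C)**: the masses of the copies add up. -/
theorem mass_copies {J : E → ℝ≥0∞} {A : Set E} (hA : MeasurableSet A)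
    {p₀ : E} {B Γ c : ℝ} {N : ℕ} (hN : 0 < N) (hc : 0 ≤ c)
    (hB : 0 ≤ B) (hmono : ∀ p ∈ A, ∀ t : ℝ, 1 / 2 ≤ t → t ≤ 1 →
      ENNReal.ofReal c * J p ≤ J (con p₀ t p))
    (hesc : ∀ p ∈ A, ∀ t : ℝ, 0 ≤ t → t < 1 → con p₀ t p ∈ A → (1 - t) ^ 4 * Γ ≤ B)
    (hgap : B < (1 / (2 * (N : ℝ))) ^ 4 * Γ) :
    (N : ℝ≥0∞) * (ENNReal.ofReal (c * (1 / 2) ^ finrank ℝ E) * ∫⁻ p in A, J p ∂μ) ≤
      ∫⁻ p in copies p₀ N A, J p ∂μ := by
  have hdis := copies_disjoint hN hB hesc hgap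
  unfold copies
  rw [lintegral_biUnion_finset (fun i _ j _ hij => hdis hij)
    (fun k _ => measurableSet_con hA p₀ (pow_pos (rat_pos hN) k).ne')]
  have h1 : (N : ℝ≥0∞) * (ENNReal.ofReal (c * (1 / 2) ^ finrank ℝ E) * ∫⁻ p in A, J p ∂μ) =
      ∑ _k ∈ Finset.range N,
        (ENNReal.ofReal (c * (1 / 2) ^ finrank ℝ E) * ∫⁻ p in A, J p ∂μ) := by
    rw [Finset.sum_const, Finset.card_range, nsmul_eq_mul]
  rw [h1]
  refine Finset.sum_le_sum fun k hk => ?_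
  have hk' := Finset.mem_range.1 hk
  exact mass_copy hA hc (half_le_rat_pow hN hk'.le) fun p hp =>
    hmono p hp _ (half_le_rat_pow hN hk'.le) (pow_le_one₀ (rat_pos hN).le (rat_lt_one hN).le)

/-- `(C)` for the measure `ν = (J μ)` restricted to the copies. -/
theorem mass_copies_measure {J : E → ℝ≥0∞} {A : Set E} (hA : MeasurableSet A)
    {p₀ : E} {B Γ c : ℝ} {N : ℕ} (hN : 0 < N) (hc : 0 ≤ c)
    (hB : 0 ≤ B) (hmono : ∀ p ∈ A, ∀ t : ℝ, 1 / 2 ≤ t → t ≤ 1 →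
      ENNReal.ofReal c * J p ≤ J (con p₀ t p))
    (hesc : ∀ p ∈ A, ∀ t : ℝ, 0 ≤ t → t < 1 → con p₀ t p ∈ A → (1 - t) ^ 4 * Γ ≤ B)
    (hgap : B < (1 / (2 * (N : ℝ))) ^ 4 * Γ) :
    (N : ℝ≥0∞) * (ENNReal.ofReal (c * (1 / 2) ^ finrank ℝ E) * ∫⁻ p in A, J p ∂μ) ≤
      ((μ.withDensity J).restrict (copies p₀ N A)) univ := by
  rw [Measure.restrict_apply_univ, withDensity_apply _ (measurableSet_copies hA p₀ hN)]
  exact mass_copies hA hN hc hB hmono hesc hgap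

end Abs

end Crest.Agent.R226.Copies301
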