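/-
R226 / E (helper977): leaf (L4) of the scheme 1752/1855.
* `exists_far`: the far point `x~` of a section without growth, and the contact `y*` of `x~` with a
  large gap on the near side (triangle inequality + local ⇒ global);
* `core_le`: contacts of the core are contacts of the far point up to `28 H`.
-/
import Crest.Agent.R226.OscEnd_977

set_option autoImplicit false
set_option linter.unusedSectionVars false

open MeasureTheory Bundle Set Filter
open scoped Manifold ContDiff Bundle ENNReal Topology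
open Crest.GeometryTopology.MTW

namespace Crest.Agent.R226.Far977

open Crest.Agent.R226 Crest.Agent.R226.Kant624 Crest.Agent.R226.Reduction624
  Crest.Agent.R226.HolderEnd915 Crest.Agent.R226.E1Shape964 Crest.Agent.R226.Dasm290
  Crest.Agent.R226.Osc977

/-! ### linear algebra of the core -/

section Lin

variable {E : Type*} [NormedAddCommGroup E] [InnerProductSpace ℝ E]

theorem inner_nonneg_of_nearest {Q : Set E} (hQ : Convex ℝ Q) {p q : E} (hp : p ∈ Q)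
    (hmin : ∀ w ∈ Q, ‖p‖ ≤ ‖w‖) (hq : q ∈ Q) : 0 ≤ inner ℝ p (q - p) := by
  by_contra hneg
  push Not at hneg
  set a : ℝ := inner ℝ p (q - p) with ha
  set b : ℝ := ‖q - p‖ ^ 2 with hb
  have hb0 : 0 ≤ b := by positivity
  set t : ℝ := min 1 (-a / (b + 1)) with ht
  have ht0 : 0 < t := lt_min one_pos (div_pos (by linarith) (by linarith))
  have ht1 : t ≤ 1 := min_le_left _ _
  have ht2 : t * (b + 1) ≤ -a := by
    have := min_le_right 1 (-a / (b + 1))
    rw [← ht] at this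
    rwa [le_div_iff₀ (by linarith)] at this
  have hw : p + t • (q - p) ∈ Q := hQ.add_smul_sub_mem hp hq ⟨ht0.le, ht1⟩
  have h1 := hmin _ hw
  have h2 : ‖p‖ ^ 2 ≤ ‖p + t • (q - p)‖ ^ 2 := by gcongr
  have h3 : ‖p + t • (q - p)‖ ^ 2 = ‖p‖ ^ 2 + 2 * t * a + t ^ 2 * b := by
    rw [norm_add_sq_real, inner_smul_right, norm_smul, mul_pow, Real.norm_of_nonneg ht0.le]
    ring
  rw [h3] at h2
  have h5 : 2 * a + t * b ≥ 0 := by
    by_contra hc
    push Not at hc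
    have := mul_neg_of_pos_of_neg ht0 hc
    nlinarith
  nlinarith

/-- expansion of `|p + a d + b e|²`. -/
theorem norm_sq_comb (p d e : E) (a b : ℝ) :
    ‖p + a • d + b • e‖ ^ 2 = ‖p‖ ^ 2 + 2 * a * inner ℝ p d + 2 * b * inner ℝ p e
      + a ^ 2 * ‖d‖ ^ 2 + b ^ 2 * ‖e‖ ^ 2 + 2 * a * b * inner ℝ d e := by
  rw [norm_add_sq_real, norm_add_sq_real]
  simp only [inner_add_left, inner_smul_left, inner_smul_right, norm_smul, mul_pow, conj_trivial,
    Real.norm_eq_abs, sq_abs]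
  ring

theorem abs_inner_le_half (d e : E) : |(inner ℝ d e : ℝ)| ≤ (‖d‖ ^ 2 + ‖e‖ ^ 2) / 2 := by
  have h1 := abs_real_inner_le_norm d e
  nlinarith [sq_nonneg (‖d‖ - ‖e‖)]

/-- the core point `q' = q_c + (1/8)(q - q_c)`, `q_c = (q_⊥ + q_x)/2`. -/
noncomputable def coreP (p x q : E) : E := (7 / 16 : ℝ) • p + (7 / 16 : ℝ) • x + (1 / 8 : ℝ) • q

/-- the extension `q_e = q' + (1/8)(q' - q_x)`. -/
noncomputable def extP (p x q : E) : E :=
  (63 / 128 : ℝ) • p + (47 / 128 : ℝ) • x + (9 / 64 : ℝ) • q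

theorem coreP_mem {Q : Set E} (hQ : Convex ℝ Q) {p x q : E} (hp : p ∈ Q) (hx : x ∈ Q)
    (hq : q ∈ Q) : coreP p x q ∈ Q := by
  have h1 : (1 / 2 : ℝ) • p + (1 / 2 : ℝ) • x ∈ Q :=
    hQ hp hx (by norm_num) (by norm_num) (by norm_num)
  have h2 : (7 / 8 : ℝ) • ((1 / 2 : ℝ) • p + (1 / 2 : ℝ) • x) + (1 / 8 : ℝ) • q ∈ Q :=
    hQ h1 hq (by norm_num) (by norm_num) (by norm_num)
  have h3 : coreP p x q = (7 / 8 : ℝ) • ((1 / 2 : ℝ) • p + (1 / 2 : ℝ) • x) + (1 / 8 : ℝ) • q := by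
    unfold coreP
    module
  rw [h3]; exact h2

theorem extP_mem {Q : Set E} (hQ : Convex ℝ Q) {p x q : E} (hp : p ∈ Q) (hx : x ∈ Q)
    (hq : q ∈ Q) : extP p x q ∈ Q := by
  have h1 : (63 / 110 : ℝ) • p + (47 / 110 : ℝ) • x ∈ Q :=
    hQ hp hx (by norm_num) (by norm_num) (by norm_num)
  have h2 : (110 / 128 : ℝ) • ((63 / 110 : ℝ) • p + (47 / 110 : ℝ) • x) + (9 / 64 : ℝ) • q ∈ Q :=
    hQ h1 hq (by norm_num) (by norm_num) (by norm_num)
  have h3 : extP p x q =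
      (110 / 128 : ℝ) • ((63 / 110 : ℝ) • p + (47 / 110 : ℝ) • x) + (9 / 64 : ℝ) • q := by
    unfold extP
    module
  rw [h3]; exact h2

theorem coreP_eq (p x q : E) :
    coreP p x q = (8 / 9 : ℝ) • extP p x q + (1 / 9 : ℝ) • x := by
  unfold coreP extP
  module

/-- the numerical inequality of the core: `ρ' - ρ_e ≥ a_x / 27` and `ρ_x - ρ' ≤ a_x`. -/
theorem core_num {Q : Set E} (hQ : Convex ℝ Q) {p x q : E} (hp : p ∈ Q)
    (hmin : ∀ w ∈ Q, ‖p‖ ≤ ‖w‖) (hx : x ∈ Q) (hq : q ∈ Q) (hle : ‖q‖ ≤ ‖x‖) :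
    (‖x‖ ^ 2 / 2 - ‖p‖ ^ 2 / 2) / 27 ≤ ‖coreP p x q‖ ^ 2 / 2 - ‖extP p x q‖ ^ 2 / 2 ∧
      ‖x‖ ^ 2 / 2 - ‖coreP p x q‖ ^ 2 / 2 ≤ ‖x‖ ^ 2 / 2 - ‖p‖ ^ 2 / 2 := by
  have ha : 0 ≤ inner ℝ p (x - p) := inner_nonneg_of_nearest hQ hp hmin hx
  have hb : 0 ≤ inner ℝ p (q - p) := inner_nonneg_of_nearest hQ hp hmin hq
  have hm := abs_le.1 (abs_inner_le_half (x - p) (q - p))
  have hg : 0 ≤ ‖x - p‖ ^ 2 := by positivity
  have hk : 0 ≤ ‖q - p‖ ^ 2 := by positivity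
  have e1 : coreP p x q = p + (7 / 16 : ℝ) • (x - p) + (1 / 8 : ℝ) • (q - p) := by
    unfold coreP; module
  have e2 : extP p x q = p + (47 / 128 : ℝ) • (x - p) + (9 / 64 : ℝ) • (q - p) := by
    unfold extP; module
  have e3 : ‖x‖ ^ 2 = ‖p‖ ^ 2 + 2 * inner ℝ p (x - p) + ‖x - p‖ ^ 2 := by
    have := norm_add_sq_real p (x - p)
    rwa [add_sub_cancel] at this
  have e4 : ‖q‖ ^ 2 = ‖p‖ ^ 2 + 2 * inner ℝ p (q - p) + ‖q - p‖ ^ 2 := by
    have := norm_add_sq_real p (q - p)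
    rwa [add_sub_cancel] at this
  have h4 : ‖q‖ ^ 2 ≤ ‖x‖ ^ 2 := by gcongr
  have f1 := norm_sq_comb p (x - p) (q - p) (7 / 16) (1 / 8)
  have f2 := norm_sq_comb p (x - p) (q - p) (47 / 128) (9 / 64)
  rw [← e1] at f1
  rw [← e2] at f2
  constructor
  · rw [f1, f2, e3]
    rw [e3, e4] at h4
    nlinarith [hm.1, hm.2]
  · have := hmin _ (coreP_mem hQ hp hx hq)
    have h5 : ‖p‖ ^ 2 ≤ ‖coreP p x q‖ ^ 2 := by gcongr
    linarith

end Lin

/-! ### the triangle inequality -/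

section Geo

variable {n : ℕ} {M : Type*} [MetricSpace M] [ChartedSpace (EuclideanSpace ℝ (Fin n)) M]
  [IsManifold (𝓡 n) ∞ M]
  [RiemannianBundle (fun p : M => TangentSpace (𝓡 n) p)]

/-- **Triangle inequality**: pulling the target `y₀ = exp_x p` back to `exp_x ((1-s) p)` decreases
the differences of the cost by at most the factor `1 - s`. -/
theorem tri_ineq {G : GeoData n M} {xt : M} {p : TangentSpace (𝓡 n) xt} (hp : p ∈ G.K xt)
    {s : ℝ} (hs : 0 ≤ s) (hs1 : s ≤ 1) (x : M) :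
    (1 - s) * (halfDistSq x (G.ex xt p) - halfDistSq xt (G.ex xt p)) ≤
      halfDistSq x (G.ex xt ((1 - s) • p)) - halfDistSq xt (G.ex xt ((1 - s) • p)) := by
  have hK : dist xt (G.ex xt p) = ‖p‖ := hp
  have h1 : dist xt (G.ex xt ((1 - s) • p)) ≤ (1 - s) * ‖p‖ := by
    have := G.dist_le xt p 0 (1 - s)
    rw [zero_smul, G.ex_zero] at this
    refine this.trans (le_of_eq ?_)
    rw [zero_sub, abs_neg, abs_of_nonneg (by linarith)]
  have h2 : dist (G.ex xt ((1 - s) • p)) (G.ex xt p) ≤ s * ‖p‖ := by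
    have := G.dist_le xt p (1 - s) 1
    rw [one_smul] at this
    refine this.trans (le_of_eq ?_)
    rw [abs_sub_comm, abs_of_nonneg (by linarith)]
    ring
  have h3 := dist_triangle x (G.ex xt ((1 - s) • p)) (G.ex xt p)
  set a : ℝ := dist x (G.ex xt ((1 - s) • p)) with ha
  have ha0 : 0 ≤ a := dist_nonneg
  have hl0 : 0 ≤ ‖p‖ := norm_nonneg _
  have h4 : dist x (G.ex xt p) ≤ a + s * ‖p‖ := by linarith
  have h5 : dist x (G.ex xt p) ^ 2 ≤ (a + s * ‖p‖) ^ 2 := by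
    have : (0:ℝ) ≤ dist x (G.ex xt p) := dist_nonneg
    gcongr
  have h6 : dist xt (G.ex xt ((1 - s) • p)) ^ 2 ≤ ((1 - s) * ‖p‖) ^ 2 := by
    have : (0:ℝ) ≤ dist xt (G.ex xt ((1 - s) • p)) := dist_nonneg
    gcongr
  unfold halfDistSq
  rw [hK, ← ha]
  have h7 : 0 ≤ s * (a - (1 - s) * ‖p‖) ^ 2 := by positivity
  have h8 : (1 - s) * (dist x (G.ex xt p) ^ 2) ≤ (1 - s) * (a + s * ‖p‖) ^ 2 :=
    mul_le_mul_of_nonneg_left h5 (by linarith)
  nlinarith

variable [CompactSpace M] {G : GeoData n M}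

lemma continuous_Dd {u : M → ℝ} (hu : CConv u) (y : M) : Continuous (fun x => Dd u x y) := by
  have h1 := CConv.continuous hu
  have h2 := continuous_halfDistSq (M := M)
  unfold Dd
  fun_prop

lemma isCompact_sec {u : M → ℝ} (hu : CConv u) (y : M) (h : ℝ) :
    IsCompact {x : M | Dd u x y ≤ h} :=
  (isClosed_le (continuous_Dd hu y) continuous_const).isCompact

lemma exists_contact {u : M → ℝ} (hu : CConv u) (y : M) : ∃ x, Dd u x y = 0 := by
  obtain ⟨x, hx⟩ := CConv_ctr (CConv.continuous hu) y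
  refine ⟨x, ?_⟩
  rw [Dd_eq_zero (CConv.continuous hu)]
  exact (mem_cSub_ctr_iff hu x y).1 hx

lemma continuous_cost (y : M) : Continuous (fun x : M => halfDistSq x y) := by
  have h2 := continuous_halfDistSq (M := M)
  fun_prop

/-- the nearest point of the section. -/
theorem exists_nearest {u : M → ℝ} (hu : CConv u) (y : M) {h : ℝ} (hh : 0 ≤ h) :
    ∃ x : M, Dd u x y ≤ h ∧ ∀ x' : M, Dd u x' y ≤ h → halfDistSq x y ≤ halfDistSq x' y := by
  obtain ⟨x0, hx0⟩ := exists_contact hu y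
  obtain ⟨x, hx, hmin⟩ := (isCompact_sec hu y h).exists_isMinOn ⟨x0, by
    show Dd u x0 y ≤ h
    rw [hx0]; exact hh⟩ (continuous_cost y).continuousOn
  exact ⟨x, hx, fun x' hx' => hmin hx'⟩

/-- the nearest velocity of the section. -/
theorem exists_nearest_vel (G : GeoData n M) {u : M → ℝ} (hu : CConv u) (y : M) {h : ℝ}
    (hh : 0 ≤ h) : ∃ q ∈ QS G u y h, ∀ w ∈ QS G u y h, ‖q‖ ≤ ‖w‖ := by
  obtain ⟨x, hx, hmin⟩ := exists_nearest hu y hh
  obtain ⟨q, hq, hqx⟩ := exists_mem_QS G hx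
  refine ⟨q, hq, fun w hw => ?_⟩
  have h1 := hmin _ hw.2
  rw [← hqx, halfDistSq_ex' hq.1, halfDistSq_ex' hw.1] at h1
  have h2 : ‖q‖ ^ 2 ≤ ‖w‖ ^ 2 := by linarith
  exact (sq_le_sq₀ (norm_nonneg _) (norm_nonneg _)).1 h2

/-- **the far point** (1752 (a)).  `K > 1`, `(K-1) h ≤ 2 δ A(y₀,h)` and `A(y₀,K h) ≤ (1+δ) A(y₀,h)`.
There are `x~` in the open section of height `K h` and a contact `y*` of `x~` such that
`c(x~,y₀) ≥ max_{X_h} c(·,y₀) - 2δA/(K-1)` and for every `x`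
`D(x,y*) ≥ D(x,y₀) - D(x~,y₀) + s (c(x~,y₀) - c(x,y₀))`, `s = (K-1)h/(2δA)`; moreover `y*` is not
farther from `x~` than `y₀`. -/
theorem exists_far' (hC : CutFacts G) (hD : DFacts G) (hg : GoodAll G) {u : M → ℝ} (hu : CConv u)
    (y0 : M) {h K δ : ℝ} (hh : 0 < h) (hK : 1 < K) (hδ : 0 < δ)
    (hA : (K - 1) * h ≤ 2 * δ * osc u y0 h)
    (hng : osc u y0 (K * h) ≤ (1 + δ) * osc u y0 h) :
    ∃ xt ys : M, Dd u xt y0 < K * h ∧ ys ∈ cSub u xt ∧
      (∀ x, Dd u x y0 ≤ h →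
        halfDistSq x y0 ≤ halfDistSq xt y0 + 2 * δ * osc u y0 h / (K - 1)) ∧
      (∀ x, Dd u x y0 - Dd u xt y0 +
        ((K - 1) * h / (2 * δ * osc u y0 h)) * (halfDistSq xt y0 - halfDistSq x y0) ≤
          Dd u x ys) ∧ dist xt ys ≤ dist xt y0 := by
  set A : ℝ := osc u y0 h with hAdef
  have hK1 : 0 < K - 1 := by linarith
  have hKh : 0 < (K - 1) * h := by positivity
  have hA2 : 0 < 2 * δ * A := lt_of_lt_of_le hKh hA
  have hA0 : 0 < A := by
    by_contra hneg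
    push Not at hneg
    have : 2 * δ * A ≤ 0 := mul_nonpos_of_nonneg_of_nonpos (by positivity) hneg
    linarith
  set lam : ℝ := 2 * δ * A / ((K - 1) * h) with hlam
  have hlam1 : 1 ≤ lam := by
    rw [hlam, le_div_iff₀ hKh]; linarith
  have hlam0 : 0 < lam := by linarith
  set s : ℝ := (K - 1) * h / (2 * δ * A) with hs
  have hslam : s * lam = 1 := by
    rw [hs, hlam]; field_simp
  have hs0 : 0 < s := by positivity
  have hs1 : s ≤ 1 := by
    rw [hs, div_le_one hA2]; exact hA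
  have hhK : h ≤ K * h := by nlinarith
  -- the maximiser of `c - λ D`
  have hcont : Continuous (fun x : M => halfDistSq x y0 - lam * Dd u x y0) :=
    (continuous_cost y0).sub ((continuous_Dd hu y0).const_mul lam)
  obtain ⟨x0, hx0⟩ := exists_contact hu y0
  obtain ⟨xt, hxt, hmax⟩ := (isCompact_sec hu y0 (K * h)).exists_isMaxOn ⟨x0, by
    show Dd u x0 y0 ≤ K * h
    rw [hx0]; positivity⟩ hcont.continuousOn
  have hmax' : ∀ x, Dd u x y0 ≤ K * h →
      halfDistSq x y0 - lam * Dd u x y0 ≤ halfDistSq xt y0 - lam * Dd u xt y0 :=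
    fun x hx => hmax hx
  have hxt0 : 0 ≤ Dd u xt y0 := Dd_nonneg (CConv.continuous hu) _ _
  -- max and min of the cost on `X_h`
  obtain ⟨xm, hxm, hxm'⟩ := (isCompact_sec hu y0 h).exists_isMaxOn ⟨x0, by
    show Dd u x0 y0 ≤ h
    rw [hx0]; exact hh.le⟩ (continuous_cost y0).continuousOn
  have hxm'' : ∀ x, Dd u x y0 ≤ h → halfDistSq x y0 ≤ halfDistSq xm y0 := fun x hx => hxm' hx
  obtain ⟨xn, hxn, hxn'⟩ := exists_nearest hu y0 hh.le
  have hxmh : Dd u xm y0 ≤ h := hxm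
  have hAle : A ≤ halfDistSq xm y0 - halfDistSq xn y0 := by
    refine osc_le ?_ ?_
    · have := hxn' xm hxmh; linarith
    · intro x x' hx hx'
      have h1 := hxm'' x hx
      have h2 := hxn' x' hx'
      linarith
  have hlamh : lam * ((K - 1) * h) = 2 * δ * A := by
    rw [hlam]; field_simp
  -- `D(x~,y₀) < K h`
  have hlt : Dd u xt y0 < K * h := by
    by_contra hneg
    push Not at hneg
    have h1 := hmax' xm (hxmh.trans hhK)
    have h2 : lam * Dd u xm y0 ≤ lam * h := mul_le_mul_of_nonneg_left hxmh hlam0.le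
    have h3 : lam * (K * h) ≤ lam * Dd u xt y0 := mul_le_mul_of_nonneg_left hneg hlam0.le
    have h4 : halfDistSq xt y0 - halfDistSq xn y0 ≤ osc u y0 (K * h) :=
      sub_le_osc hxt (hxn.trans hhK)
    have h5 : lam * (K * h) - lam * h = 2 * δ * A := by rw [← hlamh]; ring
    nlinarith [mul_pos hδ hA0]
  -- the contact `y*`
  obtain ⟨p, hp, hpy⟩ := exists_mem_K G xt y0
  set ys : M := G.ex xt ((1 - s) • p) with hys
  have key : ∀ x, Dd u x y0 - Dd u xt y0 + s * (halfDistSq xt y0 - halfDistSq x y0) ≤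
      Dd u x ys - Dd u xt ys := by
    intro x
    have h1 := tri_ineq hp hs0.le hs1 x
    rw [hpy, ← hys] at h1
    unfold Dd
    nlinarith
  have hloc : ys ∈ cSub u xt := by
    refine mem_cSub_of_localMin hC hD hg hu ?_
    have hopen : IsOpen {x : M | Dd u x y0 < K * h} :=
      isOpen_lt (continuous_Dd hu y0) continuous_const
    filter_upwards [hopen.mem_nhds hlt] with x hx
    have h1 := hmax' x (le_of_lt hx)
    have h2 := key x
    have h3 : 0 ≤ Dd u x y0 - Dd u xt y0 + s * (halfDistSq xt y0 - halfDistSq x y0) := by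
      have h4 : s * (halfDistSq x y0 - halfDistSq xt y0) ≤
          s * (lam * Dd u x y0 - lam * Dd u xt y0) :=
        mul_le_mul_of_nonneg_left (by linarith) hs0.le
      have h5 : s * (lam * Dd u x y0 - lam * Dd u xt y0) = Dd u x y0 - Dd u xt y0 := by
        calc s * (lam * Dd u x y0 - lam * Dd u xt y0)
            = (s * lam) * (Dd u x y0 - Dd u xt y0) := by ring
          _ = _ := by rw [hslam, one_mul]
      nlinarith
    unfold Dd at h2 h3
    linarith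
  refine ⟨xt, ys, hlt, hloc, ?_, ?_, ?_⟩
  · intro x hx
    have h1 := hmax' xm (hxmh.trans hhK)
    have h2 := hxm'' x hx
    have h3 : lam * Dd u xm y0 ≤ lam * h := mul_le_mul_of_nonneg_left hxmh hlam0.le
    have h4 : 0 ≤ lam * Dd u xt y0 := by positivity
    have h5 : lam * h = 2 * δ * A / (K - 1) := by
      rw [hlam]; field_simp
    linarith
  · intro x
    have h1 := key x
    have h2 : Dd u xt ys = 0 := (Dd_eq_zero (CConv.continuous hu)).2 hloc
    rw [h2] at h1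
    linarith
  · have h1 : dist xt (G.ex xt p) = ‖p‖ := hp
    rw [hpy] at h1
    rw [h1]
    have := G.dist_le xt p 0 (1 - s)
    rw [zero_smul, G.ex_zero, zero_sub, abs_neg, abs_of_nonneg (by linarith)] at this
    refine this.trans ?_
    have h2 : 0 ≤ ‖p‖ := norm_nonneg _
    nlinarith

/-- `exists_far'` without the last statement. -/
theorem exists_far (hC : CutFacts G) (hD : DFacts G) (hg : GoodAll G) {u : M → ℝ} (hu : CConv u)
    (y0 : M) {h K δ : ℝ} (hh : 0 < h) (hK : 1 < K) (hδ : 0 < δ)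
    (hA : (K - 1) * h ≤ 2 * δ * osc u y0 h)
    (hng : osc u y0 (K * h) ≤ (1 + δ) * osc u y0 h) :
    ∃ xt ys : M, Dd u xt y0 < K * h ∧ ys ∈ cSub u xt ∧
      (∀ x, Dd u x y0 ≤ h →
        halfDistSq x y0 ≤ halfDistSq xt y0 + 2 * δ * osc u y0 h / (K - 1)) ∧
      (∀ x, Dd u x y0 - Dd u xt y0 +
        ((K - 1) * h / (2 * δ * osc u y0 h)) * (halfDistSq xt y0 - halfDistSq x y0) ≤
          Dd u x ys) := by
  obtain ⟨xt, ys, h1, h2, h3, h4, -⟩ := exists_far' hC hD hg hu y0 hh hK hδ hA hng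
  exact ⟨xt, ys, h1, h2, h3, h4⟩

/-- the distance of levels between the far point and the nearest point of the section of height
`K h`: `c(x~,y₀) - c(x_⊥,y₀) ≥ (1 - 2δ/(K-1)) A`. -/
theorem far_level {u : M → ℝ} (hu : CConv u) {y0 xt : M} {h B : ℝ} (hh : 0 ≤ h)
    (hfar : ∀ x, Dd u x y0 ≤ h → halfDistSq x y0 ≤ halfDistSq xt y0 + B) {xp : M}
    (hxp : ∀ x, Dd u x y0 ≤ h → halfDistSq xp y0 ≤ halfDistSq x y0) :
    osc u y0 h - B ≤ halfDistSq xt y0 - halfDistSq xp y0 := by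
  obtain ⟨x0, hx0⟩ := exists_contact hu y0
  have h0 : Dd u x0 y0 ≤ h := by rw [hx0]; exact hh
  have h1 : osc u y0 h ≤ halfDistSq xt y0 - halfDistSq xp y0 + B := by
    refine osc_le ?_ ?_
    · have := hfar x0 h0; have := hxp x0 h0; linarith
    · intro x x' hx hx'
      have := hfar x hx
      have := hxp x' hx'
      linarith
  linarith

/-! ### the core -/

/-- `F_y(q) = |q|²/2 - c(exp_{y₀} q, y)`. -/
noncomputable def Fq (G : GeoData n M) (y0 y : M) (q : TangentSpace (𝓡 n) y0) : ℝ :=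
  ‖q‖ ^ 2 / 2 - halfDistSq (G.ex y0 q) y

/-- exact formula for the gap with respect to another target. -/
theorem Dd_sub {u : M → ℝ} {y0 y : M} {q q' : TangentSpace (𝓡 n) y0} (hq : q ∈ G.K y0)
    (hq' : q' ∈ G.K y0) : Dd u (G.ex y0 q) y - Dd u (G.ex y0 q') y =
      Dd u (G.ex y0 q) y0 - Dd u (G.ex y0 q') y0 + Fq G y0 y q' - Fq G y0 y q := by
  unfold Dd Fq
  rw [halfDistSq_ex' hq, halfDistSq_ex' hq']
  ring

/-- (Fam) for `F_y`: `F_y + μ|q|²/2` is quasiconvex on `K(y₀)`, `μ ≥ 0`. -/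
theorem fam (hg : GoodAll G) {y0 : M} (y : M) {μ : ℝ} (hμ : 0 ≤ μ)
    {p q : TangentSpace (𝓡 n) y0} (hp : p ∈ G.K y0) (hq : q ∈ G.K y0) {a b : ℝ} (ha : 0 ≤ a)
    (hb : 0 ≤ b) (hab : a + b = 1) :
    Fq G y0 y (a • p + b • q) + μ * (‖a • p + b • q‖ ^ 2 / 2) ≤
      max (Fq G y0 y p + μ * (‖p‖ ^ 2 / 2)) (Fq G y0 y q + μ * (‖q‖ ^ 2 / 2)) := by
  have hU : CConv (fun z : M => -halfDistSq z y) := fun z => ⟨y, fun z' => by
    show -halfDistSq z y + halfDistSq z y ≤ -halfDistSq z' y + halfDistSq z' y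
    linarith⟩
  have h1 := quasi_fam hg hU (μ := 1 + μ) (by linarith) hp hq ha hb hab
  unfold Fq
  have e : ∀ X Y : ℝ, X - Y + μ * X = -Y + (1 + μ) * X := by intro X Y; ring
  rw [e, e, e]
  exact h1

/-- three collinear velocities `q_e, q', q_x`, `q' = a q_e + b q_x`. -/
theorem fam_bound (hg : GoodAll G) {y0 : M} (y : M) {H r N : ℝ} (hH : 0 < H) (hr : 0 < r)
    (hN : 0 ≤ N) {qe qx : TangentSpace (𝓡 n) y0} (hqe : qe ∈ G.K y0) (hqx : qx ∈ G.K y0) {a b : ℝ}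
    (ha : 0 ≤ a) (hb : 0 ≤ b) (hab : a + b = 1)
    (hF : Fq G y0 y qe ≤ Fq G y0 y (a • qe + b • qx) + H)
    (h1 : r ≤ ‖a • qe + b • qx‖ ^ 2 / 2 - ‖qe‖ ^ 2 / 2)
    (h2 : ‖qx‖ ^ 2 / 2 - ‖a • qe + b • qx‖ ^ 2 / 2 ≤ N * r) :
    Fq G y0 y (a • qe + b • qx) - Fq G y0 y qx ≤ N * H := by
  by_contra hneg
  push Not at hneg
  set q' := a • qe + b • qx with hq'
  set η : ℝ := Fq G y0 y q' - Fq G y0 y qx - N * H with hη
  have hη0 : 0 < η := by linarith
  set μ : ℝ := (H + η / (2 * (N + 1))) / r with hμ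
  have hN1 : 0 < N + 1 := by linarith
  have hμ0 : 0 < μ := by positivity
  have hμr : μ * r = H + η / (2 * (N + 1)) := by rw [hμ]; field_simp
  have h3 := fam hg y hμ0.le hqe hqx ha hb hab
  rw [← hq'] at h3
  have h4 : Fq G y0 y qe + μ * (‖qe‖ ^ 2 / 2) < Fq G y0 y q' + μ * (‖q'‖ ^ 2 / 2) := by
    have h5 : μ * r ≤ μ * (‖q'‖ ^ 2 / 2 - ‖qe‖ ^ 2 / 2) := mul_le_mul_of_nonneg_left h1 hμ0.le
    have h6 : 0 < η / (2 * (N + 1)) := by positivity
    nlinarith
  have h5 : Fq G y0 y qx + μ * (‖qx‖ ^ 2 / 2) < Fq G y0 y q' + μ * (‖q'‖ ^ 2 / 2) := by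
    have h6 : μ * (‖qx‖ ^ 2 / 2 - ‖q'‖ ^ 2 / 2) ≤ μ * (N * r) :=
      mul_le_mul_of_nonneg_left h2 hμ0.le
    have h7 : μ * (N * r) = N * H + N * (η / (2 * (N + 1))) := by
      calc μ * (N * r) = N * (μ * r) := by ring
        _ = _ := by rw [hμr]; ring
    have h8 : N * (η / (2 * (N + 1))) < η := by
      have h9 : N * (η / (2 * (N + 1))) = (N / (N + 1)) * (η / 2) := by field_simp
      have h10 : N / (N + 1) ≤ 1 := by rw [div_le_one hN1]; linarith
      have h11 : (N / (N + 1)) * (η / 2) ≤ 1 * (η / 2) :=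
        mul_le_mul_of_nonneg_right h10 (by linarith)
      linarith
    nlinarith
  exact absurd h3 (not_le.2 (max_lt h4 h5))

/-- **the core** (1752 (b1), 1855 (2)): `q_⊥` the nearest velocity of the section of height `H`,
`q_x` and `q` in the section with `|q| ≤ |q_x|`.  Every contact `y` of the core point
`q' = q_c + (1/8)(q - q_c)`, `q_c = (q_⊥+q_x)/2`, satisfies `D(exp q_x, y) ≤ 28 H`. -/
theorem core_le (hg : GoodAll G) {u : M → ℝ} (hu : CConv u) {y0 : M} {H : ℝ} (hH : 0 < H)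
    {qp qx q : TangentSpace (𝓡 n) y0} (hqp : qp ∈ QS G u y0 H)
    (hmin : ∀ w ∈ QS G u y0 H, ‖qp‖ ≤ ‖w‖) (hqx : qx ∈ QS G u y0 H) (hlt : ‖qp‖ < ‖qx‖)
    (hq : q ∈ QS G u y0 H) (hle : ‖q‖ ≤ ‖qx‖) {y : M}
    (hy : y ∈ cSub u (G.ex y0 (coreP qp qx q))) :
    Dd u (G.ex y0 qx) y ≤ 28 * H := by
  have hQ := convex_QS hg hu y0 H
  have hc := coreP_mem hQ hqp hqx hq
  have he := extP_mem hQ hqp hqx hq
  obtain ⟨n1, n2⟩ := core_num hQ hqp hmin hqx hq hle
  have huc := CConv.continuous hu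
  have hy0 : Dd u (G.ex y0 (coreP qp qx q)) y = 0 := (Dd_eq_zero huc).2 hy
  have hpos : 0 < (‖qx‖ ^ 2 / 2 - ‖qp‖ ^ 2 / 2) / 27 := by
    have : ‖qp‖ ^ 2 < ‖qx‖ ^ 2 := by
      have := norm_nonneg qp
      gcongr
    linarith
  have e1 := coreP_eq qp qx q
  have hF : Fq G y0 y (extP qp qx q) ≤ Fq G y0 y (coreP qp qx q) + H := by
    have h1 := Dd_sub (u := u) (y := y) he.1 hc.1
    have h2 := Dd_nonneg huc (G.ex y0 (extP qp qx q)) y
    have h3 := Dd_nonneg huc (G.ex y0 (coreP qp qx q)) y0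
    have h4 := he.2
    linarith
  have h1 : Fq G y0 y (coreP qp qx q) - Fq G y0 y qx ≤ 27 * H := by
    rw [e1] at hF n1 n2 ⊢
    refine fam_bound hg y hH hpos (by norm_num) he.1 hqx.1 (by norm_num) (by norm_num)
      (by norm_num) hF n1 ?_
    linarith
  have h2 := Dd_sub (u := u) (y := y) hqx.1 hc.1
  have h3 := Dd_nonneg huc (G.ex y0 (coreP qp qx q)) y0
  have h4 := hqx.2
  linarith

end Geo

end Crest.Agent.R226.Far977
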