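/-
R226 / E (helper977): leaf (L6a) of the scheme 1752/1855: the exact parts of (c) and (d).
* `qqin`: the inward quasiconvexity inequality with constant `4` (doc 883);
* `slope_ineq`: `(1-t)⁴ (f(1)-f(a)) ≤ (1-a)⁴ (f(1)-f(t))₊` on `K(x)`-chords while `f > 0`;
* `copies_disjoint`: the copies of the core towards `p*` are disjoint;
* `far_contact`: (d), exact part.
-/
import Crest.Agent.R226.Far_977
import Crest.Agent.R226.NS1Def_683
import Crest.Agent.R226.WOff_915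
import Crest.Agent.R226.Base_347

set_option autoImplicit false
set_option linter.unusedSectionVars false

open MeasureTheory Bundle Set Filter Asymptotics
open scoped Manifold ContDiff Bundle ENNReal Topology
open Crest.GeometryTopology.MTW

namespace Crest.Agent.R226.Copy977

open Crest.Agent.R226 Crest.Agent.R226.Kant624 Crest.Agent.R226.Reduction624
  Crest.Agent.R226.HolderEnd915 Crest.Agent.R226.E1Shape964 Crest.Agent.R226.Dasm290
  Crest.Agent.R226.Osc977 Crest.Agent.R226.Far977 Crest.Agent.R226.NS683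

/-! ### real analysis -/

section Real

/-- backward Gronwall: if `φ(s) - φ(σ) ≤ (4 (φ₁ - φ(s))₊/(1-s) + ε)(s-σ)` for `σ < s` close to `s`,
then `(1-t)⁴ (φ₁ - φ(a)) ≤ (1-a)⁴ (φ₁ - φ(t))₊`. -/
theorem gronwall_pow {φ : ℝ → ℝ} {φ1 a t : ℝ} (hat : a ≤ t) (ht : t < 1)
    (hcont : ContinuousOn φ (Icc a t))
    (hd : ∀ s, a < s → s ≤ t → ∀ r, 4 * max 0 (φ1 - φ s) / (1 - s) < r →
      ∀ᶠ σ in 𝓝[<] s, φ s - φ σ ≤ r * (s - σ)) :
    (1 - t) ^ 4 * (φ1 - φ a) ≤ (1 - a) ^ 4 * max 0 (φ1 - φ t) := by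
  set m : ℝ := max 0 (φ1 - φ t) with hm
  have hm0 : 0 ≤ m := le_max_left _ _
  have h1t : 0 < 1 - t := by linarith
  set T : ℝ := t - a with hT
  have hT0 : 0 ≤ T := by rw [hT]; linarith
  -- the key bound for every `ε > 0`
  have key : ∀ ε : ℝ, 0 < ε → φ1 - φ a ≤
      (m + ε) * ((1 - t)⁻¹ ^ 4 * (1 - t + T) ^ 4) * (1 + ε * T) := by
    intro ε hε
    have hv : ContinuousOn (fun r : ℝ => φ1 - φ (t - r)) (Icc 0 T) := by
      refine continuousOn_const.sub (hcont.comp (by fun_prop) ?_)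
      intro r hr
      constructor
      · have := hr.2; rw [hT] at this; linarith
      · have := hr.1; linarith
    have hBd : ∀ r : ℝ, HasDerivAt
        (fun r : ℝ => (m + ε) * ((1 - t)⁻¹ ^ 4 * (1 - t + r) ^ 4) * (1 + ε * r))
        ((m + ε) * ((1 - t)⁻¹ ^ 4 * (4 * (1 - t + r) ^ 3)) * (1 + ε * r) +
          (m + ε) * ((1 - t)⁻¹ ^ 4 * (1 - t + r) ^ 4) * ε) r := by
      intro r
      have h1 : HasDerivAt (fun r : ℝ => 1 - t + r) 1 r := (hasDerivAt_id r).const_add _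
      have h2 : HasDerivAt (fun r : ℝ => (1 - t + r) ^ 4) (4 * (1 - t + r) ^ 3 * 1) r := by
        have := h1.fun_pow 4
        simpa using this
      have h3 := (h2.const_mul ((1 - t)⁻¹ ^ 4)).const_mul (m + ε)
      have h4 : HasDerivAt (fun r : ℝ => 1 + ε * r) (ε * 1) r :=
        ((hasDerivAt_id r).const_mul ε).const_add _
      have h5 := h3.mul h4
      refine h5.congr_deriv ?_
      ring
    have := image_le_of_liminf_slope_right_lt_deriv_boundary' (f := fun r : ℝ => φ1 - φ (t - r))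
      (f' := fun r => 4 * max 0 (φ1 - φ (t - r)) / (1 - (t - r)))
      (a := 0) (b := T) hv ?_
      (B := fun r : ℝ => (m + ε) * ((1 - t)⁻¹ ^ 4 * (1 - t + r) ^ 4) * (1 + ε * r))
      (B' := fun r : ℝ => (m + ε) * ((1 - t)⁻¹ ^ 4 * (4 * (1 - t + r) ^ 3)) * (1 + ε * r) +
          (m + ε) * ((1 - t)⁻¹ ^ 4 * (1 - t + r) ^ 4) * ε)
      ?_ (fun r _ => (hBd r).continuousAt.continuousWithinAt)
      (fun r _ => (hBd r).hasDerivWithinAt) ?_ (right_mem_Icc.2 hT0)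
    · have e : t - T = a := by rw [hT]; ring
      simp only [e] at this
      exact this
    · -- the Dini derivative
      intro x hx r hr
      have hs1 : a < t - x := by have := hx.2; rw [hT] at this; linarith
      have hs2 : t - x ≤ t := by have := hx.1; linarith
      obtain ⟨r', hr'1, hr'2⟩ := exists_between hr
      have h1 := hd (t - x) hs1 hs2 r' hr'1
      have h2 : Tendsto (fun z : ℝ => t - z) (𝓝[>] x) (𝓝[<] (t - x)) := by
        refine tendsto_nhdsWithin_iff.2 ⟨?_, ?_⟩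
        · exact ((continuous_const.sub continuous_id).tendsto x).mono_left nhdsWithin_le_nhds
        · filter_upwards [self_mem_nhdsWithin] with z hz
          have : x < z := hz
          show t - z < t - x
          linarith
      have h3 := h2.eventually h1
      have h4 : ∀ᶠ z in 𝓝[>] x, slope (fun r : ℝ => φ1 - φ (t - r)) x z < r := by
        filter_upwards [h3, self_mem_nhdsWithin] with z hz hz2
        have hxz : 0 < z - x := sub_pos.2 hz2
        rw [slope_def_field, div_lt_iff₀ hxz]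
        have : φ (t - x) - φ (t - z) ≤ r' * (z - x) := by
          have e : t - x - (t - z) = z - x := by ring
          rw [e] at hz; exact hz
        have : r' * (z - x) < r * (z - x) := by gcongr
        linarith
      exact h4.frequently
    · -- initial
      have e : (1 - t)⁻¹ ^ 4 * (1 - t + 0) ^ 4 = 1 := by
        rw [add_zero, ← mul_pow, inv_mul_cancel₀ h1t.ne', one_pow]
      simp only [sub_zero]
      rw [e]
      have := le_max_right 0 (φ1 - φ t)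
      rw [← hm] at this
      linarith
    · -- strict inequality at touching points
      intro x hx hxe
      have hx0 := hx.1
      have hP : 0 < (m + ε) * ((1 - t)⁻¹ ^ 4 * (1 - t + x) ^ 4) := by
        have : 0 < 1 - t + x := by linarith
        have : 0 < (1 - t)⁻¹ := inv_pos.2 h1t
        positivity
      have hB0 : 0 < (m + ε) * ((1 - t)⁻¹ ^ 4 * (1 - t + x) ^ 4) * (1 + ε * x) := by
        have : 0 < 1 + ε * x := by positivity
        positivity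
      have h1 : φ1 - φ (t - x) = (m + ε) * ((1 - t)⁻¹ ^ 4 * (1 - t + x) ^ 4) * (1 + ε * x) := hxe
      have hx1 : 0 < 1 - t + x := by linarith
      have e1 : 1 - (t - x) = 1 - t + x := by ring
      show 4 * max 0 (φ1 - φ (t - x)) / (1 - (t - x)) < _
      rw [h1, max_eq_right hB0.le, e1]
      have e2 : 4 * ((m + ε) * ((1 - t)⁻¹ ^ 4 * (1 - t + x) ^ 4) * (1 + ε * x)) / (1 - t + x) =
          (m + ε) * ((1 - t)⁻¹ ^ 4 * (4 * (1 - t + x) ^ 3)) * (1 + ε * x) := by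
        field_simp
      rw [e2]
      have : 0 < (m + ε) * ((1 - t)⁻¹ ^ 4 * (1 - t + x) ^ 4) * ε := mul_pos hP hε
      linarith
  have hlim : Tendsto (fun ε : ℝ => (m + ε) * ((1 - t)⁻¹ ^ 4 * (1 - t + T) ^ 4) * (1 + ε * T))
      (𝓝[>] 0) (𝓝 ((m + 0) * ((1 - t)⁻¹ ^ 4 * (1 - t + T) ^ 4) * (1 + 0 * T))) := by
    have hc : Continuous (fun ε : ℝ =>
      (m + ε) * ((1 - t)⁻¹ ^ 4 * (1 - t + T) ^ 4) * (1 + ε * T)) := by fun_prop
    exact (hc.tendsto 0).mono_left nhdsWithin_le_nhds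
  have h2 : φ1 - φ a ≤ (m + 0) * ((1 - t)⁻¹ ^ 4 * (1 - t + T) ^ 4) * (1 + 0 * T) := by
    refine ge_of_tendsto hlim ?_
    filter_upwards [self_mem_nhdsWithin] with ε hε
    exact key ε hε
  have e3 : 1 - t + T = 1 - a := by rw [hT]; ring
  rw [e3] at h2
  have h3 : (1 - t) ^ 4 * (φ1 - φ a) ≤
      (1 - t) ^ 4 * ((m + 0) * ((1 - t)⁻¹ ^ 4 * (1 - a) ^ 4) * (1 + 0 * T)) :=
    mul_le_mul_of_nonneg_left h2 (by positivity)
  refine h3.trans (le_of_eq ?_)
  have : (1 - t) ^ 4 * (1 - t)⁻¹ ^ 4 = 1 := by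
    rw [← mul_pow, mul_inv_cancel₀ h1t.ne', one_pow]
  calc (1 - t) ^ 4 * ((m + 0) * ((1 - t)⁻¹ ^ 4 * (1 - a) ^ 4) * (1 + 0 * T))
      = ((1 - t) ^ 4 * (1 - t)⁻¹ ^ 4) * ((1 - a) ^ 4 * m) := by ring
    _ = _ := by rw [this, one_mul]

end Real

/-! ### (QQin) -/

section QQ

variable {n : ℕ} {M : Type*} [MetricSpace M] [ChartedSpace (EuclideanSpace ℝ (Fin n)) M]
  [IsManifold (𝓡 n) ∞ M]
  [RiemannianBundle (fun p : M => TangentSpace (𝓡 n) p)] [CompactSpace M]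

/-- `|q0 + τ v|²`. -/
theorem norm_sq_line {E : Type*} [NormedAddCommGroup E] [InnerProductSpace ℝ E] (q v : E) (τ : ℝ) :
    ‖q + τ • v‖ ^ 2 = ‖q‖ ^ 2 + 2 * τ * inner ℝ q v + τ ^ 2 * ‖v‖ ^ 2 := by
  rw [norm_add_sq_real, inner_smul_right, norm_smul, mul_pow, Real.norm_eq_abs, sq_abs]
  ring

/-- `fam` with an explicit slope: if `ρ(q₀) > ρ(q₁)` then
`g(τ) - g(0) ≤ (ρ₀ - ρ_τ)/(ρ₀ - ρ₁) (g(1) - g(0))₊`. -/
theorem fam_slope {G : GeoData n M} (hg : GoodAll G) {y : M} (y' : M)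
    {q0 q1 : TangentSpace (𝓡 n) y} (h0 : q0 ∈ G.K y) (h1 : q1 ∈ G.K y) {D : ℝ} (hD : 0 ≤ D)
    (hgD : Fq G y y' q1 - Fq G y y' q0 ≤ D) (hlt : 0 < ‖q0‖ ^ 2 / 2 - ‖q1‖ ^ 2 / 2)
    {τ : ℝ} (ht0 : 0 ≤ τ) (ht1 : τ ≤ 1) :
    (‖q0‖ ^ 2 / 2 - ‖q1‖ ^ 2 / 2) * (Fq G y y' (q0 + τ • (q1 - q0)) - Fq G y y' q0) ≤
      (‖q0‖ ^ 2 / 2 - ‖q0 + τ • (q1 - q0)‖ ^ 2 / 2) * D := by
  set d : ℝ := ‖q0‖ ^ 2 / 2 - ‖q1‖ ^ 2 / 2 with hd
  have hμ : 0 ≤ D / d := by positivity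
  have h2 := fam hg y' hμ h0 h1 (a := 1 - τ) (b := τ) (by linarith) ht0 (by ring)
  have e : (1 - τ) • q0 + τ • q1 = q0 + τ • (q1 - q0) := by module
  rw [e] at h2
  have h3 : max (Fq G y y' q0 + D / d * (‖q0‖ ^ 2 / 2)) (Fq G y y' q1 + D / d * (‖q1‖ ^ 2 / 2)) ≤
      Fq G y y' q0 + D / d * (‖q0‖ ^ 2 / 2) := by
    refine max_le le_rfl ?_
    have h4 : D / d * d = D := by field_simp
    have h5 : D / d * (‖q0‖ ^ 2 / 2) - D / d * (‖q1‖ ^ 2 / 2) = D := by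
      rw [← mul_sub, ← hd, h4]
    linarith
  have h6 : Fq G y y' (q0 + τ • (q1 - q0)) - Fq G y y' q0 ≤
      D / d * (‖q0‖ ^ 2 / 2 - ‖q0 + τ • (q1 - q0)‖ ^ 2 / 2) := by
    have := h2.trans h3
    linarith
  calc d * (Fq G y y' (q0 + τ • (q1 - q0)) - Fq G y y' q0)
      ≤ d * (D / d * (‖q0‖ ^ 2 / 2 - ‖q0 + τ • (q1 - q0)‖ ^ 2 / 2)) :=
        mul_le_mul_of_nonneg_left h6 hlt.le
    _ = _ := by field_simp

/-- **(QQin)** (doc 883): inward chords, all targets. -/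
theorem qqin {G : GeoData n M} (hg : GoodAll G) {y : M} (y' : M) {q0 q1 : TangentSpace (𝓡 n) y}
    (h0 : q0 ∈ G.K y) (h1 : q1 ∈ G.K y) (hle : ‖q1‖ ≤ ‖q0‖) {D : ℝ} (hD : 0 ≤ D)
    (hgD : Fq G y y' q1 - Fq G y y' q0 ≤ D) {τ : ℝ} (ht0 : 0 ≤ τ) (ht1 : τ ≤ 1) :
    Fq G y y' (q0 + τ • (q1 - q0)) - Fq G y y' q0 ≤ 4 * τ * D := by
  set v := q1 - q0 with hv
  set i : ℝ := inner ℝ q0 v with hi
  set b : ℝ := ‖v‖ ^ 2 with hb
  have hb0 : 0 ≤ b := by positivity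
  have hline : ∀ s : ℝ, ‖q0 + s • v‖ ^ 2 = ‖q0‖ ^ 2 + 2 * s * i + s ^ 2 * b :=
    fun s => norm_sq_line q0 v s
  have e1 : q0 + (1 : ℝ) • v = q1 := by rw [hv]; module
  have hq1 : ‖q1‖ ^ 2 = ‖q0‖ ^ 2 + 2 * i + b := by
    have := hline 1
    rw [e1] at this
    linarith
  have hle2 : ‖q1‖ ^ 2 ≤ ‖q0‖ ^ 2 := by gcongr
  -- `a₀ = -i ≥ b/2`
  have ha : b / 2 ≤ -i := by linarith
  have hcK : ∀ s : ℝ, 0 ≤ s → s ≤ 1 → q0 + s • v ∈ G.K y := by
    intro s hs0 hs1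
    have := convex_K hg y h0 h1 (a := 1 - s) (b := s) (by linarith) hs0 (by ring)
    convert this using 1
    rw [hv]; module
  rcases hb0.eq_or_lt with hb' | hbpos
  · -- `v = 0`
    have hv0 : v = 0 := by
      have : ‖v‖ = 0 := by
        have : ‖v‖ ^ 2 = 0 := by rw [← hb]; exact hb'.symm
        exact pow_eq_zero_iff (two_ne_zero) |>.1 this
      exact norm_eq_zero.1 this
    rw [hv0, smul_zero, add_zero, sub_self]
    positivity
  rcases le_or_gt b (-i) with hcase | hcase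
  · -- no foot
    have hdpos : 0 < ‖q0‖ ^ 2 / 2 - ‖q1‖ ^ 2 / 2 := by rw [hq1]; linarith
    have h2 := fam_slope hg y' h0 h1 hD hgD hdpos ht0 ht1
    rw [← hv, hline τ, hq1] at h2
    set X : ℝ := Fq G y y' (q0 + τ • v) - Fq G y y' q0 with hX
    have h3 : (-i - b / 2) * X ≤ (-i * τ - τ ^ 2 * b / 2) * D := by
      refine le_trans (le_of_eq ?_) (h2.trans (le_of_eq ?_)) <;> ring
    by_contra hneg
    push Not at hneg
    have hd2 : 0 < -i - b / 2 := by linarith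
    have h4 : (-i - b / 2) * (4 * τ * D) < (-i - b / 2) * X := by gcongr
    have h5 : (-i * τ - τ ^ 2 * b / 2) * D ≤ (-i - b / 2) * (4 * τ * D) := by
      have : 0 ≤ τ * D := by positivity
      have h6 : (-i - b / 2) * (4 * τ * D) - (-i * τ - τ ^ 2 * b / 2) * D =
          (τ * D) * (4 * (-i - b / 2) - (-i) + τ * b / 2) := by ring
      have h7 : 0 ≤ 4 * (-i - b / 2) - (-i) + τ * b / 2 := by
        have : 0 ≤ τ * b / 2 := by positivity
        linarith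
      have := mul_nonneg this h7
      linarith
    linarith
  · -- the foot `s₁ = -i/b ∈ [1/2, 1)`
    set s1 : ℝ := -i / b with hs1
    have hs1b : s1 * b = -i := by rw [hs1]; field_simp
    have hs1h : 1 / 2 ≤ s1 := by
      rw [hs1, le_div_iff₀ hbpos]; linarith
    have hs1l : s1 < 1 := by
      rw [hs1, div_lt_one hbpos]; exact hcase
    have hs1p : 0 < s1 := by linarith
    have hK1 := hcK s1 hs1p.le hs1l.le
    -- quasiconvexity on the whole segment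
    have hquasi : ∀ s : ℝ, 0 ≤ s → s ≤ 1 → Fq G y y' (q0 + s • v) - Fq G y y' q0 ≤ D := by
      intro s hs0 hs1
      have := fam hg y' (μ := 0) le_rfl h0 h1 (a := 1 - s) (b := s) (by linarith) hs0 (by ring)
      have e : (1 - s) • q0 + s • q1 = q0 + s • v := by rw [hv]; module
      rw [e] at this
      simp only [zero_mul, add_zero] at this
      have h2 : max (Fq G y y' q0) (Fq G y y' q1) ≤ Fq G y y' q0 + D :=
        max_le (by linarith) (by linarith)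
      linarith
    rcases le_or_gt τ s1 with hτ | hτ
    · have hdpos : 0 < ‖q0‖ ^ 2 / 2 - ‖q0 + s1 • v‖ ^ 2 / 2 := by
        rw [hline s1]
        have : s1 ^ 2 * b = s1 * (-i) := by rw [← hs1b]; ring
        rw [this]
        have h8 : 0 < s1 * (-i) := by
          have : 0 < -i := by linarith
          positivity
        linarith
      have h2 := fam_slope hg y' h0 hK1 hD (hquasi s1 hs1p.le hs1l.le) hdpos (τ := τ / s1)
        (by positivity) ((div_le_one hs1p).2 hτ)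
      have e2 : q0 + (τ / s1) • (q0 + s1 • v - q0) = q0 + τ • v := by
        rw [add_sub_cancel_left, smul_smul, div_mul_cancel₀ _ hs1p.ne']
      rw [e2, hline τ, hline s1] at h2
      set X : ℝ := Fq G y y' (q0 + τ • v) - Fq G y y' q0 with hX
      have e3 : s1 ^ 2 * b = s1 * (-i) := by rw [← hs1b]; ring
      have h3 : (s1 * (-i) / 2) * X ≤ (-i * τ - τ ^ 2 * b / 2) * D := by
        rw [e3] at h2
        refine le_trans (le_of_eq ?_) (h2.trans (le_of_eq ?_)) <;> ring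
      have hipos : 0 < -i := by linarith
      by_contra hneg
      push Not at hneg
      have hd2 : 0 < s1 * (-i) / 2 := by positivity
      have h4 : (s1 * (-i) / 2) * (4 * τ * D) < (s1 * (-i) / 2) * X := by gcongr
      have h5 : (-i * τ - τ ^ 2 * b / 2) * D ≤ (s1 * (-i) / 2) * (4 * τ * D) := by
        have h6 : (s1 * (-i) / 2) * (4 * τ * D) - (-i * τ - τ ^ 2 * b / 2) * D =
            (-i) * (2 * s1 - 1) * (τ * D) + τ ^ 2 * b / 2 * D := by ring
        have h7 : 0 ≤ (-i) * (2 * s1 - 1) * (τ * D) := by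
          have : 0 ≤ 2 * s1 - 1 := by linarith
          positivity
        have h8 : 0 ≤ τ ^ 2 * b / 2 * D := by positivity
        linarith
      linarith
    · have h2 := hquasi τ ht0 ht1
      have h3 : 1 * D ≤ 4 * τ * D := by
        have : 1 ≤ 4 * τ := by linarith
        gcongr
      linarith

end QQ

/-! ### the mixed second derivative -/

section Mixed

theorem mixed {h : ℝ × ℝ → ℝ} (hh : ContDiffAt ℝ 2 h (0, 0)) : ∃ κ : ℝ,
    HasDerivAt (fun σ : ℝ => deriv (fun τ : ℝ => h (τ, σ)) 0) κ 0 ∧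
    HasDerivAt (fun τ : ℝ => deriv (fun σ : ℝ => h (τ, σ)) 0) κ 0 ∧
    (∀ᶠ σ : ℝ in 𝓝 0, DifferentiableAt ℝ (fun τ : ℝ => h (τ, σ)) 0) ∧
    (∀ᶠ τ : ℝ in 𝓝 0, DifferentiableAt ℝ (fun σ : ℝ => h (τ, σ)) 0) := by
  have hev : ∀ᶠ z in 𝓝 ((0 : ℝ), (0 : ℝ)), DifferentiableAt ℝ h z := by
    filter_upwards [hh.eventually (by norm_num)] with z hz
    exact hz.differentiableAt (by norm_num)
  have c1 : Tendsto (fun σ : ℝ => ((0 : ℝ), σ)) (𝓝 0) (𝓝 (0, 0)) :=
    Continuous.tendsto (by fun_prop) _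
  have c2 : Tendsto (fun τ : ℝ => (τ, (0 : ℝ))) (𝓝 0) (𝓝 (0, 0)) :=
    Continuous.tendsto (by fun_prop) _
  have l1 : ∀ τ σ : ℝ, HasDerivAt (fun τ : ℝ => (τ, σ)) ((1 : ℝ), (0 : ℝ)) τ := fun τ σ =>
    (hasDerivAt_id τ).prodMk (hasDerivAt_const τ σ)
  have l2 : ∀ τ σ : ℝ, HasDerivAt (fun σ : ℝ => (τ, σ)) ((0 : ℝ), (1 : ℝ)) σ := fun τ σ =>
    (hasDerivAt_const σ τ).prodMk (hasDerivAt_id σ)
  have d1 : ∀ᶠ σ : ℝ in 𝓝 0, HasDerivAt (fun τ : ℝ => h (τ, σ)) (fderiv ℝ h (0, σ) (1, 0)) 0 := by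
    filter_upwards [c1.eventually hev] with σ hσ
    exact HasFDerivAt.comp_hasDerivAt (l := h) (f := fun τ : ℝ => (τ, σ)) 0 hσ.hasFDerivAt
      (l1 0 σ)
  have d2 : ∀ᶠ τ : ℝ in 𝓝 0, HasDerivAt (fun σ : ℝ => h (τ, σ)) (fderiv ℝ h (τ, 0) (0, 1)) 0 := by
    filter_upwards [c2.eventually hev] with τ hτ
    exact HasFDerivAt.comp_hasDerivAt (l := h) (f := fun σ : ℝ => (τ, σ)) 0 hτ.hasFDerivAt
      (l2 τ 0)
  have hf' : HasFDerivAt (fderiv ℝ h) (fderiv ℝ (fderiv ℝ h) (0, 0)) (0, 0) :=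
    ((hh.fderiv_right (m := 1) (by norm_num)).differentiableAt (by norm_num)).hasFDerivAt
  have g1 : HasDerivAt (fun σ : ℝ => fderiv ℝ h (0, σ)) (fderiv ℝ (fderiv ℝ h) (0, 0) (0, 1)) 0 :=
    HasFDerivAt.comp_hasDerivAt (l := fderiv ℝ h) (f := fun σ : ℝ => ((0 : ℝ), σ)) 0 hf' (l2 0 0)
  have g2 : HasDerivAt (fun τ : ℝ => fderiv ℝ h (τ, 0)) (fderiv ℝ (fderiv ℝ h) (0, 0) (1, 0)) 0 :=
    HasFDerivAt.comp_hasDerivAt (l := fderiv ℝ h) (f := fun τ : ℝ => (τ, (0 : ℝ))) 0 hf' (l1 0 0)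
  have g1' := g1.clm_apply (hasDerivAt_const (0 : ℝ) ((1 : ℝ), (0 : ℝ)))
  have g2' := g2.clm_apply (hasDerivAt_const (0 : ℝ) ((0 : ℝ), (1 : ℝ)))
  simp only [map_zero, add_zero] at g1' g2'
  have hsymm : fderiv ℝ (fderiv ℝ h) (0, 0) (0, 1) (1, 0) =
      fderiv ℝ (fderiv ℝ h) (0, 0) (1, 0) (0, 1) := by
    have := hh.isSymmSndFDerivAt (by simp)
    exact this (0, 1) (1, 0)
  refine ⟨fderiv ℝ (fderiv ℝ h) (0, 0) (0, 1) (1, 0), ?_, ?_, ?_, ?_⟩
  · refine g1'.congr_of_eventuallyEq ?_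
    filter_upwards [d1] with σ hσ
    exact hσ.deriv
  · rw [hsymm]
    refine g2'.congr_of_eventuallyEq ?_
    filter_upwards [d2] with τ hτ
    exact hτ.deriv
  · filter_upwards [d1] with σ hσ using hσ.differentiableAt
  · filter_upwards [d2] with τ hτ using hτ.differentiableAt

end Mixed

/-! ### first variations -/

section Var

variable {n : ℕ} {M : Type*} [MetricSpace M] [ChartedSpace (EuclideanSpace ℝ (Fin n)) M]
  [IsManifold (𝓡 n) ∞ M]
  [RiemannianBundle (fun p : M => TangentSpace (𝓡 n) p)]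

/-- first order expansion of the cost at a smooth pair. -/
theorem nc_expand {G : GeoData n M} (hC : CutFacts G) {x : M} {p : TangentSpace (𝓡 n) x}
    (hp : p ∈ G.I x) {ζ : ℝ → TangentSpace (𝓡 n) x} (hζ : ζ =O[𝓝 0] (fun τ : ℝ => τ)) :
    (fun τ : ℝ => halfDistSq (G.ex x (ζ τ)) (G.ex x p) - halfDistSq x (G.ex x p) +
      inner ℝ p (ζ τ)) =o[𝓝 0] (fun τ : ℝ => τ) := by
  have hd : DifferentiableAt ℝ (G.nc x p) 0 :=
    (hC.nc_smooth x p hp).differentiableAt (by simp)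
  have h1 := hd.hasFDerivAt.isLittleO
  have hζ0 : Tendsto ζ (𝓝 0) (𝓝 0) := hζ.trans_tendsto tendsto_id
  have h2 := h1.comp_tendsto hζ0
  have h3 : ((fun τ : ℝ => halfDistSq (G.ex x (ζ τ)) (G.ex x p) - halfDistSq x (G.ex x p) +
      inner ℝ p (ζ τ))) =o[𝓝 0] ζ := by
    refine (h2.congr_left ?_).congr_right ?_
    · intro τ
      simp only [Function.comp_apply, sub_zero]
      rw [hC.nc_fderiv x p hp (ζ τ)]
      unfold GeoData.nc
      rw [G.ex_zero]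
      ring
    · intro τ
      simp
  exact h3.trans_isBigO hζ

/-- the limit of `⟪w, ζ τ⟫/τ` is minus the mixed second derivative of the cost. -/
theorem tendsto_inner {G : GeoData n M} (hC : CutFacts G) {x : M} {p w : TangentSpace (𝓡 n) x}
    (hp : p ∈ G.I x) {ζ : ℝ → TangentSpace (𝓡 n) x} (hζ : ζ =O[𝓝 0] (fun τ : ℝ => τ))
    {h : ℝ → ℝ → ℝ} (hdef : ∀ τ σ, h τ σ = halfDistSq (G.ex x (ζ τ)) (G.ex x (p + σ • w))) {κ : ℝ}
    (hκ : HasDerivAt (fun σ : ℝ => deriv (fun τ : ℝ => h τ σ) 0) κ 0)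
    (hdiff : ∀ᶠ σ : ℝ in 𝓝 0, DifferentiableAt ℝ (fun τ : ℝ => h τ σ) 0) :
    Tendsto (fun τ : ℝ => τ⁻¹ * inner ℝ w (ζ τ)) (𝓝[≠] 0) (𝓝 (-κ)) := by
  have hζz : ζ 0 = 0 := by
    have := hζ.eq_zero_imp
    exact this.self_of_nhds rfl
  have hI : ∀ᶠ σ : ℝ in 𝓝 0, p + σ • w ∈ G.I x := by
    have h1 : Tendsto (fun σ : ℝ => p + σ • w) (𝓝 0) (𝓝 p) := by
      have h2 : Continuous (fun σ : ℝ => p + σ • w) := by fun_prop
      have h3 := h2.tendsto 0
      simpa using h3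
    exact h1.eventually ((hC.base347.isOpen_I x).mem_nhds hp)
  set A : ℝ → ℝ := fun σ => deriv (fun τ : ℝ => h τ σ) 0 with hA
  have hlim : ∀ᶠ σ : ℝ in 𝓝 0,
      Tendsto (fun τ : ℝ => τ⁻¹ * inner ℝ (p + σ • w) (ζ τ)) (𝓝[≠] 0) (𝓝 (-A σ)) := by
    filter_upwards [hI, hdiff] with σ hσ hσd
    have h1 := hσd.hasDerivAt
    rw [hasDerivAt_iff_tendsto_slope_zero] at h1
    have h2 := (nc_expand hC hσ hζ).mono (nhdsWithin_le_nhds (s := {0}ᶜ))
    rw [isLittleO_iff_tendsto' (by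
      filter_upwards [self_mem_nhdsWithin] with τ hτ h0
      exact absurd h0 hτ)] at h2
    have h3 := h2.sub h1
    rw [zero_sub] at h3
    refine h3.congr' ?_
    filter_upwards [self_mem_nhdsWithin] with τ hτ
    have hτ' : τ ≠ 0 := hτ
    simp only [zero_add, smul_eq_mul]
    rw [hdef, hdef, hζz, G.ex_zero]
    field_simp
    ring
  -- pick one small `σ₁ > 0`
  have hlim0 := hlim.self_of_nhds
  obtain ⟨σ1, hσ1, hσ1lim⟩ : ∃ σ1 : ℝ, σ1 ≠ 0 ∧
      Tendsto (fun τ : ℝ => τ⁻¹ * inner ℝ (p + σ1 • w) (ζ τ)) (𝓝[≠] 0) (𝓝 (-A σ1)) := by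
    obtain ⟨σ, hσ, hσ2⟩ := ((hlim.filter_mono (nhdsWithin_le_nhds (s := {(0:ℝ)}ᶜ))).and
      (self_mem_nhdsWithin : ∀ᶠ σ : ℝ in 𝓝[≠] 0, σ ∈ ({0}ᶜ : Set ℝ))).exists
    exact ⟨σ, hσ2, hσ⟩
  have hdiffw : ∀ σ : ℝ,
      Tendsto (fun τ : ℝ => τ⁻¹ * inner ℝ (p + σ • w) (ζ τ)) (𝓝[≠] 0) (𝓝 (-A σ)) →
      Tendsto (fun τ : ℝ => σ * (τ⁻¹ * inner ℝ w (ζ τ))) (𝓝[≠] 0) (𝓝 (A 0 - A σ)) := by
    intro σ hσ
    have h1 := hσ.sub hlim0
    have e : -A σ - -A 0 = A 0 - A σ := by ring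
    rw [e] at h1
    refine h1.congr ?_
    intro τ
    simp only [zero_smul, add_zero]
    rw [inner_add_left, inner_smul_left]
    simp only [conj_trivial]
    ring
  set L : ℝ := σ1⁻¹ * (A 0 - A σ1) with hL
  have hw : Tendsto (fun τ : ℝ => τ⁻¹ * inner ℝ w (ζ τ)) (𝓝[≠] 0) (𝓝 L) := by
    have h1 := (hdiffw σ1 hσ1lim).const_mul σ1⁻¹
    refine h1.congr ?_
    intro τ
    rw [← mul_assoc, inv_mul_cancel₀ hσ1, one_mul]
  have hAL : ∀ᶠ σ : ℝ in 𝓝 0, A σ = A 0 - σ * L := by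
    filter_upwards [hlim] with σ hσ
    have h1 := hdiffw σ hσ
    have h2 := hw.const_mul σ
    have h3 := tendsto_nhds_unique h1 h2
    linarith
  have hder : HasDerivAt A (-L) 0 := by
    have h1 : HasDerivAt (fun σ : ℝ => A 0 - σ * L) (-(1 * L)) 0 :=
      ((hasDerivAt_id (0:ℝ)).mul_const L).const_sub (A 0)
    rw [one_mul] at h1
    exact h1.congr_of_eventuallyEq hAL
  have : κ = -L := hκ.unique hder
  rw [this, neg_neg]
  exact hw

/-- smoothness of `(τ,σ) ↦ c(exp_y(q₀+τv), exp_x(p+σw))` at a smooth pair. -/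
theorem contDiffAt_two {G : GeoData n M} (hC : CutFacts G) {x y : M} {p w : TangentSpace (𝓡 n) x}
    (hp : p ∈ G.I x) {q0 v : TangentSpace (𝓡 n) y} (hq : G.ex y q0 = x) :
    ContDiffAt ℝ ∞ (fun z : ℝ × ℝ => halfDistSq (G.ex y (q0 + z.1 • v)) (G.ex x (p + z.2 • w)))
      (0, 0) := by
  rw [← contMDiffAt_iff_contDiffAt]
  have h1 : ContMDiffAt 𝓘(ℝ, ℝ × ℝ) 𝓘(ℝ, TangentSpace (𝓡 n) y) ∞
      (fun z : ℝ × ℝ => q0 + z.1 • v) (0, 0) := by
    rw [contMDiffAt_iff_contDiffAt]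
    exact contDiffAt_const.add (contDiffAt_fst.smul contDiffAt_const)
  have h2 : ContMDiffAt 𝓘(ℝ, ℝ × ℝ) 𝓘(ℝ, TangentSpace (𝓡 n) x) ∞
      (fun z : ℝ × ℝ => p + z.2 • w) (0, 0) := by
    rw [contMDiffAt_iff_contDiffAt]
    exact contDiffAt_const.add (contDiffAt_snd.smul contDiffAt_const)
  have h3 := ((MTWConc117.contMDiff_ex G y).contMDiffAt (x := q0 + (0:ℝ) • v)).comp
    ((0:ℝ), (0:ℝ)) h1
  have h4 := ((MTWConc117.contMDiff_ex G x).contMDiffAt (x := p + (0:ℝ) • w)).comp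
    ((0:ℝ), (0:ℝ)) h2
  have h5 := hC.smooth_cost x p hp
  refine ContMDiffAt.comp ((0:ℝ), (0:ℝ)) (g := fun q : M × M => halfDistSq q.1 q.2) ?_
    (h3.prodMk h4)
  simp only [Function.comp_apply, zero_smul, add_zero]
  have e : G.ex y q0 = x := hq
  rw [e]
  exact h5

end Var

/-! ### the slope inequality -/

section Slope

variable {n : ℕ} {M : Type*} [MetricSpace M] [ChartedSpace (EuclideanSpace ℝ (Fin n)) M]
  [IsManifold (𝓡 n) ∞ M]
  [RiemannianBundle (fun p : M => TangentSpace (𝓡 n) p)] [CompactSpace M]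

/-- the reversed velocity. -/
theorem exists_rev {G : GeoData n M} (hC : CutFacts G) {x : M} {p : TangentSpace (𝓡 n) x}
    (hp : p ∈ G.I x) : ∃ q ∈ G.I (G.ex x p), G.ex (G.ex x p) q = x := by
  have h1 := hC.rev_I x p hp
  have h2 := hC.rev_ex x p 1
  rw [one_smul ℝ (-(G.vel x p 1)), sub_self, zero_smul, G.ex_zero] at h2
  have h3 : ∃ q ∈ G.I (G.ex x ((1:ℝ) • p)), G.ex (G.ex x ((1:ℝ) • p)) q = x := ⟨_, h1, h2⟩
  rwa [one_smul] at h3

variable [IsContMDiffRiemannianBundle (𝓡 n) ∞ (EuclideanSpace ℝ (Fin n))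
    (fun p : M => TangentSpace (𝓡 n) p)]
  [IsRiemannianManifold (𝓡 n) M]

/-- logarithms of a curve `τ ↦ exp_y(q + τ v)` at `x = exp_y q`. -/
theorem exists_log (G : GeoData n M) {x y : M} {q v : TangentSpace (𝓡 n) y}
    (hq : G.ex y q = x) : ∃ ζ : ℝ → TangentSpace (𝓡 n) x, ∃ L : ℝ, 0 ≤ L ∧
      (∀ τ, G.ex x (ζ τ) = G.ex y (q + τ • v)) ∧ ∀ τ, ‖ζ τ‖ ≤ L * |τ| := by
  obtain ⟨L, hL, H⟩ := ExLip659.ex_lip G ‖q‖
  choose ζ h1 h2 using fun τ : ℝ => G.surj x (G.ex y (q + τ • v))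
  refine ⟨ζ, L * ‖v‖, by positivity, h1, fun τ => ?_⟩
  rw [h2 τ]
  have h3 := H y q (q + τ • v) le_rfl
  rw [hq] at h3
  refine h3.trans (le_of_eq ?_)
  have e : q - (q + τ • v) = -(τ • v) := by abel
  rw [e, norm_neg, norm_smul, Real.norm_eq_abs]
  ring

theorem isBigO_of_le {E : Type*} [NormedAddCommGroup E] {ζ : ℝ → E} {L : ℝ}
    (h : ∀ τ, ‖ζ τ‖ ≤ L * |τ|) : ζ =O[𝓝 0] (fun τ : ℝ => τ) :=
  IsBigO.of_bound L (Eventually.of_forall fun τ => by
    rw [Real.norm_eq_abs]; exact h τ)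

/-- **the slope of `f` at a point where `f ≥ 0`.** -/
theorem slope_left {G : GeoData n M} (hC : CutFacts G) (hg : GoodAll G) {x xp : M}
    {p0 p1 : TangentSpace (𝓡 n) x} {s : ℝ} (hI : p0 + s • (p1 - p0) ∈ G.I x) (hs1 : s < 1)
    (hp1 : p1 ∈ G.K x) (hpos : 0 ≤ gg G x p0 p1 xp s) {r : ℝ}
    (hr : 4 * max 0 (gg G x p0 p1 xp 1 - gg G x p0 p1 xp s) / (1 - s) < r) :
    ∀ᶠ σ in 𝓝[<] s, gg G x p0 p1 xp s - gg G x p0 p1 xp σ ≤ r * (s - σ) := by
  set w := p1 - p0 with hw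
  set p := p0 + s • w with hp
  set y := G.ex x p with hy
  obtain ⟨q0, hq0, hq0x⟩ := exists_rev hC hI
  rw [← hy] at hq0 hq0x
  obtain ⟨q1, hq1, hq1x⟩ := exists_mem_K G y xp
  set v := q1 - q0 with hv
  have hpK : p ∈ G.K x := hC.I_subset x hI
  have hq0K : q0 ∈ G.K y := hC.I_subset y hq0
  obtain ⟨C1, hC1, hsc⟩ := hC.semiconcave
  obtain ⟨ζ, L1, hL1, hζ, hζL⟩ := exists_log G (v := v) hq0x
  obtain ⟨η, L2, hL2, hη, hηL⟩ := exists_log G (q := p) (v := w) hy.symm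
  have hζO := isBigO_of_le hζL
  have hηO := isBigO_of_le hηL
  -- costs
  have c0 : halfDistSq x y = ‖p‖ ^ 2 / 2 := Base347.halfDistSq_of_mem_K hpK
  have c0' : halfDistSq y x = ‖q0‖ ^ 2 / 2 := by
    have := Base347.halfDistSq_of_mem_K hq0K
    rwa [hq0x] at this
  have c1 : halfDistSq y xp = ‖q1‖ ^ 2 / 2 := by
    have := Base347.halfDistSq_of_mem_K hq1
    rwa [hq1x] at this
  have hnorm : ‖q0‖ ^ 2 / 2 = ‖p‖ ^ 2 / 2 := by
    rw [← c0', ← c0, halfDistSq_comm]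
  have ggs : gg G x p0 p1 xp s = ‖q0‖ ^ 2 / 2 - ‖q1‖ ^ 2 / 2 := by
    unfold gg
    rw [← hw, ← hp, ← hy, halfDistSq_comm xp y, c1, hnorm]
  have e1 : p0 + (1 : ℝ) • w = p1 := by rw [hw]; module
  have gg1 : gg G x p0 p1 xp 1 = ‖p1‖ ^ 2 / 2 - halfDistSq xp (G.ex x p1) := by
    unfold gg
    rw [← hw, e1]
  have hle : ‖q1‖ ≤ ‖q0‖ := by
    have : ‖q1‖ ^ 2 ≤ ‖q0‖ ^ 2 := by rw [ggs] at hpos; linarith
    exact (sq_le_sq₀ (norm_nonneg _) (norm_nonneg _)).1 this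
  -- the mixed derivative
  obtain ⟨κ0, hκ1, hκ2, hd1, hd2⟩ := mixed ((contDiffAt_two hC hI (w := w) (v := v)
    hq0x).of_le (by norm_cast) : ContDiffAt ℝ 2 _ _)
  have T1 : Tendsto (fun τ : ℝ => τ⁻¹ * inner ℝ w (ζ τ)) (𝓝[≠] 0) (𝓝 (-κ0)) := by
    refine tendsto_inner hC hI hζO
      (h := fun τ σ => halfDistSq (G.ex y (q0 + τ • v)) (G.ex x (p + σ • w))) ?_ hκ1 hd1
    intro τ σ
    rw [hζ]
  have T2 : Tendsto (fun τ : ℝ => τ⁻¹ * inner ℝ v (η τ)) (𝓝[≠] 0) (𝓝 (-κ0)) := by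
    refine tendsto_inner hC hq0 hηO
      (h := fun σ τ => halfDistSq (G.ex y (q0 + τ • v)) (G.ex x (p + σ • w))) ?_ hκ2 hd2
    intro σ τ
    rw [hη, halfDistSq_comm]
  set κ : ℝ := -κ0 with hκ
  set D : ℝ := max 0 (gg G x p0 p1 xp 1 - gg G x p0 p1 xp s) with hD
  have hD0 : 0 ≤ D := le_max_left _ _
  have h1s : 0 < 1 - s := by linarith
  -- (a)
  have hA : (1 - s) * κ ≤ 4 * D := by
    have E1 := nc_expand hC hI hζO
    have E1' := E1.mono (nhdsWithin_le_nhds (s := Ioi (0:ℝ)))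
    have l1 : Tendsto (fun τ : ℝ => (halfDistSq (G.ex x (ζ τ)) (G.ex x p) -
        halfDistSq x (G.ex x p) + inner ℝ p (ζ τ)) / τ) (𝓝[>] 0) (𝓝 0) :=
      E1'.tendsto_div_nhds_zero
    have l2 : Tendsto (fun τ : ℝ => τ⁻¹ * inner ℝ w (ζ τ)) (𝓝[>] 0) (𝓝 κ) :=
      T1.mono_left (nhdsWithin_mono _ (fun z hz => ne_of_gt hz))
    have l3 : Tendsto (fun τ : ℝ => C1 * L1 ^ 2 * τ) (𝓝[>] 0) (𝓝 0) := by
      have : Continuous (fun τ : ℝ => C1 * L1 ^ 2 * τ) := by fun_prop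
      have h2 := this.tendsto 0
      rw [mul_zero] at h2
      exact h2.mono_left nhdsWithin_le_nhds
    have l4 := ((l2.const_mul (1 - s)).add l1).sub l3
    rw [add_zero, sub_zero] at l4
    refine le_of_tendsto l4 ?_
    have hev : Ioo (0:ℝ) 1 ∈ 𝓝[>] (0:ℝ) := Ioo_mem_nhdsGT (by norm_num)
    filter_upwards [hev] with τ hτ
    have hτ0 : 0 < τ := hτ.1
    have hKτ : q0 + τ • v ∈ G.K y := by
      have := convex_K hg y hq0K hq1 (a := 1 - τ) (b := τ) (by linarith [hτ.2]) hτ0.le (by ring)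
      convert this using 1
      rw [hv]; module
    have f1 := qqin hg (G.ex x p1) hq0K hq1 hle hD0 (by
      unfold Fq
      rw [hq1x, hq0x]
      have h2 := Base347.halfDistSq_of_mem_K hp1
      rw [h2]
      have h3 := le_max_right 0 (gg G x p0 p1 xp 1 - gg G x p0 p1 xp s)
      rw [← hD, ggs, gg1] at h3
      linarith) hτ0.le hτ.2.le
    rw [← hv] at f1
    unfold Fq at f1
    rw [hq0x] at f1
    have f2 : ‖q0 + τ • v‖ ^ 2 / 2 = halfDistSq (G.ex x (ζ τ)) y := by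
      rw [hζ, halfDistSq_comm]
      exact (Base347.halfDistSq_of_mem_K hKτ).symm
    have f3 := hsc x p1 hp1 (ζ τ)
    rw [← hζ] at f1
    have f4 : ‖ζ τ‖ ^ 2 ≤ (L1 * τ) ^ 2 := by
      have := hζL τ
      rw [abs_of_pos hτ0] at this
      gcongr
    have f5 : (1 - s) * inner ℝ w (ζ τ) = inner ℝ p1 (ζ τ) - inner ℝ p (ζ τ) := by
      have : (1 - s) • w = p1 - p := by rw [hp, hw]; module
      rw [← inner_sub_left, ← this, inner_smul_left]
      simp
    have f6 : C1 * ‖ζ τ‖ ^ 2 ≤ C1 * (L1 * τ) ^ 2 := by gcongr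
    have f7 : (1 - s) * inner ℝ w (ζ τ) + (halfDistSq (G.ex x (ζ τ)) (G.ex x p) -
        halfDistSq x (G.ex x p) + inner ℝ p (ζ τ)) - C1 * L1 ^ 2 * τ * τ ≤ 4 * τ * D := by
      rw [f5, ← hy, c0, ← hnorm]
      rw [f2] at f1
      have : C1 * (L1 * τ) ^ 2 = C1 * L1 ^ 2 * τ * τ := by ring
      linarith
    have f8 : (1 - s) * (τ⁻¹ * inner ℝ w (ζ τ)) + (halfDistSq (G.ex x (ζ τ)) (G.ex x p) -
        halfDistSq x (G.ex x p) + inner ℝ p (ζ τ)) / τ - C1 * L1 ^ 2 * τ =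
        τ⁻¹ * ((1 - s) * inner ℝ w (ζ τ) + (halfDistSq (G.ex x (ζ τ)) (G.ex x p) -
        halfDistSq x (G.ex x p) + inner ℝ p (ζ τ)) - C1 * L1 ^ 2 * τ * τ) := by
      field_simp
    rw [f8]
    calc _ ≤ τ⁻¹ * (4 * τ * D) := mul_le_mul_of_nonneg_left f7 (inv_nonneg.2 hτ0.le)
      _ = 4 * D := by field_simp
  have hκr : κ < r := by
    refine lt_of_le_of_lt ?_ hr
    rw [le_div_iff₀ h1s]
    linarith
  -- (b)
  set c : ℝ := (r - κ) / 4 with hc
  have hc0 : 0 < c := by rw [hc]; linarith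
  have E2 := nc_expand hC hq0 hηO
  have B1 : ∀ᶠ σ in 𝓝 (0:ℝ), ‖halfDistSq (G.ex y (η σ)) (G.ex y q0) -
      halfDistSq y (G.ex y q0) + inner ℝ q0 (η σ)‖ ≤ c * ‖σ‖ := E2.def hc0
  have B2 : ∀ᶠ σ in 𝓝[<] (0:ℝ), σ⁻¹ * inner ℝ v (η σ) < κ + c :=
    (T2.mono_left (nhdsWithin_mono _ (fun z hz => ne_of_lt hz))).eventually
      (eventually_lt_nhds (by linarith))
  have B3 : ∀ᶠ σ in 𝓝 (0:ℝ), C1 * L2 ^ 2 * |σ| < c := by
    have : Continuous (fun σ : ℝ => C1 * L2 ^ 2 * |σ|) := by fun_prop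
    have h2 := this.tendsto 0
    rw [abs_zero, mul_zero] at h2
    exact h2.eventually (eventually_lt_nhds hc0)
  have B4 : ∀ᶠ σ in 𝓝 (0:ℝ), p + σ • w ∈ G.K x := by
    have h1 : Tendsto (fun σ : ℝ => p + σ • w) (𝓝 0) (𝓝 p) := by
      have h2 : Continuous (fun σ : ℝ => p + σ • w) := by fun_prop
      have h3 := h2.tendsto 0
      simpa using h3
    filter_upwards [h1.eventually ((hC.base347.isOpen_I x).mem_nhds hI)] with σ hσ
    exact hC.I_subset x hσ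
  have B : ∀ᶠ σ in 𝓝[<] (0:ℝ), gg G x p0 p1 xp s - gg G x p0 p1 xp (s + σ) ≤ r * (-σ) := by
    filter_upwards [nhdsWithin_le_nhds B1, B2, nhdsWithin_le_nhds B3, nhdsWithin_le_nhds B4,
      self_mem_nhdsWithin] with σ b1 b2 b3 b4 b5
    have hσ : σ < 0 := b5
    have e2 : p0 + (s + σ) • w = p + σ • w := by rw [hp]; module
    have g1 : gg G x p0 p1 xp (s + σ) =
        halfDistSq (G.ex y (η σ)) (G.ex y q0) - halfDistSq (G.ex y (η σ)) (G.ex y q1) := by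
      unfold gg
      rw [← hw, e2, hη, hq0x, hq1x, halfDistSq_comm _ x, Base347.halfDistSq_of_mem_K b4, halfDistSq_comm xp]
    have g2 := hsc y q1 hq1 (η σ)
    rw [hq1x, c1] at g2
    rw [hq0x, c0'] at b1
    rw [Real.norm_eq_abs, Real.norm_eq_abs, abs_of_neg hσ] at b1
    have g3 := (abs_le.1 b1).1
    have g4 : ‖η σ‖ ^ 2 ≤ (L2 * |σ|) ^ 2 := by
      have := hηL σ
      gcongr
    have g5 : C1 * ‖η σ‖ ^ 2 ≤ c * (-σ) := by
      calc C1 * ‖η σ‖ ^ 2 ≤ C1 * (L2 * |σ|) ^ 2 := by gcongr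
        _ = (C1 * L2 ^ 2 * |σ|) * |σ| := by ring
        _ ≤ c * |σ| := by gcongr
        _ = c * (-σ) := by rw [abs_of_neg hσ]
    have g6 : -inner ℝ v (η σ) ≤ (κ + c) * (-σ) := by
      have h7 : σ * (κ + c) < σ * (σ⁻¹ * inner ℝ v (η σ)) := mul_lt_mul_of_neg_left b2 hσ
      rw [← mul_assoc, mul_inv_cancel₀ hσ.ne, one_mul] at h7
      linarith
    have g7 : inner ℝ v (η σ) = inner ℝ q1 (η σ) - inner ℝ q0 (η σ) := by
      rw [hv, inner_sub_left]
    rw [ggs, g1]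
    rw [hq1x] at *
    rw [hq0x]
    have hrc : r = κ + 4 * c := by rw [hc]; ring
    rw [hrc]
    nlinarith
  have h2 : Tendsto (fun σ : ℝ => σ - s) (𝓝[<] s) (𝓝[<] 0) := by
    refine tendsto_nhdsWithin_iff.2 ⟨?_, ?_⟩
    · have h3 : Continuous (fun σ : ℝ => σ - s) := by fun_prop
      have h4 := h3.tendsto s
      rw [sub_self] at h4
      exact h4.mono_left nhdsWithin_le_nhds
    · filter_upwards [self_mem_nhdsWithin] with z hz
      have : z < s := hz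
      show z - s < 0
      linarith
  filter_upwards [h2.eventually B] with σ hσ
  have e3 : s + (σ - s) = σ := by ring
  rw [e3] at hσ
  linarith

end Slope

/-! ### contractions -/

section Con

variable {E : Type*} [NormedAddCommGroup E] [InnerProductSpace ℝ E]

theorem con_mem' {Q : Set E} (hQ : Convex ℝ Q) {p₁ p : E} (h₁ : p₁ ∈ Q) (h : p ∈ Q) {a : ℝ}
    (ha : 0 ≤ a) (ha' : a ≤ 1) : WOff915.con p₁ a p ∈ Q := by
  have := hQ h₁ h (a := 1 - a) (b := a) (by linarith) ha (by ring)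
  convert this using 1
  unfold WOff915.con; module

theorem con_con' (p₁ : E) (a b : ℝ) (p : E) :
    WOff915.con p₁ a (WOff915.con p₁ b p) = WOff915.con p₁ (a * b) p := by
  unfold WOff915.con; module

theorem con_injective' (p₁ : E) {a : ℝ} (ha : a ≠ 0) : Function.Injective (WOff915.con p₁ a) := by
  intro p q hpq
  unfold WOff915.con at hpq
  exact sub_left_injective (smul_right_injective E ha (add_left_cancel hpq))

end Con

/-! ### the slope inequality on chords of `K(x)` -/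

section Chord

variable {n : ℕ} {M : Type*} [MetricSpace M] [ChartedSpace (EuclideanSpace ℝ (Fin n)) M]
  [IsManifold (𝓡 n) ∞ M]
  [RiemannianBundle (fun p : M => TangentSpace (𝓡 n) p)]

theorem continuous_gg (G : GeoData n M) (x : M) (p0 p1 : TangentSpace (𝓡 n) x) (xp : M) :
    Continuous (fun z : ℝ × ℝ => gg G x (z.1 • p0) (z.1 • p1) xp z.2) := by
  have h1 : Continuous (G.ex x) := (MTWConc117.contMDiff_ex G x).continuous
  have h2 := continuous_halfDistSq (M := M)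
  have h3 : Continuous (fun z : ℝ × ℝ => z.1 • p0 + z.2 • (z.1 • p1 - z.1 • p0)) := by fun_prop
  unfold gg
  exact ((h3.norm.pow 2).div_const 2).sub (h2.comp (continuous_const.prodMk (h1.comp h3)))

theorem continuous_gg' (G : GeoData n M) (x : M) (p0 p1 : TangentSpace (𝓡 n) x) (xp : M) :
    Continuous (gg G x p0 p1 xp) := by
  have h1 := (continuous_gg G x p0 p1 xp).comp (f := fun s : ℝ => ((1:ℝ), s)) (by fun_prop)
  have e : (fun z : ℝ × ℝ => gg G x (z.1 • p0) (z.1 • p1) xp z.2) ∘ (fun s : ℝ => ((1:ℝ), s)) =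
      gg G x p0 p1 xp := by
    funext s
    simp
  rwa [e] at h1

variable [CompactSpace M] [IsContMDiffRiemannianBundle (𝓡 n) ∞ (EuclideanSpace ℝ (Fin n))
    (fun p : M => TangentSpace (𝓡 n) p)]
  [IsRiemannianManifold (𝓡 n) M]

/-- **the slope inequality** (1752 (c)): on a chord of `K(x)` on which `f > 0`. -/
theorem slope_ineq {G : GeoData n M} (hC : CutFacts G) (hg : GoodAll G) {x xp : M}
    {p0 p1 : TangentSpace (𝓡 n) x} (hp0 : p0 ∈ G.K x) (hp1 : p1 ∈ G.K x) {a t : ℝ} (ha : 0 ≤ a)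
    (hat : a ≤ t) (ht : t < 1) (hpos : ∀ s, a ≤ s → s ≤ t → 0 < gg G x p0 p1 xp s) :
    (1 - t) ^ 4 * (gg G x p0 p1 xp 1 - gg G x p0 p1 xp a) ≤
      (1 - a) ^ 4 * max 0 (gg G x p0 p1 xp 1 - gg G x p0 p1 xp t) := by
  have hcont := continuous_gg G x p0 p1 xp
  have hseg : ∀ s : ℝ, 0 ≤ s → s ≤ 1 → p0 + s • (p1 - p0) ∈ G.K x := by
    intro s hs0 hs1
    have := convex_K hg x hp0 hp1 (a := 1 - s) (b := s) (by linarith) hs0 (by ring)
    convert this using 1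
    module
  have hpos1 : ∀ᶠ r : ℝ in 𝓝 1, ∀ s ∈ Icc a t, 0 < gg G x (r • p0) (r • p1) xp s := by
    refine isCompact_Icc.eventually_forall_of_forall_eventually (fun s hs => ?_)
    have h1 := hcont.tendsto ((1:ℝ), s)
    have h2 : 0 < gg G x ((1:ℝ) • p0) ((1:ℝ) • p1) xp s := by
      rw [one_smul, one_smul]
      exact hpos s hs.1 hs.2
    exact h1.eventually (eventually_gt_nhds h2)
  have hmain : ∀ᶠ r : ℝ in 𝓝[<] 1,
      (1 - t) ^ 4 * (gg G x (r • p0) (r • p1) xp 1 - gg G x (r • p0) (r • p1) xp a) ≤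
      (1 - a) ^ 4 * max 0 (gg G x (r • p0) (r • p1) xp 1 - gg G x (r • p0) (r • p1) xp t) := by
    have hev : Ioo (0:ℝ) 1 ∈ 𝓝[<] (1:ℝ) := Ioo_mem_nhdsLT (by norm_num)
    filter_upwards [hev, nhdsWithin_le_nhds hpos1] with r hr hrpos
    refine gronwall_pow hat ht (continuous_gg' G x _ _ xp).continuousOn ?_
    intro s hs1 hs2 r' hr'
    refine slope_left hC hg ?_ (by linarith) ?_ (hrpos s ⟨hs1.le, hs2⟩).le hr'
    · have h1 := hC.base347.smul_mem_I (hseg s (by linarith) (by linarith)) hr.1.le hr.2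
      have e : r • p0 + s • (r • p1 - r • p0) = r • (p0 + s • (p1 - p0)) := by module
      rw [e]; exact h1
    · exact hC.star x p1 hp1 r hr.1.le hr.2.le
  have l1 : Tendsto (fun r : ℝ =>
      (1 - t) ^ 4 * (gg G x (r • p0) (r • p1) xp 1 - gg G x (r • p0) (r • p1) xp a)) (𝓝[<] 1)
      (𝓝 ((1 - t) ^ 4 * (gg G x ((1:ℝ) • p0) ((1:ℝ) • p1) xp 1 -
        gg G x ((1:ℝ) • p0) ((1:ℝ) • p1) xp a))) := by
    have c1 : Continuous (fun r : ℝ => gg G x (r • p0) (r • p1) xp 1) :=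
      hcont.comp (f := fun r : ℝ => (r, (1:ℝ))) (by fun_prop)
    have c2 : Continuous (fun r : ℝ => gg G x (r • p0) (r • p1) xp a) :=
      hcont.comp (f := fun r : ℝ => (r, a)) (by fun_prop)
    exact ((continuous_const.mul (c1.sub c2)).tendsto 1).mono_left nhdsWithin_le_nhds
  have l2 : Tendsto (fun r : ℝ =>
      (1 - a) ^ 4 * max 0 (gg G x (r • p0) (r • p1) xp 1 - gg G x (r • p0) (r • p1) xp t)) (𝓝[<] 1)
      (𝓝 ((1 - a) ^ 4 * max 0 (gg G x ((1:ℝ) • p0) ((1:ℝ) • p1) xp 1 -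
        gg G x ((1:ℝ) • p0) ((1:ℝ) • p1) xp t))) := by
    have c1 : Continuous (fun r : ℝ => gg G x (r • p0) (r • p1) xp 1) :=
      hcont.comp (f := fun r : ℝ => (r, (1:ℝ))) (by fun_prop)
    have c2 : Continuous (fun r : ℝ => gg G x (r • p0) (r • p1) xp t) :=
      hcont.comp (f := fun r : ℝ => (r, t)) (by fun_prop)
    exact ((continuous_const.mul (continuous_const.max (c1.sub c2))).tendsto 1).mono_left
      nhdsWithin_le_nhds
  have h := le_of_tendsto_of_tendsto l1 l2 hmain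
  simpa using h

/-- consequence of the slope inequality (with the last zero of `f`): if `f(1) - f(0) ≥ N`,
`f(1) ≥ N`, `f(t) > 0` and `f(1) - f(t) ≤ B` then `(1-t)⁴ N ≤ B`. -/
theorem escape {G : GeoData n M} (hC : CutFacts G) (hg : GoodAll G) {x xp : M}
    {p0 p1 : TangentSpace (𝓡 n) x} (hp0 : p0 ∈ G.K x) (hp1 : p1 ∈ G.K x) {t N B : ℝ} (ht0 : 0 ≤ t)
    (ht : t < 1) (hB : 0 ≤ B) (hN0 : N ≤ gg G x p0 p1 xp 1 - gg G x p0 p1 xp 0)
    (hN1 : N ≤ gg G x p0 p1 xp 1) (hpos : 0 < gg G x p0 p1 xp t)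
    (hB1 : gg G x p0 p1 xp 1 - gg G x p0 p1 xp t ≤ B) : (1 - t) ^ 4 * N ≤ B := by
  set φ : ℝ → ℝ := gg G x p0 p1 xp with hφ
  have hcont : Continuous φ := continuous_gg' G x p0 p1 xp
  have hmax : max 0 (φ 1 - φ t) ≤ B := max_le hB hB1
  have h1t : 0 < 1 - t := by linarith
  have hP : 0 ≤ (1 - t) ^ 4 := by positivity
  by_cases hS : ∃ s, (0 ≤ s ∧ s ≤ t) ∧ φ s ≤ 0
  · have hcomp : IsCompact {s : ℝ | s ∈ Icc 0 t ∧ φ s ≤ 0} :=
      isCompact_Icc.inter_right (isClosed_le hcont continuous_const)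
    obtain ⟨s0, hs0, hmaxs⟩ := hcomp.exists_isGreatest (by
      obtain ⟨s, hs1, hs2⟩ := hS
      exact ⟨s, hs1, hs2⟩)
    have hs0t : s0 < t := by
      rcases hs0.1.2.lt_or_eq with h | h
      · exact h
      · exfalso
        have := hs0.2
        rw [h] at this
        linarith
    have hlim : Tendsto (fun a : ℝ => (1 - t) ^ 4 * (φ 1 - φ a)) (𝓝[>] s0)
        (𝓝 ((1 - t) ^ 4 * (φ 1 - φ s0))) :=
      ((continuous_const.mul (continuous_const.sub hcont)).tendsto s0).mono_left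
        nhdsWithin_le_nhds
    have h1 : (1 - t) ^ 4 * (φ 1 - φ s0) ≤ B := by
      refine le_of_tendsto hlim ?_
      filter_upwards [Ioo_mem_nhdsGT hs0t] with a ha
      have ha0 : 0 ≤ a := hs0.1.1.trans ha.1.le
      have h2 := slope_ineq hC hg hp0 hp1 (xp := xp) ha0 ha.2.le ht (fun s hs1 hs2 => by
        by_contra hneg
        push Not at hneg
        have h3 : s ≤ s0 := hmaxs ⟨⟨by linarith, hs2⟩, hneg⟩
        have := ha.1
        linarith)
      have h4 : (1 - a) ^ 4 * max 0 (φ 1 - φ t) ≤ 1 * B := by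
        have h5 : (1 - a) ^ 4 ≤ 1 := pow_le_one₀ (by linarith [ha.2]) (by linarith)
        have h6 : (0:ℝ) ≤ max 0 (φ 1 - φ t) := le_max_left _ _
        gcongr
      rw [one_mul] at h4
      exact h2.trans h4
    have h3 : (1 - t) ^ 4 * N ≤ (1 - t) ^ 4 * (φ 1 - φ s0) := by
      refine mul_le_mul_of_nonneg_left ?_ hP
      have := hs0.2
      linarith
    exact h3.trans h1
  · push Not at hS
    have h2 := slope_ineq hC hg hp0 hp1 (xp := xp) le_rfl ht0 ht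
      (fun s hs1 hs2 => hS s ⟨hs1, hs2⟩)
    have h3 : (1 - t) ^ 4 * N ≤ (1 - t) ^ 4 * (φ 1 - φ 0) := mul_le_mul_of_nonneg_left hN0 hP
    refine h3.trans (h2.trans ?_)
    rw [sub_zero, one_pow, one_mul]
    exact hmax

/-- the gaps give the values of `f`. -/
theorem gg_eq {G : GeoData n M} (u : M → ℝ) {xt xp y0 : M} {p0 p1 : TangentSpace (𝓡 n) xt}
    {s : ℝ} {p : TangentSpace (𝓡 n) xt} (hp : p ∈ G.K xt) (hs : p0 + s • (p1 - p0) = p) :
    gg G xt p0 p1 xp s = (halfDistSq xt y0 - halfDistSq xp y0) + Dd u xt (G.ex xt p) -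
      Dd u xp (G.ex xt p) - Dd u xt y0 + Dd u xp y0 := by
  unfold gg Dd
  rw [hs, Base347.halfDistSq_of_mem_K hp]
  ring

/-- **escape of the core** (1752 (c)): `z = p* + t (p - p*)` leaves the set of `p`'s with gaps
`≤ B` on both sides, unless `(1-t)⁴ N ≤ 2B`. -/
theorem core_escape {G : GeoData n M} (hC : CutFacts G) (hg : GoodAll G) {u : M → ℝ}
    (hu : CConv u) {xt xp y0 : M} {H B E N : ℝ} (hB : 0 ≤ B)
    (ht0 : Dd u xt y0 ≤ H)
    {ps : TangentSpace (𝓡 n) xt} (hps : ps ∈ G.K xt) (hps0 : Dd u xt (G.ex xt ps) = 0)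
    (hE : E ≤ Dd u xp (G.ex xt ps))
    (hN1 : N ≤ E - B) (hN2 : N ≤ halfDistSq xt y0 - halfDistSq xp y0 - B - H)
    (hpos : 0 < halfDistSq xt y0 - halfDistSq xp y0 - B - H)
    {p : TangentSpace (𝓡 n) xt} (hp : p ∈ G.K xt) (hpB : Dd u xt (G.ex xt p) ≤ B)
    (hpB' : Dd u xp (G.ex xt p) ≤ B) {t : ℝ} (h0 : 0 ≤ t) (h1 : t < 1)
    (hzB' : Dd u xp (G.ex xt (WOff915.con ps t p)) ≤ B) :
    (1 - t) ^ 4 * N ≤ 2 * B := by
  have huc := CConv.continuous hu
  have hzK : WOff915.con ps t p ∈ G.K xt := con_mem' (convex_K hg xt) hps hp h0 h1.le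
  have g0 := gg_eq (G := G) u (xt := xt) (xp := xp) (y0 := y0) (p0 := ps) (p1 := p) (s := 0) hps
    (by simp)
  have g1 := gg_eq (G := G) u (xt := xt) (xp := xp) (y0 := y0) (p0 := ps) (p1 := p) (s := 1) hp
    (by module)
  have gt := gg_eq (G := G) u (xt := xt) (xp := xp) (y0 := y0) (p0 := ps) (p1 := p) (s := t) hzK
    rfl
  have n1 := Dd_nonneg huc xt (G.ex xt p)
  have n2 := Dd_nonneg huc xp (G.ex xt p)
  have n3 := Dd_nonneg huc xt y0
  have n4 := Dd_nonneg huc xp y0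
  have n5 := Dd_nonneg huc xt (G.ex xt (WOff915.con ps t p))
  have n6 := Dd_nonneg huc xp (G.ex xt (WOff915.con ps t p))
  refine escape hC hg hps hp h0 h1 (xp := xp) (by positivity) ?_ ?_ ?_ ?_
  · rw [g0, g1, hps0]; linarith
  · rw [g1]; linarith
  · rw [gt]; linarith
  · rw [g1, gt]; linarith

/-- **the copies of the core are disjoint** (1752 (c)).  `xt` = far point, `xp` = nearest point,
`ps` = contact `y*` of `xt`, `E ≤ D(xp,y*)`, `Z` = velocities at `xt` of the core. -/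
theorem copies_disjoint {G : GeoData n M} (hC : CutFacts G) (hg : GoodAll G) {u : M → ℝ}
    (hu : CConv u) {xt xp y0 : M} {H B E N : ℝ} (hB : 0 ≤ B)
    (ht0 : Dd u xt y0 ≤ H)
    {ps : TangentSpace (𝓡 n) xt} (hps : ps ∈ G.K xt) (hps0 : Dd u xt (G.ex xt ps) = 0)
    (hE : E ≤ Dd u xp (G.ex xt ps)) (hN0 : 0 ≤ N)
    (hN1 : N ≤ E - B) (hN2 : N ≤ halfDistSq xt y0 - halfDistSq xp y0 - B - H)
    (hpos : 0 < halfDistSq xt y0 - halfDistSq xp y0 - B - H)
    {Z : Set (TangentSpace (𝓡 n) xt)} (hZK : Z ⊆ G.K xt)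
    (hZ : ∀ p ∈ Z, Dd u xt (G.ex xt p) ≤ B ∧ Dd u xp (G.ex xt p) ≤ B) {r : ℝ} (hr0 : 0 < r)
    (hr1 : r < 1) (hr : 2 * B < (1 - r) ^ 4 * N) :
    Pairwise (Function.onFun Disjoint (fun k : ℕ => WOff915.con ps (r ^ k) '' Z)) := by
  have key : ∀ j k : ℕ, j < k →
      Disjoint (WOff915.con ps (r ^ j) '' Z) (WOff915.con ps (r ^ k) '' Z) := by
    intro j k hjk
    rw [Set.disjoint_left]
    rintro _ ⟨a, ha, rfl⟩ ⟨b, hb, hab⟩
    have hrj : r ^ j ≠ 0 := pow_ne_zero _ hr0.ne'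
    have e1 : r ^ k = r ^ j * r ^ (k - j) := by rw [← pow_add]; congr 1; omega
    have e2 : a = WOff915.con ps (r ^ (k - j)) b := by
      rw [e1, ← con_con'] at hab
      exact (con_injective' ps hrj hab).symm
    have hle : r ^ (k - j) ≤ r := by
      have : r ^ (k - j) ≤ r ^ 1 := pow_le_pow_of_le_one hr0.le hr1.le (by omega)
      rwa [pow_one] at this
    have h3 := core_escape hC hg hu hB ht0 hps hps0 hE hN1 hN2 hpos (hZK hb)
      (hZ b hb).1 (hZ b hb).2 (t := r ^ (k - j)) (by positivity) (by linarith)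
      (by rw [← e2]; exact (hZ a ha).2)
    have h4 : (1 - r) ^ 4 * N ≤ (1 - r ^ (k - j)) ^ 4 * N := by
      have : 0 ≤ 1 - r := by linarith
      gcongr
    linarith
  intro j k hjk
  rcases lt_or_gt_of_ne hjk with h | h
  · exact key j k h
  · exact (key k j h).symm

end Chord

/-! ### (d): contacts of the points close to the farthest point -/

section Dpart

variable {n : ℕ} {M : Type*} [MetricSpace M] [ChartedSpace (EuclideanSpace ℝ (Fin n)) M]
  [IsManifold (𝓡 n) ∞ M]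
  [RiemannianBundle (fun p : M => TangentSpace (𝓡 n) p)] [CompactSpace M]

theorem norm_con_le {E : Type*} [NormedAddCommGroup E] [InnerProductSpace ℝ E] {p q : E} {R a : ℝ}
    (hp : ‖p‖ ≤ R) (hq : ‖q‖ ≤ R) (ha : 0 ≤ a) (ha1 : a ≤ 1) : ‖WOff915.con p a q‖ ≤ R := by
  have e : WOff915.con p a q = (1 - a) • p + a • q := by unfold WOff915.con; module
  rw [e]
  calc ‖(1 - a) • p + a • q‖ ≤ ‖(1 - a) • p‖ + ‖a • q‖ := norm_add_le _ _
    _ = (1 - a) * ‖p‖ + a * ‖q‖ := by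
        rw [norm_smul, norm_smul, Real.norm_of_nonneg (by linarith), Real.norm_of_nonneg ha]
    _ ≤ (1 - a) * R + a * R := by
        have : 0 ≤ 1 - a := by linarith
        gcongr
    _ = R := by ring

/-- **(d)**: `p_F` a farthest point; if `x` is a contact of `exp(p_F + (p - p_F)/8)` then
`D(x, exp p_F) ≤ 2B`. -/
theorem far_contact {G : GeoData n M} (hg : GoodAll G) {u : M → ℝ} (hu : CConv u) {xt : M}
    {B : ℝ} (hB : 0 < B) {pF p : TangentSpace (𝓡 n) xt} (hF : pF ∈ QS G (ctr u) xt B)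
    (hp : p ∈ QS G (ctr u) xt B) (hle : ‖p‖ ≤ ‖pF‖) {x : M}
    (hx : Dd u x (G.ex xt (WOff915.con pF (1 / 8) p)) = 0) : Dd u x (G.ex xt pF) ≤ 2 * B := by
  have huc := CConv.continuous hu
  have hcu : CConv (ctr u) := CConv_ctr huc
  have hcuc := CConv.continuous hcu
  have hQ := convex_QS hg hcu xt B
  set e : TangentSpace (𝓡 n) xt := p - pF with he
  set b : ℝ := inner ℝ pF e with hb
  set c : ℝ := ‖e‖ ^ 2 with hc
  have hc0 : 0 ≤ c := by positivity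
  have hline : ∀ s : ℝ, ‖pF + s • e‖ ^ 2 = ‖pF‖ ^ 2 + 2 * s * b + s ^ 2 * c :=
    fun s => norm_sq_line pF e s
  have hp1 : ‖p‖ ^ 2 = ‖pF‖ ^ 2 + 2 * b + c := by
    have h1 := hline 1
    have e1 : pF + (1:ℝ) • e = p := by rw [he]; module
    rw [e1] at h1
    linarith
  have hle2 : ‖p‖ ^ 2 ≤ ‖pF‖ ^ 2 := by gcongr
  have hbc : c / 2 ≤ -b := by linarith
  have hcon : ∀ s : ℝ, WOff915.con pF s p = pF + s • e := fun s => rfl
  rcases hc0.eq_or_lt with hc' | hcpos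
  · -- `p = p_F`
    have hv0 : e = 0 := by
      have : ‖e‖ = 0 := by
        have : ‖e‖ ^ 2 = 0 := by rw [← hc]; exact hc'.symm
        exact pow_eq_zero_iff (two_ne_zero) |>.1 this
      exact norm_eq_zero.1 this
    rw [hcon, hv0, smul_zero, add_zero] at hx
    rw [hx]; positivity
  · have hbpos : 0 < -b := by linarith
    set qe := pF + (1 / 2 : ℝ) • e with hqe
    have hqeQ : qe ∈ QS G (ctr u) xt B := by
      have := hQ hF hp (a := 1 / 2) (b := 1 / 2) (by norm_num) (by norm_num) (by norm_num)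
      convert this using 1
      rw [hqe, he]; module
    set q' := WOff915.con pF (1 / 8) p with hq'
    have hq'e : q' = pF + (1 / 8 : ℝ) • e := rfl
    have hq'Q : q' ∈ QS G (ctr u) xt B := con_mem' hQ hF hp (by norm_num) (by norm_num)
    have hcomb : (1 / 4 : ℝ) • qe + (3 / 4 : ℝ) • pF = q' := by
      rw [hqe, hq'e]; module
    -- gaps
    have hx' : Dd (ctr u) (G.ex xt q') x = 0 := by rw [Dd_ctr hu]; exact hx
    have s1 := Dd_sub (u := ctr u) (y := x) hqeQ.1 hq'Q.1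
    have s2 := Dd_sub (u := ctr u) (y := x) hF.1 hq'Q.1
    have n1 := Dd_nonneg hcuc (G.ex xt qe) x
    have n2 := Dd_nonneg hcuc (G.ex xt q') xt
    have m1 := hqeQ.2
    have m2 := hF.2
    have hFe : Fq G xt x qe ≤ Fq G xt x q' + B := by linarith
    have h1 : Fq G xt x q' - Fq G xt x pF ≤ 1 * B := by
      rw [← hcomb] at hFe ⊢
      refine fam_bound hg x hB (r := 9 / 64 * (-b)) (by positivity) zero_le_one hqeQ.1 hF.1
        (by norm_num) (by norm_num) (by norm_num) hFe ?_ ?_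
      · rw [hcomb, hq'e, hqe, hline, hline]; linarith
      · rw [hcomb, hq'e, hline]; linarith
    have h2 : Dd u x (G.ex xt pF) = Dd (ctr u) (G.ex xt pF) x := (Dd_ctr hu _ _).symm
    rw [h2]
    linarith

/-- the far column: the oscillation of the cost at `y_F = exp p_F`. -/
theorem osc_far {u : M → ℝ} (hu : CConv u) {xt xp y0 yF : M} {H B h' : ℝ}
    (ht0 : Dd u xt y0 ≤ H) (htF : Dd u xt yF ≤ B) (hpF : Dd u xp yF ≤ B) (hBh : B ≤ h') :
    halfDistSq xt y0 - halfDistSq xp y0 - B - H ≤ osc u yF h' := by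
  have huc := CConv.continuous hu
  have h1 := sub_le_osc (htF.trans hBh) (hpF.trans hBh)
  have n1 := Dd_nonneg huc xt yF
  have n2 := Dd_nonneg huc xp y0
  unfold Dd at *
  linarith

end Dpart

end Crest.Agent.R226.Copy977
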