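/-
R226 (helper229): Tukey centre and depth body of a finite measure, for helper579's pair functional.
* `tukey`      : every finite measure has a centre of depth `1/(n+1)` (Helly).
* `depthBody`  : convex, closed, bounded; nonempty interior when hyperplanes are null.
* `exists_john_centre` : all but `N c` of the mass is, after contraction towards one point of the
  depth body `D_c` by the factor `1/C`, inside `D_c` (`N`, `C` depend on the dimension only).
-/
import Mathlib.Analysis.Convex.Radon
import Mathlib.MeasureTheory.Measure.Haar.NormedSpace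
import Mathlib.MeasureTheory.Measure.Real
import Mathlib.Analysis.Normed.Module.FiniteDimension
import Mathlib.LinearAlgebra.Determinant
import Mathlib.Tactic

set_option autoImplicit false
set_option linter.unusedSectionVars false

open MeasureTheory Set Module Filter Topology

namespace Crest.Agent.R226.Tukey229

universe u

variable {E : Type u} [NormedAddCommGroup E] [NormedSpace ℝ E] [FiniteDimensional ℝ E]
  [MeasurableSpace E] [BorelSpace E]

/-- the closed half-space beyond `z` in direction `a` -/
def up (a : E →L[ℝ] ℝ) (z : E) : Set E := {w | a z ≤ a w}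

theorem measurableSet_up (a : E →L[ℝ] ℝ) (z : E) : MeasurableSet (up a z) :=
  (isClosed_le continuous_const a.continuous).measurableSet

/-- **continuity from above of half-spaces, with truncation.** -/
theorem exists_trunc (μ : Measure E) [IsFiniteMeasure μ] (a : E →L[ℝ] ℝ) (s : ℝ) {m : ℝ}
    (h : μ.real {w | s ≤ a w} < m) :
    ∃ k : ℕ, μ.real ({w | s - 1 / ((k : ℝ) + 1) < a w} ∪ {w | (k : ℝ) < ‖w‖}) < m := by
  set S : ℕ → Set E := fun k => {w | s - 1 / ((k : ℝ) + 1) < a w} ∪ {w | (k : ℝ) < ‖w‖} with hS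
  have hmeas : ∀ k, MeasurableSet (S k) := fun k =>
    (isOpen_lt continuous_const a.continuous).measurableSet.union
      (isOpen_lt continuous_const continuous_norm).measurableSet
  have hanti : Antitone S := by
    intro i j hij w hw
    have hij' : (i : ℝ) ≤ j := by exact_mod_cast hij
    rcases hw with hw | hw
    · left
      simp only [mem_ofPred_eq] at hw ⊢
      have : 1 / ((j : ℝ) + 1) ≤ 1 / ((i : ℝ) + 1) := by
        apply one_div_le_one_div_of_le <;> [positivity; linarith]
      linarith
    · right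
      simp only [mem_ofPred_eq] at hw ⊢
      linarith
  have hinter : ⋂ k, S k = {w | s ≤ a w} := by
    ext w
    simp only [hS, mem_iInter, mem_union, mem_ofPred_eq]
    constructor
    · intro hw
      by_contra hlt
      push Not at hlt
      obtain ⟨k1, hk1⟩ := exists_nat_one_div_lt (sub_pos.2 hlt)
      obtain ⟨k2, hk2⟩ := exists_nat_ge ‖w‖
      have hK := hw (max k1 k2)
      have h1 : (k1 : ℝ) ≤ ((max k1 k2 : ℕ) : ℝ) := by exact_mod_cast le_max_left _ _
      have h2 : (k2 : ℝ) ≤ ((max k1 k2 : ℕ) : ℝ) := by exact_mod_cast le_max_right _ _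
      rcases hK with hK | hK
      · have : 1 / (((max k1 k2 : ℕ) : ℝ) + 1) ≤ 1 / ((k1 : ℝ) + 1) := by
          apply one_div_le_one_div_of_le <;> [positivity; linarith]
        linarith
      · linarith
    · intro hw k
      left
      have : 0 < 1 / ((k : ℝ) + 1) := by positivity
      linarith
  have ht := tendsto_measure_iInter_atTop (μ := μ) (s := S)
    (fun k => (hmeas k).nullMeasurableSet) hanti ⟨0, measure_ne_top _ _⟩
  rw [hinter] at ht
  have ht2 : Tendsto (fun k => μ.real (S k)) atTop (𝓝 (μ.real {w | s ≤ a w})) :=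
    (ENNReal.tendsto_toReal (measure_ne_top _ _)).comp ht
  obtain ⟨k, hk⟩ := (ht2.eventually (gt_mem_nhds h)).exists
  exact ⟨k, hk⟩

/-- **Tukey's centre** (centre point theorem). -/
theorem tukey (μ : Measure E) [IsFiniteMeasure μ] {K : Set E} (hK : IsClosed K)
    (hKc : Convex ℝ K) (hKne : K.Nonempty) (hK0 : μ Kᶜ = 0) :
    ∃ z ∈ K, ∀ a : E →L[ℝ] ℝ, μ.real univ ≤ (finrank ℝ E + 1) * μ.real (up a z) := by
  classical
  rcases eq_or_lt_of_le (measureReal_nonneg (μ := μ) (s := univ)) with h0 | hpos
  · obtain ⟨z, hz⟩ := hKne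
    refine ⟨z, hz, fun a => ?_⟩
    rw [← h0]; positivity
  set n : ℕ := finrank ℝ E with hn
  set M : ℝ := μ.real univ with hM
  have hn1 : (0 : ℝ) < (n : ℝ) + 1 := by positivity
  have hM' : 0 < M / (n + 1) := by positivity
  let ι := {p : (E →L[ℝ] ℝ) × ℝ × ℝ //
    μ.real ({w | p.2.1 < p.1 w} ∪ {w | p.2.2 < ‖w‖}) < M / (n + 1)}
  let F : ι → Set E := fun p =>
    K ∩ ({w | p.1.1 w ≤ p.1.2.1} ∩ Metric.closedBall 0 p.1.2.2)
  have hFcompl : ∀ p : ι, μ.real (F p)ᶜ < M / (n + 1) := by
    intro p
    have hsub : (F p)ᶜ ⊆ Kᶜ ∪ ({w | p.1.2.1 < p.1.1 w} ∪ {w | p.1.2.2 < ‖w‖}) := by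
      intro w hw
      by_contra hc
      simp only [mem_union, mem_ofPred_eq, not_or, not_lt, mem_compl_iff, not_not] at hc
      apply hw
      exact ⟨hc.1, hc.2.1, by simpa using hc.2.2⟩
    have h1 : μ.real (F p)ᶜ ≤ μ.real Kᶜ +
        μ.real ({w | p.1.2.1 < p.1.1 w} ∪ {w | p.1.2.2 < ‖w‖}) :=
      (measureReal_mono hsub).trans (measureReal_union_le _ _)
    have h2 : μ.real Kᶜ = 0 := by rw [Measure.real, hK0]; simp
    have h3 := p.2
    linarith
  have key : (⋂ i, F i).Nonempty := by
    refine Convex.helly_theorem_compact' (𝕜 := ℝ) ?_ ?_ ?_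
    · intro p
      refine hKc.inter ((?_ : Convex ℝ {w | p.1.1 w ≤ p.1.2.1}).inter (convex_closedBall _ _))
      exact convex_halfSpace_le p.1.1.toLinearMap.isLinear _
    · intro p
      have : IsCompact (Metric.closedBall (0 : E) p.1.2.2 ∩
          (K ∩ {w | p.1.1 w ≤ p.1.2.1})) :=
        (isCompact_closedBall _ _).inter_right
          (hK.inter (isClosed_le p.1.1.continuous continuous_const))
      convert this using 1
      ext w; simp only [F, mem_inter_iff]; tauto
    · intro I hI
      by_contra hne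
      rw [not_nonempty_iff_eq_empty] at hne
      have hcov : (univ : Set E) ⊆ ⋃ i ∈ I, (F i)ᶜ := by
        intro w _
        by_contra hc
        have : w ∈ ⋂ i ∈ I, F i := by
          simp only [mem_iUnion, mem_compl_iff, not_exists, not_not] at hc
          simp only [mem_iInter]
          intro i hi
          exact hc i hi
        rw [hne] at this
        exact this
      have h1 : M ≤ ∑ i ∈ I, μ.real (F i)ᶜ :=
        (measureReal_mono hcov (measure_ne_top _ _)).trans (measureReal_biUnion_finset_le _ _)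
      rcases I.eq_empty_or_nonempty with rfl | hIne
      · simp at h1; linarith
      have h2 : ∑ i ∈ I, μ.real (F i)ᶜ < ∑ _i ∈ I, M / (n + 1) :=
        Finset.sum_lt_sum_of_nonempty hIne (fun i _ => hFcompl i)
      rw [Finset.sum_const, nsmul_eq_mul] at h2
      have h3 : (I.card : ℝ) ≤ n + 1 := by exact_mod_cast hI
      have h4 : (I.card : ℝ) * (M / (n + 1)) ≤ (n + 1) * (M / (n + 1)) :=
        mul_le_mul_of_nonneg_right h3 hM'.le
      have h5 : ((n : ℝ) + 1) * (M / (n + 1)) = M := by field_simp
      linarith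
  obtain ⟨z, hz⟩ := key
  rw [mem_iInter] at hz
  have hall : ∀ a : E →L[ℝ] ℝ, ¬ (μ.real (up a z) < M / (n + 1)) := by
    intro a ha
    obtain ⟨k, hk⟩ := exists_trunc μ a (a z) ha
    have := (hz ⟨(a, a z - 1 / ((k : ℝ) + 1), (k : ℝ)), hk⟩).2.1
    simp only [mem_ofPred_eq] at this
    have hp : 0 < 1 / ((k : ℝ) + 1) := by positivity
    linarith
  refine ⟨z, ?_, fun a => ?_⟩
  · -- one index exists
    have h0 : μ.real {w : E | (1 : ℝ) ≤ (0 : E →L[ℝ] ℝ) w} < M / (n + 1) := by
      have : {w : E | (1 : ℝ) ≤ (0 : E →L[ℝ] ℝ) w} = ∅ := by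
        ext w; simp
      rw [this]; simpa using hM'
    obtain ⟨k, hk⟩ := exists_trunc μ 0 1 h0
    exact (hz ⟨(0, 1 - 1 / ((k : ℝ) + 1), (k : ℝ)), hk⟩).1
  · have := hall a
    push Not at this
    have h5 : ((n : ℝ) + 1) * (M / (n + 1)) = M := by field_simp
    have h6 := mul_le_mul_of_nonneg_left this hn1.le
    linarith

end Crest.Agent.R226.Tukey229
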