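/-
R226 / E (helper487): leaf (A) of the pair-functional scheme (helper579 / helper619).
* `exists_log`: a measurable a.e. logarithm at a point;
* `halfspace`: Loeper half-spaces in the chart `K(x₁)`;
* `tukey_column`: a point `y₀` such that every `x` with `D(x,y₀) ≤ L` sees (at level `h + L + ε`)
  a fixed fraction of `S = Y_h(x₀) ∩ Y_h(x₁)`;
* `ng_column`: no growth of the pair functional gives `u(x) ≥ u(x₁) - δ a` on the column.
-/
import Crest.Agent.R226.Far_977
import Crest.Agent.R226.CutNull_230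
import Crest.Agent.R226.Tukey_229

set_option autoImplicit false
set_option linter.unusedSectionVars false

open MeasureTheory Bundle Set Filter
open scoped Manifold ContDiff Bundle ENNReal Topology
open Crest.GeometryTopology.MTW

namespace Crest.Agent.R226.NG487

open Crest.Agent.R226 Crest.Agent.R226.Kant624 Crest.Agent.R226.Reduction624
  Crest.Agent.R226.HolderEnd915 Crest.Agent.R226.E1Shape964 Crest.Agent.R226.Dasm290
  Crest.Agent.R226.Osc977 Crest.Agent.R226.Far977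

variable {n : ℕ} {M : Type*} [MetricSpace M] [ChartedSpace (EuclideanSpace ℝ (Fin n)) M]
  [IsManifold (𝓡 n) ∞ M]
  [RiemannianBundle (fun p : M => TangentSpace (𝓡 n) p)]

section Half

variable {G : GeoData n M}

/-- `D(x,y) - D(x₁,y)` in the chart `K(x₁)`. -/
theorem Dd_row {u : M → ℝ} {x1 : M} (x : M) {p : TangentSpace (𝓡 n) x1} (hp : p ∈ G.K x1) :
    Dd u x (G.ex x1 p) - Dd u x1 (G.ex x1 p) = u x - u x1 - Fq G x1 x p := by
  have h1 : halfDistSq x1 (G.ex x1 p) = ‖p‖ ^ 2 / 2 := by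
    have := halfDistSq_ex' (G := G) hp
    rwa [halfDistSq_comm] at this
  unfold Dd Fq
  rw [h1, halfDistSq_comm x]
  ring

variable [IsContMDiffRiemannianBundle (𝓡 n) ∞ (EuclideanSpace ℝ (Fin n))
    (fun p : M => TangentSpace (𝓡 n) p)]
  [IsRiemannianManifold (𝓡 n) M] [CompactSpace M]

theorem continuous_exv (G : GeoData n M) (x : M) : Continuous (G.ex x) :=
  (CutTop478.continuous_ex G).comp (CutTop478.continuous_mk x)

theorem continuous_Fq (y0 y : M) : Continuous (Fq G y0 y) := by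
  have h1 : Continuous (G.ex y0) := continuous_exv G y0
  have h2 : Continuous (fun q : TangentSpace (𝓡 n) y0 => halfDistSq (G.ex y0 q) y) :=
    (continuous_cost y).comp h1
  have h3 : Continuous (fun q : TangentSpace (𝓡 n) y0 => ‖q‖ ^ 2 / 2) := by fun_prop
  exact h3.sub h2

/-- **Loeper half-spaces**: through every `p₀ ∈ K(x₁)` passes a closed half-space on which
`F_x > F_x(p₀) - ε`. -/
theorem halfspace (hg : GoodAll G) {x1 : M} (x : M) (p0 : TangentSpace (𝓡 n) x1)
    {ε : ℝ} (hε : 0 < ε) :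
    ∃ f : TangentSpace (𝓡 n) x1 →L[ℝ] ℝ, ∀ p ∈ G.K x1, f p0 ≤ f p →
      Fq G x1 x p0 - ε < Fq G x1 x p := by
  classical
  set C : Set (TangentSpace (𝓡 n) x1) := {p | p ∈ G.K x1 ∧ Fq G x1 x p ≤ Fq G x1 x p0 - ε}
    with hC
  have hCconv : Convex ℝ C := by
    rintro p ⟨hp, hp'⟩ q ⟨hq, hq'⟩ a b ha hb hab
    refine ⟨convex_K hg x1 hp hq ha hb hab, ?_⟩
    have h1 := fam hg x (μ := 0) le_rfl hp hq ha hb hab
    simp only [zero_mul, add_zero] at h1
    exact h1.trans (max_le hp' hq')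
  have hCcl : IsClosed C := by
    have h1 : C = G.K x1 ∩ {p | Fq G x1 x p ≤ Fq G x1 x p0 - ε} := rfl
    rw [h1]
    exact (CutTop478.isClosed_K G x1).inter
      (isClosed_le (continuous_Fq x1 x) continuous_const)
  have hp0C : p0 ∉ C := by
    rintro ⟨-, h⟩
    linarith
  obtain ⟨f, t, hf1, hf2⟩ := geometric_hahn_banach_closed_point hCconv hCcl hp0C
  refine ⟨f, fun p hp hle => ?_⟩
  by_contra hneg
  push Not at hneg
  have := hf1 p ⟨hp, hneg⟩
  linarith

/-- the gap on the Loeper half-space. -/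
theorem Dd_halfspace (hg : GoodAll G) {u : M → ℝ} {x1 : M} (x : M) {p0 : TangentSpace (𝓡 n) x1}
    (hp0 : p0 ∈ G.K x1) {ε : ℝ} (hε : 0 < ε) :
    ∃ f : TangentSpace (𝓡 n) x1 →L[ℝ] ℝ, ∀ p ∈ G.K x1, f p0 ≤ f p →
      Dd u x (G.ex x1 p) ≤ Dd u x1 (G.ex x1 p) + Dd u x (G.ex x1 p0)
        - Dd u x1 (G.ex x1 p0) + ε := by
  obtain ⟨a, ha⟩ := halfspace hg x p0 hε
  refine ⟨a, fun p hp hle => ?_⟩
  have h1 := ha p hp hle
  have h2 := Dd_row (u := u) x hp
  have h3 := Dd_row (u := u) x hp0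
  linarith

end Half

section Log

variable [IsContMDiffRiemannianBundle (𝓡 n) ∞ (EuclideanSpace ℝ (Fin n))
    (fun p : M => TangentSpace (𝓡 n) p)]
  [IsRiemannianManifold (𝓡 n) M] [CompactSpace M] [MeasurableSpace M] [BorelSpace M]

/-- **measurable a.e. logarithm** at `x`. -/
theorem exists_log (G : GeoData n M) {vol : Measure M}
    (hvol : vol ≪ (Measure.hausdorffMeasure (n : ℝ) : Measure M)) (x : M)
    [MeasurableSpace (TangentSpace (𝓡 n) x)] [BorelSpace (TangentSpace (𝓡 n) x)] :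
    ∃ L : M → TangentSpace (𝓡 n) x, Measurable L ∧ (∀ y, L y ∈ G.K x) ∧
      ∀ᵐ y ∂vol, G.ex x (L y) = y ∧ ∀ p ∈ G.K x, G.ex x p = y → p = L y := by
  classical
  have hae : ∀ᵐ y ∂vol, ∀ p ∈ G.K x, ∀ q ∈ G.K x, G.ex x p = y → G.ex x q = y → p = q :=
    hvol.ae_le (CutNull230.ae_unique_preimage (n := n) G x)
  have hex : ∀ y : M, ∃ p ∈ G.K x, G.ex x p = y := fun y => exists_mem_K G x y
  choose S₀ hS₀K hS₀ using hex
  set B : Set M := {y | ¬ ∀ p ∈ G.K x, ∀ q ∈ G.K x, G.ex x p = y → G.ex x q = y → p = q} with hB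
  have hBv : vol B = 0 := hae
  set N : Set M := toMeasurable vol B with hN
  have hNm : MeasurableSet N := measurableSet_toMeasurable _ _
  have hNv : vol N = 0 := by rw [hN, measure_toMeasurable]; exact hBv
  have hsub : ∀ y, y ∉ N → ∀ p ∈ G.K x, ∀ q ∈ G.K x, G.ex x p = y → G.ex x q = y → p = q := by
    intro y hy
    by_contra hcon
    exact hy (subset_toMeasurable _ _ hcon)
  have h0K : (0 : TangentSpace (𝓡 n) x) ∈ G.K x := by
    show dist x (G.ex x 0) = ‖(0 : TangentSpace (𝓡 n) x)‖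
    rw [G.ex_zero, dist_self, norm_zero]
  refine ⟨fun y => if y ∈ N then 0 else S₀ y, ?_, ?_, ?_⟩
  · refine measurable_of_isClosed fun F hF => ?_
    have h1 : (fun y => if y ∈ N then (0 : TangentSpace (𝓡 n) x) else S₀ y) ⁻¹' F =
        (N ∩ {_y | (0 : TangentSpace (𝓡 n) x) ∈ F}) ∪ (Nᶜ ∩ (G.ex x '' (G.K x ∩ F))) := by
      ext y
      by_cases hy : y ∈ N
      · simp [hy]
      · simp only [mem_preimage, hy, if_false, mem_union, mem_inter_iff, false_and,
          mem_compl_iff, not_false_eq_true, true_and, mem_image, false_or]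
        constructor
        · intro hF
          exact ⟨S₀ y, ⟨hS₀K y, hF⟩, hS₀ y⟩
        · rintro ⟨p, ⟨hpK, hpF⟩, hpy⟩
          have := hsub y hy p hpK (S₀ y) (hS₀K y) hpy (hS₀ y)
          rwa [← this]
    rw [h1]
    refine (hNm.inter (MeasurableSet.const _)).union (hNm.compl.inter ?_)
    have h2 : IsCompact (G.K x ∩ F) := (CutTop478.isCompact_K G x).inter_right hF
    exact (h2.image (continuous_exv G x)).measurableSet
  · intro y
    by_cases hy : y ∈ N
    · simp only [hy, if_true]; exact h0K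
    · simp only [hy, if_false]; exact hS₀K y
  · have : ∀ᵐ y ∂vol, y ∉ N := by
      rw [ae_iff]
      simpa using hNv
    filter_upwards [this] with y hy
    simp only [hy, if_false]
    exact ⟨hS₀ y, fun p hp hpy => hsub y hy p hp (S₀ y) (hS₀K y) hpy (hS₀ y)⟩

end Log

section Column

variable [IsContMDiffRiemannianBundle (𝓡 n) ∞ (EuclideanSpace ℝ (Fin n))
    (fun p : M => TangentSpace (𝓡 n) p)]
  [IsRiemannianManifold (𝓡 n) M] [CompactSpace M] [MeasurableSpace M] [BorelSpace M]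
  {G : GeoData n M}

theorem isClosed_row {u : M → ℝ} (hu : CConv u) (x : M) (h : ℝ) : IsClosed {y | Dd u x y ≤ h} := by
  have h1 : {y | Dd u x y ≤ h} = {y | Dd (ctr u) y x ≤ h} := by
    ext y
    simp only [mem_ofPred_eq, Dd_ctr hu]
  rw [h1]
  exact isClosed_le (continuous_Dd (CConv_ctr (CConv.continuous hu)) x) continuous_const

/-- `S = Y_h(x₀) ∩ Y_h(x₁)`. -/
def SS (u : M → ℝ) (x0 x1 : M) (h : ℝ) : Set M := {y | Dd u x0 y ≤ h ∧ Dd u x1 y ≤ h}

theorem isClosed_SS {u : M → ℝ} (hu : CConv u) (x0 x1 : M) (h : ℝ) : IsClosed (SS u x0 x1 h) :=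
  (isClosed_row hu x0 h).inter (isClosed_row hu x1 h)

/-- **Tukey column** (579 (1)): there is a point `y₀` seen by `x₁` such that every `x` sees, at the
level `h + D(x,y₀) + ε`, at least the fraction `1/(n+1)` of `S = Y_h(x₀) ∩ Y_h(x₁)`. -/
theorem tukey_column (hg : GoodAll G) {vol : Measure M} [IsFiniteMeasure vol]
    (hvol : vol ≪ (Measure.hausdorffMeasure (n : ℝ) : Measure M)) {u : M → ℝ} (hu : CConv u)
    (x0 x1 : M) {h : ℝ} (hh : 0 ≤ h) :
    ∃ p0 ∈ G.K x1, Dd u x1 (G.ex x1 p0) ≤ h ∧ ∀ (x : M) (ε : ℝ), 0 < ε →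
      (vol (SS u x0 x1 h)).toReal ≤ (n + 1) *
        (vol {y | Dd u x0 y ≤ h ∧ Dd u x y ≤ h + Dd u x (G.ex x1 p0) + ε}).toReal := by
  classical
  let ms : MeasurableSpace (TangentSpace (𝓡 n) x1) := borel _
  have bs : BorelSpace (TangentSpace (𝓡 n) x1) := ⟨rfl⟩
  have hfin : FiniteDimensional ℝ (TangentSpace (𝓡 n) x1) :=
    inferInstanceAs (FiniteDimensional ℝ (EuclideanSpace ℝ (Fin n)))
  have hrank : Module.finrank ℝ (TangentSpace (𝓡 n) x1) = n := by
    have : Module.finrank ℝ (EuclideanSpace ℝ (Fin n)) = n := by simp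
    exact this
  have huc := CConv.continuous hu
  obtain ⟨L, hLm, hLK, hL⟩ := exists_log G hvol x1
  set S : Set M := SS u x0 x1 h with hS
  have hSm : MeasurableSet S := (isClosed_SS hu x0 x1 h).measurableSet
  set μ : Measure (TangentSpace (𝓡 n) x1) := (vol.restrict S).map L with hμ
  set K0 : Set (TangentSpace (𝓡 n) x1) := QS G (ctr u) x1 h with hK0
  have hctr : CConv (ctr u) := CConv_ctr huc
  have hK0c : Convex ℝ K0 := convex_QS hg hctr x1 h
  have hK0cl : IsClosed K0 := by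
    have h1 : K0 = G.K x1 ∩ {p | Dd (ctr u) (G.ex x1 p) x1 ≤ h} := rfl
    rw [h1]
    exact (CutTop478.isClosed_K G x1).inter
      (isClosed_le ((continuous_Dd hctr x1).comp (continuous_exv G x1)) continuous_const)
  have hK0ne : K0.Nonempty := by
    obtain ⟨y, hy⟩ := hu x1
    obtain ⟨p, hp, hpy⟩ := exists_mem_K G x1 y
    refine ⟨p, hp, ?_⟩
    rw [Dd_ctr hu, hpy, (Dd_eq_zero huc).2 hy]
    exact hh
  have hK0n : μ K0ᶜ = 0 := by
    rw [hμ, Measure.map_apply hLm hK0cl.measurableSet.compl,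
      Measure.restrict_apply (hLm hK0cl.measurableSet.compl)]
    refine measure_mono_null ?_ (show vol {y | ¬ (G.ex x1 (L y) = y ∧
      ∀ p ∈ G.K x1, G.ex x1 p = y → p = L y)} = 0 from hL)
    rintro y ⟨hy1, hy2⟩ ⟨hy3, -⟩
    apply hy1
    refine ⟨hLK y, ?_⟩
    rw [Dd_ctr hu, hy3]
    exact hy2.2
  obtain ⟨z, hzK, hz⟩ := Tukey229.tukey μ hK0cl hK0c hK0ne hK0n
  have hz1 : Dd u x1 (G.ex x1 z) ≤ h := by
    have := hzK.2
    rwa [Dd_ctr hu] at this
  refine ⟨z, hzK.1, hz1, fun x ε hε => ?_⟩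
  obtain ⟨f, hf⟩ := Dd_halfspace (u := u) hg x hzK.1 hε
  have h1 := hz f
  rw [hrank] at h1
  have h2 : μ.real univ = (vol S).toReal := by
    rw [Measure.real, hμ, Measure.map_apply hLm MeasurableSet.univ, preimage_univ,
      Measure.restrict_apply_univ]
  have h3 : μ.real (Tukey229.up f z) ≤
      (vol {y | Dd u x0 y ≤ h ∧ Dd u x y ≤ h + Dd u x (G.ex x1 z) + ε}).toReal := by
    rw [Measure.real, hμ, Measure.map_apply hLm (Tukey229.measurableSet_up f z),
      Measure.restrict_apply (hLm (Tukey229.measurableSet_up f z))]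
    refine ENNReal.toReal_mono (measure_ne_top _ _) ?_
    refine measure_mono_ae ?_
    filter_upwards [hL] with y hy hyS
    obtain ⟨hy1, hy2⟩ := hyS
    have h4 := hf (L y) (hLK y) hy1
    rw [hy.1] at h4
    have h5 := hy2.1
    have h6 := hy2.2
    have h7 := Dd_nonneg huc x1 (G.ex x1 z)
    exact ⟨h5, by linarith⟩
  rw [h2] at h1
  calc (vol S).toReal ≤ (n + 1) * μ.real (Tukey229.up f z) := h1
    _ ≤ _ := by gcongr

/-- **NG on the column**: if the pair functional does not grow, every `x` with `D(x,y₀) ≤ L` has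
`u(x) ≥ u(x₁) - δ a`. -/
theorem ng_column (hg : GoodAll G) {vol : Measure M} [IsFiniteMeasure vol]
    (hvol : vol ≪ (Measure.hausdorffMeasure (n : ℝ) : Measure M)) {u : M → ℝ} (hu : CConv u)
    {x0 x1 : M} {h h' L a' : ℝ} (hh : 0 ≤ h) (hhh : h < h') (hL : h + L < h')
    (hNG : ∀ x : M, (vol (SS u x0 x1 h)).toReal ≤ (n + 1) * (vol (SS u x0 x h')).toReal →
      u x0 - u x ≤ a') :
    ∃ p0 ∈ G.K x1, Dd u x1 (G.ex x1 p0) ≤ h ∧
      ∀ x : M, Dd u x (G.ex x1 p0) ≤ L → u x0 - u x ≤ a' := by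
  obtain ⟨p0, hp0, h1, h2⟩ := tukey_column hg hvol hu x0 x1 hh
  refine ⟨p0, hp0, h1, fun x hx => hNG x ?_⟩
  have h3 := h2 x (h' - h - L) (by linarith)
  refine h3.trans ?_
  have h4 : (vol {y | Dd u x0 y ≤ h ∧ Dd u x y ≤ h + Dd u x (G.ex x1 p0) + (h' - h - L)}).toReal ≤
      (vol (SS u x0 x h')).toReal := by
    refine ENNReal.toReal_mono (measure_ne_top _ _) (measure_mono ?_)
    rintro y ⟨hy1, hy2⟩
    exact ⟨by linarith, by linarith⟩
  gcongr

end Column

end Crest.Agent.R226.NG487
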