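/-
R226, E2 block N2 (helper344), part 1: calculus on Euclidean space.  Null sets without rays,
bounds of determinants, determinants of bilinear forms.
-/
import Mathlib.MeasureTheory.Function.Jacobian
import Mathlib.Analysis.InnerProductSpace.Dual
import Mathlib.Analysis.InnerProductSpace.EuclideanDist
import Mathlib.Analysis.Calculus.ContDiff.Basic
import Mathlib.MeasureTheory.Measure.Haar.InnerProductSpace

set_option autoImplicit false
set_option linter.unusedSectionVars false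

open MeasureTheory Set Filter Topology
open scoped ENNReal Pointwise

namespace Crest.Agent.R226.JacCalc344

/-- A bounded measurable set `S` such that `a • v ∉ S` for `v ∈ S`, `a > 1`, is null. -/
theorem null_of_ray {E : Type*} [NormedAddCommGroup E] [NormedSpace ℝ E] [FiniteDimensional ℝ E]
    [MeasurableSpace E] [BorelSpace E] (μ : Measure E) [μ.IsAddHaarMeasure] {S : Set E}
    (hS : MeasurableSet S) {R : ℝ} (hR : ∀ v ∈ S, ‖v‖ ≤ R)
    (h : ∀ v ∈ S, ∀ a : ℝ, 1 < a → a • v ∉ S) : μ S = 0 := by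
  by_contra hne
  obtain ⟨r, hr⟩ : ∃ r : ℕ → ℝ, r = fun k : ℕ => 1 / 2 + 1 / (2 * ((k : ℝ) + 1)) := ⟨_, rfl⟩
  have hr2 : ∀ k, 1 / 2 ≤ r k := by
    intro k
    rw [hr]
    have : (0:ℝ) ≤ 1 / (2 * ((k : ℝ) + 1)) := by positivity
    simp only
    linarith
  have hr1 : ∀ k, r k ≤ 1 := by
    intro k
    rw [hr]
    have h1 : 1 / (2 * ((k : ℝ) + 1)) ≤ 1 / 2 := by
      apply div_le_div_of_nonneg_left (by norm_num) (by norm_num)
      have : (0:ℝ) ≤ k := Nat.cast_nonneg k
      linarith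
    simp only
    linarith
  have hr0 : ∀ k, 0 < r k := fun k => by have := hr2 k; linarith
  have hlt : ∀ i j : ℕ, i < j → r j < r i := by
    intro i j hij
    rw [hr]
    have h1 : (i : ℝ) < j := by exact_mod_cast hij
    have h0 : (0:ℝ) ≤ i := Nat.cast_nonneg i
    have : 1 / (2 * ((j : ℝ) + 1)) < 1 / (2 * ((i : ℝ) + 1)) := by
      apply div_lt_div_of_pos_left (by norm_num) (by positivity)
      linarith
    simp only
    linarith
  have hdisj0 : ∀ i j : ℕ, i < j → Disjoint (r i • S) (r j • S) := by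
    intro i j hij
    rw [Set.disjoint_left]
    rintro _ ⟨v, hv, rfl⟩ ⟨w, hw, hvw⟩
    have hvw' : r j • w = r i • v := hvw
    have h1 : w = (r i / r j) • v := by
      have h2 : (r j)⁻¹ • (r j • w) = (r j)⁻¹ • (r i • v) := by rw [hvw']
      rw [smul_smul, smul_smul, inv_mul_cancel₀ (hr0 j).ne', one_smul] at h2
      rw [h2, div_eq_inv_mul]
    have h3 : 1 < r i / r j := by
      rw [lt_div_iff₀ (hr0 j), one_mul]
      exact hlt i j hij
    exact h v hv _ h3 (h1 ▸ hw)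
  have hdisj : Pairwise (Function.onFun Disjoint fun k : ℕ => r k • S) := by
    intro i j hij
    rcases lt_or_gt_of_ne hij with h' | h'
    · exact hdisj0 i j h'
    · exact (hdisj0 j i h').symm
  have hmeas : ∀ k : ℕ, MeasurableSet (r k • S) := fun k => hS.const_smul₀ (r k)
  have hfin : μ (⋃ k : ℕ, r k • S) ≠ ∞ := by
    have hsub : (⋃ k : ℕ, r k • S) ⊆ Metric.closedBall (0 : E) (max R 0) := by
      refine iUnion_subset fun k => ?_
      rintro _ ⟨v, hv, rfl⟩
      rw [mem_closedBall_zero_iff]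
      change ‖r k • v‖ ≤ _
      rw [norm_smul, Real.norm_of_nonneg (hr0 k).le]
      have h1 := hR v hv
      have h2 := hr1 k
      have h3 := norm_nonneg v
      calc r k * ‖v‖ ≤ 1 * ‖v‖ := by gcongr
        _ ≤ max R 0 := by rw [one_mul]; exact h1.trans (le_max_left _ _)
    exact (measure_mono hsub |>.trans_lt measure_closedBall_lt_top).ne
  obtain ⟨ε, hε⟩ : ∃ ε : ℝ≥0∞, ε = ENNReal.ofReal ((1 / 2 : ℝ) ^ Module.finrank ℝ E) * μ S :=
    ⟨_, rfl⟩
  have hεpos : 0 < ε := by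
    rw [hε]
    refine ENNReal.mul_pos ?_ hne
    exact (ENNReal.ofReal_pos.2 (by positivity)).ne'
  have hle : ∀ k : ℕ, ε ≤ μ (r k • S) := by
    intro k
    rw [Measure.addHaar_smul, hε]
    apply mul_le_mul_left
    apply ENNReal.ofReal_le_ofReal
    rw [abs_of_nonneg (by have := hr0 k; positivity)]
    exact pow_le_pow_left₀ (by norm_num) (hr2 k) _
  have hfinite := Measure.finite_const_le_meas_of_disjoint_iUnion μ hεpos hmeas hdisj hfin
  have huniv : {i : ℕ | ε ≤ μ (r i • S)} = univ := by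
    ext k
    simp only [mem_univ, iff_true]
    exact hle k
  rw [huniv] at hfinite
  exact Set.infinite_univ hfinite

section Det

variable {n : ℕ}

local notation "𝔼" => EuclideanSpace ℝ (Fin n)

/-- upper bound of the determinant by the norm bound. -/
theorem abs_det_le (L : 𝔼 →L[ℝ] 𝔼) {C : ℝ} (hC : 0 ≤ C) (h : ∀ v, ‖L v‖ ≤ C * ‖v‖) :
    |L.det| ≤ C ^ n := by
  have h1 := Measure.addHaar_image_continuousLinearMap (volume : Measure 𝔼) L
    (Metric.closedBall (0 : 𝔼) 1)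
  have h2 : L '' Metric.closedBall (0 : 𝔼) 1 ⊆ Metric.closedBall (0 : 𝔼) C := by
    rintro _ ⟨v, hv, rfl⟩
    rw [mem_closedBall_zero_iff] at hv ⊢
    calc ‖L v‖ ≤ C * ‖v‖ := h v
      _ ≤ C * 1 := by gcongr
      _ = C := mul_one C
  have h3 := measure_mono (μ := (volume : Measure 𝔼)) h2
  rw [h1, Measure.addHaar_closedBall _ _ hC, Measure.addHaar_closedBall _ _ zero_le_one] at h3
  simp only [finrank_euclideanSpace, Fintype.card_fin, one_pow, ENNReal.ofReal_one, one_mul] at h3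
  have h4 : (volume : Measure 𝔼) (Metric.ball (0 : 𝔼) 1) ≠ 0 :=
    (Metric.measure_ball_pos _ _ one_pos).ne'
  have h5 : (volume : Measure 𝔼) (Metric.ball (0 : 𝔼) 1) ≠ ∞ := measure_ball_lt_top.ne
  have h6 := (ENNReal.mul_le_mul_iff_left h4 h5).1 h3
  exact (ENNReal.ofReal_le_ofReal_iff (by positivity)).1 h6

/-- lower bound of the determinant. -/
theorem le_abs_det (L : 𝔼 →L[ℝ] 𝔼) {C : ℝ} (hC : 0 < C) (h : ∀ v, ‖v‖ ≤ C * ‖L v‖) :
    (C ^ n)⁻¹ ≤ |L.det| := by
  have hinj : Function.Injective L := by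
    rw [injective_iff_map_eq_zero]
    intro v hv
    have := h v
    rw [hv, norm_zero, mul_zero] at this
    exact norm_eq_zero.1 (le_antisymm this (norm_nonneg _))
  have hsurj : Function.Surjective L :=
    (LinearMap.injective_iff_surjective (f := (L : 𝔼 →ₗ[ℝ] 𝔼))).1 hinj
  have h1 := Measure.addHaar_image_continuousLinearMap (volume : Measure 𝔼) L
    (Metric.closedBall (0 : 𝔼) 1)
  have h2 : Metric.closedBall (0 : 𝔼) C⁻¹ ⊆ L '' Metric.closedBall (0 : 𝔼) 1 := by
    intro w hw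
    obtain ⟨v, rfl⟩ := hsurj w
    refine ⟨v, ?_, rfl⟩
    rw [mem_closedBall_zero_iff] at hw ⊢
    calc ‖v‖ ≤ C * ‖L v‖ := h v
      _ ≤ C * C⁻¹ := by gcongr
      _ = 1 := mul_inv_cancel₀ hC.ne'
  have h3 := measure_mono (μ := (volume : Measure 𝔼)) h2
  rw [h1, Measure.addHaar_closedBall _ _ (by positivity),
    Measure.addHaar_closedBall _ _ zero_le_one] at h3
  simp only [finrank_euclideanSpace, Fintype.card_fin, one_pow, ENNReal.ofReal_one, one_mul] at h3
  have h4 : (volume : Measure 𝔼) (Metric.ball (0 : 𝔼) 1) ≠ 0 :=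
    (Metric.measure_ball_pos _ _ one_pos).ne'
  have h5 : (volume : Measure 𝔼) (Metric.ball (0 : 𝔼) 1) ≠ ∞ := measure_ball_lt_top.ne
  have h6 := (ENNReal.mul_le_mul_iff_left h4 h5).1 h3
  have h7 := (ENNReal.ofReal_le_ofReal_iff (abs_nonneg _)).1 h6
  rwa [inv_pow] at h7

/-- the matrix of a bilinear form in the standard basis. -/
noncomputable def bmat (B : 𝔼 →L[ℝ] 𝔼 →L[ℝ] ℝ) : Matrix (Fin n) (Fin n) ℝ :=
  Matrix.of fun i j => B (EuclideanSpace.single i 1) (EuclideanSpace.single j 1)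

/-- determinant of a bilinear form on `ℝⁿ`. -/
noncomputable def detB (B : 𝔼 →L[ℝ] 𝔼 →L[ℝ] ℝ) : ℝ := (bmat B).det

theorem eq_sum (v : 𝔼) : v = ∑ k, v k • EuclideanSpace.single k (1 : ℝ) := by
  ext i
  simp [Finset.sum_apply, Pi.single_apply]

/-- the matrix of an endomorphism in the standard basis -/
noncomputable def lmat (T : 𝔼 →L[ℝ] 𝔼) : Matrix (Fin n) (Fin n) ℝ :=
  Matrix.of fun i j => (T (EuclideanSpace.single j 1)) i

theorem det_lmat (T : 𝔼 →L[ℝ] 𝔼) : (lmat T).det = T.det := by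
  have h1 := LinearMap.det_toMatrix (EuclideanSpace.basisFun (Fin n) ℝ).toBasis
    (T : 𝔼 →ₗ[ℝ] 𝔼)
  have h2 : LinearMap.toMatrix (EuclideanSpace.basisFun (Fin n) ℝ).toBasis
      (EuclideanSpace.basisFun (Fin n) ℝ).toBasis (T : 𝔼 →ₗ[ℝ] 𝔼) = lmat T := by
    ext i j
    simp [LinearMap.toMatrix_apply, lmat]
  rw [h2] at h1
  exact h1

theorem bmat_comp_left (B : 𝔼 →L[ℝ] 𝔼 →L[ℝ] ℝ) (T : 𝔼 →L[ℝ] 𝔼) :
    bmat (B.comp T) = (lmat T).transpose * bmat B := by
  ext i j
  simp only [bmat, Matrix.of_apply, ContinuousLinearMap.comp_apply, Matrix.mul_apply,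
    Matrix.transpose_apply, lmat]
  conv_lhs => rw [eq_sum (T (EuclideanSpace.single i 1))]
  simp [map_sum]

theorem detB_comp_left (B : 𝔼 →L[ℝ] 𝔼 →L[ℝ] ℝ) (T : 𝔼 →L[ℝ] 𝔼) :
    detB (B.comp T) = T.det * detB B := by
  unfold detB
  rw [bmat_comp_left, Matrix.det_mul, Matrix.det_transpose, det_lmat]

theorem detB_neg (B : 𝔼 →L[ℝ] 𝔼 →L[ℝ] ℝ) : |detB (-B)| = |detB B| := by
  have : bmat (-B) = - bmat B := by
    ext i j
    simp [bmat]
  unfold detB
  rw [this, Matrix.det_neg, abs_mul]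
  simp

theorem bmat_congr (B : 𝔼 →L[ℝ] 𝔼 →L[ℝ] ℝ) (B' : 𝔼 →L[ℝ] 𝔼 →L[ℝ] ℝ) (L : 𝔼 →L[ℝ] 𝔼)
    (h : ∀ v w, B' v w = B (L v) (L w)) :
    bmat B' = (lmat L).transpose * bmat B * lmat L := by
  ext i j
  simp only [bmat, Matrix.of_apply, Matrix.mul_apply, Matrix.transpose_apply, lmat, h]
  conv_lhs => rw [eq_sum (L (EuclideanSpace.single i 1)), eq_sum (L (EuclideanSpace.single j 1))]
  simp only [map_sum, map_smul, sum_apply, smul_apply,
    smul_eq_mul, Finset.sum_mul, Finset.mul_sum]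
  refine Finset.sum_congr rfl fun k _ => Finset.sum_congr rfl fun l _ => ?_
  ring

theorem detB_congr (B : 𝔼 →L[ℝ] 𝔼 →L[ℝ] ℝ) (B' : 𝔼 →L[ℝ] 𝔼 →L[ℝ] ℝ) (L : 𝔼 →L[ℝ] 𝔼)
    (h : ∀ v w, B' v w = B (L v) (L w)) : detB B' = L.det ^ 2 * detB B := by
  unfold detB
  rw [bmat_congr B B' L h, Matrix.det_mul, Matrix.det_mul, Matrix.det_transpose, det_lmat]
  ring

theorem detB_ne_zero (B : 𝔼 →L[ℝ] 𝔼 →L[ℝ] ℝ) (h : ∀ v, (∀ w, B v w = 0) → v = 0) :
    detB B ≠ 0 := by
  intro h0
  have h1 : (bmat B).transpose.det = 0 := by rw [Matrix.det_transpose]; exact h0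
  obtain ⟨v, hv0, hv⟩ := Matrix.exists_mulVec_eq_zero_iff.2 h1
  apply hv0
  have h2 : (WithLp.toLp 2 v : 𝔼) = 0 := by
    apply h
    intro w
    have h3 : ∀ j, B (WithLp.toLp 2 v) (EuclideanSpace.single j 1) = 0 := by
      intro j
      have h4 := congrFun hv j
      rw [eq_sum (WithLp.toLp 2 v : 𝔼)]
      simp only [map_sum, map_smul, sum_apply,
        smul_apply, smul_eq_mul]
      simp only [Matrix.mulVec, dotProduct, Matrix.transpose_apply, bmat, Matrix.of_apply,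
        Pi.zero_apply] at h4
      rw [← h4]
      refine Finset.sum_congr rfl fun k _ => ?_
      rw [mul_comm]
    rw [eq_sum w]
    simp only [map_sum, map_smul, h3, smul_zero, Finset.sum_const_zero]
  ext i
  have := congrArg (fun u : 𝔼 => u i) h2
  simpa using this

theorem continuous_detB : Continuous (detB (n := n)) := by
  unfold detB
  apply Continuous.matrix_det
  unfold bmat
  apply continuous_matrix
  intro i j
  simp only [Matrix.of_apply]
  fun_prop

end Det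

end Crest.Agent.R226.JacCalc344
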