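/-
R226, E2 (helper344): linear algebra.  Domination of quadratic forms in the min-max sense implies
domination of the determinants.
-/
import Crest.Agent.R226.JacCalc_344
import Mathlib.Analysis.InnerProductSpace.Spectrum

set_option autoImplicit false
set_option linter.unusedSectionVars false

open Set Filter Topology

namespace Crest.Agent.R226.DomLin344

open Crest.Agent.R226.JacCalc344

section gen

variable {E : Type*} [NormedAddCommGroup E] [InnerProductSpace ℝ E]

/-- min-max domination of quadratic forms: whenever `A ≤ ρ` on a subspace, `B ≤ C ρ` on a subspace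
of at least the same dimension. -/
def Dom (A B : E →L[ℝ] E →L[ℝ] ℝ) (C : ℝ) : Prop :=
  ∀ ρ : ℝ, 0 < ρ → ∀ V : Submodule ℝ E, (∀ v ∈ V, A v v ≤ ρ * ‖v‖ ^ 2) →
    ∃ W : Submodule ℝ E, Module.finrank ℝ V ≤ Module.finrank ℝ W ∧
      ∀ w ∈ W, B w w ≤ C * ρ * ‖w‖ ^ 2

theorem Dom.refl (A : E →L[ℝ] E →L[ℝ] ℝ) : Dom A A 1 := fun ρ _ V h =>
  ⟨V, le_rfl, fun w hw => by rw [one_mul]; exact h w hw⟩

theorem Dom.mono {A B : E →L[ℝ] E →L[ℝ] ℝ} {C C' : ℝ} (h : Dom A B C) (hC : C ≤ C') :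
    Dom A B C' := by
  intro ρ hρ V hV
  obtain ⟨W, h1, h2⟩ := h ρ hρ V hV
  refine ⟨W, h1, fun w hw => (h2 w hw).trans ?_⟩
  gcongr

theorem Dom.trans {A B D : E →L[ℝ] E →L[ℝ] ℝ} {C C' : ℝ} (h : Dom A B C) (h' : Dom B D C')
    (hC : 0 < C) : Dom A D (C' * C) := by
  intro ρ hρ V hV
  obtain ⟨W, h1, h2⟩ := h ρ hρ V hV
  obtain ⟨W', h3, h4⟩ := h' (C * ρ) (by positivity) W h2
  refine ⟨W', h1.trans h3, fun w hw => (h4 w hw).trans ?_⟩
  rw [← mul_assoc]

/-- a form inequality gives domination. -/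
theorem Dom.of_le {A B : E →L[ℝ] E →L[ℝ] ℝ} {C : ℝ} (hC : 0 ≤ C) (h : ∀ v, B v v ≤ C * A v v) :
    Dom A B C := by
  intro ρ _ V hV
  refine ⟨V, le_rfl, fun w hw => (h w).trans ?_⟩
  rw [mul_assoc]
  exact mul_le_mul_of_nonneg_left (hV w hw) hC

variable [FiniteDimensional ℝ E] {n : ℕ}

theorem inner_eq_sum {T : E →ₗ[ℝ] E} (hT : T.IsSymmetric) (hn : Module.finrank ℝ E = n) (v : E) :
    inner ℝ (T v) v = ∑ j, hT.eigenvalues hn j * (inner ℝ (hT.eigenvectorBasis hn j) v) ^ 2 := by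
  rw [← (hT.eigenvectorBasis hn).sum_inner_mul_inner (T v) v]
  refine Finset.sum_congr rfl fun j _ => ?_
  have h1 : inner ℝ (T v) (hT.eigenvectorBasis hn j) =
      hT.eigenvalues hn j * inner ℝ (hT.eigenvectorBasis hn j) v := by
    rw [hT, hT.apply_eigenvectorBasis hn j]
    simp [inner_smul_right, real_inner_comm]
  rw [h1]
  ring

theorem norm_eq_sum {T : E →ₗ[ℝ] E} (hT : T.IsSymmetric) (hn : Module.finrank ℝ E = n) (v : E) :
    ‖v‖ ^ 2 = ∑ j, (inner ℝ (hT.eigenvectorBasis hn j) v) ^ 2 := by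
  rw [← real_inner_self_eq_norm_sq, ← (hT.eigenvectorBasis hn).sum_inner_mul_inner v v]
  refine Finset.sum_congr rfl fun j _ => ?_
  rw [real_inner_comm v]
  ring

/-- subspace on which `T` is small -/
theorem exists_small {T : E →ₗ[ℝ] E} (hT : T.IsSymmetric) (hn : Module.finrank ℝ E = n)
    (i : Fin n) : ∃ V : Submodule ℝ E, n - (i : ℕ) ≤ Module.finrank ℝ V ∧
      ∀ v ∈ V, inner ℝ (T v) v ≤ hT.eigenvalues hn i * ‖v‖ ^ 2 := by
  classical
  obtain ⟨s, hs⟩ : ∃ s : Finset E, s = (Finset.Iio i).image (hT.eigenvectorBasis hn) := ⟨_, rfl⟩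
  refine ⟨(Submodule.span ℝ (s : Set E))ᗮ, ?_, ?_⟩
  · have h1 := Submodule.finrank_add_finrank_orthogonal (Submodule.span ℝ (s : Set E))
    have h2 : Module.finrank ℝ (Submodule.span ℝ (s : Set E)) ≤ s.card := finrank_span_finset_le_card s
    have h3 : s.card ≤ i := by
      rw [hs]
      exact Finset.card_image_le.trans (by simp)
    omega
  · intro v hv
    rw [inner_eq_sum hT hn, norm_eq_sum hT hn, Finset.mul_sum]
    refine Finset.sum_le_sum fun j _ => ?_
    rcases lt_or_ge j i with hj | hj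
    · have h0 : inner ℝ (hT.eigenvectorBasis hn j) v = (0 : ℝ) := by
        rw [Submodule.mem_orthogonal] at hv
        apply hv
        apply Submodule.subset_span
        rw [hs]
        simp only [Finset.coe_image, mem_image, Finset.mem_coe, Finset.mem_Iio]
        exact ⟨j, hj, rfl⟩
      rw [h0]
      simp
    · have := hT.eigenvalues_antitone hn hj
      gcongr

/-- subspace on which `T` is large -/
theorem exists_large {T : E →ₗ[ℝ] E} (hT : T.IsSymmetric) (hn : Module.finrank ℝ E = n)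
    (i : Fin n) : ∃ V : Submodule ℝ E, (i : ℕ) + 1 ≤ Module.finrank ℝ V ∧
      ∀ v ∈ V, hT.eigenvalues hn i * ‖v‖ ^ 2 ≤ inner ℝ (T v) v := by
  classical
  obtain ⟨s, hs⟩ : ∃ s : Finset E, s = (Finset.Ioi i).image (hT.eigenvectorBasis hn) := ⟨_, rfl⟩
  refine ⟨(Submodule.span ℝ (s : Set E))ᗮ, ?_, ?_⟩
  · have h1 := Submodule.finrank_add_finrank_orthogonal (Submodule.span ℝ (s : Set E))
    have h2 : Module.finrank ℝ (Submodule.span ℝ (s : Set E)) ≤ s.card := finrank_span_finset_le_card s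
    have h3 : s.card ≤ n - 1 - i := by
      rw [hs]
      exact Finset.card_image_le.trans (by simp)
    have h4 := i.2
    omega
  · intro v hv
    rw [inner_eq_sum hT hn, norm_eq_sum hT hn, Finset.mul_sum]
    refine Finset.sum_le_sum fun j _ => ?_
    rcases lt_or_ge i j with hj | hj
    · have h0 : inner ℝ (hT.eigenvectorBasis hn j) v = (0 : ℝ) := by
        rw [Submodule.mem_orthogonal] at hv
        apply hv
        apply Submodule.subset_span
        rw [hs]
        simp only [Finset.coe_image, mem_image, Finset.mem_coe, Finset.mem_Ioi]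
        exact ⟨j, hj, rfl⟩
      rw [h0]
      simp
    · have := hT.eigenvalues_antitone hn hj
      gcongr

/-- two subspaces of large dimension meet. -/
theorem exists_common {U W : Submodule ℝ E} (hn : Module.finrank ℝ E = n)
    (h : n < Module.finrank ℝ U + Module.finrank ℝ W) : ∃ v ∈ U, v ∈ W ∧ v ≠ 0 := by
  have h1 := Submodule.finrank_sup_add_finrank_inf_eq U W
  have h2 : Module.finrank ℝ ↥(U ⊔ W) ≤ n := by
    rw [← hn]
    exact Submodule.finrank_le _
  have h3 : 0 < Module.finrank ℝ ↥(U ⊓ W) := by omega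
  have h4 : (U ⊓ W) ≠ ⊥ := by
    intro h5
    rw [h5] at h3
    simp at h3
  obtain ⟨v, hv, hv0⟩ := Submodule.exists_mem_ne_zero_of_ne_bot h4
  exact ⟨v, hv.1, hv.2, hv0⟩

/-- domination gives domination of the ordered eigenvalues. -/
theorem eigenvalues_le {S T : E →ₗ[ℝ] E} (hS : S.IsSymmetric) (hT : T.IsSymmetric)
    (hn : Module.finrank ℝ E = n) {A B : E →L[ℝ] E →L[ℝ] ℝ}
    (hA : ∀ v, inner ℝ (S v) v = A v v) (hB : ∀ v, inner ℝ (T v) v = B v v) {C : ℝ} (hC : 0 ≤ C)
    (hA0 : ∀ v, 0 ≤ A v v) (h : Dom A B C) (i : Fin n) :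
    hT.eigenvalues hn i ≤ C * hS.eigenvalues hn i := by
  have ha0 : 0 ≤ hS.eigenvalues hn i := by
    have h1 := hS.apply_eigenvectorBasis hn i
    have h2 := hA0 (hS.eigenvectorBasis hn i)
    rw [← hA, h1] at h2
    simp only [RCLike.ofReal_real_eq_id, id_eq, inner_smul_left, conj_trivial] at h2
    rw [real_inner_self_eq_norm_sq, (hS.eigenvectorBasis hn).norm_eq_one] at h2
    simpa using h2
  obtain ⟨V, hV1, hV2⟩ := exists_small hS hn i
  obtain ⟨U, hU1, hU2⟩ := exists_large hT hn i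
  have key : ∀ ρ : ℝ, 0 < ρ → hS.eigenvalues hn i ≤ ρ → hT.eigenvalues hn i ≤ C * ρ := by
    intro ρ hρ hle
    obtain ⟨W, hW1, hW2⟩ := h ρ hρ V (by
      intro v hv
      rw [← hA]
      refine (hV2 v hv).trans ?_
      gcongr)
    have hi := i.2
    obtain ⟨v, hvU, hvW, hv0⟩ := exists_common (U := U) (W := W) hn (by omega)
    have h1 := hU2 v hvU
    have h2 := hW2 v hvW
    rw [← hB] at h2
    have h3 : 0 < ‖v‖ ^ 2 := by positivity
    have h4 : hT.eigenvalues hn i * ‖v‖ ^ 2 ≤ C * ρ * ‖v‖ ^ 2 := h1.trans h2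
    exact le_of_mul_le_mul_right h4 h3
  rcases ha0.lt_or_eq with hpos | hzero
  · exact key _ hpos le_rfl
  · rw [← hzero, mul_zero]
    apply le_of_forall_pos_le_add
    intro ε hε
    rw [zero_add]
    have h1 := key (ε / (C + 1)) (by positivity) (by rw [← hzero]; positivity)
    refine h1.trans ?_
    rw [← mul_div_assoc, div_le_iff₀ (by positivity)]
    nlinarith

end gen

section euc

variable {n : ℕ}

local notation "𝔼" => EuclideanSpace ℝ (Fin n)

/-- the endomorphism of a bilinear form on `ℝⁿ`. -/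
noncomputable def op (B : 𝔼 →L[ℝ] 𝔼 →L[ℝ] ℝ) : 𝔼 →L[ℝ] 𝔼 :=
  LinearMap.toContinuousLinearMap
    { toFun := fun v => (InnerProductSpace.toDual ℝ 𝔼).symm (B v)
      map_add' := fun v w => by simp
      map_smul' := fun c v => by simp }

theorem inner_op (B : 𝔼 →L[ℝ] 𝔼 →L[ℝ] ℝ) (v w : 𝔼) : inner ℝ (op B v) w = B v w := by
  change inner ℝ ((InnerProductSpace.toDual ℝ 𝔼).symm (B v)) w = B v w
  exact InnerProductSpace.toDual_symm_apply

theorem detB_eq_det_op (B : 𝔼 →L[ℝ] 𝔼 →L[ℝ] ℝ) : detB B = (op B).det := by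
  rw [← det_lmat]
  unfold detB
  have : bmat B = (lmat (op B)).transpose := by
    ext i j
    simp only [bmat, lmat, Matrix.of_apply, Matrix.transpose_apply]
    rw [← inner_op]
    rw [EuclideanSpace.inner_single_right]
    simp
  rw [this, Matrix.det_transpose]

theorem op_symm {B : 𝔼 →L[ℝ] 𝔼 →L[ℝ] ℝ} (h : ∀ v w, B v w = B w v) :
    ((op B : 𝔼 →L[ℝ] 𝔼) : 𝔼 →ₗ[ℝ] 𝔼).IsSymmetric := by
  intro v w
  change inner ℝ (op B v) w = inner ℝ v (op B w)
  rw [inner_op, real_inner_comm, inner_op, h]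

/-- **min-max domination implies domination of determinants.** -/
theorem abs_detB_le_of_dom {A B : 𝔼 →L[ℝ] 𝔼 →L[ℝ] ℝ} (hA : ∀ v w, A v w = A w v)
    (hB : ∀ v w, B v w = B w v) (hA0 : ∀ v, 0 ≤ A v v) (hB0 : ∀ v, 0 ≤ B v v) {C : ℝ}
    (hC : 0 ≤ C) (h : Dom A B C) : |detB B| ≤ C ^ n * |detB A| := by
  have hn : Module.finrank ℝ 𝔼 = n := by simp
  have hS := op_symm hA
  have hT := op_symm hB
  have h1 : detB A = ∏ i, hS.eigenvalues hn i := by
    rw [detB_eq_det_op]
    have := hS.det_eq_prod_eigenvalues hn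
    simpa using this
  have h2 : detB B = ∏ i, hT.eigenvalues hn i := by
    rw [detB_eq_det_op]
    have := hT.det_eq_prod_eigenvalues hn
    simpa using this
  have h3 : ∀ i, hT.eigenvalues hn i ≤ C * hS.eigenvalues hn i := fun i =>
    eigenvalues_le hS hT hn (A := A) (B := B) (fun v => inner_op A v v) (fun v => inner_op B v v)
      hC hA0 h i
  have h4 : ∀ i, 0 ≤ hT.eigenvalues hn i := by
    intro i
    have e1 := hT.apply_eigenvectorBasis hn i
    have e2 := hB0 (hT.eigenvectorBasis hn i)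
    have e3 : inner ℝ ((op B) (hT.eigenvectorBasis hn i)) (hT.eigenvectorBasis hn i) =
        B (hT.eigenvectorBasis hn i) (hT.eigenvectorBasis hn i) := inner_op B _ _
    rw [← e3] at e2
    have e4 : (op B) (hT.eigenvectorBasis hn i) =
        hT.eigenvalues hn i • hT.eigenvectorBasis hn i := e1
    rw [e4, inner_smul_left, real_inner_self_eq_norm_sq,
      (hT.eigenvectorBasis hn).norm_eq_one] at e2
    simpa using e2
  have h5 : ∀ i, 0 ≤ C * hS.eigenvalues hn i := fun i => (h4 i).trans (h3 i)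
  rw [h1, h2, Finset.abs_prod, Finset.abs_prod]
  have h6 : ∏ i, |hT.eigenvalues hn i| ≤ ∏ i : Fin n, (C * |hS.eigenvalues hn i|) := by
    apply Finset.prod_le_prod
    · intro i _; exact abs_nonneg _
    · intro i _
      rw [abs_of_nonneg (h4 i)]
      refine (h3 i).trans ?_
      gcongr
      exact le_abs_self _
  rw [Finset.prod_mul_distrib, Finset.prod_const, Finset.card_univ, Fintype.card_fin] at h6
  exact h6

end euc

end Crest.Agent.R226.DomLin344
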