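/-
R226, task E1.8 (helper344): calculus part of the uniform Taylor lemma of Theorem 3 (doc 848).
-/
import Mathlib

set_option autoImplicit false

open Set Filter Topology

namespace Crest.Agent.R226.TaylorCalc344

variable {E : Type*} [NormedAddCommGroup E] [NormedSpace ℝ E]

/-- second order Taylor estimate on `[0,1]` with a bound on the variation of the first derivative. -/
theorem abs_taylor_le {φ φ' : ℝ → ℝ} {B : ℝ}
    (h1 : ∀ s ∈ Icc (0 : ℝ) 1, HasDerivAt φ (φ' s) s)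
    (h2 : ∀ s ∈ Icc (0 : ℝ) 1, |φ' s - φ' 0| ≤ B) :
    |φ 1 - φ 0 - φ' 0| ≤ B := by
  have hd : ∀ s ∈ Icc (0 : ℝ) 1, HasDerivWithinAt (fun s => φ s - s * φ' 0) (φ' s - φ' 0)
      (Icc (0 : ℝ) 1) s := by
    intro s hs
    have h3 : HasDerivAt (fun s : ℝ => s * φ' 0) (φ' 0) s := by
      simpa using (hasDerivAt_id s).mul_const (φ' 0)
    exact ((h1 s hs).sub h3).hasDerivWithinAt
  have h4 := (convex_Icc (0 : ℝ) 1).norm_image_sub_le_of_norm_hasDerivWithin_le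
    (f := fun s => φ s - s * φ' 0) (C := B) hd (fun s hs => by
      rw [Real.norm_eq_abs]; exact h2 s hs)
    (left_mem_Icc.2 zero_le_one) (right_mem_Icc.2 zero_le_one)
  simp only [one_mul, zero_mul, sub_zero, norm_one, mul_one, Real.norm_eq_abs] at h4
  rwa [show φ 1 - φ' 0 - φ 0 = φ 1 - φ 0 - φ' 0 by ring] at h4

/-- Taylor estimate in the middle variable with Lipschitz dependence on the last one. -/
theorem exists_taylor {H : E × E × E → ℝ} {a Q : E} (hH : ContDiffAt ℝ 3 H (a, 0, Q)) :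
    ∃ ε : ℝ, 0 < ε ∧ ∃ K : ℝ, 0 ≤ K ∧ ∀ x z V V' : E,
      ‖x - a‖ < ε → ‖z‖ < ε → ‖V - Q‖ < ε → ‖V' - Q‖ < ε →
      DifferentiableAt ℝ H (x, 0, V) ∧
      |(H (x, z, V') - H (x, 0, V') - fderiv ℝ H (x, 0, V') (0, z, 0)) -
        (H (x, z, V) - H (x, 0, V) - fderiv ℝ H (x, 0, V) (0, z, 0))| ≤
        K * ‖V' - V‖ * ‖z‖ ^ 2 := by
  have hD2 : ContDiffAt ℝ 1 (fderiv ℝ (fderiv ℝ H)) (a, 0, Q) :=
    (hH.fderiv_right (m := 2) (by norm_num)).fderiv_right (m := 1) (by norm_num)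
  obtain ⟨K, t, ht, hK⟩ := hD2.exists_lipschitzOnWith
  have hev : ∀ᶠ p in 𝓝 ((a, 0, Q) : E × E × E), ContDiffAt ℝ 3 H p := hH.eventually (by simp)
  obtain ⟨ε, hε, hball⟩ := Metric.mem_nhds_iff.1 (inter_mem ht hev)
  refine ⟨ε, hε, K, K.coe_nonneg, ?_⟩
  intro x z V V' hx hz hV hV'
  have hmem : ∀ W : E, ‖W - Q‖ < ε → ∀ s ∈ Icc (0 : ℝ) 1,
      (x, s • z, W) ∈ Metric.ball ((a, 0, Q) : E × E × E) ε := by
    intro W hW s hs
    rw [Metric.mem_ball, dist_eq_norm]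
    simp only [Prod.mk_sub_mk, Prod.norm_def, sub_zero]
    refine max_lt hx (max_lt ?_ hW)
    rw [norm_smul, Real.norm_of_nonneg hs.1]
    calc s * ‖z‖ ≤ 1 * ‖z‖ := by gcongr; exact hs.2
      _ < ε := by rw [one_mul]; exact hz
  have hcd : ∀ W : E, ‖W - Q‖ < ε → ∀ s ∈ Icc (0 : ℝ) 1, ContDiffAt ℝ 3 H (x, s • z, W) :=
    fun W hW s hs => (hball (hmem W hW s hs)).2
  have h0 : (0 : ℝ) ∈ Icc (0 : ℝ) 1 := left_mem_Icc.2 zero_le_one
  refine ⟨?_, ?_⟩
  · have := hcd V hV 0 h0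
    rw [zero_smul] at this
    exact this.differentiableAt (by norm_num)
  -- derivative of the path
  have hpath : ∀ (W : E) (s : ℝ), HasDerivAt (fun s : ℝ => (x, s • z, W)) ((0 : E), z, (0 : E)) s := by
    intro W s
    have h8 : HasDerivAt (fun s : ℝ => s • z) z s := by
      simpa using (hasDerivAt_id s).smul_const z
    exact (hasDerivAt_const s _).prodMk (h8.prodMk (hasDerivAt_const s _))
  have hφ : ∀ W : E, ‖W - Q‖ < ε → ∀ s ∈ Icc (0 : ℝ) 1,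
      HasDerivAt (fun s : ℝ => H (x, s • z, W)) (fderiv ℝ H (x, s • z, W) (0, z, 0)) s := by
    intro W hW s hs
    exact ((hcd W hW s hs).differentiableAt (by norm_num)).hasFDerivAt.comp_hasDerivAt s (hpath W s)
  have hφ' : ∀ W : E, ‖W - Q‖ < ε → ∀ s ∈ Icc (0 : ℝ) 1,
      HasDerivAt (fun s : ℝ => fderiv ℝ H (x, s • z, W) (0, z, 0))
        (fderiv ℝ (fderiv ℝ H) (x, s • z, W) (0, z, 0) (0, z, 0)) s := by
    intro W hW s hs
    have h5 : DifferentiableAt ℝ (fderiv ℝ H) (x, s • z, W) :=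
      ((hcd W hW s hs).fderiv_right (m := 2) (by norm_num)).differentiableAt (by norm_num)
    have h6 : HasDerivAt (fun s : ℝ => fderiv ℝ H (x, s • z, W))
        (fderiv ℝ (fderiv ℝ H) (x, s • z, W) (0, z, 0)) s :=
      h5.hasFDerivAt.comp_hasDerivAt s (hpath W s)
    have h7 := h6.clm_apply (hasDerivAt_const s ((0 : E), z, (0 : E)))
    simpa using h7
  -- the variation of the first derivative
  have hn : ‖((0 : E), z, (0 : E))‖ = ‖z‖ := by
    simp [Prod.norm_def]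
  have hvar2 : ∀ s ∈ Icc (0 : ℝ) 1,
      |fderiv ℝ (fderiv ℝ H) (x, s • z, V') (0, z, 0) (0, z, 0) -
        fderiv ℝ (fderiv ℝ H) (x, s • z, V) (0, z, 0) (0, z, 0)| ≤ K * ‖V' - V‖ * ‖z‖ ^ 2 := by
    intro s hs
    have h1 := hK.dist_le_mul _ (hball (hmem V' hV' s hs)).1 _ (hball (hmem V hV s hs)).1
    rw [dist_eq_norm, dist_eq_norm] at h1
    obtain ⟨D, hD⟩ : ∃ D : (E × E × E) →L[ℝ] (E × E × E) →L[ℝ] ℝ,
      D = fderiv ℝ (fderiv ℝ H) (x, s • z, V') - fderiv ℝ (fderiv ℝ H) (x, s • z, V) := ⟨_, rfl⟩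
    have h2 : ‖((x, s • z, V') : E × E × E) - (x, s • z, V)‖ = ‖V' - V‖ := by
      simp [Prod.norm_def]
    rw [h2, ← hD] at h1
    have h4 : fderiv ℝ (fderiv ℝ H) (x, s • z, V') (0, z, 0) (0, z, 0) -
        fderiv ℝ (fderiv ℝ H) (x, s • z, V) (0, z, 0) (0, z, 0) = D (0, z, 0) (0, z, 0) := by
      rw [hD]; rfl
    rw [h4, ← Real.norm_eq_abs]
    have h6 := ContinuousLinearMap.le_opNorm₂ D ((0 : E), z, (0 : E)) ((0 : E), z, (0 : E))
    rw [hn] at h6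
    calc ‖D (0, z, 0) (0, z, 0)‖ ≤ ‖D‖ * ‖z‖ * ‖z‖ := h6
      _ ≤ (K * ‖V' - V‖) * ‖z‖ * ‖z‖ := by gcongr
      _ = K * ‖V' - V‖ * ‖z‖ ^ 2 := by ring
  have hvar1 : ∀ s ∈ Icc (0 : ℝ) 1,
      |(fderiv ℝ H (x, s • z, V') (0, z, 0) - fderiv ℝ H (x, s • z, V) (0, z, 0)) -
        (fderiv ℝ H (x, (0 : ℝ) • z, V') (0, z, 0) - fderiv ℝ H (x, (0 : ℝ) • z, V) (0, z, 0))| ≤
        K * ‖V' - V‖ * ‖z‖ ^ 2 := by
    intro s hs
    have h4 := (convex_Icc (0 : ℝ) 1).norm_image_sub_le_of_norm_hasDerivWithin_le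
      (f := fun s : ℝ => fderiv ℝ H (x, s • z, V') (0, z, 0) - fderiv ℝ H (x, s • z, V) (0, z, 0))
      (C := K * ‖V' - V‖ * ‖z‖ ^ 2)
      (fun s hs => ((hφ' V' hV' s hs).sub (hφ' V hV s hs)).hasDerivWithinAt)
      (fun s hs => by rw [Real.norm_eq_abs]; exact hvar2 s hs) h0 hs
    rw [Real.norm_eq_abs, sub_zero, Real.norm_of_nonneg hs.1] at h4
    refine h4.trans ?_
    have h5 : 0 ≤ K * ‖V' - V‖ * ‖z‖ ^ 2 := by positivity
    calc K * ‖V' - V‖ * ‖z‖ ^ 2 * s ≤ K * ‖V' - V‖ * ‖z‖ ^ 2 * 1 := by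
          gcongr
          exact hs.2
      _ = _ := mul_one _
  have h9 := abs_taylor_le (φ := fun s : ℝ => H (x, s • z, V') - H (x, s • z, V))
    (φ' := fun s : ℝ => fderiv ℝ H (x, s • z, V') (0, z, 0) - fderiv ℝ H (x, s • z, V) (0, z, 0))
    (fun s hs => (hφ V' hV' s hs).sub (hφ V hV s hs)) hvar1
  simp only [one_smul, zero_smul] at h9
  rw [show (H (x, z, V') - H (x, 0, V') - fderiv ℝ H (x, 0, V') (0, z, 0)) -
        (H (x, z, V) - H (x, 0, V) - fderiv ℝ H (x, 0, V) (0, z, 0)) =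
      H (x, z, V') - H (x, z, V) - (H (x, 0, V') - H (x, 0, V)) -
        (fderiv ℝ H (x, 0, V') (0, z, 0) - fderiv ℝ H (x, 0, V) (0, z, 0)) by ring]
  exact h9

/-- a nonnegative `C²` function vanishing on the diagonal is bounded by the squared distance. -/
theorem exists_quad {H : E × E × E → ℝ} {a Q : E} (hH : ContDiffAt ℝ 2 H (a, Q, Q))
    (h0 : ∀ x A : E, H (x, A, A) = 0) (hnn : ∀ p, 0 ≤ H p) :
    ∃ ε : ℝ, 0 < ε ∧ ∃ K : ℝ, 0 ≤ K ∧ ∀ x A B : E,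
      ‖x - a‖ < ε → ‖A - Q‖ < ε → ‖B - Q‖ < ε → H (x, A, B) ≤ K * ‖B - A‖ ^ 2 := by
  have hD : ContDiffAt ℝ 1 (fderiv ℝ H) (a, Q, Q) := hH.fderiv_right (m := 1) (by norm_num)
  obtain ⟨K, t, ht, hK⟩ := hD.exists_lipschitzOnWith
  have hev : ∀ᶠ p in 𝓝 ((a, Q, Q) : E × E × E), ContDiffAt ℝ 2 H p := hH.eventually (by simp)
  obtain ⟨ε, hε, hball⟩ := Metric.mem_nhds_iff.1 (inter_mem ht hev)
  refine ⟨ε, hε, K, K.coe_nonneg, ?_⟩
  intro x A B hx hA hB
  have hmem : ∀ s ∈ Icc (0 : ℝ) 1,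
      (x, A, A + s • (B - A)) ∈ Metric.ball ((a, Q, Q) : E × E × E) ε := by
    intro s hs
    rw [Metric.mem_ball, dist_eq_norm]
    simp only [Prod.mk_sub_mk, Prod.norm_def]
    refine max_lt hx (max_lt hA ?_)
    have h1 : A + s • (B - A) - Q = (1 - s) • (A - Q) + s • (B - Q) := by module
    rw [h1]
    rcases eq_or_lt_of_le hs.1 with h | h
    · rw [← h]; simpa using hA
    calc ‖(1 - s) • (A - Q) + s • (B - Q)‖ ≤ ‖(1 - s) • (A - Q)‖ + ‖s • (B - Q)‖ := norm_add_le _ _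
      _ = (1 - s) * ‖A - Q‖ + s * ‖B - Q‖ := by
          rw [norm_smul, norm_smul, Real.norm_of_nonneg hs.1, Real.norm_of_nonneg (sub_nonneg.2 hs.2)]
      _ < (1 - s) * ε + s * ε := by
          have h3 : (1 - s) * ‖A - Q‖ ≤ (1 - s) * ε :=
            mul_le_mul_of_nonneg_left hA.le (sub_nonneg.2 hs.2)
          have h4 : s * ‖B - Q‖ < s * ε := mul_lt_mul_of_pos_left hB h
          linarith
      _ = ε := by ring
  have h0' : (0 : ℝ) ∈ Icc (0 : ℝ) 1 := left_mem_Icc.2 zero_le_one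
  have hpath : ∀ s : ℝ, HasDerivAt (fun s : ℝ => (x, A, A + s • (B - A)))
      ((0 : E), (0 : E), B - A) s := by
    intro s
    have h8 : HasDerivAt (fun s : ℝ => A + s • (B - A)) (B - A) s := by
      simpa using ((hasDerivAt_id s).smul_const (B - A)).const_add A
    exact (hasDerivAt_const s _).prodMk ((hasDerivAt_const s _).prodMk h8)
  have hφ : ∀ s ∈ Icc (0 : ℝ) 1, HasDerivAt (fun s : ℝ => H (x, A, A + s • (B - A)))
      (fderiv ℝ H (x, A, A + s • (B - A)) (0, 0, B - A)) s := by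
    intro s hs
    have h5 : ContDiffAt ℝ 2 H (x, A, A + s • (B - A)) := (hball (hmem s hs)).2
    exact (h5.differentiableAt (by norm_num)).hasFDerivAt.comp_hasDerivAt s (hpath s)
  have hn : ‖((0 : E), (0 : E), B - A)‖ = ‖B - A‖ := by
    simp [Prod.norm_def]
  have hvar : ∀ s ∈ Icc (0 : ℝ) 1,
      |fderiv ℝ H (x, A, A + s • (B - A)) (0, 0, B - A) -
        fderiv ℝ H (x, A, A + (0 : ℝ) • (B - A)) (0, 0, B - A)| ≤ K * ‖B - A‖ ^ 2 := by
    intro s hs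
    have h1 := hK.dist_le_mul _ (hball (hmem s hs)).1 _ (hball (hmem 0 h0')).1
    rw [dist_eq_norm, dist_eq_norm] at h1
    have h2 : ‖((x, A, A + s • (B - A)) : E × E × E) - (x, A, A + (0 : ℝ) • (B - A))‖ ≤ ‖B - A‖ := by
      have : ((x, A, A + s • (B - A)) : E × E × E) - (x, A, A + (0 : ℝ) • (B - A)) =
          ((0 : E), (0 : E), s • (B - A)) := by
        simp
      rw [this]
      simp only [Prod.norm_def, norm_zero, norm_smul, Real.norm_of_nonneg hs.1]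
      refine max_le (norm_nonneg _) (max_le (norm_nonneg _) ?_)
      calc s * ‖B - A‖ ≤ 1 * ‖B - A‖ := by gcongr; exact hs.2
        _ = ‖B - A‖ := one_mul _
    rw [← Real.norm_eq_abs]
    refine (ContinuousLinearMap.le_opNorm (fderiv ℝ H (x, A, A + s • (B - A)) -
      fderiv ℝ H (x, A, A + (0 : ℝ) • (B - A))) (0, 0, B - A)).trans ?_
    rw [hn]
    calc ‖fderiv ℝ H (x, A, A + s • (B - A)) - fderiv ℝ H (x, A, A + (0 : ℝ) • (B - A))‖ * ‖B - A‖
        ≤ (K * ‖B - A‖) * ‖B - A‖ := by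
          gcongr
          exact h1.trans (by gcongr)
      _ = K * ‖B - A‖ ^ 2 := by ring
  have h9 := abs_taylor_le (φ := fun s : ℝ => H (x, A, A + s • (B - A)))
    (φ' := fun s : ℝ => fderiv ℝ H (x, A, A + s • (B - A)) (0, 0, B - A)) hφ hvar
  -- the first derivative at `0` vanishes
  have hmin : IsLocalMin (fun s : ℝ => H (x, A, A + s • (B - A))) 0 := by
    refine Filter.Eventually.of_forall fun s => ?_
    simp only [zero_smul, add_zero, h0]
    exact hnn _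
  have h10 := hmin.hasDerivAt_eq_zero (hφ 0 h0')
  rw [h10] at h9
  simp only [one_smul, zero_smul, add_zero, h0, add_sub_cancel, sub_zero] at h9
  exact (le_abs_self _).trans h9

end Crest.Agent.R226.TaylorCalc344
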