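/-
R226, task E1.8 (helper344): the uniform Taylor lemma of Theorem 3 (doc 848).

Main statements (`G : GeoData n M`, `hC : CutFacts G`, `M` compact):
* `rem_uniform`  : for a compact `S ⊆ IT`, uniform Lipschitz dependence on `v` of the second order
  Taylor remainder `rem G z v ζ = c(exp_z ζ, exp_z v) - c(z, exp_z v) + ⟪v, ζ⟫`;
* `Sym`          : symmetric minimisers (midpoints of minimising geodesics), `isCompact_SymT`,
  `sym_mem_I`, `exists_mid` (every minimiser has a midpoint), `sym_rev`;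
* `taylor_pair`  : the two expansions used in Theorem 3;
* `near_isometry`: `|d(exp_z v, exp_z ζ)² - ‖v - ζ‖²| ≤ C ‖v‖ ‖ζ‖²` near `0`.
-/
import Crest.Agent.R226.LoeperUnif_128
import Crest.Agent.R226.TaylorCalc_344

set_option autoImplicit false

open MeasureTheory Bundle Set Filter
open scoped Manifold ContDiff Bundle ENNReal Topology
open Crest.GeometryTopology.MTW

namespace Crest.Agent.R226.Taylor344

open Crest.Agent.R226.LoeperUnif128 Crest.Agent.R226.LoeperPt128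
open Crest.Agent.R226.TMSmooth771 Crest.Agent.R226.TaylorCalc344

variable {n : ℕ} {M : Type*} [MetricSpace M] [ChartedSpace (EuclideanSpace ℝ (Fin n)) M]
  [IsManifold (𝓡 n) ∞ M]
  [RiemannianBundle (fun p : M => TangentSpace (𝓡 n) p)]

/-- second order Taylor remainder of the cost in normal coordinates at `z`. -/
noncomputable def rem (G : GeoData n M) (z : M) (v ζ : TangentSpace (𝓡 n) z) : ℝ :=
  halfDistSq (G.ex z ζ) (G.ex z v) - halfDistSq z (G.ex z v) + inner ℝ v ζ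

section

variable [IsContMDiffRiemannianBundle (𝓡 n) ∞ (EuclideanSpace ℝ (Fin n))
  (fun p : M => TangentSpace (𝓡 n) p)]

/-- local form of the uniform Taylor lemma. -/
theorem rem_local {G : GeoData n M} (hC : CutFacts G) {y : M} {q : TangentSpace (𝓡 n) y}
    (hq : q ∈ G.I y) :
    ∃ N ∈ 𝓝 (⟨y, q⟩ : TangentBundle (𝓡 n) M), ∃ C r : ℝ, 0 ≤ C ∧ 0 < r ∧
      ∀ (z : M) (v : TangentSpace (𝓡 n) z), (⟨z, v⟩ : TangentBundle (𝓡 n) M) ∈ N →
        ∀ v' ζ : TangentSpace (𝓡 n) z, ‖v' - v‖ ≤ r → ‖ζ‖ ≤ r →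
          v' ∈ G.I z ∧ |rem G z v' ζ - rem G z v ζ| ≤ C * ‖v' - v‖ * ‖ζ‖ ^ 2 := by
  obtain ⟨C, hC0, hb⟩ := dphi_bounds (n := n) y
  have hy : (⟨y, q⟩ : TangentBundle (𝓡 n) M).1 ∈ (chartAt (EuclideanSpace ℝ (Fin n)) y).source :=
    mem_chart_source _ y
  obtain ⟨H, hHe⟩ : ∃ H : EE n × EE n × EE n → ℝ, H = fun z : EE n × EE n × EE n =>
      halfDistSq (exT G (tmci y (z.1, z.2.1))) (exT G (tmci y (z.1, z.2.2))) := ⟨_, rfl⟩
  have hH3 : ContDiffAt ℝ 3 H (extChartAt (𝓡 n) y y, 0, dphi y y q) := by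
    rw [hHe]
    exact (contDiffAt_H hC hq).of_le three_le_infty
  obtain ⟨ε₀, hε₀, K, hK0, hK⟩ := exists_taylor hH3
  -- the point in coordinates
  obtain ⟨z0, hz0⟩ : ∃ z0, z0 = tmc y (⟨y, q⟩ : TangentBundle (𝓡 n) M) := ⟨_, rfl⟩
  have hz0t : z0.1 ∈ (extChartAt (𝓡 n) y).target := by
    rw [hz0]
    exact (extChartAt (𝓡 n) y).map_source (mem_extChartAt_source y)
  have hN' : ∀ᶠ a in 𝓝 z0, tmci y a ∈ G.IT := by
    apply eventually_nhds_tmci hz0t (P := fun p => p ∈ G.IT)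
    rw [hz0, tmci_tmc hy]
    exact hC.isOpen_IT.mem_nhds hq
  obtain ⟨ε₁, hε₁, hI⟩ := Metric.eventually_nhds_iff.1 hN'
  obtain ⟨ε, hε, hεε₀, hεε₁⟩ : ∃ ε : ℝ, 0 < ε ∧ ε ≤ ε₀ ∧ ε ≤ ε₁ :=
    ⟨min ε₀ ε₁, lt_min hε₀ hε₁, min_le_left _ _, min_le_right _ _⟩
  refine ⟨{p | dist (tmc y p) z0 < ε / 2} ∩ {p | p.1 ∈ (chartAt (EuclideanSpace ℝ (Fin n)) y).source ∧
    ∀ v : TangentSpace (𝓡 n) p.1, ‖dphi y p.1 v‖ ≤ C * ‖v‖ ∧ ‖v‖ ≤ C * ‖dphi y p.1 v‖}, ?_,
    K * C * C ^ 2, ε / (3 * C), by positivity, by positivity, ?_⟩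
  · apply inter_mem
    · exact map_nhds_tmc (x₀ := y) (p := (⟨y, q⟩ : TangentBundle (𝓡 n) M)) hy
        (P := fun a => dist a z0 < ε / 2) (by rw [← hz0]; exact Metric.ball_mem_nhds z0 (by positivity))
    · have h2 : ContinuousAt (fun p : TangentBundle (𝓡 n) M => p.1)
          (⟨y, q⟩ : TangentBundle (𝓡 n) M) :=
        (FiberBundle.continuous_proj (EuclideanSpace ℝ (Fin n))
          (fun p : M => TangentSpace (𝓡 n) p)).continuousAt
      exact h2 hb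
  rintro z v ⟨h0, hz, hzb⟩ v' ζ hv' hζ
  change dist _ _ < _ at h0
  change z ∈ _ at hz
  have hCr : C * (ε / (3 * C)) = ε / 3 := by field_simp
  have e1 : ‖dphi y z v' - dphi y z v‖ ≤ ε / 3 := by
    rw [← map_sub, ← hCr]
    exact ((hzb _).1).trans (by gcongr)
  have e2 : ‖dphi y z ζ‖ ≤ ε / 3 := by
    rw [← hCr]
    exact ((hzb _).1).trans (by gcongr)
  have hx : ‖(extChartAt (𝓡 n) y z) - z0.1‖ < ε / 2 := by
    rw [← dist_eq_norm]
    exact lt_of_le_of_lt (le_max_left _ _) h0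
  have hV : ‖dphi y z v - z0.2‖ < ε / 2 := by
    rw [← dist_eq_norm]
    exact lt_of_le_of_lt (le_max_right _ _) h0
  have hV' : ‖dphi y z v' - z0.2‖ < ε := by
    calc ‖dphi y z v' - z0.2‖ = ‖(dphi y z v' - dphi y z v) + (dphi y z v - z0.2)‖ := by
          congr 1; abel
      _ ≤ ‖dphi y z v' - dphi y z v‖ + ‖dphi y z v - z0.2‖ := norm_add_le _ _
      _ < ε := by linarith
  have hz01 : z0.1 = extChartAt (𝓡 n) y y := by rw [hz0]; rfl
  have hz02 : z0.2 = dphi y y q := by rw [hz0]; rfl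
  -- `v'` and `v` are in the injectivity domain
  have hmemI : ∀ w : TangentSpace (𝓡 n) z, ‖dphi y z w - z0.2‖ < ε → w ∈ G.I z := by
    intro w hw
    have h3 : dist (tmc y (⟨z, w⟩ : TangentBundle (𝓡 n) M)) z0 < ε₁ := by
      rw [Prod.dist_eq]
      refine max_lt ?_ ?_
      · rw [dist_eq_norm]
        exact (hx.trans (by linarith)).trans_le hεε₁
      · rw [dist_eq_norm]
        exact hw.trans_le hεε₁
    have h4 := hI h3
    rw [tmci_tmc (x₀ := y) (p := (⟨z, w⟩ : TangentBundle (𝓡 n) M)) hz] at h4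
    exact h4
  have hIv' : v' ∈ G.I z := hmemI v' hV'
  have hIv : v ∈ G.I z := hmemI v (hV.trans (by linarith))
  refine ⟨hIv', ?_⟩
  have hT := hK (extChartAt (𝓡 n) y z) (dphi y z ζ) (dphi y z v) (dphi y z v')
    (by rw [← hz01]; exact (hx.trans (by linarith)).trans_le hεε₀)
    (lt_of_le_of_lt e2 (by linarith))
    (by rw [← hz02]; exact (hV.trans (by linarith)).trans_le hεε₀)
    (by rw [← hz02]; exact hV'.trans_le hεε₀)
  have hT' := hK (extChartAt (𝓡 n) y z) (dphi y z ζ) (dphi y z v') (dphi y z v')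
    (by rw [← hz01]; exact (hx.trans (by linarith)).trans_le hεε₀)
    (lt_of_le_of_lt e2 (by linarith))
    (by rw [← hz02]; exact hV'.trans_le hεε₀)
    (by rw [← hz02]; exact hV'.trans_le hεε₀)
  -- identification of the terms
  have hval : ∀ a b : TangentSpace (𝓡 n) z,
      H (extChartAt (𝓡 n) y z, dphi y z a, dphi y z b) = halfDistSq (G.ex z a) (G.ex z b) := by
    intro a b
    rw [hHe]
    have h1 : tmci y (extChartAt (𝓡 n) y z, dphi y z a) =
        (⟨z, a⟩ : TangentBundle (𝓡 n) M) :=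
      tmci_tmc (x₀ := y) (p := (⟨z, a⟩ : TangentBundle (𝓡 n) M)) hz
    have h2 : tmci y (extChartAt (𝓡 n) y z, dphi y z b) =
        (⟨z, b⟩ : TangentBundle (𝓡 n) M) :=
      tmci_tmc (x₀ := y) (p := (⟨z, b⟩ : TangentBundle (𝓡 n) M)) hz
    simp only [h1, h2]
    rfl
  have hval0 : ∀ b : TangentSpace (𝓡 n) z,
      H (extChartAt (𝓡 n) y z, 0, dphi y z b) = halfDistSq z (G.ex z b) := by
    intro b
    have h1 := hval 0 b
    rw [map_zero, G.ex_zero] at h1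
    exact h1
  have hder : ∀ b : TangentSpace (𝓡 n) z, b ∈ G.I z →
      DifferentiableAt ℝ H (extChartAt (𝓡 n) y z, 0, dphi y z b) →
      fderiv ℝ H (extChartAt (𝓡 n) y z, 0, dphi y z b) (0, dphi y z ζ, 0) = -inner ℝ b ζ := by
    intro b hb hdiff
    have h3 : HasDerivAt (fun s : ℝ => G.nc z b (s • ζ)) (fderiv ℝ (G.nc z b) 0 ζ) 0 := by
      have e1 : HasDerivAt (fun s : ℝ => s • ζ) ζ 0 := by
        simpa using (hasDerivAt_id (0 : ℝ)).smul_const ζ
      have e2 : HasFDerivAt (G.nc z b) (fderiv ℝ (G.nc z b) 0) ((fun s : ℝ => s • ζ) 0) := by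
        simp only [zero_smul]
        exact ((hC.nc_smooth z b hb).differentiableAt (by simp)).hasFDerivAt
      exact e2.comp_hasDerivAt 0 e1
    rw [hC.nc_fderiv z b hb ζ] at h3
    have h4 : HasDerivAt (fun s : ℝ => (extChartAt (𝓡 n) y z, s • dphi y z ζ, dphi y z b))
        ((0 : EE n), dphi y z ζ, (0 : EE n)) 0 := by
      have h8 : HasDerivAt (fun s : ℝ => s • dphi y z ζ) (dphi y z ζ) 0 := by
        simpa using (hasDerivAt_id (0 : ℝ)).smul_const (dphi y z ζ)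
      exact (hasDerivAt_const 0 _).prodMk (h8.prodMk (hasDerivAt_const 0 _))
    have h5 : DifferentiableAt ℝ H
        ((fun s : ℝ => (extChartAt (𝓡 n) y z, s • dphi y z ζ, dphi y z b)) 0) := by
      simp only [zero_smul]
      exact hdiff
    have h6 := h5.hasFDerivAt.comp_hasDerivAt 0 h4
    simp only [zero_smul] at h6
    have h7 : (H ∘ fun s : ℝ => (extChartAt (𝓡 n) y z, s • dphi y z ζ, dphi y z b)) =
        fun s : ℝ => G.nc z b (s • ζ) := by
      funext s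
      have := hval (s • ζ) b
      rw [map_smul] at this
      exact this
    rw [h7] at h6
    exact h6.unique h3
  have hT2 := hT.2
  rw [hval, hval, hval0, hval0, hder v' hIv' hT'.1, hder v hIv hT.1, ← map_sub] at hT2
  have h9 : |rem G z v' ζ - rem G z v ζ| ≤ K * ‖dphi y z (v' - v)‖ * ‖dphi y z ζ‖ ^ 2 := by
    unfold rem
    rw [sub_neg_eq_add, sub_neg_eq_add] at hT2
    exact hT2
  refine h9.trans ?_
  calc K * ‖dphi y z (v' - v)‖ * ‖dphi y z ζ‖ ^ 2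
      ≤ K * (C * ‖v' - v‖) * (C * ‖ζ‖) ^ 2 := by
        gcongr
        · exact (hzb _).1
        · exact (hzb _).1
    _ = K * C * C ^ 2 * ‖v' - v‖ * ‖ζ‖ ^ 2 := by ring

/-- uniform form on compact subsets of `I ⊆ TM`. -/
theorem rem_uniform {G : GeoData n M} (hC : CutFacts G) {S : Set (TangentBundle (𝓡 n) M)}
    (hS : IsCompact S) (hSI : S ⊆ G.IT) :
    ∃ C r : ℝ, 0 ≤ C ∧ 0 < r ∧
      ∀ (z : M) (v : TangentSpace (𝓡 n) z), (⟨z, v⟩ : TangentBundle (𝓡 n) M) ∈ S →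
        ∀ v' ζ : TangentSpace (𝓡 n) z, ‖v' - v‖ ≤ r → ‖ζ‖ ≤ r →
          v' ∈ G.I z ∧ |rem G z v' ζ - rem G z v ζ| ≤ C * ‖v' - v‖ * ‖ζ‖ ^ 2 := by
  refine hS.induction_on (p := fun S => ∃ C r : ℝ, 0 ≤ C ∧ 0 < r ∧
      ∀ (z : M) (v : TangentSpace (𝓡 n) z), (⟨z, v⟩ : TangentBundle (𝓡 n) M) ∈ S →
        ∀ v' ζ : TangentSpace (𝓡 n) z, ‖v' - v‖ ≤ r → ‖ζ‖ ≤ r →
          v' ∈ G.I z ∧ |rem G z v' ζ - rem G z v ζ| ≤ C * ‖v' - v‖ * ‖ζ‖ ^ 2) ?_ ?_ ?_ ?_
  · exact ⟨0, 1, le_rfl, one_pos, fun z v hv => absurd hv (Set.notMem_empty _)⟩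
  · rintro s t hst ⟨C, r, hC0, hr, h⟩
    exact ⟨C, r, hC0, hr, fun z v hv => h z v (hst hv)⟩
  · rintro s t ⟨C, r, hC0, hr, h⟩ ⟨C', r', hC0', hr', h'⟩
    refine ⟨max C C', min r r', le_max_of_le_left hC0, lt_min hr hr', ?_⟩
    rintro z v (hv | hv) v' ζ h1 h2
    · obtain ⟨h3, h4⟩ := h z v hv v' ζ (h1.trans (min_le_left _ _)) (h2.trans (min_le_left _ _))
      refine ⟨h3, h4.trans ?_⟩
      gcongr
      exact le_max_left _ _
    · obtain ⟨h3, h4⟩ := h' z v hv v' ζ (h1.trans (min_le_right _ _)) (h2.trans (min_le_right _ _))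
      refine ⟨h3, h4.trans ?_⟩
      gcongr
      exact le_max_right _ _
  · intro p hp
    obtain ⟨N, hN, h⟩ := rem_local hC (y := p.1) (q := p.2) (hSI hp)
    exact ⟨N, mem_nhdsWithin_of_mem_nhds hN, h⟩

end

end Crest.Agent.R226.Taylor344
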