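/-
R226, task E1.8 (helper344), part 2: symmetric minimisers, Lipschitz bound of the exponential map,
the pair expansion and the geometry of `ell`.
-/
import Crest.Agent.R226.Taylor_344

set_option autoImplicit false
set_option linter.unusedSectionVars false

open MeasureTheory Bundle Set Filter
open scoped Manifold ContDiff Bundle ENNReal Topology
open Crest.GeometryTopology.MTW

namespace Crest.Agent.R226.Taylor344

open Crest.Agent.R226.LoeperUnif128 Crest.Agent.R226.LoeperPt128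
open Crest.Agent.R226.TMSmooth771 Crest.Agent.R226.TaylorCalc344

variable {n : ℕ} {M : Type*} [MetricSpace M] [ChartedSpace (EuclideanSpace ℝ (Fin n)) M]
  [IsManifold (𝓡 n) ∞ M]
  [RiemannianBundle (fun p : M => TangentSpace (𝓡 n) p)]

/-- symmetric minimisers at `z`: the geodesic from `exp_z (-v)` to `exp_z v` is minimising. -/
def Sym (G : GeoData n M) (z : M) : Set (TangentSpace (𝓡 n) z) :=
  {v | dist (G.ex z (-v)) (G.ex z v) = 2 * ‖v‖}

/-- the same as a subset of the tangent bundle -/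
def SymT (G : GeoData n M) : Set (TangentBundle (𝓡 n) M) := {p | p.2 ∈ Sym G p.1}

theorem sym_neg {G : GeoData n M} {z : M} {v : TangentSpace (𝓡 n) z} (hv : v ∈ Sym G z) :
    -v ∈ Sym G z := by
  change dist (G.ex z (-(-v))) (G.ex z (-v)) = 2 * ‖-v‖
  rw [neg_neg, norm_neg, dist_comm]
  exact hv

/-- transport of reversed vectors -/
theorem mem_I_of_curve {G : GeoData n M} {z : M} {w : TangentSpace (𝓡 n) z} {z' : M} (hz : z' = z)
    {q' : TangentSpace (𝓡 n) z'} (hq : q' ∈ G.I z')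
    (h : ∀ t : ℝ, G.ex z' (t • q') = G.ex z (t • w)) : w ∈ G.I z := by
  subst hz
  have h1 : q' = w := by
    have e1 := G.vel_zero z' q'
    have e2 := G.vel_zero z' w
    have e3 : (fun t : ℝ => G.ex z' (t • q')) = fun t : ℝ => G.ex z' (t • w) := funext h
    rw [← e3] at e2
    exact e1.symm.trans e2
  rwa [← h1]

theorem sym_mem_I {G : GeoData n M} (hC : CutFacts G) {z : M} {v : TangentSpace (𝓡 n) z}
    (hv : v ∈ Sym G z) : v ∈ G.I z := by
  obtain ⟨p', hpn', -, hps'⟩ := CutTop478.exists_vel G z v 1 (z := G.ex z v) (by rw [one_smul])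
  have hp2' : (2 : ℝ) • (-p') ∈ G.K (G.ex z v) := by
    change dist (G.ex z v) (G.ex (G.ex z v) ((2 : ℝ) • (-p'))) = ‖(2 : ℝ) • (-p')‖
    have h1 : G.ex (G.ex z v) ((2 : ℝ) • (-p')) = G.ex z (-v) := by
      rw [smul_neg, ← neg_smul, hps']
      congr 1
      rw [show (1 : ℝ) + -2 = -1 by norm_num, neg_one_smul]
    rw [h1, norm_smul, norm_neg, hpn', dist_comm]
    norm_num
    exact hv
  have hpI' : -p' ∈ G.I (G.ex z v) := ⟨2, by norm_num, hp2'⟩
  have hrev' := hC.rev_I _ _ hpI'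
  have hz'' : G.ex (G.ex z v) ((1 : ℝ) • (-p')) = z := by
    rw [smul_neg, ← neg_smul, hps']
    simp [G.ex_zero]
  apply mem_I_of_curve hz'' hrev'
  intro t
  rw [hC.rev_ex, smul_neg, ← neg_smul, hps']
  congr 1
  congr 1
  ring

/-- every minimiser has a midpoint -/
theorem exists_mid {G : GeoData n M} {x : M} {p : TangentSpace (𝓡 n) x} (hp : p ∈ G.K x) :
    ∃ (z : M) (v : TangentSpace (𝓡 n) z), v ∈ Sym G z ∧ G.ex z (-v) = x ∧ G.ex z v = G.ex x p ∧
      ‖v‖ = ‖p‖ / 2 ∧ z = G.ex x ((1 / 2 : ℝ) • p) := by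
  obtain ⟨q, hqn, -, hqs⟩ := CutTop478.exists_vel G x p (1 / 2) (z := G.ex x ((1 / 2 : ℝ) • p)) rfl
  refine ⟨_, (1 / 2 : ℝ) • q, ?_, ?_, ?_, ?_, rfl⟩
  · change dist (G.ex _ (-((1 / 2 : ℝ) • q))) (G.ex _ ((1 / 2 : ℝ) • q)) = 2 * ‖(1 / 2 : ℝ) • q‖
    rw [← neg_smul, hqs, hqs, norm_smul, hqn]
    norm_num [G.ex_zero]
    have h1 : dist x (G.ex x p) = ‖p‖ := hp
    rw [h1]
    ring
  · rw [← neg_smul, hqs]
    norm_num [G.ex_zero]
  · rw [hqs]
    norm_num
  · rw [norm_smul, hqn]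
    norm_num
    ring

section

variable [IsContMDiffRiemannianBundle (𝓡 n) ∞ (EuclideanSpace ℝ (Fin n))
  (fun p : M => TangentSpace (𝓡 n) p)]

theorem continuous_negTM :
    Continuous (fun p : TangentBundle (𝓡 n) M => (⟨p.1, -p.2⟩ : TangentBundle (𝓡 n) M)) := by
  have h : Continuous (fun p : TangentBundle (𝓡 n) M => ((-1 : ℝ), p)) :=
    continuous_const.prodMk continuous_id
  have h2 := (BAux227.continuous_smulTM (n := n) (M := M)).comp h
  have h3 : (fun p : TangentBundle (𝓡 n) M => (⟨p.1, -p.2⟩ : TangentBundle (𝓡 n) M)) =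
      (fun q : ℝ × TangentBundle (𝓡 n) M => (⟨q.2.1, q.1 • q.2.2⟩ : TangentBundle (𝓡 n) M)) ∘
        fun p : TangentBundle (𝓡 n) M => ((-1 : ℝ), p) := by
    funext p
    simp
  rw [h3]
  exact h2

theorem isCompact_SymT [CompactSpace M] (G : GeoData n M) : IsCompact (SymT G) := by
  have hD : ∀ x y : M, dist x y ≤ Metric.diam (univ : Set M) := fun x y =>
    Metric.dist_le_diam_of_mem isCompact_univ.isBounded (mem_univ _) (mem_univ _)
  have hcl : IsClosed (SymT G) := by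
    apply isClosed_eq
    · have h1 : Continuous (fun p : TangentBundle (𝓡 n) M => G.ex p.1 p.2) := G.smooth.continuous
      exact (h1.comp continuous_negTM).dist h1
    · exact continuous_const.mul CutTop478.continuous_norm_snd
  refine (CutTop478.isCompact_disc (n := n) (M := M)
    (Metric.diam (univ : Set M))).of_isClosed_subset hcl ?_
  rintro ⟨z, v⟩ hv
  have h1 : dist (G.ex z (-v)) (G.ex z v) = 2 * ‖v‖ := hv
  have h2 := hD (G.ex z (-v)) (G.ex z v)
  change ‖v‖ ≤ Metric.diam (univ : Set M)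
  have := norm_nonneg v
  linarith

theorem SymT_subset {G : GeoData n M} (hC : CutFacts G) : SymT G ⊆ G.IT :=
  fun p hp => sym_mem_I (z := p.1) (v := p.2) hC hp

/-! ### Lipschitz bound of the exponential map along the fibres -/

theorem contDiffAt_H' {G : GeoData n M} {y : M} (q : TangentSpace (𝓡 n) y) :
    ContDiffAt ℝ ∞ (fun z : EE n × EE n × EE n =>
      halfDistSq (exT G (tmci y (z.1, z.2.1))) (exT G (tmci y (z.1, z.2.2))))
      (extChartAt (𝓡 n) y y, dphi y y q, dphi y y q) := by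
  have hy : (⟨y, q⟩ : TangentBundle (𝓡 n) M).1 ∈ (chartAt (EuclideanSpace ℝ (Fin n)) y).source :=
    mem_chart_source _ y
  have hyt : extChartAt (𝓡 n) y y ∈ (extChartAt (𝓡 n) y).target :=
    (extChartAt (𝓡 n) y).map_source (mem_extChartAt_source y)
  have e1 : tmci y (extChartAt (𝓡 n) y y, dphi y y q) = (⟨y, q⟩ : TangentBundle (𝓡 n) M) :=
    tmci_tmc (x₀ := y) (p := (⟨y, q⟩ : TangentBundle (𝓡 n) M)) hy
  have h1 : ContMDiffAt 𝓘(ℝ, EE n × EE n × EE n) 𝓘(ℝ, EE n × EE n) ∞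
      (fun z : EE n × EE n × EE n => (z.1, z.2.1))
      (extChartAt (𝓡 n) y y, dphi y y q, dphi y y q) := by
    apply ContDiffAt.contMDiffAt
    fun_prop
  have h2 : ContMDiffAt 𝓘(ℝ, EE n × EE n × EE n) 𝓘(ℝ, EE n × EE n) ∞
      (fun z : EE n × EE n × EE n => (z.1, z.2.2))
      (extChartAt (𝓡 n) y y, dphi y y q, dphi y y q) := by
    apply ContDiffAt.contMDiffAt
    fun_prop
  have h3 := ContMDiffAt.comp (extChartAt (𝓡 n) y y, dphi y y q, dphi y y q)
    (contMDiffAt_tmci (x₀ := y) (q := (extChartAt (𝓡 n) y y, dphi y y q)) hyt) h1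
  have h4 := ContMDiffAt.comp (extChartAt (𝓡 n) y y, dphi y y q, dphi y y q)
    (contMDiffAt_tmci (x₀ := y) (q := (extChartAt (𝓡 n) y y, dphi y y q)) hyt) h2
  have hex : ContMDiff (𝓡 n).tangent (𝓡 n) ∞ (exT G) := G.smooth
  have h5 := (hex.contMDiffAt).comp (extChartAt (𝓡 n) y y, dphi y y q, dphi y y q) h3
  have h6 := (hex.contMDiffAt).comp (extChartAt (𝓡 n) y y, dphi y y q, dphi y y q) h4
  have h7 := h5.prodMk h6
  have hopen : IsOpen {q : M × M | dist q.1 q.2 < G.r₀} := isOpen_lt continuous_dist continuous_const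
  have h8 : ContMDiffAt ((𝓡 n).prod (𝓡 n)) 𝓘(ℝ) ∞ (fun q : M × M => halfDistSq q.1 q.2)
      (G.ex y q, G.ex y q) :=
    G.smooth_cost.contMDiffAt (hopen.mem_nhds (by simp [G.r₀_pos]))
  have h9 : ContMDiffAt ((𝓡 n).prod (𝓡 n)) 𝓘(ℝ) ∞ (fun q : M × M => halfDistSq q.1 q.2)
      ((fun z : EE n × EE n × EE n =>
        (exT G (tmci y (z.1, z.2.1)), exT G (tmci y (z.1, z.2.2))))
        (extChartAt (𝓡 n) y y, dphi y y q, dphi y y q)) := by
    simp only [e1]
    exact h8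
  exact contMDiffAt_iff_contDiffAt.1
    (ContMDiffAt.comp (extChartAt (𝓡 n) y y, dphi y y q, dphi y y q) h9 h7)

theorem ex_lip_local (G : GeoData n M) (y : M) (q : TangentSpace (𝓡 n) y) :
    ∃ N ∈ 𝓝 (⟨y, q⟩ : TangentBundle (𝓡 n) M), ∃ C r : ℝ, 0 ≤ C ∧ 0 < r ∧
      ∀ (z : M) (v : TangentSpace (𝓡 n) z), (⟨z, v⟩ : TangentBundle (𝓡 n) M) ∈ N →
        ∀ v' : TangentSpace (𝓡 n) z, ‖v' - v‖ ≤ r →
          dist (G.ex z v') (G.ex z v) ≤ C * ‖v' - v‖ := by
  obtain ⟨C, hC0, hb⟩ := dphi_bounds (n := n) y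
  have hy : (⟨y, q⟩ : TangentBundle (𝓡 n) M).1 ∈ (chartAt (EuclideanSpace ℝ (Fin n)) y).source :=
    mem_chart_source _ y
  obtain ⟨H, hHe⟩ : ∃ H : EE n × EE n × EE n → ℝ, H = fun z : EE n × EE n × EE n =>
      halfDistSq (exT G (tmci y (z.1, z.2.1))) (exT G (tmci y (z.1, z.2.2))) := ⟨_, rfl⟩
  have hH2 : ContDiffAt ℝ 2 H (extChartAt (𝓡 n) y y, dphi y y q, dphi y y q) := by
    rw [hHe]
    exact (contDiffAt_H' q).of_le two_le_infty
  obtain ⟨ε, hε, K, hK0, hK⟩ := exists_quad hH2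
    (by intro x A; rw [hHe]; simp [halfDistSq])
    (by intro p; rw [hHe]; simp only [halfDistSq]; positivity)
  obtain ⟨z0, hz0⟩ : ∃ z0, z0 = tmc y (⟨y, q⟩ : TangentBundle (𝓡 n) M) := ⟨_, rfl⟩
  refine ⟨{p | dist (tmc y p) z0 < ε / 2} ∩ {p | p.1 ∈ (chartAt (EuclideanSpace ℝ (Fin n)) y).source ∧
    ∀ v : TangentSpace (𝓡 n) p.1, ‖dphi y p.1 v‖ ≤ C * ‖v‖ ∧ ‖v‖ ≤ C * ‖dphi y p.1 v‖}, ?_,
    Real.sqrt (2 * K) * C, ε / (3 * C), by positivity, by positivity, ?_⟩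
  · apply inter_mem
    · exact map_nhds_tmc (x₀ := y) (p := (⟨y, q⟩ : TangentBundle (𝓡 n) M)) hy
        (P := fun a => dist a z0 < ε / 2) (by rw [← hz0]; exact Metric.ball_mem_nhds z0 (by positivity))
    · have h2 : ContinuousAt (fun p : TangentBundle (𝓡 n) M => p.1)
          (⟨y, q⟩ : TangentBundle (𝓡 n) M) :=
        (FiberBundle.continuous_proj (EuclideanSpace ℝ (Fin n))
          (fun p : M => TangentSpace (𝓡 n) p)).continuousAt
      exact h2 hb
  rintro z v ⟨h0, hz, hzb⟩ v' hv'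
  change dist _ _ < _ at h0
  change z ∈ _ at hz
  have hCr : C * (ε / (3 * C)) = ε / 3 := by field_simp
  have e1 : ‖dphi y z v' - dphi y z v‖ ≤ ε / 3 := by
    rw [← map_sub, ← hCr]
    exact ((hzb _).1).trans (by gcongr)
  have hx : ‖(extChartAt (𝓡 n) y z) - z0.1‖ < ε / 2 := by
    rw [← dist_eq_norm]
    exact lt_of_le_of_lt (le_max_left _ _) h0
  have hV : ‖dphi y z v - z0.2‖ < ε / 2 := by
    rw [← dist_eq_norm]
    exact lt_of_le_of_lt (le_max_right _ _) h0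
  have hV' : ‖dphi y z v' - z0.2‖ < ε := by
    calc ‖dphi y z v' - z0.2‖ = ‖(dphi y z v' - dphi y z v) + (dphi y z v - z0.2)‖ := by
          congr 1; abel
      _ ≤ ‖dphi y z v' - dphi y z v‖ + ‖dphi y z v - z0.2‖ := norm_add_le _ _
      _ < ε := by linarith
  have hz01 : z0.1 = extChartAt (𝓡 n) y y := by rw [hz0]; rfl
  have hz02 : z0.2 = dphi y y q := by rw [hz0]; rfl
  have hT := hK (extChartAt (𝓡 n) y z) (dphi y z v) (dphi y z v')
    (by rw [← hz01]; exact (hx.trans (by linarith)))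
    (by rw [← hz02]; exact (hV.trans (by linarith)))
    (by rw [← hz02]; exact hV')
  have hval : H (extChartAt (𝓡 n) y z, dphi y z v, dphi y z v') =
      halfDistSq (G.ex z v) (G.ex z v') := by
    rw [hHe]
    have h1 : tmci y (extChartAt (𝓡 n) y z, dphi y z v) =
        (⟨z, v⟩ : TangentBundle (𝓡 n) M) :=
      tmci_tmc (x₀ := y) (p := (⟨z, v⟩ : TangentBundle (𝓡 n) M)) hz
    have h2 : tmci y (extChartAt (𝓡 n) y z, dphi y z v') =
        (⟨z, v'⟩ : TangentBundle (𝓡 n) M) :=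
      tmci_tmc (x₀ := y) (p := (⟨z, v'⟩ : TangentBundle (𝓡 n) M)) hz
    simp only [h1, h2]
    rfl
  rw [hval, ← map_sub] at hT
  unfold halfDistSq at hT
  have h5 : ‖dphi y z (v' - v)‖ ≤ C * ‖v' - v‖ := (hzb _).1
  have h6 : dist (G.ex z v) (G.ex z v') ^ 2 ≤ (Real.sqrt (2 * K) * C * ‖v' - v‖) ^ 2 := by
    have h7 : K * ‖dphi y z (v' - v)‖ ^ 2 ≤ K * (C * ‖v' - v‖) ^ 2 := by gcongr
    have h8 : (Real.sqrt (2 * K) * C * ‖v' - v‖) ^ 2 = 2 * K * (C * ‖v' - v‖) ^ 2 := by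
      rw [mul_assoc, mul_pow, Real.sq_sqrt (by positivity)]
    rw [h8]
    linarith
  rw [dist_comm]
  exact le_of_sq_le_sq h6 (by positivity)

/-- uniform Lipschitz bound of `exp` along fibres, on a compact subset of `TM`. -/
theorem ex_lip_uniform (G : GeoData n M) {S : Set (TangentBundle (𝓡 n) M)} (hS : IsCompact S) :
    ∃ C r : ℝ, 0 ≤ C ∧ 0 < r ∧
      ∀ (z : M) (v : TangentSpace (𝓡 n) z), (⟨z, v⟩ : TangentBundle (𝓡 n) M) ∈ S →
        ∀ v' : TangentSpace (𝓡 n) z, ‖v' - v‖ ≤ r →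
          dist (G.ex z v') (G.ex z v) ≤ C * ‖v' - v‖ := by
  refine hS.induction_on (p := fun S => ∃ C r : ℝ, 0 ≤ C ∧ 0 < r ∧
      ∀ (z : M) (v : TangentSpace (𝓡 n) z), (⟨z, v⟩ : TangentBundle (𝓡 n) M) ∈ S →
        ∀ v' : TangentSpace (𝓡 n) z, ‖v' - v‖ ≤ r →
          dist (G.ex z v') (G.ex z v) ≤ C * ‖v' - v‖) ?_ ?_ ?_ ?_
  · exact ⟨0, 1, le_rfl, one_pos, fun z v hv => absurd hv (Set.notMem_empty _)⟩
  · rintro s t hst ⟨C, r, hC0, hr, h⟩
    exact ⟨C, r, hC0, hr, fun z v hv => h z v (hst hv)⟩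
  · rintro s t ⟨C, r, hC0, hr, h⟩ ⟨C', r', hC0', hr', h'⟩
    refine ⟨max C C', min r r', le_max_of_le_left hC0, lt_min hr hr', ?_⟩
    rintro z v (hv | hv) v' h1
    · refine (h z v hv v' (h1.trans (min_le_left _ _))).trans ?_
      gcongr
      exact le_max_left _ _
    · refine (h' z v hv v' (h1.trans (min_le_right _ _))).trans ?_
      gcongr
      exact le_max_right _ _
  · intro p hp
    obtain ⟨N, hN, h⟩ := ex_lip_local G p.1 p.2
    exact ⟨N, mem_nhdsWithin_of_mem_nhds hN, h⟩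

end

end Crest.Agent.R226.Taylor344
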