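/-
R226, E2 block N2 (helper344), part 2: the midpoint function `rho`, its Hessian `Hf`, both in
bundle coordinates near a point of `KT`; `Hf = - (∂_y ∂_{p'} rho) ∘ D exp` and nondegeneracy of the
first factor.
-/
import Crest.Agent.R226.JacCalc_344
import Crest.Agent.R226.Taylor2_344
import Crest.Agent.R226.CutSmooth_77

set_option autoImplicit false
set_option linter.unusedSectionVars false

open MeasureTheory Bundle Set Filter
open scoped Manifold ContDiff Bundle ENNReal Topology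
open Crest.GeometryTopology.MTW

namespace Crest.Agent.R226.Jac344

open Crest.Agent.R226.LoeperUnif128 Crest.Agent.R226.TMSmooth771 Crest.Agent.R226.Taylor344
open Crest.Agent.R226.ChartCost77 Crest.Agent.R226.Index77 Crest.Agent.R226.JacCalc344

variable {n : ℕ} {M : Type*} [MetricSpace M] [ChartedSpace (EuclideanSpace ℝ (Fin n)) M]
  [IsManifold (𝓡 n) ∞ M]
  [RiemannianBundle (fun p : M => TangentSpace (𝓡 n) p)]

/-- the midpoint function: `rho x p p' = ‖p'‖²/4 + 2 c(exp_x(p'/2), exp_x p) ≥ c(x, exp_x p)`, with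
equality at `p' = p` for `p ∈ K x`. -/
noncomputable def rho (G : GeoData n M) (x : M) (p p' : TangentSpace (𝓡 n) x) : ℝ :=
  ‖p'‖ ^ 2 / 4 + 2 * halfDistSq (G.ex x ((1 / 2 : ℝ) • p')) (G.ex x p)

/-- the Hessian of `rho x p` at `p`. -/
noncomputable def Hf (G : GeoData n M) (x : M) (p : TangentSpace (𝓡 n) x) :
    TangentSpace (𝓡 n) x →L[ℝ] TangentSpace (𝓡 n) x →L[ℝ] ℝ :=
  fderiv ℝ (fderiv ℝ (rho G x p)) p

theorem halfDistSq_le_two (x z y : M) :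
    halfDistSq x y ≤ 2 * halfDistSq x z + 2 * halfDistSq z y := by
  unfold halfDistSq
  have h1 := dist_triangle x z y
  have h2 : dist x y ^ 2 ≤ (dist x z + dist z y) ^ 2 := by
    gcongr
  nlinarith [sq_nonneg (dist x z - dist z y)]

theorem le_rho (G : GeoData n M) (x : M) (p p' : TangentSpace (𝓡 n) x) :
    halfDistSq x (G.ex x p) ≤ rho G x p p' := by
  have h1 := halfDistSq_le_two x (G.ex x ((1 / 2 : ℝ) • p')) (G.ex x p)
  have h2 : 2 * halfDistSq x (G.ex x ((1 / 2 : ℝ) • p')) ≤ ‖p'‖ ^ 2 / 4 := by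
    unfold halfDistSq
    have h3 := CutTop478.dist_ex_le G x ((1 / 2 : ℝ) • p')
    rw [norm_smul] at h3
    norm_num at h3
    have h4 : dist x (G.ex x ((1 / 2 : ℝ) • p')) ^ 2 ≤ (1 / 2 * ‖p'‖) ^ 2 := by
      gcongr
    nlinarith
  unfold rho
  linarith

theorem dist_half {G : GeoData n M} {x : M} {p : TangentSpace (𝓡 n) x} (hp : p ∈ G.K x) :
    dist (G.ex x ((1 / 2 : ℝ) • p)) (G.ex x p) = ‖p‖ / 2 := by
  have := CutTop478.dist_seg G (a := 1) (v := p) (by rwa [one_smul]) (s := 1 / 2) (t := 1)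
    (by norm_num) (by norm_num) le_rfl
  rw [one_smul] at this
  rw [this]
  ring

theorem rho_self {G : GeoData n M} {x : M} {p : TangentSpace (𝓡 n) x} (hp : p ∈ G.K x) :
    rho G x p p = halfDistSq x (G.ex x p) := by
  unfold rho halfDistSq
  rw [dist_half hp]
  have : dist x (G.ex x p) = ‖p‖ := hp
  rw [this]
  ring

section smooth

variable [IsContMDiffRiemannianBundle (𝓡 n) ∞ (EuclideanSpace ℝ (Fin n))
  (fun p : M => TangentSpace (𝓡 n) p)]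

/-- `rho` with the end point in a chart, in bundle coordinates at `x₀`. -/
noncomputable def bh (G : GeoData n M) (x₀ y₀ : M) (z : EE n × EE n × EE n) : ℝ :=
  ‖(tmci x₀ (z.1, z.2.1)).2‖ ^ 2 / 4 +
    2 * halfDistSq (exT G (tmci x₀ (z.1, (1 / 2 : ℝ) • z.2.1)))
      ((extChartAt (𝓡 n) y₀).symm z.2.2)

/-- the exponential map in bundle coordinates. -/
noncomputable def Eh (G : GeoData n M) (x₀ y₀ : M) (z : EE n × EE n) : EE n :=
  extChartAt (𝓡 n) y₀ (exT G (tmci x₀ z))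

theorem contDiffAt_Eh (G : GeoData n M) (x₀ : M) (p₀ : TangentSpace (𝓡 n) x₀) {y₀ : M}
    (hy : G.ex x₀ p₀ ∈ (chartAt (EuclideanSpace ℝ (Fin n)) y₀).source) :
    ContDiffAt ℝ ∞ (Eh G x₀ y₀) (extChartAt (𝓡 n) x₀ x₀, dphi x₀ x₀ p₀) := by
  have hx : (⟨x₀, p₀⟩ : TangentBundle (𝓡 n) M).1 ∈ (chartAt (EuclideanSpace ℝ (Fin n)) x₀).source :=
    mem_chart_source _ x₀
  have hxt : extChartAt (𝓡 n) x₀ x₀ ∈ (extChartAt (𝓡 n) x₀).target :=
    (extChartAt (𝓡 n) x₀).map_source (mem_extChartAt_source x₀)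
  have e1 : tmci x₀ (extChartAt (𝓡 n) x₀ x₀, dphi x₀ x₀ p₀) = (⟨x₀, p₀⟩ : TangentBundle (𝓡 n) M) :=
    tmci_tmc (x₀ := x₀) (p := (⟨x₀, p₀⟩ : TangentBundle (𝓡 n) M)) hx
  have h1 := contMDiffAt_tmci (x₀ := x₀) (q := (extChartAt (𝓡 n) x₀ x₀, dphi x₀ x₀ p₀)) hxt
  have hex : ContMDiff (𝓡 n).tangent (𝓡 n) ∞ (exT G) := G.smooth
  have h2 := (hex.contMDiffAt).comp (extChartAt (𝓡 n) x₀ x₀, dphi x₀ x₀ p₀) h1
  have h3 : ContMDiffAt (𝓡 n) 𝓘(ℝ, EE n) ∞ (extChartAt (𝓡 n) y₀)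
      ((exT G ∘ tmci x₀) (extChartAt (𝓡 n) x₀ x₀, dphi x₀ x₀ p₀)) := by
    apply contMDiffAt_extChartAt'
    simp only [Function.comp_apply, e1]
    exact hy
  exact contMDiffAt_iff_contDiffAt.1
    (ContMDiffAt.comp (extChartAt (𝓡 n) x₀ x₀, dphi x₀ x₀ p₀) h3 h2)

theorem contDiffAt_bh {G : GeoData n M} (hC : CutFacts G) {x₀ : M} {p₀ : TangentSpace (𝓡 n) x₀}
    (hp : p₀ ∈ G.K x₀) {y₀ : M} (hy : y₀ = G.ex x₀ p₀) :
    ContDiffAt ℝ ∞ (bh G x₀ y₀) (extChartAt (𝓡 n) x₀ x₀, dphi x₀ x₀ p₀,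
      extChartAt (𝓡 n) y₀ y₀) := by
  have hx : (⟨x₀, p₀⟩ : TangentBundle (𝓡 n) M).1 ∈ (chartAt (EuclideanSpace ℝ (Fin n)) x₀).source :=
    mem_chart_source _ x₀
  have hxt : extChartAt (𝓡 n) x₀ x₀ ∈ (extChartAt (𝓡 n) x₀).target :=
    (extChartAt (𝓡 n) x₀).map_source (mem_extChartAt_source x₀)
  have hyt : extChartAt (𝓡 n) y₀ y₀ ∈ (extChartAt (𝓡 n) y₀).target :=
    (extChartAt (𝓡 n) y₀).map_source (mem_extChartAt_source y₀)
  obtain ⟨b, hb⟩ : ∃ b : EE n × EE n × EE n, b = (extChartAt (𝓡 n) x₀ x₀, dphi x₀ x₀ p₀,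
      extChartAt (𝓡 n) y₀ y₀) := ⟨_, rfl⟩
  have e1 : tmci x₀ (extChartAt (𝓡 n) x₀ x₀, (1 / 2 : ℝ) • dphi x₀ x₀ p₀) =
      (⟨x₀, (1 / 2 : ℝ) • p₀⟩ : TangentBundle (𝓡 n) M) := by
    rw [← map_smul]
    exact tmci_tmc (x₀ := x₀) (p := (⟨x₀, (1 / 2 : ℝ) • p₀⟩ : TangentBundle (𝓡 n) M)) hx
  -- the norm part
  have hn1 : ContMDiffAt 𝓘(ℝ, EE n × EE n × EE n) 𝓘(ℝ, EE n × EE n) ∞
      (fun z : EE n × EE n × EE n => (z.1, z.2.1)) b := by
    apply ContDiffAt.contMDiffAt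
    fun_prop
  have hn2 := ContMDiffAt.comp b
    (contMDiffAt_tmci (x₀ := x₀) (q := ((fun z : EE n × EE n × EE n => (z.1, z.2.1)) b))
      (by rw [hb]; exact hxt)) hn1
  have hn3 : ContMDiffAt 𝓘(ℝ, EE n × EE n × EE n) 𝓘(ℝ, ℝ) ∞
      (fun z : EE n × EE n × EE n => ‖(tmci x₀ (z.1, z.2.1)).2‖ ^ 2) b :=
    (contMDiff_norm_sq (n := n) (M := M)).contMDiffAt.comp b hn2
  have hn4 : ContDiffAt ℝ ∞ (fun z : EE n × EE n × EE n => ‖(tmci x₀ (z.1, z.2.1)).2‖ ^ 2) b :=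
    contMDiffAt_iff_contDiffAt.1 hn3
  -- the cost part
  have hc1 : ContMDiffAt 𝓘(ℝ, EE n × EE n × EE n) 𝓘(ℝ, EE n × EE n) ∞
      (fun z : EE n × EE n × EE n => (z.1, (1 / 2 : ℝ) • z.2.1)) b := by
    apply ContDiffAt.contMDiffAt
    fun_prop
  have hc2 := ContMDiffAt.comp b
    (contMDiffAt_tmci (x₀ := x₀)
      (q := ((fun z : EE n × EE n × EE n => (z.1, (1 / 2 : ℝ) • z.2.1)) b))
      (by rw [hb]; exact hxt)) hc1
  have hex : ContMDiff (𝓡 n).tangent (𝓡 n) ∞ (exT G) := G.smooth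
  have hc3 := (hex.contMDiffAt).comp b hc2
  have hc4 : ContMDiffAt 𝓘(ℝ, EE n × EE n × EE n) (𝓡 n) ∞
      (fun z : EE n × EE n × EE n => (extChartAt (𝓡 n) y₀).symm z.2.2) b := by
    have h5 : ContMDiffAt 𝓘(ℝ, EE n × EE n × EE n) 𝓘(ℝ, EE n) ∞
        (fun z : EE n × EE n × EE n => z.2.2) b := by
      apply ContDiffAt.contMDiffAt
      fun_prop
    have h6 : ContMDiffAt 𝓘(ℝ, EE n) (𝓡 n) ∞ (extChartAt (𝓡 n) y₀).symm
        ((fun z : EE n × EE n × EE n => z.2.2) b) := by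
      rw [hb]
      exact contMDiffAt_symm y₀
    exact ContMDiffAt.comp b h6 h5
  have hc5 := hc3.prodMk hc4
  obtain ⟨z, v, hv, -, hvy, -, hz⟩ := exists_mid hp
  have hc6 := hC.smooth_cost z v (sym_mem_I hC hv)
  rw [hvy, ← hy, hz] at hc6
  have hc7 : ContMDiffAt ((𝓡 n).prod (𝓡 n)) 𝓘(ℝ) ∞ (fun q : M × M => halfDistSq q.1 q.2)
      ((fun z : EE n × EE n × EE n =>
        (exT G (tmci x₀ (z.1, (1 / 2 : ℝ) • z.2.1)), (extChartAt (𝓡 n) y₀).symm z.2.2)) b) := by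
    rw [hb]
    simp only [e1, extChartAt_to_inv]
    exact hc6
  have hc8 : ContMDiffAt 𝓘(ℝ, EE n × EE n × EE n) 𝓘(ℝ, ℝ) ∞
      (fun z : EE n × EE n × EE n => halfDistSq (exT G (tmci x₀ (z.1, (1 / 2 : ℝ) • z.2.1)))
        ((extChartAt (𝓡 n) y₀).symm z.2.2)) b :=
    ContMDiffAt.comp b hc7 hc5
  have hc9 : ContDiffAt ℝ ∞ (fun z : EE n × EE n × EE n =>
      halfDistSq (exT G (tmci x₀ (z.1, (1 / 2 : ℝ) • z.2.1)))
        ((extChartAt (𝓡 n) y₀).symm z.2.2)) b := contMDiffAt_iff_contDiffAt.1 hc8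
  rw [← hb]
  unfold bh
  exact (hn4.div_const 4).add (contDiffAt_const.mul hc9)

end smooth

end Crest.Agent.R226.Jac344
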