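/-
R226, E2 block N2 (helper344), part 3: the identity `Hf = - Nh ∘ Jh` in bundle coordinates on `KT`
and nondegeneracy of `Nh`.
-/
import Crest.Agent.R226.Jac1_344

set_option autoImplicit false
set_option linter.unusedSectionVars false

open MeasureTheory Bundle Set Filter
open scoped Manifold ContDiff Bundle ENNReal Topology
open Crest.GeometryTopology.MTW

namespace Crest.Agent.R226.Jac344

open Crest.Agent.R226.LoeperUnif128 Crest.Agent.R226.TMSmooth771 Crest.Agent.R226.Taylor344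
open Crest.Agent.R226.ChartCost77 Crest.Agent.R226.Index77 Crest.Agent.R226.JacCalc344

section euc

variable {E F : Type*} [NormedAddCommGroup E] [NormedSpace ℝ E]
  [NormedAddCommGroup F] [NormedSpace ℝ F]

/-- mixed second derivative of `n1(w) + 2 F(m1(w), y)`. -/
theorem mixed_comp {f : E × F → ℝ} {n1 : E → ℝ} {m1 : E → E} {Φ : E × F → ℝ} {w0 : E} {y0 : F}
    (hf2 : ContDiffAt ℝ 2 f (w0, y0))
    (hf : ∀ᶠ q in 𝓝 (w0, y0), f q = n1 q.1 + 2 * Φ (m1 q.1, q.2))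
    (hn : DifferentiableAt ℝ n1 w0) (hm : DifferentiableAt ℝ m1 w0)
    (hΦ : ContDiffAt ℝ 2 Φ (m1 w0, y0)) (k : F) (h : E) :
    fderiv ℝ (fderiv ℝ f) (w0, y0) (0, k) (h, 0) =
      2 * fderiv ℝ (fderiv ℝ Φ) (m1 w0, y0) (0, k) (fderiv ℝ m1 w0 h, 0) := by
  -- first derivative along `w`
  have hΦd : ∀ᶠ y in 𝓝 y0, DifferentiableAt ℝ Φ (m1 w0, y) := by
    have h1 := eventually_diff hΦ
    have h2 : Tendsto (fun y : F => (m1 w0, y)) (𝓝 y0) (𝓝 (m1 w0, y0)) :=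
      (Continuous.prodMk_right (m1 w0)).tendsto _
    exact h2.eventually h1
  have hfy : ∀ᶠ y in 𝓝 y0, ∀ᶠ q in 𝓝 (w0, y), f q = n1 q.1 + 2 * Φ (m1 q.1, q.2) := by
    have h2 : Tendsto (fun y : F => (w0, y)) (𝓝 y0) (𝓝 (w0, y0)) :=
      (Continuous.prodMk_right w0).tendsto _
    exact h2.eventually hf.eventually_nhds
  have h1 : ∀ᶠ y in 𝓝 y0, fderiv ℝ f (w0, y) (h, 0) =
      fderiv ℝ n1 w0 h + 2 * fderiv ℝ Φ (m1 w0, y) (fderiv ℝ m1 w0 h, 0) := by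
    filter_upwards [hΦd, hfy] with y hy1 hy2
    have hd : HasFDerivAt (fun q : E × F => n1 q.1 + 2 * Φ (m1 q.1, q.2))
        ((fderiv ℝ n1 w0).comp (ContinuousLinearMap.fst ℝ E F) +
          (2 : ℝ) • ((fderiv ℝ Φ (m1 w0, y)).comp
            (((fderiv ℝ m1 w0).comp (ContinuousLinearMap.fst ℝ E F)).prod
              (ContinuousLinearMap.snd ℝ E F)))) (w0, y) := by
      have e1 : HasFDerivAt (fun q : E × F => n1 q.1)
          ((fderiv ℝ n1 w0).comp (ContinuousLinearMap.fst ℝ E F)) (w0, y) :=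
        HasFDerivAt.comp (w0, y) (g := n1) (f := Prod.fst) hn.hasFDerivAt hasFDerivAt_fst
      have e2 : HasFDerivAt (fun q : E × F => m1 q.1)
          ((fderiv ℝ m1 w0).comp (ContinuousLinearMap.fst ℝ E F)) (w0, y) :=
        HasFDerivAt.comp (w0, y) (g := m1) (f := Prod.fst) hm.hasFDerivAt hasFDerivAt_fst
      have e3 : HasFDerivAt (fun q : E × F => (m1 q.1, q.2))
          (((fderiv ℝ m1 w0).comp (ContinuousLinearMap.fst ℝ E F)).prod
              (ContinuousLinearMap.snd ℝ E F)) (w0, y) := e2.prodMk hasFDerivAt_snd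
      have e4 : HasFDerivAt (fun q : E × F => Φ (m1 q.1, q.2))
          ((fderiv ℝ Φ (m1 w0, y)).comp
            (((fderiv ℝ m1 w0).comp (ContinuousLinearMap.fst ℝ E F)).prod
              (ContinuousLinearMap.snd ℝ E F))) (w0, y) :=
        HasFDerivAt.comp (w0, y) (g := Φ) (f := fun q : E × F => (m1 q.1, q.2))
          hy1.hasFDerivAt e3
      exact e1.add (e4.const_mul 2)
    have hd2 := hd.congr_of_eventuallyEq hy2
    rw [hd2.fderiv]
    simp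
  -- second derivative along `y`
  have h2 : HasFDerivAt (fun y : F => fderiv ℝ f (w0, y) (h, 0))
      (((ContinuousLinearMap.apply ℝ ℝ ((h, 0) : E × F)).comp
        (fderiv ℝ (fderiv ℝ f) (w0, y0))).comp (ContinuousLinearMap.inr ℝ E F)) y0 := by
    have e1 := hasFDerivAt_fderiv hf2
    have e2 : HasFDerivAt (fun y : F => (w0, y)) (ContinuousLinearMap.inr ℝ E F) y0 :=
      hasFDerivAt_prodMk_right _ _
    have e3 := ((ContinuousLinearMap.apply ℝ ℝ ((h, 0) : E × F)).hasFDerivAt).comp (w0, y0) e1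
    exact e3.comp y0 e2
  have h3 : HasFDerivAt (fun y : F => fderiv ℝ n1 w0 h +
      2 * fderiv ℝ Φ (m1 w0, y) (fderiv ℝ m1 w0 h, 0))
      ((2 : ℝ) • ((((ContinuousLinearMap.apply ℝ ℝ ((fderiv ℝ m1 w0 h, 0) : E × F)).comp
        (fderiv ℝ (fderiv ℝ Φ) (m1 w0, y0))).comp (ContinuousLinearMap.inr ℝ E F)))) y0 := by
    have e1 := hasFDerivAt_fderiv hΦ
    have e2 : HasFDerivAt (fun y : F => (m1 w0, y)) (ContinuousLinearMap.inr ℝ E F) y0 :=
      hasFDerivAt_prodMk_right _ _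
    have e3 := ((ContinuousLinearMap.apply ℝ ℝ ((fderiv ℝ m1 w0 h, 0) : E × F)).hasFDerivAt).comp
      (m1 w0, y0) e1
    exact ((e3.comp y0 e2).const_mul 2).const_add _
  have h4 := h2.unique (h3.congr_of_eventuallyEq h1)
  have h5 := congrArg (fun L : F →L[ℝ] ℝ => L k) h4
  simpa using h5

end euc

variable {n : ℕ} {M : Type*} [MetricSpace M] [ChartedSpace (EuclideanSpace ℝ (Fin n)) M]
  [IsManifold (𝓡 n) ∞ M]
  [RiemannianBundle (fun p : M => TangentSpace (𝓡 n) p)]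
  [IsContMDiffRiemannianBundle (𝓡 n) ∞ (EuclideanSpace ℝ (Fin n))
  (fun p : M => TangentSpace (𝓡 n) p)]

/-- injection of the `w'` variable -/
noncomputable def i2 (n : ℕ) : EE n →L[ℝ] EE n × EE n × EE n :=
  (ContinuousLinearMap.inr ℝ (EE n) (EE n × EE n)).comp (ContinuousLinearMap.inl ℝ (EE n) (EE n))

/-- injection of the `y` variable -/
noncomputable def i3 (n : ℕ) : EE n →L[ℝ] EE n × EE n × EE n :=
  (ContinuousLinearMap.inr ℝ (EE n) (EE n × EE n)).comp (ContinuousLinearMap.inr ℝ (EE n) (EE n))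

@[simp] theorem i2_apply (h : EE n) : i2 n h = (0, h, 0) := rfl
@[simp] theorem i3_apply (h : EE n) : i3 n h = (0, 0, h) := rfl

/-- the point `(x̂, w, Ê(x̂, w))` -/
noncomputable def P3 (G : GeoData n M) (x₀ y₀ : M) (z : EE n × EE n) : EE n × EE n × EE n :=
  (z.1, z.2, Eh G x₀ y₀ z)

/-- Hessian of `rho` in coordinates -/
noncomputable def Hh (G : GeoData n M) (x₀ y₀ : M) (z : EE n × EE n) : EE n →L[ℝ] EE n →L[ℝ] ℝ :=
  (fderiv ℝ (fderiv ℝ (bh G x₀ y₀)) (P3 G x₀ y₀ z)).bilinearComp (i2 n) (i2 n)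

/-- mixed derivative in coordinates -/
noncomputable def Nh (G : GeoData n M) (x₀ y₀ : M) (z : EE n × EE n) : EE n →L[ℝ] EE n →L[ℝ] ℝ :=
  (fderiv ℝ (fderiv ℝ (bh G x₀ y₀)) (P3 G x₀ y₀ z)).bilinearComp (i3 n) (i2 n)

/-- fibre derivative of `exp` in coordinates -/
noncomputable def Jh (G : GeoData n M) (x₀ y₀ : M) (z : EE n × EE n) : EE n →L[ℝ] EE n :=
  (fderiv ℝ (Eh G x₀ y₀) z).comp (ContinuousLinearMap.inr ℝ (EE n) (EE n))

theorem bh_eq (G : GeoData n M) (x₀ y₀ x : M) (hx : x ∈ (chartAt (EuclideanSpace ℝ (Fin n)) x₀).source)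
    (p p' : TangentSpace (𝓡 n) x) (hy : G.ex x p ∈ (chartAt (EuclideanSpace ℝ (Fin n)) y₀).source) :
    bh G x₀ y₀ (extChartAt (𝓡 n) x₀ x, dphi x₀ x p',
      Eh G x₀ y₀ (extChartAt (𝓡 n) x₀ x, dphi x₀ x p)) = rho G x p p' := by
  have e1 : ∀ q : TangentSpace (𝓡 n) x, tmci x₀ (extChartAt (𝓡 n) x₀ x, dphi x₀ x q) =
      (⟨x, q⟩ : TangentBundle (𝓡 n) M) := fun q =>
    tmci_tmc (x₀ := x₀) (p := (⟨x, q⟩ : TangentBundle (𝓡 n) M)) hx
  have e2 : Eh G x₀ y₀ (extChartAt (𝓡 n) x₀ x, dphi x₀ x p) = extChartAt (𝓡 n) y₀ (G.ex x p) := by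
    unfold Eh
    rw [e1]
    rfl
  have e3 : (extChartAt (𝓡 n) y₀).symm (extChartAt (𝓡 n) y₀ (G.ex x p)) = G.ex x p := by
    apply (extChartAt (𝓡 n) y₀).left_inv
    rwa [extChartAt_source]
  have e4 : ‖(tmci x₀ (extChartAt (𝓡 n) x₀ x, dphi x₀ x p')).2‖ ^ 2 = ‖p'‖ ^ 2 :=
    congrArg (fun q : TangentBundle (𝓡 n) M => ‖q.2‖ ^ 2) (e1 p')
  unfold bh rho
  simp only [e2, e3, e4, ← map_smul]
  rw [e1]
  rfl

/-- along `KT`, `w` is a critical point of `w' ↦ bh (x̂, w', Ê(x̂,w))`. -/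
theorem crit (G : GeoData n M) {x₀ y₀ x : M}
    (hx : x ∈ (chartAt (EuclideanSpace ℝ (Fin n)) x₀).source) {p : TangentSpace (𝓡 n) x}
    (hp : p ∈ G.K x) (hy : G.ex x p ∈ (chartAt (EuclideanSpace ℝ (Fin n)) y₀).source)
    (hd : DifferentiableAt ℝ (bh G x₀ y₀) (P3 G x₀ y₀ (extChartAt (𝓡 n) x₀ x, dphi x₀ x p)))
    (h : EE n) :
    fderiv ℝ (bh G x₀ y₀) (P3 G x₀ y₀ (extChartAt (𝓡 n) x₀ x, dphi x₀ x p)) (0, h, 0) = 0 := by
  obtain ⟨z, hz⟩ : ∃ z : EE n × EE n, z = (extChartAt (𝓡 n) x₀ x, dphi x₀ x p) := ⟨_, rfl⟩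
  have hmin : ∀ w' : EE n, bh G x₀ y₀ (P3 G x₀ y₀ z) ≤ bh G x₀ y₀ (z.1, w', Eh G x₀ y₀ z) := by
    intro w'
    have hxt : extChartAt (𝓡 n) x₀ x ∈ (extChartAt (𝓡 n) x₀).target :=
      (extChartAt (𝓡 n) x₀).map_source (by rwa [extChartAt_source])
    have hsurj : ∃ p' : TangentSpace (𝓡 n) x, dphi x₀ x p' = w' := by
      have h1 := dphi_dpsi x₀ hxt w'
      have h2 : (extChartAt (𝓡 n) x₀).symm (extChartAt (𝓡 n) x₀ x) = x :=
        (extChartAt (𝓡 n) x₀).left_inv (by rwa [extChartAt_source])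
      rw [h2] at h1
      exact ⟨_, h1⟩
    obtain ⟨p', rfl⟩ := hsurj
    have h1 := bh_eq G x₀ y₀ x hx p p' hy
    have h2 := bh_eq G x₀ y₀ x hx p p hy
    unfold P3
    rw [hz]
    simp only at h1 h2 ⊢
    rw [h1, h2, rho_self hp]
    exact le_rho G x p p'
  rw [← hz] at hd ⊢
  have hloc : IsLocalMin (fun t : ℝ => bh G x₀ y₀ (z.1, z.2 + t • h, Eh G x₀ y₀ z)) 0 := by
    refine Filter.Eventually.of_forall fun t => ?_
    have := hmin (z.2 + t • h)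
    simpa [P3] using this
  have hder : HasDerivAt (fun t : ℝ => bh G x₀ y₀ (z.1, z.2 + t • h, Eh G x₀ y₀ z))
      (fderiv ℝ (bh G x₀ y₀) (P3 G x₀ y₀ z) (0, h, 0)) 0 := by
    have h1 : HasDerivAt (fun t : ℝ => (z.1, z.2 + t • h, Eh G x₀ y₀ z)) ((0, h, 0) : EE n × EE n × EE n) 0 := by
      have e1 : HasDerivAt (fun t : ℝ => z.2 + t • h) h 0 := by
        have := ((hasDerivAt_id (0:ℝ)).smul_const h).const_add z.2
        simpa using this
      exact (hasDerivAt_const _ _).prodMk (e1.prodMk (hasDerivAt_const _ _))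
    have h2 : HasFDerivAt (bh G x₀ y₀) (fderiv ℝ (bh G x₀ y₀) (P3 G x₀ y₀ z))
        (z.1, z.2 + (0:ℝ) • h, Eh G x₀ y₀ z) := by
      rw [zero_smul, add_zero]
      exact hd.hasFDerivAt
    exact h2.comp_hasDerivAt (0 : ℝ) h1
  exact hloc.hasDerivAt_eq_zero hder

/-- the Hessian of `rho` in coordinates. -/
theorem Hf_eq (G : GeoData n M) {x₀ y₀ x : M}
    (hx : x ∈ (chartAt (EuclideanSpace ℝ (Fin n)) x₀).source) {p : TangentSpace (𝓡 n) x}
    (hy : G.ex x p ∈ (chartAt (EuclideanSpace ℝ (Fin n)) y₀).source)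
    (hd : ContDiffAt ℝ 2 (bh G x₀ y₀) (P3 G x₀ y₀ (extChartAt (𝓡 n) x₀ x, dphi x₀ x p)))
    (ξ η : TangentSpace (𝓡 n) x) :
    Hf G x p ξ η =
      Hh G x₀ y₀ (extChartAt (𝓡 n) x₀ x, dphi x₀ x p) (dphi x₀ x ξ) (dphi x₀ x η) := by
  obtain ⟨z, hz⟩ : ∃ z : EE n × EE n, z = (extChartAt (𝓡 n) x₀ x, dphi x₀ x p) := ⟨_, rfl⟩
  have h1 : rho G x p = fun p' => bh G x₀ y₀ (((i2 n).comp (dphi x₀ x)) p' +
      (z.1, 0, Eh G x₀ y₀ z)) := by
    funext p'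
    rw [← bh_eq G x₀ y₀ x hx p p' hy, ← hz]
    congr 1
    simp [hz]
  have h2 : ((i2 n).comp (dphi x₀ x)) p + (z.1, 0, Eh G x₀ y₀ z) = P3 G x₀ y₀ z := by
    unfold P3
    simp [hz]
  rw [← hz] at hd ⊢
  have h3 := hess_comp_affine (f := bh G x₀ y₀) ((i2 n).comp (dphi x₀ x))
    (z.1, 0, Eh G x₀ y₀ z) (p := p) (by rw [h2]; exact hd) ξ η
  unfold Hf
  rw [h1, h3, h2]
  rfl

/-- the identity at interior points. -/
theorem ident_int {G : GeoData n M} (hC : CutFacts G) {x₀ y₀ x : M}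
    (hx : x ∈ (chartAt (EuclideanSpace ℝ (Fin n)) x₀).source) {p : TangentSpace (𝓡 n) x}
    (hp : p ∈ G.I x) (hy : G.ex x p ∈ (chartAt (EuclideanSpace ℝ (Fin n)) y₀).source)
    (hd : ContDiffAt ℝ 2 (bh G x₀ y₀) (P3 G x₀ y₀ (extChartAt (𝓡 n) x₀ x, dphi x₀ x p)))
    (hE : DifferentiableAt ℝ (Eh G x₀ y₀) (extChartAt (𝓡 n) x₀ x, dphi x₀ x p)) :
    Hh G x₀ y₀ (extChartAt (𝓡 n) x₀ x, dphi x₀ x p) =
      - (Nh G x₀ y₀ (extChartAt (𝓡 n) x₀ x, dphi x₀ x p)).comp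
        (Jh G x₀ y₀ (extChartAt (𝓡 n) x₀ x, dphi x₀ x p)) := by
  obtain ⟨z, hz⟩ : ∃ z : EE n × EE n, z = (extChartAt (𝓡 n) x₀ x, dphi x₀ x p) := ⟨_, rfl⟩
  rw [← hz] at hd hE ⊢
  have hxt : z.1 ∈ (extChartAt (𝓡 n) x₀).target := by
    rw [hz]
    exact (extChartAt (𝓡 n) x₀).map_source (by rwa [extChartAt_source])
  have hzx : tmci x₀ z = (⟨x, p⟩ : TangentBundle (𝓡 n) M) := by
    rw [hz]
    exact tmci_tmc (x₀ := x₀) (p := (⟨x, p⟩ : TangentBundle (𝓡 n) M)) hx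
  have hcP : ContinuousAt (P3 G x₀ y₀) z :=
    continuousAt_fst.prodMk (continuousAt_snd.prodMk hE.continuousAt)
  -- nearby points of the fibre
  have hline : ContinuousAt (fun w' : EE n => (z.1, w')) z.2 :=
    (Continuous.prodMk_right z.1).continuousAt
  have hcI : ∀ᶠ w' in 𝓝 z.2, tmci x₀ (z.1, w') ∈ G.IT := by
    have h1 : ∀ᶠ q in 𝓝 z, tmci x₀ q ∈ G.IT := by
      apply eventually_nhds_tmci hxt (P := fun q => q ∈ G.IT)
      rw [hzx]
      exact hC.isOpen_IT.mem_nhds hp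
    exact hline.eventually h1
  have hcy : ∀ᶠ w' in 𝓝 z.2, exT G (tmci x₀ (z.1, w')) ∈
      (chartAt (EuclideanSpace ℝ (Fin n)) y₀).source := by
    have h1 : ∀ᶠ q in 𝓝 z, exT G (tmci x₀ q) ∈
        (chartAt (EuclideanSpace ℝ (Fin n)) y₀).source := by
      apply eventually_nhds_tmci hxt (P := fun q => exT G q ∈
        (chartAt (EuclideanSpace ℝ (Fin n)) y₀).source)
      rw [hzx]
      have hcont : Continuous (exT G) := G.smooth.continuous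
      exact hcont.continuousAt.eventually_mem
        ((chartAt (EuclideanSpace ℝ (Fin n)) y₀).open_source.mem_nhds hy)
    exact hline.eventually h1
  have hcd : ∀ᶠ w' in 𝓝 z.2, DifferentiableAt ℝ (bh G x₀ y₀) (P3 G x₀ y₀ (z.1, w')) := by
    have h1 : ∀ᶠ q in 𝓝 z, DifferentiableAt ℝ (bh G x₀ y₀) (P3 G x₀ y₀ q) :=
      hcP.eventually (eventually_diff hd)
    exact hline.eventually h1
  have hzero : ∀ᶠ w' in 𝓝 z.2,
      (fderiv ℝ (bh G x₀ y₀) (P3 G x₀ y₀ (z.1, w'))).comp (i2 n) = 0 := by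
    filter_upwards [hcI, hcy, hcd] with w' h1 h2 h3
    ext1 h
    have hzz : (z.1, w') = (extChartAt (𝓡 n) x₀ (tmci x₀ (z.1, w')).1,
        dphi x₀ (tmci x₀ (z.1, w')).1 (tmci x₀ (z.1, w')).2) :=
      (tmc_tmci (x₀ := x₀) (q := (z.1, w')) hxt).symm
    have h4 := crit G (x₀ := x₀) (y₀ := y₀) (x := (tmci x₀ (z.1, w')).1)
      (tmci_mem_source (x₀ := x₀) (q := (z.1, w')) hxt) (p := (tmci x₀ (z.1, w')).2)
      (hC.I_subset _ h1) h2 (by rw [← hzz]; exact h3) h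
    rw [← hzz] at h4
    exact h4
  -- differentiate
  have hP : HasFDerivAt (fun w' : EE n => P3 G x₀ y₀ (z.1, w')) ((i2 n) + (i3 n).comp (Jh G x₀ y₀ z))
      z.2 := by
    have e1 : HasFDerivAt (fun w' : EE n => (z.1, w')) (ContinuousLinearMap.inr ℝ (EE n) (EE n))
        z.2 := hasFDerivAt_prodMk_right _ _
    have e2 : HasFDerivAt (fun w' : EE n => Eh G x₀ y₀ (z.1, w')) (Jh G x₀ y₀ z) z.2 :=
      HasFDerivAt.comp z.2 (g := Eh G x₀ y₀) (f := fun w' : EE n => (z.1, w')) hE.hasFDerivAt e1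
    have e3 : HasFDerivAt (fun w' : EE n => ((z.1, w', Eh G x₀ y₀ (z.1, w')) : EE n × EE n × EE n))
        ((0 : EE n →L[ℝ] EE n).prod ((ContinuousLinearMap.id ℝ (EE n)).prod (Jh G x₀ y₀ z))) z.2 :=
      (hasFDerivAt_const _ _).prodMk ((hasFDerivAt_id _).prodMk e2)
    refine e3.congr_fderiv ?_
    ext1 h
    simp
  have hH := hasFDerivAt_fderiv hd
  have h5 : HasFDerivAt (fun w' : EE n => fderiv ℝ (bh G x₀ y₀) (P3 G x₀ y₀ (z.1, w')))
      ((fderiv ℝ (fderiv ℝ (bh G x₀ y₀)) (P3 G x₀ y₀ z)).comp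
        ((i2 n) + (i3 n).comp (Jh G x₀ y₀ z))) z.2 :=
    HasFDerivAt.comp z.2 (g := fderiv ℝ (bh G x₀ y₀)) (f := fun w' : EE n => P3 G x₀ y₀ (z.1, w'))
      hH hP
  have h6 : ∀ h k : EE n, fderiv ℝ (fderiv ℝ (bh G x₀ y₀)) (P3 G x₀ y₀ z)
      (i2 n h) (i2 n k) + fderiv ℝ (fderiv ℝ (bh G x₀ y₀)) (P3 G x₀ y₀ z)
      (i3 n (Jh G x₀ y₀ z h)) (i2 n k) = 0 := by
    intro h k
    have h7 := ((ContinuousLinearMap.apply ℝ ℝ (i2 n k)).hasFDerivAt).comp z.2 h5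
    have h8 : HasFDerivAt (⇑((ContinuousLinearMap.apply ℝ ℝ) ((i2 n) k)) ∘
        fun w' : EE n => fderiv ℝ (bh G x₀ y₀) (P3 G x₀ y₀ (z.1, w'))) (0 : EE n →L[ℝ] ℝ) z.2 := by
      refine (hasFDerivAt_const (0 : ℝ) z.2).congr_of_eventuallyEq ?_
      filter_upwards [hzero] with w' hw'
      have := congrArg (fun L : EE n →L[ℝ] ℝ => L k) hw'
      simpa using this
    have h9 := congrArg (fun L : EE n →L[ℝ] ℝ => L h) (h7.unique h8)
    simpa using h9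
  ext1 h
  ext1 k
  have h10 := h6 h k
  simp only [Hh, Nh, ContinuousLinearMap.bilinearComp_apply, neg_apply,
    ContinuousLinearMap.comp_apply]
  linarith

end Crest.Agent.R226.Jac344
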