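/-
R226, E2 block N2 (helper344), part 4: the identity on `KT`, nondegeneracy of `Nh` at the base
point, local comparison of determinants.
-/
import Crest.Agent.R226.Jac2_344

set_option autoImplicit false
set_option linter.unusedSectionVars false

open MeasureTheory Bundle Set Filter
open scoped Manifold ContDiff Bundle ENNReal Topology
open Crest.GeometryTopology.MTW

namespace Crest.Agent.R226.Jac344

open Crest.Agent.R226.LoeperUnif128 Crest.Agent.R226.TMSmooth771 Crest.Agent.R226.Taylor344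
open Crest.Agent.R226.ChartCost77 Crest.Agent.R226.Index77 Crest.Agent.R226.JacCalc344
open Crest.Agent.R226.TaylorCalc344

variable {n : ℕ} {M : Type*} [MetricSpace M] [ChartedSpace (EuclideanSpace ℝ (Fin n)) M]
  [IsManifold (𝓡 n) ∞ M]
  [RiemannianBundle (fun p : M => TangentSpace (𝓡 n) p)]
  [IsContMDiffRiemannianBundle (𝓡 n) ∞ (EuclideanSpace ℝ (Fin n))
  (fun p : M => TangentSpace (𝓡 n) p)]

theorem two_le_inf : (2 : WithTop ℕ∞) ≤ ((⊤ : ℕ∞) : WithTop ℕ∞) := ENat.LEInfty.out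

theorem tmci_mk {x₀ x : M} (hx : x ∈ (chartAt (EuclideanSpace ℝ (Fin n)) x₀).source)
    (q : TangentSpace (𝓡 n) x) : tmci x₀ (extChartAt (𝓡 n) x₀ x, dphi x₀ x q) =
      (⟨x, q⟩ : TangentBundle (𝓡 n) M) :=
  tmci_tmc (x₀ := x₀) (p := (⟨x, q⟩ : TangentBundle (𝓡 n) M)) hx

theorem continuous_bilinearComp {E F : Type*} [NormedAddCommGroup E] [NormedSpace ℝ E]
    [FiniteDimensional ℝ E]
    [NormedAddCommGroup F] [NormedSpace ℝ F] (g1 g2 : E →L[ℝ] F) :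
    Continuous (fun B : F →L[ℝ] F →L[ℝ] ℝ => B.bilinearComp g1 g2) := by
  rw [continuous_clm_apply]
  intro h
  rw [continuous_clm_apply]
  intro k
  simp only [ContinuousLinearMap.bilinearComp_apply]
  fun_prop

/-- the good conditions at a point of the bundle chart. -/
def GoodPt (G : GeoData n M) (x₀ y₀ : M) (z : EE n × EE n) : Prop :=
  z.1 ∈ (extChartAt (𝓡 n) x₀).target ∧
  exT G (tmci x₀ z) ∈ (chartAt (EuclideanSpace ℝ (Fin n)) y₀).source ∧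
  ContDiffAt ℝ 2 (bh G x₀ y₀) (P3 G x₀ y₀ z) ∧ ContDiffAt ℝ 2 (Eh G x₀ y₀) z

theorem goodPt_base {G : GeoData n M} (hC : CutFacts G) {x₀ : M} {p₀ : TangentSpace (𝓡 n) x₀}
    (hp : p₀ ∈ G.K x₀) {y₀ : M} (hy : y₀ = G.ex x₀ p₀) :
    GoodPt G x₀ y₀ (extChartAt (𝓡 n) x₀ x₀, dphi x₀ x₀ p₀) := by
  have hx : (⟨x₀, p₀⟩ : TangentBundle (𝓡 n) M).1 ∈ (chartAt (EuclideanSpace ℝ (Fin n)) x₀).source :=
    mem_chart_source _ x₀
  have e1 : tmci x₀ (extChartAt (𝓡 n) x₀ x₀, dphi x₀ x₀ p₀) = (⟨x₀, p₀⟩ : TangentBundle (𝓡 n) M) :=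
    tmci_tmc (x₀ := x₀) (p := (⟨x₀, p₀⟩ : TangentBundle (𝓡 n) M)) hx
  have e2 : exT G (⟨x₀, p₀⟩ : TangentBundle (𝓡 n) M) = y₀ := hy.symm
  have hys : G.ex x₀ p₀ ∈ (chartAt (EuclideanSpace ℝ (Fin n)) y₀).source := by
    rw [← hy]; exact mem_chart_source _ y₀
  have e3 : Eh G x₀ y₀ (extChartAt (𝓡 n) x₀ x₀, dphi x₀ x₀ p₀) = extChartAt (𝓡 n) y₀ y₀ := by
    unfold Eh
    rw [e1, e2]
  refine ⟨(extChartAt (𝓡 n) x₀).map_source (mem_extChartAt_source x₀), ?_, ?_, ?_⟩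
  · rw [e1, e2]; exact mem_chart_source _ y₀
  · unfold P3
    simp only [e3]
    exact (contDiffAt_bh hC hp hy).of_le two_le_inf
  · exact (contDiffAt_Eh G x₀ p₀ hys).of_le two_le_inf

theorem goodPt_eventually {G : GeoData n M} {x₀ y₀ : M} {z : EE n × EE n}
    (h : GoodPt G x₀ y₀ z) : ∀ᶠ q in 𝓝 z, GoodPt G x₀ y₀ q := by
  obtain ⟨h1, h2, h3, h4⟩ := h
  have e1 : ∀ᶠ q : EE n × EE n in 𝓝 z, q.1 ∈ (extChartAt (𝓡 n) x₀).target :=
    (isOpen_tmci_source x₀).mem_nhds h1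
  have e2 : ∀ᶠ q in 𝓝 z, exT G (tmci x₀ q) ∈
        (chartAt (EuclideanSpace ℝ (Fin n)) y₀).source := by
    apply eventually_nhds_tmci h1 (P := fun q => exT G q ∈
        (chartAt (EuclideanSpace ℝ (Fin n)) y₀).source)
    have hcont : Continuous (exT G) := G.smooth.continuous
    exact hcont.continuousAt.eventually_mem
      ((chartAt (EuclideanSpace ℝ (Fin n)) y₀).open_source.mem_nhds h2)
  have hcP : ContinuousAt (P3 G x₀ y₀) z :=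
    continuousAt_fst.prodMk (continuousAt_snd.prodMk h4.continuousAt)
  have e3 : ∀ᶠ q in 𝓝 z, ContDiffAt ℝ 2 (bh G x₀ y₀) (P3 G x₀ y₀ q) :=
    hcP.eventually (h3.eventually (by simp))
  have e4 : ∀ᶠ q in 𝓝 z, ContDiffAt ℝ 2 (Eh G x₀ y₀) q := h4.eventually (by simp)
  filter_upwards [e1, e2, e3, e4] with q q1 q2 q3 q4 using ⟨q1, q2, q3, q4⟩

theorem continuousAt_hess {E : Type*} [NormedAddCommGroup E] [NormedSpace ℝ E] {f : E → ℝ} {p : E}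
    (hf : ContDiffAt ℝ 2 f p) : ContinuousAt (fderiv ℝ (fderiv ℝ f)) p :=
  ((hf.fderiv_right (m := 1) (by norm_num)).fderiv_right (m := 0) (by norm_num)).continuousAt

theorem continuousAt_D2 {G : GeoData n M} {x₀ y₀ : M} {z : EE n × EE n}
    (h : GoodPt G x₀ y₀ z) :
    ContinuousAt (fun q => fderiv ℝ (fderiv ℝ (bh G x₀ y₀)) (P3 G x₀ y₀ q)) z := by
  obtain ⟨h1, h2, h3, h4⟩ := h
  have hcP : ContinuousAt (P3 G x₀ y₀) z :=
    continuousAt_fst.prodMk (continuousAt_snd.prodMk h4.continuousAt)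
  exact ContinuousAt.comp (f := P3 G x₀ y₀) (g := fderiv ℝ (fderiv ℝ (bh G x₀ y₀)))
    (continuousAt_hess h3) hcP

theorem continuousAt_Hh {G : GeoData n M} {x₀ y₀ : M} {z : EE n × EE n}
    (h : GoodPt G x₀ y₀ z) : ContinuousAt (Hh G x₀ y₀) z :=
  ContinuousAt.comp (f := fun q => fderiv ℝ (fderiv ℝ (bh G x₀ y₀)) (P3 G x₀ y₀ q))
    (g := fun B : (EE n × EE n × EE n) →L[ℝ] (EE n × EE n × EE n) →L[ℝ] ℝ =>
      B.bilinearComp (i2 n) (i2 n))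
    (continuous_bilinearComp (i2 n) (i2 n)).continuousAt (continuousAt_D2 h)

theorem continuousAt_Nh {G : GeoData n M} {x₀ y₀ : M} {z : EE n × EE n}
    (h : GoodPt G x₀ y₀ z) : ContinuousAt (Nh G x₀ y₀) z :=
  ContinuousAt.comp (f := fun q => fderiv ℝ (fderiv ℝ (bh G x₀ y₀)) (P3 G x₀ y₀ q))
    (g := fun B : (EE n × EE n × EE n) →L[ℝ] (EE n × EE n × EE n) →L[ℝ] ℝ =>
      B.bilinearComp (i3 n) (i2 n))
    (continuous_bilinearComp (i3 n) (i2 n)).continuousAt (continuousAt_D2 h)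

theorem continuousAt_Jh {G : GeoData n M} {x₀ y₀ : M} {z : EE n × EE n}
    (h : GoodPt G x₀ y₀ z) : ContinuousAt (Jh G x₀ y₀) z := by
  have h1 : ContinuousAt (fderiv ℝ (Eh G x₀ y₀)) z :=
    (h.2.2.2.fderiv_right (m := 1) (by norm_num)).continuousAt
  unfold Jh
  exact h1.clm_comp continuousAt_const

/-- the identity on `KT`. -/
theorem ident_K {G : GeoData n M} (hC : CutFacts G) {x₀ y₀ x : M}
    (hx : x ∈ (chartAt (EuclideanSpace ℝ (Fin n)) x₀).source) {p : TangentSpace (𝓡 n) x}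
    (hp : p ∈ G.K x) (hg : GoodPt G x₀ y₀ (extChartAt (𝓡 n) x₀ x, dphi x₀ x p)) :
    Hh G x₀ y₀ (extChartAt (𝓡 n) x₀ x, dphi x₀ x p) =
      - (Nh G x₀ y₀ (extChartAt (𝓡 n) x₀ x, dphi x₀ x p)).comp
        (Jh G x₀ y₀ (extChartAt (𝓡 n) x₀ x, dphi x₀ x p)) := by
  obtain ⟨γ, hγ⟩ : ∃ γ : ℝ → EE n × EE n,
      γ = fun r => (extChartAt (𝓡 n) x₀ x, dphi x₀ x (r • p)) := ⟨_, rfl⟩
  have hγ1 : γ 1 = (extChartAt (𝓡 n) x₀ x, dphi x₀ x p) := by rw [hγ]; simp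
  have hγc : Continuous γ := by
    rw [hγ]
    simp only [map_smul]
    fun_prop
  rw [← hγ1] at hg ⊢
  have hcH : Tendsto (fun r => Hh G x₀ y₀ (γ r)) (𝓝[<] 1) (𝓝 (Hh G x₀ y₀ (γ 1))) := by
    have := ContinuousAt.comp (f := γ) (g := Hh G x₀ y₀) (continuousAt_Hh hg) hγc.continuousAt
    exact this.tendsto.mono_left nhdsWithin_le_nhds
  have hcN : Tendsto (fun r => - (Nh G x₀ y₀ (γ r)).comp (Jh G x₀ y₀ (γ r))) (𝓝[<] 1)
      (𝓝 (- (Nh G x₀ y₀ (γ 1)).comp (Jh G x₀ y₀ (γ 1)))) := by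
    have h1 : ContinuousAt (fun z => - (Nh G x₀ y₀ z).comp (Jh G x₀ y₀ z)) (γ 1) :=
      ((continuousAt_Nh hg).clm_comp (continuousAt_Jh hg)).neg
    have := ContinuousAt.comp (f := γ) (g := fun z => - (Nh G x₀ y₀ z).comp (Jh G x₀ y₀ z))
      h1 hγc.continuousAt
    exact this.tendsto.mono_left nhdsWithin_le_nhds
  refine tendsto_nhds_unique hcH (hcN.congr' ?_)
  have hgev : ∀ᶠ r in 𝓝[<] (1:ℝ), GoodPt G x₀ y₀ (γ r) :=
    (hγc.continuousAt.eventually (goodPt_eventually hg)).filter_mono nhdsWithin_le_nhds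
  have hr0 : ∀ᶠ r in 𝓝[<] (1:ℝ), 0 ≤ r :=
    (eventually_ge_nhds (by norm_num : (0:ℝ) < 1)).filter_mono nhdsWithin_le_nhds
  filter_upwards [hgev, self_mem_nhdsWithin, hr0] with r hr hr1 hr0
  have hrI : r • p ∈ G.I x := CutTop478.smul_mem_I G hp hr0 hr1
  have hz : γ r = (extChartAt (𝓡 n) x₀ x, dphi x₀ x (r • p)) := by rw [hγ]
  rw [hz] at hr ⊢
  have hex : G.ex x (r • p) ∈ (chartAt (EuclideanSpace ℝ (Fin n)) y₀).source := by
    have h1 := hr.2.1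
    rw [tmci_mk hx] at h1
    exact h1
  exact (ident_int hC hx hrI hex hr.2.2.1 (hr.2.2.2.differentiableAt (by norm_num))).symm

/-- nondegeneracy of `Nh` at the base point. -/
theorem Nh_inj {G : GeoData n M} (hC : CutFacts G) {x₀ : M} {p₀ : TangentSpace (𝓡 n) x₀}
    (hp : p₀ ∈ G.K x₀) {y₀ : M} (hy : y₀ = G.ex x₀ p₀) {k : EE n}
    (hk : ∀ h, Nh G x₀ y₀ (extChartAt (𝓡 n) x₀ x₀, dphi x₀ x₀ p₀) k h = 0) : k = 0 := by
  have hx := mem_chart_source (EuclideanSpace ℝ (Fin n)) x₀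
  obtain ⟨z₀, v, hv, -, hvy, -, hz⟩ := exists_mid hp
  have hvI := sym_mem_I hC hv
  rw [← hy] at hvy
  obtain ⟨w0, hw0⟩ : ∃ w0 : EE n, w0 = dphi x₀ x₀ p₀ := ⟨_, rfl⟩
  obtain ⟨a0, ha0⟩ : ∃ a0 : EE n, a0 = extChartAt (𝓡 n) x₀ x₀ := ⟨_, rfl⟩
  have hgood := goodPt_base hC hp hy
  rw [← hw0, ← ha0] at hgood hk
  obtain ⟨hg1, hg2, hg3, hg4⟩ := hgood
  have hy0 : Eh G x₀ y₀ (a0, w0) = o y₀ := by
    rw [ha0, hw0]
    unfold Eh o
    rw [tmci_mk hx]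
    exact congrArg _ hy.symm
  have hP3 : P3 G x₀ y₀ (a0, w0) = (a0, w0, o y₀) := by
    unfold P3
    rw [hy0]
  rw [hP3] at hg3
  -- the midpoint map in coordinates
  obtain ⟨m1, hm1⟩ : ∃ m1 : EE n → EE n, m1 = fun w' => Eh G x₀ z₀ (a0, (1 / 2 : ℝ) • w') := ⟨_, rfl⟩
  have hhalfI : (1 / 2 : ℝ) • p₀ ∈ G.I x₀ := CutTop478.smul_mem_I G hp (by norm_num) (by norm_num)
  have hzs : G.ex x₀ ((1 / 2 : ℝ) • p₀) ∈ (chartAt (EuclideanSpace ℝ (Fin n)) z₀).source := by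
    rw [← hz]; exact mem_chart_source _ z₀
  have hEz : ContDiffAt ℝ ∞ (Eh G x₀ z₀) (a0, (1 / 2 : ℝ) • w0) := by
    have := contDiffAt_Eh G x₀ ((1 / 2 : ℝ) • p₀) hzs
    rw [map_smul, ← ha0, ← hw0] at this
    exact this
  have hm1c : ContDiffAt ℝ ∞ m1 w0 := by
    rw [hm1]
    exact ContDiffAt.comp w0 (g := Eh G x₀ z₀) (f := fun w' : EE n => (a0, (1 / 2 : ℝ) • w')) hEz
      (contDiffAt_const.prodMk (contDiffAt_id.const_smul _))
  have hm1d : DifferentiableAt ℝ m1 w0 := hm1c.differentiableAt (by simp)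
  have hm1o : m1 w0 = o z₀ := by
    rw [hm1]
    simp only
    rw [hw0, ← map_smul, ha0]
    unfold Eh o
    rw [tmci_mk hx]
    exact congrArg _ hz.symm
  -- cost in charts
  have hcs : ContDiffAt ℝ ∞ (cc (n := n) z₀ y₀) (o z₀, o y₀) := by
    apply cc_contDiffAt
    have := hC.smooth_cost z₀ v hvI
    rwa [hvy] at this
  -- the function of two variables
  obtain ⟨f, hf⟩ : ∃ f : EE n × EE n → ℝ, f = fun q => bh G x₀ y₀ (ContinuousLinearMap.inr ℝ (EE n)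
      (EE n × EE n) q + (a0, 0, 0)) := ⟨_, rfl⟩
  have hfpt : ContinuousLinearMap.inr ℝ (EE n) (EE n × EE n) (w0, o y₀) + (a0, 0, 0) =
      (a0, w0, o y₀) := by simp
  have hbhc : ContDiffAt ℝ 2 (bh G x₀ y₀) (ContinuousLinearMap.inr ℝ (EE n) (EE n × EE n)
      (w0, o y₀) + (a0, 0, 0)) := by rw [hfpt]; exact hg3
  have hf2 : ContDiffAt ℝ 2 f (w0, o y₀) := by
    rw [hf]
    exact ContDiffAt.comp (w0, o y₀) (g := bh G x₀ y₀)
      (f := fun q => ContinuousLinearMap.inr ℝ (EE n) (EE n × EE n) q + (a0, 0, 0)) hbhc (by fun_prop)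
  have hNf : ∀ h : EE n, Nh G x₀ y₀ (a0, w0) k h =
      fderiv ℝ (fderiv ℝ f) (w0, o y₀) (0, k) (h, 0) := by
    intro h
    have := hess_comp_affine (f := bh G x₀ y₀) (ContinuousLinearMap.inr ℝ (EE n) (EE n × EE n))
      (a0, 0, 0) (p := (w0, o y₀)) hbhc (0, k) (h, 0)
    rw [hf, this, hfpt]
    unfold Nh
    rw [hP3]
    rfl
  obtain ⟨n1, hn1⟩ : ∃ n1 : EE n → ℝ, n1 = fun w' => ‖(tmci x₀ (a0, w')).2‖ ^ 2 / 4 := ⟨_, rfl⟩
  have hn1d : DifferentiableAt ℝ n1 w0 := by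
    have h1 : ContMDiffAt 𝓘(ℝ, EE n) 𝓘(ℝ, EE n × EE n) ∞ (fun w' : EE n => (a0, w')) w0 := by
      apply ContDiffAt.contMDiffAt
      fun_prop
    have h2 := ContMDiffAt.comp w0 (contMDiffAt_tmci (x₀ := x₀) (q := (a0, w0)) hg1) h1
    have h3 : ContMDiffAt 𝓘(ℝ, EE n) 𝓘(ℝ, ℝ) ∞
        (fun w' : EE n => ‖(tmci x₀ (a0, w')).2‖ ^ 2) w0 :=
      (contMDiff_norm_sq (n := n) (M := M)).contMDiffAt.comp w0 h2
    have h4 : ContDiffAt ℝ ∞ (fun w' : EE n => ‖(tmci x₀ (a0, w')).2‖ ^ 2) w0 :=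
      contMDiffAt_iff_contDiffAt.1 h3
    rw [hn1]
    exact (h4.div_const 4).differentiableAt (by simp)
  have hfeq : ∀ᶠ q in 𝓝 (w0, o y₀), f q = n1 q.1 + 2 * cc (n := n) z₀ y₀ (m1 q.1, q.2) := by
    have h1 : ∀ᶠ q : EE n × EE n in 𝓝 (w0, o y₀), exT G (tmci x₀ (a0, (1 / 2 : ℝ) • q.1)) ∈
        (extChartAt (𝓡 n) z₀).source := by
      have h2 : ∀ᶠ q in 𝓝 (a0, (1 / 2 : ℝ) • w0), exT G (tmci x₀ q) ∈
          (extChartAt (𝓡 n) z₀).source := by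
        apply eventually_nhds_tmci (q := (a0, (1 / 2 : ℝ) • w0)) hg1
          (P := fun q => exT G q ∈ (extChartAt (𝓡 n) z₀).source)
        have h3 : tmci x₀ (a0, (1 / 2 : ℝ) • w0) = (⟨x₀, (1 / 2 : ℝ) • p₀⟩ : TangentBundle (𝓡 n) M) := by
          rw [hw0, ← map_smul, ha0, tmci_mk hx]
        rw [h3]
        have hcont : Continuous (exT G) := G.smooth.continuous
        apply hcont.continuousAt.eventually_mem
        have h4 : exT G (⟨x₀, (1 / 2 : ℝ) • p₀⟩ : TangentBundle (𝓡 n) M) = z₀ := hz.symm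
        rw [h4]
        exact extChartAt_source_mem_nhds (I := 𝓡 n) z₀
      have h5 : ContinuousAt (fun q : EE n × EE n => (a0, (1 / 2 : ℝ) • q.1)) (w0, o y₀) := by
        fun_prop
      exact h5.eventually h2
    filter_upwards [h1] with q hq
    have hq3 : ContinuousLinearMap.inr ℝ (EE n) (EE n × EE n) q + (a0, 0, 0) =
        (a0, q.1, q.2) := by
      ext1
      · simp
      · ext1 <;> simp
    rw [hf, hn1, hm1]
    simp only [hq3]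
    simp only [bh, cc, Eh, (extChartAt (𝓡 n) z₀).left_inv hq]
  have hmix := fun h => mixed_comp (f := f) (n1 := n1) (m1 := m1) (Φ := cc (n := n) z₀ y₀)
    (w0 := w0) (y0 := o y₀) hf2 hfeq hn1d hm1d (by rw [hm1o]; exact hcs.of_le two_le_inf) k h
  -- surjectivity of the derivative of `m1`
  have hsurj : ∀ ξ : EE n, ∃ h : EE n, fderiv ℝ m1 w0 h = ξ := by
    intro ξ
    have hcs' : ContDiffAt ℝ ∞ (cc (n := n) x₀ (G.ex x₀ ((1 / 2 : ℝ) • p₀)))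
        (o x₀, o (G.ex x₀ ((1 / 2 : ℝ) • p₀))) :=
      cc_contDiffAt (hC.smooth_cost x₀ _ hhalfI)
    obtain ⟨S, hS1, -⟩ := exists_right_inverse G (hC.I_subset _ hhalfI) hcs'
    have h1 : (fun q : TangentSpace (𝓡 n) x₀ => m1 (dphi x₀ x₀ q)) =
        fun q => ec G x₀ (G.ex x₀ ((1 / 2 : ℝ) • p₀)) ((1 / 2 : ℝ) • q) := by
      funext q
      rw [hm1]
      simp only
      rw [← map_smul, ha0]
      unfold Eh ec
      rw [tmci_mk hx, hz]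
      rfl
    have h2 : HasFDerivAt (fun q : TangentSpace (𝓡 n) x₀ => m1 (dphi x₀ x₀ q))
        ((fderiv ℝ m1 w0).comp (dphi x₀ x₀)) p₀ := by
      have e1 : HasFDerivAt m1 (fderiv ℝ m1 w0) (dphi x₀ x₀ p₀) := by
        rw [← hw0]; exact hm1d.hasFDerivAt
      exact e1.comp p₀ (dphi x₀ x₀).hasFDerivAt
    have h3 : HasFDerivAt (fun q : TangentSpace (𝓡 n) x₀ =>
        ec G x₀ (G.ex x₀ ((1 / 2 : ℝ) • p₀)) ((1 / 2 : ℝ) • q))
        ((fderiv ℝ (ec G x₀ (G.ex x₀ ((1 / 2 : ℝ) • p₀))) ((1 / 2 : ℝ) • p₀)).comp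
          ((1 / 2 : ℝ) • ContinuousLinearMap.id ℝ (TangentSpace (𝓡 n) x₀))) p₀ := by
      have e1 : HasFDerivAt (ec G x₀ (G.ex x₀ ((1 / 2 : ℝ) • p₀)))
          (fderiv ℝ (ec G x₀ (G.ex x₀ ((1 / 2 : ℝ) • p₀))) ((1 / 2 : ℝ) • p₀))
          ((1 / 2 : ℝ) • p₀) :=
        ((ec_contDiffAt G x₀ ((1 / 2 : ℝ) • p₀)).differentiableAt (by simp)).hasFDerivAt
      have e2 : HasFDerivAt (fun q : TangentSpace (𝓡 n) x₀ => (1 / 2 : ℝ) • q)
          ((1 / 2 : ℝ) • ContinuousLinearMap.id ℝ (TangentSpace (𝓡 n) x₀)) p₀ :=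
        ((1 / 2 : ℝ) • ContinuousLinearMap.id ℝ (TangentSpace (𝓡 n) x₀)).hasFDerivAt
      exact HasFDerivAt.comp p₀ e1 e2
    rw [h1] at h2
    have h4 := h2.unique h3
    refine ⟨dphi x₀ x₀ ((2 : ℝ) • S ξ), ?_⟩
    have h5 := congrArg (fun L : TangentSpace (𝓡 n) x₀ →L[ℝ] EE n => L ((2 : ℝ) • S ξ)) h4
    have h6 : ((1 / 2 : ℝ) • ContinuousLinearMap.id ℝ (TangentSpace (𝓡 n) x₀)) ((2 : ℝ) • S ξ) =
        S ξ := by
      simp [smul_smul]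
    calc fderiv ℝ m1 w0 (dphi x₀ x₀ ((2 : ℝ) • S ξ))
        = fderiv ℝ (ec G x₀ (G.ex x₀ ((1 / 2 : ℝ) • p₀))) ((1 / 2 : ℝ) • p₀)
          (((1 / 2 : ℝ) • ContinuousLinearMap.id ℝ (TangentSpace (𝓡 n) x₀)) ((2 : ℝ) • S ξ)) := h5
      _ = ξ := by rw [h6, hS1]
  -- conclusion
  have hall : ∀ ξ : EE n, fderiv ℝ (fderiv ℝ (cc (n := n) z₀ y₀)) (o z₀, o y₀) (0, k) (ξ, 0) = 0 := by
    intro ξ
    obtain ⟨h, rfl⟩ := hsurj ξ
    have h1 := hmix h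
    rw [← hNf, hk h, hm1o] at h1
    linarith
  have hcs2 : ContDiffAt ℝ ∞ (cc (n := n) z₀ (G.ex z₀ v)) (o z₀, o (G.ex z₀ v)) := by
    rw [hvy]; exact hcs
  obtain ⟨S, hS1, hS2⟩ := exists_right_inverse G (hC.I_subset _ hvI) hcs2
  have hSk : S k = 0 := by
    have h1 := hS2 k (S k)
    rw [hvy] at h1
    have h2 := hall (S k : TangentSpace (𝓡 n) z₀)
    have h3 : inner ℝ (S k) (S k) = (0 : ℝ) := by
      rw [h1]
      exact (congrArg Neg.neg h2).trans neg_zero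
    exact (inner_self_eq_zero (𝕜 := ℝ)).1 h3
  have := hS1 k
  rw [hSk, map_zero] at this
  exact this.symm

end Crest.Agent.R226.Jac344
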