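import Crest.Agent.R226.VolChart_767
import Crest.Agent.R226.Defs_484

/-!
R226, Layer F, task F2 (helper767).

Part 2: the Riemannian volume `vol = μH[n]` in the extended charts: null sets, bi-Lipschitz charts,
finiteness, positivity on open sets.
-/

set_option autoImplicit false

open Bundle Bornology Set MeasureTheory Manifold Filter Metric
open scoped ENNReal ContDiff Topology NNReal

namespace Crest.Agent.R226.VolChart767

noncomputable section

theorem image_image_self {α β : Type*} {f : α → β} {g : β → α} {A : Set α}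
    (h : ∀ a ∈ A, g (f a) = a) : g '' (f '' A) = A := by
  ext a
  constructor
  · rintro ⟨_, ⟨b, hb, rfl⟩, rfl⟩
    rwa [h b hb]
  · intro ha
    exact ⟨f a, ⟨a, ha, rfl⟩, h a ha⟩

section Abstract

variable {X Y : Type*} [EMetricSpace X] [EMetricSpace Y]
  [MeasurableSpace X] [BorelSpace X] [MeasurableSpace Y] [BorelSpace Y]

/-- Lipschitz maps scale `μH[n]` by at most `Kⁿ` (natural exponent). -/
theorem hausdorffMeasure_image_le_pow {f : X → Y} {s : Set X} {K : ℝ≥0}
    (h : LipschitzOnWith K f s) (n : ℕ) :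
    μH[(n : ℝ)] (f '' s) ≤ (K : ℝ≥0∞) ^ n * μH[(n : ℝ)] s := by
  have := h.hausdorffMeasure_image_le (d := (n : ℝ)) n.cast_nonneg
  rwa [ENNReal.rpow_natCast] at this

/-- Locally Lipschitz maps send `μH[s]`-null sets to `μH[s]`-null sets. -/
theorem hausdorffMeasure_image_null [SecondCountableTopology X] {f : X → Y} {A : Set X} {s : ℝ}
    (hs : 0 ≤ s) (hf : ∀ x ∈ A, ∃ C : ℝ≥0, ∃ V ∈ 𝓝 x, LipschitzOnWith C f V)
    (hA : μH[s] A = 0) : μH[s] (f '' A) = 0 := by
  choose! C V hV hC using hf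
  obtain ⟨t, htA, htc, hcov⟩ := TopologicalSpace.countable_cover_nhdsWithin (f := V)
    (s := A) (fun x hx => nhdsWithin_le_nhds (hV x hx))
  have hsub : f '' A ⊆ ⋃ x ∈ t, f '' (V x ∩ A) := by
    rintro _ ⟨y, hy, rfl⟩
    obtain ⟨x, hx, hyx⟩ := mem_iUnion₂.1 (hcov hy)
    exact mem_iUnion₂.2 ⟨x, hx, y, ⟨hyx, hy⟩, rfl⟩
  refine measure_mono_null hsub ((measure_biUnion_null_iff htc).2 fun x hx => ?_)
  have h1 := ((hC x (htA hx)).mono (inter_subset_left (t := A))).hausdorffMeasure_image_le hs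
  have h2 : μH[s] (V x ∩ A) = 0 := measure_mono_null inter_subset_right hA
  rw [h2, mul_zero] at h1
  exact le_antisymm h1 zero_le

end Abstract

section Euclid

/-- The `n`-dimensional Hausdorff measure of `ℝⁿ` is a positive multiple of Lebesgue measure. -/
theorem exists_hausdorffMeasure_eq_smul_volume (n : ℕ) :
    ∃ c : ℝ≥0, 0 < c ∧
      (μH[(n : ℝ)] : Measure (EuclideanSpace ℝ (Fin n))) = (c : ℝ≥0∞) • volume := by
  have hfr : Module.finrank ℝ (EuclideanSpace ℝ (Fin n)) = n := by simp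
  have h1 : (μH[(n : ℝ)] : Measure (EuclideanSpace ℝ (Fin n))).IsAddHaarMeasure := by
    have := isAddHaarMeasure_hausdorffMeasure (E := EuclideanSpace ℝ (Fin n))
    rwa [hfr] at this
  refine ⟨Measure.addHaarScalarFactor (μH[(n : ℝ)] : Measure (EuclideanSpace ℝ (Fin n))) volume,
    Measure.addHaarScalarFactor_pos_of_isAddHaarMeasure _ _, ?_⟩
  have := Measure.isAddLeftInvariant_eq_smul
    (μH[(n : ℝ)] : Measure (EuclideanSpace ℝ (Fin n))) volume
  rw [ENNReal.smul_def] at this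
  exact this

/-- The constant relating `μH[n]` and Lebesgue measure on `ℝⁿ`. -/
def cH (n : ℕ) : ℝ≥0 := (exists_hausdorffMeasure_eq_smul_volume n).choose

theorem cH_pos (n : ℕ) : 0 < cH n := (exists_hausdorffMeasure_eq_smul_volume n).choose_spec.1

theorem hausdorffMeasure_eq (n : ℕ) :
    (μH[(n : ℝ)] : Measure (EuclideanSpace ℝ (Fin n))) = (cH n : ℝ≥0∞) • volume :=
  (exists_hausdorffMeasure_eq_smul_volume n).choose_spec.2

theorem hausdorffMeasure_apply_eq (n : ℕ) (A : Set (EuclideanSpace ℝ (Fin n))) :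
    μH[(n : ℝ)] A = (cH n : ℝ≥0∞) * volume A := by
  rw [hausdorffMeasure_eq, Measure.smul_apply, smul_eq_mul]

theorem hausdorffMeasure_null_iff {n : ℕ} {A : Set (EuclideanSpace ℝ (Fin n))} :
    μH[(n : ℝ)] A = 0 ↔ volume A = 0 := by
  rw [hausdorffMeasure_apply_eq, mul_eq_zero]
  have : (cH n : ℝ≥0∞) ≠ 0 := by exact_mod_cast (cH_pos n).ne'
  tauto

end Euclid

section Manifold

variable {n : ℕ} {M : Type*} [MetricSpace M] [ChartedSpace (EuclideanSpace ℝ (Fin n)) M]
  [IsManifold (𝓡 n) ∞ M] [RiemannianBundle (fun p : M => TangentSpace (𝓡 n) p)]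
  [IsContMDiffRiemannianBundle (𝓡 n) ∞ (EuclideanSpace ℝ (Fin n))
    (fun p : M => TangentSpace (𝓡 n) p)]
  [IsRiemannianManifold (𝓡 n) M]

omit [IsRiemannianManifold (𝓡 n) M] in
theorem isContinuousRiemannianBundle :
    IsContinuousRiemannianBundle (EuclideanSpace ℝ (Fin n))
      (fun p : M => TangentSpace (𝓡 n) p) := by
  obtain ⟨g, hg, h⟩ := IsContMDiffRiemannianBundle.exists_contMDiff (IB := 𝓡 n) (n := ∞)
    (F := EuclideanSpace ℝ (Fin n)) (E := fun p : M => TangentSpace (𝓡 n) p)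
  exact ⟨g, hg.continuous, h⟩

/-- The domain of a good chart: the preimage of a ball. -/
def dom (n : ℕ) {M : Type*} [TopologicalSpace M] [ChartedSpace (EuclideanSpace ℝ (Fin n)) M]
    (x : M) (r : ℝ) : Set M :=
  (extChartAt (𝓡 n) x).symm '' ball (extChartAt (𝓡 n) x x) r

/-- A good chart at `x` of constant `K` and radius `r`: the inverse extended chart is defined on the
ball of radius `r` and both it and the chart are `K`-Lipschitz there. -/
structure GoodChart (n : ℕ) {M : Type*} [MetricSpace M]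
    [ChartedSpace (EuclideanSpace ℝ (Fin n)) M] (x : M) (K : ℝ≥0) (r : ℝ) : Prop where
  one_le : 1 ≤ K
  r_pos : 0 < r
  ball_subset : ball (extChartAt (𝓡 n) x x) r ⊆ (extChartAt (𝓡 n) x).target
  lip : LipschitzOnWith K (extChartAt (𝓡 n) x) (dom n x r)
  lip_symm : LipschitzOnWith K (extChartAt (𝓡 n) x).symm (ball (extChartAt (𝓡 n) x x) r)

/-- Near every point there is a good (bi-Lipschitz) chart. -/
theorem exists_goodChart (x : M) : ∃ K : ℝ≥0, ∃ r : ℝ, GoodChart n x K r := by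
  have := isContinuousRiemannianBundle (n := n) (M := M)
  obtain ⟨C, V, hV, hVs, hC⟩ := R219.Haus.exists_lipschitzOnWith_extChartAt (I := 𝓡 n) x
  obtain ⟨C', r, hr, hrt, hC'⟩ := exists_lipschitzOnWith_extChartAt_symm (I := 𝓡 n) x
  have hran : range (𝓡 n) = univ := ModelWithCorners.range_eq_univ _
  rw [hran, inter_univ] at hrt hC'
  have h1 : ∀ᶠ y in 𝓝 (extChartAt (𝓡 n) x x), (extChartAt (𝓡 n) x).symm y ∈ V := by
    refine (continuousAt_extChartAt_symm (I := 𝓡 n) x).eventually_mem ?_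
    simpa using hV
  obtain ⟨r', hr', h2⟩ := Metric.eventually_nhds_iff_ball.1 h1
  refine ⟨max 1 (max C C'), min r r', le_max_left _ _, lt_min hr hr',
    (ball_subset_ball (min_le_left _ _)).trans hrt, ?_, ?_⟩
  · refine (hC.mono ?_).weaken ((le_max_left _ _).trans (le_max_right _ _))
    rintro _ ⟨y, hy, rfl⟩
    exact h2 y (ball_subset_ball (min_le_right _ _) hy)
  · exact (hC'.mono (ball_subset_ball (min_le_left _ _))).weaken
      ((le_max_right _ _).trans (le_max_right _ _))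

end Manifold

section GoodChart

variable {n : ℕ} {M : Type*} [MetricSpace M] [ChartedSpace (EuclideanSpace ℝ (Fin n)) M]
  {x : M} {K : ℝ≥0} {r : ℝ}

namespace GoodChart

theorem mono (h : GoodChart n x K r) {r' : ℝ} (hr' : 0 < r') (hle : r' ≤ r) :
    GoodChart n x K r' :=
  ⟨h.one_le, hr', (ball_subset_ball hle).trans h.ball_subset,
    h.lip.mono (image_mono (ball_subset_ball hle)), h.lip_symm.mono (ball_subset_ball hle)⟩

theorem weaken (h : GoodChart n x K r) {K' : ℝ≥0} (hle : K ≤ K') : GoodChart n x K' r :=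
  ⟨h.one_le.trans hle, h.r_pos, h.ball_subset, h.lip.weaken hle, h.lip_symm.weaken hle⟩

theorem K_pos (h : GoodChart n x K r) : 0 < K := lt_of_lt_of_le one_pos h.one_le

theorem dom_subset_source (h : GoodChart n x K r) :
    dom n x r ⊆ (extChartAt (𝓡 n) x).source := by
  rintro _ ⟨y, hy, rfl⟩
  exact (extChartAt (𝓡 n) x).map_target (h.ball_subset hy)

theorem dom_eq (h : GoodChart n x K r) :
    dom n x r = (extChartAt (𝓡 n) x).source ∩
      extChartAt (𝓡 n) x ⁻¹' ball (extChartAt (𝓡 n) x x) r := by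
  ext z
  constructor
  · rintro ⟨y, hy, rfl⟩
    refine ⟨(extChartAt (𝓡 n) x).map_target (h.ball_subset hy), ?_⟩
    rw [mem_preimage, (extChartAt (𝓡 n) x).right_inv (h.ball_subset hy)]
    exact hy
  · rintro ⟨hz, hz'⟩
    exact ⟨_, hz', (extChartAt (𝓡 n) x).left_inv hz⟩

theorem isOpen_dom (h : GoodChart n x K r) : IsOpen (dom n x r) := by
  rw [h.dom_eq]
  exact isOpen_extChartAt_preimage' x isOpen_ball

theorem mem_dom (h : GoodChart n x K r) : x ∈ dom n x r :=
  ⟨extChartAt (𝓡 n) x x, mem_ball_self h.r_pos, extChartAt_to_inv x⟩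

theorem dom_mem_nhds (h : GoodChart n x K r) : dom n x r ∈ 𝓝 x :=
  h.isOpen_dom.mem_nhds h.mem_dom

theorem mapsTo (h : GoodChart n x K r) :
    MapsTo (extChartAt (𝓡 n) x) (dom n x r) (ball (extChartAt (𝓡 n) x x) r) := by
  rintro _ ⟨y, hy, rfl⟩
  rwa [(extChartAt (𝓡 n) x).right_inv (h.ball_subset hy)]

theorem left_inv (h : GoodChart n x K r) {z : M} (hz : z ∈ dom n x r) :
    (extChartAt (𝓡 n) x).symm (extChartAt (𝓡 n) x z) = z :=
  (extChartAt (𝓡 n) x).left_inv (h.dom_subset_source hz)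

theorem right_inv (h : GoodChart n x K r) {y : EuclideanSpace ℝ (Fin n)}
    (hy : y ∈ ball (extChartAt (𝓡 n) x x) r) :
    extChartAt (𝓡 n) x ((extChartAt (𝓡 n) x).symm y) = y :=
  (extChartAt (𝓡 n) x).right_inv (h.ball_subset hy)

theorem symm_mem (_h : GoodChart n x K r) {y : EuclideanSpace ℝ (Fin n)}
    (hy : y ∈ ball (extChartAt (𝓡 n) x x) r) : (extChartAt (𝓡 n) x).symm y ∈ dom n x r :=
  ⟨y, hy, rfl⟩

theorem injOn (h : GoodChart n x K r) : InjOn (extChartAt (𝓡 n) x) (dom n x r) :=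
  (extChartAt (𝓡 n) x).injOn.mono h.dom_subset_source

theorem injOn_symm (h : GoodChart n x K r) :
    InjOn (extChartAt (𝓡 n) x).symm (ball (extChartAt (𝓡 n) x x) r) :=
  (extChartAt (𝓡 n) x).symm.injOn.mono h.ball_subset

theorem image_dom (h : GoodChart n x K r) :
    extChartAt (𝓡 n) x '' dom n x r = ball (extChartAt (𝓡 n) x x) r := by
  apply Subset.antisymm h.mapsTo.image_subset
  intro y hy
  exact ⟨_, h.symm_mem hy, h.right_inv hy⟩

theorem dist_le (h : GoodChart n x K r) {a b : M} (ha : a ∈ dom n x r) (hb : b ∈ dom n x r) :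
    dist (extChartAt (𝓡 n) x a) (extChartAt (𝓡 n) x b) ≤ K * dist a b :=
  h.lip.dist_le_mul a ha b hb

theorem dist_symm_le (h : GoodChart n x K r) {a b : EuclideanSpace ℝ (Fin n)}
    (ha : a ∈ ball (extChartAt (𝓡 n) x x) r) (hb : b ∈ ball (extChartAt (𝓡 n) x x) r) :
    dist ((extChartAt (𝓡 n) x).symm a) ((extChartAt (𝓡 n) x).symm b) ≤ K * dist a b :=
  h.lip_symm.dist_le_mul a ha b hb

theorem dist_le' (h : GoodChart n x K r) {a b : M} (ha : a ∈ dom n x r) (hb : b ∈ dom n x r) :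
    dist a b ≤ K * dist (extChartAt (𝓡 n) x a) (extChartAt (𝓡 n) x b) := by
  have := h.dist_symm_le (h.mapsTo ha) (h.mapsTo hb)
  rwa [h.left_inv ha, h.left_inv hb] at this

variable [MeasurableSpace M] [BorelSpace M]

/-- `vol (φ⁻¹ B) ≤ Kⁿ c Leb B`. -/
theorem vol_symm_image_le (h : GoodChart n x K r) {B : Set (EuclideanSpace ℝ (Fin n))}
    (hB : B ⊆ ball (extChartAt (𝓡 n) x x) r) :
    μH[(n : ℝ)] ((extChartAt (𝓡 n) x).symm '' B) ≤ (K : ℝ≥0∞) ^ n * (cH n * volume B) := by
  have := hausdorffMeasure_image_le_pow (h.lip_symm.mono hB) n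
  rwa [hausdorffMeasure_apply_eq] at this

/-- `c Leb (φ A) ≤ Kⁿ vol A`. -/
theorem volume_image_le (h : GoodChart n x K r) {A : Set M} (hA : A ⊆ dom n x r) :
    (cH n : ℝ≥0∞) * volume (extChartAt (𝓡 n) x '' A) ≤ (K : ℝ≥0∞) ^ n * μH[(n : ℝ)] A := by
  have := hausdorffMeasure_image_le_pow (h.lip.mono hA) n
  rwa [hausdorffMeasure_apply_eq] at this

/-- `vol A ≤ Kⁿ c Leb (φ A)`. -/
theorem vol_le (h : GoodChart n x K r) {A : Set M} (hA : A ⊆ dom n x r) :
    μH[(n : ℝ)] A ≤ (K : ℝ≥0∞) ^ n * (cH n * volume (extChartAt (𝓡 n) x '' A)) := by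
  have := h.vol_symm_image_le (B := extChartAt (𝓡 n) x '' A)
    ((image_mono hA).trans h.image_dom.subset)
  rwa [image_image_self fun a ha => h.left_inv (hA ha)] at this

/-- `c Leb B ≤ Kⁿ vol (φ⁻¹ B)`. -/
theorem volume_le (h : GoodChart n x K r) {B : Set (EuclideanSpace ℝ (Fin n))}
    (hB : B ⊆ ball (extChartAt (𝓡 n) x x) r) :
    (cH n : ℝ≥0∞) * volume B ≤
      (K : ℝ≥0∞) ^ n * μH[(n : ℝ)] ((extChartAt (𝓡 n) x).symm '' B) := by
  have := h.volume_image_le (A := (extChartAt (𝓡 n) x).symm '' B) (image_mono hB)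
  rwa [image_image_self fun a ha => h.right_inv (hB ha)] at this

end GoodChart

end GoodChart

section Null

variable {n : ℕ} {M : Type*} [MetricSpace M] [ChartedSpace (EuclideanSpace ℝ (Fin n)) M]
  [IsManifold (𝓡 n) ∞ M] [RiemannianBundle (fun p : M => TangentSpace (𝓡 n) p)]
  [IsContMDiffRiemannianBundle (𝓡 n) ∞ (EuclideanSpace ℝ (Fin n))
    (fun p : M => TangentSpace (𝓡 n) p)]
  [IsRiemannianManifold (𝓡 n) M] [MeasurableSpace M] [BorelSpace M]

/-- The inverse chart maps Lebesgue-null sets to `vol`-null sets. -/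
theorem vol_symm_image_null {x : M} {B : Set (EuclideanSpace ℝ (Fin n))}
    (hB : B ⊆ (extChartAt (𝓡 n) x).target) (h0 : volume B = 0) :
    μH[(n : ℝ)] ((extChartAt (𝓡 n) x).symm '' B) = 0 := by
  have := isContinuousRiemannianBundle (n := n) (M := M)
  exact hausdorffMeasure_image_null n.cast_nonneg
    (fun y hy => exists_lipschitzOnWith_extChartAt_symm_of_mem (hB hy))
    (hausdorffMeasure_null_iff.2 h0)

/-- The chart maps `vol`-null sets to Lebesgue-null sets. -/
theorem volume_image_null [SecondCountableTopology M] {x : M} {A : Set M}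
    (hA : A ⊆ (extChartAt (𝓡 n) x).source) (h0 : μH[(n : ℝ)] A = 0) :
    volume (extChartAt (𝓡 n) x '' A) = 0 := by
  have := isContinuousRiemannianBundle (n := n) (M := M)
  exact hausdorffMeasure_null_iff.1 (hausdorffMeasure_image_null n.cast_nonneg
    (fun y hy => exists_lipschitzOnWith_extChartAt_of_mem (hA hy)) h0)

/-- `vol`-null iff Lebesgue-null in the chart. -/
theorem vol_null_iff_image [SecondCountableTopology M] {x : M} {A : Set M}
    (hA : A ⊆ (extChartAt (𝓡 n) x).source) :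
    μH[(n : ℝ)] A = 0 ↔ volume (extChartAt (𝓡 n) x '' A) = 0 := by
  refine ⟨volume_image_null hA, fun h => ?_⟩
  have := vol_symm_image_null (x := x) (B := extChartAt (𝓡 n) x '' A)
    ((image_mono hA).trans (extChartAt (𝓡 n) x).image_source_eq_target.subset) h
  rwa [image_image_self fun a ha => (extChartAt (𝓡 n) x).left_inv (hA ha)] at this

/-- A set is `vol`-null iff it is Lebesgue-null in all charts. -/
theorem vol_null_iff_forall_chart [SecondCountableTopology M] {A : Set M} :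
    μH[(n : ℝ)] A = 0 ↔ ∀ x : M, volume ((extChartAt (𝓡 n) x).target ∩
      (extChartAt (𝓡 n) x).symm ⁻¹' A) = 0 := by
  have himg : ∀ x : M, (extChartAt (𝓡 n) x).target ∩ (extChartAt (𝓡 n) x).symm ⁻¹' A =
      extChartAt (𝓡 n) x '' (A ∩ (extChartAt (𝓡 n) x).source) := by
    intro x
    ext y
    constructor
    · rintro ⟨hy, hyA⟩
      exact ⟨_, ⟨hyA, (extChartAt (𝓡 n) x).map_target hy⟩, (extChartAt (𝓡 n) x).right_inv hy⟩
    · rintro ⟨z, ⟨hzA, hz⟩, rfl⟩
      refine ⟨(extChartAt (𝓡 n) x).map_source hz, ?_⟩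
      rw [mem_preimage, (extChartAt (𝓡 n) x).left_inv hz]
      exact hzA
  constructor
  · intro h x
    rw [himg]
    exact volume_image_null inter_subset_right (measure_mono_null inter_subset_left h)
  · intro h
    obtain ⟨t, -, htc, hcov⟩ := TopologicalSpace.countable_cover_nhdsWithin
      (f := fun x : M => (extChartAt (𝓡 n) x).source) (s := univ)
      (fun x _ => nhdsWithin_le_nhds (extChartAt_source_mem_nhds x))
    have hsub : A ⊆ ⋃ x ∈ t, A ∩ (extChartAt (𝓡 n) x).source := by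
      intro y hy
      obtain ⟨x, hx, hyx⟩ := mem_iUnion₂.1 (hcov (mem_univ y))
      exact mem_iUnion₂.2 ⟨x, hx, hy, hyx⟩
    refine measure_mono_null hsub ((measure_biUnion_null_iff htc).2 fun x _ => ?_)
    rw [vol_null_iff_image inter_subset_right, ← himg]
    exact h x

/-- A property holds `vol`-almost everywhere iff it holds Lebesgue-almost everywhere in charts. -/
theorem ae_iff_forall_chart [SecondCountableTopology M] {p : M → Prop} :
    (∀ᵐ z ∂(μH[(n : ℝ)] : Measure M), p z) ↔ ∀ x : M, ∀ᵐ y ∂(volume :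
      Measure (EuclideanSpace ℝ (Fin n))), y ∈ (extChartAt (𝓡 n) x).target →
        p ((extChartAt (𝓡 n) x).symm y) := by
  rw [ae_iff, vol_null_iff_forall_chart (n := n)]
  refine forall_congr' fun x => ?_
  rw [ae_iff]
  have : (extChartAt (𝓡 n) x).target ∩ (extChartAt (𝓡 n) x).symm ⁻¹' {z | ¬ p z} =
      {y | ¬ (y ∈ (extChartAt (𝓡 n) x).target → p ((extChartAt (𝓡 n) x).symm y))} := by
    ext y
    simp only [mem_inter_iff, mem_preimage, mem_ofPred_eq, Classical.not_imp]
  rw [this]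

end Null

section Global

variable {n : ℕ} {M : Type*} [MetricSpace M] [ChartedSpace (EuclideanSpace ℝ (Fin n)) M]
  [IsManifold (𝓡 n) ∞ M] [RiemannianBundle (fun p : M => TangentSpace (𝓡 n) p)]
  [IsContMDiffRiemannianBundle (𝓡 n) ∞ (EuclideanSpace ℝ (Fin n))
    (fun p : M => TangentSpace (𝓡 n) p)]
  [IsRiemannianManifold (𝓡 n) M] [MeasurableSpace M] [BorelSpace M]

/-- `vol` is locally finite. -/
theorem isLocallyFiniteMeasure : IsLocallyFiniteMeasure (μH[(n : ℝ)] : Measure M) := by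
  refine ⟨fun x => ?_⟩
  obtain ⟨K, r, h⟩ := exists_goodChart (n := n) x
  refine ⟨dom n x r, h.dom_mem_nhds, ?_⟩
  refine (h.vol_le Subset.rfl).trans_lt ?_
  rw [h.image_dom]
  exact ENNReal.mul_lt_top (by finiteness) (ENNReal.mul_lt_top (by finiteness) measure_ball_lt_top)

/-- `vol` is finite on a compact manifold. -/
theorem isFiniteMeasure [CompactSpace M] : IsFiniteMeasure (μH[(n : ℝ)] : Measure M) := by
  have := isLocallyFiniteMeasure (n := n) (M := M)
  exact ⟨isCompact_univ.measure_lt_top⟩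

/-- `vol` is positive on nonempty open sets. -/
theorem isOpenPosMeasure : (μH[(n : ℝ)] : Measure M).IsOpenPosMeasure := by
  refine ⟨fun U hU hne h0 => ?_⟩
  obtain ⟨x, hx⟩ := hne
  obtain ⟨K, r, h⟩ := exists_goodChart (n := n) x
  have h1 := h.volume_image_le (A := dom n x r ∩ U) inter_subset_left
  rw [measure_mono_null inter_subset_right h0, mul_zero] at h1
  have h2 : volume (extChartAt (𝓡 n) x '' (dom n x r ∩ U)) = 0 := by
    have h3 := le_antisymm h1 zero_le
    rw [mul_eq_zero] at h3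
    exact h3.resolve_left (by exact_mod_cast (cH_pos n).ne')
  have h4 : extChartAt (𝓡 n) x '' (dom n x r ∩ U) ∈ 𝓝 (extChartAt (𝓡 n) x x) := by
    have : (extChartAt (𝓡 n) x).symm ⁻¹' (dom n x r ∩ U) ∈ 𝓝 (extChartAt (𝓡 n) x x) := by
      refine (continuousAt_extChartAt_symm (I := 𝓡 n) x).preimage_mem_nhds ?_
      simpa using inter_mem h.dom_mem_nhds (hU.mem_nhds hx)
    filter_upwards [this, ball_mem_nhds _ h.r_pos] with y hy hyb
    exact ⟨_, hy, h.right_inv hyb⟩
  exact (Measure.measure_pos_of_mem_nhds volume h4).ne' h2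

end Global

end

end Crest.Agent.R226.VolChart767
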