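/-
R226, E2 block N2 (helper344), part 5: local volume comparison
`vol (ex x '' A) ≍ ∫_A |det Hf|`.
-/
import Crest.Agent.R226.Jac3_344
import Crest.Agent.R226.VolChartB_767

set_option autoImplicit false
set_option linter.unusedSectionVars false

open MeasureTheory Bundle Set Filter
open scoped Manifold ContDiff Bundle ENNReal Topology NNReal
open Crest.GeometryTopology.MTW

namespace Crest.Agent.R226.Jac344

open Crest.Agent.R226.LoeperUnif128 Crest.Agent.R226.TMSmooth771 Crest.Agent.R226.Taylor344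
open Crest.Agent.R226.ChartCost77 Crest.Agent.R226.Index77 Crest.Agent.R226.JacCalc344
open Crest.Agent.R226.TaylorCalc344 Crest.Agent.R226.VolChart767

variable {n : ℕ} {M : Type*} [MetricSpace M] [ChartedSpace (EuclideanSpace ℝ (Fin n)) M]
  [IsManifold (𝓡 n) ∞ M]
  [RiemannianBundle (fun p : M => TangentSpace (𝓡 n) p)]
  [IsContMDiffRiemannianBundle (𝓡 n) ∞ (EuclideanSpace ℝ (Fin n))
  (fun p : M => TangentSpace (𝓡 n) p)]

/-- the isometry as a continuous linear map -/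
noncomputable def iL {x : M} (ι : EE n ≃ₗᵢ[ℝ] TangentSpace (𝓡 n) x) : EE n →L[ℝ] TangentSpace (𝓡 n) x :=
  (ι.toContinuousLinearEquiv : EE n →L[ℝ] TangentSpace (𝓡 n) x)

@[simp] theorem iL_apply {x : M} (ι : EE n ≃ₗᵢ[ℝ] TangentSpace (𝓡 n) x) (a : EE n) :
    iL ι a = ι a := rfl

/-- determinant of the Hessian of `rho` at `ι a`, in an orthonormal basis. -/
noncomputable def detH (G : GeoData n M) (x : M) (ι : EE n ≃ₗᵢ[ℝ] TangentSpace (𝓡 n) x) (a : EE n) :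
    ℝ :=
  detB ((Hf G x (ι a)).bilinearComp (iL ι) (iL ι))

/-- boundary vectors are null in each fibre. -/
theorem null_K_diff_I [CompactSpace M] {G : GeoData n M} (hC : CutFacts G) (x : M)
    (ι : EE n ≃ₗᵢ[ℝ] TangentSpace (𝓡 n) x) :
    (volume : Measure (EE n)) {a | ι a ∈ G.K x ∧ ι a ∉ G.I x} = 0 := by
  have hcont : Continuous (fun a => ι a) := ι.continuous
  apply null_of_ray (volume : Measure (EE n)) (R := Metric.diam (univ : Set M))
  · have h1 : IsClosed {a : EE n | ι a ∈ G.K x} := (CutTop478.isClosed_K G x).preimage hcont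
    have h2 : IsOpen {a : EE n | ι a ∈ G.I x} :=
      (CutTop478.isOpen_I_of_isOpen_IT G hC.isOpen_IT x).preimage hcont
    exact h1.measurableSet.inter h2.measurableSet.compl
  · rintro a ⟨ha, -⟩
    rw [← ι.norm_map]
    exact CutTop478.norm_le_diam G ha
  · rintro a ⟨ha, haI⟩ t ht ⟨hta, -⟩
    apply haI
    refine ⟨t, ht, ?_⟩
    rwa [map_smul] at hta

theorem vol_local [CompactSpace M] [IsRiemannianManifold (𝓡 n) M] [MeasurableSpace M] [BorelSpace M]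
    {G : GeoData n M} (hC : CutFacts G) (x₀ : M) (p₀ : TangentSpace (𝓡 n) x₀) (hp : p₀ ∈ G.K x₀) :
    ∃ O : Set (TangentBundle (𝓡 n) M), IsOpen O ∧ (⟨x₀, p₀⟩ : TangentBundle (𝓡 n) M) ∈ O ∧
      ∃ C : ℝ≥0, ∀ (x : M) (ι : EE n ≃ₗᵢ[ℝ] TangentSpace (𝓡 n) x) (A : Set (EE n)),
        MeasurableSet A → (∀ a ∈ A, ι a ∈ G.K x ∧ (⟨x, ι a⟩ : TangentBundle (𝓡 n) M) ∈ O) →
        (Measure.hausdorffMeasure (n : ℝ) : Measure M) ((fun a => G.ex x (ι a)) '' A) ≤
            C * ∫⁻ a in A, ENNReal.ofReal |detH G x ι a| ∧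
        ∫⁻ a in A, ENNReal.ofReal |detH G x ι a| ≤
          C * (Measure.hausdorffMeasure (n : ℝ) : Measure M) ((fun a => G.ex x (ι a)) '' A) := by
  obtain ⟨y₀, hy⟩ : ∃ y₀, y₀ = G.ex x₀ p₀ := ⟨_, rfl⟩
  have hx₀ := mem_chart_source (EuclideanSpace ℝ (Fin n)) x₀
  obtain ⟨Z, hZ⟩ : ∃ Z : EE n × EE n, Z = (extChartAt (𝓡 n) x₀ x₀, dphi x₀ x₀ p₀) := ⟨_, rfl⟩
  have hgood := goodPt_base hC hp hy
  rw [← hZ] at hgood
  have hgoodev := goodPt_eventually hgood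
  -- bounds for `Nh`
  obtain ⟨c, hc⟩ : ∃ c : ℝ, c = |detB (Nh G x₀ y₀ Z)| := ⟨_, rfl⟩
  have hc0 : 0 < c := by
    rw [hc]
    apply abs_pos.2
    apply detB_ne_zero
    intro k hk
    apply Nh_inj hC hp hy (k := k)
    intro h
    rw [← hZ]
    exact hk h
  have hNcont : ContinuousAt (fun z => |detB (Nh G x₀ y₀ z)|) Z :=
    (continuous_abs.comp continuous_detB).continuousAt.comp (continuousAt_Nh hgood)
  have hNev : ∀ᶠ z in 𝓝 Z, c / 2 < |detB (Nh G x₀ y₀ z)| ∧ |detB (Nh G x₀ y₀ z)| < 2 * c := by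
    have h1 : ∀ᶠ z in 𝓝 Z, c / 2 < |detB (Nh G x₀ y₀ z)| :=
      hNcont.eventually (lt_mem_nhds (by
        change c / 2 < |detB (Nh G x₀ y₀ Z)|
        rw [← hc]; linarith))
    have h2 : ∀ᶠ z in 𝓝 Z, |detB (Nh G x₀ y₀ z)| < 2 * c :=
      hNcont.eventually (gt_mem_nhds (by
        change |detB (Nh G x₀ y₀ Z)| < 2 * c
        rw [← hc]; linarith))
    exact h1.and h2
  -- chart at `x₀`
  obtain ⟨C1, hC1, hb⟩ := dphi_bounds (n := n) x₀
  -- chart at `y₀`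
  obtain ⟨K, r, hK⟩ := exists_goodChart (n := n) y₀
  -- the neighbourhood
  have hTM : ContinuousAt (fun p : TangentBundle (𝓡 n) M => p.1)
        (⟨x₀, p₀⟩ : TangentBundle (𝓡 n) M) :=
    (FiberBundle.continuous_proj (EuclideanSpace ℝ (Fin n))
      (fun p : M => TangentSpace (𝓡 n) p)).continuousAt
  have hev : ∀ᶠ q in 𝓝 (⟨x₀, p₀⟩ : TangentBundle (𝓡 n) M),
      (GoodPt G x₀ y₀ (tmc x₀ q) ∧
        (c / 2 < |detB (Nh G x₀ y₀ (tmc x₀ q))| ∧ |detB (Nh G x₀ y₀ (tmc x₀ q))| < 2 * c)) ∧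
      exT G q ∈ dom n y₀ r ∧ q.1 ∈ (chartAt (EuclideanSpace ℝ (Fin n)) x₀).source ∧
        ∀ v : TangentSpace (𝓡 n) q.1, ‖dphi x₀ q.1 v‖ ≤ C1 * ‖v‖ ∧ ‖v‖ ≤ C1 * ‖dphi x₀ q.1 v‖ := by
    have h1 : ∀ᶠ q in 𝓝 (⟨x₀, p₀⟩ : TangentBundle (𝓡 n) M), GoodPt G x₀ y₀ (tmc x₀ q) ∧
        (c / 2 < |detB (Nh G x₀ y₀ (tmc x₀ q))| ∧ |detB (Nh G x₀ y₀ (tmc x₀ q))| < 2 * c) :=
      map_nhds_tmc (x₀ := x₀) (p := (⟨x₀, p₀⟩ : TangentBundle (𝓡 n) M)) hx₀
        (P := fun z => GoodPt G x₀ y₀ z ∧ (c / 2 < |detB (Nh G x₀ y₀ z)| ∧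
          |detB (Nh G x₀ y₀ z)| < 2 * c)) (by
            have : tmc x₀ (⟨x₀, p₀⟩ : TangentBundle (𝓡 n) M) = Z := hZ.symm
            rw [this]
            exact hgoodev.and hNev)
    have h2 : ∀ᶠ q in 𝓝 (⟨x₀, p₀⟩ : TangentBundle (𝓡 n) M), exT G q ∈ dom n y₀ r := by
      have hcont : Continuous (exT G) := G.smooth.continuous
      apply hcont.continuousAt.eventually_mem
      have h4 : exT G (⟨x₀, p₀⟩ : TangentBundle (𝓡 n) M) = y₀ := hy.symm
      rw [h4]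
      exact hK.dom_mem_nhds
    have h3 := hTM.eventually hb
    filter_upwards [h1, h2, h3] with q q1 q2 q3 using ⟨q1, q2, q3⟩
  obtain ⟨O, hOsub, hOopen, hOmem⟩ := mem_nhds_iff.1 hev
  -- constants
  obtain ⟨C3, hC3⟩ : ∃ C3 : ℝ, C3 = max (C1 ^ n * (2 * c)) (C1 ^ n * (2 / c)) := ⟨_, rfl⟩
  have hC3a : C1 ^ n * (2 * c) ≤ C3 := by rw [hC3]; exact le_max_left _ _
  have hC3b : C1 ^ n * (2 / c) ≤ C3 := by rw [hC3]; exact le_max_right _ _
  have hC3pos : 0 < C3 := lt_of_lt_of_le (by positivity) hC3a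
  obtain ⟨C, hCdef⟩ : ∃ C : ℝ≥0, C = max (K ^ n * cH n * C3.toNNReal)
      (C3.toNNReal * (cH n)⁻¹ * K ^ n) := ⟨_, rfl⟩
  refine ⟨O, hOopen, hOmem, C, fun x ι A hA hAO => ?_⟩
  -- empty case
  rcases A.eq_empty_or_nonempty with rfl | ⟨a₀, ha₀⟩
  · simp
  obtain ⟨-, -, hxs, hxb⟩ := hOsub (hAO a₀ ha₀).2
  change x ∈ _ at hxs
  obtain ⟨L, hL⟩ : ∃ L : EE n →L[ℝ] EE n, L = (dphi x₀ x).comp (iL ι) := ⟨_, rfl⟩
  have hLa : ∀ a, L a = dphi x₀ x (ι a) := fun a => by rw [hL]; rfl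
  have hL1 : |L.det| ≤ C1 ^ n := by
    apply abs_det_le L hC1.le
    intro v
    rw [hLa, ← ι.norm_map v]
    exact (hxb (ι v)).1
  have hL2 : (C1 ^ n)⁻¹ ≤ |L.det| := by
    apply le_abs_det L hC1
    intro v
    rw [hLa, ← ι.norm_map v]
    exact (hxb (ι v)).2
  have hL0 : 0 < |L.det| := lt_of_lt_of_le (by positivity) hL2
  -- the map in coordinates
  obtain ⟨z, hz⟩ : ∃ z : EE n → EE n × EE n, z = fun a => (extChartAt (𝓡 n) x₀ x, dphi x₀ x (ι a)) :=
    ⟨_, rfl⟩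
  obtain ⟨f, hf⟩ : ∃ f : EE n → EE n, f = fun a => extChartAt (𝓡 n) y₀ (G.ex x (ι a)) := ⟨_, rfl⟩
  obtain ⟨f', hf'⟩ : ∃ f' : EE n → (EE n →L[ℝ] EE n), f' = fun a => (Jh G x₀ y₀ (z a)).comp L :=
    ⟨_, rfl⟩
  have hfz : f = fun a => Eh G x₀ y₀ (z a) := by
    rw [hf, hz]
    funext a
    unfold Eh
    rw [tmci_mk hxs]
    rfl
  have hgoodA : ∀ a ∈ A, GoodPt G x₀ y₀ (z a) ∧
      (c / 2 < |detB (Nh G x₀ y₀ (z a))| ∧ |detB (Nh G x₀ y₀ (z a))| < 2 * c) := by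
    intro a ha
    have := (hOsub (hAO a ha).2).1
    rw [hz]
    exact this
  have hdomA : ∀ a ∈ A, G.ex x (ι a) ∈ dom n y₀ r := fun a ha => (hOsub (hAO a ha).2).2.1
  have hsrcA : ∀ a ∈ A, G.ex x (ι a) ∈ (chartAt (EuclideanSpace ℝ (Fin n)) y₀).source := by
    intro a ha
    have := hK.dom_subset_source (hdomA a ha)
    rwa [extChartAt_source] at this
  have hder : ∀ a ∈ A, HasFDerivAt f (f' a) a := by
    intro a ha
    obtain ⟨⟨-, -, -, hg4⟩, -⟩ := hgoodA a ha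
    have h1 : HasFDerivAt z ((0 : EE n →L[ℝ] EE n).prod L) a := by
      rw [hz]
      have e1 : HasFDerivAt (fun a => dphi x₀ x (ι a)) L a := by
        have : (fun a => dphi x₀ x (ι a)) = fun a => L a := by
          funext a; rw [hLa]
        rw [this]
        exact L.hasFDerivAt
      exact (hasFDerivAt_const _ _).prodMk e1
    have h2 := (hg4.differentiableAt (by norm_num)).hasFDerivAt.comp a h1
    rw [hfz, hf']
    refine h2.congr_fderiv ?_
    ext1 h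
    simp [Jh]
  have hdet : ∀ a ∈ A, |detH G x ι a| = |L.det| * |detB (Nh G x₀ y₀ (z a))| * |(f' a).det| := by
    intro a ha
    obtain ⟨hg, -⟩ := hgoodA a ha
    have hza : z a = (extChartAt (𝓡 n) x₀ x, dphi x₀ x (ι a)) := by rw [hz]
    have h1 : detH G x ι a = L.det ^ 2 * detB (Hh G x₀ y₀ (z a)) := by
      unfold detH
      apply detB_congr
      intro v w
      rw [ContinuousLinearMap.bilinearComp_apply, hLa, hLa, hza]
      exact Hf_eq G hxs (hsrcA a ha) (by rw [← hza]; exact hg.2.2.1) (ι v) (ι w)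
    have h2 : Hh G x₀ y₀ (z a) = - (Nh G x₀ y₀ (z a)).comp (Jh G x₀ y₀ (z a)) := by
      rw [hza]
      exact ident_K hC hxs (hAO a ha).1 (by rw [← hza]; exact hg)
    have h3 : (f' a).det = (Jh G x₀ y₀ (z a)).det * L.det := by
      rw [hf']
      exact LinearMap.det_comp _ _
    rw [h1, h2, abs_mul, detB_neg, detB_comp_left, h3, abs_mul, abs_mul, abs_pow]
    ring
  have hcmp1 : ∀ a ∈ A, |detH G x ι a| ≤ C3 * |(f' a).det| := by
    intro a ha
    rw [hdet a ha]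
    have h1 := (hgoodA a ha).2.2
    have h2 : |L.det| * |detB (Nh G x₀ y₀ (z a))| ≤ C1 ^ n * (2 * c) := by
      gcongr
    gcongr
    exact h2.trans hC3a
  have hcmp2 : ∀ a ∈ A, |(f' a).det| ≤ C3 * |detH G x ι a| := by
    intro a ha
    rw [hdet a ha]
    have h1 := (hgoodA a ha).2.1
    have hcn : (C1 ^ n)⁻¹ * (c / 2) ≤ |L.det| * |detB (Nh G x₀ y₀ (z a))| := by
      gcongr
    have h2 : 1 ≤ C3 * (|L.det| * |detB (Nh G x₀ y₀ (z a))|) := by
      calc (1:ℝ) = (C1 ^ n * (2 / c)) * ((C1 ^ n)⁻¹ * (c / 2)) := by field_simp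
        _ ≤ C3 * (|L.det| * |detB (Nh G x₀ y₀ (z a))|) := by gcongr
    have h3 := abs_nonneg (f' a).det
    calc |(f' a).det| = 1 * |(f' a).det| := (one_mul _).symm
      _ ≤ (C3 * (|L.det| * |detB (Nh G x₀ y₀ (z a))|)) * |(f' a).det| := by gcongr
      _ = _ := by ring
  -- the image
  have himg : (fun a => G.ex x (ι a)) '' A = (extChartAt (𝓡 n) y₀).symm '' (f '' A) := by
    rw [hf]
    ext y
    constructor
    · rintro ⟨a, ha, rfl⟩
      exact ⟨_, ⟨a, ha, rfl⟩, hK.left_inv (hdomA a ha)⟩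
    · rintro ⟨_, ⟨a, ha, rfl⟩, rfl⟩
      exact ⟨a, ha, (hK.left_inv (hdomA a ha)).symm⟩
  have hball : f '' A ⊆ Metric.ball (extChartAt (𝓡 n) y₀ y₀) r := by
    rintro _ ⟨a, ha, rfl⟩
    rw [hf]
    exact hK.mapsTo (hdomA a ha)
  have hcH : (0 : ℝ≥0) < cH n := cH_pos n
  constructor
  · rw [himg]
    calc (Measure.hausdorffMeasure (n : ℝ) : Measure M) ((extChartAt (𝓡 n) y₀).symm '' (f '' A))
        ≤ (K : ℝ≥0∞) ^ n * (cH n * volume (f '' A)) := hK.vol_symm_image_le hball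
      _ ≤ (K : ℝ≥0∞) ^ n * (cH n * ∫⁻ a in A, ENNReal.ofReal |(f' a).det|) := by
          gcongr
          exact addHaar_image_le_lintegral_abs_det_fderiv volume hA
            (fun a ha => (hder a ha).hasFDerivWithinAt)
      _ ≤ (K : ℝ≥0∞) ^ n * (cH n * ∫⁻ a in A, (C3.toNNReal : ℝ≥0∞) *
            ENNReal.ofReal |detH G x ι a|) := by
          gcongr _ * (_ * ?_)
          apply setLIntegral_mono' hA
          intro a ha
          have h1 : (C3.toNNReal : ℝ≥0∞) = ENNReal.ofReal C3 := rfl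
          rw [h1, ← ENNReal.ofReal_mul hC3pos.le]
          exact ENNReal.ofReal_le_ofReal (hcmp2 a ha)
      _ = (K : ℝ≥0∞) ^ n * (cH n * ((C3.toNNReal : ℝ≥0∞) * ∫⁻ a in A,
            ENNReal.ofReal |detH G x ι a|)) := by
          rw [lintegral_const_mul' _ _ ENNReal.coe_ne_top]
      _ = ((K ^ n * cH n * C3.toNNReal : ℝ≥0) : ℝ≥0∞) * ∫⁻ a in A,
            ENNReal.ofReal |detH G x ι a| := by
          push_cast; ring
      _ ≤ C * ∫⁻ a in A, ENNReal.ofReal |detH G x ι a| := by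
          gcongr
          rw [hCdef]
          exact le_max_left _ _
  · -- restrict to the interior
    obtain ⟨A', hA'⟩ : ∃ A' : Set (EE n), A' = A ∩ {a | ι a ∈ G.I x} := ⟨_, rfl⟩
    have hA'm : MeasurableSet A' := by
      rw [hA']
      refine hA.inter (IsOpen.measurableSet ?_)
      exact (CutTop478.isOpen_I_of_isOpen_IT G hC.isOpen_IT x).preimage ι.continuous
    have hA'A : A' ⊆ A := by rw [hA']; exact inter_subset_left
    have hinj : InjOn f A' := by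
      intro a ha b hb hab
      rw [hA'] at ha hb
      rw [hf] at hab
      have h1 : G.ex x (ι a) = G.ex x (ι b) := hK.injOn (hdomA a ha.1) (hdomA b hb.1) hab
      have h2 : ι a = ι b := (hC.uniq x (ι b) hb.2 (ι a) (hAO a ha.1).1 h1)
      exact ι.injective h2
    have hnull := null_K_diff_I hC x ι
    calc ∫⁻ a in A, ENNReal.ofReal |detH G x ι a|
        ≤ ∫⁻ a in A' ∪ {a | ι a ∈ G.K x ∧ ι a ∉ G.I x}, ENNReal.ofReal |detH G x ι a| := by
          apply lintegral_mono_set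
          intro a ha
          by_cases h : ι a ∈ G.I x
          · left; rw [hA']; exact ⟨ha, h⟩
          · right; exact ⟨(hAO a ha).1, h⟩
      _ ≤ (∫⁻ a in A', ENNReal.ofReal |detH G x ι a|) +
          ∫⁻ a in {a | ι a ∈ G.K x ∧ ι a ∉ G.I x}, ENNReal.ofReal |detH G x ι a| :=
          lintegral_union_le _ _ _
      _ = ∫⁻ a in A', ENNReal.ofReal |detH G x ι a| := by
          rw [setLIntegral_measure_zero _ _ hnull, add_zero]
      _ ≤ ∫⁻ a in A', (C3.toNNReal : ℝ≥0∞) * ENNReal.ofReal |(f' a).det| := by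
          apply setLIntegral_mono' hA'm
          intro a ha
          have h1 : (C3.toNNReal : ℝ≥0∞) = ENNReal.ofReal C3 := rfl
          rw [h1, ← ENNReal.ofReal_mul hC3pos.le]
          exact ENNReal.ofReal_le_ofReal (hcmp1 a (hA'A ha))
      _ = (C3.toNNReal : ℝ≥0∞) * ∫⁻ a in A', ENNReal.ofReal |(f' a).det| := by
          rw [lintegral_const_mul' _ _ ENNReal.coe_ne_top]
      _ = (C3.toNNReal : ℝ≥0∞) * volume (f '' A') := by
          rw [lintegral_abs_det_fderiv_eq_addHaar_image volume hA'm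
            (fun a ha => (hder a (hA'A ha)).hasFDerivWithinAt) hinj]
      _ ≤ (C3.toNNReal : ℝ≥0∞) * volume (f '' A) := by
          gcongr
      _ = (C3.toNNReal : ℝ≥0∞) * (((cH n)⁻¹ : ℝ≥0) * (cH n * volume (f '' A))) := by
          rw [← mul_assoc (((cH n)⁻¹ : ℝ≥0) : ℝ≥0∞), ← ENNReal.coe_mul,
            inv_mul_cancel₀ hcH.ne', ENNReal.coe_one, one_mul]
      _ ≤ (C3.toNNReal : ℝ≥0∞) * (((cH n)⁻¹ : ℝ≥0) * ((K : ℝ≥0∞) ^ n *
            (Measure.hausdorffMeasure (n : ℝ) : Measure M)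
              ((extChartAt (𝓡 n) y₀).symm '' (f '' A)))) := by
          gcongr _ * (_ * ?_)
          exact hK.volume_le hball
      _ = ((C3.toNNReal * (cH n)⁻¹ * K ^ n : ℝ≥0) : ℝ≥0∞) *
            (Measure.hausdorffMeasure (n : ℝ) : Measure M) ((fun a => G.ex x (ι a)) '' A) := by
          rw [← himg]
          push_cast
          ring
      _ ≤ _ := by
          gcongr
          rw [hCdef]
          exact le_max_right _ _

end Crest.Agent.R226.Jac344
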