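/-
R226, E2 block N2 (helper344), part 6: global volume comparison
`vol (ex x '' A) ≍ ∫_A |det Hf|` uniformly in `x`, and `JMonoC` from the pointwise inequality for
`|det Hf|`.
-/
import Crest.Agent.R226.Jac4_344
import Crest.Agent.R226.E1Shape_964

set_option autoImplicit false
set_option linter.unusedSectionVars false

open MeasureTheory Bundle Set Filter
open scoped Manifold ContDiff Bundle ENNReal Topology NNReal
open Crest.GeometryTopology.MTW

namespace Crest.Agent.R226.Jac344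

open Crest.Agent.R226.JacCalc344 Crest.Agent.R226.E1Shape964

variable {n : ℕ} {M : Type*} [MetricSpace M] [ChartedSpace (EuclideanSpace ℝ (Fin n)) M]
  [IsManifold (𝓡 n) ∞ M]
  [RiemannianBundle (fun p : M => TangentSpace (𝓡 n) p)]
  [IsContMDiffRiemannianBundle (𝓡 n) ∞ (EuclideanSpace ℝ (Fin n))
  (fun p : M => TangentSpace (𝓡 n) p)]

/-- isometries from the model space exist. -/
theorem exists_iso (n : ℕ) {M : Type*} [MetricSpace M] [ChartedSpace (EuclideanSpace ℝ (Fin n)) M]
    [IsManifold (𝓡 n) ∞ M] [RiemannianBundle (fun p : M => TangentSpace (𝓡 n) p)] (x : M) :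
    Nonempty (EE n ≃ₗᵢ[ℝ] TangentSpace (𝓡 n) x) := by
  have hfin : Module.finrank ℝ (TangentSpace (𝓡 n) x) = n := by
    have h1 : Module.finrank ℝ (EE n) = n := by simp
    exact h1
  exact ⟨((stdOrthonormalBasis ℝ (TangentSpace (𝓡 n) x)).reindex (finCongr hfin)).repr.symm⟩

/-- **global volume comparison.** -/
theorem vol_global [CompactSpace M] [IsRiemannianManifold (𝓡 n) M] [MeasurableSpace M]
    [BorelSpace M] {G : GeoData n M} (hC : CutFacts G) :
    ∃ C : ℝ≥0, ∀ (x : M) (ι : EE n ≃ₗᵢ[ℝ] TangentSpace (𝓡 n) x) (A : Set (EE n)),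
        MeasurableSet A → (∀ a ∈ A, ι a ∈ G.K x) →
        (Measure.hausdorffMeasure (n : ℝ) : Measure M) ((fun a => G.ex x (ι a)) '' A) ≤
            C * ∫⁻ a in A, ENNReal.ofReal |detH G x ι a| ∧
        ∫⁻ a in A, ENNReal.ofReal |detH G x ι a| ≤
          C * (Measure.hausdorffMeasure (n : ℝ) : Measure M) ((fun a => G.ex x (ι a)) '' A) := by
  have key : ∃ O : Set (TangentBundle (𝓡 n) M), IsOpen O ∧ G.KT ⊆ O ∧ ∃ C : ℝ≥0,
      ∀ (x : M) (ι : EE n ≃ₗᵢ[ℝ] TangentSpace (𝓡 n) x) (A : Set (EE n)),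
        MeasurableSet A → (∀ a ∈ A, ι a ∈ G.K x ∧ (⟨x, ι a⟩ : TangentBundle (𝓡 n) M) ∈ O) →
        (Measure.hausdorffMeasure (n : ℝ) : Measure M) ((fun a => G.ex x (ι a)) '' A) ≤
            C * ∫⁻ a in A, ENNReal.ofReal |detH G x ι a| ∧
        ∫⁻ a in A, ENNReal.ofReal |detH G x ι a| ≤
          C * (Measure.hausdorffMeasure (n : ℝ) : Measure M) ((fun a => G.ex x (ι a)) '' A) := by
    refine hC.isCompact_KT.induction_on (p := fun S => ∃ O : Set (TangentBundle (𝓡 n) M), IsOpen O ∧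
      S ⊆ O ∧ ∃ C : ℝ≥0,
      ∀ (x : M) (ι : EE n ≃ₗᵢ[ℝ] TangentSpace (𝓡 n) x) (A : Set (EE n)),
        MeasurableSet A → (∀ a ∈ A, ι a ∈ G.K x ∧ (⟨x, ι a⟩ : TangentBundle (𝓡 n) M) ∈ O) →
        (Measure.hausdorffMeasure (n : ℝ) : Measure M) ((fun a => G.ex x (ι a)) '' A) ≤
            C * ∫⁻ a in A, ENNReal.ofReal |detH G x ι a| ∧
        ∫⁻ a in A, ENNReal.ofReal |detH G x ι a| ≤
          C * (Measure.hausdorffMeasure (n : ℝ) : Measure M) ((fun a => G.ex x (ι a)) '' A))
      ?_ ?_ ?_ ?_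
    · refine ⟨∅, isOpen_empty, Subset.rfl, 0, fun x ι A hA hAO => ?_⟩
      have : A = ∅ := eq_empty_of_forall_notMem fun a ha => (hAO a ha).2
      subst this
      simp
    · rintro s t hst ⟨O, hO, htO, C, h⟩
      exact ⟨O, hO, hst.trans htO, C, h⟩
    · rintro s t ⟨O, hO, hsO, C, h⟩ ⟨O', hO', htO', C', h'⟩
      refine ⟨O ∪ O', hO.union hO', union_subset_union hsO htO', C + C',
        fun x ι A hA hAO => ?_⟩
      obtain ⟨B, hB⟩ : ∃ B : Set (EE n), B = {a | (⟨x, ι a⟩ : TangentBundle (𝓡 n) M) ∈ O} :=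
        ⟨_, rfl⟩
      have hBm : MeasurableSet B := by
        rw [hB]
        have hcont : Continuous fun a : EE n => (⟨x, ι a⟩ : TangentBundle (𝓡 n) M) :=
          (CutTop478.continuous_mk (n := n) x).comp ι.continuous
        exact (hO.preimage hcont).measurableSet
      have h1 := h x ι (A ∩ B) (hA.inter hBm) (by
        rintro a ⟨ha, haB⟩
        rw [hB] at haB
        exact ⟨(hAO a ha).1, haB⟩)
      have h2 := h' x ι (A \ B) (hA.diff hBm) (by
        rintro a ⟨ha, haB⟩
        rw [hB] at haB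
        refine ⟨(hAO a ha).1, ?_⟩
        rcases (hAO a ha).2 with h3 | h3
        · exact absurd h3 haB
        · exact h3)
      have hsplit : ∫⁻ a in A, ENNReal.ofReal |detH G x ι a| =
          (∫⁻ a in A ∩ B, ENNReal.ofReal |detH G x ι a|) +
            ∫⁻ a in A \ B, ENNReal.ofReal |detH G x ι a| :=
        (lintegral_inter_add_sdiff _ A hBm).symm
      have himg : (fun a => G.ex x (ι a)) '' A =
          (fun a => G.ex x (ι a)) '' (A ∩ B) ∪ (fun a => G.ex x (ι a)) '' (A \ B) := by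
        rw [← image_union, inter_union_sdiff]
      constructor
      · rw [himg, hsplit]
        refine (measure_union_le _ _).trans ?_
        rw [ENNReal.coe_add, mul_add]
        apply add_le_add
        · refine h1.1.trans ?_
          gcongr
          exact le_self_add
        · refine h2.1.trans ?_
          gcongr
          exact le_add_self
      · rw [hsplit]
        have e1 : (Measure.hausdorffMeasure (n : ℝ) : Measure M)
            ((fun a => G.ex x (ι a)) '' (A ∩ B)) ≤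
            (Measure.hausdorffMeasure (n : ℝ) : Measure M) ((fun a => G.ex x (ι a)) '' A) :=
          measure_mono (image_mono inter_subset_left)
        have e2 : (Measure.hausdorffMeasure (n : ℝ) : Measure M)
            ((fun a => G.ex x (ι a)) '' (A \ B)) ≤
            (Measure.hausdorffMeasure (n : ℝ) : Measure M) ((fun a => G.ex x (ι a)) '' A) :=
          measure_mono (image_mono sdiff_subset)
        rw [ENNReal.coe_add, add_mul]
        apply add_le_add
        · refine h1.2.trans ?_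
          gcongr
        · refine h2.2.trans ?_
          gcongr
    · intro q hq
      obtain ⟨O, hO, hqO, C, h⟩ := vol_local hC q.1 q.2 hq
      exact ⟨O, mem_nhdsWithin_of_mem_nhds (hO.mem_nhds hqO), O, hO, Subset.rfl, C, h⟩
  obtain ⟨O, -, hKO, C, h⟩ := key
  exact ⟨C, fun x ι A hA hAK => h x ι A hA fun a ha => ⟨hAK a ha, hKO (hAK a ha)⟩⟩

/-- pointwise monotonicity of the Jacobian determinant (pointwise (W')). -/
def DetMono (G : GeoData n M) (c : ℝ) : Prop :=
  ∀ (x : M) (ι : EE n ≃ₗᵢ[ℝ] TangentSpace (𝓡 n) x) (a b : EE n), ι a ∈ G.K x → ι b ∈ G.K x →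
    ∀ t : ℝ, 0 ≤ t → t ≤ 1 / 2 → c * |detH G x ι a| ≤ |detH G x ι ((1 - t) • a + t • b)|

/-- **(W') in volume form from the pointwise inequality.** -/
theorem jmonoC_of_detMono [CompactSpace M] [IsRiemannianManifold (𝓡 n) M] [MeasurableSpace M]
    [BorelSpace M] {G : GeoData n M} (hC : CutFacts G) (hconv : ∀ x, Convex ℝ (G.K x))
    {c : ℝ} (hc : 0 < c) (h : DetMono G c) :
    ∃ cW : ℝ, 0 < cW ∧ JMonoC G (Measure.hausdorffMeasure (n : ℝ) : Measure M) cW := by
  obtain ⟨C, hvol⟩ := vol_global hC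
  obtain ⟨R, hR⟩ : ∃ R : ℝ, R = (C + 1) * ((1 / c) * (2 ^ n * (C + 1))) := ⟨_, rfl⟩
  have hRpos : 0 < R := by rw [hR]; positivity
  refine ⟨1 / R, by positivity, ?_⟩
  intro x A hAK hAc p1 hp1 t ht0 ht1
  obtain ⟨ι⟩ := exists_iso n x
  obtain ⟨A0, hA0⟩ : ∃ A0 : Set (EE n), A0 = ι ⁻¹' A := ⟨_, rfl⟩
  have hA0c : IsCompact A0 := by
    rw [hA0]
    exact ι.toHomeomorph.isClosedEmbedding.isCompact_preimage hAc
  have hA0m : MeasurableSet A0 := hA0c.isClosed.measurableSet
  obtain ⟨b, hb⟩ : ∃ b : EE n, ι b = p1 := ⟨ι.symm p1, by simp⟩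
  obtain ⟨φ, hφ⟩ : ∃ φ : EE n → EE n, φ = fun a => (1 - t) • a + t • b := ⟨_, rfl⟩
  have hφK : ∀ a ∈ A0, ι (φ a) ∈ G.K x := by
    intro a ha
    rw [hA0] at ha
    rw [hφ]
    simp only [map_add, map_smul, hb]
    exact hconv x (hAK ha) hp1 (by linarith) ht0 (by ring)
  have hAimg : G.ex x '' A = (fun a => G.ex x (ι a)) '' A0 := by
    rw [hA0]
    ext y
    constructor
    · rintro ⟨p, hp, rfl⟩
      refine ⟨ι.symm p, ?_, ?_⟩
      · change ι (ι.symm p) ∈ A
        simpa using hp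
      · simp
    · rintro ⟨a, ha, rfl⟩
      exact ⟨ι a, ha, rfl⟩
  have hAtimg : G.ex x '' ((fun p => (1 - t) • p + t • p1) '' A) =
      (fun a => G.ex x (ι a)) '' (φ '' A0) := by
    rw [hA0, hφ]
    ext y
    constructor
    · rintro ⟨_, ⟨p, hp, rfl⟩, rfl⟩
      refine ⟨_, ⟨ι.symm p, ?_, rfl⟩, ?_⟩
      · change ι (ι.symm p) ∈ A
        simpa using hp
      · simp [hb]
    · rintro ⟨_, ⟨a, ha, rfl⟩, rfl⟩
      refine ⟨_, ⟨ι a, ha, rfl⟩, ?_⟩
      simp [hb]
  have hφm : MeasurableSet (φ '' A0) := by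
    have : Continuous φ := by rw [hφ]; fun_prop
    exact (hA0c.image this).isClosed.measurableSet
  have h1 := (hvol x ι A0 hA0m (fun a ha => hAK (by rw [hA0] at ha; exact ha))).1
  have h2 := (hvol x ι (φ '' A0) hφm (by rintro _ ⟨a, ha, rfl⟩; exact hφK a ha)).2
  -- change of variables
  have hder : ∀ a ∈ A0, HasFDerivWithinAt φ ((1 - t) • ContinuousLinearMap.id ℝ (EE n)) A0 a := by
    intro a _
    rw [hφ]
    have e1 : HasFDerivAt (fun a : EE n => (1 - t) • a) ((1 - t) • ContinuousLinearMap.id ℝ (EE n)) a :=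
      ((1 - t) • ContinuousLinearMap.id ℝ (EE n)).hasFDerivAt
    exact (e1.add_const _).hasFDerivWithinAt
  have hinj : InjOn φ A0 := by
    intro a _ a' _ haa
    rw [hφ] at haa
    have h3 : (1 - t) • a = (1 - t) • a' := by simpa using haa
    exact smul_right_injective _ (by linarith : (1 - t) ≠ 0) h3
  have hdet : ((1 - t) • ContinuousLinearMap.id ℝ (EE n)).det = (1 - t) ^ n := by
    have := LinearMap.det_smul (1 - t) (LinearMap.id : EE n →ₗ[ℝ] EE n)
    rw [LinearMap.det_id, mul_one] at this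
    simp only [finrank_euclideanSpace, Fintype.card_fin] at this
    exact this
  have hcv := lintegral_image_eq_lintegral_abs_det_fderiv_mul (volume : Measure (EE n)) hA0m hder
    hinj (fun a => ENNReal.ofReal |detH G x ι a|)
  rw [hdet] at hcv
  have ht2 : (1 / 2 : ℝ) ^ n ≤ |(1 - t) ^ n| := by
    rw [abs_of_nonneg (by have : 0 ≤ 1 - t := by linarith
                          positivity)]
    exact pow_le_pow_left₀ (by norm_num) (by linarith) n
  have h4 : ∫⁻ a in A0, ENNReal.ofReal |detH G x ι a| ≤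
      ENNReal.ofReal ((1 / c) * 2 ^ n) * ∫⁻ a in φ '' A0, ENNReal.ofReal |detH G x ι a| := by
    rw [hcv, ← lintegral_const_mul' _ _ ENNReal.ofReal_ne_top]
    apply setLIntegral_mono' hA0m
    intro a ha
    rw [← ENNReal.ofReal_mul (abs_nonneg _), ← ENNReal.ofReal_mul (by positivity)]
    apply ENNReal.ofReal_le_ofReal
    have h5 : c * |detH G x ι a| ≤ |detH G x ι (φ a)| := by
      rw [hφ]
      rw [hA0] at ha
      exact h x ι a b (hAK ha) (by rw [hb]; exact hp1) t ht0 ht1
    calc |detH G x ι a| = (1 / c) * 2 ^ n * ((1 / 2 : ℝ) ^ n * (c * |detH G x ι a|)) := by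
          rw [one_div_pow]; field_simp
      _ ≤ (1 / c) * 2 ^ n * (|(1 - t) ^ n| * |detH G x ι (φ a)|) := by gcongr
  have h6 : (Measure.hausdorffMeasure (n : ℝ) : Measure M) (G.ex x '' A) ≤
      ENNReal.ofReal R * (Measure.hausdorffMeasure (n : ℝ) : Measure M)
        (G.ex x '' ((fun p => (1 - t) • p + t • p1) '' A)) := by
    rw [hAimg, hAtimg]
    calc _ ≤ (C : ℝ≥0∞) * ∫⁻ a in A0, ENNReal.ofReal |detH G x ι a| := h1
      _ ≤ C * (ENNReal.ofReal ((1 / c) * 2 ^ n) *
            ∫⁻ a in φ '' A0, ENNReal.ofReal |detH G x ι a|) := by gcongr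
      _ ≤ C * (ENNReal.ofReal ((1 / c) * 2 ^ n) *
            (C * (Measure.hausdorffMeasure (n : ℝ) : Measure M)
              ((fun a => G.ex x (ι a)) '' (φ '' A0)))) := by gcongr
      _ = (C * (ENNReal.ofReal ((1 / c) * 2 ^ n) * C)) *
            (Measure.hausdorffMeasure (n : ℝ) : Measure M)
              ((fun a => G.ex x (ι a)) '' (φ '' A0)) := by ring
      _ ≤ ENNReal.ofReal R * (Measure.hausdorffMeasure (n : ℝ) : Measure M)
              ((fun a => G.ex x (ι a)) '' (φ '' A0)) := by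
          gcongr
          have hCr : (C : ℝ≥0∞) = ENNReal.ofReal C := by
            rw [ENNReal.ofReal_coe_nnreal]
          rw [hCr, ← ENNReal.ofReal_mul (by positivity), ← ENNReal.ofReal_mul (by positivity)]
          apply ENNReal.ofReal_le_ofReal
          rw [hR]
          have hC0 : (0:ℝ) ≤ C := C.2
          calc (C : ℝ) * (1 / c * 2 ^ n * C) = C * (1 / c * (2 ^ n * C)) := by ring
            _ ≤ (C + 1) * (1 / c * (2 ^ n * (C + 1))) := by gcongr <;> linarith
  calc ENNReal.ofReal (1 / R) * (Measure.hausdorffMeasure (n : ℝ) : Measure M) (G.ex x '' A)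
      ≤ ENNReal.ofReal (1 / R) * (ENNReal.ofReal R *
          (Measure.hausdorffMeasure (n : ℝ) : Measure M)
          (G.ex x '' ((fun p => (1 - t) • p + t • p1) '' A))) := by gcongr
    _ = _ := by
        rw [← mul_assoc, ← ENNReal.ofReal_mul (by positivity), one_div_mul_cancel hRpos.ne',
          ENNReal.ofReal_one, one_mul]

end Crest.Agent.R226.Jac344
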