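/-
R226, E2 block N2 (helper344), part 7: the Jacobian determinant as a function on `T_xM`
(independent of the orthonormal frame), the area formula on `T_xM` in the shape used by
`WOff915.WArea`, and determinant domination from min-max domination of `Hf`.
-/
import Crest.Agent.R226.Jac5_344
import Crest.Agent.R226.DomLin_344
import Crest.Agent.R226.NF1_946

set_option autoImplicit false
set_option linter.unusedSectionVars false

open MeasureTheory Bundle Set Filter
open scoped Manifold ContDiff Bundle ENNReal Topology NNReal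
open Crest.GeometryTopology.MTW

namespace Crest.Agent.R226.Jac344

open Crest.Agent.R226.JacCalc344 Crest.Agent.R226.E1Shape964 Crest.Agent.R226.DomLin344
open Crest.Agent.R226.Base347

variable {n : ℕ} {M : Type*} [MetricSpace M] [ChartedSpace (EuclideanSpace ℝ (Fin n)) M]
  [IsManifold (𝓡 n) ∞ M]
  [RiemannianBundle (fun p : M => TangentSpace (𝓡 n) p)]
  [IsContMDiffRiemannianBundle (𝓡 n) ∞ (EuclideanSpace ℝ (Fin n))
  (fun p : M => TangentSpace (𝓡 n) p)]

theorem Hf_eq_NF (G : GeoData n M) : Hf G = NF946.Hf G := rfl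

/-- `|det Hf|`, computed in any orthonormal frame. -/
noncomputable def jd (G : GeoData n M) (x : M) (p : TangentSpace (𝓡 n) x) : ℝ :=
  |detB ((Hf G x p).bilinearComp (iL (exists_iso n x).some) (iL (exists_iso n x).some))|

theorem jd_nonneg (G : GeoData n M) (x : M) (p : TangentSpace (𝓡 n) x) : 0 ≤ jd G x p :=
  abs_nonneg _

theorem abs_det_isometry (L : EE n ≃ₗᵢ[ℝ] EE n) :
    |((L.toContinuousLinearEquiv : EE n →L[ℝ] EE n)).det| = 1 := by
  apply le_antisymm
  · have := abs_det_le (L.toContinuousLinearEquiv : EE n →L[ℝ] EE n) (C := 1) zero_le_one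
      (fun v => by rw [one_mul]; exact (L.norm_map v).le)
    simpa using this
  · have := le_abs_det (L.toContinuousLinearEquiv : EE n →L[ℝ] EE n) (C := 1) one_pos
      (fun v => by rw [one_mul]; exact (L.norm_map v).ge)
    simpa using this

/-- frame independence. -/
theorem abs_detB_frame {x : M} (B : TangentSpace (𝓡 n) x →L[ℝ] TangentSpace (𝓡 n) x →L[ℝ] ℝ)
    (ι ι' : EE n ≃ₗᵢ[ℝ] TangentSpace (𝓡 n) x) :
    |detB (B.bilinearComp (iL ι') (iL ι'))| = |detB (B.bilinearComp (iL ι) (iL ι))| := by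
  have h := detB_congr (B.bilinearComp (iL ι) (iL ι)) (B.bilinearComp (iL ι') (iL ι'))
    ((ι'.trans ι.symm).toContinuousLinearEquiv : EE n →L[ℝ] EE n) (by
      intro v w
      simp only [ContinuousLinearMap.bilinearComp_apply, iL_apply]
      have e : ∀ v : EE n, ι (((ι'.trans ι.symm).toContinuousLinearEquiv : EE n →L[ℝ] EE n) v) =
          ι' v := by
        intro v
        change ι (ι.symm (ι' v)) = ι' v
        simp
      rw [e, e])
  rw [h, abs_mul, abs_pow, abs_det_isometry]
  ring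

theorem jd_eq (G : GeoData n M) (x : M) (ι : EE n ≃ₗᵢ[ℝ] TangentSpace (𝓡 n) x) (a : EE n) :
    jd G x (ι a) = |detH G x ι a| := by
  unfold jd detH
  exact abs_detB_frame _ _ _

theorem jd_eq' (G : GeoData n M) (x : M) (ι : EE n ≃ₗᵢ[ℝ] TangentSpace (𝓡 n) x)
    (p : TangentSpace (𝓡 n) x) : jd G x p = |detH G x ι (ι.symm p)| := by
  rw [← jd_eq, ι.apply_symm_apply]

/-- **min-max domination of `Hf` implies domination of the Jacobians.** -/
theorem jd_le_of_dom {G : GeoData n M} (hC : CutFacts G) {x : M}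
    {p q : TangentSpace (𝓡 n) x} (hp : p ∈ G.K x) (hq : q ∈ G.K x) {C : ℝ} (hC0 : 0 ≤ C)
    (h : Dom (Hf G x p) (Hf G x q) C) : jd G x q ≤ C ^ n * jd G x p := by
  obtain ⟨ι, hι⟩ : ∃ ι : EE n ≃ₗᵢ[ℝ] TangentSpace (𝓡 n) x, ι = (exists_iso n x).some := ⟨_, rfl⟩
  unfold jd
  rw [← hι]
  have hB := hC.base347
  apply abs_detB_le_of_dom
  · intro v w
    exact NF946.Hf_symm hB hp (ι v) (ι w)
  · intro v w
    exact NF946.Hf_symm hB hq (ι v) (ι w)
  · intro v
    exact NF946.Hf_nonneg hB hp (ι v)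
  · intro v
    exact NF946.Hf_nonneg hB hq (ι v)
  · exact hC0
  · intro ρ hρ V hV
    obtain ⟨W, hW1, hW2⟩ := h ρ hρ (V.map (ι.toLinearEquiv : EE n →ₗ[ℝ] TangentSpace (𝓡 n) x)) (by
      rintro _ ⟨v, hv, rfl⟩
      have h1 := hV v hv
      have h2 : ‖(ι.toLinearEquiv : EE n →ₗ[ℝ] TangentSpace (𝓡 n) x) v‖ = ‖v‖ := ι.norm_map v
      rw [h2]
      exact h1)
    refine ⟨W.comap (ι.toLinearEquiv : EE n →ₗ[ℝ] TangentSpace (𝓡 n) x), ?_, ?_⟩
    · have e1 : Module.finrank ℝ (V.map (ι.toLinearEquiv : EE n →ₗ[ℝ] TangentSpace (𝓡 n) x)) =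
          Module.finrank ℝ V := LinearEquiv.finrank_map_eq ι.toLinearEquiv V
      have e2 : Module.finrank ℝ (W.comap (ι.toLinearEquiv : EE n →ₗ[ℝ] TangentSpace (𝓡 n) x)) =
          Module.finrank ℝ W := by
        have h3 : W.comap (ι.toLinearEquiv : EE n →ₗ[ℝ] TangentSpace (𝓡 n) x) =
            W.map (ι.toLinearEquiv.symm : TangentSpace (𝓡 n) x →ₗ[ℝ] EE n) :=
          Submodule.comap_equiv_eq_map_symm ι.toLinearEquiv W
        rw [h3]
        exact LinearEquiv.finrank_map_eq ι.toLinearEquiv.symm W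
      rw [e2, ← e1]
      exact hW1
    · intro w hw
      have h1 := hW2 (ι w) hw
      rw [ι.norm_map] at h1
      exact h1

theorem continuousOn_detH {G : GeoData n M} (hC : CutFacts G) (x : M)
    (ι : EE n ≃ₗᵢ[ℝ] TangentSpace (𝓡 n) x) :
    ContinuousOn (fun a => detH G x ι a) {a | ι a ∈ G.K x} := by
  intro a ha
  have h1 : ContinuousAt (fun q => Hf G x q) (ι a) := (NF946.contDiffAt_Hf hC.base347 ha).continuousAt
  have h2 : ContinuousAt (fun b => Hf G x (ι b)) a :=
    ContinuousAt.comp (f := fun b => ι b) (g := fun q => Hf G x q) h1 ι.continuous.continuousAt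
  have h3 : Continuous (fun B : TangentSpace (𝓡 n) x →L[ℝ] TangentSpace (𝓡 n) x →L[ℝ] ℝ =>
      B.bilinearComp (iL ι) (iL ι)) := continuous_bilinearComp (iL ι) (iL ι)
  have h4 : ContinuousAt (fun b => detB ((Hf G x (ι b)).bilinearComp (iL ι) (iL ι))) a :=
    ContinuousAt.comp (f := fun b => Hf G x (ι b)) (g := fun B : TangentSpace (𝓡 n) x →L[ℝ]
      TangentSpace (𝓡 n) x →L[ℝ] ℝ => detB (B.bilinearComp (iL ι) (iL ι)))
      (continuous_detB.comp h3).continuousAt h2
  exact h4.continuousWithinAt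

/-- **area formula on `T_xM`**, uniform constant, all base points. -/
theorem exists_area [CompactSpace M] [IsRiemannianManifold (𝓡 n) M] [MeasurableSpace M]
    [BorelSpace M] {G : GeoData n M} (hC : CutFacts G) :
    ∃ C : ℝ, 0 < C ∧ ∀ x : M, ∃ (_ : MeasurableSpace (TangentSpace (𝓡 n) x))
      (_ : BorelSpace (TangentSpace (𝓡 n) x)) (μ : Measure (TangentSpace (𝓡 n) x))
      (_ : μ.IsAddHaarMeasure) (J : TangentSpace (𝓡 n) x → ℝ≥0∞), Measurable J ∧
      (∀ p ∈ G.K x, J p = ENNReal.ofReal (jd G x p)) ∧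
      (∀ A ⊆ G.K x, IsCompact A → (Measure.hausdorffMeasure (n : ℝ) : Measure M) (G.ex x '' A) ≤
        ENNReal.ofReal C * ∫⁻ p in A, J p ∂μ) ∧
      (∀ A ⊆ G.K x, IsCompact A → ∫⁻ p in A, J p ∂μ ≤
        ENNReal.ofReal C * (Measure.hausdorffMeasure (n : ℝ) : Measure M) (G.ex x '' A)) := by
  classical
  obtain ⟨C, hvol⟩ := vol_global hC
  refine ⟨C + 1, by positivity, fun x => ?_⟩
  obtain ⟨ι⟩ := exists_iso n x
  let ms : MeasurableSpace (TangentSpace (𝓡 n) x) := borel _
  have bs : BorelSpace (TangentSpace (𝓡 n) x) := ⟨rfl⟩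
  have hιm : MeasurableEmbedding (fun a => ι a) := ι.toHomeomorph.measurableEmbedding
  obtain ⟨J, hJ⟩ : ∃ J : TangentSpace (𝓡 n) x → ℝ≥0∞,
      J = (G.K x).indicator (fun p => ENNReal.ofReal (jd G x p)) := ⟨_, rfl⟩
  have hJK : ∀ p ∈ G.K x, J p = ENNReal.ofReal (jd G x p) := fun p hp => by
    rw [hJ, indicator_of_mem hp]
  have hKm : MeasurableSet (G.K x) := (CutTop478.isClosed_K G x).measurableSet
  refine ⟨ms, bs, Measure.map (fun a => ι a) volume, ?_, J, ?_, hJK, ?_, ?_⟩
  · exact (ι.toContinuousLinearEquiv).isAddHaarMeasure_map (volume : Measure (EE n))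
  · have hcont : ContinuousOn (fun p => ENNReal.ofReal (jd G x p)) (G.K x) := by
      have h1 := continuousOn_detH hC x ι
      have h2 : ContinuousOn (fun p => detH G x ι (ι.symm p)) (G.K x) := by
        refine ContinuousOn.comp (g := fun a => detH G x ι a) (f := fun p => ι.symm p) h1
          ι.symm.continuous.continuousOn ?_
        intro p hp
        change ι (ι.symm p) ∈ G.K x
        rwa [ι.apply_symm_apply]
      have h3 : (fun p => ENNReal.ofReal (jd G x p)) =
          fun p => ENNReal.ofReal |detH G x ι (ι.symm p)| := by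
        funext p
        rw [jd_eq' G x ι]
      rw [h3]
      exact ENNReal.continuous_ofReal.comp_continuousOn h2.abs
    rw [hJ]
    have := hcont.measurable_piecewise (g := fun _ => 0) continuousOn_const hKm
    convert this using 1
    ext p
    simp [Set.indicator, Set.piecewise]
  all_goals
    intro A hAK hAc
    have hA0 : MeasurableSet ((fun a => ι a) ⁻¹' A) := hιm.measurable hAc.isClosed.measurableSet
    have himg : G.ex x '' A = (fun a => G.ex x (ι a)) '' ((fun a => ι a) ⁻¹' A) := by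
      ext y
      constructor
      · rintro ⟨p, hp, rfl⟩
        refine ⟨ι.symm p, ?_, ?_⟩
        · change ι (ι.symm p) ∈ A
          simpa using hp
        · simp
      · rintro ⟨a, ha, rfl⟩
        exact ⟨ι a, ha, rfl⟩
    have hint : ∫⁻ p in A, J p ∂(Measure.map (fun a => ι a) volume) =
        ∫⁻ a in (fun a => ι a) ⁻¹' A, ENNReal.ofReal |detH G x ι a| := by
      rw [hιm.restrict_map, hιm.lintegral_map]
      apply setLIntegral_congr_fun hA0
      intro a ha
      simp only
      rw [hJK (ι a) (hAK ha), jd_eq]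
    have hCC : (C : ℝ≥0∞) ≤ ENNReal.ofReal ((C : ℝ) + 1) := by
      rw [← ENNReal.ofReal_coe_nnreal]
      exact ENNReal.ofReal_le_ofReal (by linarith)
    rw [hint, himg]
  · refine (hvol x ι _ hA0 (fun a ha => hAK ha)).1.trans ?_
    gcongr
  · refine (hvol x ι _ hA0 (fun a ha => hAK ha)).2.trans ?_
    gcongr

end Crest.Agent.R226.Jac344
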