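/-
R226 / E2-NF (helper946): part 2, the formula
`phi x ξ p = 2 phi x ξ (p/2) - Hf(p)(v, v)`, `Hf(p) v = ξ`, for `p ∈ I`.
-/
import Crest.Agent.R226.NF1_946

set_option autoImplicit false

open MeasureTheory Bundle Set Filter
open scoped Manifold ContDiff Bundle ENNReal Topology
open Crest.GeometryTopology.MTW
open Crest.Agent.R226.Calc347 Crest.Agent.R226.MTWConc117 Crest.Agent.R226.Base347
open Crest.Agent.R226.Crit347 Crest.Agent.R226.Focal347

namespace Crest.Agent.R226.NF946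

section abs
variable {E : Type*} [NormedAddCommGroup E] [InnerProductSpace ℝ E]

/-- second derivative of the value function of the two-step problem, from a smooth minimiser -/
theorem value_second [FiniteDimensional ℝ E] {F : E × E → ℝ} {V : E → ℝ} {z p : E}
    (h1 : ContDiffAt ℝ ∞ F (0, z)) (h2 : ContDiffAt ℝ ∞ F (z, p))
    (hpos : ∀ h : E, h ≠ 0 → 0 < hess F (0, z) (0, h) (0, h) + hess F (z, p) (h, 0) (h, 0))
    {ζ : E → E} (hζ : Tendsto ζ (𝓝 0) (𝓝 z))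
    (hV : ∀ᶠ ξ in 𝓝 0, V ξ = 2 * F (ξ, ζ ξ) + 2 * F (ζ ξ, p))
    (hle : ∀ᶠ ξ in 𝓝 0, ∀ w, V ξ ≤ 2 * F (ξ, w) + 2 * F (w, p)) (ξ : E) :
    ∃ om : E, Sec (fun s : ℝ => V (s • ξ))
      (2 * hess F (0, z) (ξ, om) (ξ, om) + 2 * hess F (z, p) (om, 0) (om, 0)) := by
  have : CompleteSpace E := FiniteDimensional.complete ℝ E
  let L₂ : E × E →L[ℝ] E × E := (ContinuousLinearMap.inl ℝ E E) ∘L (ContinuousLinearMap.snd ℝ E E)
  have hL₂ : ∀ q : E × E, L₂ q + (0, p) = (q.2, p) := by intro q; simp [L₂]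
  set g : E × E → ℝ := fun q => 2 * F q + 2 * F (L₂ q + (0, p)) with hg
  have hgq : ∀ ξ w : E, g (ξ, w) = 2 * F (ξ, w) + 2 * F (w, p) := by
    intro ξ w; simp only [hg, hL₂]
  have h2' : ContDiffAt ℝ ∞ F (L₂ (0, z) + (0, p)) := by rw [hL₂]; exact h2
  have hg2 : ContDiffAt ℝ ∞ (fun q => F (L₂ q + (0, p))) (0, z) :=
    ContDiffAt.comp _ (f := fun q => L₂ q + (0, p)) h2' (by fun_prop)
  have hg1' : ContDiffAt ℝ ∞ (fun q => 2 * F q) (0, z) := contDiffAt_const.mul h1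
  have hg2' : ContDiffAt ℝ ∞ (fun q => 2 * F (L₂ q + (0, p))) (0, z) := contDiffAt_const.mul hg2
  have hgs : ContDiffAt ℝ ∞ g (0, z) := hg1'.add hg2'
  have hD : ∀ u v : E × E, hess g (0, z) u v =
      2 * hess F (0, z) u v + 2 * hess F (z, p) (u.2, 0) (v.2, 0) := by
    intro u v
    have e1 := hess_add' (f := fun q => 2 * F q) (g := fun q => 2 * F (L₂ q + (0, p)))
      (hg1'.of_le two_le_infty) (hg2'.of_le two_le_infty) u v
    have e3 := hess_const_mul' (h1.of_le two_le_infty) 2 u v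
    have e4 := hess_const_mul' (hg2.of_le two_le_infty) 2 u v
    have e6 := hess_comp_affine' L₂ (0, p) (h2'.of_le two_le_infty) u v
    rw [hL₂] at e6
    rw [hg, e1, e3, e4, e6]
    simp [L₂]
  have hgmin : ∀ᶠ ξ in 𝓝 (0 : E), IsLocalMin (fun w => g (ξ, w)) (ζ ξ) := by
    filter_upwards [hV, hle] with ξ h3 h4
    refine Filter.Eventually.of_forall fun w => ?_
    show g (ξ, ζ ξ) ≤ g (ξ, w)
    rw [hgq, hgq, ← h3]
    exact h4 w
  have hζ0 : ζ 0 = z := eq_of_tendsto_nhds hζ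
  have hgdiff : DifferentiableAt ℝ g (0, z) := hgs.differentiableAt (by simp)
  have hfirst : fderiv ℝ g (0, z) ∘L ContinuousLinearMap.inr ℝ E E = 0 := by
    have h5 : HasFDerivAt (fun w : E => g (0, w))
        (fderiv ℝ g (0, z) ∘L ContinuousLinearMap.inr ℝ E E) z :=
      hgdiff.hasFDerivAt.comp z (hasFDerivAt_prodMk_right _ _)
    have h6 := hgmin.self_of_nhds
    rw [hζ0] at h6
    exact h6.hasFDerivAt_eq_zero h5
  have hζs : ContDiffAt ℝ ∞ ζ 0 := by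
    refine contDiffAt_minimiser hgs ?_ hζ hfirst hgmin
    intro h hh
    have h7 := hD (0, h) (0, h)
    have h8 := hpos h hh
    show 0 < hess g (0, z) (0, h) (0, h)
    rw [h7]; linarith
  have hline : HasDerivAt (fun s : ℝ => s • ξ) ξ 0 := by
    simpa using (hasDerivAt_id (0 : ℝ)).smul_const ξ
  have hζc : ContDiffAt ℝ 2 (fun s : ℝ => ζ (s • ξ)) 0 := by
    have h9 : ContDiffAt ℝ 2 ζ ((0 : ℝ) • ξ) := by rw [zero_smul]; exact hζs.of_le two_le_infty
    exact ContDiffAt.comp (0 : ℝ) h9 (by fun_prop)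
  set γ : ℝ → E × E := fun s => (s • ξ, ζ (s • ξ)) with hγ
  have hγc : ContDiffAt ℝ 2 γ 0 := by
    have h9 : ContDiffAt ℝ 2 (fun s : ℝ => s • ξ) 0 := by fun_prop
    exact h9.prodMk hζc
  have hγ0 : γ 0 = (0, z) := by simp [hγ, hζ0]
  have hS := Sec.comp_curve (hgs.of_le two_le_infty) hγc hγ0
  -- the first and second derivatives of `γ`
  have hd1 : ∀ᶠ s in 𝓝 (0 : ℝ), HasDerivAt γ (ξ, deriv (fun s : ℝ => ζ (s • ξ)) s) s := by
    have h10 : ∀ᶠ s in 𝓝 (0 : ℝ), ContDiffAt ℝ 2 (fun s : ℝ => ζ (s • ξ)) s :=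
      hζc.eventually (by simp)
    filter_upwards [h10] with s hs
    have h11 : HasDerivAt (fun s : ℝ => s • ξ) ξ s := by
      simpa using (hasDerivAt_id s).smul_const ξ
    exact h11.prodMk (hs.differentiableAt (by norm_num)).hasDerivAt
  have hdγ : deriv γ =ᶠ[𝓝 0] fun s => (ξ, deriv (fun s : ℝ => ζ (s • ξ)) s) := by
    filter_upwards [hd1] with s hs using hs.deriv
  have hdd : DifferentiableAt ℝ (deriv (fun s : ℝ => ζ (s • ξ))) 0 := by
    have h4 : ContDiffAt ℝ 1 (fderiv ℝ (fun s : ℝ => ζ (s • ξ))) 0 :=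
      hζc.fderiv_right (by norm_num)
    exact (h4.differentiableAt (by norm_num)).clm_apply (differentiableAt_const (1 : ℝ))
  have hddγ : deriv (deriv γ) 0 = (0, deriv (deriv (fun s : ℝ => ζ (s • ξ))) 0) := by
    rw [hdγ.deriv_eq]
    exact ((hasDerivAt_const (0 : ℝ) ξ).prodMk hdd.hasDerivAt).deriv
  have hzero : ∀ v : E, fderiv ℝ g (0, z) (0, v) = 0 := by
    intro v
    have := congrArg (fun L : E →L[ℝ] ℝ => L v) hfirst
    simpa using this
  rw [hddγ, hzero, add_zero, hdγ.self_of_nhds, hD] at hS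
  refine ⟨deriv (fun s : ℝ => ζ (s • ξ)) 0, hS.congr ?_⟩
  have hcl : ContinuousAt (fun s : ℝ => s • ξ) 0 := by fun_prop
  have hV' : ∀ᶠ y in 𝓝 ((0 : ℝ) • ξ), V y = 2 * F (y, ζ y) + 2 * F (ζ y, p) := by
    rw [zero_smul]; exact hV
  filter_upwards [hcl.eventually hV'] with s hs
  rw [hs]
  exact (hgq _ _).symm

end abs

variable {n : ℕ} {M : Type*} [MetricSpace M] [ChartedSpace (EuclideanSpace ℝ (Fin n)) M]
  [IsManifold (𝓡 n) ∞ M]
  [RiemannianBundle (fun p : M => TangentSpace (𝓡 n) p)]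
  [IsContMDiffRiemannianBundle (𝓡 n) ∞ (EuclideanSpace ℝ (Fin n))
    (fun p : M => TangentSpace (𝓡 n) p)] [CompactSpace M]
  {G : GeoData n M}

omit [RiemannianBundle (fun p : M => TangentSpace (𝓡 n) p)]
  [IsContMDiffRiemannianBundle (𝓡 n) ∞ (EuclideanSpace ℝ (Fin n))
    (fun p : M => TangentSpace (𝓡 n) p)] [CompactSpace M] in
/-- convergence in a fibre from convergence in the tangent bundle -/
theorem tendsto_fiber {α : Type*} {l : Filter α} {x : M} {f : α → TangentSpace (𝓡 n) x}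
    {v : TangentSpace (𝓡 n) x}
    (h : Tendsto (fun a => (⟨x, f a⟩ : TangentBundle (𝓡 n) M)) l (𝓝 ⟨x, v⟩)) :
    Tendsto f l (𝓝 v) := by
  have h1 := FiberBundle.totalSpaceMk_isInducing (EuclideanSpace ℝ (Fin n))
    (TangentSpace (𝓡 n) : M → Type _) x
  rw [h1.tendsto_nhds_iff]
  exact h

/-- midpoints of minimisers, in normal coordinates -/
theorem exists_mid {x : M} {p : TangentSpace (𝓡 n) x} (hp : p ∈ G.I x) :
    ∃ ζ : TangentSpace (𝓡 n) x → TangentSpace (𝓡 n) x,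
      Tendsto ζ (𝓝 0) (𝓝 ((1 / 2 : ℝ) • p)) ∧
      ∀ ξ, F G x (ξ, p) = 2 * F G x (ξ, ζ ξ) + 2 * F G x (ζ ξ, p) := by
  let m : M × M → M := fun q => G.ex q.1 ((1 / 2 : ℝ) • CutSmooth77.wt G q)
  have hmid : ∀ q : M × M, halfDistSq q.1 q.2 =
      2 * halfDistSq q.1 (m q) + 2 * halfDistSq (m q) q.2 := by
    intro q
    have hK := CutSmooth77.wt_mem G q
    have hK' : (1 : ℝ) • CutSmooth77.wt G q ∈ G.K q.1 := by rwa [one_smul]
    have d1 : dist q.1 (m q) = 1 / 2 * ‖CutSmooth77.wt G q‖ :=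
      CutTop478.dist_from G hK' (t := 1 / 2) (by norm_num) (by norm_num)
    have d2 : dist (m q) (G.ex q.1 ((1 : ℝ) • CutSmooth77.wt G q)) =
        (1 - 1 / 2) * ‖CutSmooth77.wt G q‖ :=
      CutTop478.dist_seg G hK' (s := 1 / 2) (t := 1) (by norm_num) (by norm_num) le_rfl
    rw [one_smul, CutSmooth77.wt_ex] at d2
    have d3 : dist q.1 q.2 = ‖CutSmooth77.wt G q‖ := by
      have := (CutTop478.mem_K G).1 hK
      rwa [CutSmooth77.wt_ex] at this
    unfold halfDistSq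
    rw [d3, d1, d2]
    ring
  have hhalf : (1 / 2 : ℝ) • p ∈ G.I x :=
    CutTop478.star_I G x p hp (1 / 2) (by norm_num) (by norm_num)
  have hex : Tendsto (fun ξ : TangentSpace (𝓡 n) x => (G.ex x ξ, G.ex x p)) (𝓝 0)
      (𝓝 (x, G.ex x p)) := by
    have h1 := (continuous_ex (G := G) x).tendsto 0
    rw [G.ex_zero] at h1
    exact h1.prodMk_nhds tendsto_const_nhds
  have hm : Tendsto (fun ξ : TangentSpace (𝓡 n) x => m (G.ex x ξ, G.ex x p)) (𝓝 0)
      (𝓝 (G.ex x ((1 / 2 : ℝ) • p))) := by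
    have hc : Continuous (fun p : TangentBundle (𝓡 n) M => G.ex p.1 ((1 / 2 : ℝ) • p.2)) :=
      (CutTop478.continuous_ex G).comp (CutSmooth77.contMDiff_scale (1 / 2 : ℝ)).continuous
    exact (hc.tendsto (⟨x, p⟩ : TangentBundle (𝓡 n) M)).comp
      ((CutSmooth77.tendsto_Wt G hp).comp hex)
  refine ⟨fun ξ => CutSmooth77.wt G (x, m (G.ex x ξ, G.ex x p)), ?_, fun ξ => ?_⟩
  · apply tendsto_fiber
    have h1 : Tendsto (fun ξ : TangentSpace (𝓡 n) x => (x, m (G.ex x ξ, G.ex x p))) (𝓝 0)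
      (𝓝 (x, G.ex x ((1 / 2 : ℝ) • p))) := tendsto_const_nhds.prodMk_nhds hm
    exact (CutSmooth77.tendsto_Wt G hhalf).comp h1
  · have h1 := hmid (G.ex x ξ, G.ex x p)
    have h2 : G.ex x (CutSmooth77.wt G (x, m (G.ex x ξ, G.ex x p))) = m (G.ex x ξ, G.ex x p) :=
      CutSmooth77.wt_ex G (x, m (G.ex x ξ, G.ex x p))
    unfold F
    simp only [h2]
    exact h1

/-- `phi` as the minimum of the two-step Hessian: attained -/
theorem phi_eq_ex (hB : Base G) {x : M} {p : TangentSpace (𝓡 n) x} (hp : p ∈ G.I x)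
    (ξ : TangentSpace (𝓡 n) x) : ∃ om : TangentSpace (𝓡 n) x,
    G.phi x ξ p = 2 * G.phi x ξ ((1 / 2 : ℝ) • p) - 4 * inner ℝ om ξ + 4 * Hf G x p om om := by
  obtain ⟨ζ, hζ, hζe⟩ := exists_mid (G := G) hp
  have hpK := hB.I_subset x hp
  have hhalf : (1 / 2 : ℝ) • p ∈ G.I x := hB.smul_mem_I hpK (by norm_num) (by norm_num)
  obtain ⟨om, hom⟩ := value_second (F := F G x) (V := fun ξ => F G x (ξ, p)) (z := (1 / 2 : ℝ) • p)
    (p := p) (hB.contDiffAt_F_zero hhalf) (contDiffAt_F_half hB hpK)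
    (fun h hh => by
      have h1 := Hf_pos hB hp hh
      rw [Hf_apply hB hpK, real_inner_self_eq_norm_sq] at h1
      rw [hB.hess_F_snd hhalf]
      linarith) hζ (Eventually.of_forall hζe)
    (Eventually.of_forall fun ξ w => halfDistSq_le_two _ _ _) ξ
  refine ⟨om, ?_⟩
  have h1 := (hB.sec_phi hp ξ).unique hom
  rw [h1, hB.hess_F hhalf, Hf_apply hB hpK, real_inner_self_eq_norm_sq]
  ring

/-- **the normal form of `phi`** : `phi x ξ p = 2 phi x ξ (p/2) - ⟪Hf(p)⁻¹ ξ, ξ⟫` for `p ∈ I`. -/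
theorem phi_eq (hB : Base G) {x : M} {p : TangentSpace (𝓡 n) x} (hp : p ∈ G.I x)
    {ξ v : TangentSpace (𝓡 n) x} (hv : ∀ η, Hf G x p v η = inner ℝ ξ η) :
    G.phi x ξ p = 2 * G.phi x ξ ((1 / 2 : ℝ) • p) - Hf G x p v v := by
  have hpK := hB.I_subset x hp
  apply le_antisymm
  · have h1 := phi_le_Hf hB hp ξ ((1 / 2 : ℝ) • v)
    have e : Hf G x p ((1 / 2 : ℝ) • v) ((1 / 2 : ℝ) • v) = 1 / 4 * Hf G x p v v := by
      rw [map_smul, map_smul, smul_apply, smul_eq_mul, smul_eq_mul]; ring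
    rw [e, real_inner_smul_left, real_inner_comm, ← hv v] at h1
    linarith
  · obtain ⟨om, hom⟩ := phi_eq_ex hB hp ξ
    have h2 : 0 ≤ Hf G x p (om - (1 / 2 : ℝ) • v) (om - (1 / 2 : ℝ) • v) := Hf_nonneg hB hpK _
    have h3 : Hf G x p (om - (1 / 2 : ℝ) • v) (om - (1 / 2 : ℝ) • v) =
        Hf G x p om om - inner ℝ ξ om + 1 / 4 * Hf G x p v v := by
      have h4 : Hf G x p om v = inner ℝ ξ om := by rw [Hf_symm hB hpK, hv]
      simp only [map_sub, map_smul, sub_apply, smul_apply, smul_eq_mul]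
      rw [h4, hv om]; ring
    rw [h3] at h2
    have h5 := real_inner_comm om ξ
    rw [hom]
    linarith

omit [IsContMDiffRiemannianBundle (𝓡 n) ∞ (EuclideanSpace ℝ (Fin n))
    (fun p : M => TangentSpace (𝓡 n) p)] [CompactSpace M] in
/-- surjectivity of `Hf(p)`, `p ∈ I` -/
theorem exists_Hf_eq (hB : Base G) {x : M} {p : TangentSpace (𝓡 n) x} (hp : p ∈ G.I x)
    (ξ : TangentSpace (𝓡 n) x) : ∃ v, ∀ η, Hf G x p v η = inner ℝ ξ η := by
  have hinj : Function.Injective (Hf G x p) := by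
    rw [injective_iff_map_eq_zero]
    intro v hv
    by_contra hne
    have h1 := Hf_pos hB hp hne
    rw [hv] at h1
    simp at h1
  have hfin : Module.finrank ℝ (TangentSpace (𝓡 n) x) =
      Module.finrank ℝ (TangentSpace (𝓡 n) x →L[ℝ] ℝ) := by
    rw [← (LinearMap.toContinuousLinearMap (𝕜 := ℝ) (E := TangentSpace (𝓡 n) x)
      (F' := ℝ)).finrank_eq]
    exact (Subspace.dual_finrank_eq (K := ℝ) (V := TangentSpace (𝓡 n) x)).symm
  have hsurj := (LinearMap.injective_iff_surjective_of_finrank_eq_finrank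
    (f := (Hf G x p : TangentSpace (𝓡 n) x →ₗ[ℝ] (TangentSpace (𝓡 n) x →L[ℝ] ℝ))) hfin).1 hinj
  obtain ⟨v, hv⟩ := hsurj (innerSL ℝ ξ)
  refine ⟨v, fun η => ?_⟩
  have := congrArg (fun L : TangentSpace (𝓡 n) x →L[ℝ] ℝ => L η) hv
  simpa using this

end Crest.Agent.R226.NF946
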