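/-
R226 / E2-NF (helper946): part 3, uniform `C^k` bounds (calculus part).
-/
import Mathlib
import Crest.Agent.R226.NFAbs_946

set_option autoImplicit false

open Set Filter
open scoped ContDiff Topology
open Crest.Agent.R226.Calc347

namespace Crest.Agent.R226.NF946

section gen
variable {E : Type*} [NormedAddCommGroup E] [NormedSpace ℝ E]
variable {E' : Type*} [NormedAddCommGroup E'] [NormedSpace ℝ E']
variable {W : Type*} [NormedAddCommGroup W] [NormedSpace ℝ W]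

/-- iterated derivatives of a composition with an affine map -/
theorem iteratedFDeriv_comp_affine {f : E → W} (A : E' →L[ℝ] E) (c : E) {q : E'} {k : ℕ}
    (hf : ContDiffAt ℝ k f (A q + c)) {i : ℕ} (hi : i ≤ k) :
    iteratedFDeriv ℝ i (fun q => f (A q + c)) q =
      (iteratedFDeriv ℝ i f (A q + c)).compContinuousLinearMap fun _ => A := by
  have hev : ∀ᶠ z in 𝓝 (A q + c), ContDiffAt ℝ k f z := hf.eventually (by simp)
  obtain ⟨s, hs, hso, hqs⟩ := eventually_nhds_iff.1 hev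
  let f' : E → W := fun z => f (z + c)
  let s' : Set E := (fun z => z + c) ⁻¹' s
  have hs'o : IsOpen s' := hso.preimage (by fun_prop)
  have hq' : A q ∈ s' := hqs
  have hf' : ContDiffOn ℝ k f' s' := by
    intro z hz
    have h1 : ContDiffAt ℝ k f (z + c) := hs _ hz
    have h2 : ContDiffAt ℝ k f' z :=
      ContDiffAt.comp z (f := fun z => z + c) h1 (by fun_prop)
    exact h2.contDiffWithinAt
  have hA : IsOpen (A ⁻¹' s') := hs'o.preimage A.continuous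
  have h3 := A.iteratedFDerivWithin_comp_right hf' hs'o.uniqueDiffOn hA.uniqueDiffOn
    (x := q) hq' (i := i) (by exact_mod_cast hi)
  rw [iteratedFDerivWithin_of_isOpen i hA hq', iteratedFDerivWithin_of_isOpen i hs'o hq'] at h3
  have h4 : iteratedFDeriv ℝ i f' (A q) = iteratedFDeriv ℝ i f (A q + c) :=
    iteratedFDeriv_comp_add_right i c (A q)
  rw [h4] at h3
  exact h3

theorem norm_iteratedFDeriv_comp_affine_le {f : E → W} (A : E' →L[ℝ] E) (c : E) {q : E'} {k : ℕ}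
    (hf : ContDiffAt ℝ k f (A q + c)) {i : ℕ} (hi : i ≤ k) :
    ‖iteratedFDeriv ℝ i (fun q => f (A q + c)) q‖ ≤
      ‖iteratedFDeriv ℝ i f (A q + c)‖ * ‖A‖ ^ i := by
  rw [iteratedFDeriv_comp_affine A c hf hi]
  refine (ContinuousMultilinearMap.norm_compContinuousLinearMap_le _ _).trans ?_
  simp

theorem norm_iteratedFDeriv_comp_affine_le' {f : E → W} (A : E' →L[ℝ] E) (c : E) {q : E'} {k : ℕ}
    (hf : ContDiffAt ℝ k f (A q + c)) {i : ℕ} (hi : i ≤ k) {C : ℝ} (hA : ‖A‖ ≤ C) :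
    ‖iteratedFDeriv ℝ i (fun q => f (A q + c)) q‖ ≤
      ‖iteratedFDeriv ℝ i f (A q + c)‖ * C ^ i := by
  refine (norm_iteratedFDeriv_comp_affine_le A c hf hi).trans ?_
  gcongr

theorem contDiffAt_comp_affine {f : E → W} (A : E' →L[ℝ] E) (c : E) {q : E'} {k : WithTop ℕ∞}
    (hf : ContDiffAt ℝ k f (A q + c)) : ContDiffAt ℝ k (fun q => f (A q + c)) q :=
  ContDiffAt.comp q (f := fun q => A q + c) hf (by fun_prop)

/-- local bounds of the first `k` derivatives -/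
theorem exists_local_bound {f : E → W} {z₀ : E} {k : ℕ} (hf : ContDiffAt ℝ k f z₀) :
    ∃ ε B : ℝ, 0 < ε ∧ 0 ≤ B ∧ ∀ z, dist z z₀ < ε → ContDiffAt ℝ k f z ∧
      ∀ j ≤ k, ‖iteratedFDeriv ℝ j f z‖ ≤ B := by
  have h1 : ∀ᶠ z in 𝓝 z₀, ContDiffAt ℝ k f z := hf.eventually (by simp)
  have h2 : ∀ᶠ z in 𝓝 z₀, ∀ j ∈ Finset.range (k + 1),
      ‖iteratedFDeriv ℝ j f z‖ < ‖iteratedFDeriv ℝ j f z₀‖ + 1 := by
    rw [Filter.eventually_all_finset]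
    intro j hj
    have hj' : j ≤ k := Nat.lt_succ_iff.1 (Finset.mem_range.1 hj)
    have h3 : ContDiffAt ℝ 0 (iteratedFDeriv ℝ j f) z₀ :=
      hf.iteratedFDeriv_right (by rw [zero_add]; exact_mod_cast hj')
    have h4 : ContinuousAt (fun z => ‖iteratedFDeriv ℝ j f z‖) z₀ := h3.continuousAt.norm
    exact h4.eventually_lt continuousAt_const (lt_add_one _)
  obtain ⟨ε, hε, h⟩ := Metric.eventually_nhds_iff.1 (h1.and h2)
  refine ⟨ε, ∑ j ∈ Finset.range (k + 1), (‖iteratedFDeriv ℝ j f z₀‖ + 1), hε,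
    Finset.sum_nonneg fun j _ => by positivity, fun z hz => ⟨(h hz).1, fun j hj => ?_⟩⟩
  have hj' : j ∈ Finset.range (k + 1) := Finset.mem_range.2 (Nat.lt_succ_iff.2 hj)
  refine ((h hz).2 j hj').le.trans ?_
  exact Finset.single_le_sum (f := fun j => ‖iteratedFDeriv ℝ j f z₀‖ + 1)
    (fun i _ => by positivity) hj'

variable {Z : Type*} [NormedAddCommGroup Z] [NormedSpace ℝ Z]

/-- restriction of linear maps along `ι` -/
noncomputable def Rs (W : Type*) [NormedAddCommGroup W] [NormedSpace ℝ W] (ι : E →L[ℝ] Z) :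
    (Z →L[ℝ] W) →L[ℝ] (E →L[ℝ] W) :=
  (ContinuousLinearMap.compL ℝ E Z W).flip ι

theorem Rs_apply (ι : E →L[ℝ] Z) (H : Z →L[ℝ] W) (u : E) : Rs W ι H u = H (ι u) := rfl

theorem norm_Rs_le (ι : E →L[ℝ] Z) (hι : ‖ι‖ ≤ 1) : ‖Rs W ι‖ ≤ 1 := by
  refine ContinuousLinearMap.opNorm_le_bound _ zero_le_one fun H => ?_
  refine ContinuousLinearMap.opNorm_le_bound _ (by positivity) fun u => ?_
  rw [Rs_apply]
  have hu : ‖ι u‖ ≤ ‖u‖ := by
    have := ι.le_of_opNorm_le hι u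
    rwa [one_mul] at this
  calc ‖H (ι u)‖ ≤ ‖H‖ * ‖ι u‖ := ContinuousLinearMap.le_opNorm _ _
    _ ≤ 1 * ‖H‖ * ‖u‖ := by rw [one_mul]; gcongr

theorem Rs_bound {f : Z → W} {ι : E →L[ℝ] Z} (hι : ‖ι‖ ≤ 1) {z : Z} {k : ℕ}
    (h : ContDiffAt ℝ ((k + 1 : ℕ) : WithTop ℕ∞) f z) :
    ContDiffAt ℝ k (fun z => Rs W ι (fderiv ℝ f z)) z ∧
    ∀ j ≤ k, ‖iteratedFDeriv ℝ j (fun z => Rs W ι (fderiv ℝ f z)) z‖ ≤
      ‖iteratedFDeriv ℝ (j + 1) f z‖ := by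
  have h1 : ContDiffAt ℝ (k : WithTop ℕ∞) (fderiv ℝ f) z := h.fderiv_right (by norm_cast)
  refine ⟨(Rs W ι).contDiff.contDiffAt.comp z h1, fun j hj => ?_⟩
  have h4 := (Rs W ι).norm_iteratedFDeriv_comp_left h1 (n := j) (by exact_mod_cast hj)
  have h8 : ‖iteratedFDeriv ℝ j (fderiv ℝ f) z‖ = _ := norm_iteratedFDeriv_fderiv
  calc _ ≤ ‖Rs W ι‖ * ‖iteratedFDeriv ℝ j (fderiv ℝ f) z‖ := h4
    _ ≤ 1 * ‖iteratedFDeriv ℝ j (fderiv ℝ f) z‖ := by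
        gcongr; exact norm_Rs_le ι hι
    _ = _ := by rw [one_mul, h8]

/-- the Hessian of `f` at `L q`, restricted along `ι` in both arguments -/
noncomputable def R2 (f : Z → ℝ) (ι : E →L[ℝ] Z) (z : Z) : E →L[ℝ] E →L[ℝ] ℝ :=
  Rs (E →L[ℝ] ℝ) ι (fderiv ℝ (fun z => Rs ℝ ι (fderiv ℝ f z)) z)

theorem R2_apply {f : Z → ℝ} (ι : E →L[ℝ] Z) {z : Z} (h : ContDiffAt ℝ 2 f z) (u v : E) :
    R2 f ι z u v = hess f z (ι u) (ι v) := by
  have h1 : HasFDerivAt (fun z => Rs ℝ ι (fderiv ℝ f z)) ((Rs ℝ ι).comp (hess f z)) z :=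
    (Rs ℝ ι).hasFDerivAt.comp z (hasFDerivAt_fderiv' h)
  unfold R2
  rw [h1.fderiv]
  rfl

theorem R2_bound {f : Z → ℝ} {ι : E →L[ℝ] Z} (hι : ‖ι‖ ≤ 1) {z : Z} {k : ℕ}
    (h : ContDiffAt ℝ ((k + 2 : ℕ) : WithTop ℕ∞) f z) :
    ContDiffAt ℝ k (R2 f ι) z ∧
    ∀ j ≤ k, ‖iteratedFDeriv ℝ j (R2 f ι) z‖ ≤ ‖iteratedFDeriv ℝ (j + 2) f z‖ := by
  obtain ⟨h1, h2⟩ := Rs_bound (k := k + 1) hι h
  obtain ⟨h3, h4⟩ := Rs_bound (k := k) hι h1
  exact ⟨h3, fun j hj => (h4 j hj).trans (h2 (j + 1) (by omega))⟩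

theorem R2_comp_bound {f : Z → ℝ} {L ι : E →L[ℝ] Z} (hL : ‖L‖ ≤ 1) (hι : ‖ι‖ ≤ 1) {q : E} {k : ℕ}
    (h : ContDiffAt ℝ ((k + 2 : ℕ) : WithTop ℕ∞) f (L q)) :
    ContDiffAt ℝ k (fun q => R2 f ι (L q)) q ∧
    ∀ j ≤ k, ‖iteratedFDeriv ℝ j (fun q => R2 f ι (L q)) q‖ ≤
      ‖iteratedFDeriv ℝ (j + 2) f (L q)‖ := by
  obtain ⟨h1, h2⟩ := R2_bound (k := k) hι h
  have h2' : ContDiffAt ℝ (k : WithTop ℕ∞) (R2 f ι) (L q + 0) := by
    rw [add_zero]; exact h1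
  have e : (fun q : E => R2 f ι (L q)) = fun q : E => R2 f ι (L q + 0) := by
    funext q; rw [add_zero]
  refine ⟨by rw [e]; exact contDiffAt_comp_affine _ _ h2', fun j hj => ?_⟩
  rw [e]
  refine (norm_iteratedFDeriv_comp_affine_le L 0 h2' hj).trans ?_
  rw [add_zero]
  have h6 : ‖L‖ ^ j ≤ 1 := pow_le_one₀ (norm_nonneg _) hL
  exact (mul_le_of_le_one_right (norm_nonneg _) h6).trans (h2 j hj)

variable (E) in
/-- `q ↦ (q/2, q)` -/
noncomputable def Lh : E →L[ℝ] E × E :=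
  ((1 / 2 : ℝ) • ContinuousLinearMap.id ℝ E).prod (ContinuousLinearMap.id ℝ E)

theorem Lh_apply (q : E) : Lh E q = ((1 / 2 : ℝ) • q, q) := rfl

theorem norm_Lh_le : ‖Lh E‖ ≤ 1 := by
  refine ContinuousLinearMap.opNorm_le_bound _ zero_le_one fun q => ?_
  rw [Lh_apply, Prod.norm_mk, norm_smul, one_mul]
  refine max_le ?_ le_rfl
  have h1 : ‖(1 / 2 : ℝ)‖ = 1 / 2 := by norm_num
  rw [h1]
  have := norm_nonneg q
  linarith

theorem norm_inl_le : ‖ContinuousLinearMap.inl ℝ E E‖ ≤ 1 := by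
  refine ContinuousLinearMap.opNorm_le_bound _ zero_le_one fun q => ?_
  rw [ContinuousLinearMap.inl_apply, Prod.norm_mk, norm_zero, one_mul]
  exact max_le le_rfl (norm_nonneg _)

theorem half_bound {h : E → W} {c : W} (hc : ‖c‖ ≤ 1) {q : E} {k : ℕ} {B : ℝ}
    (hP : ContDiffAt ℝ k h q) (hb : ∀ j ≤ k, ‖iteratedFDeriv ℝ j h q‖ ≤ B) :
    ContDiffAt ℝ k (fun p => (1 / 2 : ℝ) • c + (1 / 2 : ℝ) • h p) q ∧
    ∀ j ≤ k, ‖iteratedFDeriv ℝ j (fun p => (1 / 2 : ℝ) • c + (1 / 2 : ℝ) • h p) q‖ ≤ 1 + B := by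
  have hP' : ContDiffAt ℝ k (fun p => (1 / 2 : ℝ) • h p) q := hP.const_smul (1 / 2 : ℝ)
  refine ⟨contDiffAt_const.add hP', fun j hj => ?_⟩
  have hjk : ((j : ℕ) : WithTop ℕ∞) ≤ k := by exact_mod_cast hj
  have e1 : iteratedFDeriv ℝ j (fun p => (1 / 2 : ℝ) • c + (1 / 2 : ℝ) • h p) q =
      iteratedFDeriv ℝ j (fun _ : E => (1 / 2 : ℝ) • c) q +
      iteratedFDeriv ℝ j (fun p => (1 / 2 : ℝ) • h p) q :=
    iteratedFDeriv_add_apply (contDiffAt_const) (hP'.of_le hjk)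
  have e2 : iteratedFDeriv ℝ j (fun p => (1 / 2 : ℝ) • h p) q =
      (1 / 2 : ℝ) • iteratedFDeriv ℝ j h q :=
    iteratedFDeriv_const_smul_apply' (a := (1 / 2 : ℝ)) (hP.of_le hjk)
  have hhalf : ‖(1 / 2 : ℝ)‖ = 1 / 2 := by norm_num
  have b1 : ‖iteratedFDeriv ℝ j (fun _ : E => (1 / 2 : ℝ) • c) q‖ ≤ 1 := by
    rcases Nat.eq_zero_or_pos j with h0 | h0
    · subst h0
      rw [norm_iteratedFDeriv_zero, norm_smul, hhalf]
      have := norm_nonneg c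
      linarith
    · have h1 := iteratedFDeriv_const_of_ne (𝕜 := ℝ) (E := E) (n := j) (by omega)
        ((1 / 2 : ℝ) • c)
      rw [h1]; simp
  have b2 : ‖(1 / 2 : ℝ) • iteratedFDeriv ℝ j h q‖ ≤ B := by
    rw [norm_smul, hhalf]
    have h3 := hb j hj
    have h4 := norm_nonneg (iteratedFDeriv ℝ j h q)
    linarith
  rw [e1, e2]
  exact (norm_add_le _ _).trans (add_le_add b1 b2)

end gen

section abs
variable {E : Type*} [NormedAddCommGroup E] [InnerProductSpace ℝ E]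

variable (E) in
/-- the inner product as a bilinear map -/
noncomputable def ip : E →L[ℝ] E →L[ℝ] ℝ := (1 / 2 : ℝ) • hess (fun q : E => ‖q‖ ^ 2) 0

theorem ip_apply (u v : E) : ip E u v = inner ℝ u v := by
  show (1 / 2 : ℝ) * hess (fun q : E => ‖q‖ ^ 2) 0 u v = _
  rw [hess_norm_sq]; ring

theorem norm_ip_le : ‖ip E‖ ≤ 1 := by
  refine ContinuousLinearMap.opNorm_le_bound _ zero_le_one fun u => ?_
  refine ContinuousLinearMap.opNorm_le_bound _ (by positivity) fun v => ?_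
  rw [ip_apply, one_mul]
  exact norm_inner_le_norm u v

theorem HfA_eq {F : E × E → ℝ} {p : E} (h : ContDiffAt ℝ 2 F ((1 / 2 : ℝ) • p, p)) :
    HfA F p = (1 / 2 : ℝ) • ip E + (1 / 2 : ℝ) •
      R2 F (ContinuousLinearMap.inl ℝ E E) (Lh E p) := by
  ext u v
  rw [HfA_apply h]
  show _ = (1 / 2 : ℝ) * ip E u v + (1 / 2 : ℝ) *
    R2 F (ContinuousLinearMap.inl ℝ E E) ((1 / 2 : ℝ) • p, p) u v
  rw [ip_apply, R2_apply _ h]
  show _ = 1 / 2 * inner ℝ u v + 1 / 2 * hess F ((1 / 2 : ℝ) • p, p) (u, 0) (v, 0)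
  ring

theorem HfA_bound {F : E × E → ℝ} {q : E} {k : ℕ} {B : ℝ}
    (h : ContDiffAt ℝ ((k + 2 : ℕ) : WithTop ℕ∞) F ((1 / 2 : ℝ) • q, q))
    (hb : ∀ j ≤ k + 2, ‖iteratedFDeriv ℝ j F ((1 / 2 : ℝ) • q, q)‖ ≤ B) :
    ContDiffAt ℝ k (HfA F) q ∧ ∀ j ≤ k, ‖iteratedFDeriv ℝ j (HfA F) q‖ ≤ 1 + B := by
  have h2le : (2 : WithTop ℕ∞) ≤ ((k + 2 : ℕ) : WithTop ℕ∞) := by
    have : (2 : ℕ) ≤ k + 2 := by omega
    exact_mod_cast this
  have hev : HfA F =ᶠ[𝓝 q] fun p => (1 / 2 : ℝ) • ip E + (1 / 2 : ℝ) •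
      R2 F (ContinuousLinearMap.inl ℝ E E) (Lh E p) := by
    have h6 : ContinuousAt (fun p : E => ((1 / 2 : ℝ) • p, p)) q := by fun_prop
    have h5 : ∀ᶠ z in 𝓝 ((1 / 2 : ℝ) • q, q), ContDiffAt ℝ 2 F z :=
      (h.of_le h2le).eventually (by simp)
    filter_upwards [h6.eventually h5] with p hp
    exact HfA_eq hp
  obtain ⟨hP, hPb⟩ := R2_comp_bound (f := F) (L := Lh E) (ι := ContinuousLinearMap.inl ℝ E E)
    norm_Lh_le norm_inl_le (q := q) (k := k) h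
  obtain ⟨h1, h2⟩ := half_bound (c := ip E) norm_ip_le hP (B := B)
    (fun j hj => (hPb j hj).trans (hb (j + 2) (by omega)))
  refine ⟨h1.congr_of_eventuallyEq hev, fun j hj => ?_⟩
  rw [(Filter.EventuallyEq.iteratedFDeriv ℝ hev j).eq_of_nhds]
  exact h2 j hj

/-- `C^k` bound of the normal form Hessian at `q` -/
def CkB (F : E × E → ℝ) (k : ℕ) (B : ℝ) (q : E) : Prop :=
  ContDiffAt ℝ k (HfA F) q ∧ ∀ j ≤ k, ‖iteratedFDeriv ℝ j (HfA F) q‖ ≤ B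

/-- the Hessian in the first variable at `(0, q)` -/
noncomputable def PfA (F : E × E → ℝ) (q : E) : E →L[ℝ] E →L[ℝ] ℝ :=
  R2 F (ContinuousLinearMap.inl ℝ E E) (ContinuousLinearMap.inr ℝ E E q)

theorem norm_inr_le : ‖ContinuousLinearMap.inr ℝ E E‖ ≤ 1 := by
  refine ContinuousLinearMap.opNorm_le_bound _ zero_le_one fun q => ?_
  rw [ContinuousLinearMap.inr_apply, Prod.norm_mk, norm_zero, one_mul]
  exact max_le (norm_nonneg _) le_rfl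

theorem PfA_apply {F : E × E → ℝ} {q : E} (h : ContDiffAt ℝ 2 F (0, q)) (u v : E) :
    PfA F q u v = hess F (0, q) (u, 0) (v, 0) := by
  have h' : ContDiffAt ℝ 2 F (ContinuousLinearMap.inr ℝ E E q) := h
  unfold PfA
  rw [R2_apply _ h']
  rfl

/-- `C^k` bound of `PfA` at `q` -/
def PkB (F : E × E → ℝ) (k : ℕ) (B : ℝ) (q : E) : Prop :=
  ContDiffAt ℝ k (PfA F) q ∧ ∀ j ≤ k, ‖iteratedFDeriv ℝ j (PfA F) q‖ ≤ B

theorem PfA_bound {F : E × E → ℝ} {q : E} {k : ℕ} {B : ℝ}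
    (h : ContDiffAt ℝ ((k + 2 : ℕ) : WithTop ℕ∞) F (0, q))
    (hb : ∀ j ≤ k + 2, ‖iteratedFDeriv ℝ j F (0, q)‖ ≤ B) : PkB F k B q := by
  obtain ⟨hP, hPb⟩ := R2_comp_bound (f := F) (L := ContinuousLinearMap.inr ℝ E E)
    (ι := ContinuousLinearMap.inl ℝ E E) norm_inr_le norm_inl_le (q := q) (k := k) h
  exact ⟨hP, fun j hj => (hPb j hj).trans (hb (j + 2) (by omega))⟩

end abs

end Crest.Agent.R226.NF946
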