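/-
R226 / E2-NF (helper946): part 4 (N7), uniform `C^k` bounds of the cost in normal coordinates near
`(p/2, p)`, `p ∈ K(x)`, and of `Hf` near `K(x)`, uniformly in `x`.
-/
import Crest.Agent.R226.NF1_946
import Crest.Agent.R226.NF3_946
import Crest.Agent.R226.LoeperUnif_128

set_option autoImplicit false

open MeasureTheory Bundle Set Filter
open scoped Manifold ContDiff Bundle ENNReal Topology
open Crest.GeometryTopology.MTW
open Crest.Agent.R226.Calc347 Crest.Agent.R226.MTWConc117 Crest.Agent.R226.Base347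
open Crest.Agent.R226.TMSmooth771 Crest.Agent.R226.LoeperUnif128

namespace Crest.Agent.R226.NF946

variable {n : ℕ} {M : Type*} [MetricSpace M] [ChartedSpace (EuclideanSpace ℝ (Fin n)) M]
  [IsManifold (𝓡 n) ∞ M]
  [RiemannianBundle (fun p : M => TangentSpace (𝓡 n) p)]
  {G : GeoData n M}

/-- the cost in bundle coordinates at `y` -/
noncomputable def PhiC (G : GeoData n M) (y : M) (z : EE n × EE n × EE n) : ℝ :=
  halfDistSq (exT G (tmci y (z.1, z.2.1))) (exT G (tmci y (z.1, z.2.2)))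

/-- smoothness of the cost in bundle coordinates, general pairs -/
theorem contDiffAt_PhiC {y : M} {w b : TangentSpace (𝓡 n) y}
    (h : ContMDiffAt ((𝓡 n).prod (𝓡 n)) 𝓘(ℝ) ∞ (fun q : M × M => halfDistSq q.1 q.2)
      (G.ex y w, G.ex y b)) :
    ContDiffAt ℝ ∞ (PhiC G y) (extChartAt (𝓡 n) y y, dphi y y w, dphi y y b) := by
  have hy : y ∈ (chartAt (EuclideanSpace ℝ (Fin n)) y).source := mem_chart_source _ y
  have hyt : extChartAt (𝓡 n) y y ∈ (extChartAt (𝓡 n) y).target :=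
    (extChartAt (𝓡 n) y).map_source (mem_extChartAt_source y)
  have e1 : ∀ q : TangentSpace (𝓡 n) y, tmci y (extChartAt (𝓡 n) y y, dphi y y q) =
      (⟨y, q⟩ : TangentBundle (𝓡 n) M) :=
    fun q => tmci_tmc (x₀ := y) (p := (⟨y, q⟩ : TangentBundle (𝓡 n) M)) hy
  have h1 : ContMDiffAt 𝓘(ℝ, EE n × EE n × EE n) 𝓘(ℝ, EE n × EE n) ∞
      (fun z : EE n × EE n × EE n => (z.1, z.2.1))
      (extChartAt (𝓡 n) y y, dphi y y w, dphi y y b) := by
    apply ContDiffAt.contMDiffAt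
    fun_prop
  have h2 : ContMDiffAt 𝓘(ℝ, EE n × EE n × EE n) 𝓘(ℝ, EE n × EE n) ∞
      (fun z : EE n × EE n × EE n => (z.1, z.2.2))
      (extChartAt (𝓡 n) y y, dphi y y w, dphi y y b) := by
    apply ContDiffAt.contMDiffAt
    fun_prop
  have h3 := ContMDiffAt.comp (extChartAt (𝓡 n) y y, dphi y y w, dphi y y b)
    (contMDiffAt_tmci (x₀ := y) (q := (extChartAt (𝓡 n) y y, dphi y y w)) hyt) h1
  have h4 := ContMDiffAt.comp (extChartAt (𝓡 n) y y, dphi y y w, dphi y y b)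
    (contMDiffAt_tmci (x₀ := y) (q := (extChartAt (𝓡 n) y y, dphi y y b)) hyt) h2
  have hex : ContMDiff (𝓡 n).tangent (𝓡 n) ∞ (exT G) := G.smooth
  have h5 := (hex.contMDiffAt).comp (extChartAt (𝓡 n) y y, dphi y y w, dphi y y b) h3
  have h6 := (hex.contMDiffAt).comp (extChartAt (𝓡 n) y y, dphi y y w, dphi y y b) h4
  have h7 := h5.prodMk h6
  have h9 : ContMDiffAt ((𝓡 n).prod (𝓡 n)) 𝓘(ℝ) ∞ (fun q : M × M => halfDistSq q.1 q.2)
      ((fun z : EE n × EE n × EE n =>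
        (exT G (tmci y (z.1, z.2.1)), exT G (tmci y (z.1, z.2.2))))
        (extChartAt (𝓡 n) y y, dphi y y w, dphi y y b)) := by
    simp only [e1]
    exact h
  exact contMDiffAt_iff_contDiffAt.1
    (ContMDiffAt.comp (extChartAt (𝓡 n) y y, dphi y y w, dphi y y b) h9 h7)

/-- `F G x` as an affine pull-back of `PhiC G y` -/
theorem F_eq_PhiC {x y : M} (hx : x ∈ (chartAt (EuclideanSpace ℝ (Fin n)) y).source)
    (w b : TangentSpace (𝓡 n) x) :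
    F G x (w, b) = PhiC G y (extChartAt (𝓡 n) y x, dphi y x w, dphi y x b) := by
  have e1 : ∀ q : TangentSpace (𝓡 n) x, tmci y (extChartAt (𝓡 n) y x, dphi y x q) =
      (⟨x, q⟩ : TangentBundle (𝓡 n) M) :=
    fun q => tmci_tmc (x₀ := y) (p := (⟨x, q⟩ : TangentBundle (𝓡 n) M)) hx
  unfold PhiC
  simp only [e1]
  rfl

theorem Am_bound (y x : M) {C : ℝ} (hC : 0 ≤ C)
    (hb : ∀ v : TangentSpace (𝓡 n) x, ‖dphi y x v‖ ≤ C * ‖v‖)
    (q : TangentSpace (𝓡 n) x × TangentSpace (𝓡 n) x) :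
    ‖((0 : EE n), dphi y x q.1, dphi y x q.2)‖ ≤ C * ‖q‖ := by
  have h1 : ‖q.1‖ ≤ ‖q‖ := norm_fst_le q
  have h2 : ‖q.2‖ ≤ ‖q‖ := norm_snd_le q
  rw [Prod.norm_mk, Prod.norm_mk, norm_zero]
  refine max_le (by positivity) (max_le ((hb _).trans ?_) ((hb _).trans ?_))
  · gcongr
  · gcongr

/-- the linear map `(w, b) ↦ (0, dphi w, dphi b)`, built from a norm bound -/
noncomputable def Am (y x : M) (C : ℝ) (hC : 0 ≤ C)
    (hb : ∀ v : TangentSpace (𝓡 n) x, ‖dphi y x v‖ ≤ C * ‖v‖) :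
    (TangentSpace (𝓡 n) x × TangentSpace (𝓡 n) x) →L[ℝ] (EE n × EE n × EE n) :=
  LinearMap.mkContinuous
    { toFun := fun q => ((0 : EE n), dphi y x q.1, dphi y x q.2)
      map_add' := fun q q' => by
        simp only [Prod.fst_add, Prod.snd_add, map_add, Prod.mk_add_mk, add_zero]
      map_smul' := fun c q => by
        simp only [Prod.smul_fst, Prod.smul_snd, map_smul, Prod.smul_mk, smul_zero,
          RingHom.id_apply] } C
    (Am_bound y x hC hb)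

theorem Am_apply (y x : M) (C : ℝ) (hC : 0 ≤ C)
    (hb : ∀ v : TangentSpace (𝓡 n) x, ‖dphi y x v‖ ≤ C * ‖v‖)
    (q : TangentSpace (𝓡 n) x × TangentSpace (𝓡 n) x) :
    Am y x C hC hb q = ((0 : EE n), dphi y x q.1, dphi y x q.2) := rfl

theorem norm_Am_le (y x : M) (C : ℝ) (hC : 0 ≤ C)
    (hb : ∀ v : TangentSpace (𝓡 n) x, ‖dphi y x v‖ ≤ C * ‖v‖) :
    ‖Am y x C hC hb‖ ≤ C :=
  LinearMap.mkContinuous_norm_le _ hC _

variable [IsContMDiffRiemannianBundle (𝓡 n) ∞ (EuclideanSpace ℝ (Fin n))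
    (fun p : M => TangentSpace (𝓡 n) p)]

/-- **local uniform bounds** around a pair `(w₀, b₀)` of velocities at `y` with smooth cost. -/
theorem unif_F_local {y : M} {w₀ b₀ : TangentSpace (𝓡 n) y}
    (h : ContMDiffAt ((𝓡 n).prod (𝓡 n)) 𝓘(ℝ) ∞ (fun q : M × M => halfDistSq q.1 q.2)
      (G.ex y w₀, G.ex y b₀)) (k : ℕ) :
    ∃ ε B C : ℝ, 0 < ε ∧ 0 ≤ B ∧ 0 < C ∧ ∀ᶠ x in 𝓝 y,
      x ∈ (chartAt (EuclideanSpace ℝ (Fin n)) y).source ∧
      (∀ v : TangentSpace (𝓡 n) x, ‖dphi y x v‖ ≤ C * ‖v‖ ∧ ‖v‖ ≤ C * ‖dphi y x v‖) ∧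
      ∀ w b : TangentSpace (𝓡 n) x, dist (dphi y x w) (dphi y y w₀) < ε →
        dist (dphi y x b) (dphi y y b₀) < ε →
        ContDiffAt ℝ k (F G x) (w, b) ∧ ∀ j ≤ k, ‖iteratedFDeriv ℝ j (F G x) (w, b)‖ ≤ B := by
  obtain ⟨C, hC0, hb⟩ := dphi_bounds (n := n) y
  have hsm : ContDiffAt ℝ k (PhiC G y) (extChartAt (𝓡 n) y y, dphi y y w₀, dphi y y b₀) :=
    (contDiffAt_infty.1 (contDiffAt_PhiC h)) k
  obtain ⟨ε, B, hε, hB, hloc⟩ := exists_local_bound hsm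
  refine ⟨ε, B * ∑ j ∈ Finset.range (k + 1), C ^ j, C, hε, by positivity, hC0, ?_⟩
  have hchart : ∀ᶠ x in 𝓝 y, dist (extChartAt (𝓡 n) y x) (extChartAt (𝓡 n) y y) < ε := by
    have h1 : ContinuousAt (extChartAt (𝓡 n) y) y := continuousAt_extChartAt y
    exact h1 (Metric.ball_mem_nhds _ hε)
  filter_upwards [hb, hchart] with x hx hxc
  refine ⟨hx.1, hx.2, fun w b hw hb' => ?_⟩
  have hbd : ∀ v : TangentSpace (𝓡 n) x, ‖dphi y x v‖ ≤ C * ‖v‖ := fun v => (hx.2 v).1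
  have e : F G x = fun q : TangentSpace (𝓡 n) x × TangentSpace (𝓡 n) x =>
      PhiC G y (Am y x C hC0.le hbd q + (extChartAt (𝓡 n) y x, 0, 0)) := by
    funext q
    rw [Am_apply]
    simp only [Prod.mk_add_mk, zero_add, add_zero]
    exact F_eq_PhiC hx.1 q.1 q.2
  have hdist : dist (Am y x C hC0.le hbd (w, b) + (extChartAt (𝓡 n) y x, 0, 0))
      (extChartAt (𝓡 n) y y, dphi y y w₀, dphi y y b₀) < ε := by
    rw [Am_apply]
    simp only [Prod.mk_add_mk, zero_add, add_zero]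
    rw [Prod.dist_eq, Prod.dist_eq]
    exact max_lt hxc (max_lt hw hb')
  obtain ⟨h1, h2⟩ := hloc _ hdist
  rw [e]
  refine ⟨contDiffAt_comp_affine _ _ h1, fun j hj => ?_⟩
  refine (norm_iteratedFDeriv_comp_affine_le' _ _ h1 hj (norm_Am_le y x C hC0.le hbd)).trans ?_
  have h4 : C ^ j ≤ ∑ j ∈ Finset.range (k + 1), C ^ j :=
    Finset.single_le_sum (f := fun j => C ^ j) (fun i _ => by positivity)
      (Finset.mem_range.2 (Nat.lt_succ_iff.2 hj))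
  exact mul_le_mul (h2 j hj) h4 (by positivity) hB

/-- local uniform bounds near `(y, q)`, `q ∈ K(y)` -/
theorem unif_F_near (hB : Base G) {y : M} {q : TangentSpace (𝓡 n) y} (hq : q ∈ G.K y) (k : ℕ) :
    ∃ N ∈ 𝓝 (⟨y, q⟩ : TangentBundle (𝓡 n) M), ∃ δ B : ℝ, 0 < δ ∧ 0 ≤ B ∧
      ∀ x : M, ∀ p w b : TangentSpace (𝓡 n) x, (⟨x, p⟩ : TangentBundle (𝓡 n) M) ∈ N →
        ‖w - (1 / 2 : ℝ) • p‖ < δ → ‖b - p‖ < δ →
        ContDiffAt ℝ k (F G x) (w, b) ∧ ∀ j ≤ k, ‖iteratedFDeriv ℝ j (F G x) (w, b)‖ ≤ B := by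
  obtain ⟨ε, B, C, hε, hB0, hC, hev⟩ := unif_F_local (G := G) (y := y)
    (w₀ := (1 / 2 : ℝ) • q) (b₀ := q) (hB.smooth_mid hq (by norm_num) (by norm_num)) k
  have hy : (⟨y, q⟩ : TangentBundle (𝓡 n) M).1 ∈ (chartAt (EuclideanSpace ℝ (Fin n)) y).source :=
    mem_chart_source _ y
  have h1 : ContinuousAt (fun p : TangentBundle (𝓡 n) M => p.1)
      (⟨y, q⟩ : TangentBundle (𝓡 n) M) :=
    (FiberBundle.continuous_proj (EuclideanSpace ℝ (Fin n))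
      (fun p : M => TangentSpace (𝓡 n) p)).continuousAt
  have h2 : ∀ᶠ p in 𝓝 (⟨y, q⟩ : TangentBundle (𝓡 n) M),
      dist (tmc y p) (tmc y (⟨y, q⟩ : TangentBundle (𝓡 n) M)) < ε / 2 :=
    map_nhds_tmc (x₀ := y) (p := (⟨y, q⟩ : TangentBundle (𝓡 n) M)) hy
      (P := fun a => dist a (tmc y (⟨y, q⟩ : TangentBundle (𝓡 n) M)) < ε / 2)
      (Metric.ball_mem_nhds _ (by positivity))
  refine ⟨_, (h1.eventually hev).and h2, ε / (2 * C), B, by positivity, hB0, ?_⟩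
  rintro x p w b ⟨⟨hx, hbd, hx2⟩, hp⟩ hw hb
  have hp2 : dist (dphi y x p) (dphi y y q) < ε / 2 := lt_of_le_of_lt (le_max_right _ _) hp
  rw [dist_eq_norm] at hp2
  have key : ∀ u : TangentSpace (𝓡 n) x, ‖u‖ < ε / (2 * C) → ‖dphi y x u‖ < ε / 2 := by
    intro u hu
    have h3 := (hbd u).1
    rw [lt_div_iff₀ (by positivity)] at hu
    nlinarith
  refine hx2 w b ?_ ?_
  · rw [dist_eq_norm]
    have e1 : dphi y x w - dphi y y ((1 / 2 : ℝ) • q) =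
        dphi y x (w - (1 / 2 : ℝ) • p) + (1 / 2 : ℝ) • (dphi y x p - dphi y y q) := by
      rw [map_sub, map_smul, map_smul, smul_sub]; abel
    rw [e1]
    refine (norm_add_le _ _).trans_lt ?_
    rw [norm_smul]
    have h5 : ‖(1 / 2 : ℝ)‖ = 1 / 2 := by norm_num
    rw [h5]
    have h4 := key _ hw
    have h6 := norm_nonneg (dphi y x p - dphi y y q)
    linarith
  · rw [dist_eq_norm]
    have e1 : dphi y x b - dphi y y q = dphi y x (b - p) + (dphi y x p - dphi y y q) := by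
      rw [map_sub]; abel
    rw [e1]
    refine (norm_add_le _ _).trans_lt ?_
    have h4 := key _ hb
    linarith

/-- **(N7) for `F`**: uniform `C^k` bounds near `(p/2, p)`, `p ∈ K(x)`. -/
theorem unif_F (hB : Base G) (k : ℕ) : ∃ δ B : ℝ, 0 < δ ∧ 0 ≤ B ∧
    ∀ x : M, ∀ p w b : TangentSpace (𝓡 n) x, p ∈ G.K x →
      ‖w - (1 / 2 : ℝ) • p‖ < δ → ‖b - p‖ < δ →
      ContDiffAt ℝ k (F G x) (w, b) ∧ ∀ j ≤ k, ‖iteratedFDeriv ℝ j (F G x) (w, b)‖ ≤ B := by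
  let P : Set (TangentBundle (𝓡 n) M) → Prop := fun S => ∃ δ B : ℝ, 0 < δ ∧ 0 ≤ B ∧
    ∀ x : M, ∀ p w b : TangentSpace (𝓡 n) x, (⟨x, p⟩ : TangentBundle (𝓡 n) M) ∈ S →
      ‖w - (1 / 2 : ℝ) • p‖ < δ → ‖b - p‖ < δ →
      ContDiffAt ℝ k (F G x) (w, b) ∧ ∀ j ≤ k, ‖iteratedFDeriv ℝ j (F G x) (w, b)‖ ≤ B
  have hP : P G.KT := by
    refine hB.isCompact_KT.induction_on (p := P) ?_ ?_ ?_ ?_
    · exact ⟨1, 0, one_pos, le_rfl, fun x p w b h => (Set.notMem_empty _ h).elim⟩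
    · rintro s t hst ⟨δ, B, hδ, hB0, h⟩
      exact ⟨δ, B, hδ, hB0, fun x p w b hp => h x p w b (hst hp)⟩
    · rintro s t ⟨δ, B, hδ, hB0, h⟩ ⟨δ', B', hδ', hB0', h'⟩
      refine ⟨min δ δ', max B B', lt_min hδ hδ', le_max_of_le_left hB0, ?_⟩
      rintro x p w b (hp | hp) hw hb
      · obtain ⟨h1, h2⟩ := h x p w b hp (hw.trans_le (min_le_left _ _))
          (hb.trans_le (min_le_left _ _))
        exact ⟨h1, fun j hj => (h2 j hj).trans (le_max_left _ _)⟩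
      · obtain ⟨h1, h2⟩ := h' x p w b hp (hw.trans_le (min_le_right _ _))
          (hb.trans_le (min_le_right _ _))
        exact ⟨h1, fun j hj => (h2 j hj).trans (le_max_right _ _)⟩
    · rintro ⟨y, q⟩ hq
      obtain ⟨N, hN, δ, B, hδ, hB0, h⟩ := unif_F_near hB hq k
      exact ⟨N, mem_nhdsWithin_of_mem_nhds hN, δ, B, hδ, hB0, h⟩
  obtain ⟨δ, B, hδ, hB0, h⟩ := hP
  exact ⟨δ, B, hδ, hB0, fun x p w b hp => h x p w b hp⟩

/-- **(N7) for `Hf`**: uniform `C^k` bounds in a uniform neighbourhood of `K(x)`. -/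
theorem unif_Hf (hB : Base G) (k : ℕ) : ∃ δ B : ℝ, 0 < δ ∧ 0 ≤ B ∧
    ∀ x : M, ∀ p q : TangentSpace (𝓡 n) x, p ∈ G.K x → ‖q - p‖ < δ → CkB (F G x) k B q := by
  obtain ⟨δ, B, hδ, hB0, h⟩ := unif_F hB (k + 2)
  refine ⟨δ, 1 + B, hδ, by positivity, fun x p q hp hq => ?_⟩
  have hq2 : ‖(1 / 2 : ℝ) • q - (1 / 2 : ℝ) • p‖ < δ := by
    rw [← smul_sub, norm_smul]
    have h5 : ‖(1 / 2 : ℝ)‖ = 1 / 2 := by norm_num
    rw [h5]
    have := norm_nonneg (q - p)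
    linarith
  obtain ⟨h1, h2⟩ := h x p _ q hp hq2 hq
  exact HfA_bound (k := k) h1 h2

end Crest.Agent.R226.NF946
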