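/-
R226 / E2-NF (helper946): part 5, (N7) along lines.
-/
import Crest.Agent.R226.NF4_946

set_option autoImplicit false

open MeasureTheory Bundle Set Filter
open scoped Manifold ContDiff Bundle ENNReal Topology
open Crest.GeometryTopology.MTW
open Crest.Agent.R226.Calc347 Crest.Agent.R226.MTWConc117 Crest.Agent.R226.Base347

namespace Crest.Agent.R226.NF946

section gen
variable {E : Type*} [NormedAddCommGroup E] [NormedSpace ℝ E]
variable {W : Type*} [NormedAddCommGroup W] [NormedSpace ℝ W]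

theorem line_bound_gen {g : E → W} {k : ℕ} {B : ℝ} {p η : E} {s : ℝ}
    (h : ContDiffAt ℝ k g (p + s • η)) (hb : ∀ j ≤ k, ‖iteratedFDeriv ℝ j g (p + s • η)‖ ≤ B) :
    ContDiffAt ℝ k (fun s : ℝ => g (p + s • η)) s ∧
    ∀ j ≤ k, ‖iteratedFDeriv ℝ j (fun s : ℝ => g (p + s • η)) s‖ ≤ B * ‖η‖ ^ j := by
  let A : ℝ →L[ℝ] E := ContinuousLinearMap.toSpanSingleton ℝ η
  have hA : ∀ s : ℝ, A s + p = p + s • η := by
    intro s; rw [add_comm]; rfl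
  have e : (fun s : ℝ => g (p + s • η)) = fun s : ℝ => g (A s + p) := by
    funext s; rw [hA]
  have hAn : ‖A‖ ≤ ‖η‖ := by
    have := ContinuousLinearMap.norm_toSpanSingleton (𝕜 := ℝ) η
    exact this.le
  have h1 : ContDiffAt ℝ k g (A s + p) := by rw [hA]; exact h
  rw [e]
  refine ⟨contDiffAt_comp_affine _ _ h1, fun j hj => ?_⟩
  refine (norm_iteratedFDeriv_comp_affine_le' _ _ h1 hj hAn).trans ?_
  rw [hA]
  gcongr
  exact hb j hj

theorem apply_bound_gen {V : Type*} [NormedAddCommGroup V] [NormedSpace ℝ V]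
    {g : E → V →L[ℝ] W} {k : ℕ} {B : ℝ} {z : E}
    (h : ContDiffAt ℝ k g z) (hb : ∀ j ≤ k, ‖iteratedFDeriv ℝ j g z‖ ≤ B) (u : V) :
    ContDiffAt ℝ k (fun z => g z u) z ∧
    ∀ j ≤ k, ‖iteratedFDeriv ℝ j (fun z => g z u) z‖ ≤ B * ‖u‖ := by
  refine ⟨h.clm_apply contDiffAt_const, fun j hj => ?_⟩
  refine (norm_iteratedFDeriv_clm_apply_const h (by exact_mod_cast hj)).trans ?_
  rw [mul_comm]
  gcongr
  exact hb j hj

end gen

section abs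
variable {E : Type*} [NormedAddCommGroup E] [InnerProductSpace ℝ E]

theorem CkB.apply {F : E × E → ℝ} {k : ℕ} {B : ℝ} {q : E} (h : CkB F k B q) (u v : E) :
    ContDiffAt ℝ k (fun q => HfA F q u v) q ∧
    ∀ j ≤ k, ‖iteratedFDeriv ℝ j (fun q => HfA F q u v) q‖ ≤ B * ‖u‖ * ‖v‖ := by
  obtain ⟨h1, h2⟩ := apply_bound_gen h.1 h.2 u
  exact apply_bound_gen h1 h2 v

/-- `C^k` bounds of the entries of `Hf` along lines -/
theorem CkB.line {F : E × E → ℝ} {k : ℕ} {B : ℝ} {p η : E} {s : ℝ} (h : CkB F k B (p + s • η))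
    (u v : E) :
    ContDiffAt ℝ k (fun s : ℝ => HfA F (p + s • η) u v) s ∧
    ∀ j ≤ k, |iteratedDeriv j (fun s : ℝ => HfA F (p + s • η) u v) s| ≤
      B * ‖u‖ * ‖v‖ * ‖η‖ ^ j := by
  obtain ⟨h1, h2⟩ := h.apply u v
  obtain ⟨h3, h4⟩ := line_bound_gen h1 h2
  refine ⟨h3, fun j hj => ?_⟩
  rw [← Real.norm_eq_abs, ← norm_iteratedFDeriv_eq_norm_iteratedDeriv]
  exact h4 j hj

/-- Lipschitz bound of the entries -/
theorem CkB.lip {F : E × E → ℝ} {B : ℝ} {p q : E}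
    (h : ∀ s : ℝ, 0 ≤ s → s ≤ 1 → CkB F 1 B (p + s • (q - p))) (u v : E) :
    |HfA F q u v - HfA F p u v| ≤ B * ‖u‖ * ‖v‖ * ‖q - p‖ := by
  have hd : ∀ s ∈ Icc (0 : ℝ) 1,
      DifferentiableAt ℝ (fun s : ℝ => HfA F (p + s • (q - p)) u v) s := fun s hs =>
    ((h s hs.1 hs.2).line u v).1.differentiableAt (by norm_num)
  have hb : ∀ s ∈ Icc (0 : ℝ) 1,
      ‖deriv (fun s : ℝ => HfA F (p + s • (q - p)) u v) s‖ ≤ B * ‖u‖ * ‖v‖ * ‖q - p‖ := by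
    intro s hs
    have h1 := ((h s hs.1 hs.2).line u v).2 1 le_rfl
    rw [iteratedDeriv_one, pow_one] at h1
    exact h1
  have h2 := (convex_Icc (0 : ℝ) 1).norm_image_sub_le_of_norm_deriv_le hd hb
    (left_mem_Icc.2 zero_le_one) (right_mem_Icc.2 zero_le_one)
  simp only [one_smul, zero_smul, add_zero, sub_zero, norm_one, mul_one, Real.norm_eq_abs,
    add_sub_cancel] at h2
  exact h2

end abs

variable {n : ℕ} {M : Type*} [MetricSpace M] [ChartedSpace (EuclideanSpace ℝ (Fin n)) M]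
  [IsManifold (𝓡 n) ∞ M]
  [RiemannianBundle (fun p : M => TangentSpace (𝓡 n) p)]
  [IsContMDiffRiemannianBundle (𝓡 n) ∞ (EuclideanSpace ℝ (Fin n))
    (fun p : M => TangentSpace (𝓡 n) p)]
  {G : GeoData n M}

/-- **(N7) along lines** : uniform `C^k` bounds of `s ↦ Hf(p + s η)(u, v)`. -/
theorem unif_Hf_line (hB : Base G) (k : ℕ) : ∃ δ B : ℝ, 0 < δ ∧ 0 ≤ B ∧
    ∀ x : M, ∀ p q η : TangentSpace (𝓡 n) x, ∀ s : ℝ, p ∈ G.K x → ‖q + s • η - p‖ < δ →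
      ∀ u v : TangentSpace (𝓡 n) x,
      ContDiffAt ℝ k (fun s : ℝ => Hf G x (q + s • η) u v) s ∧
      ∀ j ≤ k, |iteratedDeriv j (fun s : ℝ => Hf G x (q + s • η) u v) s| ≤
        B * ‖u‖ * ‖v‖ * ‖η‖ ^ j := by
  obtain ⟨δ, B, hδ, hB0, h⟩ := unif_Hf hB k
  exact ⟨δ, B, hδ, hB0, fun x p q η s hp hq u v => (h x p _ hp hq).line u v⟩

/-- boundedness of `Hf` near `K` -/
theorem unif_Hf_bdd (hB : Base G) : ∃ δ B : ℝ, 0 < δ ∧ 0 ≤ B ∧
    ∀ x : M, ∀ p q : TangentSpace (𝓡 n) x, p ∈ G.K x → ‖q - p‖ < δ →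
      ∀ u v : TangentSpace (𝓡 n) x, |Hf G x q u v| ≤ B * ‖u‖ * ‖v‖ := by
  obtain ⟨δ, B, hδ, hB0, h⟩ := unif_Hf hB 0
  refine ⟨δ, B, hδ, hB0, fun x p q hp hq u v => ?_⟩
  have h1 := ((h x p q hp hq).apply u v).2 0 le_rfl
  rw [norm_iteratedFDeriv_zero] at h1
  exact h1

/-- Lipschitz continuity of `Hf` near `K` -/
theorem unif_Hf_lip (hB : Base G) : ∃ δ B : ℝ, 0 < δ ∧ 0 ≤ B ∧
    ∀ x : M, ∀ p q q' : TangentSpace (𝓡 n) x, p ∈ G.K x → ‖q - p‖ < δ → ‖q' - p‖ < δ →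
      ∀ u v : TangentSpace (𝓡 n) x,
        |Hf G x q' u v - Hf G x q u v| ≤ B * ‖u‖ * ‖v‖ * ‖q' - q‖ := by
  obtain ⟨δ, B, hδ, hB0, h⟩ := unif_Hf hB 1
  refine ⟨δ, B, hδ, hB0, fun x p q q' hp hq hq' u v => ?_⟩
  refine CkB.lip (F := F G x) (fun s h0 h1 => h x p _ hp ?_) u v
  have e : q + s • (q' - q) - p = (1 - s) • (q - p) + s • (q' - p) := by
    module
  rw [e]
  have h2 : ‖(1 - s) • (q - p) + s • (q' - p)‖ ≤ (1 - s) * ‖q - p‖ + s * ‖q' - p‖ := by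
    refine (norm_add_le _ _).trans ?_
    rw [norm_smul, norm_smul, Real.norm_of_nonneg h0, Real.norm_of_nonneg (by linarith)]
  refine h2.trans_lt ?_
  have hm : (1 - s) * ‖q - p‖ + s * ‖q' - p‖ ≤ max ‖q - p‖ ‖q' - p‖ := by
    have a1 := le_max_left ‖q - p‖ ‖q' - p‖
    have a2 := le_max_right ‖q - p‖ ‖q' - p‖
    nlinarith
  exact hm.trans_lt (max_lt hq hq')

end Crest.Agent.R226.NF946
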