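/-
R226 / E2-NF (helper946): part 6.  Uniform `C^k` bounds of the cost near `(θ₁ p, θ₂ p)`, of
`phi x ξ` near `θ K(x)` (`0 ≤ θ < 1`), and (N4): MTW in terms of
`Rf G x p ξ = 2 phi x ξ (p/2) - phi x ξ p = ⟪Hf(p)⁻¹ ξ, ξ⟫`.
-/
import Crest.Agent.R226.NF5_946
import Crest.Agent.R226.NF2_946

set_option autoImplicit false

open MeasureTheory Bundle Set Filter
open scoped Manifold ContDiff Bundle ENNReal Topology
open Crest.GeometryTopology.MTW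
open Crest.Agent.R226.Calc347 Crest.Agent.R226.MTWConc117 Crest.Agent.R226.Base347
open Crest.Agent.R226.TMSmooth771 Crest.Agent.R226.LoeperUnif128

namespace Crest.Agent.R226.NF946

section abs
variable {E : Type*} [NormedAddCommGroup E] [InnerProductSpace ℝ E]

theorem PkB.apply {F : E × E → ℝ} {k : ℕ} {B : ℝ} {q : E} (h : PkB F k B q) (u v : E) :
    ContDiffAt ℝ k (fun q => PfA F q u v) q ∧
    ∀ j ≤ k, ‖iteratedFDeriv ℝ j (fun q => PfA F q u v) q‖ ≤ B * ‖u‖ * ‖v‖ := by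
  obtain ⟨h1, h2⟩ := apply_bound_gen h.1 h.2 u
  exact apply_bound_gen h1 h2 v

theorem PkB.line {F : E × E → ℝ} {k : ℕ} {B : ℝ} {p η : E} {s : ℝ} (h : PkB F k B (p + s • η))
    (u v : E) :
    ContDiffAt ℝ k (fun s : ℝ => PfA F (p + s • η) u v) s ∧
    ∀ j ≤ k, |iteratedDeriv j (fun s : ℝ => PfA F (p + s • η) u v) s| ≤
      B * ‖u‖ * ‖v‖ * ‖η‖ ^ j := by
  obtain ⟨h1, h2⟩ := h.apply u v
  obtain ⟨h3, h4⟩ := line_bound_gen h1 h2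
  refine ⟨h3, fun j hj => ?_⟩
  rw [← Real.norm_eq_abs, ← norm_iteratedFDeriv_eq_norm_iteratedDeriv]
  exact h4 j hj

end abs

section real

/-- a `C²` function on `[0,1]` with `|g''| ≤ C` is semiconvex: chord estimate -/
theorem chord_le {g : ℝ → ℝ} {C : ℝ} (hg : ∀ s ∈ Icc (0 : ℝ) 1, ContDiffAt ℝ 2 g s)
    (hC : ∀ s ∈ Icc (0 : ℝ) 1, -C ≤ iteratedDeriv 2 g s) {t : ℝ} (ht : t ∈ Icc (0 : ℝ) 1) :
    g t ≤ (1 - t) * g 0 + t * g 1 + C / 2 * (t * (1 - t)) := by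
  -- `g + C s²/2` is convex
  have hconv : ConvexOn ℝ (Icc (0 : ℝ) 1) (fun s => g s + C / 2 * s ^ 2) := by
    refine convexOn_of_deriv2_nonneg (convex_Icc 0 1) ?_ ?_ ?_ ?_
    · intro s hs
      exact ((hg s hs).continuousAt.continuousWithinAt).add (by fun_prop)
    · intro s hs
      have hs' := interior_subset hs
      exact (((hg s hs').differentiableAt (by norm_num)).add (by fun_prop)).differentiableWithinAt
    · rw [interior_Icc]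
      intro s hs
      have hs' : s ∈ Icc (0 : ℝ) 1 := Ioo_subset_Icc_self hs
      have h1 : ContDiffAt ℝ 2 (fun s => g s + C / 2 * s ^ 2) s := (hg s hs').add (by fun_prop)
      have h2 : DifferentiableAt ℝ (deriv (fun s => g s + C / 2 * s ^ 2)) s :=
        differentiableAt_deriv_of_contDiffAt_two h1
      exact h2.differentiableWithinAt
    · rw [interior_Icc]
      intro s hs
      have hs' : s ∈ Icc (0 : ℝ) 1 := Ioo_subset_Icc_self hs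
      have h3 : iteratedDeriv 2 (fun s => g s + C / 2 * s ^ 2) s = iteratedDeriv 2 g s + C := by
        have h4 := iteratedDeriv_add (n := 2) (f := g) (g := fun s => C / 2 * s ^ 2) (x := s)
          (hg s hs') (by fun_prop)
        have h5 : iteratedDeriv 2 (fun s : ℝ => C / 2 * s ^ 2) s = C := by
          rw [iteratedDeriv_two_eq]
          have h6 : deriv (fun s : ℝ => C / 2 * s ^ 2) = fun s => C * s := by
            funext s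
            have h7 : HasDerivAt (fun s : ℝ => C / 2 * s ^ 2) (C / 2 * (2 * s)) s := by
              have := (hasDerivAt_pow 2 s).const_mul (C / 2)
              simpa using this
            rw [h7.deriv]; ring
          rw [h6]
          have h8 : HasDerivAt (fun s : ℝ => C * s) (C * 1) s := (hasDerivAt_id s).const_mul C
          rw [h8.deriv, mul_one]
        rw [h5] at h4
        exact h4
      have h9 : deriv^[2] (fun s => g s + C / 2 * s ^ 2) s =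
          iteratedDeriv 2 (fun s => g s + C / 2 * s ^ 2) s := by
        rw [iteratedDeriv_eq_iterate]
      rw [h9, h3]
      have := hC s hs'
      linarith
  have h := hconv.2 (left_mem_Icc.2 zero_le_one) (right_mem_Icc.2 zero_le_one)
    (sub_nonneg.2 ht.2) ht.1 (by ring)
  simp only [smul_eq_mul, mul_zero, mul_one, zero_add] at h
  have e : g t + C / 2 * t ^ 2 ≤ (1 - t) * (g 0 + C / 2 * 0 ^ 2) + t * (g 1 + C / 2 * 1 ^ 2) := h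
  nlinarith [e]

end real

variable {n : ℕ} {M : Type*} [MetricSpace M] [ChartedSpace (EuclideanSpace ℝ (Fin n)) M]
  [IsManifold (𝓡 n) ∞ M]
  [RiemannianBundle (fun p : M => TangentSpace (𝓡 n) p)]
  [IsContMDiffRiemannianBundle (𝓡 n) ∞ (EuclideanSpace ℝ (Fin n))
    (fun p : M => TangentSpace (𝓡 n) p)]
  {G : GeoData n M}

/-- local uniform bounds near `(θ₁ q, θ₂ q)` -/
theorem unif_Ft_near {y : M} {q : TangentSpace (𝓡 n) y} {θ₁ θ₂ : ℝ} (h1 : |θ₁| ≤ 1)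
    (h2 : |θ₂| ≤ 1)
    (hs : ContMDiffAt ((𝓡 n).prod (𝓡 n)) 𝓘(ℝ) ∞ (fun q : M × M => halfDistSq q.1 q.2)
      (G.ex y (θ₁ • q), G.ex y (θ₂ • q))) (k : ℕ) :
    ∃ N ∈ 𝓝 (⟨y, q⟩ : TangentBundle (𝓡 n) M), ∃ δ B : ℝ, 0 < δ ∧ 0 ≤ B ∧
      ∀ x : M, ∀ p w b : TangentSpace (𝓡 n) x, (⟨x, p⟩ : TangentBundle (𝓡 n) M) ∈ N →
        ‖w - θ₁ • p‖ < δ → ‖b - θ₂ • p‖ < δ →
        ContDiffAt ℝ k (F G x) (w, b) ∧ ∀ j ≤ k, ‖iteratedFDeriv ℝ j (F G x) (w, b)‖ ≤ B := by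
  obtain ⟨ε, B, C, hε, hB0, hC, hev⟩ := unif_F_local (G := G) (y := y)
    (w₀ := θ₁ • q) (b₀ := θ₂ • q) hs k
  have hy : (⟨y, q⟩ : TangentBundle (𝓡 n) M).1 ∈ (chartAt (EuclideanSpace ℝ (Fin n)) y).source :=
    mem_chart_source _ y
  have h3 : ContinuousAt (fun p : TangentBundle (𝓡 n) M => p.1)
      (⟨y, q⟩ : TangentBundle (𝓡 n) M) :=
    (FiberBundle.continuous_proj (EuclideanSpace ℝ (Fin n))
      (fun p : M => TangentSpace (𝓡 n) p)).continuousAt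
  have h4 : ∀ᶠ p in 𝓝 (⟨y, q⟩ : TangentBundle (𝓡 n) M),
      dist (tmc y p) (tmc y (⟨y, q⟩ : TangentBundle (𝓡 n) M)) < ε / 2 :=
    map_nhds_tmc (x₀ := y) (p := (⟨y, q⟩ : TangentBundle (𝓡 n) M)) hy
      (P := fun a => dist a (tmc y (⟨y, q⟩ : TangentBundle (𝓡 n) M)) < ε / 2)
      (Metric.ball_mem_nhds _ (by positivity))
  refine ⟨_, (h3.eventually hev).and h4, ε / (2 * C), B, by positivity, hB0, ?_⟩
  rintro x p w b ⟨⟨hx, hbd, hx2⟩, hp⟩ hw hb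
  have hp2 : dist (dphi y x p) (dphi y y q) < ε / 2 := lt_of_le_of_lt (le_max_right _ _) hp
  rw [dist_eq_norm] at hp2
  have key : ∀ u : TangentSpace (𝓡 n) x, ‖u‖ < ε / (2 * C) → ‖dphi y x u‖ < ε / 2 := by
    intro u hu
    have h3 := (hbd u).1
    rw [lt_div_iff₀ (by positivity)] at hu
    nlinarith
  have key2 : ∀ θ : ℝ, |θ| ≤ 1 → ∀ u : TangentSpace (𝓡 n) x, ‖u - θ • p‖ < ε / (2 * C) →
      dist (dphi y x u) (dphi y y (θ • q)) < ε := by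
    intro θ hθ u hu
    rw [dist_eq_norm]
    have e1 : dphi y x u - dphi y y (θ • q) =
        dphi y x (u - θ • p) + θ • (dphi y x p - dphi y y q) := by
      rw [map_sub, map_smul, map_smul, smul_sub]; abel
    rw [e1]
    refine (norm_add_le _ _).trans_lt ?_
    rw [norm_smul, Real.norm_eq_abs]
    have h4 := key _ hu
    have h6 := norm_nonneg (dphi y x p - dphi y y q)
    have h7 : |θ| * ‖dphi y x p - dphi y y q‖ ≤ 1 * ‖dphi y x p - dphi y y q‖ := by gcongr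
    linarith
  exact hx2 w b (key2 θ₁ h1 w hw) (key2 θ₂ h2 b hb)

/-- uniform bounds near `(θ₁ p, θ₂ p)`, `p ∈ K(x)` -/
theorem unif_Ft (hB : Base G) {θ₁ θ₂ : ℝ} (h1 : |θ₁| ≤ 1) (h2 : |θ₂| ≤ 1)
    (hs : ∀ y, ∀ q ∈ G.K y, ContMDiffAt ((𝓡 n).prod (𝓡 n)) 𝓘(ℝ) ∞
      (fun q : M × M => halfDistSq q.1 q.2) (G.ex y (θ₁ • q), G.ex y (θ₂ • q))) (k : ℕ) :
    ∃ δ B : ℝ, 0 < δ ∧ 0 ≤ B ∧
    ∀ x : M, ∀ p w b : TangentSpace (𝓡 n) x, p ∈ G.K x →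
      ‖w - θ₁ • p‖ < δ → ‖b - θ₂ • p‖ < δ →
      ContDiffAt ℝ k (F G x) (w, b) ∧ ∀ j ≤ k, ‖iteratedFDeriv ℝ j (F G x) (w, b)‖ ≤ B := by
  let P : Set (TangentBundle (𝓡 n) M) → Prop := fun S => ∃ δ B : ℝ, 0 < δ ∧ 0 ≤ B ∧
    ∀ x : M, ∀ p w b : TangentSpace (𝓡 n) x, (⟨x, p⟩ : TangentBundle (𝓡 n) M) ∈ S →
      ‖w - θ₁ • p‖ < δ → ‖b - θ₂ • p‖ < δ →
      ContDiffAt ℝ k (F G x) (w, b) ∧ ∀ j ≤ k, ‖iteratedFDeriv ℝ j (F G x) (w, b)‖ ≤ B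
  have hP : P G.KT := by
    refine hB.isCompact_KT.induction_on (p := P) ?_ ?_ ?_ ?_
    · exact ⟨1, 0, one_pos, le_rfl, fun x p w b h => (Set.notMem_empty _ h).elim⟩
    · rintro s t hst ⟨δ, B, hδ, hB0, h⟩
      exact ⟨δ, B, hδ, hB0, fun x p w b hp => h x p w b (hst hp)⟩
    · rintro s t ⟨δ, B, hδ, hB0, h⟩ ⟨δ', B', hδ', hB0', h'⟩
      refine ⟨min δ δ', max B B', lt_min hδ hδ', le_max_of_le_left hB0, ?_⟩
      rintro x p w b (hp | hp) hw hb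
      · obtain ⟨h1, h2⟩ := h x p w b hp (hw.trans_le (min_le_left _ _))
          (hb.trans_le (min_le_left _ _))
        exact ⟨h1, fun j hj => (h2 j hj).trans (le_max_left _ _)⟩
      · obtain ⟨h1, h2⟩ := h' x p w b hp (hw.trans_le (min_le_right _ _))
          (hb.trans_le (min_le_right _ _))
        exact ⟨h1, fun j hj => (h2 j hj).trans (le_max_right _ _)⟩
    · rintro ⟨y, q⟩ hq
      obtain ⟨N, hN, δ, B, hδ, hB0, h⟩ := unif_Ft_near h1 h2 (hs y q hq) k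
      exact ⟨N, mem_nhdsWithin_of_mem_nhds hN, δ, B, hδ, hB0, h⟩
  obtain ⟨δ, B, hδ, hB0, h⟩ := hP
  exact ⟨δ, B, hδ, hB0, fun x p w b hp => h x p w b hp⟩

/-- uniform bounds of the cost near `(0, θ p)`, `p ∈ K(x)`, `0 ≤ θ < 1` -/
theorem unif_F0 (hB : Base G) {θ : ℝ} (h0 : 0 ≤ θ) (h1 : θ < 1) (k : ℕ) :
    ∃ δ B : ℝ, 0 < δ ∧ 0 ≤ B ∧
    ∀ x : M, ∀ p w b : TangentSpace (𝓡 n) x, p ∈ G.K x → ‖w‖ < δ → ‖b - θ • p‖ < δ →
      ContDiffAt ℝ k (F G x) (w, b) ∧ ∀ j ≤ k, ‖iteratedFDeriv ℝ j (F G x) (w, b)‖ ≤ B := by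
  obtain ⟨δ, B, hδ, hB0, h⟩ := unif_Ft hB (θ₁ := 0) (θ₂ := θ) (by simp)
    (by rw [abs_of_nonneg h0]; exact h1.le) (fun y q hq => by
      rw [zero_smul, G.ex_zero]
      exact hB.smooth_cost y _ (hB.smul_mem_I hq h0 h1)) k
  exact ⟨δ, B, hδ, hB0, fun x p w b hp hw hb => h x p w b hp (by simpa using hw) hb⟩

omit [IsContMDiffRiemannianBundle (𝓡 n) ∞ (EuclideanSpace ℝ (Fin n))
    (fun p : M => TangentSpace (𝓡 n) p)] in
/-- `phi` as an entry of `PfA` -/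
theorem phi_eq_PfA {x : M} {q : TangentSpace (𝓡 n) x} (h : ContDiffAt ℝ 2 (F G x) (0, q))
    (ξ : TangentSpace (𝓡 n) x) : G.phi x ξ q = PfA (F G x) q ξ ξ := by
  rw [PfA_apply h]
  have h1 := hess_fst h ξ
  simp only [zero_add] at h1
  exact h1.2

/-- uniform `C^k` bounds of `phi` near `θ K(x)` along lines -/
theorem unif_phi (hB : Base G) {θ : ℝ} (h0 : 0 ≤ θ) (h1 : θ < 1) (k : ℕ) :
    ∃ δ B : ℝ, 0 < δ ∧ 0 ≤ B ∧
    ∀ x : M, ∀ p q η ξ : TangentSpace (𝓡 n) x, ∀ s : ℝ, p ∈ G.K x →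
      ‖q + s • η - θ • p‖ < δ →
      ContDiffAt ℝ k (fun s : ℝ => G.phi x ξ (q + s • η)) s ∧
      ∀ j ≤ k, |iteratedDeriv j (fun s : ℝ => G.phi x ξ (q + s • η)) s| ≤
        B * ‖ξ‖ ^ 2 * ‖η‖ ^ j := by
  obtain ⟨δ, B, hδ, hB0, h⟩ := unif_F0 hB h0 h1 (k + 2)
  refine ⟨δ, B, hδ, hB0, fun x p q η ξ s hp hq => ?_⟩
  have h2le : (2 : WithTop ℕ∞) ≤ ((k + 2 : ℕ) : WithTop ℕ∞) := by
    have : (2 : ℕ) ≤ k + 2 := by omega
    exact_mod_cast this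
  obtain ⟨h2, h3⟩ := h x p 0 (q + s • η) hp (by simpa using hδ) hq
  obtain ⟨h4, h5⟩ := (PfA_bound (F := F G x) h2 h3).line ξ ξ
  have hev : (fun s : ℝ => G.phi x ξ (q + s • η)) =ᶠ[𝓝 s]
      fun s : ℝ => PfA (F G x) (q + s • η) ξ ξ := by
    have hc : ContinuousAt (fun s : ℝ => ‖q + s • η - θ • p‖) s := by fun_prop
    filter_upwards [hc.eventually_lt continuousAt_const hq] with t ht
    exact phi_eq_PfA ((h x p 0 (q + t • η) hp (by simpa using hδ) ht).1.of_le h2le) ξ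
  refine ⟨h4.congr_of_eventuallyEq hev, fun j hj => ?_⟩
  rw [hev.iteratedDeriv_eq j]
  refine (h5 j hj).trans (le_of_eq ?_)
  ring

/-- boundedness of `phi` on `θ K(x)` -/
theorem unif_phi_bdd (hB : Base G) {θ : ℝ} (h0 : 0 ≤ θ) (h1 : θ < 1) :
    ∃ B : ℝ, 0 ≤ B ∧ ∀ x : M, ∀ p ξ : TangentSpace (𝓡 n) x, p ∈ G.K x →
      |G.phi x ξ (θ • p)| ≤ B * ‖ξ‖ ^ 2 := by
  obtain ⟨δ, B, hδ, hB0, h⟩ := unif_phi hB h0 h1 0
  refine ⟨B, hB0, fun x p ξ hp => ?_⟩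
  have h2 := (h x p (θ • p) 0 ξ 0 hp (by simpa using hδ)).2 0 le_rfl
  simpa using h2

/-- `⟪Hf(p)⁻¹ ξ, ξ⟫` for `p ∈ I` -/
noncomputable def Rf (G : GeoData n M) (x : M) (ξ p : TangentSpace (𝓡 n) x) : ℝ :=
  2 * G.phi x ξ ((1 / 2 : ℝ) • p) - G.phi x ξ p

omit [IsContMDiffRiemannianBundle (𝓡 n) ∞ (EuclideanSpace ℝ (Fin n))
    (fun p : M => TangentSpace (𝓡 n) p)] in
/-- lower bound of `Rf` by test vectors -/
theorem le_Rf (hB : Base G) {x : M} {p : TangentSpace (𝓡 n) x} (hp : p ∈ G.I x)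
    (ξ w : TangentSpace (𝓡 n) x) : 2 * inner ℝ w ξ - Hf G x p w w ≤ Rf G x ξ p := by
  have h := phi_le_Hf hB hp ξ ((1 / 2 : ℝ) • w)
  have e : Hf G x p ((1 / 2 : ℝ) • w) ((1 / 2 : ℝ) • w) = 1 / 4 * Hf G x p w w := by
    rw [map_smul, map_smul, smul_apply, smul_eq_mul, smul_eq_mul]; ring
  rw [e, real_inner_smul_left] at h
  unfold Rf
  linarith

theorem Rf_eq [CompactSpace M] (hB : Base G) {x : M} {p : TangentSpace (𝓡 n) x} (hp : p ∈ G.I x)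
    {ξ v : TangentSpace (𝓡 n) x} (hv : ∀ η, Hf G x p v η = inner ℝ ξ η) :
    Rf G x ξ p = Hf G x p v v := by
  unfold Rf
  rw [phi_eq hB hp hv]; ring

/-- **(N4), convexity form** : `Rf` is uniformly semiconvex along segments orthogonal to `ξ`. -/
theorem Rf_semiconvex (hB : Base G) (hM : MTWFacts G) : ∃ C : ℝ, 0 ≤ C ∧ ∀ x : M,
    ∀ p q ξ : TangentSpace (𝓡 n) x, segment ℝ p q ⊆ G.I x → inner ℝ (q - p) ξ = 0 →
    ∀ t : ℝ, 0 ≤ t → t ≤ 1 →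
      Rf G x ξ ((1 - t) • p + t • q) ≤ (1 - t) * Rf G x ξ p + t * Rf G x ξ q +
        C * ‖ξ‖ ^ 2 * ‖q - p‖ ^ 2 * (t * (1 - t)) := by
  obtain ⟨δ, B, hδ, hB0, h⟩ := unif_phi hB (θ := 1 / 2) (by norm_num) (by norm_num) 2
  refine ⟨B, hB0, fun x p q ξ hseg hξ t h0 h1 => ?_⟩
  have hc := hM.concave x p q ξ hseg hξ t h0 h1
  -- semiconvexity of `phi x ξ (·/2)`
  set g : ℝ → ℝ := fun s => G.phi x ξ ((1 / 2 : ℝ) • p + s • ((1 / 2 : ℝ) • (q - p))) with hg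
  have hmem : ∀ s ∈ Icc (0 : ℝ) 1, (1 - s) • p + s • q ∈ G.K x := fun s hs =>
    hB.I_subset x (hseg ⟨1 - s, s, by linarith [hs.2], hs.1, by ring, rfl⟩)
  have hpt : ∀ s : ℝ, (1 / 2 : ℝ) • p + s • ((1 / 2 : ℝ) • (q - p)) =
      (1 / 2 : ℝ) • ((1 - s) • p + s • q) := by intro s; module
  have hloc : ∀ s ∈ Icc (0 : ℝ) 1, ContDiffAt ℝ 2 g s ∧ ∀ j ≤ 2, |iteratedDeriv j g s| ≤
      B * ‖ξ‖ ^ 2 * ‖(1 / 2 : ℝ) • (q - p)‖ ^ j := by
    intro s hs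
    refine h x _ _ _ ξ s (hmem s hs) ?_
    rw [hpt, sub_self, norm_zero]; exact hδ
  have hch := chord_le (g := g) (C := B * ‖ξ‖ ^ 2 * ‖(1 / 2 : ℝ) • (q - p)‖ ^ 2)
    (fun s hs => (hloc s hs).1) (fun s hs => (abs_le.1 ((hloc s hs).2 2 le_rfl)).1)
    (t := t) ⟨h0, h1⟩
  have e0 : g 0 = G.phi x ξ ((1 / 2 : ℝ) • p) := by simp [hg]
  have e1 : g 1 = G.phi x ξ ((1 / 2 : ℝ) • q) := by
    simp only [hg]; congr 1; module
  have et : g t = G.phi x ξ ((1 / 2 : ℝ) • ((1 - t) • p + t • q)) := by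
    simp only [hg]; rw [hpt]
  have en : ‖(1 / 2 : ℝ) • (q - p)‖ ^ 2 = 1 / 4 * ‖q - p‖ ^ 2 := by
    rw [norm_smul, mul_pow]
    have : ‖(1 / 2 : ℝ)‖ = 1 / 2 := by norm_num
    rw [this]; ring
  rw [e0, e1, et, en] at hch
  have hnn : 0 ≤ B * ‖ξ‖ ^ 2 * ‖q - p‖ ^ 2 * (t * (1 - t)) := by
    have : 0 ≤ t * (1 - t) := mul_nonneg h0 (by linarith)
    positivity
  unfold Rf
  nlinarith [hch, hc, hnn]

end Crest.Agent.R226.NF946
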