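/-
R226, E2 (helper344): (W) without crossing the foot, linear algebra of the comparison step
(helper954, doc 1281, STEP (ii)).
-/
import Crest.Agent.R226.DomLin_344

set_option autoImplicit false
set_option linter.unusedSectionVars false

open Set Filter Topology

namespace Crest.Agent.R226.WNc344

section gen

variable {E : Type*} [NormedAddCommGroup E] [InnerProductSpace ℝ E]

/-- `R ξ = ⟪H⁻¹ ξ, ξ⟫` for a positive definite symmetric form `H`. -/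
structure Inv (H : E →L[ℝ] E →L[ℝ] ℝ) (R : E → ℝ) : Prop where
  symm : ∀ u v, H u v = H v u
  pos : ∀ v, v ≠ 0 → 0 < H v v
  ex : ∀ ξ, ∃ v, (∀ η, H v η = inner ℝ ξ η)
  val : ∀ ξ v, (∀ η, H v η = inner ℝ ξ η) → R ξ = H v v

variable {H : E →L[ℝ] E →L[ℝ] ℝ} {R : E → ℝ}

theorem Inv.nonneg (i : Inv H R) (v : E) : 0 ≤ H v v := by
  by_cases h : v = 0
  · simp [h]
  · exact (i.pos v h).le

theorem Inv.expand (i : Inv H R) (u v : E) (a b : ℝ) :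
    H (a • u + b • v) (a • u + b • v) = a ^ 2 * H u u + 2 * a * b * H u v + b ^ 2 * H v v := by
  simp only [map_add, map_smul, add_apply, smul_apply,
    smul_eq_mul]
  rw [i.symm v u]
  ring

theorem Inv.le (i : Inv H R) (ξ w : E) : 2 * inner ℝ w ξ - H w w ≤ R ξ := by
  obtain ⟨v, hv⟩ := i.ex ξ
  rw [i.val ξ v hv]
  have h1 := i.nonneg ((1 : ℝ) • v + (-1 : ℝ) • w)
  rw [i.expand, hv w, real_inner_comm w ξ] at h1
  linarith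

theorem Inv.cs (i : Inv H R) (u v : E) : (H u v) ^ 2 ≤ H u u * H v v := by
  by_cases hu : H v v = 0
  · have hv : v = 0 := by
      by_contra h
      exact absurd hu (i.pos v h).ne'
    simp [hv]
  · have hpos : 0 < H v v := lt_of_le_of_ne (i.nonneg v) (Ne.symm hu)
    have h1 := i.nonneg ((H v v) • u + (-(H u v)) • v)
    rw [i.expand] at h1
    have h2 : 0 ≤ H v v * (H u u * H v v - (H u v) ^ 2) := by nlinarith [h1]
    by_contra hcon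
    push Not at hcon
    have h4 : H v v * (H u u * H v v - (H u v) ^ 2) < 0 :=
      mul_neg_of_pos_of_neg hpos (by linarith)
    linarith

theorem Inv.R_nonneg (i : Inv H R) (ξ : E) : 0 ≤ R ξ := by
  obtain ⟨v, hv⟩ := i.ex ξ
  rw [i.val ξ v hv]
  exact i.nonneg v

theorem Inv.R_add_le (i : Inv H R) (a b : E) : R (a + b) ≤ 2 * R a + 2 * R b := by
  obtain ⟨u, hu⟩ := i.ex a
  obtain ⟨v, hv⟩ := i.ex b
  have huv : ∀ η, H (u + v) η = inner ℝ (a + b) η := by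
    intro η
    rw [map_add, add_apply, hu, hv, inner_add_left]
  rw [i.val _ _ huv, i.val _ _ hu, i.val _ _ hv]
  have h1 := i.nonneg ((1 : ℝ) • u + (-1 : ℝ) • v)
  have h2 := i.expand u v 1 1
  rw [i.expand] at h1
  simp only [one_smul] at h2
  rw [h2]
  linarith

theorem Inv.R_le (i : Inv H R) {c : ℝ} (hc : 0 < c) (h : ∀ v, c * ‖v‖ ^ 2 ≤ H v v) (ξ : E) :
    R ξ ≤ ‖ξ‖ ^ 2 / c := by
  obtain ⟨v, hv⟩ := i.ex ξ
  rw [i.val _ _ hv, le_div_iff₀ hc]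
  have h1 : H v v ≤ ‖ξ‖ * ‖v‖ := by
    rw [hv]; exact real_inner_le_norm _ _
  have h2 := h v
  have h3 : c * ‖v‖ ≤ ‖ξ‖ := by
    rcases (norm_nonneg v).eq_or_lt with h0 | h0
    · rw [← h0, mul_zero]; exact norm_nonneg _
    · have h4 : c * ‖v‖ * ‖v‖ ≤ ‖ξ‖ * ‖v‖ := by
        calc c * ‖v‖ * ‖v‖ = c * ‖v‖ ^ 2 := by ring
          _ ≤ _ := h2.trans h1
      exact le_of_mul_le_mul_right h4 h0
  calc H v v * c ≤ ‖ξ‖ * ‖v‖ * c := mul_le_mul_of_nonneg_right h1 hc.le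
    _ = ‖ξ‖ * (c * ‖v‖) := by ring
    _ ≤ ‖ξ‖ * ‖ξ‖ := mul_le_mul_of_nonneg_left h3 (norm_nonneg _)
    _ = ‖ξ‖ ^ 2 := by ring

theorem Inv.R_gauss (i : Inv H R) {q : E} (hq : ∀ η, H q η = inner ℝ q η) (β : ℝ) :
    R (β • q) = β ^ 2 * ‖q‖ ^ 2 := by
  have h : ∀ η, H (β • q) η = inner ℝ (β • q) η := by
    intro η
    rw [map_smul, smul_apply, smul_eq_mul, hq, real_inner_smul_left]
  rw [i.val _ _ h, h, real_inner_self_eq_norm_sq, norm_smul, mul_pow, Real.norm_eq_abs, sq_abs]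

/-- the inverse as a linear map -/
theorem Inv.exists_lin (i : Inv H R) : ∃ T : E →ₗ[ℝ] E, ∀ ξ η, H (T ξ) η = inner ℝ ξ η := by
  choose T hT using i.ex
  have huniq : ∀ v w : E, (∀ η, H v η = H w η) → v = w := by
    intro v w h
    by_contra hne
    have h1 := i.pos (v - w) (sub_ne_zero.2 hne)
    have h2 : H (v - w) (v - w) = H v (v - w) - H w (v - w) := by
      rw [map_sub H v w]; rfl
    rw [h2, h, sub_self] at h1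
    exact lt_irrefl _ h1
  refine ⟨{ toFun := T, map_add' := fun a b => ?_, map_smul' := fun c a => ?_ }, hT⟩
  · refine huniq _ _ fun η => ?_
    rw [hT, map_add, add_apply, hT, hT, inner_add_left]
  · refine huniq _ _ fun η => ?_
    rw [hT, RingHom.id_apply, map_smul, smul_apply, hT, smul_eq_mul,
      real_inner_smul_left]

variable {H₀ H₁ H₂ : E →L[ℝ] E →L[ℝ] ℝ} {R₀ R₁ R₂ : E → ℝ}

set_option maxHeartbeats 1600000 in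
/-- **the comparison step**: `q₁` between `q₀` and `q₂`, close to `q₂`, away from the foot. -/
theorem step_abs [FiniteDimensional ℝ E] (i₀ : Inv H₀ R₀) (i₁ : Inv H₁ R₁) (i₂ : Inv H₂ R₂)
    {q₀ q₁ q₂ η : E} {l : ℝ} (hl0 : 0 ≤ l) (hl1 : l ≤ 1) (e₁ : q₁ = q₂ - l • η) (e₀ : q₀ = q₂ - η)
    (g₀ : ∀ v, H₀ q₀ v = inner ℝ q₀ v) (g₁ : ∀ v, H₁ q₁ v = inner ℝ q₁ v)
    (g₂ : ∀ v, H₂ q₂ v = inner ℝ q₂ v) {D B c ρ κ M : ℝ} (hD : 0 < D) (hB : 0 < B) (hc : 0 < c)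
    (hρ : 0 < ρ) (hκ : 0 < κ) (hκ1 : κ ≤ 1) (hM : 0 ≤ M)
    (d₀ : ‖q₀‖ ≤ D) (d₁ : ‖q₁‖ ≤ D) (d₂ : ‖q₂‖ ≤ D)
    (hdepth : ∀ v, c * ρ * ‖v‖ ^ 2 ≤ H₀ v v)
    (hoff : κ * ‖η‖ ^ 2 ≤ |inner ℝ q₁ η|)
    (hsc : ∀ ξ, inner ℝ η ξ = 0 →
      R₁ ξ ≤ l * R₀ ξ + (1 - l) * R₂ ξ + M * ‖ξ‖ ^ 2 * ‖η‖ ^ 2 * l)
    (hρ1 : 32 * B * D ^ 2 * ρ ≤ κ ^ 2 * ‖η‖ ^ 2) (hρ2 : M * (10 * D ^ 2) * ρ ≤ κ ^ 2)
    (hl : l * (8 * B * (2 * (1 + κ⁻¹) ^ 2 / c + 1 / (16 * B) + 1)) ≤ 1)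
    (V : Submodule ℝ E) (hV : ∀ v ∈ V, H₁ v v ≤ B * ρ * ‖v‖ ^ 2) :
    ∃ W : Submodule ℝ E, Module.finrank ℝ V ≤ Module.finrank ℝ W ∧
      ∀ w ∈ W, H₂ w w ≤ 32 * B * (1 + κ⁻¹) ^ 2 * ρ * ‖w‖ ^ 2 := by
  have hη : 0 < ‖η‖ := by
    by_contra h
    have h0 : ‖η‖ = 0 := le_antisymm (not_lt.1 h) (norm_nonneg _)
    rw [h0] at hρ1
    have : 0 < 32 * B * D ^ 2 * ρ := by positivity
    nlinarith
  have hη2 : 0 < ‖η‖ ^ 2 := by positivity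
  have hηD : ‖η‖ ≤ 2 * D := by
    have e : η = q₂ - q₀ := by rw [e₀]; abel
    rw [e]
    calc ‖q₂ - q₀‖ ≤ ‖q₂‖ + ‖q₀‖ := norm_sub_le _ _
      _ ≤ 2 * D := by linarith
  set m : ℝ := inner ℝ q₁ η with hm
  have hm0 : 0 < |m| := lt_of_lt_of_le (by positivity) hoff
  have hm1 : m ≠ 0 := abs_pos.1 hm0
  -- the coefficient
  let β : E → ℝ := fun v => inner ℝ v η / m
  have hβ : ∀ v, |β v| ≤ ‖v‖ / (κ * ‖η‖) := by
    intro v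
    show |inner ℝ v η / m| ≤ _
    rw [abs_div, div_le_div_iff₀ hm0 (by positivity)]
    calc |inner ℝ v η| * (κ * ‖η‖) ≤ (‖v‖ * ‖η‖) * (κ * ‖η‖) := by
          gcongr; exact abs_real_inner_le_norm _ _
      _ = ‖v‖ * (κ * ‖η‖ ^ 2) := by ring
      _ ≤ ‖v‖ * |m| := by gcongr
  have hβ2 : ∀ v, (β v) ^ 2 * (κ ^ 2 * ‖η‖ ^ 2) ≤ ‖v‖ ^ 2 := by
    intro v
    have h1 := hβ v
    rw [le_div_iff₀ (by positivity)] at h1
    have h2 : (|β v| * (κ * ‖η‖)) ^ 2 ≤ ‖v‖ ^ 2 := by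
      apply pow_le_pow_left₀ (by positivity) h1
    rw [mul_pow, sq_abs, mul_pow] at h2
    exact h2
  have hβη : ∀ v, |β v| * ‖η‖ ≤ ‖v‖ * κ⁻¹ := by
    intro v
    have h1 := hβ v
    rw [le_div_iff₀ (by positivity)] at h1
    have h2 : |β v| * ‖η‖ * κ ≤ ‖v‖ := by linarith
    rw [← div_eq_mul_inv, le_div_iff₀ hκ]
    exact h2
  -- consequences of the smallness of `ρ`
  have hβρ : ∀ v, (β v) ^ 2 * D ^ 2 ≤ ‖v‖ ^ 2 / (32 * B * ρ) := by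
    intro v
    rw [le_div_iff₀ (by positivity)]
    calc (β v) ^ 2 * D ^ 2 * (32 * B * ρ) = (β v) ^ 2 * (32 * B * D ^ 2 * ρ) := by ring
      _ ≤ (β v) ^ 2 * (κ ^ 2 * ‖η‖ ^ 2) := by gcongr
      _ ≤ ‖v‖ ^ 2 := hβ2 v
  -- lift
  let ξ : E → E := fun v => v - β v • q₁
  have hξη : ∀ v, inner ℝ η (ξ v) = 0 := by
    intro v
    show inner ℝ η (v - (inner ℝ v η / m) • q₁) = 0
    rw [inner_sub_right, inner_smul_right, real_inner_comm v η, real_inner_comm q₁ η, ← hm]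
    field_simp
    simp
  -- (1) lower bound at `q₁`
  have h1 : ∀ v ∈ V, ‖v‖ ^ 2 / (4 * B * ρ) ≤ R₁ (ξ v) := by
    intro v hv
    have hcs : (inner ℝ q₁ v) ^ 2 ≤ D ^ 2 * (B * ρ * ‖v‖ ^ 2) := by
      have h2 := i₁.cs q₁ v
      rw [g₁ v, g₁ q₁, real_inner_self_eq_norm_sq] at h2
      refine h2.trans ?_
      have h3 : ‖q₁‖ ^ 2 ≤ D ^ 2 := pow_le_pow_left₀ (norm_nonneg _) d₁ 2
      exact mul_le_mul h3 (hV v hv) (i₁.nonneg v) (by positivity)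
    have hprod : |β v * inner ℝ q₁ v| ≤ ‖v‖ ^ 2 / 2 := by
      apply abs_le_of_sq_le_sq _ (by positivity)
      rw [mul_pow]
      calc (β v) ^ 2 * (inner ℝ q₁ v) ^ 2 ≤ (β v) ^ 2 * (D ^ 2 * (B * ρ * ‖v‖ ^ 2)) := by gcongr
        _ = ((β v) ^ 2 * D ^ 2) * (B * ρ * ‖v‖ ^ 2) := by ring
        _ ≤ (‖v‖ ^ 2 / (32 * B * ρ)) * (B * ρ * ‖v‖ ^ 2) := by
            gcongr
            exact hβρ v
        _ = (‖v‖ ^ 2) ^ 2 / 32 := by field_simp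
        _ ≤ (‖v‖ ^ 2 / 2) ^ 2 := by
            rw [div_pow]
            have : 0 ≤ (‖v‖ ^ 2) ^ 2 := by positivity
            linarith
    have h2 := i₁.le (ξ v) ((1 / (2 * (B * ρ))) • v)
    have e1 : inner ℝ ((1 / (2 * (B * ρ))) • v) (ξ v) =
        (1 / (2 * (B * ρ))) * (‖v‖ ^ 2 - β v * inner ℝ q₁ v) := by
      show inner ℝ ((1 / (2 * (B * ρ))) • v) (v - β v • q₁) = _
      rw [real_inner_smul_left, inner_sub_right, inner_smul_right, real_inner_self_eq_norm_sq,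
        real_inner_comm q₁ v]
    have e2 : H₁ ((1 / (2 * (B * ρ))) • v) ((1 / (2 * (B * ρ))) • v) =
        (1 / (2 * (B * ρ))) ^ 2 * H₁ v v := by
      simp only [map_smul, smul_apply, smul_eq_mul]
      ring
    rw [e1, e2] at h2
    have hτ : 0 < 1 / (2 * (B * ρ)) := by positivity
    have h3 : ‖v‖ ^ 2 / 2 ≤ ‖v‖ ^ 2 - β v * inner ℝ q₁ v := by
      have := (abs_le.1 hprod).2
      linarith
    have h4 : (1 / (2 * (B * ρ))) ^ 2 * H₁ v v ≤ (1 / (2 * (B * ρ))) ^ 2 * (B * ρ * ‖v‖ ^ 2) :=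
      mul_le_mul_of_nonneg_left (hV v hv) (by positivity)
    have h5 : (1 / (2 * (B * ρ))) * (‖v‖ ^ 2 / 2) ≤
        (1 / (2 * (B * ρ))) * (‖v‖ ^ 2 - β v * inner ℝ q₁ v) :=
      mul_le_mul_of_nonneg_left h3 hτ.le
    have e3 : ‖v‖ ^ 2 / (4 * B * ρ) = 2 * ((1 / (2 * (B * ρ))) * (‖v‖ ^ 2 / 2)) -
        (1 / (2 * (B * ρ))) ^ 2 * (B * ρ * ‖v‖ ^ 2) := by
      field_simp
      ring
    rw [e3]
    linarith
  -- (2) upper bound at `q₀`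
  have h2 : ∀ v, R₀ (ξ v) ≤ (2 * (1 + κ⁻¹) ^ 2 / c + 1 / (16 * B)) * (‖v‖ ^ 2 / ρ) := by
    intro v
    have eξ : ξ v = (v - (β v * (1 - l)) • η) + (-(β v)) • q₀ := by
      show v - β v • q₁ = _
      rw [e₁, e₀]
      module
    rw [eξ]
    refine (i₀.R_add_le _ _).trans ?_
    rw [i₀.R_gauss g₀]
    have ha : ‖v - (β v * (1 - l)) • η‖ ≤ ‖v‖ * (1 + κ⁻¹) := by
      calc ‖v - (β v * (1 - l)) • η‖ ≤ ‖v‖ + ‖(β v * (1 - l)) • η‖ := norm_sub_le _ _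
        _ = ‖v‖ + |β v| * |1 - l| * ‖η‖ := by
            rw [norm_smul, Real.norm_eq_abs, abs_mul]
        _ ≤ ‖v‖ + |β v| * 1 * ‖η‖ := by
            gcongr
            rw [abs_of_nonneg (by linarith)]
            linarith
        _ = ‖v‖ + |β v| * ‖η‖ := by ring
        _ ≤ ‖v‖ + ‖v‖ * κ⁻¹ := by linarith [hβη v]
        _ = _ := by ring
    have hb : R₀ (v - (β v * (1 - l)) • η) ≤ (‖v‖ * (1 + κ⁻¹)) ^ 2 / (c * ρ) := by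
      refine (i₀.R_le (c := c * ρ) (by positivity) hdepth _).trans ?_
      gcongr
    have hb2 : (-(β v)) ^ 2 * ‖q₀‖ ^ 2 ≤ ‖v‖ ^ 2 / (32 * B * ρ) := by
      rw [neg_sq]
      refine le_trans ?_ (hβρ v)
      gcongr
    calc 2 * R₀ (v - (β v * (1 - l)) • η) + 2 * ((-(β v)) ^ 2 * ‖q₀‖ ^ 2)
        ≤ 2 * ((‖v‖ * (1 + κ⁻¹)) ^ 2 / (c * ρ)) + 2 * (‖v‖ ^ 2 / (32 * B * ρ)) := by linarith
      _ = _ := by
        field_simp
        ring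
  -- (3) the error term
  have h3 : ∀ v, M * ‖ξ v‖ ^ 2 * ‖η‖ ^ 2 ≤ ‖v‖ ^ 2 / ρ := by
    intro v
    have hn : ‖ξ v‖ ^ 2 * ‖η‖ ^ 2 ≤ ‖v‖ ^ 2 * (10 * D ^ 2) / κ ^ 2 := by
      have ha : ‖ξ v‖ ≤ ‖v‖ + |β v| * D := by
        calc ‖ξ v‖ = ‖v - β v • q₁‖ := rfl
          _ ≤ ‖v‖ + ‖β v • q₁‖ := norm_sub_le _ _
          _ = ‖v‖ + |β v| * ‖q₁‖ := by rw [norm_smul, Real.norm_eq_abs]
          _ ≤ _ := by gcongr
      have hb : ‖ξ v‖ ^ 2 ≤ 2 * ‖v‖ ^ 2 + 2 * ((β v) ^ 2 * D ^ 2) := by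
        have h4 : ‖ξ v‖ ^ 2 ≤ (‖v‖ + |β v| * D) ^ 2 := pow_le_pow_left₀ (norm_nonneg _) ha 2
        have h5 : (|β v| * D) ^ 2 = (β v) ^ 2 * D ^ 2 := by rw [mul_pow, sq_abs]
        nlinarith [sq_nonneg (‖v‖ - |β v| * D)]
      have hc1 : (β v) ^ 2 * D ^ 2 * ‖η‖ ^ 2 ≤ ‖v‖ ^ 2 * D ^ 2 / κ ^ 2 := by
        rw [le_div_iff₀ (by positivity)]
        calc (β v) ^ 2 * D ^ 2 * ‖η‖ ^ 2 * κ ^ 2 = D ^ 2 * ((β v) ^ 2 * (κ ^ 2 * ‖η‖ ^ 2)) := by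
              ring
          _ ≤ D ^ 2 * ‖v‖ ^ 2 := by gcongr; exact hβ2 v
          _ = _ := by ring
      have hη4 : ‖η‖ ^ 2 ≤ 4 * D ^ 2 := by
        have := pow_le_pow_left₀ (norm_nonneg _) hηD 2
        linarith [this, mul_pow 2 D 2]
      have hκ2 : 1 ≤ 1 / κ ^ 2 := by
        rw [le_div_iff₀ (by positivity)]
        have : κ ^ 2 ≤ 1 := pow_le_one₀ hκ.le hκ1
        linarith
      calc ‖ξ v‖ ^ 2 * ‖η‖ ^ 2 ≤ (2 * ‖v‖ ^ 2 + 2 * ((β v) ^ 2 * D ^ 2)) * ‖η‖ ^ 2 := by gcongr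
        _ = 2 * ‖v‖ ^ 2 * ‖η‖ ^ 2 + 2 * ((β v) ^ 2 * D ^ 2 * ‖η‖ ^ 2) := by ring
        _ ≤ 2 * ‖v‖ ^ 2 * (4 * D ^ 2) + 2 * (‖v‖ ^ 2 * D ^ 2 / κ ^ 2) := by gcongr
        _ = 8 * (‖v‖ ^ 2 * D ^ 2) * 1 + 2 * (‖v‖ ^ 2 * D ^ 2) * (1 / κ ^ 2) := by ring
        _ ≤ 8 * (‖v‖ ^ 2 * D ^ 2) * (1 / κ ^ 2) + 2 * (‖v‖ ^ 2 * D ^ 2) * (1 / κ ^ 2) := by gcongr
        _ = _ := by ring
    rw [le_div_iff₀ hρ]
    calc M * ‖ξ v‖ ^ 2 * ‖η‖ ^ 2 * ρ = M * (‖ξ v‖ ^ 2 * ‖η‖ ^ 2) * ρ := by ring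
      _ ≤ M * (‖v‖ ^ 2 * (10 * D ^ 2) / κ ^ 2) * ρ := by gcongr
      _ = ‖v‖ ^ 2 * (M * (10 * D ^ 2) * ρ) / κ ^ 2 := by ring
      _ ≤ ‖v‖ ^ 2 * κ ^ 2 / κ ^ 2 := by gcongr
      _ = ‖v‖ ^ 2 := by field_simp
  -- (4) lower bound at `q₂`
  have h4 : ∀ v ∈ V, ‖v‖ ^ 2 / (8 * B * ρ) ≤ R₂ (ξ v) := by
    intro v hv
    have ha := hsc (ξ v) (hξη v)
    have hb := h1 v hv
    have hc' := h2 v
    have hd := h3 v
    have hR2 := i₂.R_nonneg (ξ v)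
    have he : (1 - l) * R₂ (ξ v) ≤ R₂ (ξ v) := by nlinarith
    set A := 2 * (1 + κ⁻¹) ^ 2 / c + 1 / (16 * B) with hA
    have hf : l * R₀ (ξ v) ≤ l * (A * (‖v‖ ^ 2 / ρ)) := mul_le_mul_of_nonneg_left hc' hl0
    have hg : M * ‖ξ v‖ ^ 2 * ‖η‖ ^ 2 * l ≤ ‖v‖ ^ 2 / ρ * l := mul_le_mul_of_nonneg_right hd hl0
    have hX : 0 ≤ ‖v‖ ^ 2 / ρ := by positivity
    have hh : l * (A + 1) * (‖v‖ ^ 2 / ρ) ≤ 1 / (8 * B) * (‖v‖ ^ 2 / ρ) := by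
      refine mul_le_mul_of_nonneg_right ?_ hX
      rw [le_div_iff₀ (by positivity)]
      linarith
    have e1 : ‖v‖ ^ 2 / (4 * B * ρ) = 2 * (1 / (8 * B) * (‖v‖ ^ 2 / ρ)) := by
      field_simp
      ring
    have e2 : ‖v‖ ^ 2 / (8 * B * ρ) = 1 / (8 * B) * (‖v‖ ^ 2 / ρ) := by
      field_simp
    rw [e1] at hb
    rw [e2]
    linarith
  -- (5) remove the radial part at `q₂`
  let a : E → E := fun v => v + (β v * l) • η
  have hξa : ∀ v, ξ v = a v + (-(β v)) • q₂ := by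
    intro v
    show v - β v • q₁ = v + (β v * l) • η + (-(β v)) • q₂
    rw [e₁]
    module
  have h5 : ∀ v ∈ V, ‖v‖ ^ 2 / (32 * B * ρ) ≤ R₂ (a v) := by
    intro v hv
    have ha := h4 v hv
    rw [hξa v] at ha
    have hb := i₂.R_add_le (a v) ((-(β v)) • q₂)
    rw [i₂.R_gauss g₂] at hb
    have hb2 : (-(β v)) ^ 2 * ‖q₂‖ ^ 2 ≤ ‖v‖ ^ 2 / (32 * B * ρ) := by
      rw [neg_sq]
      refine le_trans ?_ (hβρ v)
      gcongr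
    have e1 : ‖v‖ ^ 2 / (8 * B * ρ) = 4 * (‖v‖ ^ 2 / (32 * B * ρ)) := by
      field_simp
      ring
    rw [e1] at ha
    linarith
  have ha : ∀ v, ‖a v‖ ≤ ‖v‖ * (1 + κ⁻¹) := by
    intro v
    calc ‖a v‖ = ‖v + (β v * l) • η‖ := rfl
      _ ≤ ‖v‖ + ‖(β v * l) • η‖ := norm_add_le _ _
      _ = ‖v‖ + |β v| * |l| * ‖η‖ := by
          rw [norm_smul, Real.norm_eq_abs, abs_mul]
      _ ≤ ‖v‖ + |β v| * 1 * ‖η‖ := by
          gcongr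
          rw [abs_of_nonneg hl0]
          exact hl1
      _ = ‖v‖ + |β v| * ‖η‖ := by ring
      _ ≤ ‖v‖ + ‖v‖ * κ⁻¹ := by linarith [hβη v]
      _ = _ := by ring
  -- the new subspace
  obtain ⟨T, hT⟩ := i₂.exists_lin
  let aL : E →ₗ[ℝ] E := LinearMap.id + ((l / m) • (innerSL ℝ η : E →L[ℝ] ℝ).toLinearMap).smulRight η
  have haL : ∀ v, aL v = a v := by
    intro v
    show v + ((l / m) * inner ℝ η v) • η = v + (inner ℝ v η / m * l) • η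
    rw [real_inner_comm v η]
    congr 2
    ring
  let φ : E →ₗ[ℝ] E := T.comp aL
  have hφ : ∀ v, φ v = T (a v) := fun v => by
    show T (aL v) = _
    rw [haL]
  have hX : ∀ v ∈ V, ‖v‖ ^ 2 / (32 * B * ρ) ≤ H₂ (φ v) (φ v) := by
    intro v hv
    have h6 := h5 v hv
    rw [i₂.val (a v) (T (a v)) (hT (a v))] at h6
    rw [hφ]
    exact h6
  refine ⟨V.map φ, ?_, ?_⟩
  · have hinj : ∀ v ∈ V, φ v = 0 → v = 0 := by
      intro v hv h0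
      have h6 := hX v hv
      rw [h0, map_zero] at h6
      by_contra hne
      have h7 : 0 < ‖v‖ := norm_pos_iff.2 hne
      have h8 : 0 < ‖v‖ ^ 2 / (32 * B * ρ) := by positivity
      exact absurd h6 (not_le.2 (by simpa using h8))
    have hinj' : Function.Injective (φ.domRestrict V) := by
      rw [← LinearMap.ker_eq_bot, LinearMap.ker_eq_bot']
      intro v hv
      apply Subtype.ext
      exact hinj v v.2 hv
    have h6 := LinearMap.finrank_range_of_inj hinj'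
    have h7 : LinearMap.range (φ.domRestrict V) = V.map φ := LinearMap.range_domRestrict V φ
    rw [h7] at h6
    exact h6.ge
  · rintro w ⟨v, hv, rfl⟩
    have h6 := hX v hv
    have h7 : H₂ (φ v) (φ v) ≤ ‖a v‖ * ‖φ v‖ := by
      rw [hφ, hT]
      exact real_inner_le_norm _ _
    have h8 := ha v
    set X := H₂ (φ v) (φ v) with hXd
    have hX0 : 0 ≤ X := i₂.nonneg _
    have h9 : ‖v‖ ^ 2 ≤ 32 * B * ρ * X := by
      rw [div_le_iff₀ (by positivity)] at h6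
      linarith
    have h10 : ‖a v‖ ^ 2 ≤ (1 + κ⁻¹) ^ 2 * (32 * B * ρ * X) := by
      calc ‖a v‖ ^ 2 ≤ (‖v‖ * (1 + κ⁻¹)) ^ 2 := pow_le_pow_left₀ (norm_nonneg _) h8 2
        _ = (1 + κ⁻¹) ^ 2 * ‖v‖ ^ 2 := by ring
        _ ≤ _ := by gcongr
    have h11 : X ^ 2 ≤ ((1 + κ⁻¹) ^ 2 * (32 * B * ρ * X)) * ‖φ v‖ ^ 2 := by
      calc X ^ 2 ≤ (‖a v‖ * ‖φ v‖) ^ 2 := pow_le_pow_left₀ hX0 h7 2
        _ = ‖a v‖ ^ 2 * ‖φ v‖ ^ 2 := by ring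
        _ ≤ _ := by gcongr
    rcases hX0.eq_or_lt with h0 | h0
    · rw [← h0]
      positivity
    · have h12 : X * X ≤ X * (32 * B * (1 + κ⁻¹) ^ 2 * ρ * ‖φ v‖ ^ 2) := by
        calc X * X = X ^ 2 := by ring
          _ ≤ _ := h11
          _ = _ := by ring
      exact le_of_mul_le_mul_left h12 h0

end gen

end Crest.Agent.R226.WNc344
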