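/-
R226, E2 (helper344): (W) without crossing the foot.  The comparison step in `K(x)` and the chain
(helper954, doc 1281, restricted to one side of the foot).

Input: the depth bound `c (1 - s) |v|² ≤ Hf(s p)(v, v)` (`DepthP`, helper946, Depth_946).
-/
import Crest.Agent.R226.WNcAbs_344
import Crest.Agent.R226.NF6_946
import Crest.Agent.R226.Jac6_344
import Crest.Agent.R226.CutTop_478
import Crest.Agent.R226.Dasm_290

set_option autoImplicit false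
set_option linter.unusedSectionVars false
set_option linter.unusedVariables false

open MeasureTheory Bundle Set Filter
open scoped Manifold ContDiff Bundle ENNReal Topology NNReal
open Crest.GeometryTopology.MTW

namespace Crest.Agent.R226.WNc344

open Crest.Agent.R226.DomLin344 Crest.Agent.R226.Base347 Crest.Agent.R226.NF946
open Crest.Agent.R226.Dasm290

variable {n : ℕ} {M : Type*} [MetricSpace M] [ChartedSpace (EuclideanSpace ℝ (Fin n)) M]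
  [IsManifold (𝓡 n) ∞ M]
  [RiemannianBundle (fun p : M => TangentSpace (𝓡 n) p)]

/-- the depth bound -/
def DepthP (G : GeoData n M) (c : ℝ) : Prop :=
  ∀ x : M, ∀ p ∈ G.K x, ∀ s : ℝ, 0 ≤ s → s ≤ 1 → ∀ v : TangentSpace (𝓡 n) x,
    c * (1 - s) * ‖v‖ ^ 2 ≤ Hf G x (s • p) v v

variable [IsContMDiffRiemannianBundle (𝓡 n) ∞ (EuclideanSpace ℝ (Fin n))
    (fun p : M => TangentSpace (𝓡 n) p)]
  {G : GeoData n M}

theorem inv_Hf [CompactSpace M] (hB : Base G) {x : M} {p : TangentSpace (𝓡 n) x}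
    (hp : p ∈ G.I x) : Inv (Hf G x p) (fun ξ => Rf G x ξ p) where
  symm := fun u v => Hf_symm hB (hB.I_subset x hp) u v
  pos := fun v hv => Hf_pos hB hp hv
  ex := fun ξ => exists_Hf_eq hB hp ξ
  val := fun ξ v hv => Rf_eq hB hp hv

/-- chord bound: `Hf` at the end of a segment of `K` from `Hf` at an interior point. -/
theorem end_le (hB : Base G) (hK : ∀ x, Convex ℝ (G.K x)) : ∃ B : ℝ, 0 ≤ B ∧ ∀ x : M,
    ∀ q₀ ∈ G.K x, ∀ q₂ ∈ G.K x, ∀ l : ℝ, 0 ≤ l → l ≤ 1 / 2 → ∀ v : TangentSpace (𝓡 n) x,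
      Hf G x q₂ v v ≤ 2 * Hf G x (q₂ - l • (q₂ - q₀)) v v + B * ‖q₂ - q₀‖ ^ 2 * ‖v‖ ^ 2 := by
  obtain ⟨δ, B, hδ, hB0, h⟩ := unif_Hf_line hB 2
  refine ⟨B, hB0, fun x q₀ h₀ q₂ h₂ l hl0 hl1 v => ?_⟩
  have hmem : ∀ s ∈ Icc (0 : ℝ) 1, q₀ + s • (q₂ - q₀) ∈ G.K x := by
    intro s hs
    have := hK x h₀ h₂ (a := 1 - s) (b := s) (by linarith [hs.2]) hs.1 (by ring)
    convert this using 1
    module
  have hloc : ∀ s ∈ Icc (0 : ℝ) 1,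
      ContDiffAt ℝ 2 (fun s : ℝ => Hf G x (q₀ + s • (q₂ - q₀)) v v) s ∧
      ∀ j ≤ 2, |iteratedDeriv j (fun s : ℝ => Hf G x (q₀ + s • (q₂ - q₀)) v v) s| ≤
        B * ‖v‖ * ‖v‖ * ‖q₂ - q₀‖ ^ j := by
    intro s hs
    refine h x _ q₀ (q₂ - q₀) s (hmem s hs) ?_ v v
    rw [sub_self, norm_zero]; exact hδ
  have hch := chord_le (g := fun s : ℝ => -Hf G x (q₀ + s • (q₂ - q₀)) v v)
    (C := B * ‖v‖ * ‖v‖ * ‖q₂ - q₀‖ ^ 2) (fun s hs => (hloc s hs).1.neg)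
    (fun s hs => by
      have e : iteratedDeriv 2 (fun s : ℝ => -Hf G x (q₀ + s • (q₂ - q₀)) v v) s =
          -iteratedDeriv 2 (fun s : ℝ => Hf G x (q₀ + s • (q₂ - q₀)) v v) s :=
        iteratedDeriv_fun_neg 2 _ s
      rw [e]
      have := (abs_le.1 ((hloc s hs).2 2 le_rfl)).2
      linarith) (t := 1 - l) ⟨by linarith, by linarith⟩
  have e1 : q₀ + (1 - l) • (q₂ - q₀) = q₂ - l • (q₂ - q₀) := by module
  have e2 : q₀ + (1 : ℝ) • (q₂ - q₀) = q₂ := by module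
  simp only [e1, e2] at hch
  have h0 : 0 ≤ Hf G x (q₀ + (0 : ℝ) • (q₂ - q₀)) v v :=
    Hf_nonneg hB (hmem 0 ⟨le_rfl, zero_le_one⟩) v
  have h2 : 0 ≤ Hf G x q₂ v v := Hf_nonneg hB h₂ v
  have h3 : 0 ≤ B * ‖v‖ * ‖v‖ * ‖q₂ - q₀‖ ^ 2 := by positivity
  have e3 : B * ‖q₂ - q₀‖ ^ 2 * ‖v‖ ^ 2 = B * ‖v‖ * ‖v‖ * ‖q₂ - q₀‖ ^ 2 := by ring
  rw [e3]
  set X := B * ‖v‖ * ‖v‖ * ‖q₂ - q₀‖ ^ 2
  set a := Hf G x q₂ v v
  set b := Hf G x (q₂ - l • (q₂ - q₀)) v v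
  set c := Hf G x (q₀ + (0 : ℝ) • (q₂ - q₀)) v v
  have h4 : (1 - l) * a ≤ b + X / 2 * l := by
    have h5 : 0 ≤ l * c := mul_nonneg hl0 h0
    have h6 : X / 2 * ((1 - l) * l) ≤ X / 2 * l := by
      refine mul_le_mul_of_nonneg_left ?_ (by positivity)
      nlinarith
    have h7 : -b ≤ (1 - (1 - l)) * -c + (1 - l) * -a + X / 2 * ((1 - l) * (1 - (1 - l))) := hch
    have h8 : (1 - l) * (1 - (1 - l)) = (1 - l) * l := by ring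
    rw [h8] at h7
    nlinarith
  nlinarith

theorem seg_mem {x : M} (hK : Convex ℝ (G.K x)) {q₀ q₂ : TangentSpace (𝓡 n) x}
    (h₀ : q₀ ∈ G.K x) (h₂ : q₂ ∈ G.K x) {l : ℝ} (hl0 : 0 ≤ l) (hl1 : l ≤ 1) :
    q₂ - l • (q₂ - q₀) ∈ G.K x := by
  have := hK h₂ h₀ (a := 1 - l) (b := l) (by linarith) hl0 (by ring)
  convert this using 1
  module

set_option maxHeartbeats 3200000 in
/-- **the comparison step** (W without crossing). -/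
theorem step [CompactSpace M] (hC : CutFacts G) (hM : MTWFacts G) (hg : GoodAll G) {c : ℝ}
    (hc : 0 < c) (hdep : DepthP G c) {κ : ℝ} (hκ : 0 < κ) (hκ1 : κ ≤ 1) :
    ∃ l₀ C : ℝ, 0 < l₀ ∧ l₀ ≤ 1 / 2 ∧ 1 ≤ C ∧ ∀ x : M, ∀ q₀ ∈ G.K x, ∀ q₂ ∈ G.K x,
      ∀ l : ℝ, 0 ≤ l → l ≤ l₀ →
      κ * ‖q₂ - q₀‖ ^ 2 ≤ |inner ℝ (q₂ - l • (q₂ - q₀)) (q₂ - q₀)| →
      Dom (Hf G x (q₂ - l • (q₂ - q₀))) (Hf G x q₂) C := by
  have hB := hC.base347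
  have hK : ∀ x, Convex ℝ (G.K x) := fun x => convex_K hg x
  obtain ⟨Be, hBe0, hend⟩ := end_le hB hK
  obtain ⟨δ, BL, hδ, hBL0, hlip⟩ := unif_Hf_lip hB
  obtain ⟨Ms, hMs0, hsc⟩ := Rf_semiconvex hB hM
  obtain ⟨D, hD⟩ : ∃ D : ℝ, D = Metric.diam (univ : Set M) + 1 := ⟨_, rfl⟩
  have hD0 : 0 < D := by
    have := Metric.diam_nonneg (s := (univ : Set M)); rw [hD]; linarith
  have hDK : ∀ x : M, ∀ p ∈ G.K x, ‖p‖ ≤ D := fun x p hp => by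
    have := CutTop478.norm_le_diam G hp; rw [hD]; linarith
  obtain ⟨B, hBd⟩ : ∃ B : ℝ, B = 1 + BL * D := ⟨_, rfl⟩
  have hB1 : 1 ≤ B := by rw [hBd]; have := mul_nonneg hBL0 hD0.le; linarith
  have hB0 : 0 < B := by linarith
  obtain ⟨Z, hZ⟩ : ∃ Z : ℝ, Z = 32 * B * D ^ 2 + 40 * Ms * D ^ 4 + 8 * D ^ 2 + 8 * D ^ 3 / δ :=
    ⟨_, rfl⟩
  have hZ0 : 0 < Z := by rw [hZ]; positivity
  obtain ⟨A, hA⟩ : ∃ A : ℝ, A = 8 * B * (2 * (1 + κ⁻¹) ^ 2 / c + 1 / (16 * B) + 1) := ⟨_, rfl⟩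
  have hA8 : 8 ≤ A := by
    have h1 : 0 ≤ 2 * (1 + κ⁻¹) ^ 2 / c := by positivity
    have h2 : 0 ≤ 1 / (16 * B) := by positivity
    rw [hA]
    nlinarith
  have hA0 : 0 < A := by linarith
  refine ⟨1 / A, 2 + Be * Z / κ ^ 2 + (32 * B * (1 + κ⁻¹) ^ 2 + BL * D), by positivity, ?_, ?_, ?_⟩
  · rw [div_le_div_iff₀ hA0 (by norm_num)]; linarith
  · have h1 : 0 ≤ Be * Z / κ ^ 2 := by positivity
    have h2 : 0 ≤ 32 * B * (1 + κ⁻¹) ^ 2 + BL * D := by positivity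
    linarith
  intro x q₀ h₀ q₂ h₂ l hl0 hl hoff ρ hρ V hV
  have hl1 : l ≤ 1 / 8 := hl.trans (by
    rw [div_le_div_iff₀ hA0 (by norm_num)]; linarith)
  have hlA : l * A ≤ 1 := by
    have := mul_le_mul_of_nonneg_right hl hA0.le
    rwa [div_mul_cancel₀ _ hA0.ne'] at this
  set η : TangentSpace (𝓡 n) x := q₂ - q₀ with hη
  have h₁ : q₂ - l • η ∈ G.K x := seg_mem (hK x) h₀ h₂ hl0 (by linarith)
  set q₁ : TangentSpace (𝓡 n) x := q₂ - l • η with hq₁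
  have hκ2 : 0 < κ ^ 2 := by positivity
  have hκ2' : κ ^ 2 ≤ 1 := pow_le_one₀ hκ.le hκ1
  have hC1 : 0 ≤ Be * Z / κ ^ 2 := by positivity
  have hC2 : 0 ≤ 32 * B * (1 + κ⁻¹) ^ 2 + BL * D := by positivity
  rcases le_or_gt (κ ^ 2 * ‖η‖ ^ 2) (Z * ρ) with hcase | hcase
  · -- large `ρ`
    refine ⟨V, le_rfl, fun v hv => ?_⟩
    have h3 := hend x q₀ h₀ q₂ h₂ l hl0 (by linarith) v
    have h4 := hV v hv
    have h5 : Be * ‖q₂ - q₀‖ ^ 2 * ‖v‖ ^ 2 ≤ Be * Z / κ ^ 2 * ρ * ‖v‖ ^ 2 := by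
      have h6 : ‖η‖ ^ 2 ≤ Z * ρ / κ ^ 2 := by
        rw [le_div_iff₀ hκ2]; linarith
      calc Be * ‖q₂ - q₀‖ ^ 2 * ‖v‖ ^ 2 ≤ Be * (Z * ρ / κ ^ 2) * ‖v‖ ^ 2 := by gcongr
        _ = _ := by ring
    have h7 : 0 ≤ (32 * B * (1 + κ⁻¹) ^ 2 + BL * D) * ρ * ‖v‖ ^ 2 := by positivity
    calc Hf G x q₂ v v ≤ 2 * Hf G x q₁ v v + Be * ‖q₂ - q₀‖ ^ 2 * ‖v‖ ^ 2 := h3
      _ ≤ 2 * (ρ * ‖v‖ ^ 2) + Be * Z / κ ^ 2 * ρ * ‖v‖ ^ 2 := by linarith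
      _ ≤ 2 * (ρ * ‖v‖ ^ 2) + Be * Z / κ ^ 2 * ρ * ‖v‖ ^ 2 +
          (32 * B * (1 + κ⁻¹) ^ 2 + BL * D) * ρ * ‖v‖ ^ 2 := by linarith
      _ = _ := by ring
  · -- small `ρ`
    have hηD : ‖η‖ ≤ 2 * D := by
      calc ‖η‖ ≤ ‖q₂‖ + ‖q₀‖ := norm_sub_le _ _
        _ ≤ 2 * D := by linarith [hDK x q₂ h₂, hDK x q₀ h₀]
    have hη4 : ‖η‖ ^ 2 ≤ 4 * D ^ 2 := by
      have := pow_le_pow_left₀ (norm_nonneg _) hηD 2
      linarith [this, mul_pow 2 D 2]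
    have hZρ : Z * ρ = 32 * B * D ^ 2 * ρ + 40 * Ms * D ^ 4 * ρ + 8 * D ^ 2 * ρ +
        8 * D ^ 3 / δ * ρ := by rw [hZ]; ring
    have hp1 : 0 ≤ 32 * B * D ^ 2 * ρ := by positivity
    have hp2 : 0 ≤ 40 * Ms * D ^ 4 * ρ := by positivity
    have hp3 : 0 ≤ 8 * D ^ 2 * ρ := by positivity
    have hp4 : 0 ≤ 8 * D ^ 3 / δ * ρ := by positivity
    have hη4' : κ ^ 2 * ‖η‖ ^ 2 ≤ κ ^ 2 * (4 * D ^ 2) := by gcongr
    have hη4'' : κ ^ 2 * ‖η‖ ^ 2 ≤ 4 * D ^ 2 := by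
      refine hη4'.trans ?_
      have : κ ^ 2 * (4 * D ^ 2) ≤ 1 * (4 * D ^ 2) := by gcongr
      linarith
    have hρ1 : 32 * B * D ^ 2 * ρ ≤ κ ^ 2 * ‖η‖ ^ 2 := by linarith
    have hρ2 : Ms * (10 * D ^ 2) * ρ ≤ κ ^ 2 := by
      have h3 : 40 * Ms * D ^ 4 * ρ ≤ κ ^ 2 * (4 * D ^ 2) := by linarith
      have h4 : (4 * D ^ 2) * (Ms * (10 * D ^ 2) * ρ) ≤ (4 * D ^ 2) * κ ^ 2 := by
        calc (4 * D ^ 2) * (Ms * (10 * D ^ 2) * ρ) = 40 * Ms * D ^ 4 * ρ := by ring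
          _ ≤ κ ^ 2 * (4 * D ^ 2) := h3
          _ = _ := by ring
      exact le_of_mul_le_mul_left h4 (by positivity)
    have hρ3 : ρ ≤ 1 / 2 := by
      have h3 : (8 * D ^ 2) * ρ ≤ (8 * D ^ 2) * (1 / 2) := by linarith
      exact le_of_mul_le_mul_left h3 (by positivity)
    have hρ4 : ρ * D < δ := by
      have h3 : 8 * D ^ 3 / δ * ρ ≤ 4 * D ^ 2 := by linarith
      have h4 : 8 * D ^ 3 * ρ ≤ 4 * D ^ 2 * δ := by
        have := mul_le_mul_of_nonneg_right h3 hδ.le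
        calc 8 * D ^ 3 * ρ = 8 * D ^ 3 / δ * ρ * δ := by field_simp
          _ ≤ _ := this
      have h5 : (4 * D ^ 2) * (2 * (ρ * D)) ≤ (4 * D ^ 2) * δ := by
        calc (4 * D ^ 2) * (2 * (ρ * D)) = 8 * D ^ 3 * ρ := by ring
          _ ≤ _ := h4
      have h6 := le_of_mul_le_mul_left h5 (by positivity : (0 : ℝ) < 4 * D ^ 2)
      have h7 : 0 < ρ * D := by positivity
      linarith
    set s : ℝ := 1 - ρ with hs
    have hs0 : 0 ≤ s := by rw [hs]; linarith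
    have hs1 : s < 1 := by rw [hs]; linarith
    have hI : ∀ q ∈ G.K x, s • q ∈ G.I x := fun q hq => hB.smul_mem_I hq hs0 hs1
    -- radial shift
    have hshift : ∀ q ∈ G.K x, ∀ v : TangentSpace (𝓡 n) x,
        |Hf G x (s • q) v v - Hf G x q v v| ≤ BL * D * ρ * ‖v‖ ^ 2 := by
      intro q hq v
      have hn : ‖s • q - q‖ ≤ ρ * D := by
        have e : s • q - q = (-ρ) • q := by rw [hs]; module
        rw [e, norm_smul, norm_neg, Real.norm_of_nonneg hρ.le]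
        gcongr
        exact hDK x q hq
      have h3 := hlip x q q (s • q) hq (by rw [sub_self, norm_zero]; exact hδ)
        (hn.trans_lt hρ4) v v
      calc |Hf G x (s • q) v v - Hf G x q v v| ≤ BL * ‖v‖ * ‖v‖ * ‖s • q - q‖ := h3
        _ ≤ BL * ‖v‖ * ‖v‖ * (ρ * D) := by gcongr
        _ = _ := by ring
    have hgauss : ∀ q ∈ G.K x, ∀ v : TangentSpace (𝓡 n) x, Hf G x (s • q) q v = inner ℝ q v := by
      intro q hq v
      have h3 := Hf_gauss hB (hB.I_subset x (hI q hq)) v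
      rw [map_smul, smul_apply, smul_eq_mul, real_inner_smul_left] at h3
      have hs' : s ≠ 0 := by rw [hs]; linarith
      exact mul_left_cancel₀ hs' h3
    have hkey := step_abs (inv_Hf hB (hI q₀ h₀)) (inv_Hf hB (hI q₁ h₁)) (inv_Hf hB (hI q₂ h₂))
      (q₀ := q₀) (q₁ := q₁) (q₂ := q₂) (η := η) (l := l) hl0 (by linarith) rfl
      (by rw [hη]; abel) (hgauss q₀ h₀) (hgauss q₁ h₁) (hgauss q₂ h₂) (D := D) (B := B) (c := c)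
      (ρ := ρ) (κ := κ) (M := Ms) hD0 hB0 hc hρ hκ hκ1 hMs0 (hDK x q₀ h₀) (hDK x q₁ h₁)
      (hDK x q₂ h₂) (fun v => by
        have := hdep x q₀ h₀ s hs0 hs1.le v
        have e : 1 - s = ρ := by rw [hs]; ring
        rwa [e] at this) hoff (fun ξ hξ => by
        have hseg : segment ℝ (s • q₂) (s • q₀) ⊆ G.I x := by
          rintro z ⟨a, b, ha, hb, hab, rfl⟩
          have e : a • s • q₂ + b • s • q₀ = s • (a • q₂ + b • q₀) := by module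
          rw [e]
          exact hI _ (hK x h₂ h₀ ha hb hab)
        have e0 : s • q₀ - s • q₂ = (-s) • η := by rw [hη]; module
        have h3 := hsc x (s • q₂) (s • q₀) ξ hseg (by
          rw [e0, real_inner_smul_left, hξ, mul_zero]) l hl0 (by linarith)
        have e1 : (1 - l) • s • q₂ + l • s • q₀ = s • q₁ := by rw [hq₁, hη]; module
        rw [e1] at h3
        have h4 : ‖s • q₀ - s • q₂‖ ^ 2 ≤ ‖η‖ ^ 2 := by
          rw [e0, norm_smul, norm_neg, Real.norm_of_nonneg hs0, mul_pow]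
          have : s ^ 2 ≤ 1 := pow_le_one₀ hs0 hs1.le
          calc s ^ 2 * ‖η‖ ^ 2 ≤ 1 * ‖η‖ ^ 2 := by gcongr
            _ = _ := one_mul _
        have h5 : Ms * ‖ξ‖ ^ 2 * ‖s • q₀ - s • q₂‖ ^ 2 * (l * (1 - l)) ≤
            Ms * ‖ξ‖ ^ 2 * ‖η‖ ^ 2 * l := by
          have h6 : l * (1 - l) ≤ l := by nlinarith
          have h7 : 0 ≤ l * (1 - l) := mul_nonneg hl0 (by linarith)
          calc Ms * ‖ξ‖ ^ 2 * ‖s • q₀ - s • q₂‖ ^ 2 * (l * (1 - l)) ≤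
                Ms * ‖ξ‖ ^ 2 * ‖η‖ ^ 2 * (l * (1 - l)) := by gcongr
            _ ≤ _ := by gcongr
        show Rf G x ξ (s • q₁) ≤ l * Rf G x ξ (s • q₀) + (1 - l) * Rf G x ξ (s • q₂) +
          Ms * ‖ξ‖ ^ 2 * ‖η‖ ^ 2 * l
        linarith) hρ1 hρ2 (by rw [← hA]; exact hlA) V (fun v hv => by
        have h3 := (abs_le.1 (hshift q₁ h₁ v)).2
        have h4 := hV v hv
        have e : B * ρ * ‖v‖ ^ 2 = ρ * ‖v‖ ^ 2 + BL * D * ρ * ‖v‖ ^ 2 := by rw [hBd]; ring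
        rw [e]
        linarith)
    obtain ⟨W, hW1, hW2⟩ := hkey
    refine ⟨W, hW1, fun w hw => ?_⟩
    have h3 := (abs_le.1 (hshift q₂ h₂ w)).1
    have h4 := hW2 w hw
    have h5 : 0 ≤ (2 + Be * Z / κ ^ 2) * ρ * ‖w‖ ^ 2 := by positivity
    calc Hf G x q₂ w w ≤ Hf G x (s • q₂) w w + BL * D * ρ * ‖w‖ ^ 2 := by linarith
      _ ≤ 32 * B * (1 + κ⁻¹) ^ 2 * ρ * ‖w‖ ^ 2 + BL * D * ρ * ‖w‖ ^ 2 := by linarith
      _ ≤ (2 + Be * Z / κ ^ 2) * ρ * ‖w‖ ^ 2 +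
          (32 * B * (1 + κ⁻¹) ^ 2 * ρ * ‖w‖ ^ 2 + BL * D * ρ * ‖w‖ ^ 2) := by linarith
      _ = _ := by ring

end Crest.Agent.R226.WNc344
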