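/-
R226, E2 (helper344): (W) without crossing the foot: the chain, the Jacobians, the volumes.

* `dom_wnc` : `Dom (Hf p_t) (Hf p₀) C` for `t ≤ 1 - τ` as soon as the part `[p₀, p_t]` of the segment
  stays at relative distance `κ` of the foot;
* `jd_wnc`, `wncP` : the same for the Jacobian of the exponential map;
* `WNcP.inward`, `WNcP.outward` : the two ways not to cross;
* `vol_contract` : volumes of contractions.
-/
import Crest.Agent.R226.WNcGeo_344
import Crest.Agent.R226.WOff_915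

set_option autoImplicit false
set_option linter.unusedSectionVars false
set_option linter.unusedVariables false

open MeasureTheory Bundle Set Filter
open scoped Manifold ContDiff Bundle ENNReal Topology NNReal
open Crest.GeometryTopology.MTW

namespace Crest.Agent.R226.WNc344

open Crest.Agent.R226.DomLin344 Crest.Agent.R226.Base347 Crest.Agent.R226.NF946
open Crest.Agent.R226.Dasm290

section abs

variable {E : Type*} [NormedAddCommGroup E] [InnerProductSpace ℝ E]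

/-- the part `[p₀, p₀ + t (p₁ - p₀)]` of the segment `[p₀, p₁]` stays away from the foot of `0`. -/
def Off (κ : ℝ) (p₀ p₁ : E) (t : ℝ) : Prop :=
  ∀ a : ℝ, 0 ≤ a → a ≤ t → κ * ‖p₁ - p₀‖ ^ 2 ≤ |inner ℝ (p₀ + a • (p₁ - p₀)) (p₁ - p₀)|

theorem Off.mono {κ κ' : ℝ} {p₀ p₁ : E} {t : ℝ} (h : Off κ p₀ p₁ t) (hκ : κ' ≤ κ) :
    Off κ' p₀ p₁ t := fun a h0 h1 =>
  (mul_le_mul_of_nonneg_right hκ (by positivity)).trans (h a h0 h1)

theorem Off.mono_t {κ : ℝ} {p₀ p₁ : E} {t t' : ℝ} (h : Off κ p₀ p₁ t) (ht : t' ≤ t) :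
    Off κ p₀ p₁ t' := fun a h0 h1 => h a h0 (h1.trans ht)

theorem inner_line (p₀ d : E) (a : ℝ) :
    inner ℝ (p₀ + a • d) d = inner ℝ p₀ d + a * ‖d‖ ^ 2 := by
  rw [inner_add_left, real_inner_smul_left, real_inner_self_eq_norm_sq]

/-- inward motion, not reaching the foot -/
theorem Off.inward {κ : ℝ} {p₀ p₁ : E} {t : ℝ}
    (h : inner ℝ (p₀ + t • (p₁ - p₀)) (p₁ - p₀) ≤ -(κ * ‖p₁ - p₀‖ ^ 2)) : Off κ p₀ p₁ t := by
  intro a h0 h1
  rw [inner_line] at h ⊢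
  have h2 : a * ‖p₁ - p₀‖ ^ 2 ≤ t * ‖p₁ - p₀‖ ^ 2 := by gcongr
  exact (by linarith : κ * ‖p₁ - p₀‖ ^ 2 ≤
    -(inner ℝ p₀ (p₁ - p₀) + a * ‖p₁ - p₀‖ ^ 2)).trans (neg_le_abs _)

/-- outward motion, starting strictly beyond the foot -/
theorem Off.outward {κ : ℝ} {p₀ p₁ : E} {t : ℝ}
    (h : κ * ‖p₁ - p₀‖ ^ 2 ≤ inner ℝ p₀ (p₁ - p₀)) : Off κ p₀ p₁ t := by
  intro a h0 h1
  rw [inner_line]
  have h2 : 0 ≤ a * ‖p₁ - p₀‖ ^ 2 := by positivity
  exact (by linarith : κ * ‖p₁ - p₀‖ ^ 2 ≤ inner ℝ p₀ (p₁ - p₀) + a * ‖p₁ - p₀‖ ^ 2).trans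
    (le_abs_self _)

/-- (W) without crossing, for a density `J` -/
def WNcP (K : Set E) (J : E → ℝ≥0∞) (κ τ c : ℝ) : Prop :=
  ∀ p₀ ∈ K, ∀ p₁ ∈ K, ∀ t : ℝ, 0 ≤ t → t ≤ 1 - τ → Off κ p₀ p₁ t →
    ENNReal.ofReal c * J p₀ ≤ J (p₀ + t • (p₁ - p₀))

end abs

variable {n : ℕ} {M : Type*} [MetricSpace M] [ChartedSpace (EuclideanSpace ℝ (Fin n)) M]
  [IsManifold (𝓡 n) ∞ M]
  [RiemannianBundle (fun p : M => TangentSpace (𝓡 n) p)]
  [IsContMDiffRiemannianBundle (𝓡 n) ∞ (EuclideanSpace ℝ (Fin n))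
    (fun p : M => TangentSpace (𝓡 n) p)]
  {G : GeoData n M}

/-- **(W) without crossing the foot**, min-max form. -/
theorem dom_wnc [CompactSpace M] (hC : CutFacts G) (hM : MTWFacts G) (hg : GoodAll G) {c : ℝ}
    (hc : 0 < c) (hdep : DepthP G c) {κ τ : ℝ} (hκ : 0 < κ) (hτ : 0 < τ) :
    ∃ C : ℝ, 1 ≤ C ∧ ∀ x : M, ∀ p₀ ∈ G.K x, ∀ p₁ ∈ G.K x, ∀ t : ℝ, 0 ≤ t → t ≤ 1 - τ →
      Off κ p₀ p₁ t → Dom (Hf G x (p₀ + t • (p₁ - p₀))) (Hf G x p₀) C := by
  obtain ⟨l₀, C, hl0, hl1, hC1, hstep⟩ := step hC hM hg hc hdep (κ := min κ 1) (by positivity)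
    (min_le_right _ _)
  have hC0 : 0 < C := by linarith
  have hq0 : 0 < 1 - l₀ := by linarith
  have hq1 : 1 - l₀ < 1 := by linarith
  obtain ⟨N, hN⟩ := exists_pow_lt_of_lt_one hτ hq1
  refine ⟨C ^ N, one_le_pow₀ hC1, ?_⟩
  intro x p₀ h₀ p₁ h₁ t ht0 ht1 hoff
  have hoff' : Off (min κ 1) p₀ p₁ t := hoff.mono (min_le_left _ _)
  have hmem : ∀ a : ℝ, 0 ≤ a → a ≤ 1 → p₀ + a • (p₁ - p₀) ∈ G.K x := by
    intro a ha0 ha1
    have := convex_K hg x h₀ h₁ (a := 1 - a) (b := a) (by linarith) ha0 (by ring)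
    convert this using 1
    module
  have key : ∀ k : ℕ, ∀ a : ℝ, 0 ≤ a → a ≤ t → (1 - l₀) ^ k ≤ 1 - a →
      Dom (Hf G x (p₀ + a • (p₁ - p₀))) (Hf G x p₀) (C ^ k) := by
    intro k
    induction k with
    | zero =>
      intro a ha0 hat hk
      rw [pow_zero] at hk
      have ha : a = 0 := by linarith
      subst ha
      rw [zero_smul, add_zero, pow_zero]
      exact Dom.refl _
    | succ k ih =>
      intro a ha0 hat hk
      rcases le_or_gt a l₀ with hal | hal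
      · have h3 := hstep x p₁ h₁ p₀ h₀ a ha0 hal (by
          have h4 := hoff' a ha0 hat
          have e1 : p₀ - a • (p₀ - p₁) = p₀ + a • (p₁ - p₀) := by module
          have e2 : p₀ - p₁ = -(p₁ - p₀) := by abel
          rw [e1, e2, inner_neg_right, abs_neg, norm_neg]
          exact h4)
        have e1 : p₀ - a • (p₀ - p₁) = p₀ + a • (p₁ - p₀) := by module
        rw [e1] at h3
        refine h3.mono ?_
        calc C = C * 1 := (mul_one C).symm
          _ ≤ C * C ^ k := by gcongr; exact one_le_pow₀ hC1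
          _ = C ^ (k + 1) := by rw [pow_succ]; ring
      · obtain ⟨b, hb⟩ : ∃ b : ℝ, b = (a - l₀) / (1 - l₀) := ⟨_, rfl⟩
        have hb0 : 0 ≤ b := by rw [hb]; exact div_nonneg (by linarith) hq0.le
        have hba : b * (1 - l₀) = a - l₀ := by rw [hb]; exact div_mul_cancel₀ _ hq0.ne'
        have hb1 : b ≤ a := by
          have : b * l₀ ≤ l₀ := by
            have h5 : b ≤ 1 := by
              rw [hb, div_le_one hq0]; linarith
            calc b * l₀ ≤ 1 * l₀ := by gcongr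
              _ = l₀ := one_mul _
          linarith
        have hb1' : b ≤ 1 := by linarith
        have e1 : p₀ + b • (p₁ - p₀) - l₀ • (p₀ + b • (p₁ - p₀) - p₁) = p₀ + a • (p₁ - p₀) := by
          have : a = b * (1 - l₀) + l₀ := by linarith
          rw [this]
          module
        have h3 := hstep x p₁ h₁ (p₀ + b • (p₁ - p₀)) (hmem b hb0 hb1') l₀ hl0.le le_rfl (by
          have h4 := hoff' a ha0 hat
          have e2 : p₀ + b • (p₁ - p₀) - p₁ = (-(1 - b)) • (p₁ - p₀) := by module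
          rw [e1, e2, real_inner_smul_right, abs_mul, norm_smul, norm_neg, abs_neg,
            Real.norm_of_nonneg (by linarith : 0 ≤ 1 - b), abs_of_nonneg (by linarith : 0 ≤ 1 - b)]
          have hm : 0 ≤ min κ 1 * ‖p₁ - p₀‖ ^ 2 := by positivity
          calc min κ 1 * ((1 - b) * ‖p₁ - p₀‖) ^ 2 =
                ((1 - b) * (1 - b)) * (min κ 1 * ‖p₁ - p₀‖ ^ 2) := by ring
            _ ≤ ((1 - b) * 1) * (min κ 1 * ‖p₁ - p₀‖ ^ 2) := by
                refine mul_le_mul_of_nonneg_right ?_ hm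
                exact mul_le_mul_of_nonneg_left (by linarith) (by linarith)
            _ = (1 - b) * (min κ 1 * ‖p₁ - p₀‖ ^ 2) := by ring
            _ ≤ (1 - b) * |inner ℝ (p₀ + a • (p₁ - p₀)) (p₁ - p₀)| :=
                mul_le_mul_of_nonneg_left h4 (by linarith))
        rw [e1] at h3
        have h6 := ih b hb0 (hb1.trans hat) (by
          have h7 : (1 - b) * (1 - l₀) = 1 - a := by
            have : (1 - b) * (1 - l₀) = 1 - l₀ - b * (1 - l₀) := by ring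
            rw [this, hba]; ring
          have h8 : (1 - l₀) ^ k * (1 - l₀) ≤ (1 - b) * (1 - l₀) := by
            rw [h7, ← pow_succ]; exact hk
          exact le_of_mul_le_mul_right h8 hq0)
        rw [pow_succ]
        exact h3.trans h6 hC0
  exact key N t ht0 le_rfl (by linarith)

/-- **(W) without crossing the foot**, Jacobian determinants. -/
theorem jd_wnc [CompactSpace M] (hC : CutFacts G) (hM : MTWFacts G) (hg : GoodAll G) {c : ℝ}
    (hc : 0 < c) (hdep : DepthP G c) {κ τ : ℝ} (hκ : 0 < κ) (hτ : 0 < τ) :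
    ∃ C : ℝ, 1 ≤ C ∧ ∀ x : M, ∀ p₀ ∈ G.K x, ∀ p₁ ∈ G.K x, ∀ t : ℝ, 0 ≤ t → t ≤ 1 - τ →
      Off κ p₀ p₁ t → Jac344.jd G x p₀ ≤ C * Jac344.jd G x (p₀ + t • (p₁ - p₀)) := by
  obtain ⟨C, hC1, h⟩ := dom_wnc hC hM hg hc hdep hκ hτ
  refine ⟨C ^ n, one_le_pow₀ hC1, fun x p₀ h₀ p₁ h₁ t ht0 ht1 hoff => ?_⟩
  have hmem : p₀ + t • (p₁ - p₀) ∈ G.K x := by
    have := convex_K hg x h₀ h₁ (a := 1 - t) (b := t) (by linarith) ht0 (by ring)
    convert this using 1
    module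
  exact Jac344.jd_le_of_dom hC hmem h₀ (by linarith) (h x p₀ h₀ p₁ h₁ t ht0 ht1 hoff)

/-- `WNcP` for every density which is the Jacobian of the exponential map on `K(x)`. -/
theorem wncP [CompactSpace M] (hC : CutFacts G) (hM : MTWFacts G) (hg : GoodAll G) {c : ℝ}
    (hc : 0 < c) (hdep : DepthP G c) {κ τ : ℝ} (hκ : 0 < κ) (hτ : 0 < τ) :
    ∃ c' : ℝ, 0 < c' ∧ c' ≤ 1 ∧ ∀ x : M, ∀ J : TangentSpace (𝓡 n) x → ℝ≥0∞,
      (∀ p ∈ G.K x, J p = ENNReal.ofReal (Jac344.jd G x p)) → WNcP (G.K x) J κ τ c' := by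
  obtain ⟨C, hC1, h⟩ := jd_wnc hC hM hg hc hdep hκ hτ
  have hC0 : 0 < C := by linarith
  refine ⟨1 / C, by positivity, (div_le_one hC0).2 hC1, fun x J hJ p₀ h₀ p₁ h₁ t ht0 ht1 hoff => ?_⟩
  have hmem : p₀ + t • (p₁ - p₀) ∈ G.K x := by
    have := convex_K hg x h₀ h₁ (a := 1 - t) (b := t) (by linarith) ht0 (by ring)
    convert this using 1
    module
  rw [hJ _ h₀, hJ _ hmem, ← ENNReal.ofReal_mul (by positivity)]
  apply ENNReal.ofReal_le_ofReal
  have h3 := h x p₀ h₀ p₁ h₁ t ht0 ht1 hoff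
  rw [div_mul_eq_mul_div, one_mul, div_le_iff₀ hC0, mul_comm]
  exact h3

end Crest.Agent.R226.WNc344
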