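/-
R226 / leaf (B) and (iv) of the pair scheme (10312/10436, split 10505), helper544.
* `ystar`: the pole `y* = exp_{x₁}((1-s)p₀)` of a column without growth: `D(x₁,y*) ≤ H + (1-s)h`
  and `D(x,y*) ≥ D(x₁,y*) + s(u(x)-u(x₁)) + (1-s)(D(x,y₀)-D(x₁,y₀))` for ALL `x`;
* `toplevel`: contacts of the points of the chord `p* → p` are at top level
  `(1-κ)⁴ (s (u(x)-u(x₁)) - h - ε) ≤ H₁ + ε`.
-/
import Crest.Agent.R226.Far_977
import Crest.Agent.R226.MTWConc_117

set_option autoImplicit false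
set_option linter.unusedSectionVars false

open MeasureTheory Bundle Set Filter
open scoped Manifold ContDiff Bundle ENNReal Topology
open Crest.GeometryTopology.MTW

namespace Crest.Agent.R226.YStar544

open Crest.Agent.R226 Crest.Agent.R226.Kant624 Crest.Agent.R226.E1Shape964
  Crest.Agent.R226.Dasm290 Crest.Agent.R226.Osc977 Crest.Agent.R226.Far977

variable {n : ℕ} {M : Type*} [MetricSpace M] [ChartedSpace (EuclideanSpace ℝ (Fin n)) M]
  [IsManifold (𝓡 n) ∞ M]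
  [RiemannianBundle (fun p : M => TangentSpace (𝓡 n) p)]
  [CompactSpace M] {G : GeoData n M}

/-- pulling the target `y₀ = exp_{x₁} p₀` back towards `x₁`, in terms of the gap. -/
theorem gap_pull {u : M → ℝ} {x1 : M} {p0 : TangentSpace (𝓡 n) x1} (hp0 : p0 ∈ G.K x1)
    {s : ℝ} (hs : 0 ≤ s) (hs1 : s ≤ 1) (x : M) :
    Dd u x1 (G.ex x1 ((1 - s) • p0)) + s * (u x - u x1) +
      (1 - s) * (Dd u x (G.ex x1 p0) - Dd u x1 (G.ex x1 p0)) ≤
        Dd u x (G.ex x1 ((1 - s) • p0)) := by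
  have h1 := tri_ineq hp0 hs hs1 x
  unfold Dd
  nlinarith

/-- `K(x)` is star shaped. -/
theorem smul_mem_K (hg : GoodAll G) {x : M} {p : TangentSpace (𝓡 n) x} (hp : p ∈ G.K x) {s : ℝ}
    (hs : 0 ≤ s) (hs1 : s ≤ 1) : (1 - s) • p ∈ G.K x := by
  have h0 : (0 : TangentSpace (𝓡 n) x) ∈ G.K x := by
    show dist x (G.ex x 0) = ‖(0 : TangentSpace (𝓡 n) x)‖
    rw [G.ex_zero, dist_self, norm_zero]
  have h1 := (convex_K hg x) hp h0 (show 0 ≤ 1 - s by linarith) hs (by ring)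
  rwa [smul_zero, add_zero] at h1

/-- **(B)**: the pole of a column without growth at the end `x₁`. -/
theorem ystar (hC : CutFacts G) (hD : DFacts G) (hg : GoodAll G) {u : M → ℝ} (hu : CConv u)
    {x1 : M} {p0 : TangentSpace (𝓡 n) x1} (hp0 : p0 ∈ G.K x1) {h H L s : ℝ}
    (hH : 0 ≤ H) (hs : 0 ≤ s) (hs1 : s ≤ 1 / 2) (h1 : Dd u x1 (G.ex x1 p0) ≤ h)
    (hL : 2 * H + h < L)
    (hNG : ∀ x, Dd u x (G.ex x1 p0) ≤ L → s * (u x1 - u x) ≤ H) :
    Dd u x1 (G.ex x1 ((1 - s) • p0)) ≤ H + (1 - s) * h ∧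
      ∀ x, Dd u x1 (G.ex x1 ((1 - s) • p0)) + s * (u x - u x1) +
        (1 - s) * (Dd u x (G.ex x1 p0) - Dd u x1 (G.ex x1 p0)) ≤
          Dd u x (G.ex x1 ((1 - s) • p0)) := by
  have huc := CConv.continuous hu
  set y0 : M := G.ex x1 p0 with hy0
  set ys : M := G.ex x1 ((1 - s) • p0) with hys
  have key : ∀ x, Dd u x1 ys + s * (u x - u x1) +
      (1 - s) * (Dd u x y0 - Dd u x1 y0) ≤ Dd u x ys := fun x =>
    gap_pull hp0 hs (by linarith) x
  refine ⟨?_, key⟩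
  have hx1n : 0 ≤ Dd u x1 y0 := Dd_nonneg huc _ _
  have hx1L : Dd u x1 y0 ≤ L := by linarith
  obtain ⟨xm, hxmL, hmin⟩ := (isCompact_sec hu y0 L).exists_isMinOn ⟨x1, hx1L⟩
    (continuous_Dd hu ys).continuousOn
  have hxmL' : Dd u xm y0 ≤ L := hxmL
  have hmin' : ∀ x, Dd u x y0 ≤ L → Dd u xm ys ≤ Dd u x ys := fun x hx => hmin hx
  have hm1 := hmin' x1 hx1L
  have hkm := key xm
  have hng := hNG xm hxmL'
  have hlt : Dd u xm y0 < L := by
    by_contra hneg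
    push Not at hneg
    nlinarith
  have hloc : ys ∈ cSub u xm := by
    refine mem_cSub_of_localMin hC hD hg hu ?_
    have hopen : IsOpen {x : M | Dd u x y0 < L} :=
      isOpen_lt (continuous_Dd hu y0) continuous_const
    filter_upwards [hopen.mem_nhds hlt] with x hx
    have h2 := hmin' x (le_of_lt hx)
    unfold Dd at h2
    linarith
  have h0 : Dd u xm ys = 0 := (Dd_eq_zero huc).2 hloc
  have hxmn : 0 ≤ Dd u xm y0 := Dd_nonneg huc _ _
  have h5 : 0 ≤ (1 - s) * Dd u xm y0 := mul_nonneg (by linarith) hxmn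
  have h6 : (1 - s) * Dd u x1 y0 ≤ (1 - s) * h := mul_le_mul_of_nonneg_left h1 (by linarith)
  nlinarith

/-- the slope law (exact slope inequality, power 4) on the chords of `K(x₁)`, along which the test
point `x` is nearer than `x₁`. -/
def SlopeLaw (G : GeoData n M) : Prop :=
  ∀ (x1 x : M) (p q : TangentSpace (𝓡 n) x1), p ∈ G.K x1 → q ∈ G.K x1 → ∀ t : ℝ, 0 ≤ t → t ≤ 1 →
    (∀ r : ℝ, 0 ≤ r → r ≤ t → 0 ≤ Fq G x1 x (p + r • (q - p))) →
    Fq G x1 x p ≤ Fq G x1 x q →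
    (1 - t) ^ 4 * (Fq G x1 x q - Fq G x1 x p) ≤ Fq G x1 x q - Fq G x1 x (p + t • (q - p))

/-- `F_x(p) = u(x) - u(x₁) + D(x₁,exp p) - D(x,exp p)`. -/
theorem Fq_eq {u : M → ℝ} {x1 x : M} {p : TangentSpace (𝓡 n) x1} (hp : p ∈ G.K x1) :
    Fq G x1 x p = u x - u x1 + Dd u x1 (G.ex x1 p) - Dd u x (G.ex x1 p) := by
  have h1 := halfDistSq_ex' (G := G) hp
  unfold Fq Dd
  rw [halfDistSq_comm x1 (G.ex x1 p), h1, halfDistSq_comm x (G.ex x1 p)]
  ring

theorem continuous_Fq (x1 x : M) (p q : TangentSpace (𝓡 n) x1) :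
    Continuous fun r : ℝ => Fq G x1 x (p + r • (q - p)) := by
  have h1 : Continuous (G.ex x1) := (MTWConc117.contMDiff_ex G x1).continuous
  have h2 : Continuous fun s : ℝ => G.ex x1 (p + s • (q - p)) := h1.comp (by fun_prop)
  unfold Fq halfDistSq
  fun_prop

/-- abstract top level lemma on a chord `p → q` of `K(x₁)`. -/
theorem slope_top (hg : GoodAll G) (hS : SlopeLaw G) {x1 x : M} {p q : TangentSpace (𝓡 n) x1}
    (hp : p ∈ G.K x1) (hq : q ∈ G.K x1) {t b e : ℝ} (ht0 : 0 ≤ t) (ht1 : t ≤ 1) (hb : 0 < b)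
    (he : 0 < e) (hcb : e ≤ b)
    (hF0 : Fq G x1 x p ≤ Fq G x1 x (p + t • (q - p)) - e)
    (hFt : b ≤ Fq G x1 x (p + t • (q - p))) :
    (1 - t) ^ 4 * e ≤ Fq G x1 x q - Fq G x1 x (p + t • (q - p)) := by
  set F : ℝ → ℝ := fun r => Fq G x1 x (p + r • (q - p)) with hF
  have hFc : Continuous F := continuous_Fq x1 x p q
  have hF0' : F 0 = Fq G x1 x p := by rw [hF]; simp
  have hF1' : F 1 = Fq G x1 x q := by rw [hF]; simp
  have hmem : ∀ r : ℝ, 0 ≤ r → r ≤ 1 → p + r • (q - p) ∈ G.K x1 := fun r h0 h1 =>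
    (convex_K hg x1).add_smul_sub_mem hp hq ⟨h0, h1⟩
  -- `F t ≤ F 1`
  have hquasi : F t ≤ max (F 0) (F 1) := by
    have h1 := fam hg x (μ := 0) le_rfl hp hq (a := 1 - t) (b := t) (by linarith) ht0 (by ring)
    have h2 : (1 - t) • p + t • q = p + t • (q - p) := by
      rw [sub_smul, one_smul, smul_sub]; abel
    rw [h2] at h1
    simp only [zero_mul, add_zero] at h1
    rw [hF0', hF1']
    exact h1
  have hFt1 : F t ≤ F 1 := by
    rcases le_max_iff.1 hquasi with h | h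
    · exfalso
      rw [hF0'] at h
      have : Fq G x1 x p ≤ F t - e := hF0
      linarith
    · exact h
  have hFtb : b ≤ F t := hFt
  by_cases hA : ∀ r : ℝ, 0 ≤ r → r ≤ t → 0 ≤ F r
  · have h1 := hS x1 x p q hp hq t ht0 ht1 hA (by
      rw [← hF0', ← hF1']
      have : F 0 ≤ F t - e := by rw [hF0']; exact hF0
      linarith)
    have h2 : (1 - t) ^ 4 * e ≤ (1 - t) ^ 4 * (Fq G x1 x q - Fq G x1 x p) := by
      refine mul_le_mul_of_nonneg_left ?_ (by positivity)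
      rw [← hF1', ← hF0']
      have : F 0 ≤ F t - e := by rw [hF0']; exact hF0
      linarith
    exact h2.trans h1
  · push Not at hA
    obtain ⟨r1, hr0, hr1, hr2⟩ := hA
    have hcomp : IsCompact (Icc (0 : ℝ) t ∩ {r | F r ≤ 0}) :=
      isCompact_Icc.inter_right (isClosed_le hFc continuous_const)
    obtain ⟨t0, ⟨ht0m, ht0F⟩, ht0max⟩ := hcomp.exists_isGreatest ⟨r1, ⟨hr0, hr1⟩, hr2.le⟩
    have ht0F' : F t0 ≤ 0 := ht0F
    have ht0t : t0 < t := by
      rcases ht0m.2.eq_or_lt with h | h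
      · exfalso; rw [h] at ht0F'; linarith
      · exact h
    have ht01 : t0 < 1 := by linarith
    have hpos : ∀ r ∈ Ioc t0 t, 0 ≤ F r := by
      intro r hr
      by_contra hcon
      push Not at hcon
      have := ht0max ⟨⟨ht0m.1.trans hr.1.le, hr.2⟩, hcon.le⟩
      linarith [hr.1]
    have hcl : Icc t0 t ⊆ {r | 0 ≤ F r} := by
      rw [← closure_Ioc ht0t.ne]
      exact closure_minimal hpos (isClosed_le continuous_const hFc)
    have hFt0 : F t0 = 0 := le_antisymm ht0F' (hcl ⟨le_rfl, ht0t.le⟩)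
    -- the sub-chord `p_{t0} → q`
    set p' : TangentSpace (𝓡 n) x1 := p + t0 • (q - p) with hp'
    have hp'K : p' ∈ G.K x1 := hmem t0 ht0m.1 (by linarith)
    set τ : ℝ := (t - t0) / (1 - t0) with hτ
    have h1t0 : 0 < 1 - t0 := by linarith
    have hτ0 : 0 ≤ τ := div_nonneg (by linarith) h1t0.le
    have hτ1 : τ ≤ 1 := by rw [hτ, div_le_one h1t0]; linarith
    have hpar : ∀ r : ℝ, p' + r • (q - p') = p + (t0 + r * (1 - t0)) • (q - p) := by
      intro r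
      rw [hp']
      module
    have hτt : t0 + τ * (1 - t0) = t := by rw [hτ]; field_simp; ring
    have h1 := hS x1 x p' q hp'K hq τ hτ0 hτ1 (by
      intro r hr0' hr1'
      rw [hpar]
      have h3 : r * (1 - t0) ≤ τ * (1 - t0) := mul_le_mul_of_nonneg_right hr1' h1t0.le
      exact hcl ⟨by nlinarith, by linarith⟩) (by
      show F t0 ≤ Fq G x1 x q
      rw [hFt0, ← hF1']; linarith)
    rw [hpar, hτt] at h1
    have h2 : Fq G x1 x p' = 0 := hFt0
    rw [h2, sub_zero] at h1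
    refine le_trans ?_ h1
    have h3 : 1 - t ≤ 1 - τ := by
      have : 1 - τ = (1 - t) / (1 - t0) := by rw [hτ]; field_simp; ring
      rw [this, le_div_iff₀ h1t0]
      nlinarith [ht0m.1]
    have h4 : (1 - t) ^ 4 ≤ (1 - τ) ^ 4 := by
      have : 0 ≤ 1 - t := by linarith
      gcongr
    have h5 : e ≤ Fq G x1 x q := by rw [← hF1']; linarith
    have h6 : 0 ≤ (1 - τ) ^ 4 := by positivity
    calc (1 - t) ^ 4 * e ≤ (1 - τ) ^ 4 * e := mul_le_mul_of_nonneg_right h4 he.le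
      _ ≤ (1 - τ) ^ 4 * Fq G x1 x q := mul_le_mul_of_nonneg_left h5 h6

/-- **(iv) top level**: `p*` a velocity with `D(x,y*) ≥ D(x₁,y*) + s(u(x)-u(x₁)) - h`, `p` with
`D(x₁,exp p) ≤ H₁`; then every `x` with `D(x, exp p_t) ≤ ε`, `p_t = p* + t(p - p*)`, satisfies
`(1-t)⁴ (s (u(x)-u(x₁)) - h - ε) ≤ H₁ + ε`. -/
theorem toplevel (hg : GoodAll G) (hS : SlopeLaw G) {u : M → ℝ} (hu : CConv u) {x1 x : M}
    {ps p : TangentSpace (𝓡 n) x1} (hps : ps ∈ G.K x1) (hp : p ∈ G.K x1)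
    {t s h H1 ε : ℝ} (ht0 : 0 ≤ t) (ht1 : t ≤ 1) (hs0 : 0 ≤ s) (hs1 : s ≤ 1) (hh : 0 ≤ h)
    (hε : 0 ≤ ε)
    (hstar : Dd u x1 (G.ex x1 ps) + s * (u x - u x1) - h ≤ Dd u x (G.ex x1 ps))
    (hH1 : Dd u x1 (G.ex x1 p) ≤ H1)
    (hx : Dd u x (G.ex x1 (ps + t • (p - ps))) ≤ ε) :
    (1 - t) ^ 4 * (s * (u x - u x1) - h - ε) ≤ H1 + ε := by
  have huc := CConv.continuous hu
  have hH0 : 0 ≤ H1 := (Dd_nonneg huc _ _).trans hH1
  set b : ℝ := u x - u x1 with hb
  rcases le_or_gt (s * b - h - ε) 0 with hneg | hpos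
  · have : (1 - t) ^ 4 * (s * b - h - ε) ≤ 0 :=
      mul_nonpos_of_nonneg_of_nonpos (by positivity) hneg
    linarith
  have hb0 : 0 < b := by
    by_contra hcon
    push Not at hcon
    have : s * b ≤ 0 := mul_nonpos_of_nonneg_of_nonpos hs0 hcon
    linarith
  have hsb : s * b ≤ b := by nlinarith
  have hmem : ps + t • (p - ps) ∈ G.K x1 := (convex_K hg x1).add_smul_sub_mem hps hp ⟨ht0, ht1⟩
  have e0 := Fq_eq (u := u) (x := x) hps
  have e1 := Fq_eq (u := u) (x := x) hp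
  have et := Fq_eq (u := u) (x := x) hmem
  have n1 := Dd_nonneg huc x1 (G.ex x1 (ps + t • (p - ps)))
  have n2 := Dd_nonneg huc x (G.ex x1 p)
  have h1 := slope_top hg hS (x := x) hps hp ht0 ht1 (b := b - ε) (e := s * b - h - ε)
    (by linarith) hpos (by linarith) (by linarith) (by linarith)
  linarith

end Crest.Agent.R226.YStar544
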