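/-
R226 / leaf (C) of the pair scheme (helper579 / helper619), geometric instance (helper301).

Chart at `x₁` (far end of the pair), `p₀` the Tukey point, `p_* = (1-s) p₀`,
`AA = {p ∈ K(x₁) | D(x₀,exp p) ≤ h, D(x₁,exp p) ≤ h, ⟪p₀,p₀⟫ ≤ ⟪p₀,p⟫}`.

* `tukey_full`  : the point `p₀` with NG on the column and with deep half-spaces;
* `escape_AA`   : `p, con p_* t p ∈ AA` ⇒ `(1-t)⁴ (s a - 2h) ≤ 2h`;
* `mono_AA`     : `J(con p_* t p) ≥ c J(p)` for `p ∈ AA`, `t ∈ [1/2,1]` (strictly inward chords);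
* `mass_copies_AA`, `vol_copies_AA` : the masses of the copies add up.
-/
import Crest.Agent.R226.Copies_301
import Crest.Agent.R226.Copy_977
import Crest.Agent.R226.NGcol_487
import Crest.Agent.R226.YStar_544
import Crest.Agent.R226.WNc_344

set_option autoImplicit false
set_option linter.unusedSectionVars false
set_option linter.unusedVariables false

open MeasureTheory Bundle Set Filter
open scoped Manifold ContDiff Bundle ENNReal Topology RealInnerProductSpace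
open Crest.GeometryTopology.MTW

namespace Crest.Agent.R226.CopiesGeo301

open Crest.Agent.R226 Crest.Agent.R226.Kant624 Crest.Agent.R226.Reduction624
  Crest.Agent.R226.HolderEnd915 Crest.Agent.R226.E1Shape964 Crest.Agent.R226.Dasm290
  Crest.Agent.R226.Osc977 Crest.Agent.R226.Far977 Crest.Agent.R226.NG487
  Crest.Agent.R226.YStar544 Crest.Agent.R226.Copies301 Crest.Agent.R226.WOff915
  Crest.Agent.R226.NS683

/-- monotonicity of `J` along segments that stay away from their foot (class `κ`). -/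
def WNcJ {E : Type*} [NormedAddCommGroup E] [InnerProductSpace ℝ E] (K : Set E) (J : E → ℝ≥0∞)
    (κ c : ℝ) : Prop :=
  ∀ p ∈ K, ∀ q ∈ K, ∀ t : ℝ, 0 ≤ t → t ≤ 1 / 2 →
    (∀ a : ℝ, 0 ≤ a → a ≤ t → κ * ‖q - p‖ ^ 2 ≤ |⟪p + a • (q - p), q - p⟫|) →
    ENNReal.ofReal c * J p ≤ J (p + t • (q - p))

/-- from helper344's `WNcP`. -/
theorem WNcJ.of_WNcP {E : Type*} [NormedAddCommGroup E] [InnerProductSpace ℝ E] {K : Set E}
    {J : E → ℝ≥0∞} {κ τ c : ℝ} (hW : WNc344.WNcP K J κ τ c) (hτ : τ ≤ 1 / 2) : WNcJ K J κ c :=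
  fun p hp q hq t ht ht1 h => hW p hp q hq t ht (by linarith) h

/-- inward contraction towards the nearest point of the chord. -/
theorem WNcJ.con_le {E : Type*} [NormedAddCommGroup E] [InnerProductSpace ℝ E] {K : Set E}
    {J : E → ℝ≥0∞} {κ c : ℝ} (hW : WNcJ K J κ c) (hκ : κ ≤ 1 / 2) {p₀ p : E} (h0 : p₀ ∈ K)
    (hp : p ∈ K) (hin : 0 ≤ ⟪p₀, p - p₀⟫) {t : ℝ} (ht : 1 / 2 ≤ t) (ht1 : t ≤ 1) :
    ENNReal.ofReal c * J p ≤ J (con p₀ t p) := by
  have h1 := hW p hp p₀ h0 (1 - t) (by linarith) (by linarith) (fun a ha hat => by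
    have e1 : p + a • (p₀ - p) = p₀ + (1 - a) • (p - p₀) := by module
    have e2 : p₀ - p = -(p - p₀) := by module
    have e3 : ‖p₀ - p‖ = ‖p - p₀‖ := norm_sub_rev _ _
    rw [e1, e3, e2, inner_neg_right, abs_neg, inner_add_left, inner_smul_left,
      real_inner_self_eq_norm_sq]
    simp only [conj_trivial]
    refine le_trans ?_ (le_abs_self _)
    have h2 : 0 ≤ ‖p - p₀‖ ^ 2 := by positivity
    have h3 : κ * ‖p - p₀‖ ^ 2 ≤ (1 - a) * ‖p - p₀‖ ^ 2 :=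
      mul_le_mul_of_nonneg_right (by linarith) h2
    linarith)
  have e4 : p + (1 - t) • (p₀ - p) = con p₀ t p := by unfold con; module
  rwa [e4] at h1

variable {n : ℕ} {M : Type*} [MetricSpace M] [ChartedSpace (EuclideanSpace ℝ (Fin n)) M]
  [IsManifold (𝓡 n) ∞ M]
  [RiemannianBundle (fun p : M => TangentSpace (𝓡 n) p)]

/-- velocities at `x₁` of `S = Y_h(x₀) ∩ Y_h(x₁)` in the half-space through `p₀` orthogonal
to `p₀`. -/
def AA (G : GeoData n M) (u : M → ℝ) (x0 x1 : M) (h : ℝ) (p0 : TangentSpace (𝓡 n) x1) :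
    Set (TangentSpace (𝓡 n) x1) :=
  {p | p ∈ G.K x1 ∧ Dd u x0 (G.ex x1 p) ≤ h ∧ Dd u x1 (G.ex x1 p) ≤ h ∧ ⟪p0, p0⟫ ≤ ⟪p0, p⟫}

theorem gg_eq_Fq (G : GeoData n M) (x1 x : M) (p0 p : TangentSpace (𝓡 n) x1) (t : ℝ) :
    gg G x1 p0 p x t = Fq G x1 x (con p0 t p) := by
  unfold gg Fq con
  rw [halfDistSq_comm]

section Closed

variable [IsContMDiffRiemannianBundle (𝓡 n) ∞ (EuclideanSpace ℝ (Fin n))
    (fun p : M => TangentSpace (𝓡 n) p)]
  [IsRiemannianManifold (𝓡 n) M] [CompactSpace M] [MeasurableSpace M] [BorelSpace M]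
  {G : GeoData n M}

theorem isCompact_AA {u : M → ℝ} (hu : CConv u) (x0 x1 : M) (h : ℝ)
    (p0 : TangentSpace (𝓡 n) x1) : IsCompact (AA G u x0 x1 h p0) := by
  have h1 : AA G u x0 x1 h p0 = G.K x1 ∩ ((G.ex x1 ⁻¹' (SS u x0 x1 h)) ∩
      {p | (⟪p0, p0⟫ : ℝ) ≤ ⟪p0, p⟫}) := by
    ext p
    simp only [AA, SS, mem_ofPred_eq, mem_inter_iff, mem_preimage]
    tauto
  rw [h1]
  refine (CutTop478.isCompact_K G x1).inter_right ?_
  refine ((isClosed_SS hu x0 x1 h).preimage (continuous_exv G x1)).inter ?_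
  exact isClosed_le continuous_const (by fun_prop)

theorem pole_mem_K (hg : GoodAll G) {x : M} {p : TangentSpace (𝓡 n) x} (hp : p ∈ G.K x) {s : ℝ}
    (hs : 0 ≤ s) (hs1 : s ≤ 1) : (1 - s) • p ∈ G.K x := smul_mem_K hg hp hs hs1

/-- the pole `p_* = (1-s) p₀` is the nearest point of every chord to `AA`. -/
theorem inward_AA {u : M → ℝ} {x0 x1 : M} {h : ℝ} {p0 p : TangentSpace (𝓡 n) x1}
    (hp : p ∈ AA G u x0 x1 h p0) {s : ℝ} (hs : 0 ≤ s) (hs1 : s ≤ 1) :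
    0 ≤ (⟪(1 - s) • p0, p - (1 - s) • p0⟫ : ℝ) := by
  have h1 := hp.2.2.2
  rw [inner_smul_left, inner_sub_right, inner_smul_right]
  simp only [conj_trivial]
  have h2 : 0 ≤ (⟪p0, p0⟫ : ℝ) := real_inner_self_nonneg
  have h3 : (1 - s) * (⟪p0, p0⟫ : ℝ) ≤ ⟪p0, p0⟫ := by nlinarith
  exact mul_nonneg (by linarith) (by linarith)

/-- **escape**: `p` and `con p_* t p` can both be in `AA` only for `t` close to `1`. -/
theorem escape_AA (hC : CutFacts G) (hg : GoodAll G) {u : M → ℝ} (hu : CConv u) {x0 x1 : M}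
    {h s : ℝ} (hh : 0 ≤ h) (ha : h < u x0 - u x1) (hs : 0 ≤ s) (hs1 : s ≤ 1)
    {p0 p : TangentSpace (𝓡 n) x1} (hp0 : p0 ∈ G.K x1) (h1 : Dd u x1 (G.ex x1 p0) ≤ h)
    (hp : p ∈ AA G u x0 x1 h p0) {t : ℝ} (ht : 0 ≤ t) (ht1 : t < 1)
    (hpt : con ((1 - s) • p0) t p ∈ AA G u x0 x1 h p0) :
    (1 - t) ^ 4 * (s * (u x0 - u x1) - 2 * h) ≤ 2 * h := by
  have huc := CConv.continuous hu
  have hps : (1 - s) • p0 ∈ G.K x1 := pole_mem_K hg hp0 hs hs1
  have k := gap_pull (u := u) hp0 hs hs1 x0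
  have e0 := Fq_eq (G := G) (u := u) (x := x0) hps
  have e1 := Fq_eq (G := G) (u := u) (x := x0) hp.1
  have et := Fq_eq (G := G) (u := u) (x := x0) hpt.1
  have g0 : gg G x1 ((1 - s) • p0) p x0 0 = Fq G x1 x0 ((1 - s) • p0) := by
    rw [gg_eq_Fq]
    congr 1
    unfold con; module
  have g1 : gg G x1 ((1 - s) • p0) p x0 1 = Fq G x1 x0 p := by
    rw [gg_eq_Fq]
    congr 1
    unfold con; module
  have n1 := Dd_nonneg huc x1 (G.ex x1 p)
  have n2 := Dd_nonneg huc x0 (G.ex x1 p)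
  have n3 := Dd_nonneg huc x0 (G.ex x1 p0)
  have n5 := Dd_nonneg huc x1 (G.ex x1 (con ((1 - s) • p0) t p))
  have n6 := Dd_nonneg huc x0 (G.ex x1 (con ((1 - s) • p0) t p))
  have m1 := hp.2.1
  have m2 := hp.2.2.1
  have m3 := hpt.2.1
  have m4 := hpt.2.2.1
  have k1 : 0 ≤ (1 - s) * Dd u x0 (G.ex x1 p0) := mul_nonneg (by linarith) n3
  have k2 : (1 - s) * Dd u x1 (G.ex x1 p0) ≤ h := by
    have : (1 - s) * Dd u x1 (G.ex x1 p0) ≤ (1 - s) * h :=
      mul_le_mul_of_nonneg_left h1 (by linarith)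
    nlinarith
  have k3 : s * (u x0 - u x1) ≤ u x0 - u x1 := by nlinarith
  refine Copy977.escape hC hg hps hp.1 ht ht1 (xp := x0) (by positivity) ?_ ?_ ?_ ?_
  · rw [g0, g1, e0, e1]; nlinarith
  · rw [g1, e1]; linarith
  · rw [gg_eq_Fq, et]; linarith
  · rw [g1, gg_eq_Fq, e1, et]; linarith

/-- **(C), geometric form**: `N` disjoint copies of `AA` towards `p_* = (1-s) p₀`. -/
theorem mass_copies_AA (hC : CutFacts G) (hg : GoodAll G) {u : M → ℝ} (hu : CConv u) {x0 x1 : M}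
    {h s κ c : ℝ} (hh : 0 ≤ h) (ha : h < u x0 - u x1) (hs : 0 ≤ s) (hs1 : s ≤ 1)
    {p0 : TangentSpace (𝓡 n) x1} (hp0 : p0 ∈ G.K x1) (h1 : Dd u x1 (G.ex x1 p0) ≤ h)
    {N : ℕ} (hN : 0 < N) (hgap : 2 * h < (1 / (2 * (N : ℝ))) ^ 4 * (s * (u x0 - u x1) - 2 * h))
    [MeasurableSpace (TangentSpace (𝓡 n) x1)] [BorelSpace (TangentSpace (𝓡 n) x1)]
    {μ : Measure (TangentSpace (𝓡 n) x1)} [μ.IsAddHaarMeasure]
    {J : TangentSpace (𝓡 n) x1 → ℝ≥0∞} (hc : 0 ≤ c) (hκ : κ ≤ 1 / 2)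
    (hW : WNcJ (G.K x1) J κ c) :
    (N : ℝ≥0∞) * (ENNReal.ofReal (c * (1 / 2) ^ n) * ∫⁻ p in AA G u x0 x1 h p0, J p ∂μ) ≤
      ∫⁻ p in copies ((1 - s) • p0) N (AA G u x0 x1 h p0), J p ∂μ := by
  have hfin : FiniteDimensional ℝ (TangentSpace (𝓡 n) x1) :=
    inferInstanceAs (FiniteDimensional ℝ (EuclideanSpace ℝ (Fin n)))
  have hrank : Module.finrank ℝ (TangentSpace (𝓡 n) x1) = n := by
    have : Module.finrank ℝ (EuclideanSpace ℝ (Fin n)) = n := by simp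
    exact this
  have hps : (1 - s) • p0 ∈ G.K x1 := pole_mem_K hg hp0 hs hs1
  have key := mass_copies (μ := μ) (J := J) (isCompact_AA (G := G) hu x0 x1 h p0).measurableSet
    (p₀ := (1 - s) • p0) (B := 2 * h) (Γ := s * (u x0 - u x1) - 2 * h) (c := c) hN hc
    (by positivity)
    (fun p hp t ht ht1 => hW.con_le hκ hps hp.1 (inward_AA hp hs hs1) ht ht1)
    (fun p hp t ht ht1 hpt => escape_AA hC hg hu hh ha hs hs1 hp0 h1 hp ht ht1 hpt) hgap
  rwa [hrank] at key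

/-- the copies lie in the section `Y_{h'}(x₁)` of the far end. -/
theorem copies_subset_QS (hg : GoodAll G) {u : M → ℝ} (hu : CConv u) {x0 x1 : M}
    {h h' s : ℝ} (hhh : h ≤ h') (hs : 0 ≤ s) (hs1 : s ≤ 1)
    {p0 : TangentSpace (𝓡 n) x1} (hp0 : p0 ∈ G.K x1)
    (hpole : Dd u x1 (G.ex x1 ((1 - s) • p0)) ≤ h') {N : ℕ} (hN : 0 < N) :
    copies ((1 - s) • p0) N (AA G u x0 x1 h p0) ⊆ QS G (ctr u) x1 h' := by
  intro v hv
  let ms : MeasurableSpace (TangentSpace (𝓡 n) x1) := borel _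
  have bs : BorelSpace (TangentSpace (𝓡 n) x1) := ⟨rfl⟩
  have hfin : FiniteDimensional ℝ (TangentSpace (𝓡 n) x1) :=
    inferInstanceAs (FiniteDimensional ℝ (EuclideanSpace ℝ (Fin n)))
  obtain ⟨t, ht, ht1, p, hp, rfl⟩ := exists_of_mem_copies hN hv
  have hctr : CConv (ctr u) := CConv_ctr (CConv.continuous hu)
  have h0 : (1 - s) • p0 ∈ QS G (ctr u) x1 h' :=
    ⟨pole_mem_K hg hp0 hs hs1, by rw [Dd_ctr hu]; exact hpole⟩
  have h1 : p ∈ QS G (ctr u) x1 h' := ⟨hp.1, by rw [Dd_ctr hu]; exact hp.2.2.1.trans hhh⟩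
  exact Copy977.con_mem' (convex_QS hg hctr x1 h') h0 h1 (by linarith) ht1

end Closed

section Tukey

variable [IsContMDiffRiemannianBundle (𝓡 n) ∞ (EuclideanSpace ℝ (Fin n))
    (fun p : M => TangentSpace (𝓡 n) p)]
  [IsRiemannianManifold (𝓡 n) M] [CompactSpace M] [MeasurableSpace M] [BorelSpace M]
  {G : GeoData n M}

/-- **Tukey point, full form**: NG on its column *and* deep half-spaces: for every continuous
linear functional `f`, the part `{p | f p₀ ≤ f p}` of `log_{x₁} S` has an image of volume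
`≥ vol S / (n+1)`. -/
theorem tukey_full (hg : GoodAll G) {vol : Measure M} [IsFiniteMeasure vol]
    (hvol : vol ≪ (Measure.hausdorffMeasure (n : ℝ) : Measure M)) {u : M → ℝ} (hu : CConv u)
    {x0 x1 : M} {h h' L a' : ℝ} (hh : 0 ≤ h) (hhh : h < h') (hL : h + L < h')
    (hNG : ∀ x : M, (vol (SS u x0 x1 h)).toReal ≤ (n + 1) * (vol (SS u x0 x h')).toReal →
      u x0 - u x ≤ a') :
    ∃ p0 ∈ G.K x1, Dd u x1 (G.ex x1 p0) ≤ h ∧
      (∀ x : M, Dd u x (G.ex x1 p0) ≤ L → u x0 - u x ≤ a') ∧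
      ∀ f : TangentSpace (𝓡 n) x1 →L[ℝ] ℝ, vol (SS u x0 x1 h) ≤ ((n : ℝ≥0∞) + 1) *
        vol (G.ex x1 '' {p | p ∈ G.K x1 ∧ Dd u x0 (G.ex x1 p) ≤ h ∧ Dd u x1 (G.ex x1 p) ≤ h ∧
          f p0 ≤ f p}) := by
  classical
  let ms : MeasurableSpace (TangentSpace (𝓡 n) x1) := borel _
  have bs : BorelSpace (TangentSpace (𝓡 n) x1) := ⟨rfl⟩
  have hfin : FiniteDimensional ℝ (TangentSpace (𝓡 n) x1) :=
    inferInstanceAs (FiniteDimensional ℝ (EuclideanSpace ℝ (Fin n)))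
  have hrank : Module.finrank ℝ (TangentSpace (𝓡 n) x1) = n := by
    have : Module.finrank ℝ (EuclideanSpace ℝ (Fin n)) = n := by simp
    exact this
  have huc := CConv.continuous hu
  obtain ⟨L', hLm, hLK, hL'⟩ := exists_log G hvol x1
  set S : Set M := SS u x0 x1 h with hS
  have hSm : MeasurableSet S := (isClosed_SS hu x0 x1 h).measurableSet
  set μ : Measure (TangentSpace (𝓡 n) x1) := (vol.restrict S).map L' with hμ
  set K0 : Set (TangentSpace (𝓡 n) x1) := QS G (ctr u) x1 h with hK0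
  have hctr : CConv (ctr u) := CConv_ctr huc
  have hK0c : Convex ℝ K0 := convex_QS hg hctr x1 h
  have hK0cl : IsClosed K0 := by
    have h1 : K0 = G.K x1 ∩ {p | Dd (ctr u) (G.ex x1 p) x1 ≤ h} := rfl
    rw [h1]
    exact (CutTop478.isClosed_K G x1).inter
      (isClosed_le ((continuous_Dd hctr x1).comp (continuous_exv G x1)) continuous_const)
  have hK0ne : K0.Nonempty := by
    obtain ⟨y, hy⟩ := hu x1
    obtain ⟨p, hp, hpy⟩ := exists_mem_K G x1 y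
    refine ⟨p, hp, ?_⟩
    rw [Dd_ctr hu, hpy, (Dd_eq_zero huc).2 hy]
    exact hh
  have hK0n : μ K0ᶜ = 0 := by
    rw [hμ, Measure.map_apply hLm hK0cl.measurableSet.compl,
      Measure.restrict_apply (hLm hK0cl.measurableSet.compl)]
    refine measure_mono_null ?_ (show vol {y | ¬ (G.ex x1 (L' y) = y ∧
      ∀ p ∈ G.K x1, G.ex x1 p = y → p = L' y)} = 0 from hL')
    rintro y ⟨hy1, hy2⟩ ⟨hy3, -⟩
    apply hy1
    refine ⟨hLK y, ?_⟩
    rw [Dd_ctr hu, hy3]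
    exact hy2.2
  obtain ⟨z, hzK, hz⟩ := Tukey229.tukey μ hK0cl hK0c hK0ne hK0n
  have hz1 : Dd u x1 (G.ex x1 z) ≤ h := by
    have := hzK.2
    rwa [Dd_ctr hu] at this
  have h2 : μ.real univ = (vol S).toReal := by
    rw [Measure.real, hμ, Measure.map_apply hLm MeasurableSet.univ, preimage_univ,
      Measure.restrict_apply_univ]
  -- deep half-spaces
  have hdeep : ∀ f : TangentSpace (𝓡 n) x1 →L[ℝ] ℝ, vol S ≤ ((n : ℝ≥0∞) + 1) *
      vol (G.ex x1 '' {p | p ∈ G.K x1 ∧ Dd u x0 (G.ex x1 p) ≤ h ∧ Dd u x1 (G.ex x1 p) ≤ h ∧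
        f z ≤ f p}) := by
    intro f
    have h1 := hz f
    rw [hrank, h2] at h1
    have h3 : μ (Tukey229.up f z) ≤ vol (G.ex x1 '' {p | p ∈ G.K x1 ∧ Dd u x0 (G.ex x1 p) ≤ h ∧
        Dd u x1 (G.ex x1 p) ≤ h ∧ f z ≤ f p}) := by
      rw [hμ, Measure.map_apply hLm (Tukey229.measurableSet_up f z),
        Measure.restrict_apply (hLm (Tukey229.measurableSet_up f z))]
      refine measure_mono_ae ?_
      filter_upwards [hL'] with y hy hyS
      obtain ⟨hy1, hy2⟩ := hyS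
      refine ⟨L' y, ⟨hLK y, ?_, ?_, hy1⟩, hy.1⟩
      · rw [hy.1]; exact hy2.1
      · rw [hy.1]; exact hy2.2
    have h4 : μ.real (Tukey229.up f z) ≤ (vol (G.ex x1 '' {p | p ∈ G.K x1 ∧
        Dd u x0 (G.ex x1 p) ≤ h ∧ Dd u x1 (G.ex x1 p) ≤ h ∧ f z ≤ f p})).toReal :=
      ENNReal.toReal_mono (measure_ne_top _ _) h3
    have h5 : (vol S).toReal ≤ (n + 1) * (vol (G.ex x1 '' {p | p ∈ G.K x1 ∧
        Dd u x0 (G.ex x1 p) ≤ h ∧ Dd u x1 (G.ex x1 p) ≤ h ∧ f z ≤ f p})).toReal :=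
      h1.trans (by gcongr)
    have h6 : ((n : ℝ≥0∞) + 1) = ENNReal.ofReal ((n : ℝ) + 1) := by
      rw [ENNReal.ofReal_add (by positivity) zero_le_one, ENNReal.ofReal_one,
        ENNReal.ofReal_natCast]
    rw [h6, ← ENNReal.ofReal_toReal (measure_ne_top vol S),
      ← ENNReal.ofReal_toReal (measure_ne_top vol (G.ex x1 '' _)),
      ← ENNReal.ofReal_mul (by positivity)]
    exact ENNReal.ofReal_le_ofReal h5
  refine ⟨z, hzK.1, hz1, fun x hx => hNG x ?_, hdeep⟩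
  obtain ⟨f, hf⟩ := Dd_halfspace (u := u) hg x hzK.1 (show 0 < h' - h - L by linarith)
  have h7 := ENNReal.toReal_mono (ENNReal.mul_ne_top (by finiteness) (measure_ne_top _ _))
    (hdeep f)
  rw [ENNReal.toReal_mul] at h7
  have h8 : ((n : ℝ≥0∞) + 1).toReal = (n : ℝ) + 1 := by
    rw [ENNReal.toReal_add (by finiteness) (by finiteness)]
    simp
  rw [h8] at h7
  refine h7.trans ?_
  have h9 : (vol (G.ex x1 '' {p | p ∈ G.K x1 ∧ Dd u x0 (G.ex x1 p) ≤ h ∧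
      Dd u x1 (G.ex x1 p) ≤ h ∧ f z ≤ f p})).toReal ≤ (vol (SS u x0 x h')).toReal := by
    refine ENNReal.toReal_mono (measure_ne_top _ _) (measure_mono ?_)
    rintro _ ⟨p, ⟨hp, hp0, hp1, hpf⟩, rfl⟩
    have h10 := hf p hp hpf
    have h11 := Dd_nonneg huc x1 (G.ex x1 z)
    exact ⟨by linarith, by linarith⟩
  gcongr

/-- the special half-space used for the copies. -/
theorem vol_AA {vol : Measure M} {u : M → ℝ} {x0 x1 : M} {h : ℝ}
    {p0 : TangentSpace (𝓡 n) x1}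
    (hdeep : ∀ f : TangentSpace (𝓡 n) x1 →L[ℝ] ℝ, vol (SS u x0 x1 h) ≤ ((n : ℝ≥0∞) + 1) *
      vol (G.ex x1 '' {p | p ∈ G.K x1 ∧ Dd u x0 (G.ex x1 p) ≤ h ∧ Dd u x1 (G.ex x1 p) ≤ h ∧
        f p0 ≤ f p})) :
    vol (SS u x0 x1 h) ≤ ((n : ℝ≥0∞) + 1) * vol (G.ex x1 '' AA G u x0 x1 h p0) :=
  hdeep (innerSL ℝ p0)

end Tukey

end Crest.Agent.R226.CopiesGeo301
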