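/-
R226 / E1.4 (helper964): Step 3 of Theorem 1 of doc 848 (counting disjoint copies), abstract form.
-/
import Mathlib.Analysis.Convex.Topology
import Mathlib.MeasureTheory.Measure.NullMeasurable
import Mathlib.MeasureTheory.Constructions.BorelSpace.Basic
import Mathlib.Analysis.Normed.Module.Basic
import Mathlib.Tactic

set_option autoImplicit false

open MeasureTheory Set Filter Topology
open scoped ENNReal

namespace Crest.Agent.R226.Count964

section Walk

variable {V : Type*} [AddCommGroup V] [Module ℝ V]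

/-- Walking from `pL` towards `p`: under the weak `QQ` inequality for `-g`, after `k` steps of
ratio `1 - τ` at least the fraction `2⁻ᵏ` of the excess survives. -/
theorem walk {Q : Set V} (hQ : Convex ℝ Q) (g : V → ℝ) {τ : ℝ} (hτ0 : 0 < τ) (hτ1 : τ < 1)
    (hqq : ∀ p0 ∈ Q, ∀ p1 ∈ Q, ∀ t : ℝ, 0 ≤ t → t ≤ τ →
      g p0 - max (g p0 - g p1) 0 / 2 ≤ g ((1 - t) • p0 + t • p1))
    {pL p : V} (hpL : pL ∈ Q) (hp : p ∈ Q) (hle : g p ≤ g pL) (k : ℕ) :
    ∀ s : ℝ, (1 - τ) ^ k ≤ s → s ≤ 1 →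
      g p + (g pL - g p) / 2 ^ k ≤ g ((1 - s) • p + s • pL) := by
  induction k with
  | zero =>
    intro s h1 h2
    have hs : s = 1 := le_antisymm h2 (by simpa using h1)
    subst hs
    simp
  | succ k ih =>
    intro s h1 h2
    rcases le_or_gt ((1 - τ) ^ k) s with h3 | h3
    · have h4 := ih s h3 h2
      have h5 : (g pL - g p) / 2 ^ (k + 1) ≤ (g pL - g p) / 2 ^ k := by
        apply div_le_div_of_nonneg_left (by linarith) (by positivity)
        exact pow_le_pow_right₀ (by norm_num) (Nat.le_succ k)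
      linarith
    · -- `s = (1 - t) s'` with `s' = (1-τ)^k`
      set s' : ℝ := (1 - τ) ^ k with hs'
      have hs'pos : 0 < s' := by rw [hs']; exact pow_pos (by linarith) k
      have hs'1 : s' ≤ 1 := by rw [hs']; exact pow_le_one₀ (by linarith) (by linarith)
      have h4 := ih s' le_rfl hs'1
      set p' : V := (1 - s') • p + s' • pL with hp'
      have hp'Q : p' ∈ Q := by
        rw [hp']
        exact hQ hp hpL (by linarith) hs'pos.le (by ring)
      have hs0 : 0 ≤ s := le_trans (by positivity) h1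
      set t : ℝ := 1 - s / s' with ht
      have ht0 : 0 ≤ t := by
        have : s / s' ≤ 1 := (div_le_one hs'pos).2 h3.le
        rw [ht]; linarith
      have htτ : t ≤ τ := by
        have h6 : (1 - τ) * s' ≤ s := by
          rw [pow_succ] at h1
          rw [hs']; linarith
        have h7 : (1 - τ) ≤ s / s' := (le_div_iff₀ hs'pos).2 h6
        rw [ht]; linarith
      have h8 := hqq p' hp'Q p hp t ht0 htτ
      have h9 : (1 - t) • p' + t • p = (1 - s) • p + s • pL := by
        have e1 : (1 - t) * s' = s := by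
          rw [ht]; field_simp; ring
        have e2 : (1 - t) * (1 - s') + t = 1 - s := by linear_combination -e1
        rw [hp', smul_add, smul_smul, smul_smul, e1]
        have : ((1 - t) * (1 - s')) • p + s • pL + t • p =
            ((1 - t) * (1 - s') + t) • p + s • pL := by
          rw [add_smul]; abel
        rw [this, e2]
      rw [h9] at h8
      have h10 : g p ≤ g p' := by
        have : 0 ≤ (g pL - g p) / 2 ^ k := div_nonneg (by linarith) (by positivity)
        linarith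
      rw [max_eq_left (by linarith)] at h8
      have h11 : (g pL - g p) / 2 ^ (k + 1) = (g pL - g p) / 2 ^ k / 2 := by
        rw [pow_succ]; field_simp
      rw [h11]
      linarith

end Walk

section Count

variable {V : Type*} [NormedAddCommGroup V] [NormedSpace ℝ V]
variable {M : Type*} [TopologicalSpace M] [T2Space M] [MeasurableSpace M] [BorelSpace M]

/-- contraction to `pL` with factor `lam`. -/
def ctrc (pL : V) (lam : ℝ) (p : V) : V := lam • p + (1 - lam) • pL

lemma continuous_ctrc (pL : V) (lam : ℝ) : Continuous (ctrc pL lam) := by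
  unfold ctrc; fun_prop

/-- **Step 3 (counting disjoint copies), abstract form.** -/
theorem count_bound (μ : Measure M) (e : V → M) (he : Continuous e) {K Q P : Set V}
    (hQ : Convex ℝ Q) (hQK : Q ⊆ K) (hPQ : P ⊆ Q) (hP : IsCompact P)
    (hinj : ∀ᵐ y ∂μ, ∀ p ∈ K, ∀ q ∈ K, e p = y → e q = y → p = q)
    (ν : M → ℝ) {τ : ℝ} (hτ0 : 0 < τ) (hτ1 : τ < 1)
    (hqq : ∀ p0 ∈ Q, ∀ p1 ∈ Q, ∀ t : ℝ, 0 ≤ t → t ≤ τ →
      ν (e p0) - max (ν (e p0) - ν (e p1)) 0 / 2 ≤ ν (e ((1 - t) • p0 + t • p1)))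
    {C : ℝ} (hC : ∀ p ∈ P, |ν (e p)| ≤ C)
    {pL : V} (hpL : pL ∈ Q) {cW CB : ℝ} (hcW : 0 < cW) (hCB : 0 < CB)
    (hJ : ∀ t : ℝ, 0 ≤ t → t ≤ 1 / 2 →
      ENNReal.ofReal cW * μ (e '' P) ≤ μ (e '' ((fun p => (1 - t) • p + t • pL) '' P)))
    (hvol : μ (e '' Q) ≤ ENNReal.ofReal CB * μ (e '' P))
    (hpos : μ (e '' P) ≠ 0) (hfin : μ (e '' P) ≠ ∞)
    (k : ℕ) (hk1 : 1 ≤ k) (hk : (1 - τ) ^ k ≤ cW / (2 * CB)) :
    ν (e pL) ≤ 2 ^ (k + 1) * C := by
  by_contra hcon
  push Not at hcon
  -- `C ≥ 0`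
  have hPne : P.Nonempty := by
    by_contra h
    rw [not_nonempty_iff_eq_empty] at h
    rw [h, image_empty, measure_empty] at hpos
    exact hpos rfl
  obtain ⟨pp, hpp⟩ := hPne
  have hC0 : 0 ≤ C := (abs_nonneg _).trans (hC pp hpp)
  set T : ℝ := (1 - τ) ^ k with hT
  have hT0 : 0 < T := pow_pos (by linarith) k
  have hT1 : T < 1 := by
    rw [hT]; exact pow_lt_one₀ (by linarith) (by linarith) (by omega)
  -- far points
  have hfar : ∀ p ∈ P, ∀ s : ℝ, T ≤ s → s ≤ 1 → C < ν (e ((1 - s) • p + s • pL)) := by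
    intro p hp s hs1 hs2
    have h1 : |ν (e p)| ≤ C := hC p hp
    rw [abs_le] at h1
    have h2 : ν (e p) ≤ ν (e pL) := by
      have : (1:ℝ) ≤ 2 ^ (k + 1) := one_le_pow₀ (by norm_num)
      nlinarith
    have h3 := walk hQ (fun p => ν (e p)) hτ0 hτ1 hqq hpL (hPQ hp) h2 k s hs1 hs2
    have h4 : C < ν (e p) + (ν (e pL) - ν (e p)) / 2 ^ k := by
      have hk2 : (0:ℝ) < 2 ^ k := by positivity
      have h5 : (C - ν (e p)) * 2 ^ k < ν (e pL) - ν (e p) := by
        have h6 : (2:ℝ) ^ (k + 1) = 2 * 2 ^ k := by rw [pow_succ]; ring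
        rw [h6] at hcon
        have h7 : (1:ℝ) ≤ 2 ^ k := one_le_pow₀ (by norm_num)
        nlinarith
      have h8 : C - ν (e p) < (ν (e pL) - ν (e p)) / 2 ^ k := (lt_div_iff₀ hk2).2 h5
      linarith
    exact h4.trans_le h3
  -- the copies
  set lam : ℝ := 1 - T with hlam
  have hlam0 : 0 < lam := by rw [hlam]; linarith
  have hlam1 : lam < 1 := by rw [hlam]; linarith
  set N : ℕ := ⌊1 / (2 * T)⌋₊ with hN
  have hNle : (N : ℝ) ≤ 1 / (2 * T) := Nat.floor_le (by positivity)
  have hNlt : 1 / (2 * T) < (N : ℝ) + 1 := Nat.lt_floor_add_one _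
  have hpow : ∀ j : ℕ, j ≤ N → 1 / 2 ≤ lam ^ j := by
    intro j hj
    have h1 : 1 + (j : ℝ) * (-T) ≤ (1 + (-T)) ^ j :=
      one_add_mul_le_pow (by linarith) j
    have h2 : (j : ℝ) ≤ 1 / (2 * T) := le_trans (by exact_mod_cast hj) hNle
    have h3 : (j : ℝ) * T ≤ 1 / 2 := by
      have := mul_le_mul_of_nonneg_right h2 hT0.le
      have e1 : 1 / (2 * T) * T = 1 / 2 := by field_simp
      rw [e1] at this; exact this
    have h4 : (1 + (-T)) = lam := by rw [hlam]; ring
    rw [h4] at h1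
    nlinarith
  let A : ℕ → Set V := fun j => (fun p => (1 - (1 - lam ^ j)) • p + (1 - lam ^ j) • pL) '' P
  have hlampow : ∀ j : ℕ, lam ^ j ≤ 1 := fun j => pow_le_one₀ hlam0.le hlam1.le
  have hApow : ∀ j : ℕ, 0 ≤ 1 - lam ^ j := fun j => by have := hlampow j; linarith
  have hAQ : ∀ j, A j ⊆ Q := by
    rintro j _ ⟨p, hp, rfl⟩
    refine hQ (hPQ hp) hpL ?_ (hApow j) (by ring)
    have := pow_pos hlam0 j
    linarith
  have hAc : ∀ j, IsCompact (A j) := fun j => hP.image (by fun_prop)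
  have hAm : ∀ j, MeasurableSet (e '' A j) := fun j => ((hAc j).image he).isClosed.measurableSet
  -- disjointness in the vector space
  have hdisj0 : ∀ i j : ℕ, i < j → Disjoint (A i) (A j) := by
    intro i j hij
    rw [Set.disjoint_left]
    rintro v ⟨p, hp, rfl⟩ ⟨q, hq, hqe⟩
    have hli : 0 < lam ^ i := pow_pos hlam0 i
    obtain ⟨d, rfl⟩ : ∃ d, j = i + d := ⟨j - i, by omega⟩
    have hd : 1 ≤ d := by omega
    have hpe : p = (1 - (1 - lam ^ d)) • q + (1 - lam ^ d) • pL := by
      have h1 : lam ^ i • p = lam ^ i • ((1 - (1 - lam ^ d)) • q + (1 - lam ^ d) • pL) := by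
        have h2 : (1 - (1 - lam ^ (i + d))) • q + (1 - lam ^ (i + d)) • pL =
          (1 - (1 - lam ^ i)) • p + (1 - lam ^ i) • pL := hqe
        rw [sub_sub_cancel, sub_sub_cancel] at h2
        rw [sub_sub_cancel]
        have h3 : lam ^ i • p = lam ^ (i + d) • q + (1 - lam ^ (i + d)) • pL -
            (1 - lam ^ i) • pL := by rw [h2]; abel
        rw [h3, smul_add, smul_smul, smul_smul, pow_add]
        have h4 : (1 - lam ^ i * lam ^ d) • pL - (1 - lam ^ i) • pL =
            (lam ^ i * (1 - lam ^ d)) • pL := by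
          rw [← sub_smul]; congr 1; ring
        rw [add_sub_assoc, h4]
      exact smul_right_injective V hli.ne' h1
    have h6 := hfar q hq (1 - lam ^ d) (by
      have : lam ^ d ≤ lam ^ 1 := pow_le_pow_of_le_one hlam0.le hlam1.le hd
      rw [pow_one] at this
      linarith) (by have := pow_pos hlam0 d; linarith)
    rw [← hpe] at h6
    have h7 := (abs_le.1 (hC p hp)).2
    linarith
  -- a.e. disjointness in `M`
  have hdisj : ∀ i j : ℕ, i ≠ j → AEDisjoint μ (e '' A i) (e '' A j) := by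
    have key : ∀ i j : ℕ, i < j → AEDisjoint μ (e '' A i) (e '' A j) := by
      intro i j hij
      refine measure_mono_null ?_ (ae_iff.1 hinj)
      rintro y ⟨⟨v, hv, rfl⟩, ⟨w, hw, hwv⟩⟩ hall
      have hvK : v ∈ K := hQK (hAQ i hv)
      have hwK : w ∈ K := hQK (hAQ j hw)
      have := hall v hvK w hwK rfl hwv
      subst this
      exact absurd hw (Set.disjoint_left.1 (hdisj0 i j hij) hv)
    intro i j hij
    rcases lt_or_gt_of_ne hij with h | h
    · exact key i j h
    · exact (key j i h).symm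
  -- counting
  have hunion : μ (⋃ j ∈ Finset.range (N + 1), e '' A j) =
      ∑ j ∈ Finset.range (N + 1), μ (e '' A j) := by
    refine measure_biUnion_finset₀ ?_ (fun j _ => (hAm j).nullMeasurableSet)
    intro i _ j _ hij
    exact hdisj i j hij
  have hsub : (⋃ j ∈ Finset.range (N + 1), e '' A j) ⊆ e '' Q := by
    refine iUnion₂_subset fun j _ => image_mono (hAQ j)
  have hlow : ∀ j ∈ Finset.range (N + 1), ENNReal.ofReal cW * μ (e '' P) ≤ μ (e '' A j) := by
    intro j hj
    have hj' : j ≤ N := by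
      have := Finset.mem_range.1 hj; omega
    exact hJ (1 - lam ^ j) (hApow j) (by have := hpow j hj'; linarith)
  have h1 : ((N + 1 : ℕ) : ℝ≥0∞) * (ENNReal.ofReal cW * μ (e '' P)) ≤
      ENNReal.ofReal CB * μ (e '' P) := by
    calc ((N + 1 : ℕ) : ℝ≥0∞) * (ENNReal.ofReal cW * μ (e '' P))
        = ∑ _j ∈ Finset.range (N + 1), ENNReal.ofReal cW * μ (e '' P) := by
          rw [Finset.sum_const, Finset.card_range, nsmul_eq_mul]
      _ ≤ ∑ j ∈ Finset.range (N + 1), μ (e '' A j) := Finset.sum_le_sum hlow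
      _ = μ (⋃ j ∈ Finset.range (N + 1), e '' A j) := hunion.symm
      _ ≤ μ (e '' Q) := measure_mono hsub
      _ ≤ ENNReal.ofReal CB * μ (e '' P) := hvol
  rw [← mul_assoc] at h1
  have h2 : ((N + 1 : ℕ) : ℝ≥0∞) * ENNReal.ofReal cW ≤ ENNReal.ofReal CB :=
    (ENNReal.mul_le_mul_iff_left hpos hfin).1 h1
  have h3 : ((N + 1 : ℕ) : ℝ) * cW ≤ CB := by
    have h4 : ENNReal.ofReal (((N + 1 : ℕ) : ℝ) * cW) ≤ ENNReal.ofReal CB := by
      rw [ENNReal.ofReal_mul (by positivity), ENNReal.ofReal_natCast]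
      exact h2
    exact (ENNReal.ofReal_le_ofReal_iff hCB.le).1 h4
  have h5 : 1 / (2 * T) * cW < CB := by
    have : 1 / (2 * T) * cW < ((N : ℝ) + 1) * cW := mul_lt_mul_of_pos_right hNlt hcW
    push_cast at h3
    linarith
  have h6 : cW < 2 * T * CB := by
    have : 1 / (2 * T) * cW = cW / (2 * T) := by ring
    rw [this, div_lt_iff₀ (by positivity)] at h5
    linarith
  have h7 : T * (2 * CB) ≤ cW := by
    have := (le_div_iff₀ (by positivity : (0:ℝ) < 2 * CB)).1 hk
    exact this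
  linarith

end Count

end Crest.Agent.R226.Count964
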