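/-
R226, group E (helper230): the cut locus is null.  For every `x0`, almost every `y` has exactly one
preimage in `K x0` under `ex x0`; consequently `ex x0` maps disjoint subsets of `K x0` to
almost-everywhere disjoint sets.
-/
import Crest.Agent.R226.DiffAE_225
import Crest.Agent.R226.CutTop_478

set_option autoImplicit false
set_option linter.unusedSectionVars false

open MeasureTheory Bundle Set Filter
open scoped Manifold ContDiff Bundle ENNReal Topology
open Crest.GeometryTopology.MTW

namespace Crest.Agent.R226.CutNull230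

open Crest.Agent.R226

variable {n : ℕ} {M : Type*} [MetricSpace M] [ChartedSpace (EuclideanSpace ℝ (Fin n)) M]
  [IsManifold (𝓡 n) ∞ M]
  [RiemannianBundle (fun p : M => TangentSpace (𝓡 n) p)]
  [IsContMDiffRiemannianBundle (𝓡 n) ∞ (EuclideanSpace ℝ (Fin n))
    (fun p : M => TangentSpace (𝓡 n) p)]
  [IsRiemannianManifold (𝓡 n) M] [CompactSpace M] [MeasurableSpace M] [BorelSpace M]

/-- `z ↦ -c(z,x₀)` is `c`-convex. -/
theorem CConv_neg (x0 : M) : CConv (fun z : M => -halfDistSq z x0) := by
  intro x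
  refine ⟨x0, fun x' => ?_⟩
  simp

/-- Two minimising vectors at `x0` with the same endpoint `y` at which the reversed minimising
vector is unique, coincide. -/
theorem eq_of_subsingleton (G : GeoData n M) {x0 y : M}
    (h : (G.P (fun z : M => -halfDistSq z x0) y).Subsingleton)
    {p q : TangentSpace (𝓡 n) x0} (hp : p ∈ G.K x0) (hq : q ∈ G.K x0)
    (hpy : G.ex x0 p = y) (hqy : G.ex x0 q = y) : p = q := by
  have key : ∀ p : TangentSpace (𝓡 n) x0, p ∈ G.K x0 → G.ex x0 p = y →
      ∃ p' : TangentSpace (𝓡 n) y, -p' ∈ G.P (fun z : M => -halfDistSq z x0) y ∧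
        ∀ s : ℝ, G.ex y (s • p') = G.ex x0 ((1 + s) • p) := by
    intro p hp hpy
    obtain ⟨p', hn, -, hs⟩ := CutTop478.exists_vel G x0 p 1 (z := y)
      (by rw [CutTop478.ex_one]; exact hpy)
    have h1 : G.ex y (-p') = x0 := by
      have := hs (-1)
      rw [neg_one_smul, add_neg_cancel, CutTop478.ex_smul_zero] at this
      exact this
    refine ⟨p', ⟨?_, ?_⟩, hs⟩
    · show dist y (G.ex y (-p')) = ‖-p'‖
      rw [h1, norm_neg, hn, dist_comm]
      have : dist x0 (G.ex x0 p) = ‖p‖ := hp
      rwa [hpy] at this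
    · intro x'
      rw [h1]
      simp
  obtain ⟨p', hp', hps⟩ := key p hp hpy
  obtain ⟨q', hq', hqs⟩ := key q hq hqy
  have he : p' = q' := neg_injective (h hp' hq')
  have hcurve : (fun t : ℝ => G.ex x0 (t • p)) = fun t : ℝ => G.ex x0 (t • q) := by
    funext t
    have h1 := hps (t - 1)
    have h2 := hqs (t - 1)
    rw [show 1 + (t - 1) = t by ring] at h1 h2
    rw [← h1, ← h2, he]
  have hp0 := G.vel_zero x0 p
  have hq0 := G.vel_zero x0 q
  rw [← hp0, ← hq0]
  exact congrArg (fun γ : ℝ → M => (curveVel n γ 0 : EuclideanSpace ℝ (Fin n))) hcurve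

/-- **The cut locus is null**: almost every `y` has at most one preimage in `K x0`. -/
theorem ae_unique_preimage (G : GeoData n M) (x0 : M) :
    ∀ᵐ y ∂(Measure.hausdorffMeasure (n : ℝ) : Measure M),
      ∀ p ∈ G.K x0, ∀ q ∈ G.K x0, G.ex x0 p = y → G.ex x0 q = y → p = q := by
  filter_upwards [DiffAE225.ae_subsingleton_P (n := n) G (CConv_neg x0)] with y hy
  intro p hp q hq hpy hqy
  exact eq_of_subsingleton G hy hp hq hpy hqy

/-- images of disjoint subsets of `K x0` are almost everywhere disjoint. -/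
theorem aedisjoint_image (G : GeoData n M) (x0 : M) {A B : Set (TangentSpace (𝓡 n) x0)}
    (hA : A ⊆ G.K x0) (hB : B ⊆ G.K x0) (h : Disjoint A B) :
    AEDisjoint (Measure.hausdorffMeasure (n : ℝ) : Measure M) (G.ex x0 '' A) (G.ex x0 '' B) := by
  have h1 := ae_unique_preimage (n := n) G x0
  rw [ae_iff] at h1
  refine measure_mono_null ?_ h1
  rintro y ⟨⟨p, hp, rfl⟩, ⟨q, hq, hqy⟩⟩
  intro hall
  have := hall p (hA hp) q (hB hq) rfl hqy
  subst this
  exact (Set.disjoint_left.1 h) hp hq

end Crest.Agent.R226.CutNull230
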