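import Crest.Agent.R226.CutSmooth_77

/-!
R226 (helper77), layer C1b: `p ↦ (p.1, exp p)` is locally injective at every minimising vector where
the cost is smooth, and `I` is open in the tangent bundle.
-/

set_option autoImplicit false

open Bundle Set Filter Topology
open scoped Manifold ContDiff
open Crest.GeometryTopology.MTW
open Crest.Agent.R226.ChartCost77 Crest.Agent.R226.CutSmooth77

namespace Crest.Agent.R226.CutOpen77

variable {n : ℕ} {M : Type*} [MetricSpace M] [ChartedSpace (EuclideanSpace ℝ (Fin n)) M]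
  [IsManifold (𝓡 n) ∞ M]

theorem chart_fst (p₀ p : TangentBundle (𝓡 n) M) :
    (extChartAt (𝓡 n).tangent p₀ p).1 = extChartAt (𝓡 n) p₀.1 p.1 := by
  simp only [extChartAt, OpenPartialHomeomorph.extend_coe, Function.comp_apply]
  rfl

variable [RiemannianBundle (fun p : M => TangentSpace (𝓡 n) p)]
variable (G : GeoData n M)

/-- the map `p ↦ (p.1, exp p)` in charts -/
noncomputable def Th (p₀ : TangentBundle (𝓡 n) M) (q : EE n × EE n) : EE n × EE n :=
  (extChartAt (𝓡 n) p₀.1 ((extChartAt (𝓡 n).tangent p₀).symm q).1,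
    extChartAt (𝓡 n) (G.ex p₀.1 p₀.2)
      (G.ex ((extChartAt (𝓡 n).tangent p₀).symm q).1 ((extChartAt (𝓡 n).tangent p₀).symm q).2))

theorem Th_contDiffAt (p₀ : TangentBundle (𝓡 n) M) :
    ContDiffAt ℝ ∞ (Th G p₀) (extChartAt (𝓡 n).tangent p₀ p₀) := by
  set T := extChartAt (𝓡 n).tangent p₀ with hT
  have hsymm : ContMDiffAt 𝓘(ℝ, EE n × EE n) (𝓡 n).tangent ∞ T.symm (T p₀) :=
    (contMDiffOn_extChartAt_symm p₀).contMDiffAt (extChartAt_target_mem_nhds p₀)
  have hTp : T.symm (T p₀) = p₀ := extChartAt_to_inv p₀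
  have h1 : ContMDiffAt (𝓡 n).tangent 𝓘(ℝ, EE n) ∞
      (fun p : TangentBundle (𝓡 n) M => extChartAt (𝓡 n) p₀.1 p.1) p₀ :=
    ContMDiffAt.comp p₀ (g := extChartAt (𝓡 n) p₀.1)
      (f := fun p : TangentBundle (𝓡 n) M => p.1) contMDiffAt_extChartAt
      (contMDiff_proj (TangentSpace (𝓡 n) : M → Type _)).contMDiffAt
  have h2 : ContMDiffAt (𝓡 n).tangent 𝓘(ℝ, EE n) ∞
      (fun p : TangentBundle (𝓡 n) M => extChartAt (𝓡 n) (G.ex p₀.1 p₀.2) (G.ex p.1 p.2)) p₀ :=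
    ContMDiffAt.comp p₀ (g := extChartAt (𝓡 n) (G.ex p₀.1 p₀.2))
      (f := fun p : TangentBundle (𝓡 n) M => G.ex p.1 p.2) contMDiffAt_extChartAt
      G.smooth.contMDiffAt
  have h3 := h1.prodMk_space h2
  rw [← contMDiffAt_iff_contDiffAt]
  rw [← hTp] at h3
  have h4 := ContMDiffAt.comp (T p₀) h3 hsymm
  rw [hTp] at h4
  exact h4

theorem Th_fst {p₀ : TangentBundle (𝓡 n) M} {q : EE n × EE n}
    (hq : q ∈ (extChartAt (𝓡 n).tangent p₀).target) : (Th G p₀ q).1 = q.1 := by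
  show extChartAt (𝓡 n) p₀.1 ((extChartAt (𝓡 n).tangent p₀).symm q).1 = q.1
  rw [← chart_fst, (extChartAt (𝓡 n).tangent p₀).right_inv hq]

theorem Th_surjective {x : M} {w : TangentSpace (𝓡 n) x} (hw : w ∈ G.K x)
    (hs : SC n x (G.ex x w)) :
    Function.Surjective (fderiv ℝ (Th G ⟨x, w⟩)
      (extChartAt (𝓡 n).tangent (⟨x, w⟩ : TangentBundle (𝓡 n) M) ⟨x, w⟩)) := by
  set p₀ : TangentBundle (𝓡 n) M := ⟨x, w⟩ with hp₀
  set T := extChartAt (𝓡 n).tangent p₀ with hT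
  set D := fderiv ℝ (Th G p₀) (T p₀) with hD
  have hTh : HasFDerivAt (Th G p₀) D (T p₀) :=
    ((Th_contDiffAt G p₀).differentiableAt (by simp)).hasFDerivAt
  -- first component
  have hfst : ∀ u, (D u).1 = u.1 := by
    have h1 : HasFDerivAt (fun q => (Th G p₀ q).1)
        ((ContinuousLinearMap.fst ℝ (EE n) (EE n)) ∘L D) (T p₀) :=
      (ContinuousLinearMap.fst ℝ (EE n) (EE n)).hasFDerivAt.comp (T p₀) hTh
    have h2 : HasFDerivAt (fun q => (Th G p₀ q).1)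
        (ContinuousLinearMap.fst ℝ (EE n) (EE n)) (T p₀) := by
      refine (ContinuousLinearMap.fst ℝ (EE n) (EE n)).hasFDerivAt.congr_of_eventuallyEq ?_
      filter_upwards [extChartAt_target_mem_nhds (I := (𝓡 n).tangent) p₀] with q hq
      exact Th_fst G hq
    intro u
    have h3 := congrArg (fun L : EE n × EE n →L[ℝ] EE n => L u) (h1.unique h2)
    exact h3
  -- the fibre
  obtain ⟨S, hS, -⟩ := exists_right_inverse G hw (cc_contDiffAt hs)
  let Φ : TangentSpace (𝓡 n) x → EE n × EE n := fun w' => T (⟨x, w'⟩ : TangentBundle (𝓡 n) M)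
  have hΦ : ContDiffAt ℝ ∞ Φ w := by
    rw [← contMDiffAt_iff_contDiffAt]
    exact ContMDiffAt.comp w (g := T)
      (f := fun w' : TangentSpace (𝓡 n) x => (⟨x, w'⟩ : TangentBundle (𝓡 n) M))
      contMDiffAt_extChartAt (MTWConc117.contMDiff_fiber x).contMDiffAt
  have hΦd : HasFDerivAt Φ (fderiv ℝ Φ w) w := (hΦ.differentiableAt (by simp)).hasFDerivAt
  have hΦsrc : ∀ᶠ w' in 𝓝 w, (⟨x, w'⟩ : TangentBundle (𝓡 n) M) ∈ T.source := by
    have hc : ContinuousAt (fun w' : TangentSpace (𝓡 n) x => (⟨x, w'⟩ : TangentBundle (𝓡 n) M)) w :=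
      (MTWConc117.contMDiff_fiber x).continuous.continuousAt
    exact hc.eventually (extChartAt_source_mem_nhds (I := (𝓡 n).tangent) p₀)
  have hcomp : (fun w' => Th G p₀ (Φ w')) =ᶠ[𝓝 w]
      fun w' => ((o x : EE n), ec G x (G.ex x w) w') := by
    filter_upwards [hΦsrc] with w' hw'
    have h0 : T.symm (T (⟨x, w'⟩ : TangentBundle (𝓡 n) M)) = ⟨x, w'⟩ := T.left_inv hw'
    show (extChartAt (𝓡 n) p₀.1 (T.symm (T (⟨x, w'⟩ : TangentBundle (𝓡 n) M))).1,
      extChartAt (𝓡 n) (G.ex p₀.1 p₀.2)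
      (G.ex (T.symm (T (⟨x, w'⟩ : TangentBundle (𝓡 n) M))).1
        (T.symm (T (⟨x, w'⟩ : TangentBundle (𝓡 n) M))).2)) = _
    rw [h0]
    rfl
  have h5 : HasFDerivAt (fun w' => Th G p₀ (Φ w')) (D ∘L fderiv ℝ Φ w) w :=
    HasFDerivAt.comp w (g := Th G p₀) (f := Φ) hTh hΦd
  have h6 : HasFDerivAt (fun w' => ((o x : EE n), ec G x (G.ex x w) w'))
      ((0 : TangentSpace (𝓡 n) x →L[ℝ] EE n).prod (fderiv ℝ (ec G x (G.ex x w)) w)) w :=
    (hasFDerivAt_const _ _).prodMk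
      (((ec_contDiffAt G x w).differentiableAt (by simp)).hasFDerivAt)
  have h7 := h5.unique (h6.congr_of_eventuallyEq hcomp)
  have hfib : ∀ k : EE n, D (fderiv ℝ Φ w (S k)) = (0, k) := by
    intro k
    have h8 := congrArg (fun L : TangentSpace (𝓡 n) x →L[ℝ] EE n × EE n => L (S k)) h7
    have h9 : D (fderiv ℝ Φ w (S k)) = (0, fderiv ℝ (ec G x (G.ex x w)) w (S k)) := h8
    rw [h9, hS k]
  rintro ⟨α, β⟩
  refine ⟨(α, 0) + fderiv ℝ Φ w (S (β - (D (α, 0)).2)), ?_⟩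
  rw [map_add, hfib]
  ext1
  · rw [Prod.fst_add, hfst]; simp
  · rw [Prod.snd_add]; simp

/-- **local injectivity** of `p ↦ (p.1, exp p)` at a minimising vector where the cost is smooth. -/
theorem locally_injective {x : M} {w : TangentSpace (𝓡 n) x} (hw : w ∈ G.K x)
    (hs : SC n x (G.ex x w)) :
    ∃ N ∈ 𝓝 (⟨x, w⟩ : TangentBundle (𝓡 n) M), ∀ p ∈ N, ∀ p' ∈ N,
      p.1 = p'.1 → G.ex p.1 p.2 = G.ex p'.1 p'.2 → p = p' := by
  set p₀ : TangentBundle (𝓡 n) M := ⟨x, w⟩ with hp₀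
  set T := extChartAt (𝓡 n).tangent p₀ with hT
  set D := fderiv ℝ (Th G p₀) (T p₀) with hD
  have hsurj : Function.Surjective D := Th_surjective G hw hs
  have hinj : Function.Injective D :=
    (LinearMap.injective_iff_surjective (f := (D : EE n × EE n →ₗ[ℝ] EE n × EE n))).2 hsurj
  let e : (EE n × EE n) ≃L[ℝ] (EE n × EE n) :=
    (LinearEquiv.ofBijective (D : EE n × EE n →ₗ[ℝ] EE n × EE n)
      ⟨hinj, hsurj⟩).toContinuousLinearEquiv
  have he : (e : (EE n × EE n) →L[ℝ] (EE n × EE n)) = D := by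
    exact ContinuousLinearMap.ext fun u => rfl
  have hstrict : HasStrictFDerivAt (Th G p₀) (e : (EE n × EE n) →L[ℝ] (EE n × EE n)) (T p₀) := by
    rw [he]
    exact (Th_contDiffAt G p₀).hasStrictFDerivAt (by simp)
  set H := hstrict.toOpenPartialHomeomorph (Th G p₀) with hH
  have hHsrc : H.source ∈ 𝓝 (T p₀) :=
    H.open_source.mem_nhds hstrict.mem_toOpenPartialHomeomorph_source
  have hcont : ContinuousAt T p₀ := continuousAt_extChartAt (I := (𝓡 n).tangent) p₀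
  refine ⟨T.source ∩ T ⁻¹' H.source, Filter.inter_mem
    (extChartAt_source_mem_nhds (I := (𝓡 n).tangent) p₀) (hcont hHsrc), ?_⟩
  rintro p ⟨hp1, hp2⟩ p' ⟨hp1', hp2'⟩ h1 h2
  have h3 : Th G p₀ (T p) = Th G p₀ (T p') := by
    unfold Th
    rw [← hT, T.left_inv hp1, T.left_inv hp1', h2, h1]
  have h4 : T p = T p' := H.injOn hp2 hp2' h3
  rw [← T.left_inv hp1, ← T.left_inv hp1', h4]

variable [IsContMDiffRiemannianBundle (𝓡 n) ∞ (EuclideanSpace ℝ (Fin n))
    (fun p : M => TangentSpace (𝓡 n) p)] [CompactSpace M]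

/-- exact field `CutFacts.isOpen_IT`: the injectivity domain is open in the tangent bundle. -/
theorem isOpen_IT : IsOpen G.IT := by
  rw [isOpen_iff_mem_nhds]
  rintro ⟨x, v⟩ hv
  obtain ⟨b, hb1, hb⟩ := CutTop478.exists_gt_smul_mem_I G (x := x) (v := v) hv
  have hbv : b • v ∈ G.I x := hb b (by linarith) le_rfl
  have hs : SC n x (G.ex x (b • v)) := smooth_cost G x _ hbv
  obtain ⟨N, hN, hinj⟩ := locally_injective G (CutTop478.I_subset G x hbv) hs
  have hscale : Tendsto (fun p : TangentBundle (𝓡 n) M => (⟨p.1, b • p.2⟩ : TangentBundle (𝓡 n) M))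
      (𝓝 ⟨x, v⟩) (𝓝 ⟨x, b • v⟩) :=
    (contMDiff_scale b).continuous.tendsto (⟨x, v⟩ : TangentBundle (𝓡 n) M)
  have hpair : Tendsto (fun p : TangentBundle (𝓡 n) M => (p.1, G.ex p.1 (b • p.2)))
      (𝓝 ⟨x, v⟩) (𝓝 (x, G.ex x (b • v))) := by
    have hc : Continuous (fun p : TangentBundle (𝓡 n) M => (p.1, G.ex p.1 p.2)) :=
      (FiberBundle.continuous_proj (EuclideanSpace ℝ (Fin n))
        (TangentSpace (𝓡 n) : M → Type _)).prodMk (CutTop478.continuous_ex G)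
    exact (hc.tendsto _).comp hscale
  filter_upwards [hscale.eventually hN, (hpair.eventually (CutTop478.near_unique G hbv hN))]
    with p hp1 hp2
  have h1 := hp2 (wt G (p.1, G.ex p.1 (b • p.2))) (wt_mem G (p.1, G.ex p.1 (b • p.2)))
    (wt_ex G (p.1, G.ex p.1 (b • p.2)))
  have h2 := hinj _ hp1 _ h1 rfl (wt_ex G (p.1, G.ex p.1 (b • p.2))).symm
  have h3 : b • p.2 = wt G (p.1, G.ex p.1 (b • p.2)) := by
    have := h2
    simpa using this
  refine ⟨b, hb1, ?_⟩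
  show b • p.2 ∈ G.K p.1
  rw [h3]
  exact wt_mem G (p.1, G.ex p.1 (b • p.2))

end Crest.Agent.R226.CutOpen77
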