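/-
R226 / E2-NF (helper946): part 7a (abstract): directional derivatives of `HfA`, the derivative of
the Gauss identity, a second-order comparison.
-/
import Crest.Agent.R226.NF3_946

set_option autoImplicit false

open Set Filter
open scoped ContDiff Topology
open Crest.Agent.R226.Calc347

namespace Crest.Agent.R226.NF946

section gen
variable {E : Type*} [NormedAddCommGroup E] [NormedSpace ℝ E]
variable {V : Type*} [NormedAddCommGroup V] [NormedSpace ℝ V]
variable {W : Type*} [NormedAddCommGroup W] [NormedSpace ℝ W]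

theorem hasDerivAt_line_gen {g : E → W} {p : E} (h : DifferentiableAt ℝ g p) (θ : E) :
    HasDerivAt (fun s : ℝ => g (p + s • θ)) (fderiv ℝ g p θ) 0 := by
  have hγ : HasDerivAt (fun s : ℝ => p + s • θ) θ 0 := by
    simpa using ((hasDerivAt_id (0 : ℝ)).smul_const θ).const_add p
  have h0 : HasFDerivAt g (fderiv ℝ g p) (p + (0 : ℝ) • θ) := by
    simpa using h.hasFDerivAt
  exact h0.comp_hasDerivAt 0 hγ

theorem hasDerivAt_apply_gen {g : ℝ → V →L[ℝ] W} {g' : V →L[ℝ] W} {s : ℝ}
    (h : HasDerivAt g g' s) (u : V) : HasDerivAt (fun s => g s u) (g' u) s := by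
  have := h.clm_apply (hasDerivAt_const s u)
  simpa using this

theorem hasDerivAt_apply_gen' {g : ℝ → V →L[ℝ] W} {g' : V →L[ℝ] W} {s : ℝ} {γ : ℝ → V} {γ' : V}
    (h : HasDerivAt g g' s) (hγ : HasDerivAt γ γ' s) :
    HasDerivAt (fun s => g s (γ s)) (g' (γ s) + g s γ') s := h.clm_apply hγ

theorem fderiv_apply_gen {g : E → V →L[ℝ] W} {p : E} (h : DifferentiableAt ℝ g p) (θ : E) (u : V) :
    fderiv ℝ (fun q => g q u) p θ = fderiv ℝ g p θ u := by
  have h1 := h.hasFDerivAt.clm_apply (hasFDerivAt_const u p)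
  rw [h1.fderiv]
  simp

theorem continuousAt_gen {g : E → E →L[ℝ] W} {p : E} (h : ContDiffAt ℝ 1 g p) (θ : E) :
    ContinuousAt (fun q => fderiv ℝ g q θ q) p := by
  have h1 : ContinuousAt (fderiv ℝ g) p := (h.fderiv_right (m := 0) (by norm_num)).continuousAt
  exact (h1.clm_apply continuousAt_const).clm_apply continuousAt_id

theorem continuousAt_gen' {g : E → E →L[ℝ] W} {p : E} (h : ContDiffAt ℝ 1 g p) (θ u : E) :
    ContinuousAt (fun q => fderiv ℝ g q θ u) p := by
  have h1 : ContinuousAt (fderiv ℝ g) p := (h.fderiv_right (m := 0) (by norm_num)).continuousAt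
  exact (h1.clm_apply continuousAt_const).clm_apply continuousAt_const

end gen

section abs
variable {E : Type*} [NormedAddCommGroup E] [InnerProductSpace ℝ E]

/-- directional derivative of the entries of `HfA` -/
noncomputable def DHfA (F : E × E → ℝ) (p θ u v : E) : ℝ := fderiv ℝ (fun q => HfA F q u v) p θ

/-- second directional derivative of the entries of `HfA` -/
noncomputable def D2HfA (F : E × E → ℝ) (p θ u v : E) : ℝ :=
  fderiv ℝ (fun q => fderiv ℝ (fun q => HfA F q u v) q θ) p θ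

theorem hasDerivAt_HfA_line {F : E × E → ℝ} {p u v : E}
    (h : DifferentiableAt ℝ (fun q => HfA F q u v) p)
    (θ : E) : HasDerivAt (fun s : ℝ => HfA F (p + s • θ) u v) (DHfA F p θ u v) 0 :=
  hasDerivAt_line_gen h θ

/-- derivative of the Gauss identity -/
theorem DHfA_gauss {F : E × E → ℝ} {p : E}
    (h : ∀ u v, DifferentiableAt ℝ (fun q => HfA F q u v) p)
    (hG : ∀ᶠ q in 𝓝 p, ∀ η, HfA F q q η = inner ℝ q η) (θ η : E) :
    DHfA F p θ p η = inner ℝ θ η - HfA F p θ η := by
  have h1 := hasDerivAt_HfA_line (h p η) θ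
  have h2 := hasDerivAt_HfA_line (h θ η) θ
  have h3 : HasDerivAt (fun s : ℝ => HfA F (p + s • θ) p η + s * HfA F (p + s • θ) θ η)
      (DHfA F p θ p η + (1 * HfA F (p + (0 : ℝ) • θ) θ η + 0 * DHfA F p θ θ η)) 0 :=
    h1.add ((hasDerivAt_id (0 : ℝ)).mul h2)
  have hc : ContinuousAt (fun s : ℝ => p + s • θ) 0 := by fun_prop
  have hev : ∀ᶠ s in 𝓝 (0 : ℝ), HfA F (p + s • θ) p η + s * HfA F (p + s • θ) θ η =
      inner ℝ (p + s • θ) η := by
    have h4 : ∀ᶠ q in 𝓝 (p + (0 : ℝ) • θ), ∀ η, HfA F q q η = inner ℝ q η := by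
      rw [zero_smul, add_zero]; exact hG
    filter_upwards [hc.eventually h4] with s hs
    rw [← hs η, map_add, map_smul]
    rfl
  have h5 : HasDerivAt (fun s : ℝ => inner ℝ (p + s • θ) η) (inner ℝ θ η) 0 := by
    have e : (fun s : ℝ => inner ℝ (p + s • θ) η) = fun s : ℝ => inner ℝ p η + s * inner ℝ θ η := by
      funext s; rw [inner_add_left, real_inner_smul_left]
    rw [e]
    simpa using ((hasDerivAt_id (0 : ℝ)).mul_const (inner ℝ θ η)).const_add (inner ℝ p η)
  have h6 := h3.unique (h5.congr_of_eventuallyEq hev)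
  rw [zero_smul, add_zero] at h6
  linarith

theorem continuousAt_DHfA {F : E × E → ℝ} {p u v : E}
    (h : ContDiffAt ℝ 1 (fun q => HfA F q u v) p) (θ : E) :
    ContinuousAt (fun q => DHfA F q θ u v) p := by
  have h1 : ContinuousAt (fderiv ℝ (fun q => HfA F q u v)) p :=
    (h.fderiv_right (m := 0) (by norm_num)).continuousAt
  exact h1.clm_apply continuousAt_const

/-- bounds of the directional derivatives from `CkB` along the line -/
theorem sec_HfA_line {F : E × E → ℝ} {p u v : E}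
    (h : ContDiffAt ℝ 2 (fun q => HfA F q u v) p) (θ : E) :
    Sec (fun s : ℝ => HfA F (p + s • θ) u v) (D2HfA F p θ u v) := by
  have h1 := Sec.comp_line h θ
  have e : D2HfA F p θ u v = hess (fun q => HfA F q u v) p θ θ := by
    unfold D2HfA
    have h2 : DifferentiableAt ℝ (fderiv ℝ (fun q => HfA F q u v)) p :=
      (h.fderiv_right (m := 1) (by norm_num)).differentiableAt (by norm_num)
    exact fderiv_apply_gen h2 θ θ
  rw [e]
  exact h1

end abs

section real

/-- one-dimensional comparison: if `ψ ≤ r` near `0` up to a small error and `r` is semiconvex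
at `0`, then `ψ''(0) ≥ -2C`. -/
theorem second_deriv_ge {ψ : ℝ → ℝ} {d C K : ℝ} (hψ : Sec ψ d)
    (h : ∀ᶠ s in 𝓝 (0 : ℝ), 2 * ψ 0 ≤ ψ s + ψ (-s) + C * s ^ 2 + K * |s| ^ 3) : -C ≤ d := by
  -- consider `χ s = ψ s + ψ (-s) - 2 ψ 0 + C s² + K |s|³ ≥ 0`
  have hψn : Sec (fun s : ℝ => ψ (-s)) d := by
    refine ⟨?_, ?_⟩
    · have h1 : ContDiffAt ℝ 2 ψ (-(0 : ℝ)) := by rw [neg_zero]; exact hψ.1
      exact ContDiffAt.comp (0 : ℝ) (f := fun s : ℝ => -s) h1 contDiff_neg.contDiffAt
    · have h1 := iteratedDeriv_comp_neg 2 ψ (0 : ℝ)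
      rw [neg_zero, hψ.2] at h1
      simpa using h1
  have hsq : Sec (fun s : ℝ => C * s ^ 2) (2 * C) := by
    refine ⟨by fun_prop, ?_⟩
    rw [iteratedDeriv_two_eq]
    have h6 : deriv (fun s : ℝ => C * s ^ 2) = fun s => 2 * C * s := by
      funext s
      have h7 : HasDerivAt (fun s : ℝ => C * s ^ 2) (C * (2 * s)) s := by
        have := (hasDerivAt_pow 2 s).const_mul C
        simpa using this
      rw [h7.deriv]; ring
    rw [h6]
    have h8 : HasDerivAt (fun s : ℝ => 2 * C * s) (2 * C * 1) 0 :=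
      (hasDerivAt_id (0 : ℝ)).const_mul (2 * C)
    rw [h8.deriv, mul_one]
  by_contra hd
  push Not at hd
  -- margin
  set μ : ℝ := (-C - d) with hμ
  have hμ0 : 0 < μ := by rw [hμ]; linarith
  have hmu : Sec (fun s : ℝ => μ * s ^ 2) (2 * μ) := by
    refine ⟨by fun_prop, ?_⟩
    rw [iteratedDeriv_two_eq]
    have h6 : deriv (fun s : ℝ => μ * s ^ 2) = fun s => 2 * μ * s := by
      funext s
      have h7 : HasDerivAt (fun s : ℝ => μ * s ^ 2) (μ * (2 * s)) s := by
        have := (hasDerivAt_pow 2 s).const_mul μ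
        simpa using this
      rw [h7.deriv]; ring
    rw [h6]
    have h8 : HasDerivAt (fun s : ℝ => 2 * μ * s) (2 * μ * 1) 0 :=
      (hasDerivAt_id (0 : ℝ)).const_mul (2 * μ)
    rw [h8.deriv, mul_one]
  have hmu2 : Sec (fun s : ℝ => μ / 2 * s ^ 2) μ := by
    have := hmu.const_mul (1 / 2)
    have e : (1 / 2) * (2 * μ) = μ := by ring
    rw [e] at this
    refine this.congr (Eventually.of_forall fun s => ?_)
    show μ / 2 * s ^ 2 = 1 / 2 * (μ * s ^ 2)
    ring
  have hall : Sec (fun s : ℝ => (ψ s + ψ (-s)) + (C * s ^ 2 + μ / 2 * s ^ 2))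
      ((d + d) + (2 * C + μ)) := (hψ.add hψn).add (hsq.add hmu2)
  have hnn : 0 ≤ (d + d) + (2 * C + μ) := by
    refine hall.nonneg ?_
    have hK : ∀ᶠ s in 𝓝 (0 : ℝ), K * |s| ^ 3 ≤ μ / 2 * s ^ 2 := by
      have h1 : ContinuousAt (fun s : ℝ => K * |s|) 0 := by fun_prop
      have h2 : ∀ᶠ s in 𝓝 (0 : ℝ), K * |s| < μ / 2 :=
        h1.eventually_lt continuousAt_const (by simp; positivity)
      filter_upwards [h2] with s hs
      have e : K * |s| ^ 3 = K * |s| * s ^ 2 := by
        rw [← sq_abs s]; ring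
      rw [e]
      exact mul_le_mul_of_nonneg_right hs.le (sq_nonneg s)
    filter_upwards [h, hK] with s hs hs'
    simp only [neg_zero]
    nlinarith
  linarith

end real


end Crest.Agent.R226.NF946
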