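/-
R226 (helper946): abstract calculus for the depth facts (D1), (D2).
-/
import Crest.Agent.R226.NF7A_946
import Crest.Agent.R226.NF5_946

set_option autoImplicit false

open Set Filter
open scoped ContDiff Topology
open Crest.Agent.R226.Calc347 Crest.Agent.R226.NF946

namespace Crest.Agent.R226.Depth946

section gen
variable {E : Type*} [NormedAddCommGroup E] [NormedSpace ℝ E]

/-- symmetry of the third derivative -/
theorem third_symm {f : E → ℝ} {z : E} (hf : ContDiffAt ℝ 3 f z) (u θ : E) :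
    fderiv ℝ (fun z => hess f z u u) z θ = hess (fun z => fderiv ℝ f z θ) z u u := by
  have hD : ContDiffAt ℝ 2 (fderiv ℝ f) z := hf.fderiv_right (by norm_num)
  have hD2 : ContDiffAt ℝ 1 (hess f) z := hD.fderiv_right (by norm_num)
  have hev2 : ∀ᶠ z' in 𝓝 z, ContDiffAt ℝ 2 f z' :=
    (hf.of_le (by norm_num : (2 : WithTop ℕ∞) ≤ 3)).eventually (by simp)
  have hevD : ∀ᶠ z' in 𝓝 z, ContDiffAt ℝ 1 (fderiv ℝ f) z' :=
    (hD.of_le (by norm_num : (1 : WithTop ℕ∞) ≤ 2)).eventually (by simp)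
  have hdiff : DifferentiableAt ℝ (hess f) z := hD2.differentiableAt (by norm_num)
  have hdap : ∀ a : E, DifferentiableAt ℝ (fun z' => hess f z' a) z := fun a =>
    hdiff.clm_apply (differentiableAt_const a)
  -- `t(c, a, b)`
  have e1 : ∀ a b c : E, fderiv ℝ (fun z' => hess f z' a b) z c = fderiv ℝ (hess f) z c a b := by
    intro a b c
    rw [fderiv_apply_gen (hdap a) c b, fderiv_apply_gen hdiff c a]
  have s1 : ∀ a b c : E, fderiv ℝ (hess f) z c a b = fderiv ℝ (hess f) z a c b := by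
    intro a b c
    have h := (hD.isSymmSndFDerivAt (by simp)).eq c a
    exact congrArg (fun L : E →L[ℝ] ℝ => L b) h
  have s2 : ∀ a b c : E, fderiv ℝ (hess f) z c a b = fderiv ℝ (hess f) z c b a := by
    intro a b c
    rw [← e1 a b c, ← e1 b a c]
    have hev : (fun z' => hess f z' a b) =ᶠ[𝓝 z] fun z' => hess f z' b a := by
      filter_upwards [hev2] with z' hz'
      exact hess_symm hz' a b
    rw [hev.fderiv_eq]
  have hg : (fun z' => fderiv ℝ (fun z => fderiv ℝ f z θ) z' u) =ᶠ[𝓝 z]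
      fun z' => hess f z' u θ := by
    filter_upwards [hevD] with z' hz'
    exact fderiv_apply_gen (hz'.differentiableAt (by norm_num)) u θ
  have hgd : DifferentiableAt ℝ (fderiv ℝ (fun z => fderiv ℝ f z θ)) z := by
    have h1 : ContDiffAt ℝ 2 (fun z => fderiv ℝ f z θ) z := hD.clm_apply contDiffAt_const
    have h2 : ContDiffAt ℝ 1 (fderiv ℝ (fun z => fderiv ℝ f z θ)) z :=
      h1.fderiv_right (by norm_num)
    exact h2.differentiableAt (by norm_num)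
  have e2 : hess (fun z => fderiv ℝ f z θ) z u u = fderiv ℝ (hess f) z u u θ := by
    have h3 : hess (fun z => fderiv ℝ f z θ) z u u =
        fderiv ℝ (fun z' => fderiv ℝ (fun z => fderiv ℝ f z θ) z' u) z u :=
      (fderiv_apply_gen hgd u u).symm
    rw [h3, hg.fderiv_eq, e1]
  rw [e2, e1, s1, s2]

end gen

section real

/-- `2 κ` is a lower bound of the second derivative of a function above `κ s²` -/
theorem sec_ge {g : ℝ → ℝ} {d κ : ℝ} (hg : Sec g d) (h0 : g 0 = 0)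
    (h : ∀ᶠ s in 𝓝 (0 : ℝ), κ * s ^ 2 ≤ g s) : 2 * κ ≤ d := by
  have h1 : Sec (fun s : ℝ => κ * s ^ 2) (2 * κ) := by
    refine ⟨by fun_prop, ?_⟩
    rw [iteratedDeriv_two_eq]
    have h6 : deriv (fun s : ℝ => κ * s ^ 2) = fun s => 2 * κ * s := by
      funext s
      have h7 : HasDerivAt (fun s : ℝ => κ * s ^ 2) (κ * (2 * s)) s := by
        have := (hasDerivAt_pow 2 s).const_mul κ
        simpa using this
      rw [h7.deriv]; ring
    rw [h6]
    have h8 : HasDerivAt (fun s : ℝ => 2 * κ * s) (2 * κ * 1) 0 :=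
      (hasDerivAt_id (0 : ℝ)).const_mul (2 * κ)
    rw [h8.deriv, mul_one]
  exact h1.le hg (by simp [h0]) h

theorem diff_deriv_two {f : ℝ → ℝ} {s : ℝ} (hf : ContDiffAt ℝ 2 f s) :
    DifferentiableAt ℝ (deriv f) s := by
  have h1 : ContDiffAt ℝ 1 (fderiv ℝ f) s := hf.fderiv_right (by norm_num)
  have h2 : DifferentiableAt ℝ (fun y => fderiv ℝ f y 1) s :=
    (h1.differentiableAt (by norm_num)).clm_apply (differentiableAt_const _)
  exact h2

/-- a function with bounded second derivative which is `≥ 0` at distance `τ` to the left -/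
theorem deriv_le_of_nonneg_left {ψ : ℝ → ℝ} {a τ B : ℝ} (hτ : 0 < τ)
    (h : ∀ s ∈ Icc (a - τ) a, ContDiffAt ℝ 2 ψ s)
    (hB : ∀ s ∈ Icc (a - τ) a, |iteratedDeriv 2 ψ s| ≤ B) (h0 : 0 ≤ ψ (a - τ)) :
    deriv ψ a ≤ ψ a / τ + B * τ := by
  have hlt : a - τ < a := by linarith
  obtain ⟨ξ, hξ, hξ2⟩ := exists_deriv_eq_slope ψ hlt
    (fun s hs => (h s hs).continuousAt.continuousWithinAt)
    (fun s hs => ((h s (Ioo_subset_Icc_self hs)).differentiableAt (by norm_num)).differentiableWithinAt)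
  have hsub : Icc ξ a ⊆ Icc (a - τ) a := Icc_subset_Icc hξ.1.le le_rfl
  have h2 := (convex_Icc ξ a).norm_image_sub_le_of_norm_deriv_le (f := deriv ψ) (C := B)
    (fun s hs => diff_deriv_two (h s (hsub hs)))
    (fun s hs => by
      rw [← iteratedDeriv_two_eq]
      exact hB s (hsub hs)) (left_mem_Icc.2 hξ.2.le) (right_mem_Icc.2 hξ.2.le)
  have h3 : deriv ψ a - deriv ψ ξ ≤ B * (a - ξ) := by
    have h4 := le_abs_self (deriv ψ a - deriv ψ ξ)
    have h5 : ‖a - ξ‖ = a - ξ := Real.norm_of_nonneg (by linarith [hξ.2])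
    rw [h5, Real.norm_eq_abs] at h2
    exact h4.trans h2
  have hB0 : 0 ≤ B := (abs_nonneg _).trans (hB a ⟨hlt.le, le_rfl⟩)
  have h5 : B * (a - ξ) ≤ B * τ := by
    apply mul_le_mul_of_nonneg_left _ hB0
    linarith [hξ.1]
  have h6 : deriv ψ ξ ≤ ψ a / τ := by
    rw [hξ2]
    have : a - (a - τ) = τ := by ring
    rw [this]
    gcongr
    linarith
  linarith

/-- Gronwall type bound: `g' ≤ -c + C g` on `[1/2,1]`, `g 1 ≥ 0` ⟹ `g s ≥ c e^{-C} (1 - s)`. -/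
theorem gronwall_lower {g : ℝ → ℝ} {c C : ℝ} (hc : 0 ≤ c) (hC : 0 ≤ C)
    (hd : ∀ s ∈ Icc (1 / 2 : ℝ) 1, DifferentiableAt ℝ g s)
    (hg : ∀ s ∈ Icc (1 / 2 : ℝ) 1, deriv g s ≤ -c + C * g s) (h1 : 0 ≤ g 1) {s : ℝ}
    (hs : s ∈ Icc (1 / 2 : ℝ) 1) : c * Real.exp (-C) * (1 - s) ≤ g s := by
  set k : ℝ → ℝ := fun s => Real.exp (-C * s) * g s + c * Real.exp (-C) * s with hk
  have hkd : ∀ s ∈ Icc (1 / 2 : ℝ) 1, HasDerivAt k
      ((Real.exp (-C * s) * (-C)) * g s + Real.exp (-C * s) * deriv g s + c * Real.exp (-C)) s := by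
    intro s hs
    have e1 : HasDerivAt (fun s : ℝ => Real.exp (-C * s)) (Real.exp (-C * s) * (-C)) s := by
      have := ((hasDerivAt_id s).const_mul (-C)).exp
      simpa using this
    have e2 := e1.mul (hd s hs).hasDerivAt
    have e3 : HasDerivAt (fun s : ℝ => c * Real.exp (-C) * s) (c * Real.exp (-C)) s := by
      simpa using (hasDerivAt_id s).const_mul (c * Real.exp (-C))
    exact e2.add e3
  have hanti : AntitoneOn k (Icc (1 / 2 : ℝ) 1) := by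
    refine antitoneOn_of_deriv_nonpos (convex_Icc _ _)
      (fun s hs => (hkd s hs).continuousAt.continuousWithinAt)
      (fun s hs => (hkd s (interior_subset hs)).differentiableAt.differentiableWithinAt) ?_
    intro s hs
    have hs' := interior_subset hs
    rw [(hkd s hs').deriv]
    have e4 := hg s hs'
    have e5 : Real.exp (-C) ≤ Real.exp (-C * s) := by
      apply Real.exp_le_exp.2
      nlinarith [hs'.2]
    have e6 := Real.exp_pos (-C * s)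
    nlinarith [mul_le_mul_of_nonneg_left e4 e6.le, mul_le_mul_of_nonneg_left e5 hc]
  have h2 := hanti hs (right_mem_Icc.2 (by norm_num)) hs.2
  simp only [hk, mul_one] at h2
  have e7 : Real.exp (-C * s) ≤ 1 := by
    apply Real.exp_le_one_iff.2
    nlinarith [hs.1]
  have e8 := Real.exp_pos (-C * s)
  have e9 := Real.exp_pos (-C)
  -- `exp(-C s) g s ≥ c exp(-C) (1-s) ≥ 0`
  have h3 : c * Real.exp (-C) * (1 - s) ≤ Real.exp (-C * s) * g s := by
    have : 0 ≤ Real.exp (-C) * g 1 := mul_nonneg e9.le h1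
    nlinarith
  have h4 : 0 ≤ c * Real.exp (-C) * (1 - s) := by
    have : 0 ≤ 1 - s := by linarith [hs.2]
    positivity
  have h5 : 0 ≤ g s := by
    by_contra hneg
    push Not at hneg
    have := mul_neg_of_pos_of_neg e8 hneg
    linarith
  calc _ ≤ Real.exp (-C * s) * g s := h3
    _ ≤ 1 * g s := by gcongr
    _ = g s := one_mul _

end real

section bd
variable {E : Type*} [NormedAddCommGroup E] [NormedSpace ℝ E]
variable {W : Type*} [NormedAddCommGroup W] [NormedSpace ℝ W]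

theorem fderiv_bound {g : E → W} {k : ℕ} {B : ℝ} {z : E}
    (h : ContDiffAt ℝ ((k + 1 : ℕ) : WithTop ℕ∞) g z)
    (hb : ∀ j ≤ k + 1, ‖iteratedFDeriv ℝ j g z‖ ≤ B) :
    ContDiffAt ℝ k (fderiv ℝ g) z ∧ ∀ j ≤ k, ‖iteratedFDeriv ℝ j (fderiv ℝ g) z‖ ≤ B := by
  refine ⟨h.fderiv_right (by norm_cast), fun j hj => ?_⟩
  have h8 : ‖iteratedFDeriv ℝ j (fderiv ℝ g) z‖ = _ := norm_iteratedFDeriv_fderiv
  rw [h8]
  exact hb (j + 1) (by omega)

/-- `C²` bounds of `σ ↦ hess f (z + σ η) u u` -/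
theorem hess_line_bound {f : E → ℝ} {B : ℝ} {z η : E} {σ : ℝ}
    (h : ContDiffAt ℝ ((4 : ℕ) : WithTop ℕ∞) f (z + σ • η))
    (hb : ∀ j ≤ 4, ‖iteratedFDeriv ℝ j f (z + σ • η)‖ ≤ B) (u : E) :
    ContDiffAt ℝ 2 (fun σ : ℝ => hess f (z + σ • η) u u) σ ∧
    |iteratedDeriv 2 (fun σ : ℝ => hess f (z + σ • η) u u) σ| ≤ B * ‖u‖ * ‖u‖ * ‖η‖ ^ 2 := by
  obtain ⟨h1, h2⟩ := fderiv_bound (k := 3) h hb
  obtain ⟨h3, h4⟩ := fderiv_bound (k := 2) h1 h2
  obtain ⟨h5, h6⟩ := apply_bound_gen h3 h4 u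
  obtain ⟨h7, h8⟩ := apply_bound_gen h5 h6 u
  obtain ⟨h9, h10⟩ := line_bound_gen h7 h8
  refine ⟨h9, ?_⟩
  rw [← Real.norm_eq_abs, ← norm_iteratedFDeriv_eq_norm_iteratedDeriv]
  exact h10 2 le_rfl

/-- `C²` bounds of `σ ↦ fderiv f (z + σ η) u` -/
theorem fderiv_line_bound {f : E → ℝ} {B : ℝ} {z η : E} {σ : ℝ}
    (h : ContDiffAt ℝ ((3 : ℕ) : WithTop ℕ∞) f (z + σ • η))
    (hb : ∀ j ≤ 3, ‖iteratedFDeriv ℝ j f (z + σ • η)‖ ≤ B) (u : E) :
    ContDiffAt ℝ 2 (fun σ : ℝ => fderiv ℝ f (z + σ • η) u) σ ∧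
    |iteratedDeriv 2 (fun σ : ℝ => fderiv ℝ f (z + σ • η) u) σ| ≤ B * ‖u‖ * ‖η‖ ^ 2 := by
  obtain ⟨h1, h2⟩ := fderiv_bound (k := 2) h hb
  obtain ⟨h5, h6⟩ := apply_bound_gen h1 h2 u
  obtain ⟨h9, h10⟩ := line_bound_gen h5 h6
  refine ⟨h9, ?_⟩
  rw [← Real.norm_eq_abs, ← norm_iteratedFDeriv_eq_norm_iteratedDeriv]
  exact h10 2 le_rfl

end bd

section real

/-- first order Taylor bound -/
theorem taylor_right {ψ : ℝ → ℝ} {B : ℝ}
    (h : ∀ s ∈ Icc (0 : ℝ) 1, ContDiffAt ℝ 2 ψ s)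
    (hB : ∀ s ∈ Icc (0 : ℝ) 1, |iteratedDeriv 2 ψ s| ≤ B) :
    ψ 1 - ψ 0 ≤ deriv ψ 0 + B := by
  obtain ⟨ξ, hξ, hξ2⟩ := exists_deriv_eq_slope ψ (zero_lt_one : (0 : ℝ) < 1)
    (fun s hs => (h s hs).continuousAt.continuousWithinAt)
    (fun s hs => ((h s (Ioo_subset_Icc_self hs)).differentiableAt (by norm_num)).differentiableWithinAt)
  have hsub : Icc (0 : ℝ) ξ ⊆ Icc (0 : ℝ) 1 := Icc_subset_Icc le_rfl hξ.2.le
  have h2 := (convex_Icc (0 : ℝ) ξ).norm_image_sub_le_of_norm_deriv_le (f := deriv ψ) (C := B)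
    (fun s hs => diff_deriv_two (h s (hsub hs)))
    (fun s hs => by
      rw [← iteratedDeriv_two_eq]
      exact hB s (hsub hs)) (left_mem_Icc.2 hξ.1.le) (right_mem_Icc.2 hξ.1.le)
  have hB0 : 0 ≤ B := (abs_nonneg _).trans (hB 0 ⟨le_rfl, zero_le_one⟩)
  have h5 : ‖ξ - 0‖ = ξ := by rw [sub_zero]; exact Real.norm_of_nonneg hξ.1.le
  rw [h5, Real.norm_eq_abs] at h2
  have h3 := (le_abs_self _).trans h2
  have h6 : B * ξ ≤ B * 1 := mul_le_mul_of_nonneg_left hξ.2.le hB0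
  rw [sub_zero, div_one] at hξ2
  linarith

/-- Taylor bound to the left of `0` -/
theorem taylor_left {T : ℝ → ℝ} {τ B : ℝ} (hτ : 0 < τ)
    (h : ∀ s ∈ Icc (-τ) 0, ContDiffAt ℝ 2 T s)
    (hB : ∀ s ∈ Icc (-τ) 0, |iteratedDeriv 2 T s| ≤ B) :
    T (-τ) ≤ T 0 - τ * deriv T 0 + B * τ ^ 2 := by
  have hlt : -τ < 0 := by linarith
  obtain ⟨ξ, hξ, hξ2⟩ := exists_deriv_eq_slope T hlt
    (fun s hs => (h s hs).continuousAt.continuousWithinAt)
    (fun s hs => ((h s (Ioo_subset_Icc_self hs)).differentiableAt (by norm_num)).differentiableWithinAt)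
  have hsub : Icc ξ 0 ⊆ Icc (-τ) 0 := Icc_subset_Icc hξ.1.le le_rfl
  have h2 := (convex_Icc ξ 0).norm_image_sub_le_of_norm_deriv_le (f := deriv T) (C := B)
    (fun s hs => diff_deriv_two (h s (hsub hs)))
    (fun s hs => by
      rw [← iteratedDeriv_two_eq]
      exact hB s (hsub hs)) (left_mem_Icc.2 hξ.2.le) (right_mem_Icc.2 hξ.2.le)
  have hB0 : 0 ≤ B := (abs_nonneg _).trans (hB 0 ⟨hlt.le, le_rfl⟩)
  have h5 : ‖0 - ξ‖ = -ξ := by rw [zero_sub]; exact Real.norm_of_nonneg (by linarith [hξ.2])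
  rw [h5, Real.norm_eq_abs] at h2
  have h3 := (le_abs_self _).trans h2
  have h6 : B * (-ξ) ≤ B * τ := mul_le_mul_of_nonneg_left (by linarith [hξ.1]) hB0
  have h7 : T 0 - T (-τ) = τ * deriv T ξ := by
    rw [hξ2]
    have : 0 - -τ = τ := by ring
    rw [this]
    field_simp
  nlinarith

/-- the numerical step of the `θ`-minimality argument -/
theorem theta_step {T : ℝ → ℝ} {τ B V h : ℝ} (hτ : 0 < τ) (hτ4 : τ ≤ 1 / 4) (hV : 0 ≤ V)
    (hh : 0 ≤ h)
    (hT : ∀ s ∈ Icc (-τ) 0, ContDiffAt ℝ 2 T s)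
    (hB : ∀ s ∈ Icc (-τ) 0, |iteratedDeriv 2 T s| ≤ B)
    (h0 : T 0 = 2 * h - V)
    (hpos : 0 ≤ (1 / 2 + τ) * V + (1 / 2 - τ) * T (-τ)) :
    deriv T 0 ≤ 4 * V + 16 * τ * V + B * τ + 2 * h / τ := by
  have h1 := taylor_left hτ hT hB
  have hB0 : 0 ≤ B := (abs_nonneg _).trans (hB 0 ⟨by linarith, le_rfl⟩)
  set d := deriv T 0
  have h2 : 0 ≤ (1 / 2 + τ) * V + (1 / 2 - τ) * (2 * h - V - τ * d + B * τ ^ 2) := by
    have : (1 / 2 - τ) * T (-τ) ≤ (1 / 2 - τ) * (2 * h - V - τ * d + B * τ ^ 2) := by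
      apply mul_le_mul_of_nonneg_left _ (by linarith)
      rw [← h0]; exact h1
    linarith
  by_contra hcon
  push Not at hcon
  -- `d (1/2 - τ) τ ≤ 2 τ V + (1/2 - τ) (2 h + B τ²)`
  have h3 : (1 / 2 - τ) * (τ * d) ≤ 2 * τ * V + (1 / 2 - τ) * (2 * h + B * τ ^ 2) := by nlinarith
  have h4 : τ * (4 * V + 16 * τ * V + B * τ + 2 * h / τ) = 4 * V * τ + 16 * τ ^ 2 * V + B * τ ^ 2 + 2 * h := by
    field_simp
  have h5 : 4 * V * τ + 16 * τ ^ 2 * V + B * τ ^ 2 + 2 * h < τ * d := by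
    rw [← h4]; exact mul_lt_mul_of_pos_left hcon hτ
  have h6 : (1 / 2 - τ) * (4 * V * τ + 16 * τ ^ 2 * V + B * τ ^ 2 + 2 * h) < (1 / 2 - τ) * (τ * d) :=
    mul_lt_mul_of_pos_left h5 (by linarith)
  -- `(1/2 - τ) (4 V τ + 16 τ² V) ≥ 2 τ V`
  have h7 : 2 * τ * V ≤ (1 / 2 - τ) * (4 * V * τ + 16 * τ ^ 2 * V) := by
    have : (1 / 2 - τ) * (4 * V * τ + 16 * τ ^ 2 * V) - 2 * τ * V = τ ^ 2 * V * (4 - 16 * τ) := by
      ring
    have h8 : 0 ≤ τ ^ 2 * V * (4 - 16 * τ) := by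
      have : 0 ≤ 4 - 16 * τ := by linarith
      positivity
    linarith
  nlinarith

end real

end Crest.Agent.R226.Depth946
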