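import Mathlib

/-!
Depth (Tukey) regions of a finite measure carried by a compact convex set:

* `exists_deep` (centre point theorem): `(n+1) c < μ univ` ⟹ some `z ∈ K` with `Deep μ c z`;
* `exists_mem_body`: the depth body meets every closed convex `T` of mass `≥ n c` (Helly);
* `exists_tukey`: the form `μ univ ≤ (n+1) μ {w | ⟪θ,z⟫ ≤ ⟪θ,w⟫}` for all `θ`;
* `outer_le`: an open half-space missing the depth body has mass `≤ n c`.
-/

set_option autoImplicit false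
set_option linter.unusedSectionVars false
open MeasureTheory Set Module
open scoped ENNReal InnerProductSpace Topology

namespace Crest.Agent.R226.Depth433

variable {E : Type*} [NormedAddCommGroup E] [InnerProductSpace ℝ E] [FiniteDimensional ℝ E]
  [MeasurableSpace E] [BorelSpace E]

/-- `z` has depth at least `c`: every closed half-space containing `z` has mass at least `c`. -/
def Deep (μ : Measure E) (c : ℝ≥0∞) (z : E) : Prop :=
  ∀ θ : E, c ≤ μ {w | ⟪θ, z⟫_ℝ ≤ ⟪θ, w⟫_ℝ}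

/-- The depth body. -/
def body (μ : Measure E) (K : Set E) (c : ℝ≥0∞) : Set E :=
  {z | z ∈ K ∧ ∀ (θ : E) (t : ℝ), μ {w | t < ⟪θ, w⟫_ℝ} < c → ⟪θ, z⟫_ℝ ≤ t}

theorem body_subset (μ : Measure E) (K : Set E) (c : ℝ≥0∞) : body μ K c ⊆ K := fun _ h => h.1

theorem deep_of_mem_body {μ : Measure E} [IsFiniteMeasure μ] {K : Set E} {c : ℝ≥0∞} {z : E}
    (hz : z ∈ body μ K c) : Deep μ c z := by
  intro θ
  by_contra hlt
  rw [not_le] at hlt
  set s : ℕ → Set E := fun k => {w | ⟪θ, z⟫_ℝ - 1 / ((k : ℝ) + 1) < ⟪θ, w⟫_ℝ} with hs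
  have hmeas : ∀ k, MeasurableSet (s k) := fun k =>
    measurableSet_lt measurable_const (Continuous.measurable (by fun_prop))
  have hanti : Antitone s := by
    intro a b hab w hw
    simp only [hs, mem_ofPred_eq] at hw ⊢
    have : 1 / ((b : ℝ) + 1) ≤ 1 / ((a : ℝ) + 1) := by
      apply one_div_le_one_div_of_le (by positivity)
      have : (a : ℝ) ≤ b := by exact_mod_cast hab
      linarith
    linarith
  have hint : (⋂ k, s k) = {w | ⟪θ, z⟫_ℝ ≤ ⟪θ, w⟫_ℝ} := by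
    ext w
    simp only [hs, mem_iInter, mem_ofPred_eq]
    constructor
    · intro h
      by_contra hw
      rw [not_le] at hw
      obtain ⟨k, hk⟩ := exists_nat_one_div_lt (sub_pos.2 hw)
      have := h k
      linarith
    · intro h k
      have : (0 : ℝ) < 1 / ((k : ℝ) + 1) := by positivity
      linarith
  have htend := tendsto_measure_iInter_atTop (μ := μ) (fun k => (hmeas k).nullMeasurableSet)
    hanti ⟨0, measure_ne_top _ _⟩
  rw [hint] at htend
  obtain ⟨k, hk⟩ := (htend.eventually (gt_mem_nhds hlt)).exists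
  have h1 := hz.2 θ _ hk
  have : (0 : ℝ) < 1 / ((k : ℝ) + 1) := by positivity
  linarith

theorem mem_body_of_deep {μ : Measure E} {K : Set E} {c : ℝ≥0∞} {z : E}
    (hK : z ∈ K) (hz : Deep μ c z) : z ∈ body μ K c := by
  refine ⟨hK, fun θ t ht => ?_⟩
  by_contra hlt
  rw [not_le] at hlt
  have h1 : μ {w | ⟪θ, z⟫_ℝ ≤ ⟪θ, w⟫_ℝ} ≤ μ {w | t < ⟪θ, w⟫_ℝ} :=
    measure_mono fun w hw => lt_of_lt_of_le hlt hw
  exact absurd (lt_of_le_of_lt ((hz θ).trans h1) ht) (lt_irrefl _)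

theorem body_eq (μ : Measure E) [IsFiniteMeasure μ] (K : Set E) (c : ℝ≥0∞) :
    body μ K c = {z | z ∈ K ∧ Deep μ c z} := by
  ext z
  exact ⟨fun h => ⟨h.1, deep_of_mem_body h⟩, fun h => mem_body_of_deep h.1 h.2⟩

theorem convex_body (μ : Measure E) {K : Set E} (hK : Convex ℝ K) (c : ℝ≥0∞) :
    Convex ℝ (body μ K c) := by
  intro x hx y hy a b ha hb hab
  refine ⟨hK hx.1 hy.1 ha hb hab, fun θ t ht => ?_⟩
  have h1 := hx.2 θ t ht
  have h2 := hy.2 θ t ht
  rw [inner_add_right, inner_smul_right, inner_smul_right]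
  calc a * ⟪θ, x⟫_ℝ + b * ⟪θ, y⟫_ℝ ≤ a * t + b * t := by gcongr
    _ = t := by rw [← add_mul, hab, one_mul]

theorem isCompact_body (μ : Measure E) {K : Set E} (hK : IsCompact K) (c : ℝ≥0∞) :
    IsCompact (body μ K c) := by
  have hcl : IsClosed {z : E | ∀ (θ : E) (t : ℝ), μ {w | t < ⟪θ, w⟫_ℝ} < c → ⟪θ, z⟫_ℝ ≤ t} := by
    simp only [ofPred_forall]
    refine isClosed_iInter fun θ => isClosed_iInter fun t => isClosed_iInter fun _ => ?_
    exact isClosed_le (by fun_prop) continuous_const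
  exact hK.inter_right hcl

/-- Finite intersections: union bound. -/
theorem finite_inter {μ : Measure E} {K : Set E} (h0 : μ Kᶜ = 0) {c : ℝ≥0∞}
    (S : Finset (E × ℝ)) (hS : ∀ p ∈ S, μ {w | p.2 < ⟪p.1, w⟫_ℝ} < c) (T : Set E)
    (hT : (S.card : ℝ≥0∞) * c ≤ μ T) (hT0 : μ T ≠ 0) :
    ∃ z ∈ K, z ∈ T ∧ ∀ p ∈ S, ⟪p.1, z⟫_ℝ ≤ p.2 := by
  by_contra hne
  push Not at hne
  have hsub : T ⊆ Kᶜ ∪ ⋃ p ∈ S, {w | p.2 < ⟪p.1, w⟫_ℝ} := by
    intro w hw
    by_cases hwK : w ∈ K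
    · right
      obtain ⟨p, hp, hlt⟩ := hne w hwK hw
      simp only [mem_iUnion]
      exact ⟨p, hp, hlt⟩
    · left; exact hwK
  have h1 : μ T ≤ ∑ p ∈ S, μ {w | p.2 < ⟪p.1, w⟫_ℝ} := by
    calc μ T ≤ μ (Kᶜ ∪ ⋃ p ∈ S, {w | p.2 < ⟪p.1, w⟫_ℝ}) := measure_mono hsub
      _ ≤ μ Kᶜ + μ (⋃ p ∈ S, {w | p.2 < ⟪p.1, w⟫_ℝ}) := measure_union_le _ _
      _ ≤ 0 + ∑ p ∈ S, μ {w | p.2 < ⟪p.1, w⟫_ℝ} := by
          rw [h0]; gcongr; exact measure_biUnion_finset_le _ _
      _ = ∑ p ∈ S, μ {w | p.2 < ⟪p.1, w⟫_ℝ} := zero_add _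
  rcases S.eq_empty_or_nonempty with rfl | hSne
  · simp only [Finset.sum_empty, nonpos_iff_eq_zero] at h1
    exact hT0 h1
  · have h2 : ∑ p ∈ S, μ {w | p.2 < ⟪p.1, w⟫_ℝ} < ∑ _p ∈ S, c :=
      ENNReal.sum_lt_sum_of_nonempty hSne hS
    have h3 : ∑ _p ∈ S, c = (S.card : ℝ≥0∞) * c := by simp
    rw [h3] at h2
    exact absurd (lt_of_le_of_lt (hT.trans h1) h2) (lt_irrefl _)

/-- Helly: the depth body meets every closed convex `T` of mass `≥ n c` (and `> 0`). -/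
theorem exists_mem_body {μ : Measure E} {K : Set E} (hKc : IsCompact K) (hKconv : Convex ℝ K)
    (h0 : μ Kᶜ = 0) {c : ℝ≥0∞} (hc : ((finrank ℝ E : ℝ≥0∞) + 1) * c ≤ μ univ)
    {T : Set E} (hTcl : IsClosed T) (hTconv : Convex ℝ T)
    (hT : (finrank ℝ E : ℝ≥0∞) * c ≤ μ T) (hT0 : μ T ≠ 0) : ∃ z ∈ body μ K c, z ∈ T := by
  have hU0 : μ (univ : Set E) ≠ 0 := by
    intro h
    exact hT0 (le_antisymm ((measure_mono (subset_univ T)).trans h.le) zero_le)
  classical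
  let ι := Option {p : E × ℝ // μ {w | p.2 < ⟪p.1, w⟫_ℝ} < c}
  let F : ι → Set E := fun o => Option.elim o (K ∩ T) (fun p => K ∩ {w | ⟪p.1.1, w⟫_ℝ ≤ p.1.2})
  have hconv : ∀ i, Convex ℝ (F i) := by
    rintro (_ | p)
    · exact hKconv.inter hTconv
    · refine hKconv.inter ?_
      exact convex_halfSpace_le (f := fun w => ⟪p.1.1, w⟫_ℝ)
        ⟨fun x y => inner_add_right _ _ _, fun a x => inner_smul_right _ _ _⟩ _
  have hcomp : ∀ i, IsCompact (F i) := by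
    rintro (_ | p)
    · exact hKc.inter_right hTcl
    · exact hKc.inter_right (isClosed_le (by fun_prop) continuous_const)
  have hinter : ∀ I : Finset ι, I.card ≤ finrank ℝ E + 1 → (⋂ i ∈ I, F i).Nonempty := by
    intro I hI
    set S : Finset (E × ℝ) := (I.eraseNone).image Subtype.val with hS
    have hSmem : ∀ p ∈ S, μ {w | p.2 < ⟪p.1, w⟫_ℝ} < c := by
      intro p hp
      rw [hS, Finset.mem_image] at hp
      obtain ⟨q, _, rfl⟩ := hp
      exact q.2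
    have key : ∀ z, z ∈ K → (none ∈ I → z ∈ T) → (∀ p ∈ S, ⟪p.1, z⟫_ℝ ≤ p.2) →
        z ∈ ⋂ i ∈ I, F i := by
      intro z hz hzT hzS
      simp only [mem_iInter]
      rintro (_ | p) hp
      · exact ⟨hz, hzT hp⟩
      · refine ⟨hz, ?_⟩
        have : p.1 ∈ S := by
          rw [hS, Finset.mem_image]
          exact ⟨p, by rw [Finset.mem_eraseNone]; exact hp, rfl⟩
        exact hzS _ this
    by_cases hnone : none ∈ I
    · have hcard : S.card ≤ finrank ℝ E := by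
        have h1 : S.card ≤ (I.eraseNone).card := Finset.card_image_le
        have h2 : (I.eraseNone).card < I.card := by
          rw [Finset.card_eraseNone_of_mem hnone]
          have : 0 < I.card := Finset.card_pos.2 ⟨_, hnone⟩
          omega
        omega
      have hlt : (S.card : ℝ≥0∞) * c ≤ μ T := by
        refine le_trans ?_ hT
        gcongr
      obtain ⟨z, hz, hzT, hzS⟩ := finite_inter h0 S hSmem T hlt hT0
      exact ⟨z, key z hz (fun _ => hzT) hzS⟩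
    · have hcard : S.card ≤ finrank ℝ E + 1 := by
        have h1 : S.card ≤ (I.eraseNone).card := Finset.card_image_le
        have h2 : (I.eraseNone).card = I.card := Finset.card_eraseNone_of_not_mem hnone
        omega
      have hlt : (S.card : ℝ≥0∞) * c ≤ μ (univ : Set E) := by
        refine le_trans ?_ hc
        gcongr
        exact_mod_cast hcard
      obtain ⟨z, hz, _, hzS⟩ := finite_inter h0 S hSmem univ hlt hU0
      exact ⟨z, key z hz (fun h => absurd h hnone) hzS⟩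
  obtain ⟨z, hz⟩ := Convex.helly_theorem_compact' (𝕜 := ℝ) hconv hcomp hinter
  rw [mem_iInter] at hz
  have hzn := hz none
  refine ⟨z, ⟨hzn.1, fun θ t ht => ?_⟩, hzn.2⟩
  exact (hz (some ⟨(θ, t), ht⟩)).2

/-- Centre point theorem. -/
theorem exists_deep {μ : Measure E} [IsFiniteMeasure μ] {K : Set E} (hKc : IsCompact K)
    (hKconv : Convex ℝ K) (h0 : μ Kᶜ = 0) (hU0 : μ univ ≠ 0) {c : ℝ≥0∞}
    (hc : ((finrank ℝ E : ℝ≥0∞) + 1) * c ≤ μ univ) : ∃ z ∈ K, Deep μ c z := by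
  have hT : (finrank ℝ E : ℝ≥0∞) * c ≤ μ (univ : Set E) := by
    refine le_trans ?_ hc
    gcongr
    exact le_self_add
  obtain ⟨z, hz, _⟩ := exists_mem_body hKc hKconv h0 hc isClosed_univ convex_univ hT hU0
  exact ⟨z, hz.1, deep_of_mem_body hz⟩

/-- Centre point theorem, real-valued form:
`μ univ ≤ (n+1) μ {w | ⟪θ,z⟫ ≤ ⟪θ,w⟫}` for all `θ`. -/
theorem exists_tukey {μ : Measure E} [IsFiniteMeasure μ] {K : Set E} (hKc : IsCompact K)
    (hKconv : Convex ℝ K) (h0 : μ Kᶜ = 0) (hU0 : μ univ ≠ 0) :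
    ∃ z ∈ K, ∀ θ : E, μ univ ≤ ((finrank ℝ E : ℝ≥0∞) + 1) * μ {w | ⟪θ, z⟫_ℝ ≤ ⟪θ, w⟫_ℝ} := by
  have hn0 : ((finrank ℝ E : ℝ≥0∞) + 1) ≠ 0 := by positivity
  have hnt : ((finrank ℝ E : ℝ≥0∞) + 1) ≠ ∞ := by
    exact_mod_cast ENNReal.natCast_ne_top (finrank ℝ E + 1)
  obtain ⟨z, hz, hd⟩ := exists_deep hKc hKconv h0 hU0
    (c := μ univ / ((finrank ℝ E : ℝ≥0∞) + 1)) (ENNReal.mul_div_cancel hn0 hnt).le
  refine ⟨z, hz, fun θ => ?_⟩
  have := hd θ
  rwa [ENNReal.div_le_iff' hn0 hnt] at this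

/-- An open half-space that misses the depth body has small mass. -/
theorem outer_le {μ : Measure E} {K : Set E} (hKc : IsCompact K)
    (hKconv : Convex ℝ K) (h0 : μ Kᶜ = 0) {c : ℝ≥0∞}
    (hc : ((finrank ℝ E : ℝ≥0∞) + 1) * c ≤ μ univ) (θ : E) (s : ℝ)
    (h : ∀ z ∈ body μ K c, ⟪θ, z⟫_ℝ ≤ s) :
    μ {w | s < ⟪θ, w⟫_ℝ} ≤ (finrank ℝ E : ℝ≥0∞) * c := by
  set t : ℕ → Set E := fun k => {w | s + 1 / ((k : ℝ) + 1) ≤ ⟪θ, w⟫_ℝ} with ht
  have hun : {w | s < ⟪θ, w⟫_ℝ} = ⋃ k, t k := by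
    ext w
    simp only [ht, mem_iUnion, mem_ofPred_eq]
    constructor
    · intro hw
      obtain ⟨k, hk⟩ := exists_nat_one_div_lt (sub_pos.2 hw)
      exact ⟨k, by linarith⟩
    · rintro ⟨k, hk⟩
      have : (0 : ℝ) < 1 / ((k : ℝ) + 1) := by positivity
      linarith
  have hmono : Monotone t := by
    intro a b hab w hw
    simp only [ht, mem_ofPred_eq] at hw ⊢
    have : 1 / ((b : ℝ) + 1) ≤ 1 / ((a : ℝ) + 1) := by
      apply one_div_le_one_div_of_le (by positivity)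
      have : (a : ℝ) ≤ b := by exact_mod_cast hab
      linarith
    linarith
  rw [hun, hmono.measure_iUnion]
  refine iSup_le fun k => ?_
  by_contra hlt
  rw [not_le] at hlt
  obtain ⟨z, hz, hzt⟩ := exists_mem_body hKc hKconv h0 hc
    (T := t k) (isClosed_le continuous_const (by fun_prop))
    (convex_halfSpace_ge (f := fun w => ⟪θ, w⟫_ℝ)
        ⟨fun x y => inner_add_right _ _ _, fun a x => inner_smul_right _ _ _⟩ _) hlt.le
        (ne_of_gt (lt_of_le_of_lt zero_le hlt))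
  have h1 := h z hz
  simp only [ht, mem_ofPred_eq] at hzt
  have : (0 : ℝ) < 1 / ((k : ℝ) + 1) := by positivity
  linarith

end Crest.Agent.R226.Depth433
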