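/-
R226 / E2-NF (helper946): part 7.  Derivative Gauss identity (N3') on `K`, radial derivative.
-/
import Crest.Agent.R226.NF6_946
import Crest.Agent.R226.NF7A_946

set_option autoImplicit false

open MeasureTheory Bundle Set Filter
open scoped Manifold ContDiff Bundle ENNReal Topology
open Crest.GeometryTopology.MTW
open Crest.Agent.R226.Calc347 Crest.Agent.R226.MTWConc117 Crest.Agent.R226.Base347

namespace Crest.Agent.R226.NF946

variable {n : ℕ} {M : Type*} [MetricSpace M] [ChartedSpace (EuclideanSpace ℝ (Fin n)) M]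
  [IsManifold (𝓡 n) ∞ M]
  [RiemannianBundle (fun p : M => TangentSpace (𝓡 n) p)]
  {G : GeoData n M}

/-- directional derivative of the normal form: `DHf G x p θ u v = D_θ (Hf(·)(u,v))(p)` -/
noncomputable def DHf (G : GeoData n M) (x : M) (p θ u v : TangentSpace (𝓡 n) x) : ℝ :=
  fderiv ℝ (fun q => Hf G x q u v) p θ

theorem DHf_eq (G : GeoData n M) (x : M) (p θ u v : TangentSpace (𝓡 n) x) :
    DHf G x p θ u v = DHfA (F G x) p θ u v := rfl

theorem differentiableAt_Hf_apply (hB : Base G) {x : M} {p : TangentSpace (𝓡 n) x}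
    (hp : p ∈ G.K x) (u v : TangentSpace (𝓡 n) x) :
    DifferentiableAt ℝ (fun q => Hf G x q u v) p :=
  ((contDiffAt_Hf_apply hB hp u v).of_le one_le_infty).differentiableAt (by norm_num)

theorem DHf_smul_left (hB : Base G) {x : M} {p : TangentSpace (𝓡 n) x} (hp : p ∈ G.K x)
    (θ u v : TangentSpace (𝓡 n) x) (c : ℝ) : DHf G x p θ (c • u) v = c * DHf G x p θ u v := by
  have e : (fun q => Hf G x q (c • u) v) = fun q => c * Hf G x q u v := by
    funext q
    rw [map_smul, smul_apply, smul_eq_mul]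
  unfold DHf
  rw [e]
  have h1 := (differentiableAt_Hf_apply hB hp u v).hasFDerivAt.const_mul c
  rw [h1.fderiv]
  rfl

theorem DHf_add_left (hB : Base G) {x : M} {p : TangentSpace (𝓡 n) x} (hp : p ∈ G.K x)
    (θ u u' v : TangentSpace (𝓡 n) x) :
    DHf G x p θ (u + u') v = DHf G x p θ u v + DHf G x p θ u' v := by
  have e : (fun q => Hf G x q (u + u') v) = fun q => Hf G x q u v + Hf G x q u' v := by
    funext q
    rw [map_add, add_apply]
  unfold DHf
  rw [e]
  have h1 : HasFDerivAt (fun q => Hf G x q u v + Hf G x q u' v)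
      (fderiv ℝ (fun q => Hf G x q u v) p + fderiv ℝ (fun q => Hf G x q u' v) p) p :=
    (differentiableAt_Hf_apply hB hp u v).hasFDerivAt.add
      (differentiableAt_Hf_apply hB hp u' v).hasFDerivAt
  rw [h1.fderiv]
  rfl

/-- symmetry on the open set `I`, hence on `K` -/
theorem DHf_symm (hB : Base G) {x : M} {p : TangentSpace (𝓡 n) x} (hp : p ∈ G.K x)
    (θ u v : TangentSpace (𝓡 n) x) : DHf G x p θ u v = DHf G x p θ v u := by
  refine eq_of_eq_on_I hB hp (f := fun q => DHf G x q θ u v) (g := fun q => DHf G x q θ v u)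
    ?_ ?_ ?_
  · exact continuousAt_DHfA (F := F G x) ((contDiffAt_Hf_apply hB hp u v).of_le one_le_infty) θ
  · exact continuousAt_DHfA (F := F G x) ((contDiffAt_Hf_apply hB hp v u).of_le one_le_infty) θ
  · intro q hq
    have h : (fun q => Hf G x q u v) =ᶠ[𝓝 q] fun q => Hf G x q v u := by
      filter_upwards [(hB.isOpen_I x).mem_nhds hq] with q' hq'
      exact Hf_symm hB (hB.I_subset x hq') u v
    show fderiv ℝ (fun q => Hf G x q u v) q θ = fderiv ℝ (fun q => Hf G x q v u) q θ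
    rw [h.fderiv_eq]

/-- **(N3')** : `(D_θ Hf)(p, η) = ⟪θ, η⟫ - Hf(θ, η)` for `p ∈ K`. -/
theorem DHf_gauss (hB : Base G) {x : M} {p : TangentSpace (𝓡 n) x} (hp : p ∈ G.K x)
    (θ η : TangentSpace (𝓡 n) x) :
    DHf G x p θ p η = inner ℝ θ η - Hf G x p θ η := by
  have hI : ∀ q ∈ G.I x, DHf G x q θ q η = inner ℝ θ η - Hf G x q θ η := by
    intro q hq
    refine DHfA_gauss (F := F G x)
      (fun u v => differentiableAt_Hf_apply hB (hB.I_subset x hq) u v) ?_ θ η
    filter_upwards [(hB.isOpen_I x).mem_nhds hq] with q' hq' η'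
    exact Hf_gauss hB (hB.I_subset x hq') η'
  have ht : Tendsto (fun r : ℝ => r • p) (𝓝[<] 1) (𝓝 p) := by
    have h1 : Continuous (fun r : ℝ => r • p) := by fun_prop
    have h2 := h1.tendsto 1
    rw [one_smul] at h2
    exact h2.mono_left nhdsWithin_le_nhds
  have hr : Tendsto (fun r : ℝ => r) (𝓝[<] (1 : ℝ)) (𝓝 1) := nhdsWithin_le_nhds
  have hc1 : ContinuousAt (fun q => DHf G x q θ p η) p :=
    continuousAt_DHfA (F := F G x) ((contDiffAt_Hf_apply hB hp p η).of_le one_le_infty) θ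
  have h1 : Tendsto (fun r : ℝ => r * DHf G x (r • p) θ p η) (𝓝[<] 1)
      (𝓝 (1 * DHf G x p θ p η)) := hr.mul (hc1.tendsto.comp ht)
  have hc2 : ContinuousAt (fun q => Hf G x q θ η) p := (contDiffAt_Hf_apply hB hp θ η).continuousAt
  have h2 : Tendsto (fun r : ℝ => inner ℝ θ η - Hf G x (r • p) θ η) (𝓝[<] 1)
      (𝓝 (inner ℝ θ η - Hf G x p θ η)) := tendsto_const_nhds.sub (hc2.tendsto.comp ht)
  have hev : (fun r : ℝ => r * DHf G x (r • p) θ p η) =ᶠ[𝓝[<] 1]
      fun r : ℝ => inner ℝ θ η - Hf G x (r • p) θ η := by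
    have h3 : Ioo (0 : ℝ) 1 ∈ 𝓝[<] (1 : ℝ) := Ioo_mem_nhdsLT (by norm_num)
    filter_upwards [h3] with r hr
    have h4 := hB.smul_mem_I hp hr.1.le hr.2
    rw [← hI _ h4, DHf_smul_left hB (hB.I_subset x h4)]
  have h5 := tendsto_nhds_unique (h1.congr' hev) h2
  rwa [one_mul] at h5

/-- `D_θ Hf(p, v) = ⟪θ, v⟫ - Hf(θ, v)`, version with `p` in the second slot -/
theorem DHf_gauss' (hB : Base G) {x : M} {p : TangentSpace (𝓡 n) x} (hp : p ∈ G.K x)
    (θ η : TangentSpace (𝓡 n) x) :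
    DHf G x p θ η p = inner ℝ θ η - Hf G x p θ η := by
  rw [DHf_symm hB hp, DHf_gauss hB hp]

end Crest.Agent.R226.NF946
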