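/-
R226 (helper946): depth facts for the normal form,
(D2) `-DHf(p)[p](v,v) ≥ c |v|² - C Hf(p)(v,v)` for `p ∈ K(x)`   (= `RadP` of 115),
(D1) `Hf(s p)(v,v) ≥ c (1-s) |v|²`, `p ∈ K(x)`, `0 ≤ s ≤ 1`.
-/
import Crest.Agent.R226.NF7_946
import Crest.Agent.R226.DepthAbs_946
import Crest.Agent.R226.ExLip_659

set_option autoImplicit false

open MeasureTheory Bundle Set Filter
open scoped Manifold ContDiff Bundle ENNReal Topology
open Crest.GeometryTopology.MTW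
open Crest.Agent.R226.Calc347 Crest.Agent.R226.MTWConc117 Crest.Agent.R226.Base347
open Crest.Agent.R226.NF946

namespace Crest.Agent.R226.Depth946

variable {n : ℕ} {M : Type*} [MetricSpace M] [ChartedSpace (EuclideanSpace ℝ (Fin n)) M]
  [IsManifold (𝓡 n) ∞ M]
  [RiemannianBundle (fun p : M => TangentSpace (𝓡 n) p)]
  {G : GeoData n M}

/-- `F(w, b) ` is Lipschitz with respect to the distance of the second points -/
theorem F_sub_le {D : ℝ} (hD : ∀ a b : M, dist a b ≤ D) {x : M}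
    (w b b' : TangentSpace (𝓡 n) x) :
    |F G x (w, b) - F G x (w, b')| ≤ D * dist (G.ex x b) (G.ex x b') := by
  unfold F halfDistSq
  show |dist (G.ex x w) (G.ex x b) ^ 2 / 2 - dist (G.ex x w) (G.ex x b') ^ 2 / 2| ≤ _
  have h1 : |dist (G.ex x w) (G.ex x b) - dist (G.ex x w) (G.ex x b')| ≤
      dist (G.ex x b) (G.ex x b') := by
    rw [dist_comm (G.ex x w) (G.ex x b), dist_comm (G.ex x w) (G.ex x b')]
    exact abs_dist_sub_le _ _ _
  have h2 := hD (G.ex x w) (G.ex x b)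
  have h3 := hD (G.ex x w) (G.ex x b')
  have h4 : 0 ≤ dist (G.ex x w) (G.ex x b) := dist_nonneg
  have h5 : 0 ≤ dist (G.ex x w) (G.ex x b') := dist_nonneg
  have e : dist (G.ex x w) (G.ex x b) ^ 2 / 2 - dist (G.ex x w) (G.ex x b') ^ 2 / 2 =
      (dist (G.ex x w) (G.ex x b) + dist (G.ex x w) (G.ex x b')) / 2 *
        (dist (G.ex x w) (G.ex x b) - dist (G.ex x w) (G.ex x b')) := by ring
  rw [e, abs_mul]
  apply mul_le_mul _ h1 (abs_nonneg _) (h4.trans h2)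
  rw [abs_of_nonneg (by positivity)]
  linarith

variable [IsContMDiffRiemannianBundle (𝓡 n) ∞ (EuclideanSpace ℝ (Fin n))
    (fun p : M => TangentSpace (𝓡 n) p)]

/-- **uniform lower bound of the differential of `exp_x` at `p/2`, `p ∈ K(x)`** -/
theorem ex_lower [CompactSpace M] (hB : Base G) : ∃ κ : ℝ, 0 < κ ∧ ∀ x : M,
    ∀ p v : TangentSpace (𝓡 n) x, p ∈ G.K x → ∀ᶠ s in 𝓝 (0 : ℝ),
      κ * |s| * ‖v‖ ≤ dist (G.ex x ((1 / 2 : ℝ) • p + s • v)) (G.ex x ((1 / 2 : ℝ) • p)) := by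
  obtain ⟨δ, B, hδ, hB0, h⟩ := unif_F0 hB (θ := 1 / 2) (by norm_num) (by norm_num) 3
  obtain ⟨D, hD1, hD⟩ : ∃ D : ℝ, 1 ≤ D ∧ ∀ a b : M, dist a b ≤ D := by
    have hbd : Bornology.IsBounded (univ : Set M) := isCompact_univ.isBounded
    refine ⟨max 1 (Metric.diam (univ : Set M)), le_max_left _ _, fun a b => ?_⟩
    exact (Metric.dist_le_diam_of_mem hbd (mem_univ a) (mem_univ b)).trans (le_max_right _ _)
  obtain ⟨r, hr, hrδ, hrB⟩ : ∃ r : ℝ, 0 < r ∧ r < δ ∧ B * r ≤ 1 / 2 := by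
    refine ⟨min (δ / 2) (1 / (2 * (B + 1))), by positivity, ?_, ?_⟩
    · exact (min_le_left _ _).trans_lt (by linarith)
    · calc B * min (δ / 2) (1 / (2 * (B + 1))) ≤ B * (1 / (2 * (B + 1))) := by
            gcongr; exact min_le_right _ _
        _ ≤ (B + 1) * (1 / (2 * (B + 1))) := by gcongr; linarith
        _ = 1 / 2 := by field_simp
  refine ⟨r / (8 * D), by positivity, fun x p v hp => ?_⟩
  rcases eq_or_ne v 0 with rfl | hv
  · exact Eventually.of_forall fun s => by simp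
  have hv0 : 0 < ‖v‖ := norm_pos_iff.2 hv
  set η : TangentSpace (𝓡 n) x := (r / ‖v‖) • v with hη
  have hηn : ‖η‖ = r := by
    rw [hη, norm_smul, Real.norm_of_nonneg (by positivity)]
    field_simp
  set b₀ : TangentSpace (𝓡 n) x := (1 / 2 : ℝ) • p with hb₀
  have hb₀I : b₀ ∈ G.I x := hB.smul_mem_I hp (by norm_num) (by norm_num)
  have hsm : ∀ w b : TangentSpace (𝓡 n) x, ‖w‖ < δ → ‖b - b₀‖ < δ →
      ContDiffAt ℝ 3 (F G x) (w, b) ∧ ∀ j ≤ 3, ‖iteratedFDeriv ℝ j (F G x) (w, b)‖ ≤ B :=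
    fun w b hw hb => h x p w b hp hw hb
  -- `ψ σ = D_b F(σ η, b₀) v`
  set ψ : ℝ → ℝ := fun σ => fderiv ℝ (F G x)
    (((0 : TangentSpace (𝓡 n) x), b₀) + σ • (η, (0 : TangentSpace (𝓡 n) x))) (0, v) with hψ
  have hpt : ∀ σ : ℝ, ((0 : TangentSpace (𝓡 n) x), b₀) + σ • (η, (0 : TangentSpace (𝓡 n) x)) =
      (σ • η, b₀) := by
    intro σ; simp
  have hψb : ∀ σ ∈ Icc (0 : ℝ) 1, ContDiffAt ℝ 2 ψ σ ∧ |iteratedDeriv 2 ψ σ| ≤ B * ‖v‖ * r ^ 2 := by
    intro σ hσ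
    have h1 : ‖σ • η‖ < δ := by
      rw [norm_smul, Real.norm_of_nonneg hσ.1, hηn]
      calc σ * r ≤ 1 * r := by gcongr; exact hσ.2
        _ < δ := by rw [one_mul]; exact hrδ
    obtain ⟨h2, h3⟩ := hsm (σ • η) b₀ h1 (by rw [sub_self, norm_zero]; exact hδ)
    rw [← hpt] at h2 h3
    obtain ⟨h4, h5⟩ := fderiv_line_bound h2 h3 ((0 : TangentSpace (𝓡 n) x), v)
    refine ⟨h4, h5.trans (le_of_eq ?_)⟩
    have e1 : ‖((0 : TangentSpace (𝓡 n) x), v)‖ = ‖v‖ := by simp [Prod.norm_mk]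
    have e2 : ‖(η, (0 : TangentSpace (𝓡 n) x))‖ = r := by
      rw [Prod.norm_mk, norm_zero, hηn]; exact max_eq_left hr.le
    rw [e1, e2]
  have hF2 : ContDiffAt ℝ 2 (F G x) (0, b₀) :=
    contDiffAt_infty.1 (hB.contDiffAt_F_zero hb₀I) 2
  have hψ' : HasDerivAt ψ (-(r * ‖v‖)) 0 := by
    have h1 : HasDerivAt (fun σ : ℝ => fderiv ℝ (F G x)
        (((0 : TangentSpace (𝓡 n) x), b₀) + σ • (η, (0 : TangentSpace (𝓡 n) x))))
        (hess (F G x) (0, b₀) (η, 0)) 0 := by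
      have h2 : ContDiffAt ℝ 1 (fderiv ℝ (F G x)) (0, b₀) := hF2.fderiv_right (by norm_num)
      exact hasDerivAt_line_gen (h2.differentiableAt (by norm_num)) _
    have h3 := hasDerivAt_apply_gen h1 ((0 : TangentSpace (𝓡 n) x), v)
    have e : hess (F G x) (0, b₀) (η, 0) (0, v) = -(r * ‖v‖) := by
      rw [hess_symm hF2, hB.hess_F_mixed hb₀I, hη, real_inner_smul_right,
        real_inner_self_eq_norm_sq]
      field_simp
    rw [e] at h3
    exact h3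
  have hψ1 : ψ 1 - ψ 0 ≤ -(r / 2 * ‖v‖) := by
    have h1 := taylor_right (fun σ hσ => (hψb σ hσ).1) (fun σ hσ => (hψb σ hσ).2)
    rw [hψ'.deriv] at h1
    have h2 : B * ‖v‖ * r ^ 2 ≤ r / 2 * ‖v‖ := by
      have : B * ‖v‖ * r ^ 2 = (B * r) * (‖v‖ * r) := by ring
      rw [this]
      calc (B * r) * (‖v‖ * r) ≤ (1 / 2) * (‖v‖ * r) := by gcongr
        _ = _ := by ring
    linarith
  -- `k s = F(η, b₀ + s v) - F(0, b₀ + s v)`
  have hk : HasDerivAt (fun s : ℝ => F G x (η, b₀ + s • v) - F G x (0, b₀ + s • v))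
      (ψ 1 - ψ 0) 0 := by
    have aux : ∀ w : TangentSpace (𝓡 n) x, DifferentiableAt ℝ (F G x) (w, b₀) →
        HasDerivAt (fun s : ℝ => F G x (w, b₀ + s • v)) (fderiv ℝ (F G x) (w, b₀) (0, v)) 0 := by
      intro w hw
      have h1 := hasDerivAt_line_gen hw ((0 : TangentSpace (𝓡 n) x), v)
      have e : (fun s : ℝ => F G x ((w, b₀) + s • ((0 : TangentSpace (𝓡 n) x), v))) =
          fun s : ℝ => F G x (w, b₀ + s • v) := by
        funext s; congr 1; simp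
      rw [e] at h1
      exact h1
    have h1 := aux η ((hsm η b₀ (by rw [hηn]; exact hrδ)
      (by rw [sub_self, norm_zero]; exact hδ)).1.differentiableAt (by norm_num))
    have h2 := aux 0 (hF2.differentiableAt (by norm_num))
    have e1 : ψ 1 = fderiv ℝ (F G x) (η, b₀) (0, v) := by
      simp only [hψ]; rw [hpt, one_smul]
    have e0 : ψ 0 = fderiv ℝ (F G x) (0, b₀) (0, v) := by
      simp only [hψ]; rw [hpt, zero_smul]
    rw [e1, e0]
    exact h1.sub h2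
  have hm : 0 < r / 4 * ‖v‖ := by positivity
  have hlo := (hasDerivAt_iff_isLittleO.1 hk).def hm
  filter_upwards [hlo] with s hs
  simp only [sub_zero, zero_smul, add_zero, smul_eq_mul, Real.norm_eq_abs] at hs
  have h1 := F_sub_le (G := G) hD η (b₀ + s • v) b₀
  have h2 := F_sub_le (G := G) hD 0 (b₀ + s • v) b₀
  set dd := dist (G.ex x (b₀ + s • v)) (G.ex x b₀) with hdd
  have h3 : |s * (ψ 1 - ψ 0)| ≤ r / 4 * ‖v‖ * |s| + 2 * (D * dd) := by
    have h4 : s * (ψ 1 - ψ 0) = (F G x (η, b₀ + s • v) - F G x (η, b₀)) -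
        (F G x (0, b₀ + s • v) - F G x (0, b₀)) -
        (F G x (η, b₀ + s • v) - F G x (0, b₀ + s • v) - (F G x (η, b₀) - F G x (0, b₀)) -
          s * (ψ 1 - ψ 0)) := by ring
    have h5 := abs_sub (F G x (η, b₀ + s • v) - F G x (η, b₀) -
        (F G x (0, b₀ + s • v) - F G x (0, b₀)))
      (F G x (η, b₀ + s • v) - F G x (0, b₀ + s • v) - (F G x (η, b₀) - F G x (0, b₀)) -
          s * (ψ 1 - ψ 0))
    have h6 := abs_sub (F G x (η, b₀ + s • v) - F G x (η, b₀))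
      (F G x (0, b₀ + s • v) - F G x (0, b₀))
    rw [← h4] at h5
    linarith
  have h7 : |s| * (r / 2 * ‖v‖) ≤ |s * (ψ 1 - ψ 0)| := by
    rw [abs_mul]
    apply mul_le_mul_of_nonneg_left _ (abs_nonneg s)
    have := neg_le_abs (ψ 1 - ψ 0)
    linarith
  have h8 : r / 4 * ‖v‖ * |s| ≤ 2 * D * dd := by nlinarith
  have h9 : r / (8 * D) * |s| * ‖v‖ = (r / 4 * ‖v‖ * |s|) / (2 * D) := by
    field_simp; ring
  rw [h9, div_le_iff₀ (by positivity)]
  linarith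

/-- **the Gauss identity at the end point**: for `w` near `p/2`,
`2 F(w,p) + |p|²/4 - D_b F(w,p) p ≥ dist(exp w, exp (p/2))² / L²`. -/
theorem end_gauss [CompactSpace M] [IsRiemannianManifold (𝓡 n) M] (hB : Base G) :
    ∃ L : ℝ, 0 < L ∧ ∀ x : M, ∀ p : TangentSpace (𝓡 n) x, p ∈ G.K x →
      ∀ᶠ w in 𝓝 ((1 / 2 : ℝ) • p),
        (dist (G.ex x w) (G.ex x ((1 / 2 : ℝ) • p)) / L) ^ 2 ≤
          2 * F G x (w, p) + ‖p‖ ^ 2 / 4 - fderiv ℝ (F G x) (w, p) (0, p) := by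
  obtain ⟨D, hD1, hD⟩ : ∃ D : ℝ, 1 ≤ D ∧ ∀ a b : M, dist a b ≤ D := by
    have hbd : Bornology.IsBounded (univ : Set M) := isCompact_univ.isBounded
    refine ⟨max 1 (Metric.diam (univ : Set M)), le_max_left _ _, fun a b => ?_⟩
    exact (Metric.dist_le_diam_of_mem hbd (mem_univ a) (mem_univ b)).trans (le_max_right _ _)
  obtain ⟨L, hL0, hL⟩ := ExLip659.ex_lip G D
  refine ⟨L + 1, by linarith, fun x p hp => ?_⟩
  -- the end point and the reversed vector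
  have hqK := hB.rev x p hp
  have hrev := hB.rev_ex x p
  have hnq : ‖-(G.vel x p 1)‖ = ‖p‖ := by rw [norm_neg]; exact G.norm_vel x p 1
  generalize -(G.vel x p 1) = q₀ at hqK hrev hnq
  generalize hydef : G.ex x ((1 : ℝ) • p) = y at *
  rw [one_smul] at hydef
  have hq2I : (1 / 2 : ℝ) • q₀ ∈ G.I y := hB.smul_mem_I hqK (by norm_num) (by norm_num)
  have hmid : G.ex y ((1 / 2 : ℝ) • q₀) = G.ex x ((1 / 2 : ℝ) • p) := by
    rw [hrev]; norm_num
  -- velocities at `y`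
  have hcont : Tendsto (fun w : TangentSpace (𝓡 n) x => CutSmooth77.Wt G (y, G.ex x w))
      (𝓝 ((1 / 2 : ℝ) • p)) (𝓝 ⟨y, (1 / 2 : ℝ) • q₀⟩) := by
    have h1 : Tendsto (fun w : TangentSpace (𝓡 n) x => (y, G.ex x w)) (𝓝 ((1 / 2 : ℝ) • p))
        (𝓝 (y, G.ex y ((1 / 2 : ℝ) • q₀))) := by
      rw [hmid]
      exact tendsto_const_nhds.prodMk_nhds ((Focal347.continuous_ex (G := G) x).tendsto _)
    exact (CutSmooth77.tendsto_Wt G hq2I).comp h1
  have hevI : ∀ᶠ w in 𝓝 ((1 / 2 : ℝ) • p), CutSmooth77.wt G (y, G.ex x w) ∈ G.I y :=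
    hcont.eventually (hB.isOpen_IT.mem_nhds hq2I)
  have hevF : ∀ᶠ w in 𝓝 ((1 / 2 : ℝ) • p), DifferentiableAt ℝ (F G x) (w, p) := by
    have hc : ContinuousAt (fun w : TangentSpace (𝓡 n) x => (w, p)) ((1 / 2 : ℝ) • p) := by
      fun_prop
    have h1 : ∀ᶠ z in 𝓝 (((1 / 2 : ℝ) • p, p) : TangentSpace (𝓡 n) x × TangentSpace (𝓡 n) x),
        DifferentiableAt ℝ (F G x) z := by
      have h2 : ContDiffAt ℝ 1 (F G x) ((1 / 2 : ℝ) • p, p) :=
        (contDiffAt_F_half hB hp).of_le one_le_infty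
      filter_upwards [h2.eventually (by simp)] with z hz
      exact hz.differentiableAt (by norm_num)
    exact hc.eventually h1
  filter_upwards [hevI, hevF] with w hwI hwF
  have hq : G.ex y (CutSmooth77.wt G (y, G.ex x w)) = G.ex x w := CutSmooth77.wt_ex G (y, G.ex x w)
  generalize CutSmooth77.wt G (y, G.ex x w) = q at hwI hq
  have hqK' : q ∈ G.K y := hB.I_subset y hwI
  -- derivative of the cost along the ray
  have hder : fderiv ℝ (F G x) (w, p) (0, p) = inner ℝ q q₀ := by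
    have h1 := hasDerivAt_line_gen hwF ((0 : TangentSpace (𝓡 n) x), p)
    have h2 := Crit347.hasDerivAt_nc hB hwI (-q₀)
    have e : (fun s : ℝ => F G x ((w, p) + s • ((0 : TangentSpace (𝓡 n) x), p))) =
        fun s : ℝ => halfDistSq (G.ex y (s • (-q₀))) (G.ex y q) := by
      funext s
      have e1 : (w, p) + s • ((0 : TangentSpace (𝓡 n) x), p) = (w, (1 + s) • p) := by
        simp only [Prod.smul_mk, smul_zero, Prod.mk_add_mk, add_zero]
        rw [add_smul, one_smul]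
      have e2 : s • (-q₀) = (-s) • q₀ := by rw [smul_neg, neg_smul]
      rw [e1, e2, hrev, hq, halfDistSq_comm]
      unfold F
      simp only [sub_neg_eq_add]
    rw [e] at h1
    have h3 := h1.unique h2
    rw [h3, inner_neg_right, neg_neg]
  have hF : 2 * F G x (w, p) = ‖q‖ ^ 2 := by
    have h1 := halfDistSq_of_mem_K hqK'
    rw [hq] at h1
    unfold F
    show 2 * halfDistSq (G.ex x w) (G.ex x p) = _
    rw [hydef, halfDistSq_comm, h1]; ring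
  have hexp : ‖q - (1 / 2 : ℝ) • q₀‖ ^ 2 = ‖q‖ ^ 2 + ‖p‖ ^ 2 / 4 - inner ℝ q q₀ := by
    rw [norm_sub_sq_real, norm_smul, real_inner_smul_right, mul_pow, hnq]
    have : ‖(1 / 2 : ℝ)‖ = 1 / 2 := by norm_num
    rw [this]; ring
  rw [hder, hF, ← hexp]
  have hqD : ‖q‖ ≤ D := by
    have : dist y (G.ex y q) = ‖q‖ := hqK'
    rw [← this]; exact hD _ _
  have h5 := hL y q ((1 / 2 : ℝ) • q₀) hqD
  rw [hq, hmid] at h5
  have h6 : dist (G.ex x w) (G.ex x ((1 / 2 : ℝ) • p)) / (L + 1) ≤ ‖q - (1 / 2 : ℝ) • q₀‖ := by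
    rw [div_le_iff₀ (by linarith)]
    have := norm_nonneg (q - (1 / 2 : ℝ) • q₀)
    nlinarith
  exact pow_le_pow_left₀ (by positivity) h6 2

/-- `-½ Θ_β ≥ c |v|² - Θ`, `Θ = D_w²F(p/2,p)(v,v)`, `Θ_β` its derivative in the second variable in
direction `p`. -/
theorem beta_bound [CompactSpace M] [IsRiemannianManifold (𝓡 n) M] (hB : Base G) :
    ∃ c : ℝ, 0 < c ∧ ∀ x : M, ∀ p v : TangentSpace (𝓡 n) x, p ∈ G.K x →
      fderiv ℝ (fun z => hess (F G x) z (v, 0) (v, 0)) ((1 / 2 : ℝ) • p, p) (0, p) ≤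
        2 * hess (F G x) ((1 / 2 : ℝ) • p, p) (v, 0) (v, 0) - 2 * c * ‖v‖ ^ 2 := by
  obtain ⟨κ, hκ, hlow⟩ := ex_lower hB
  obtain ⟨L, hL, hend⟩ := end_gauss hB
  refine ⟨(κ / L) ^ 2, by positivity, fun x p v hp => ?_⟩
  have hF : ContDiffAt ℝ ∞ (F G x) ((1 / 2 : ℝ) • p, p) := contDiffAt_F_half hB hp
  have hF3 : ContDiffAt ℝ 3 (F G x) ((1 / 2 : ℝ) • p, p) := contDiffAt_infty.1 hF 3
  have hF2 : ContDiffAt ℝ 2 (F G x) ((1 / 2 : ℝ) • p, p) := contDiffAt_infty.1 hF 2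
  have hD2 : ContDiffAt ℝ 2 (fun z => fderiv ℝ (F G x) z (0, p)) ((1 / 2 : ℝ) • p, p) := by
    have h1 : ContDiffAt ℝ 2 (fderiv ℝ (F G x)) ((1 / 2 : ℝ) • p, p) :=
      hF3.fderiv_right (by norm_num)
    exact h1.clm_apply contDiffAt_const
  have hsec1 := hess_fst hF2 v
  have hsec2 := hess_fst hD2 v
  have hsec : Sec (fun s : ℝ => 2 * F G x ((1 / 2 : ℝ) • p + s • v, p) + ‖p‖ ^ 2 / 4 -
      fderiv ℝ (F G x) ((1 / 2 : ℝ) • p + s • v, p) (0, p))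
      (2 * hess (F G x) ((1 / 2 : ℝ) • p, p) (v, 0) (v, 0) -
        hess (fun z => fderiv ℝ (F G x) z (0, p)) ((1 / 2 : ℝ) • p, p) (v, 0) (v, 0)) := by
    have hc : Sec (fun _ : ℝ => ‖p‖ ^ 2 / 4) 0 := by
      refine ⟨contDiffAt_const, ?_⟩
      simp [iteratedDeriv_const]
    have h1 := ((hsec1.const_mul 2).add hc).sub hsec2
    rw [add_zero] at h1
    exact h1
  have h0 : (fun s : ℝ => 2 * F G x ((1 / 2 : ℝ) • p + s • v, p) + ‖p‖ ^ 2 / 4 -
      fderiv ℝ (F G x) ((1 / 2 : ℝ) • p + s • v, p) (0, p)) 0 = 0 := by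
    have h1 : F G x ((1 / 2 : ℝ) • p, p) = ‖p‖ ^ 2 / 8 := by
      have h2 := rho_self hp
      have h3 : rho G x p p = ‖p‖ ^ 2 / 4 + 2 * F G x ((1 / 2 : ℝ) • p, p) := rfl
      rw [h3] at h2; linarith
    have h4 : fderiv ℝ (F G x) ((1 / 2 : ℝ) • p, p) (0, p) = ‖p‖ ^ 2 / 2 := by
      -- `F(s p/2, s p) = s² |p|²/8`
      have hd : DifferentiableAt ℝ (F G x) ((1 / 2 : ℝ) • p, p) :=
        hF2.differentiableAt (by norm_num)
      have h5 := fderiv_F_half hB hp p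
      have h6 := hasDerivAt_line_gen hd (-((1 / 2 : ℝ) • p), -p)
      have h7 : HasDerivWithinAt (fun s : ℝ => (1 - s) ^ 2 * (‖p‖ ^ 2 / 8))
          (-(‖p‖ ^ 2 / 4)) (Ici 0) 0 := by
        have : HasDerivAt (fun s : ℝ => (1 - s) ^ 2 * (‖p‖ ^ 2 / 8))
            ((2 * (1 - 0) ^ 1 * (-1)) * (‖p‖ ^ 2 / 8)) 0 := by
          have h8 : HasDerivAt (fun s : ℝ => 1 - s) (-1) 0 := by
            simpa using (hasDerivAt_id (0 : ℝ)).const_sub 1
          have h9 := (h8.pow 2).mul_const (‖p‖ ^ 2 / 8)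
          simpa using h9
        have e : -(‖p‖ ^ 2 / 4) = (2 * (1 - 0) ^ 1 * (-1)) * (‖p‖ ^ 2 / 8) := by ring
        rw [e]
        exact this.hasDerivWithinAt
      have h10 : HasDerivWithinAt (fun s : ℝ => (1 - s) ^ 2 * (‖p‖ ^ 2 / 8))
          (fderiv ℝ (F G x) ((1 / 2 : ℝ) • p, p) (-((1 / 2 : ℝ) • p), -p)) (Ici 0) 0 := by
        refine h6.hasDerivWithinAt.congr_of_eventuallyEq ?_ ?_
        · have h11 : ∀ᶠ s in 𝓝[Ici 0] (0 : ℝ), s ∈ Icc (0 : ℝ) 1 := by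
            have h12 : Icc (0 : ℝ) 1 ∈ 𝓝[Ici 0] (0 : ℝ) :=
              Icc_mem_nhdsGE (by norm_num)
            exact h12
          filter_upwards [h11] with s hs
          have hK : (1 - s) • p ∈ G.K x := hB.star x p hp _ (by linarith [hs.2]) (by linarith [hs.1])
          have h2 := rho_self hK
          have h3 : rho G x ((1 - s) • p) ((1 - s) • p) = ‖(1 - s) • p‖ ^ 2 / 4 +
            2 * F G x ((1 / 2 : ℝ) • (1 - s) • p, (1 - s) • p) := rfl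
          have e1 : ((1 / 2 : ℝ) • p, p) + s • (-((1 / 2 : ℝ) • p), -p) =
              ((1 / 2 : ℝ) • (1 - s) • p, (1 - s) • p) := by
            ext
            · simp only [Prod.smul_mk, Prod.mk_add_mk]; module
            · simp only [Prod.smul_mk, Prod.mk_add_mk]; module
          rw [e1]
          rw [h3, norm_smul, mul_pow, Real.norm_eq_abs, sq_abs] at h2
          linarith
        · simp only [zero_smul, add_zero, sub_zero, one_pow, one_mul]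
          exact h1.symm
      have h13 := (uniqueDiffWithinAt_Ici (0 : ℝ)).eq_deriv _ h10 h7
      have h14 : ((-((1 / 2 : ℝ) • p), -p) : TangentSpace (𝓡 n) x × TangentSpace (𝓡 n) x) =
          -((1 / 2 : ℝ) • (p, 0)) - (0, p) := by
        simp
      rw [h14, map_sub, map_neg, map_smul, h5, smul_eq_mul, real_inner_self_eq_norm_sq] at h13
      linarith
    have h15 : 2 * F G x ((1 / 2 : ℝ) • p, p) + ‖p‖ ^ 2 / 4 -
        fderiv ℝ (F G x) ((1 / 2 : ℝ) • p, p) (0, p) = 0 := by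
      rw [h1, h4]; ring
    simp only [zero_smul, add_zero]
    exact h15
  have hge : ∀ᶠ s in 𝓝 (0 : ℝ), ((κ / L) ^ 2 * ‖v‖ ^ 2) * s ^ 2 ≤
      2 * F G x ((1 / 2 : ℝ) • p + s • v, p) + ‖p‖ ^ 2 / 4 -
      fderiv ℝ (F G x) ((1 / 2 : ℝ) • p + s • v, p) (0, p) := by
    have hc : ContinuousAt (fun s : ℝ => (1 / 2 : ℝ) • p + s • v) 0 := by fun_prop
    have h1 : ∀ᶠ w in 𝓝 ((1 / 2 : ℝ) • p + (0 : ℝ) • v),
        (dist (G.ex x w) (G.ex x ((1 / 2 : ℝ) • p)) / L) ^ 2 ≤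
          2 * F G x (w, p) + ‖p‖ ^ 2 / 4 - fderiv ℝ (F G x) (w, p) (0, p) := by
      rw [zero_smul, add_zero]; exact hend x p hp
    filter_upwards [hc.eventually h1, hlow x p v hp] with s hs hs'
    refine le_trans ?_ hs
    have e : ((κ / L) ^ 2 * ‖v‖ ^ 2) * s ^ 2 = ((κ * |s| * ‖v‖) / L) ^ 2 := by
      rw [← sq_abs s]; ring
    rw [e]
    apply pow_le_pow_left₀ (by positivity)
    gcongr
  have h := sec_ge hsec h0 hge
  rw [third_symm hF3 (v, 0) (0, p)]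
  linarith

omit [IsContMDiffRiemannianBundle (𝓡 n) ∞ (EuclideanSpace ℝ (Fin n))
    (fun p : M => TangentSpace (𝓡 n) p)] in
/-- `θ`-minimality: `(1-θ)|v|² + θ D_w²F(θp, p)(v,v) ≥ 0` -/
theorem theta_nonneg (hB : Base G) {x : M} {p : TangentSpace (𝓡 n) x} (hp : p ∈ G.K x)
    (v : TangentSpace (𝓡 n) x) {θ : ℝ} (h0 : 0 < θ) (h1 : θ < 1) :
    0 ≤ (1 - θ) * ‖v‖ ^ 2 + θ * hess (F G x) (θ • p, p) (v, 0) (v, 0) := by
  have hF2 : ContDiffAt ℝ 2 (F G x) (θ • p, p) :=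
    contDiffAt_infty.1 (hB.contDiffAt_F_mid hp h0 h1.le) 2
  have hsec := ((sec_norm_sq (θ • p) v).const_mul (1 - θ)).add ((hess_fst hF2 v).const_mul θ)
  refine hsec.nonneg (Eventually.of_forall fun s => ?_)
  have e0 : (1 - θ) * (‖θ • p + (0 : ℝ) • v‖ ^ 2 / 2) + θ * F G x (θ • p + (0 : ℝ) • v, p) =
      θ * (1 - θ) * (‖p‖ ^ 2 / 2) := by
    have h2 := halfDistSq_of_mem_K' hp (s := θ) (t := 1) h0.le h1.le le_rfl
    rw [one_smul] at h2
    have h3 : F G x (θ • p, p) = (1 - θ) ^ 2 * ‖p‖ ^ 2 / 2 := h2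
    rw [zero_smul, add_zero, h3, norm_smul, mul_pow, Real.norm_eq_abs, sq_abs]
    ring
  rw [e0]
  have h3 := halfDistSq_le x (G.ex x (θ • p + s • v)) (G.ex x p) h0 h1
  have h4 := halfDistSq_ex_le (G := G) x (θ • p + s • v)
  rw [halfDistSq_of_mem_K hp] at h3
  have h5 : θ * (1 - θ) * (‖p‖ ^ 2 / 2) ≤ θ * (1 - θ) *
      (θ⁻¹ * halfDistSq x (G.ex x (θ • p + s • v)) +
        (1 - θ)⁻¹ * halfDistSq (G.ex x (θ • p + s • v)) (G.ex x p)) := by
    apply mul_le_mul_of_nonneg_left h3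
    have : 0 < 1 - θ := by linarith
    positivity
  have h6 : θ * (1 - θ) *
      (θ⁻¹ * halfDistSq x (G.ex x (θ • p + s • v)) +
        (1 - θ)⁻¹ * halfDistSq (G.ex x (θ • p + s • v)) (G.ex x p)) =
      (1 - θ) * halfDistSq x (G.ex x (θ • p + s • v)) +
        θ * halfDistSq (G.ex x (θ • p + s • v)) (G.ex x p) := by
    have h7 : 1 - θ ≠ 0 := by linarith
    field_simp
  rw [h6] at h5
  have h8 : (1 - θ) * halfDistSq x (G.ex x (θ • p + s • v)) ≤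
      (1 - θ) * (‖θ • p + s • v‖ ^ 2 / 2) := mul_le_mul_of_nonneg_left h4 (by linarith)
  have h9 : F G x (θ • p + s • v, p) = halfDistSq (G.ex x (θ • p + s • v)) (G.ex x p) := rfl
  rw [h9]
  linarith

omit [IsContMDiffRiemannianBundle (𝓡 n) ∞ (EuclideanSpace ℝ (Fin n))
    (fun p : M => TangentSpace (𝓡 n) p)] in
/-- `DHf(p)[p](v,v)` in terms of the third derivatives of `F` -/
theorem DHf_self (hB : Base G) {x : M} {p : TangentSpace (𝓡 n) x} (hp : p ∈ G.K x)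
    (v : TangentSpace (𝓡 n) x) :
    DHf G x p p v v =
      1 / 4 * fderiv ℝ (fun z => hess (F G x) z (v, 0) (v, 0)) ((1 / 2 : ℝ) • p, p) (p, 0) +
      1 / 2 * fderiv ℝ (fun z => hess (F G x) z (v, 0) (v, 0)) ((1 / 2 : ℝ) • p, p) (0, p) := by
  have hF : ContDiffAt ℝ ∞ (F G x) ((1 / 2 : ℝ) • p, p) := contDiffAt_F_half hB hp
  have hF3 : ContDiffAt ℝ 3 (F G x) ((1 / 2 : ℝ) • p, p) := contDiffAt_infty.1 hF 3
  set Th : TangentSpace (𝓡 n) x × TangentSpace (𝓡 n) x → ℝ :=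
    fun z => hess (F G x) z (v, 0) (v, 0) with hTh
  have hD : DifferentiableAt ℝ Th ((1 / 2 : ℝ) • p, p) := by
    have h1 : ContDiffAt ℝ 2 (fderiv ℝ (F G x)) ((1 / 2 : ℝ) • p, p) :=
      hF3.fderiv_right (by norm_num)
    have h2 : ContDiffAt ℝ 1 (hess (F G x)) ((1 / 2 : ℝ) • p, p) := h1.fderiv_right (by norm_num)
    have h3 : DifferentiableAt ℝ (hess (F G x)) ((1 / 2 : ℝ) • p, p) :=
      h2.differentiableAt (by norm_num)
    exact (h3.clm_apply (differentiableAt_const _)).clm_apply (differentiableAt_const _)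
  have hcp : ContinuousAt (fun q : TangentSpace (𝓡 n) x => ((1 / 2 : ℝ) • q, q)) p := by fun_prop
  have hev : (fun q => Hf G x q v v) =ᶠ[𝓝 p]
      fun q => inner ℝ v v / 2 + Th ((1 / 2 : ℝ) • q, q) / 2 := by
    have h1 : ∀ᶠ z in 𝓝 (((1 / 2 : ℝ) • p, p) : TangentSpace (𝓡 n) x × TangentSpace (𝓡 n) x),
        ContDiffAt ℝ 2 (F G x) z :=
      (contDiffAt_infty.1 hF 2).eventually (by simp)
    filter_upwards [hcp.eventually h1] with q hq
    exact HfA_apply hq v v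
  unfold DHf
  rw [hev.fderiv_eq]
  have hL : HasFDerivAt (fun q : TangentSpace (𝓡 n) x => Lh (TangentSpace (𝓡 n) x) q)
      (Lh (TangentSpace (𝓡 n) x)) p := (Lh (TangentSpace (𝓡 n) x)).hasFDerivAt
  have hD' : HasFDerivAt Th (fderiv ℝ Th ((1 / 2 : ℝ) • p, p)) (Lh (TangentSpace (𝓡 n) x) p) :=
    hD.hasFDerivAt
  have h4 : HasFDerivAt (fun q => Th ((1 / 2 : ℝ) • q, q))
      ((fderiv ℝ Th ((1 / 2 : ℝ) • p, p)).comp (Lh (TangentSpace (𝓡 n) x))) p := hD'.comp p hL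
  have h5 : HasFDerivAt (fun q => inner ℝ v v / 2 + Th ((1 / 2 : ℝ) • q, q) / 2)
      ((1 / 2 : ℝ) • ((fderiv ℝ Th ((1 / 2 : ℝ) • p, p)).comp (Lh (TangentSpace (𝓡 n) x)))) p := by
    have h6 := (h4.const_smul (1 / 2 : ℝ)).const_add (inner ℝ v v / 2)
    refine h6.congr_of_eventuallyEq (Eventually.of_forall fun q => ?_)
    show inner ℝ v v / 2 + Th ((1 / 2 : ℝ) • q, q) / 2 =
      inner ℝ v v / 2 + (1 / 2 : ℝ) • Th ((1 / 2 : ℝ) • q, q)
    rw [smul_eq_mul]; ring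
  rw [h5.fderiv]
  have e : ((1 / 2 : ℝ) • ((fderiv ℝ Th ((1 / 2 : ℝ) • p, p)).comp
      (Lh (TangentSpace (𝓡 n) x)))) p = 1 / 2 * fderiv ℝ Th ((1 / 2 : ℝ) • p, p)
        ((1 / 2 : ℝ) • p, p) := rfl
  rw [e]
  have e2 : (((1 / 2 : ℝ) • p, p) : TangentSpace (𝓡 n) x × TangentSpace (𝓡 n) x) =
      (1 / 2 : ℝ) • (p, 0) + (0, p) := by simp
  have e3 : fderiv ℝ Th ((1 / 2 : ℝ) • p, p) ((1 / 2 : ℝ) • p, p) =
      1 / 2 * fderiv ℝ Th ((1 / 2 : ℝ) • p, p) (p, 0) +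
        fderiv ℝ Th ((1 / 2 : ℝ) • p, p) (0, p) := by
    conv_lhs => rw [show ((fderiv ℝ Th ((1 / 2 : ℝ) • p, p)) ((1 / 2 : ℝ) • p, p)) =
      (fderiv ℝ Th ((1 / 2 : ℝ) • p, p)) ((1 / 2 : ℝ) • (p, 0) + (0, p)) from by rw [← e2]]
    rw [map_add, map_smul, smul_eq_mul]
  rw [e3]; ring

/-- **(D2)** (`RadP`): `DHf(p)[p](v,v) ≤ -c|v|² + C Hf(p)(v,v)` for `p ∈ K(x)`, uniformly. -/
theorem depth_D2 [CompactSpace M] [IsRiemannianManifold (𝓡 n) M] (hB : Base G) :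
    ∃ c : ℝ, 0 < c ∧ ∃ C : ℝ, 0 ≤ C ∧ ∀ x : M, ∀ p ∈ G.K x, ∀ v : TangentSpace (𝓡 n) x,
      DHf G x p p v v ≤ -(c * ‖v‖ ^ 2) + C * Hf G x p v v := by
  obtain ⟨c₀, hc₀, hbeta⟩ := beta_bound hB
  obtain ⟨δ, B, hδ, hB0, hF⟩ := unif_F hB 4
  obtain ⟨D, hD1, hD⟩ : ∃ D : ℝ, 1 ≤ D ∧ ∀ a b : M, dist a b ≤ D := by
    have hbd : Bornology.IsBounded (univ : Set M) := isCompact_univ.isBounded
    refine ⟨max 1 (Metric.diam (univ : Set M)), le_max_left _ _, fun a b => ?_⟩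
    exact (Metric.dist_le_diam_of_mem hbd (mem_univ a) (mem_univ b)).trans (le_max_right _ _)
  obtain ⟨τ, hτ, hτ4, hτδ, hτc⟩ : ∃ τ : ℝ, 0 < τ ∧ τ ≤ 1 / 4 ∧ τ * D < δ ∧
      (4 + B * D ^ 2 / 4) * τ ≤ c₀ / 2 := by
    refine ⟨min (1 / 4) (min (δ / (2 * D)) (c₀ / (2 * (4 + B * D ^ 2 / 4)))), by positivity,
      min_le_left _ _, ?_, ?_⟩
    · calc _ ≤ (δ / (2 * D)) * D := by
            gcongr; exact (min_le_right _ _).trans (min_le_left _ _)
        _ = δ / 2 := by field_simp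
        _ < δ := by linarith
    · calc _ ≤ (4 + B * D ^ 2 / 4) * (c₀ / (2 * (4 + B * D ^ 2 / 4))) := by
            gcongr; exact (min_le_right _ _).trans (min_le_right _ _)
        _ = c₀ / 2 := by field_simp
  refine ⟨c₀ / 2, by positivity, 2 + 1 / (2 * τ), by positivity, fun x p hp v => ?_⟩
  have hpD : ‖p‖ ≤ D := by
    have : dist x (G.ex x p) = ‖p‖ := hp
    rw [← this]; exact hD _ _
  set Th : TangentSpace (𝓡 n) x × TangentSpace (𝓡 n) x → ℝ :=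
    fun z => hess (F G x) z (v, 0) (v, 0) with hTh
  set T : ℝ → ℝ := fun σ => hess (F G x)
    (((1 / 2 : ℝ) • p, p) + σ • (p, (0 : TangentSpace (𝓡 n) x))) (v, 0) (v, 0) with hT
  have hpt : ∀ σ : ℝ, ((1 / 2 : ℝ) • p, p) + σ • (p, (0 : TangentSpace (𝓡 n) x)) =
      ((1 / 2 + σ) • p, p) := by
    intro σ
    simp only [Prod.smul_mk, smul_zero, Prod.mk_add_mk, add_zero, add_smul]
  have hTb : ∀ σ ∈ Icc (-τ) 0, ContDiffAt ℝ 2 T σ ∧
      |iteratedDeriv 2 T σ| ≤ B * D ^ 2 * ‖v‖ ^ 2 := by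
    intro σ hσ
    have h1 : ‖(1 / 2 + σ) • p - (1 / 2 : ℝ) • p‖ < δ := by
      have e : (1 / 2 + σ) • p - (1 / 2 : ℝ) • p = σ • p := by module
      rw [e, norm_smul, Real.norm_eq_abs, abs_of_nonpos hσ.2]
      calc -σ * ‖p‖ ≤ τ * D := by
            apply mul_le_mul _ hpD (norm_nonneg _) hτ.le
            linarith [hσ.1]
        _ < δ := hτδ
    obtain ⟨h2, h3⟩ := hF x p ((1 / 2 + σ) • p) p hp h1 (by rw [sub_self, norm_zero]; exact hδ)
    rw [← hpt] at h2 h3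
    obtain ⟨h4, h5⟩ := hess_line_bound h2 h3 (v, (0 : TangentSpace (𝓡 n) x))
    refine ⟨h4, h5.trans ?_⟩
    have e1 : ‖(v, (0 : TangentSpace (𝓡 n) x))‖ = ‖v‖ := by
      rw [Prod.norm_mk, norm_zero]; exact max_eq_left (norm_nonneg _)
    have e2 : ‖(p, (0 : TangentSpace (𝓡 n) x))‖ = ‖p‖ := by
      rw [Prod.norm_mk, norm_zero]; exact max_eq_left (norm_nonneg _)
    rw [e1, e2]
    have h6 : ‖p‖ ^ 2 ≤ D ^ 2 := pow_le_pow_left₀ (norm_nonneg _) hpD 2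
    calc B * ‖v‖ * ‖v‖ * ‖p‖ ^ 2 ≤ B * ‖v‖ * ‖v‖ * D ^ 2 := by gcongr
      _ = _ := by ring
  have hHf := Hf_apply hB hp v v
  rw [real_inner_self_eq_norm_sq] at hHf
  have hT0 : T 0 = 2 * Hf G x p v v - ‖v‖ ^ 2 := by
    have : T 0 = hess (F G x) ((1 / 2 : ℝ) • p, p) (v, 0) (v, 0) := by
      simp only [hT]; rw [zero_smul, add_zero]
    rw [this, hHf]; ring
  have hpos : 0 ≤ (1 / 2 + τ) * ‖v‖ ^ 2 + (1 / 2 - τ) * T (-τ) := by
    have h1 := theta_nonneg hB hp v (θ := 1 / 2 - τ) (by linarith) (by linarith)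
    have e : T (-τ) = hess (F G x) ((1 / 2 - τ) • p, p) (v, 0) (v, 0) := by
      simp only [hT]; rw [hpt]; rfl
    rw [e]
    have e2 : 1 - (1 / 2 - τ) = 1 / 2 + τ := by ring
    rw [e2] at h1
    exact h1
  have hstep := theta_step hτ hτ4 (by positivity : (0 : ℝ) ≤ ‖v‖ ^ 2) (Hf_nonneg hB hp v)
    (fun s hs => (hTb s hs).1) (fun s hs => (hTb s hs).2) hT0 hpos
  -- `deriv T 0`
  have hTd : deriv T 0 = fderiv ℝ Th ((1 / 2 : ℝ) • p, p) (p, 0) := by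
    have hF3 : ContDiffAt ℝ 3 (F G x) ((1 / 2 : ℝ) • p, p) :=
      contDiffAt_infty.1 (contDiffAt_F_half hB hp) 3
    have hD : DifferentiableAt ℝ Th ((1 / 2 : ℝ) • p, p) := by
      have h1 : ContDiffAt ℝ 2 (fderiv ℝ (F G x)) ((1 / 2 : ℝ) • p, p) :=
        hF3.fderiv_right (by norm_num)
      have h2 : ContDiffAt ℝ 1 (hess (F G x)) ((1 / 2 : ℝ) • p, p) :=
        h1.fderiv_right (by norm_num)
      have h3 : DifferentiableAt ℝ (hess (F G x)) ((1 / 2 : ℝ) • p, p) :=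
        h2.differentiableAt (by norm_num)
      exact (h3.clm_apply (differentiableAt_const _)).clm_apply (differentiableAt_const _)
    exact (hasDerivAt_line_gen hD (p, (0 : TangentSpace (𝓡 n) x))).deriv
  have hb := hbeta x p v hp
  have hself := DHf_self hB hp v
  rw [← hTh] at hb hself
  rw [← hTd] at hself
  have e3 : hess (F G x) ((1 / 2 : ℝ) • p, p) (v, 0) (v, 0) = 2 * Hf G x p v v - ‖v‖ ^ 2 := by
    rw [hHf]; ring
  rw [e3] at hb
  rw [hself]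
  have h7 : 2 * Hf G x p v v / τ = 4 * (1 / (2 * τ) * Hf G x p v v) := by
    field_simp; ring
  rw [h7] at hstep
  have h8 : (4 + B * D ^ 2 / 4) * τ * ‖v‖ ^ 2 ≤ c₀ / 2 * ‖v‖ ^ 2 := by gcongr
  nlinarith [hstep, hb, h8]

/-- lower bound of `Hf` on `½ K` -/
theorem depth_half [CompactSpace M] (hB : Base G) :
    ∃ c : ℝ, 0 < c ∧ ∀ x : M, ∀ p ∈ G.K x, ∀ s : ℝ, 0 ≤ s → s ≤ 1 / 2 →
      ∀ v : TangentSpace (𝓡 n) x, c * ‖v‖ ^ 2 ≤ Hf G x (s • p) v v := by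
  obtain ⟨B, hB0, hphi⟩ := unif_phi_bdd hB (θ := 1 / 2) (by norm_num) (by norm_num)
  refine ⟨1 / (3 * (B + 1)), by positivity, fun x p hp s h0 h1 v => ?_⟩
  have hqI : s • p ∈ G.I x := hB.smul_mem_I hp h0 (by linarith)
  have hK1 : (2 * s) • p ∈ G.K x := hB.star x p hp _ (by linarith) (by linarith)
  have hK2 : s • p ∈ G.K x := hB.star x p hp _ h0 (by linarith)
  set l : ℝ := 2 / (3 * (B + 1)) with hl
  have h2 := phi_le_Hf hB hqI (l • v) v
  have h3 := hphi x ((2 * s) • p) (l • v) hK1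
  have h4 := hphi x (s • p) (l • v) hK2
  have e1 : (1 / 2 : ℝ) • (2 * s) • p = s • p := by rw [smul_smul]; congr 1; ring
  rw [e1] at h3
  rw [real_inner_smul_right, real_inner_self_eq_norm_sq] at h2
  rw [norm_smul, mul_pow, Real.norm_eq_abs, sq_abs] at h3 h4
  have h5 := neg_le_of_abs_le h3
  have h6 := (le_abs_self _).trans h4
  have h7 : 4 * (l * ‖v‖ ^ 2) - 3 * (B * (l ^ 2 * ‖v‖ ^ 2)) ≤ 4 * Hf G x (s • p) v v := by
    linarith
  have h8 : 4 * (1 / (3 * (B + 1)) * ‖v‖ ^ 2) ≤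
      4 * (l * ‖v‖ ^ 2) - 3 * (B * (l ^ 2 * ‖v‖ ^ 2)) := by
    have h9 : 4 * (l * ‖v‖ ^ 2) - 3 * ((B + 1) * (l ^ 2 * ‖v‖ ^ 2)) =
        4 * (1 / (3 * (B + 1)) * ‖v‖ ^ 2) := by
      rw [hl]; field_simp; ring
    have h10 : 0 ≤ l ^ 2 * ‖v‖ ^ 2 := by positivity
    nlinarith
  linarith

/-- **(D1)**: `Hf(s p)(v,v) ≥ c (1-s)|v|²`, `p ∈ K(x)`, `0 ≤ s ≤ 1`, uniformly. -/
theorem depth_D1 [CompactSpace M] [IsRiemannianManifold (𝓡 n) M] (hB : Base G) :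
    ∃ c : ℝ, 0 < c ∧ ∀ x : M, ∀ p ∈ G.K x, ∀ s : ℝ, 0 ≤ s → s ≤ 1 →
      ∀ v : TangentSpace (𝓡 n) x, c * (1 - s) * ‖v‖ ^ 2 ≤ Hf G x (s • p) v v := by
  obtain ⟨c, hc, C, hC, h2⟩ := depth_D2 hB
  obtain ⟨c', hc', h3⟩ := depth_half hB
  refine ⟨min c' (c * Real.exp (-(2 * C))), by positivity, fun x p hp s h0 h1 v => ?_⟩
  rcases le_total s (1 / 2) with hs | hs
  · refine le_trans ?_ (h3 x p hp s h0 hs v)
    have h4 : min c' (c * Real.exp (-(2 * C))) ≤ c' := min_le_left _ _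
    have h5 : 1 - s ≤ 1 := by linarith
    have h6 : min c' (c * Real.exp (-(2 * C))) * (1 - s) ≤ c' * 1 :=
      mul_le_mul h4 h5 (by linarith) hc'.le
    rw [mul_one] at h6
    gcongr
  · -- the function `g s = Hf (s p) v v`
    have hK : ∀ s ∈ Icc (1 / 2 : ℝ) 1, s • p ∈ G.K x := fun s hs =>
      hB.star x p hp s (by linarith [hs.1]) hs.2
    have hder : ∀ s ∈ Icc (1 / 2 : ℝ) 1, HasDerivAt (fun s : ℝ => Hf G x (s • p) v v)
        (DHf G x (s • p) p v v) s := by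
      intro s hs
      have h4 := (differentiableAt_Hf_apply hB (hK s hs) v v).hasFDerivAt
      have h5 : HasDerivAt (fun s : ℝ => s • p) p s := by
        simpa using (hasDerivAt_id s).smul_const p
      exact h4.comp_hasDerivAt s h5
    have hg : ∀ s ∈ Icc (1 / 2 : ℝ) 1, deriv (fun s : ℝ => Hf G x (s • p) v v) s ≤
        -(c * ‖v‖ ^ 2) + (2 * C) * Hf G x (s • p) v v := by
      intro s hs
      rw [(hder s hs).deriv]
      have h4 := h2 x (s • p) (hK s hs) v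
      have hs0 : 0 < s := by linarith [hs.1]
      have e : DHf G x (s • p) (s • p) v v = s * DHf G x (s • p) p v v := by
        unfold DHf; rw [map_smul, smul_eq_mul]
      rw [e] at h4
      have hnn := Hf_nonneg hB (hK s hs) v
      -- `s D ≤ -c V + C g`, `s ∈ [1/2, 1]`
      by_contra hcon
      push Not at hcon
      have h5 : s * (-(c * ‖v‖ ^ 2) + (2 * C) * Hf G x (s • p) v v) < s * DHf G x (s • p) p v v :=
        mul_lt_mul_of_pos_left hcon hs0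
      have h6 : 0 ≤ (1 - s) * (c * ‖v‖ ^ 2) := by
        have : 0 ≤ 1 - s := by linarith [hs.2]
        positivity
      have h7 : 0 ≤ (2 * s - 1) * (C * Hf G x (s • p) v v) := by
        have : 0 ≤ 2 * s - 1 := by linarith [hs.1]
        positivity
      nlinarith
    have h1' : (0 : ℝ) ≤ Hf G x ((1 : ℝ) • p) v v := Hf_nonneg hB (hK 1 ⟨by norm_num, le_rfl⟩) v
    have h8 := gronwall_lower (c := c * ‖v‖ ^ 2) (C := 2 * C) (by positivity) (by positivity)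
      (fun s hs => (hder s hs).differentiableAt) hg h1' ⟨hs, h1⟩
    refine le_trans ?_ h8
    have h9 : min c' (c * Real.exp (-(2 * C))) ≤ c * Real.exp (-(2 * C)) := min_le_right _ _
    have h10 : 0 ≤ (1 - s) * ‖v‖ ^ 2 := by
      have : 0 ≤ 1 - s := by linarith
      positivity
    calc min c' (c * Real.exp (-(2 * C))) * (1 - s) * ‖v‖ ^ 2
        = min c' (c * Real.exp (-(2 * C))) * ((1 - s) * ‖v‖ ^ 2) := by ring
      _ ≤ c * Real.exp (-(2 * C)) * ((1 - s) * ‖v‖ ^ 2) := by gcongr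
      _ = _ := by ring

end Crest.Agent.R226.Depth946
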