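/-
R226 / leaf (E) of the pair scheme (10312/10436/10578), helper486: contacts of the points
`p' = (1-τ) p_b + τ p_F` of an outward chord `p_b → p_F` of `K(x₁)`.
* `contact_sees`  (E1): `τ² D(x',y_F) ≤ H + ε` (exact, (Fam) on the three velocities);
* `contact_top`   (E2): `(1-t)⁴ (s (u(x')-u(x₁)) - h - ε) ≤ H₁ + ε` (slope law, weight of `p*` is `1-t`);
* `contact_height`(E3): level of `x'` in the column `y_F`.
-/
import Crest.Agent.R226.YStar_544

set_option autoImplicit false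
set_option linter.unusedSectionVars false

open MeasureTheory Bundle Set Filter
open scoped Manifold ContDiff Bundle ENNReal Topology
open Crest.GeometryTopology.MTW

namespace Crest.Agent.R226.EContact486

open Crest.Agent.R226 Crest.Agent.R226.Kant624 Crest.Agent.R226.E1Shape964
  Crest.Agent.R226.Dasm290 Crest.Agent.R226.Osc977 Crest.Agent.R226.Far977
  Crest.Agent.R226.YStar544

variable {n : ℕ} {M : Type*} [MetricSpace M] [ChartedSpace (EuclideanSpace ℝ (Fin n)) M]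
  [IsManifold (𝓡 n) ∞ M]
  [RiemannianBundle (fun p : M => TangentSpace (𝓡 n) p)]
  [CompactSpace M] {G : GeoData n M}

/-- membership of `K(x₁)`-velocities in the `y`-section of `x₁`, in terms of the gap of `u`. -/
theorem mem_QS_ctr {u : M → ℝ} (hu : CConv u) {x1 : M} {p : TangentSpace (𝓡 n) x1} {H : ℝ} :
    p ∈ QS G (ctr u) x1 H ↔ p ∈ G.K x1 ∧ Dd u x1 (G.ex x1 p) ≤ H := by
  unfold QS
  show p ∈ G.K x1 ∧ Dd (ctr u) (G.ex x1 p) x1 ≤ H ↔ _
  rw [Dd_ctr hu]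

/-- the row sections of `x₁`, read in `K(x₁)`, are convex. -/
theorem convex_row (hg : GoodAll G) {u : M → ℝ} (hu : CConv u) (x1 : M) (H : ℝ) :
    Convex ℝ {p : TangentSpace (𝓡 n) x1 | p ∈ G.K x1 ∧ Dd u x1 (G.ex x1 p) ≤ H} := by
  have h1 := convex_QS hg (CConv_ctr (CConv.continuous hu)) x1 H
  have h2 : {p : TangentSpace (𝓡 n) x1 | p ∈ G.K x1 ∧ Dd u x1 (G.ex x1 p) ≤ H} =
      QS G (ctr u) x1 H := by
    ext p
    exact (mem_QS_ctr hu).symm
  rw [h2]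
  exact h1

/-- **(E1)** near-contacts `x'` of a point of an outward chord `p_b → p_F` see `y_F = exp p_F`. -/
theorem contact_sees (hg : GoodAll G) {u : M → ℝ} (hu : CConv u) {x1 x' : M}
    {pb pF : TangentSpace (𝓡 n) x1} (hpb : pb ∈ G.K x1) (hpF : pF ∈ G.K x1) {H ε τ : ℝ}
    (hH : 0 < H) (hε : 0 ≤ ε)
    (hDb : Dd u x1 (G.ex x1 pb) ≤ H) (hDF : Dd u x1 (G.ex x1 pF) ≤ H)
    (hout : 0 ≤ inner ℝ pb (pF - pb)) (hτ0 : 0 < τ) (hτ1 : τ ≤ 1)
    (hx : Dd u x' (G.ex x1 (pb + τ • (pF - pb))) ≤ ε) :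
    τ ^ 2 * Dd u x' (G.ex x1 pF) ≤ H + ε := by
  have huc := CConv.continuous hu
  have hτ2 : τ ^ 2 ≤ 1 := by nlinarith
  have hτ2' : 0 < τ ^ 2 := by positivity
  have hmem : pb + τ • (pF - pb) ∈ G.K x1 :=
    (convex_K hg x1).add_smul_sub_mem hpb hpF ⟨hτ0.le, hτ1⟩
  rcases eq_or_ne pF pb with hEq | hne
  · have h1 : pb + τ • (pF - pb) = pF := by rw [hEq]; simp
    rw [h1] at hx
    have h2 := Dd_nonneg huc x' (G.ex x1 pF)
    have h3 : τ ^ 2 * Dd u x' (G.ex x1 pF) ≤ 1 * Dd u x' (G.ex x1 pF) :=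
      mul_le_mul_of_nonneg_right hτ2 h2
    linarith
  have hcomb : (1 - τ) • pb + τ • pF = pb + τ • (pF - pb) := by
    rw [sub_smul, one_smul, smul_sub]; abel
  set D : TangentSpace (𝓡 n) x1 := pF - pb with hD
  set g : ℝ := inner ℝ pb D with hg'
  have hDpos : 0 < ‖D‖ ^ 2 := by
    have : 0 < ‖D‖ := norm_pos_iff.2 (sub_ne_zero.2 hne)
    positivity
  have hnorm : ∀ t : ℝ, ‖pb + t • D‖ ^ 2 / 2 = ‖pb‖ ^ 2 / 2 + t * g + t ^ 2 * ‖D‖ ^ 2 / 2 := by
    intro t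
    rw [norm_add_sq_real, inner_smul_right, norm_smul, mul_pow, Real.norm_eq_abs, sq_abs]
    ring
  have hpF' : pF = pb + (1 : ℝ) • D := by rw [one_smul, hD]; abel
  have e0 := Fq_eq (u := u) (x := x') hpb
  have e1 := Fq_eq (u := u) (x := x') hpF
  have et := Fq_eq (u := u) (x := x') hmem
  have n0 := Dd_nonneg huc x' (G.ex x1 pb)
  have n1 := Dd_nonneg huc x1 (G.ex x1 (pb + τ • D))
  have key := fam_bound hg (y0 := x1) x' (H := H + ε) (r := τ * g + τ ^ 2 * ‖D‖ ^ 2 / 2)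
    (N := (1 - τ ^ 2) / τ ^ 2) (by linarith)
    (by
      have : 0 ≤ τ * g := mul_nonneg hτ0.le hout
      have : 0 < τ ^ 2 * ‖D‖ ^ 2 / 2 := by positivity
      linarith)
    (div_nonneg (by linarith) hτ2'.le) hpb hpF (a := 1 - τ) (b := τ) (by linarith) hτ0.le
    (by ring) (by rw [hcomb]; linarith)
    (by rw [hcomb, hnorm]; linarith)
    (by
      rw [hcomb, hnorm]
      have h1 : ‖pF‖ ^ 2 / 2 = ‖pb‖ ^ 2 / 2 + g + ‖D‖ ^ 2 / 2 := by
        have h2 := hnorm 1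
        rw [← hpF'] at h2
        rw [h2]; ring
      rw [h1]
      have h3 : (1 - τ ^ 2) / τ ^ 2 * (τ * g + τ ^ 2 * ‖D‖ ^ 2 / 2) =
          (1 - τ ^ 2) / τ * g + (1 - τ ^ 2) * ‖D‖ ^ 2 / 2 := by
        field_simp
      rw [h3]
      have h4 : (1 - τ) * g ≤ (1 - τ ^ 2) / τ * g := by
        refine mul_le_mul_of_nonneg_right ?_ hout
        rw [le_div_iff₀ hτ0]
        nlinarith
      nlinarith)
  rw [hcomb] at key
  have h5 : Dd u x' (G.ex x1 pF) ≤ (1 - τ ^ 2) / τ ^ 2 * (H + ε) + (H + ε) := by linarith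
  calc τ ^ 2 * Dd u x' (G.ex x1 pF)
      ≤ τ ^ 2 * ((1 - τ ^ 2) / τ ^ 2 * (H + ε) + (H + ε)) :=
        mul_le_mul_of_nonneg_left h5 hτ2'.le
    _ = H + ε := by field_simp; ring

/-- **(E1)** for contacts. -/
theorem contact_sees' (hg : GoodAll G) {u : M → ℝ} (hu : CConv u) {x1 x' : M}
    {pb pF : TangentSpace (𝓡 n) x1} (hpb : pb ∈ G.K x1) (hpF : pF ∈ G.K x1) {H τ : ℝ}
    (hH : 0 < H)
    (hDb : Dd u x1 (G.ex x1 pb) ≤ H) (hDF : Dd u x1 (G.ex x1 pF) ≤ H)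
    (hout : 0 ≤ inner ℝ pb (pF - pb)) (hτ0 : 0 < τ) (hτ1 : τ ≤ 1)
    (hx : G.ex x1 (pb + τ • (pF - pb)) ∈ cSub u x') :
    Dd u x' (G.ex x1 pF) ≤ H / τ ^ 2 := by
  have h1 := contact_sees hg hu hpb hpF hH le_rfl hDb hDF hout hτ0 hτ1
    ((Dd_eq_zero (CConv.continuous hu)).2 hx).le
  rw [add_zero] at h1
  rw [le_div_iff₀ (by positivity)]
  linarith

/-- **(E2)** near-contacts `x'` of the point `p' = p* + α (p_F - p*) + β (p - p*)`, `α + β ≤ t`, are
at top level. -/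
theorem contact_top (hg : GoodAll G) (hS : SlopeLaw G) {u : M → ℝ} (hu : CConv u) {x1 x' : M}
    {ps p pF : TangentSpace (𝓡 n) x1} (hps : ps ∈ G.K x1) (hp : p ∈ G.K x1) (hpF : pF ∈ G.K x1)
    {α β t s h H1 ε : ℝ} (hα : 0 ≤ α) (hβ : 0 ≤ β) (hαβ : α + β ≤ t) (ht1 : t ≤ 1)
    (hs0 : 0 ≤ s) (hs1 : s ≤ 1) (hh : 0 ≤ h) (hε : 0 ≤ ε)
    (hstar : Dd u x1 (G.ex x1 ps) + s * (u x' - u x1) - h ≤ Dd u x' (G.ex x1 ps))
    (hDs : Dd u x1 (G.ex x1 ps) ≤ H1) (hDp : Dd u x1 (G.ex x1 p) ≤ H1)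
    (hDF : Dd u x1 (G.ex x1 pF) ≤ H1)
    (hx : Dd u x' (G.ex x1 (ps + α • (pF - ps) + β • (p - ps))) ≤ ε) :
    (1 - t) ^ 4 * (s * (u x' - u x1) - h - ε) ≤ H1 + ε := by
  have ht0 : 0 ≤ t := by linarith
  rcases ht0.eq_or_lt with h0 | h0
  · have hα0 : α = 0 := by linarith
    have hβ0 : β = 0 := by linarith
    rw [hα0, hβ0, zero_smul, zero_smul, add_zero, add_zero] at hx
    refine toplevel hg hS hu hps hp ht0 ht1 hs0 hs1 hh hε hstar hDp ?_
    rw [← h0, zero_smul, add_zero]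
    exact hx
  · set pe : TangentSpace (𝓡 n) x1 :=
      (1 - (α + β) / t) • ps + (α / t) • pF + (β / t) • p with hpe
    have hd : (α + β) / t ≤ 1 := by rw [div_le_one h0]; exact hαβ
    have hmem : pe ∈ {p : TangentSpace (𝓡 n) x1 | p ∈ G.K x1 ∧ Dd u x1 (G.ex x1 p) ≤ H1} := by
      have hcv := convex_row hg hu x1 H1 (G := G)
      have hsum := hcv.sum_mem (t := Finset.univ) (w := ![1 - (α + β) / t, α / t, β / t])
        (z := ![ps, pF, p]) ?_ ?_ ?_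
      · simpa [Fin.sum_univ_three, hpe] using hsum
      · intro i _
        fin_cases i
        · simpa using hd
        · exact div_nonneg hα h0.le
        · exact div_nonneg hβ h0.le
      · simp [Fin.sum_univ_three]
        field_simp
        ring
      · intro i _
        fin_cases i
        · exact ⟨hps, hDs⟩
        · exact ⟨hpF, hDF⟩
        · exact ⟨hp, hDp⟩
    refine toplevel hg hS hu hps hmem.1 ht0 ht1 hs0 hs1 hh hε hstar hmem.2 ?_
    have hpt : ps + t • (pe - ps) = ps + α • (pF - ps) + β • (p - ps) := by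
      have h1 : t * ((α + β) / t) = α + β := by field_simp
      have h2 : t * (α / t) = α := by field_simp
      have h3 : t * (β / t) = β := by field_simp
      have h4 : t • (pe - ps) = (-(t * ((α + β) / t))) • ps + (t * (α / t)) • pF +
          (t * (β / t)) • p := by
        rw [hpe]; module
      rw [h4, h1, h2, h3]
      module
    rw [hpt]
    exact hx

/-- **(E2)**, solved for the level: `u(x') ≤ u(x₁) + C δ a`, `s = H/(δ a)`. -/
theorem contact_top' {b t s h H1 ε : ℝ} (ht1 : t < 1) (hs0 : 0 < s)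
    (h1 : (1 - t) ^ 4 * (s * b - h - ε) ≤ H1 + ε) :
    b ≤ ((H1 + ε) / (1 - t) ^ 4 + h + ε) / s := by
  have h2 : 0 < (1 - t) ^ 4 := by
    have : 0 < 1 - t := by linarith
    positivity
  have h3 : s * b - h - ε ≤ (H1 + ε) / (1 - t) ^ 4 := by
    rw [le_div_iff₀ h2]; linarith
  rw [le_div_iff₀ hs0]
  linarith

/-- **(E3)** the level of `x'` in the column `y_F`, compared with a point `x₀` of the column. -/
theorem contact_height (u : M → ℝ) (x0 x' yF : M) :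
    halfDistSq x' yF - halfDistSq x0 yF = (u x0 - u x') + Dd u x' yF - Dd u x0 yF := by
  unfold Dd
  ring

/-- **(E3)**, with the nearest velocity `q_N` of the section `Q_H(y_F) ∋ x₀`. -/
theorem contact_height_vel {u : M → ℝ} {x0 yF : M} {H : ℝ}
    {qN q : TangentSpace (𝓡 n) yF} (hN : ∀ w ∈ QS G u yF H, ‖qN‖ ≤ ‖w‖)
    (h0 : Dd u x0 yF ≤ H) (hq : q ∈ G.K yF) {B : ℝ} (hB : u (G.ex yF q) ≤ B)
    (hDq : 0 ≤ Dd u (G.ex yF q) yF) :
    u x0 - B - H ≤ ‖q‖ ^ 2 / 2 - ‖qN‖ ^ 2 / 2 := by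
  obtain ⟨q0, hq0, hq0x⟩ := exists_mem_QS G h0
  have h1 := hN q0 hq0
  have h2 : ‖qN‖ ^ 2 ≤ ‖q0‖ ^ 2 := by gcongr
  have h3 := halfDistSq_ex' hq0.1
  have h4 := halfDistSq_ex' hq
  rw [hq0x] at h3
  have h5 := contact_height u x0 (G.ex yF q) yF
  rw [h3, h4] at h5
  linarith

end Crest.Agent.R226.EContact486
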