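/-
R226 / S0350, stream E1, task E1.9 (helper762): interface of the growth claim (docs 848, Theorem 3).

Intended meaning, for a fixed c-convex potential `u` with `φ = u^c` :
* `D x y  = u x + φ y + c(x,y)`,
* `X z`, `Y z` : the contact pair whose (unique) minimising geodesic has midpoint `z`,
* `DX x z = u x + 2 c(x,z) - θ z`, `DY z y = φ y + 2 c(z,y) + θ z`,
* `ell z₁ z₂ z = ⟪w, log_{z₁} z⟫` with `w` the unit vector at `z₁` pointing to `z₂`.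
-/
import Mathlib.Analysis.Normed.Group.Basic
import Mathlib.Topology.MetricSpace.Basic

set_option autoImplicit false

namespace Crest.Agent.R226.Growth762

/-- The hypotheses of the growth claim.  All of them are symmetric under the exchange
`u ↔ u^c`, see `GD.swap`. -/
structure GD {M : Type*} [MetricSpace M] (K0 Λ C r μ0 : ℝ) (ω : ℝ → ℝ)
    (X Y : M → M) (D DX DY : M → M → ℝ) (ell : M → M → M → ℝ) : Prop where
  D_nn : ∀ x y, 0 ≤ D x y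
  DX_nn : ∀ x z, 0 ≤ DX x z
  DY_nn : ∀ z y, 0 ≤ DY z y
  DX_self : ∀ z, DX (X z) z = 0
  DY_self : ∀ z, DY z (Y z) = 0
  surjX : ∀ x, ∃ z, X z = x
  surjY : ∀ y, ∃ z, Y z = y
  D_le : ∀ x z y, D x y ≤ DX x z + DY z y
  mid : ∀ x y, ∃ z, DX x z + DY z y = D x y
  engulf : ∀ x y x' y0, D x y ≤ K0 * max (D x y0) (max (D x' y0) (D x' y))
  lipD1 : ∀ x x' y, |D x y - D x' y| ≤ Λ * dist x x'
  lipD2 : ∀ x y y', |D x y - D x y'| ≤ Λ * dist y y'
  lipDX : ∀ x x' z, |DX x z - DX x' z| ≤ Λ * dist x x'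
  lipDY : ∀ z y y', |DY z y - DY z y'| ≤ Λ * dist y y'
  bdd : ∀ z z' : M, dist z z' ≤ Λ
  /-- uniform modulus (E1.6) -/
  modulus : ∀ ε, 0 < ε → ∀ z z', D (X z) (Y z') ≤ ω ε → dist z z' ≤ ε
  /-- quadratic upper bound (E1.7) -/
  low : ∀ t, 0 < t → t ≤ r → ∃ z z', t ≤ dist z z' ∧ D (X z) (Y z') ≤ C * t ^ 2
  ell_le : ∀ z1 z2 z, z1 ≠ z2 → dist z1 z2 ≤ r → dist z z1 ≤ r → |ell z1 z2 z| ≤ dist z z1
  geo1 : ∀ z1 z2 z, z1 ≠ z2 → dist z1 z2 ≤ r → dist z z1 ≤ r →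
    dist z1 z2 - ell z1 z2 z ≤ dist z z2 + C * (dist z z1 + dist z1 z2) ^ 2
  geo2 : ∀ z1 z2 z, z1 ≠ z2 → dist z1 z2 ≤ r → dist z z1 ≤ r → dist z z2 ≤ r →
    dist z1 z2 ≤ ell z1 z2 z + ell z2 z1 z + C * (dist z z1 + dist z1 z2) ^ 2
  /-- rotation of the geodesic about its midpoint and uniform Taylor expansion (E1.8) -/
  taylor : ∀ z1 z2, z1 ≠ z2 → dist z1 z2 ≤ r → ∀ μ : ℝ, |μ| ≤ μ0 →
    ∃ x y, dist x (X z1) ≤ Λ * |μ| ∧ dist y (Y z1) ≤ Λ * |μ| ∧ ∀ z, dist z z1 ≤ r →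
      |DX x z - DX (X z1) z - DX x z1 + 2 * μ * ell z1 z2 z| ≤ C * |μ| * dist z z1 ^ 2 ∧
      |DY z y - DY z (Y z1) - DY z1 y - 2 * μ * ell z1 z2 z| ≤ C * |μ| * dist z z1 ^ 2

/-- `L(h)`: the largest distance of two midpoints whose (quasi-metric) discrepancy is `≤ h`. -/
noncomputable def Lf {M : Type*} [MetricSpace M] (X Y : M → M) (D : M → M → ℝ) (h : ℝ) : ℝ :=
  sSup {t | ∃ z z', dist z z' = t ∧ (D (X z) (Y z') ≤ h ∨ D (X z') (Y z) ≤ h)}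

variable {M : Type*} [MetricSpace M] {K0 Λ C r μ0 : ℝ} {ω : ℝ → ℝ}
  {X Y : M → M} {D DX DY : M → M → ℝ} {ell : M → M → M → ℝ}

/-- exchange of `u` and `u^c` -/
theorem GD.swap (G : GD K0 Λ C r μ0 ω X Y D DX DY ell) :
    GD K0 Λ C r μ0 ω Y X (fun y x => D x y) (fun y z => DY z y) (fun z x => DX x z) ell where
  D_nn x y := G.D_nn y x
  DX_nn x z := G.DY_nn z x
  DY_nn z y := G.DX_nn y z
  DX_self z := G.DY_self z
  DY_self z := G.DX_self z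
  surjX := G.surjY
  surjY := G.surjX
  D_le x z y := by
    have := G.D_le y z x
    linarith
  mid x y := by
    obtain ⟨z, hz⟩ := G.mid y x
    exact ⟨z, by linarith⟩
  engulf x y x' y0 := by
    have h := G.engulf y x y0 x'
    refine h.trans (le_of_eq ?_)
    congr 1
    rw [max_comm (D y0 x') (D y0 x), ← max_assoc, max_comm (D y x') (D y0 x), max_assoc,
      max_comm (D y x') (D y0 x')]
  lipD1 x x' y := G.lipD2 y x x'
  lipD2 x y y' := G.lipD1 y y' x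
  lipDX x x' z := G.lipDY z x x'
  lipDY z y y' := G.lipDX y y' z
  bdd := G.bdd
  modulus ε hε z z' h := by
    rw [dist_comm]
    exact G.modulus ε hε z' z h
  low t ht htr := by
    obtain ⟨z, z', h1, h2⟩ := G.low t ht htr
    exact ⟨z', z, by rwa [dist_comm], h2⟩
  ell_le := G.ell_le
  geo1 := G.geo1
  geo2 := G.geo2
  taylor z1 z2 h12 hr μ hμ := by
    obtain ⟨x, y, hx, hy, h⟩ := G.taylor z1 z2 h12 hr (-μ) (by rwa [abs_neg])
    rw [abs_neg] at hx hy h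
    refine ⟨y, x, hy, hx, fun z hz => ?_⟩
    obtain ⟨h1, h2⟩ := h z hz
    refine ⟨?_, ?_⟩
    · refine le_trans (le_of_eq ?_) h2
      congr 1
      ring
    · refine le_trans (le_of_eq ?_) h1
      congr 1
      ring

theorem Lf_swap (X Y : M → M) (D : M → M → ℝ) (h : ℝ) :
    Lf Y X (fun y x => D x y) h = Lf X Y D h := by
  unfold Lf
  congr 1
  ext t
  constructor
  · rintro ⟨z, z', h1, h2⟩
    exact ⟨z, z', h1, h2.symm⟩
  · rintro ⟨z, z', h1, h2⟩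
    exact ⟨z, z', h1, h2.symm⟩

theorem GD.bddAbove (G : GD K0 Λ C r μ0 ω X Y D DX DY ell) (h : ℝ) :
    BddAbove {t | ∃ z z', dist z z' = t ∧ (D (X z) (Y z') ≤ h ∨ D (X z') (Y z) ≤ h)} := by
  refine ⟨Λ, ?_⟩
  rintro t ⟨z, z', rfl, -⟩
  exact G.bdd z z'

theorem GD.D_self (G : GD K0 Λ C r μ0 ω X Y D DX DY ell) (z : M) : D (X z) (Y z) = 0 := by
  refine le_antisymm ?_ (G.D_nn _ _)
  have := G.D_le (X z) z (Y z)
  rw [G.DX_self, G.DY_self] at this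
  linarith

theorem GD.dist_le_Lf (G : GD K0 Λ C r μ0 ω X Y D DX DY ell) {h : ℝ} {z z' : M}
    (hz : D (X z) (Y z') ≤ h) : dist z z' ≤ Lf X Y D h :=
  le_csSup (G.bddAbove h) ⟨z, z', rfl, Or.inl hz⟩

theorem GD.Lf_le (G : GD K0 Λ C r μ0 ω X Y D DX DY ell) {h ε : ℝ} (hε : 0 < ε)
    (hw : h ≤ ω ε) : Lf X Y D h ≤ ε := by
  refine Real.sSup_le ?_ hε.le
  rintro t ⟨z, z', rfl, h1 | h1⟩
  · exact G.modulus ε hε z z' (h1.trans hw)
  · rw [dist_comm]; exact G.modulus ε hε z' z (h1.trans hw)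

end Crest.Agent.R226.Growth762
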