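/-
R226 / S0350, stream E1, task E1.9 (helper762): the growth claim (docs 848, Theorem 3).
-/
import Crest.Agent.R226.GrowthDef_762
import Mathlib.Tactic.Linarith
import Mathlib.Tactic.FieldSimp
import Mathlib.Tactic.Positivity

set_option autoImplicit false

namespace Crest.Agent.R226.Growth762

variable {M : Type*} [MetricSpace M] {K0 Λ C r μ0 : ℝ} {ω : ℝ → ℝ}
  {X Y : M → M} {D DX DY : M → M → ℝ} {ell : M → M → M → ℝ}

/-- a pair of midpoints witnessing growth -/
def Gr (X Y : M → M) (D : M → M → ℝ) (N1 d0 L h : ℝ) : Prop :=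
  ∃ R H : ℝ, ∃ z z' : M, 1 + d0 ≤ R ∧ 0 < H ∧ H ≤ N1 * R ^ 2 * h ∧
    D (X z) (Y z') ≤ H ∧ R * L ≤ dist z z'

/-- one round of the argument -/
theorem round (G : GD K0 Λ C r μ0 ω X Y D DX DY ell)
    (hK : 1 ≤ K0) (hΛ : 1 ≤ Λ) (hC : 1 ≤ C) {N c ε0 L h : ℝ}
    (hc : 2 * K0 * c = 1) (hN : 12 * K0 ≤ N)
    (hε0 : 0 < ε0) (hε0r : ε0 ≤ r) (hε0C : C * ε0 ≤ 1)
    (hL : 0 < L) (hL1 : 400 * C * L ≤ c) (hLr : 4 * L ≤ r) (hh : 0 < h)
    (hμ : N * h / L ≤ μ0) (hμω : 3 * Λ ^ 2 * (N * h / L) ≤ ω ε0)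
    {z1 z2 zs : M} (h12 : z1 ≠ z2) (hd1 : (1 - c / 12) * L ≤ dist z1 z2)
    (hd2 : dist z1 z2 ≤ L) (h12h : D (X z1) (Y z2) ≤ h)
    (hs1 : DX (X z1) zs ≤ h) (hs2 : L / 3 ≤ ell z1 z2 zs) (hs3 : dist zs z1 ≤ 4 * L) :
    Gr X Y D (12 * K0 * N * C) (c / 6) L h ∨
    (∃ zn, DX (X z1) zn ≤ 12 * N * h ∧ ell z1 z2 zs + c * L / 3 ≤ ell z1 z2 zn ∧
      dist zn z1 ≤ 4 * L) := by
  have hc0 : 0 < c := by
    by_contra hcon
    push Not at hcon
    nlinarith only [hcon, hc, hK]
  have hc1 : c ≤ 1 / 2 := by nlinarith only [hc, hK, hc0]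
  have hN0 : 12 ≤ N := by linarith
  set μ : ℝ := N * h / L with hμdef
  have hμpos : 0 < μ := by positivity
  have hμL : μ * L = N * h := by
    rw [hμdef]; field_simp
  set P : ℝ := N * h with hP
  have hPpos : 0 < P := by positivity
  have hPh : h * (12 * K0) ≤ P := by
    rw [hP]; nlinarith only [hN, hh]
  have hPhc : h ≤ c * P / 6 := by
    have e1 : c * (h * (12 * K0)) ≤ c * P := mul_le_mul_of_nonneg_left hPh hc0.le
    have e2 : c * (h * (12 * K0)) = 6 * h * (2 * K0 * c) := by ring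
    rw [e2, hc] at e1
    linarith only [e1]
  have hPh12 : h ≤ P / 12 := by
    have : h * 1 ≤ h * K0 := mul_le_mul_of_nonneg_left hK hh.le
    linarith only [this, hPh]
  have hCLP : C * (μ * L ^ 2) ≤ c / 400 * P := by
    have : C * (μ * L ^ 2) = C * L * P := by rw [← hμL]; ring
    rw [this]
    have h1 : C * L ≤ c / 400 := by linarith
    exact mul_le_mul_of_nonneg_right h1 hPpos.le
  have hμabs : |μ| = μ := abs_of_pos hμpos
  have hdr : dist z1 z2 ≤ r := by linarith
  obtain ⟨x, y, hx, hy, hT⟩ := G.taylor z1 z2 h12 hdr μ (by rw [hμabs]; exact hμ)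
  rw [hμabs] at hx hy hT
  set x1 := X z1 with hx1
  set y1 := Y z1 with hy1
  set a := DX x z1 with ha
  set b := DY z1 y with hb
  have ha0 : 0 ≤ a := G.DX_nn _ _
  have hb0 : 0 ≤ b := G.DY_nn _ _
  have hΛμ : Λ * (Λ * μ) = Λ ^ 2 * μ := by ring
  have hΛ2 : 0 < Λ ^ 2 * μ := by positivity
  have hDxx : ∀ y', |D x y' - D x1 y'| ≤ Λ ^ 2 * μ := fun y' =>
    (G.lipD1 x x1 y').trans (by rw [← hΛμ]; exact mul_le_mul_of_nonneg_left hx (by linarith))
  have hDyy : ∀ x', |D x' y - D x' y1| ≤ Λ ^ 2 * μ := fun x' =>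
    (G.lipD2 x' y y1).trans (by rw [← hΛμ]; exact mul_le_mul_of_nonneg_left hy (by linarith))
  have hDXxx : ∀ z', |DX x z' - DX x1 z'| ≤ Λ ^ 2 * μ := fun z' =>
    (G.lipDX x x1 z').trans (by rw [← hΛμ]; exact mul_le_mul_of_nonneg_left hx (by linarith))
  -- Taylor at `zs`
  have hzsr : dist zs z1 ≤ r := by linarith
  have hTs := (hT zs hzsr).1
  have hsq : C * μ * dist zs z1 ^ 2 ≤ 16 * (c / 400 * P) := by
    have h1 : dist zs z1 ^ 2 ≤ (4 * L) ^ 2 := pow_le_pow_left₀ dist_nonneg hs3 2
    calc C * μ * dist zs z1 ^ 2 ≤ C * μ * (4 * L) ^ 2 :=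
          mul_le_mul_of_nonneg_left h1 (by positivity)
      _ = 16 * (C * (μ * L ^ 2)) := by ring
      _ ≤ _ := by linarith
  set A := DX x zs with hA
  have hA0 : 0 ≤ A := G.DX_nn _ _
  have ha1 : 2 * μ * ell z1 z2 zs - h - 16 * (c / 400 * P) + A ≤ a := by
    have := (abs_le.1 hTs).2
    linarith
  have hμell : 2 / 3 * P ≤ 2 * μ * ell z1 z2 zs := by
    have : 2 * μ * (L / 3) ≤ 2 * μ * ell z1 z2 zs := mul_le_mul_of_nonneg_left hs2 (by positivity)
    have h2 : 2 * μ * (L / 3) = 2 / 3 * P := by rw [← hμL]; ring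
    linarith
  -- the competitor `zd`
  obtain ⟨zd, hzd⟩ := G.mid x y
  have hDxy1 : D x y ≤ 2 * (Λ ^ 2 * μ) := by
    have h1 := (abs_le.1 (hDxx y)).2
    have h2 := (abs_le.1 (hDyy x1)).2
    have h3 : D x1 y1 = 0 := G.D_self z1
    linarith
  have hzd0 : DX x1 zd ≤ 3 * (Λ ^ 2 * μ) := by
    have h1 := (abs_le.1 (hDXxx zd)).1
    have h2 := G.DY_nn zd y
    linarith
  have hrho : ∀ z, D x1 (Y z) ≤ DX x1 z := fun z => by
    have := G.D_le x1 z (Y z)
    rw [G.DY_self] at this
    linarith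
  have hrho' : ∀ z, D (X z) y1 ≤ DY z y1 := fun z => by
    have := G.D_le (X z) z y1
    rw [G.DX_self] at this
    linarith
  have hε0' : 3 * (Λ ^ 2 * μ) ≤ ω ε0 := by linarith
  have hzd1 : dist z1 zd ≤ ε0 := by
    refine G.modulus ε0 hε0 z1 zd ?_
    exact (hrho zd).trans (hzd0.trans hε0')
  have hzdr : dist zd z1 ≤ r := by rw [dist_comm]; linarith
  obtain ⟨hTd1, hTd2⟩ := hT zd hzdr
  set t := dist zd z1 with ht
  have ht0 : 0 ≤ t := dist_nonneg
  have hsum : DX x1 zd + DY zd y1 + a + b ≤ D x y + 2 * (C * μ * t ^ 2) := by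
    have h1 := (abs_le.1 hTd1).1
    have h2 := (abs_le.1 hTd2).1
    linarith
  have hDab : D x y ≤ a + b := G.D_le x z1 y
  have hDXd : DX x1 zd ≤ 2 * (C * μ * t ^ 2) := by
    have := G.DY_nn zd y1
    linarith
  have hN1 : 3 * N ≤ 12 * K0 * N * C := by
    have h1 : 1 ≤ K0 * C := one_le_mul_of_one_le_of_one_le hK hC
    nlinarith only [h1, hN0]
  have hN2 : 2 * C * N ≤ 12 * K0 * N * C := by
    have h1 : 0 < N * C := by positivity
    nlinarith only [h1, hK]
  by_cases htL : 2 * L ≤ t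
  · -- growth at `zd`
    left
    refine ⟨t / L, 2 * (C * μ * t ^ 2), z1, zd, ?_, ?_, ?_, ?_, ?_⟩
    · rw [le_div_iff₀ hL]
      have : c / 6 * L ≤ 1 * L := mul_le_mul_of_nonneg_right (by linarith only [hc1]) hL.le
      linarith only [this, htL]
    · have : 0 < t := by linarith only [hL, htL]
      positivity
    · have hR : t = (t / L) * L := by field_simp
      have h1 : 2 * (C * μ * t ^ 2) = 2 * C * N * (t / L) ^ 2 * h * L := by
        have : (t / L) ^ 2 * L ^ 2 = t ^ 2 := by field_simp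
        calc 2 * (C * μ * t ^ 2) = 2 * (C * μ * ((t / L) ^ 2 * L ^ 2)) := by rw [this]
          _ = 2 * C * (μ * L) * (t / L) ^ 2 * L := by ring
          _ = _ := by rw [hμL, hP]; ring
      rw [h1]
      have hL1' : L ≤ 1 := by
        have : 1 * L ≤ C * L := mul_le_mul_of_nonneg_right hC hL.le
        linarith only [this, hL1, hc1]
      have hnn : 0 ≤ 2 * C * N * (t / L) ^ 2 * h := by positivity
      calc 2 * C * N * (t / L) ^ 2 * h * L ≤ 2 * C * N * (t / L) ^ 2 * h * 1 :=
            mul_le_mul_of_nonneg_left hL1' hnn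
        _ = (2 * C * N) * ((t / L) ^ 2 * h) := by ring
        _ ≤ (12 * K0 * N * C) * ((t / L) ^ 2 * h) :=
            mul_le_mul_of_nonneg_right hN2 (by positivity)
        _ = _ := by ring
    · exact (hrho zd).trans hDXd
    · rw [div_mul_cancel₀ _ hL.ne', dist_comm]
  push Not at htL
  have hdef : a + b ≤ D x y + 8 * (c / 400 * P) := by
    have h1 : t ^ 2 ≤ (2 * L) ^ 2 := pow_le_pow_left₀ ht0 htL.le 2
    have h2 : C * μ * t ^ 2 ≤ 4 * (c / 400 * P) := by
      calc C * μ * t ^ 2 ≤ C * μ * (2 * L) ^ 2 := mul_le_mul_of_nonneg_left h1 (by positivity)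
        _ = 4 * (C * (μ * L ^ 2)) := by ring
        _ ≤ _ := by linarith
    have h3 := G.DX_nn x1 zd
    have h4 := G.DY_nn zd y1
    linarith
  -- engulfing
  have hE : D x y ≤ K0 * max A (max h b) := by
    refine (G.engulf x y x1 (Y zs)).trans (mul_le_mul_of_nonneg_left ?_ (by linarith))
    refine max_le_max ?_ (max_le_max ?_ ?_)
    · have := G.D_le x zs (Y zs)
      rw [G.DY_self] at this
      linarith
    · exact (hrho zs).trans hs1
    · have := G.D_le x1 z1 y
      rw [hx1, G.DX_self] at this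
      linarith
  have hmax : c * P ≤ max A (max h b) := by
    have h1 : P / 2 ≤ K0 * max A (max h b) := by
      have e3 : c * P ≤ 1 / 2 * P := mul_le_mul_of_nonneg_right hc1 hPpos.le
      linarith only [e3, hE, hdef, ha1, hμell, hA0, hb0, hPh12, hPpos]
    by_contra hcon
    push Not at hcon
    have : K0 * max A (max h b) < K0 * (c * P) := mul_lt_mul_of_pos_left hcon (by linarith)
    have h3 : K0 * (c * P) = P / 2 := by
      have : K0 * c = 1 / 2 := by linarith
      rw [← mul_assoc, this]; ring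
    linarith
  have hAb : c * P ≤ A ∨ c * P ≤ b := by
    rcases le_max_iff.1 hmax with h1 | h1
    · exact Or.inl h1
    rcases le_max_iff.1 h1 with h2 | h2
    · exfalso
      have : 0 < c * P := by positivity
      linarith
    · exact Or.inr h2
  rcases hAb with hcA | hcb
  · -- case `A` large : new point `zn` with `X zn = x`
    obtain ⟨zn, hzn⟩ := G.surjX x
    have hn1 : D x1 (Y zn) ≤ Λ ^ 2 * μ := by
      have h1 := (abs_le.1 (hDxx (Y zn))).1
      have h2 : D x (Y zn) = 0 := by rw [← hzn]; exact G.D_self zn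
      linarith
    have hn2 : dist z1 zn ≤ ε0 := G.modulus ε0 hε0 z1 zn (hn1.trans (by linarith))
    have hnr : dist zn z1 ≤ r := by rw [dist_comm]; linarith
    have hn3 : dist zn z1 ≤ ε0 := by rwa [dist_comm]
    obtain ⟨hTn, -⟩ := hT zn hnr
    have hxn : DX x zn = 0 := by rw [← hzn]; exact G.DX_self zn
    rw [hxn] at hTn
    have hell := G.ell_le z1 z2 zn h12 hdr hnr
    set s := dist zn z1 with hs
    have hs0 : 0 ≤ s := dist_nonneg
    have hTn1 := (abs_le.1 hTn).1
    have hTn2 := (abs_le.1 hTn).2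
    have hCs : C * μ * s ^ 2 ≤ μ * s := by
      have : C * s ≤ 1 := (mul_le_mul_of_nonneg_left hn3 (by linarith only [hC])).trans hε0C
      calc C * μ * s ^ 2 = (C * s) * (μ * s) := by ring
        _ ≤ 1 * (μ * s) := mul_le_mul_of_nonneg_right this (by positivity)
        _ = μ * s := one_mul _
    have hells : μ * ell z1 z2 zn ≤ μ * s :=
      mul_le_mul_of_nonneg_left ((abs_le.1 hell).2) hμpos.le
    have hDXn : DX x1 zn ≤ 3 * (μ * s) := by linarith
    by_cases hs4 : 4 * L ≤ s
    · left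
      have hspos : 0 < s := by linarith
      refine ⟨s / L, 3 * (μ * s), z1, zn, ?_, by positivity, ?_, ?_, ?_⟩
      · rw [le_div_iff₀ hL]
        have : c / 6 * L ≤ 1 * L := mul_le_mul_of_nonneg_right (by linarith only [hc1]) hL.le
        linarith only [this, hs4, hL]
      · have h1 : 3 * (μ * s) = 3 * N * h * (s / L) := by
          rw [hμdef]; field_simp; exact hP
        rw [h1]
        have h2 : s / L ≤ (s / L) ^ 2 := by
          have : 1 ≤ s / L := by rw [le_div_iff₀ hL]; linarith only [hs4, hL]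
          nlinarith only [this]
        calc 3 * N * h * (s / L) ≤ 3 * N * h * (s / L) ^ 2 :=
              mul_le_mul_of_nonneg_left h2 (by positivity)
          _ = 3 * N * ((s / L) ^ 2 * h) := by ring
          _ ≤ (12 * K0 * N * C) * ((s / L) ^ 2 * h) :=
              mul_le_mul_of_nonneg_right hN1 (by positivity)
          _ = _ := by ring
      · exact (hrho zn).trans hDXn
      · rw [div_mul_cancel₀ _ hL.ne', dist_comm]
    · right
      push Not at hs4
      refine ⟨zn, ?_, ?_, hs4.le⟩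
      · refine hDXn.trans ?_
        have : μ * s ≤ μ * (4 * L) := mul_le_mul_of_nonneg_left hs4.le hμpos.le
        have h2 : μ * (4 * L) = 4 * P := by rw [← hμL]; ring
        rw [hP] at h2
        linarith
      · have h1 : s ^ 2 ≤ (4 * L) ^ 2 := pow_le_pow_left₀ hs0 hs4.le 2
        have h2 : C * μ * s ^ 2 ≤ 16 * (c / 400 * P) := by
          calc C * μ * s ^ 2 ≤ C * μ * (4 * L) ^ 2 := mul_le_mul_of_nonneg_left h1 (by positivity)
            _ = 16 * (C * (μ * L ^ 2)) := by ring
            _ ≤ _ := by linarith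
        have h3 := G.DX_nn x1 zn
        have hcP : 0 < c * P := by positivity
        have h4 : 2 * μ * ell z1 z2 zs + 2 / 3 * (c * P) ≤ 2 * μ * ell z1 z2 zn := by linarith
        have h5 : c * P = μ * (c * L) := by rw [← hμL]; ring
        rw [h5] at h4
        have h6 : μ * (ell z1 z2 zs + c * L / 3) ≤ μ * ell z1 z2 zn := by linarith
        exact le_of_mul_le_mul_left h6 hμpos
  · -- case `b` large : point `zn` with `Y zn = y`
    left
    obtain ⟨zn, hzn⟩ := G.surjY y
    have hn1 : D (X zn) y1 ≤ Λ ^ 2 * μ := by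
      have h1 := (abs_le.1 (hDyy (X zn))).1
      have h2 : D (X zn) y = 0 := by rw [← hzn]; exact G.D_self zn
      linarith
    have hn3 : dist zn z1 ≤ ε0 := G.modulus ε0 hε0 zn z1 (hn1.trans (by linarith))
    have hnr : dist zn z1 ≤ r := by linarith
    obtain ⟨-, hTn⟩ := hT zn hnr
    have hyn : DY zn y = 0 := by rw [← hzn]; exact G.DY_self zn
    rw [hyn] at hTn
    have hell := G.ell_le z1 z2 zn h12 hdr hnr
    set s := dist zn z1 with hs
    have hs0 : 0 ≤ s := dist_nonneg
    have hTn1 := (abs_le.1 hTn).1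
    have hTn2 := (abs_le.1 hTn).2
    have hCs : C * μ * s ^ 2 ≤ μ * s := by
      have : C * s ≤ 1 := (mul_le_mul_of_nonneg_left hn3 (by linarith only [hC])).trans hε0C
      calc C * μ * s ^ 2 = (C * s) * (μ * s) := by ring
        _ ≤ 1 * (μ * s) := mul_le_mul_of_nonneg_right this (by positivity)
        _ = μ * s := one_mul _
    have hells : -(μ * s) ≤ μ * ell z1 z2 zn := by
      have := mul_le_mul_of_nonneg_left ((abs_le.1 hell).1) hμpos.le
      linarith
    have hDYn : DY zn y1 ≤ 3 * (μ * s) := by linarith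
    by_cases hs4 : 4 * L ≤ s
    · have hspos : 0 < s := by linarith
      refine ⟨s / L, 3 * (μ * s), zn, z1, ?_, by positivity, ?_, ?_, ?_⟩
      · rw [le_div_iff₀ hL]
        have : c / 6 * L ≤ 1 * L := mul_le_mul_of_nonneg_right (by linarith only [hc1]) hL.le
        linarith only [this, hs4, hL]
      · have h1 : 3 * (μ * s) = 3 * N * h * (s / L) := by
          rw [hμdef]; field_simp; exact hP
        rw [h1]
        have h2 : s / L ≤ (s / L) ^ 2 := by
          have : 1 ≤ s / L := by rw [le_div_iff₀ hL]; linarith only [hs4, hL]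
          nlinarith only [this]
        calc 3 * N * h * (s / L) ≤ 3 * N * h * (s / L) ^ 2 :=
              mul_le_mul_of_nonneg_left h2 (by positivity)
          _ = 3 * N * ((s / L) ^ 2 * h) := by ring
          _ ≤ (12 * K0 * N * C) * ((s / L) ^ 2 * h) :=
              mul_le_mul_of_nonneg_right hN1 (by positivity)
          _ = _ := by ring
      · exact (hrho' zn).trans hDYn
      · rw [div_mul_cancel₀ _ hL.ne']
    · push Not at hs4
      have h1 : s ^ 2 ≤ (4 * L) ^ 2 := pow_le_pow_left₀ hs0 hs4.le 2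
      have h2 : C * μ * s ^ 2 ≤ 16 * (c / 400 * P) := by
        calc C * μ * s ^ 2 ≤ C * μ * (4 * L) ^ 2 := mul_le_mul_of_nonneg_left h1 (by positivity)
          _ = 16 * (C * (μ * L ^ 2)) := by ring
          _ ≤ _ := by linarith
      have h3 := G.DY_nn zn y1
      have hcP : 0 < c * P := by positivity
      have h4 : 2 * μ * ell z1 z2 zn ≤ -(2 / 3 * (c * P)) := by linarith
      have h5 : c * P = μ * (c * L) := by rw [← hμL]; ring
      rw [h5] at h4
      have h6 : μ * ell z1 z2 zn ≤ μ * (-(c * L / 3)) := by linarith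
      have h7 : ell z1 z2 zn ≤ -(c * L / 3) := le_of_mul_le_mul_left h6 hμpos
      have h8 := G.geo1 z1 z2 zn h12 hdr hnr
      have h9 : C * (s + dist z1 z2) ^ 2 ≤ 25 * (c / 400) * L := by
        have e1 : (s + dist z1 z2) ^ 2 ≤ (5 * L) ^ 2 :=
          pow_le_pow_left₀ (by positivity) (by linarith) 2
        calc C * (s + dist z1 z2) ^ 2 ≤ C * (5 * L) ^ 2 :=
              mul_le_mul_of_nonneg_left e1 (by linarith)
          _ = 25 * (C * L) * L := by ring
          _ ≤ 25 * (c / 400) * L := by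
              refine mul_le_mul_of_nonneg_right ?_ hL.le
              linarith
      have h10 : (1 + c / 6) * L ≤ dist zn z2 := by
        have : 0 < c * L := by positivity
        linarith only [this, h7, h8, h9, hd1]
      refine ⟨1 + c / 6, 12 * K0 * N * h, zn, z2, le_refl _, by positivity, ?_, ?_, h10⟩
      · have e0 : 1 ≤ (1 + c / 6) ^ 2 := by nlinarith only [hc0]
        have e1 : 1 ≤ C * (1 + c / 6) ^ 2 := one_le_mul_of_one_le_of_one_le hC e0
        calc 12 * K0 * N * h = (12 * K0 * N * h) * 1 := by ring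
          _ ≤ (12 * K0 * N * h) * (C * (1 + c / 6) ^ 2) :=
              mul_le_mul_of_nonneg_left e1 (by positivity)
          _ = _ := by ring
      · have e1 := G.engulf (X zn) (Y z2) x1 y1
        refine e1.trans ?_
        have e2 : max (D (X zn) y1) (max (D x1 y1) (D x1 (Y z2))) ≤ 12 * N * h := by
          refine max_le ?_ (max_le ?_ ?_)
          · refine (hrho' zn).trans (hDYn.trans ?_)
            have : μ * s ≤ μ * (4 * L) := mul_le_mul_of_nonneg_left hs4.le hμpos.le
            have h2 : μ * (4 * L) = 4 * P := by rw [← hμL]; ring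
            rw [hP] at h2
            linarith
          · have : D x1 y1 = 0 := G.D_self z1
            rw [this]; positivity
          · refine h12h.trans ?_
            nlinarith only [hh, hN0]
        calc K0 * max (D (X zn) y1) (max (D x1 y1) (D x1 (Y z2))) ≤ K0 * (12 * N * h) :=
              mul_le_mul_of_nonneg_left e2 (by linarith)
          _ = _ := by ring

end Crest.Agent.R226.Growth762
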