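/-
R226 / S0350, stream E1, task E1.9 (helper762): the growth claim, iteration of the rounds and
final statement (docs 848, Theorem 3).
-/
import Crest.Agent.R226.Growth_762

set_option autoImplicit false

namespace Crest.Agent.R226.Growth762

variable {M : Type*} [MetricSpace M] {K0 Λ C r μ0 : ℝ} {ω : ℝ → ℝ}
  {X Y : M → M} {D DX DY : M → M → ℝ} {ell : M → M → M → ℝ}

/-- iteration of the rounds: after `k` rounds either growth happened or the component of the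
current point in the direction of `z2` has increased by `k c L / 3`. -/
theorem rounds (G : GD K0 Λ C r μ0 ω X Y D DX DY ell)
    (hK : 1 ≤ K0) (hΛ : 1 ≤ Λ) (hC : 1 ≤ C) {N c ε0 L h : ℝ}
    (hc : 2 * K0 * c = 1) (hN : 12 * K0 ≤ N)
    (hε0 : 0 < ε0) (hε0r : ε0 ≤ r) (hε0C : C * ε0 ≤ 1)
    (hL : 0 < L) (hL1 : 400 * C * L ≤ c) (hLr : 4 * L ≤ r) (hh : 0 < h) {K : ℕ}
    (hμ : N * ((12 * N) ^ K * h) / L ≤ μ0)
    (hμω : 3 * Λ ^ 2 * (N * ((12 * N) ^ K * h) / L) ≤ ω ε0)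
    {z1 z2 zs : M} (h12 : z1 ≠ z2) (hd1 : (1 - c / 12) * L ≤ dist z1 z2)
    (hd2 : dist z1 z2 ≤ L) (h12h : D (X z1) (Y z2) ≤ h)
    (hs1 : DX (X z1) zs ≤ h) (hs2 : L / 3 ≤ ell z1 z2 zs) (hs3 : dist zs z1 ≤ 4 * L) :
    ∀ k : ℕ, k ≤ K → Gr X Y D (12 * K0 * N * C * (12 * N) ^ K) (c / 6) L h ∨
    (∃ zn, DX (X z1) zn ≤ (12 * N) ^ k * h ∧ L / 3 + k * (c * L / 3) ≤ ell z1 z2 zn ∧
      dist zn z1 ≤ 4 * L) := by
  have hN1 : 1 ≤ 12 * N := by linarith only [hN, hK]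
  intro k
  induction k with
  | zero =>
    intro _
    right
    refine ⟨zs, by simpa using hs1, ?_, hs3⟩
    simpa using hs2
  | succ k ih =>
    intro hk
    rcases ih (by omega) with hg | ⟨zn, hn1, hn2, hn3⟩
    · exact Or.inl hg
    have hpk1 : (1 : ℝ) ≤ (12 * N) ^ k := one_le_pow₀ hN1
    have hpkK : (12 * N) ^ k ≤ (12 * N) ^ K := pow_le_pow_right₀ hN1 (by omega)
    have hhk : (12 * N) ^ k * h ≤ (12 * N) ^ K * h := mul_le_mul_of_nonneg_right hpkK hh.le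
    have hN0 : 0 < N := by linarith only [hN, hK]
    have hμk : N * ((12 * N) ^ k * h) / L ≤ N * ((12 * N) ^ K * h) / L := by
      gcongr
    have hc0 : 0 < c := by
      by_contra hcon
      push Not at hcon
      nlinarith only [hcon, hc, hK]
    have hhk0 : h ≤ (12 * N) ^ k * h := by
      nlinarith only [hpk1, hh]
    rcases round G hK hΛ hC (h := (12 * N) ^ k * h) hc hN hε0 hε0r hε0C hL hL1 hLr (by positivity)
      (hμk.trans hμ) (le_trans (by gcongr) hμω) h12 hd1 hd2 (h12h.trans hhk0) hn1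
      (le_trans (by have : 0 ≤ (k : ℝ) * (c * L / 3) := by positivity
                    linarith only [this]) hn2) hn3 with hg | ⟨zm, hm1, hm2, hm3⟩
    · left
      obtain ⟨R, H, z, z', g1, g2, g3, g4, g5⟩ := hg
      refine ⟨R, H, z, z', g1, g2, g3.trans ?_, g4, g5⟩
      calc 12 * K0 * N * C * R ^ 2 * ((12 * N) ^ k * h)
          ≤ 12 * K0 * N * C * R ^ 2 * ((12 * N) ^ K * h) := by
            refine mul_le_mul_of_nonneg_left hhk ?_
            positivity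
        _ = _ := by ring
    · right
      refine ⟨zm, hm1.trans (le_of_eq ?_), ?_, hm3⟩
      · rw [pow_succ]; ring
      · push_cast
        linarith only [hm2, hn2]

/-- the rounds lead to growth -/
theorem rounds_growth (G : GD K0 Λ C r μ0 ω X Y D DX DY ell)
    (hK : 1 ≤ K0) (hΛ : 1 ≤ Λ) (hC : 1 ≤ C) {N c ε0 L h : ℝ}
    (hc : 2 * K0 * c = 1) (hN : 12 * K0 ≤ N)
    (hε0 : 0 < ε0) (hε0r : ε0 ≤ r) (hε0C : C * ε0 ≤ 1)
    (hL : 0 < L) (hL1 : 400 * C * L ≤ c) (hLr : 4 * L ≤ r) (hh : 0 < h) {K : ℕ}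
    (hKc : 3 ≤ K * c)
    (hμ : N * ((12 * N) ^ K * h) / L ≤ μ0)
    (hμω : 3 * Λ ^ 2 * (N * ((12 * N) ^ K * h) / L) ≤ ω ε0)
    {z1 z2 zs : M} (h12 : z1 ≠ z2) (hd1 : (1 - c / 12) * L ≤ dist z1 z2)
    (hd2 : dist z1 z2 ≤ L) (h12h : D (X z1) (Y z2) ≤ h)
    (hs1 : DX (X z1) zs ≤ h) (hs2 : L / 3 ≤ ell z1 z2 zs) (hs3 : dist zs z1 ≤ 4 * L) :
    Gr X Y D (12 * K0 * N * C * (12 * N) ^ K) (c / 6) L h := by
  rcases rounds G hK hΛ hC hc hN hε0 hε0r hε0C hL hL1 hLr hh hμ hμω h12 hd1 hd2 h12h hs1 hs2 hs3 K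
    le_rfl with hg | ⟨zn, hn1, hn2, hn3⟩
  · exact hg
  have hN1 : 1 ≤ 12 * N := by linarith only [hN, hK]
  have hN0 : 0 < N := by linarith only [hN, hK]
  have hc0 : 0 < c := by
    by_contra hcon
    push Not at hcon
    nlinarith only [hcon, hc, hK]
  have hc1 : c ≤ 1 / 2 := by nlinarith only [hc, hK, hc0]
  have hdr : dist z1 z2 ≤ r := by linarith only [hd2, hLr, hL]
  have hnr : dist zn z1 ≤ r := hn3.trans hLr
  have hell := (abs_le.1 (G.ell_le z1 z2 zn h12 hdr hnr)).2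
  have hKL : 1 * L ≤ (K * c / 3) * L := mul_le_mul_of_nonneg_right (by linarith only [hKc]) hL.le
  refine ⟨4 / 3, (12 * N) ^ K * h, z1, zn, by linarith only [hc1], by positivity, ?_, ?_, ?_⟩
  · have e1 : (1 : ℝ) ≤ 12 * K0 * N * C * (4 / 3) ^ 2 := by
      have h1 : 1 ≤ K0 * C := one_le_mul_of_one_le_of_one_le hK hC
      nlinarith only [h1, hN1, hN0]
    calc (12 * N) ^ K * h = 1 * ((12 * N) ^ K * h) := by ring
      _ ≤ (12 * K0 * N * C * (4 / 3) ^ 2) * ((12 * N) ^ K * h) :=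
          mul_le_mul_of_nonneg_right e1 (by positivity)
      _ = _ := by ring
  · have := G.D_le (X z1) zn (Y zn)
    rw [G.DY_self] at this
    linarith only [this, hn1]
  · rw [dist_comm]
    linarith only [hn2, hell, hKL]

theorem Gr.le_Lf (G : GD K0 Λ C r μ0 ω X Y D DX DY ell) {N1 d0 L h : ℝ}
    (hg : Gr X Y D N1 d0 L h) : ∃ R H : ℝ, 1 + d0 ≤ R ∧ 0 < H ∧ H ≤ N1 * R ^ 2 * h ∧
      R * L ≤ Lf X Y D H := by
  obtain ⟨R, H, z, z', g1, g2, g3, g4, g5⟩ := hg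
  exact ⟨R, H, g1, g2, g3, g5.trans (G.dist_le_Lf g4)⟩

/-- lower bound of `L(h)` -/
theorem GD.low_Lf (G : GD K0 Λ C r μ0 ω X Y D DX DY ell) {h η : ℝ} (hh : 0 < h)
    (hη : 0 < η) (h1 : h ≤ η * r) (h2 : C * h ≤ η ^ 2) : h / η ≤ Lf X Y D h := by
  obtain ⟨z, z', hz1, hz2⟩ := G.low (h / η) (by positivity)
    (by rw [div_le_iff₀ hη, mul_comm]; exact h1)
  refine hz1.trans (G.dist_le_Lf (hz2.trans ?_))
  rw [div_pow, ← mul_div_assoc, div_le_iff₀ (by positivity)]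
  nlinarith only [h2, hh]

/-- **Growth claim** (Theorem 3 of docs 848).  The constants `h1, d0, N1` only depend on
`K0, Λ, C, r, μ0` and the modulus `ω`. -/
theorem growth (K0 Λ C r μ0 : ℝ) (ω : ℝ → ℝ) (hK : 1 ≤ K0) (hΛ : 1 ≤ Λ) (hC : 1 ≤ C)
    (hr : 0 < r) (hμ0 : 0 < μ0) (hω : ∀ ε, 0 < ε → 0 < ω ε) :
    ∃ h1 d0 N1 : ℝ, 0 < h1 ∧ 0 < d0 ∧ 0 < N1 ∧
      ∀ {M : Type*} [MetricSpace M] (X Y : M → M) (D DX DY : M → M → ℝ) (ell : M → M → M → ℝ),
        GD K0 Λ C r μ0 ω X Y D DX DY ell → ∀ h : ℝ, 0 < h → h ≤ h1 →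
          0 < Lf X Y D h ∧ Lf X Y D h ≤ Λ ∧
          ∃ R H : ℝ, 1 + d0 ≤ R ∧ 0 < H ∧ H ≤ N1 * R ^ 2 * h ∧ R * Lf X Y D h ≤ Lf X Y D H := by
  set c : ℝ := 1 / (2 * K0) with hcdef
  have hK0 : 0 < K0 := by linarith only [hK]
  have hc : 2 * K0 * c = 1 := by rw [hcdef]; field_simp
  have hc0 : 0 < c := by positivity
  have hc1 : c ≤ 1 / 2 := by nlinarith only [hc, hK, hc0]
  set N : ℝ := 12 * K0 with hNdef
  have hN0 : 0 < N := by positivity
  obtain ⟨K, hKK⟩ := exists_nat_ge (3 / c)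
  have hKc : 3 ≤ K * c := by
    rwa [div_le_iff₀ hc0] at hKK
  set ε0 : ℝ := min r (1 / C) with hε0def
  have hC0 : 0 < C := by linarith only [hC]
  have hε0 : 0 < ε0 := lt_min hr (by positivity)
  have hε0r : ε0 ≤ r := min_le_left _ _
  have hε0C : C * ε0 ≤ 1 := by
    have : C * ε0 ≤ C * (1 / C) := mul_le_mul_of_nonneg_left (min_le_right _ _) hC0.le
    rwa [mul_one_div_cancel hC0.ne'] at this
  set μ1 : ℝ := min μ0 (ω ε0 / (3 * Λ ^ 2)) with hμ1def
  have hΛ0 : 0 < Λ := by linarith only [hΛ]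
  have hμ1 : 0 < μ1 := lt_min hμ0 (div_pos (hω ε0 hε0) (by positivity))
  set η : ℝ := μ1 / (N * (12 * N) ^ K) with hηdef
  have hη : 0 < η := by positivity
  set ε1 : ℝ := min (r / 4) (c / (400 * C)) with hε1def
  have hε1 : 0 < ε1 := lt_min (by positivity) (by positivity)
  set h1 : ℝ := min (ω ε1) (min (η * r) (η ^ 2 / C)) with hh1def
  have hh1 : 0 < h1 := lt_min (hω _ hε1) (lt_min (by positivity) (by positivity))
  refine ⟨h1, c / 6, 12 * K0 * N * C * (12 * N) ^ K, hh1, by positivity, by positivity, ?_⟩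
  intro M _ X Y D DX DY ell G h hh hhh
  have hhω : h ≤ ω ε1 := hhh.trans (min_le_left _ _)
  have hhr : h ≤ η * r := hhh.trans ((min_le_right _ _).trans (min_le_left _ _))
  have hhC : C * h ≤ η ^ 2 := by
    have : h ≤ η ^ 2 / C := hhh.trans ((min_le_right _ _).trans (min_le_right _ _))
    rw [le_div_iff₀ hC0] at this
    linarith only [this]
  set L : ℝ := Lf X Y D h with hLdef
  have hLlow : h / η ≤ L := G.low_Lf hh hη hhr hhC
  have hL : 0 < L := lt_of_lt_of_le (by positivity) hLlow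
  have hLε : L ≤ ε1 := G.Lf_le hε1 hhω
  have hLΛ : L ≤ Λ := by
    refine Real.sSup_le ?_ hΛ0.le
    rintro t ⟨z, z', rfl, -⟩
    exact G.bdd z z'
  refine ⟨hL, hLΛ, ?_⟩
  have hL4 : 4 * L ≤ r := by
    have := hLε.trans (min_le_left _ _)
    linarith only [this]
  have hL1 : 400 * C * L ≤ c := by
    have := hLε.trans (min_le_right _ _)
    rw [le_div_iff₀ (by positivity)] at this
    linarith only [this]
  have hhL : h / L ≤ η := by
    rw [div_le_iff₀ hL]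
    rw [div_le_iff₀ hη] at hLlow
    linarith only [hLlow]
  have hμall : N * ((12 * N) ^ K * h) / L ≤ μ1 := by
    have e1 : N * ((12 * N) ^ K * h) / L = (N * (12 * N) ^ K) * (h / L) := by ring
    rw [e1]
    calc (N * (12 * N) ^ K) * (h / L) ≤ (N * (12 * N) ^ K) * η :=
          mul_le_mul_of_nonneg_left hhL (by positivity)
      _ = μ1 := by rw [hηdef]; field_simp
  have hμ : N * ((12 * N) ^ K * h) / L ≤ μ0 := hμall.trans (min_le_left _ _)
  have hμω : 3 * Λ ^ 2 * (N * ((12 * N) ^ K * h) / L) ≤ ω ε0 := by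
    have := hμall.trans (min_le_right _ _)
    rw [le_div_iff₀ (by positivity)] at this
    linarith only [this]
  -- an almost optimal pair
  have hlt : (1 - c / 12) * L < L := by nlinarith only [hc0, hL]
  have hne : {t | ∃ z z', dist z z' = t ∧ (D (X z) (Y z') ≤ h ∨ D (X z') (Y z) ≤ h)}.Nonempty := by
    by_contra hcon
    rw [Set.not_nonempty_iff_eq_empty] at hcon
    rw [hLdef, Lf, hcon, Real.sSup_empty] at hL
    exact lt_irrefl _ hL
  obtain ⟨t, ⟨za, zb, rfl, hab⟩, ht⟩ := exists_lt_of_lt_csSup hne hlt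
  obtain ⟨z1, z2, h12h, hd1⟩ : ∃ z1 z2, D (X z1) (Y z2) ≤ h ∧ (1 - c / 12) * L < dist z1 z2 := by
    rcases hab with h' | h'
    · exact ⟨za, zb, h', ht⟩
    · exact ⟨zb, za, h', by rwa [dist_comm]⟩
  have hd2 : dist z1 z2 ≤ L := G.dist_le_Lf h12h
  have hd0 : 0 < dist z1 z2 := by
    have : 0 < (1 - c / 12) * L := mul_pos (by linarith only [hc1]) hL
    linarith only [this, hd1]
  have h12 : z1 ≠ z2 := dist_pos.1 hd0
  obtain ⟨zs, hzs⟩ := G.mid (X z1) (Y z2)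
  have hs1 : DX (X z1) zs ≤ h := by
    have := G.DY_nn zs (Y z2)
    linarith only [this, hzs, h12h]
  have hs2 : DY zs (Y z2) ≤ h := by
    have := G.DX_nn (X z1) zs
    linarith only [this, hzs, h12h]
  have hds1 : dist zs z1 ≤ L := by
    rw [dist_comm]
    refine G.dist_le_Lf ?_
    have := G.D_le (X z1) zs (Y zs)
    rw [G.DY_self] at this
    linarith only [this, hs1]
  have hds2 : dist zs z2 ≤ L := by
    refine G.dist_le_Lf ?_
    have := G.D_le (X zs) zs (Y z2)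
    rw [G.DX_self] at this
    linarith only [this, hs2]
  have hg2 := G.geo2 z1 z2 zs h12 (by linarith only [hd2, hL4, hL]) (by linarith only [hds1, hL4, hL])
    (by linarith only [hds2, hL4, hL])
  have hsq : C * (dist zs z1 + dist z1 z2) ^ 2 ≤ 4 * (c / 400) * L := by
    have e1 : (dist zs z1 + dist z1 z2) ^ 2 ≤ (2 * L) ^ 2 :=
      pow_le_pow_left₀ (by positivity) (by linarith only [hds1, hd2]) 2
    calc C * (dist zs z1 + dist z1 z2) ^ 2 ≤ C * (2 * L) ^ 2 :=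
          mul_le_mul_of_nonneg_left e1 hC0.le
      _ = 4 * (C * L) * L := by ring
      _ ≤ 4 * (c / 400) * L := by
          refine mul_le_mul_of_nonneg_right ?_ hL.le
          linarith only [hL1]
  have hcL : c * L ≤ 1 / 2 * L := mul_le_mul_of_nonneg_right hc1 hL.le
  have hsel : L / 3 ≤ ell z1 z2 zs ∨ L / 3 ≤ ell z2 z1 zs := by
    by_contra hcon
    push Not at hcon
    linarith only [hcon.1, hcon.2, hg2, hsq, hd1, hcL, hL]
  rcases hsel with hsel | hsel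
  · exact (rounds_growth G hK hΛ hC hc le_rfl hε0 hε0r hε0C hL hL1 hL4 hh hKc hμ hμω h12 hd1.le hd2
      h12h hs1 hsel (by linarith only [hds1, hL])).le_Lf G
  · have := (rounds_growth G.swap hK hΛ hC hc le_rfl hε0 hε0r hε0C hL hL1 hL4 hh hKc hμ hμω h12.symm
      (by rw [dist_comm]; exact hd1.le) (by rw [dist_comm]; exact hd2)
      h12h hs2 hsel (by linarith only [hds2, hL])).le_Lf G.swap
    simpa only [Lf_swap] using this

end Crest.Agent.R226.Growth762
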