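/-
R226 E1.10, second form (helper915): the growth claim in the form `R * L h ≤ L H`,
`H ≤ N₁ R² h` for a (u-dependent) modulus function `L` (shape of helper762's `Lf`),
⇒ `EStatement` with uniform constants.
-/
import Crest.Agent.R226.HolderEnd_915

set_option autoImplicit false
set_option linter.unusedSectionVars false

open MeasureTheory Set Filter Topology
open scoped ENNReal NNReal
open Crest.GeometryTopology.MTW

namespace Crest.Agent.R226.HolderEnd2_915

open Crest.Agent.R226 Crest.Agent.R226.Kant624 Crest.Agent.R226.Reduction624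
  Crest.Agent.R226.HolderEnd915

/-- the exponent attached to the growth constants. -/
noncomputable def expo (d₀ N₁ : ℝ) : ℝ := 1 / (2 + Real.log (max N₁ 1) / Real.log (1 + d₀))

lemma expo_pos {d₀ N₁ : ℝ} (hd : 0 < d₀) : 0 < expo d₀ N₁ := by
  have h1 : 0 < Real.log (1 + d₀) := Real.log_pos (by linarith)
  have h2 : 0 ≤ Real.log (max N₁ 1) := Real.log_nonneg (le_max_right _ _)
  unfold expo
  positivity

lemma expo_le_one {d₀ N₁ : ℝ} (hd : 0 < d₀) : expo d₀ N₁ ≤ 1 := by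
  have h1 : 0 < Real.log (1 + d₀) := Real.log_pos (by linarith)
  have h2 : 0 ≤ Real.log (max N₁ 1) := Real.log_nonneg (le_max_right _ _)
  unfold expo
  rw [div_le_one (by positivity)]
  have : 0 ≤ Real.log (max N₁ 1) / Real.log (1 + d₀) := by positivity
  linarith

/-- **Iteration, function form**, with explicit uniform constants. -/
theorem iterateL {L : ℝ → ℝ} {Λ d₀ N₁ h₁ : ℝ} (hd : 0 < d₀) (hh₁ : 0 < h₁)
    (mono : ∀ h h', 0 < h → h ≤ h' → L h ≤ L h') (nn : ∀ h, 0 < h → 0 ≤ L h)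
    (bdd : ∀ h, 0 < h → L h ≤ Λ)
    (grow : ∀ h, 0 < h → h ≤ h₁ → ∃ R H, 1 + d₀ ≤ R ∧ 0 < H ∧ H ≤ N₁ * R ^ 2 * h ∧
      R * L h ≤ L H) :
    ∀ h, 0 < h → L h ≤ Λ * (h / h₁) ^ expo d₀ N₁ := by
  set q : ℝ := 1 + d₀ with hq
  have hq1 : 1 < q := by linarith
  have hq0 : 0 < q := by linarith
  set N' : ℝ := max N₁ 1 with hN'
  have hN'1 : 1 ≤ N' := le_max_right _ _
  have hlogq : 0 < Real.log q := Real.log_pos hq1
  set κ : ℝ := 2 + Real.log N' / Real.log q with hκ
  have hκ0 : 0 < κ := by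
    have : 0 ≤ Real.log N' / Real.log q := div_nonneg (Real.log_nonneg hN'1) hlogq.le
    linarith
  have hα : expo d₀ N₁ = 1 / κ := rfl
  set α : ℝ := expo d₀ N₁ with hαdef
  have hα0 : 0 < α := expo_pos hd
  have hΛ : 0 ≤ Λ := (nn h₁ hh₁).trans (bdd h₁ hh₁)
  have hpow : ∀ r : ℝ, q ≤ r → N' * r ^ 2 ≤ r ^ κ := by
    intro r hr
    have hr0 : 0 < r := lt_of_lt_of_le hq0 hr
    have h1 : r ^ κ = r ^ (2 : ℝ) * r ^ (Real.log N' / Real.log q) := by
      rw [hκ, Real.rpow_add hr0]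
    have h2 : N' ≤ r ^ (Real.log N' / Real.log q) := by
      have h3 : q ^ (Real.log N' / Real.log q) = N' := by
        rw [Real.rpow_def_of_pos hq0, mul_div_cancel₀ _ hlogq.ne', Real.exp_log (by linarith)]
      calc N' = q ^ (Real.log N' / Real.log q) := h3.symm
        _ ≤ r ^ (Real.log N' / Real.log q) :=
          Real.rpow_le_rpow hq0.le hr (div_nonneg (Real.log_nonneg hN'1) hlogq.le)
    rw [h1, Real.rpow_two, mul_comm]
    exact mul_le_mul_of_nonneg_left h2 (by positivity)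
  set Q : ℝ := q ^ κ with hQ
  have hQ1 : 1 < Q := Real.one_lt_rpow hq1 hκ0
  have big : ∀ h, h₁ < h → L h ≤ Λ * (h / h₁) ^ α := by
    intro h hh
    have h1 : (1 : ℝ) ≤ (h / h₁) ^ α :=
      Real.one_le_rpow ((one_le_div hh₁).2 hh.le) hα0.le
    calc L h ≤ Λ := bdd h (hh₁.trans hh)
      _ = Λ * 1 := (mul_one _).symm
      _ ≤ Λ * (h / h₁) ^ α := mul_le_mul_of_nonneg_left h1 hΛ
  have main : ∀ k : ℕ, ∀ h, 0 < h → h₁ < h * Q ^ k → L h ≤ Λ * (h / h₁) ^ α := by
    intro k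
    induction k with
    | zero =>
      intro h _ hh
      rw [pow_zero, mul_one] at hh
      exact big h hh
    | succ k ih =>
      intro h hh0 hh
      by_cases hbig : h₁ < h
      · exact big h hbig
      obtain ⟨R, H, hR, hH0, hH, hL⟩ := grow h hh0 (not_lt.1 hbig)
      have hR0 : 0 < R := by linarith
      have hH' : H ≤ R ^ κ * h := by
        have e1 : N₁ * R ^ 2 * h ≤ N' * R ^ 2 * h := by
          have : N₁ ≤ N' := le_max_left _ _
          have h2 : 0 ≤ R ^ 2 * h := by positivity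
          nlinarith
        exact hH.trans (e1.trans (mul_le_mul_of_nonneg_right (hpow R hR) hh0.le))
      have hQR : Q ≤ R ^ κ := Real.rpow_le_rpow hq0.le hR hκ0.le
      have hh' : 0 < R ^ κ * h := by positivity
      have hbig' : h₁ < R ^ κ * h * Q ^ k := by
        have : h * Q ^ (k + 1) ≤ R ^ κ * h * Q ^ k := by
          rw [pow_succ]
          have : 0 ≤ h * Q ^ k := by positivity
          nlinarith
        linarith
      have hfin := ih (R ^ κ * h) hh' hbig'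
      have e2 : (R ^ κ * h / h₁) ^ α = R * (h / h₁) ^ α := by
        rw [mul_div_assoc, Real.mul_rpow (by positivity) (by positivity), ← Real.rpow_mul hR0.le,
          hα, mul_one_div_cancel hκ0.ne', Real.rpow_one]
      rw [e2] at hfin
      have h6 : R * L h ≤ R * (Λ * (h / h₁) ^ α) := by
        calc R * L h ≤ L H := hL
          _ ≤ L (R ^ κ * h) := mono _ _ hH0 hH'
          _ ≤ Λ * (R * (h / h₁) ^ α) := hfin
          _ = R * (Λ * (h / h₁) ^ α) := by ring
      exact le_of_mul_le_mul_left h6 hR0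
  intro h hh
  obtain ⟨k, hk⟩ := pow_unbounded_of_one_lt (h₁ / h) hQ1
  have hk' : h₁ < h * Q ^ k := by
    rw [div_lt_iff₀ hh] at hk
    linarith
  exact main k h hh hk'

variable {M : Type*} [MetricSpace M] [CompactSpace M] [MeasurableSpace M] [BorelSpace M]

/-- **E1.10, function form.**  For each `u` of the class there are Lipschitz maps `X, Y : M → M`
covering all contact pairs, and a modulus `L` of the gap with the growth property. -/
theorem estatement_of_growthL (vol : Measure M) (m : ℝ)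
    (hs : ∀ u ∈ Cls vol m, ∀ x, (cSub u x).Subsingleton)
    {Λ d₀ N₁ h₁ : ℝ} (hΛ : 0 ≤ Λ) (hd : 0 < d₀) (hh₁ : 0 < h₁)
    (hG : ∀ u ∈ Cls vol m, ∃ (X Y : M → M) (L : ℝ → ℝ),
      (∀ x y, y ∈ cSub u x → ∃ z, X z = x ∧ Y z = y) ∧
      (∀ z z', dist (X z) (X z') ≤ Λ * dist z z') ∧
      (∀ z z', dist (Y z) (Y z') ≤ Λ * dist z z') ∧
      (∀ h z z', 0 < h → Dg u (X z) (Y z') ≤ h → dist z z' ≤ L h) ∧
      (∀ h h', 0 < h → h ≤ h' → L h ≤ L h') ∧ (∀ h, 0 < h → 0 ≤ L h) ∧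
      (∀ h, 0 < h → L h ≤ Λ) ∧
      (∀ h, 0 < h → h ≤ h₁ → ∃ R H, 1 + d₀ ≤ R ∧ 0 < H ∧ H ≤ N₁ * R ^ 2 * h ∧
        R * L h ≤ L H)) :
    EStatement vol m := by
  refine estatement_of_decay vol m hs ⟨expo d₀ N₁, expo_pos hd, expo_le_one hd,
    Λ * (Λ / h₁ ^ expo d₀ N₁), ?_⟩
  intro u hu x y x' y' hy hy' h hh hD
  obtain ⟨X, Y, L, hc, hX, hY, hL, mono, nn, bdd, grow⟩ := hG u hu
  obtain ⟨z, rfl, rfl⟩ := hc x y hy
  obtain ⟨z', rfl, rfl⟩ := hc x' y' hy'
  have h1 := iterateL hd hh₁ mono nn bdd grow h hh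
  rw [Real.div_rpow hh.le hh₁.le] at h1
  have h2 : dist z z' ≤ Λ / h₁ ^ expo d₀ N₁ * h ^ expo d₀ N₁ := by
    calc dist z z' ≤ L h := hL h z z' hh hD
      _ ≤ Λ * (h ^ expo d₀ N₁ / h₁ ^ expo d₀ N₁) := h1
      _ = Λ / h₁ ^ expo d₀ N₁ * h ^ expo d₀ N₁ := by ring
  have h3 := mul_le_mul_of_nonneg_left h2 hΛ
  rw [← mul_assoc] at h3
  exact ⟨(hX z z').trans h3, (hY z z').trans h3⟩

end Crest.Agent.R226.HolderEnd2_915
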