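/-
R226 stream E1, glue (helper915): Engulf (Theorem 1) + single-valuedness (Theorem 2) +
`GD` instance + growth (Theorem 3) + iteration ⇒ `EStatement`.
-/
import Crest.Agent.R226.HolderEnd2_915
import Crest.Agent.R226.GrowthFin_762
import Crest.Agent.R226.E1Shape_964

set_option autoImplicit false
set_option linter.unusedSectionVars false

open MeasureTheory Set Filter Topology
open scoped ENNReal NNReal
open Crest.GeometryTopology.MTW

namespace Crest.Agent.R226.EGlue915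

open Crest.Agent.R226 Crest.Agent.R226.Kant624 Crest.Agent.R226.Reduction624
  Crest.Agent.R226.HolderEnd915 Crest.Agent.R226.HolderEnd2_915 Crest.Agent.R226.E1Shape964
  Crest.Agent.R226.Growth762

variable {M : Type*} [MetricSpace M]

theorem Lf_mono {X Y : M → M} {D : M → M → ℝ} {B h h' : ℝ} (hB : ∀ z z' : M, dist z z' ≤ B)
    (hB0 : 0 ≤ B) (hh : h ≤ h') : Lf X Y D h ≤ Lf X Y D h' := by
  unfold Lf
  refine Real.sSup_le ?_ ?_
  · rintro t ⟨z, z', rfl, h1⟩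
    refine le_csSup ⟨B, ?_⟩ ⟨z, z', rfl, ?_⟩
    · rintro t ⟨z, z', rfl, -⟩
      exact hB z z'
    · exact h1.imp (fun a => a.trans hh) (fun a => a.trans hh)
  · refine Real.sSup_nonneg ?_
    rintro t ⟨z, z', rfl, -⟩
    exact dist_nonneg

theorem Lf_nonneg {X Y : M → M} {D : M → M → ℝ} {h : ℝ} : 0 ≤ Lf X Y D h := by
  unfold Lf
  refine Real.sSup_nonneg ?_
  rintro t ⟨z, z', rfl, -⟩
  exact dist_nonneg

theorem Lf_le {X Y : M → M} {D : M → M → ℝ} {B h : ℝ} (hB : ∀ z z' : M, dist z z' ≤ B)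
    (hB0 : 0 ≤ B) : Lf X Y D h ≤ B := by
  unfold Lf
  refine Real.sSup_le ?_ hB0
  rintro t ⟨z, z', rfl, -⟩
  exact hB z z'

variable [CompactSpace M] [MeasurableSpace M] [BorelSpace M]

/-- **Glue**: engulfing for the pinched class, single-valuedness and the `GD` instance (with
constants depending only on the engulfing constant) give `EStatement`. -/
theorem estatement_of_GD (vol : Measure M) (m : ℝ)
    (hE : ∃ K0 : ℝ, ∀ u : M → ℝ, CConv u → AlexPinch vol u m → EngulfP K0 u)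
    (hs : ∀ K0 : ℝ, ∀ u : M → ℝ, CConv u → EngulfP K0 u → ∀ x, (cSub u x).Subsingleton)
    (hGD : ∀ K0 : ℝ, 1 ≤ K0 → ∃ (Λ C r μ0 : ℝ) (ω : ℝ → ℝ), 1 ≤ Λ ∧ 1 ≤ C ∧ 0 < r ∧ 0 < μ0 ∧
      (∀ ε, 0 < ε → 0 < ω ε) ∧ ∀ u : M → ℝ, CConv u → EngulfP K0 u →
        ∃ (X Y : M → M) (DX DY : M → M → ℝ) (ell : M → M → M → ℝ),
          GD K0 Λ C r μ0 ω X Y (fun x y => u x + ctr u y + halfDistSq x y) DX DY ell ∧
          (∀ x y, y ∈ cSub u x → ∃ z, X z = x ∧ Y z = y) ∧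
          (∀ z z', dist (X z) (X z') ≤ Λ * dist z z') ∧
          (∀ z z', dist (Y z) (Y z') ≤ Λ * dist z z')) :
    EStatement vol m := by
  obtain ⟨K1, hK1⟩ := hE
  set K0 : ℝ := max K1 1 with hK0
  have hK01 : 1 ≤ K0 := le_max_right _ _
  have hE' : ∀ u ∈ Cls vol m, EngulfP K0 u := by
    intro u hu x xh y y0
    have h1 := hK1 u hu.1 hu.2.1 x xh y y0
    refine h1.trans ?_
    have hnn : 0 ≤ max (Dd u x y0) (max (Dd u xh y0) (Dd u xh y)) :=
      le_max_of_le_left (Dg_nonneg hu.1 x y0)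
    exact mul_le_mul_of_nonneg_right (le_max_left _ _) hnn
  obtain ⟨Λ, C, r, μ0, ω, hΛ, hC, hr, hμ0, hω, H⟩ := hGD K0 hK01
  obtain ⟨h1, d0, N1, hh1, hd0, hN1, Hg⟩ := growth K0 Λ C r μ0 ω hK01 hΛ hC hr hμ0 hω
  refine estatement_of_growthL vol m (fun u hu => hs K0 u hu.1 (hE' u hu)) (Λ := Λ) (d₀ := d0)
    (N₁ := N1) (h₁ := h1) (by linarith) hd0 hh1 ?_
  intro u hu
  obtain ⟨X, Y, DX, DY, ell, hG, hcon, hX, hY⟩ := H u hu.1 (hE' u hu)
  have hbdd : ∀ z z' : M, dist z z' ≤ Λ := hG.bdd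
  refine ⟨X, Y, Lf X Y (fun x y => u x + ctr u y + halfDistSq x y), hcon, hX, hY, ?_, ?_, ?_, ?_,
    ?_⟩
  · intro h z z' _ hD
    exact hG.dist_le_Lf hD
  · intro h h' _ hhh
    exact Lf_mono hbdd (by linarith) hhh
  · intro h _
    exact Lf_nonneg
  · intro h _
    exact Lf_le hbdd (by linarith)
  · intro h hh hh'
    exact (Hg X Y _ DX DY ell hG h hh hh').2.2

end Crest.Agent.R226.EGlue915
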