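/-
R226 E1.2 (helper700): Step 1 of Theorem 1 (doc 848) on the manifold.

Hypotheses used:
* `GoodAll G` (convexity of sections, `Dasm290`), compactness of `KT` (`CutFacts`);
* weak QQ: `∀ y₀ y, WQ (fun q => ‖q‖²/2 - c(y, exp_{y₀} q)) (K y₀) t₀`;
* `J`-monotonicity for compact subsets of `K`.

Main results:
* `step1`      : a constant `C₁(n, t₀)` and, for each section `C = secX G u y₀ h`, a centre `c ∈ C`
                 such that for `z ∈ C`, `x' = exp(c + (z - c)/4)`, `y ∈ ∂_c u(x')`: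
                 `|F_y(x) - F_y(x')| ≤ C₁ h` for `x ∈ exp C`, with `F_y(x) = c(x,y₀) - c(x,y)`.
* `vol_quarter`, `vol_cSub_quarter` : the core `exp(c + (C - c)/4)` has comparable volume, and so do
                 the `c`-subdifferentials.
-/
import Crest.Agent.R226.CentGeo_700
import Crest.Agent.R226.Dasm_290
import Crest.Agent.R226.CC0_227

set_option autoImplicit false
set_option linter.unusedSectionVars false

open MeasureTheory Bundle Set Filter Module
open scoped Manifold ContDiff Bundle ENNReal Topology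
open Crest.GeometryTopology.MTW

namespace Crest.Agent.R226.EStep1700

open Crest.Agent.R226 Crest.Agent.R226.Kant624 Crest.Agent.R226.Dasm290
open Crest.Agent.R226.CentGeo700

variable {n : ℕ} {M : Type*} [MetricSpace M] [ChartedSpace (EuclideanSpace ℝ (Fin n)) M]
  [IsManifold (𝓡 n) ∞ M]
  [RiemannianBundle (fun p : M => TangentSpace (𝓡 n) p)]

/-- the contraction `z ↦ c + (z - c)/4` towards `c` -/
noncomputable def quarter {V : Type*} [AddCommGroup V] [Module ℝ V] (c z : V) : V :=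
  c + (1 / 4 : ℝ) • (z - c)

/-- `F_y(x) = c(x,y₀) - c(x,y)` -/
noncomputable def Fd (y₀ y x : M) : ℝ := halfDistSq x y₀ - halfDistSq x y

/-- the function of the weak QQ inequality: `q ↦ ‖q‖²/2 - c(y, exp_{y₀} q)` -/
noncomputable def fq (G : GeoData n M) (y₀ y : M) (q : TangentSpace (𝓡 n) y₀) : ℝ :=
  ‖q‖ ^ 2 / 2 - halfDistSq y (G.ex y₀ q)

lemma fq_eq_Fd (G : GeoData n M) {y₀ y : M} {q : TangentSpace (𝓡 n) y₀} (hq : q ∈ G.K y₀) :
    fq G y₀ y q = Fd y₀ y (G.ex y₀ q) := by
  unfold fq Fd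
  rw [halfDistSq_ex' hq, halfDistSq_comm y]

lemma finrank_tangent (x : M) : finrank ℝ (TangentSpace (𝓡 n) x) = n := by
  have : finrank ℝ (EuclideanSpace ℝ (Fin n)) = n := finrank_euclideanSpace_fin
  exact this

section Compact

variable {G : GeoData n M}

lemma isCompact_K (hC : CutFacts G) (x : M) : IsCompact (G.K x) :=
  CC0227.isCompact_fibre hC.isCompact_KT x

variable [CompactSpace M]

lemma isCompact_secX (hC : CutFacts G) {u : M → ℝ} (hu : Continuous u) (y : M) (h : ℝ) :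
    IsCompact (secX G u y h) := by
  have h1 : IsCompact (G.K y) := isCompact_K hC y
  have h2 : Continuous (fun q : TangentSpace (𝓡 n) y => G.ex y q) :=
    G.smooth.continuous.comp (FiberBundle.continuous_totalSpaceMk (EuclideanSpace ℝ (Fin n))
      (fun p : M => TangentSpace (𝓡 n) p) y)
  have h3 : Continuous (fun q : TangentSpace (𝓡 n) y => gap u (G.ex y q) y) :=
    (continuous_gap hu).comp (h2.prodMk continuous_const)
  exact h1.inter_right (isClosed_le h3 continuous_const)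

lemma secX_nonempty {u : M → ℝ} (hu : CConv u) (y : M) {h : ℝ} (hh : 0 ≤ h) :
    (secX G u y h).Nonempty := by
  obtain ⟨x, hx⟩ := CConv_ctr (CConv.continuous hu) y
  obtain ⟨q, hq, hqx⟩ := exists_mem_K G y x
  refine ⟨q, hq, ?_⟩
  have h1 := (gap_eq_zero_iff (CConv.continuous (CConv_ctr (CConv.continuous hu)))).2 hx
  rw [gap_ctr hu] at h1
  rw [hqx, h1]
  exact hh

end Compact

section Step1

variable [CompactSpace M]

/-- the constant of Step 1 -/
theorem step1 (n : ℕ) {t₀ : ℝ} (ht0 : 0 < t₀) (ht1 : t₀ < 1) : ∃ C₁ : ℝ, 1 ≤ C₁ ∧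
    ∀ {M : Type*} [MetricSpace M] [ChartedSpace (EuclideanSpace ℝ (Fin n)) M]
      [IsManifold (𝓡 n) ∞ M] [RiemannianBundle (fun p : M => TangentSpace (𝓡 n) p)]
      [CompactSpace M] (G : GeoData n M), CutFacts G → GoodAll G →
      (∀ y₀ y : M, WQ (fq G y₀ y) (G.K y₀) t₀) →
      ∀ (u : M → ℝ), CConv u → ∀ (y₀ : M) (h : ℝ), 0 ≤ h →
        ∃ c ∈ secX G u y₀ h, ∀ z ∈ secX G u y₀ h, ∀ y ∈ cSub u (G.ex y₀ (quarter c z)),
          ∀ q ∈ secX G u y₀ h,
            |Fd y₀ y (G.ex y₀ q) - Fd y₀ y (G.ex y₀ (quarter c z))| ≤ C₁ * h := by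
  obtain ⟨C₁, hC₁, H⟩ := step1_abs.{0} (max n 1) (by positivity) ht0 ht1
  refine ⟨C₁, hC₁, ?_⟩
  intro M _ _ _ _ _ G hC hg hQ u hu y₀ h hh
  have : FiniteDimensional ℝ (TangentSpace (𝓡 n) y₀) := CC0227.finiteDim y₀
  have huc := CConv.continuous hu
  have hconv := convex_secX hg hu y₀ h
  obtain ⟨c, hc, Hc⟩ := H (TangentSpace (𝓡 n) y₀) (by rw [finrank_tangent]; exact le_max_left _ _)
    (secX G u y₀ h) (isCompact_secX hC huc y₀ h) hconv (secX_nonempty hu y₀ hh)
  refine ⟨c, hc, ?_⟩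
  intro z hz y hy q hq
  have hsub : secX G u y₀ h ⊆ G.K y₀ := fun q hq => hq.1
  have hq'C : quarter c z ∈ secX G u y₀ h := by
    have := hconv hc hz (a := 3 / 4) (b := 1 / 4) (by norm_num) (by norm_num) (by norm_num)
    convert this using 1
    unfold quarter
    module
  have hy0 : gap u (G.ex y₀ (quarter c z)) y = 0 := (gap_eq_zero_iff huc).2 hy
  have key := Hc (fq G y₀ y) h hh ((hQ y₀ y).mono hsub) z hz ?_ q hq
  · have e1 := fq_eq_Fd G (y := y) (hsub hq)
    have e2 := fq_eq_Fd G (y := y) (hsub hq'C)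
    rw [← e1, ← e2]
    exact key
  · intro q hq
    show fq G y₀ y q ≤ fq G y₀ y (quarter c z) + h
    rw [fq_eq_Fd G (hsub hq), fq_eq_Fd G (hsub hq'C)]
    have h1 := gap_nonneg huc (G.ex y₀ q) y
    have h2 := hq.2
    have h3 := gap_nonneg huc (G.ex y₀ (quarter c z)) y₀
    unfold gap at h1 h2 h3 hy0
    unfold Fd
    linarith

end Step1

section Measure

variable [CompactSpace M] [MeasurableSpace M] [BorelSpace M] {G : GeoData n M}

/-- `J`-monotonicity (compact version), `= JMono` of the plan. -/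
def JM (G : GeoData n M) (vol : Measure M) (cW : ℝ) : Prop :=
  ∀ x : M, ∀ A : Set (TangentSpace (𝓡 n) x), A ⊆ G.K x → IsCompact A → ∀ p₁ ∈ G.K x,
    ∀ t : ℝ, 0 ≤ t → t ≤ 1 / 2 →
      ENNReal.ofReal cW * vol (G.ex x '' A) ≤
        vol (G.ex x '' ((fun p => (1 - t) • p + t • p₁) '' A))

/-- contraction by `1/4` of a compact convex subset towards one of its points. -/
theorem vol_quarter (hg : GoodAll G) {vol : Measure M} {cW : ℝ} (hcW : 0 ≤ cW)
    (hJ : JM G vol cW) {x : M} {A : Set (TangentSpace (𝓡 n) x)} (hA : A ⊆ G.K x)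
    (hAc : IsCompact A) {c : TangentSpace (𝓡 n) x} (hc : c ∈ G.K x) :
    ENNReal.ofReal (cW ^ 2) * vol (G.ex x '' A) ≤ vol (G.ex x '' (quarter c '' A)) := by
  have h1 := hJ x A hA hAc c hc (1 / 2) (by norm_num) le_rfl
  set A' : Set (TangentSpace (𝓡 n) x) :=
    (fun p => (1 - (1 / 2 : ℝ)) • p + (1 / 2 : ℝ) • c) '' A with hA'
  have hA'K : A' ⊆ G.K x := by
    rintro _ ⟨p, hp, rfl⟩
    exact convex_K hg x (hA hp) hc (by norm_num) (by norm_num) (by norm_num)
  have hA'c : IsCompact A' := hAc.image (by fun_prop)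
  have h2 := hJ x A' hA'K hA'c c hc (1 / 2) (by norm_num) le_rfl
  have h3 : (fun p => (1 - (1 / 2 : ℝ)) • p + (1 / 2 : ℝ) • c) '' A' = quarter c '' A := by
    rw [hA', image_image]
    refine image_congr fun p _ => ?_
    unfold quarter
    module
  rw [h3] at h2
  calc ENNReal.ofReal (cW ^ 2) * vol (G.ex x '' A)
      = ENNReal.ofReal cW * (ENNReal.ofReal cW * vol (G.ex x '' A)) := by
        rw [pow_two, ENNReal.ofReal_mul hcW, mul_assoc]
    _ ≤ ENNReal.ofReal cW * vol (G.ex x '' A') := by gcongr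
    _ ≤ _ := h2


/-- the `c`-subdifferential of the core has a definite proportion of the volume of the
`c`-subdifferential of the whole section. -/
theorem vol_cSub_quarter (hg : GoodAll G) {vol : Measure M} {cW : ℝ} (hcW : 0 ≤ cW)
    (hJ : JM G vol cW) {u : M → ℝ} {m : ℝ} (hm : 0 ≤ m) (hP : AlexPinch vol u m) {x : M}
    {A : Set (TangentSpace (𝓡 n) x)} (hA : A ⊆ G.K x) (hAc : IsCompact A)
    {c : TangentSpace (𝓡 n) x} (hc : c ∈ G.K x) :
    ENNReal.ofReal (m ^ 2 * cW ^ 2) * vol (⋃ x' ∈ G.ex x '' A, cSub u x') ≤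
      vol (⋃ x' ∈ G.ex x '' (quarter c '' A), cSub u x') := by
  have hex : Continuous (fun q : TangentSpace (𝓡 n) x => G.ex x q) :=
    G.smooth.continuous.comp (FiberBundle.continuous_totalSpaceMk (EuclideanSpace ℝ (Fin n))
      (fun p : M => TangentSpace (𝓡 n) p) x)
  have hq : Continuous (quarter c : TangentSpace (𝓡 n) x → TangentSpace (𝓡 n) x) := by
    unfold quarter; fun_prop
  have hS : MeasurableSet (G.ex x '' A) := (hAc.image hex).measurableSet
  have hS' : MeasurableSet (G.ex x '' (quarter c '' A)) := ((hAc.image hq).image hex).measurableSet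
  have h1 := (hP _ hS').1
  have h2 := (hP _ hS).2
  have h3 := vol_quarter hg hcW hJ hA hAc hc
  calc ENNReal.ofReal (m ^ 2 * cW ^ 2) * vol (⋃ x' ∈ G.ex x '' A, cSub u x')
      = ENNReal.ofReal m * (ENNReal.ofReal (cW ^ 2) *
          (ENNReal.ofReal m * vol (⋃ x' ∈ G.ex x '' A, cSub u x'))) := by
        rw [ENNReal.ofReal_mul (by positivity), pow_two, ENNReal.ofReal_mul hm]
        ring
    _ ≤ ENNReal.ofReal m * (ENNReal.ofReal (cW ^ 2) * vol (G.ex x '' A)) := by gcongr
    _ ≤ ENNReal.ofReal m * vol (G.ex x '' (quarter c '' A)) := by gcongr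
    _ ≤ _ := h1

end Measure

end Crest.Agent.R226.EStep1700
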