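/-
R226 E1.2 (helper700): output of Step 1 in the shape `Step1P` of `E1Shape_964`.
-/
import Crest.Agent.R226.EStep1_700
import Crest.Agent.R226.E1Shape_964

set_option autoImplicit false
set_option linter.unusedSectionVars false

open MeasureTheory Bundle Set Filter Module
open scoped Manifold ContDiff Bundle ENNReal Topology
open Crest.GeometryTopology.MTW

namespace Crest.Agent.R226.EStep1P700

open Crest.Agent.R226 Crest.Agent.R226.Kant624 Crest.Agent.R226.Dasm290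
open Crest.Agent.R226.CentGeo700 Crest.Agent.R226.EStep1700 Crest.Agent.R226.E1Shape964

variable {n : ℕ} {M : Type*} [MetricSpace M] [ChartedSpace (EuclideanSpace ℝ (Fin n)) M]
  [IsManifold (𝓡 n) ∞ M]
  [RiemannianBundle (fun p : M => TangentSpace (𝓡 n) p)] [CompactSpace M]

/-- the exponential of the section `secX` is the section `Sec` of `M`. -/
lemma image_secX (G : GeoData n M) (u : M → ℝ) (y₀ : M) (h : ℝ) :
    G.ex y₀ '' (secX G u y₀ h) = Sec u h y₀ := by
  ext x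
  constructor
  · rintro ⟨q, hq, rfl⟩
    exact hq.2
  · intro hx
    obtain ⟨q, hq, hqx⟩ := exists_mem_K G y₀ x
    refine ⟨q, ⟨hq, ?_⟩, hqx⟩
    rw [hqx]; exact hx

theorem step1P [MeasurableSpace M] [BorelSpace M] {G : GeoData n M} (hC : CutFacts G)
    (hg : GoodAll G) {τ : ℝ} (hτ : 0 < τ) (hQ : QQw G τ) {vol : Measure M} {cW : ℝ}
    (hcW : 0 ≤ cW) (hJ : JMonoC G vol cW) :
    ∃ C1 : ℝ, 1 ≤ C1 ∧ ∀ u : M → ℝ, CConv u → Step1P vol C1 (cW ^ 2) u := by
  obtain ⟨C₁, hC₁, H⟩ := step1 n (t₀ := min τ (1 / 2)) (lt_min hτ (by norm_num))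
    (lt_of_le_of_lt (min_le_right _ _) (by norm_num))
  refine ⟨C₁, hC₁, ?_⟩
  intro u hu y₀ h hh
  have hWQ : ∀ y₀ y : M, WQ (fq G y₀ y) (G.K y₀) (min τ (1 / 2)) := by
    intro y₀ y p₀ h₀ p₁ h₁ t ht ht'
    exact hQ y₀ y p₀ h₀ p₁ h₁ t ht (ht'.trans (min_le_left _ _))
  obtain ⟨c, hc, Hc⟩ := H G hC hg hWQ u hu y₀ h hh.le
  have huc := CConv.continuous hu
  have hsub : secX G u y₀ h ⊆ G.K y₀ := fun q hq => hq.1
  have hcomp := isCompact_secX hC huc y₀ h
  have hconv := convex_secX hg hu y₀ h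
  have hex : Continuous (fun q : TangentSpace (𝓡 n) y₀ => G.ex y₀ q) :=
    G.smooth.continuous.comp (FiberBundle.continuous_totalSpaceMk (EuclideanSpace ℝ (Fin n))
      (fun p : M => TangentSpace (𝓡 n) p) y₀)
  have hq : Continuous (quarter c : TangentSpace (𝓡 n) y₀ → TangentSpace (𝓡 n) y₀) := by
    unfold quarter; fun_prop
  have hqC : ∀ z ∈ secX G u y₀ h, quarter c z ∈ secX G u y₀ h := by
    intro z hz
    have := hconv hc hz (a := 3 / 4) (b := 1 / 4) (by norm_num) (by norm_num) (by norm_num)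
    convert this using 1
    unfold quarter
    module
  refine ⟨G.ex y₀ '' (quarter c '' (secX G u y₀ h)), (hcomp.image hq).image hex, ?_, ?_, ?_⟩
  · rw [← image_secX G]
    rintro _ ⟨_, ⟨z, hz, rfl⟩, rfl⟩
    exact ⟨_, hqC z hz, rfl⟩
  · rw [← image_secX G]
    exact vol_quarter hg hcW hJ hsub hcomp hc.1
  · rintro _ ⟨_, ⟨z, hz, rfl⟩, rfl⟩ y hy x hx
    rw [← image_secX G] at hx
    obtain ⟨q, hq, rfl⟩ := hx
    exact Hc z hz y hy q hq

end Crest.Agent.R226.EStep1P700
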