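/-
R226 / E1.4 (helper964): Theorem 1 of doc 848 (engulfing), assembled from Steps 1, 2 and the
counting lemma.
-/
import Crest.Agent.R226.E1Shape_964
import Crest.Agent.R226.Count_964
import Crest.Agent.R226.CutTop_478
import Crest.Agent.R226.Good_272

set_option autoImplicit false
set_option linter.unusedSectionVars false

open MeasureTheory Bundle Set Filter
open scoped Manifold ContDiff Bundle ENNReal Topology
open Crest.GeometryTopology.MTW

namespace Crest.Agent.R226.Engulf964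

open Crest.Agent.R226 Crest.Agent.R226.Kant624 Crest.Agent.R226.E1Shape964

section Metric

variable {M : Type*} [MetricSpace M] [CompactSpace M]

lemma Dd_nonneg {u : M → ℝ} (hu : CConv u) (x y : M) : 0 ≤ Dd u x y := by
  have := le_ctr (CConv.continuous hu) x y
  unfold Dd; linarith

lemma continuous_Dd {u : M → ℝ} (hu : CConv u) : Continuous (fun p : M × M => Dd u p.1 p.2) := by
  have h1 := CConv.continuous hu
  have h2 := continuous_ctr h1
  have h3 := continuous_halfDistSq (M := M)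
  unfold Dd
  fun_prop

lemma isClosed_Sec {u : M → ℝ} (hu : CConv u) (h : ℝ) (y0 : M) : IsClosed (Sec u h y0) := by
  have h1 : Continuous (fun x : M => Dd u x y0) :=
    (continuous_Dd hu).comp (continuous_id.prodMk continuous_const)
  exact isClosed_le h1 continuous_const

/-- `∂_c u (S)` is compact for compact `S`. -/
lemma isCompact_cImg {u : M → ℝ} (hu : CConv u) {S : Set M} (hS : IsCompact S) :
    IsCompact (cImg u S) := by
  have h1 : IsClosed {p : M × M | Dd u p.1 p.2 = 0} :=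
    isClosed_eq (continuous_Dd hu) continuous_const
  have h2 : IsCompact ((S ×ˢ (univ : Set M)) ∩ {p : M × M | Dd u p.1 p.2 = 0}) :=
    (hS.prod isCompact_univ).inter_right h1
  have h3 : cImg u S = Prod.snd '' ((S ×ˢ (univ : Set M)) ∩ {p : M × M | Dd u p.1 p.2 = 0}) := by
    ext y
    simp only [cImg, mem_iUnion, mem_image, mem_inter_iff, mem_prod, mem_univ, and_true,
      exists_prop]
    constructor
    · rintro ⟨x, hx, hy⟩
      exact ⟨(x, y), ⟨hx, (mem_cSub_iff (CConv.continuous hu) x y).1 hy⟩, rfl⟩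
    · rintro ⟨⟨x, y'⟩, ⟨hx, hy⟩, rfl⟩
      exact ⟨x, hx, (mem_cSub_iff (CConv.continuous hu) x y').2 hy⟩
  rw [h3]
  exact h2.image continuous_snd

lemma Sec_pos [MeasurableSpace M] [BorelSpace M] (vol : Measure M) [vol.IsOpenPosMeasure]
    {u : M → ℝ} (hu : CConv u) {h : ℝ} (hh : 0 < h) (y0 : M) : 0 < vol (Sec u h y0) := by
  obtain ⟨x0, hx0, -⟩ := exists_ctr (CConv.continuous hu) y0
  have h1 : Continuous (fun x : M => Dd u x y0) :=
    (continuous_Dd hu).comp (continuous_id.prodMk continuous_const)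
  have h2 : IsOpen {x : M | Dd u x y0 < h} := isOpen_lt h1 continuous_const
  have h3 : ({x : M | Dd u x y0 < h}).Nonempty := by
    refine ⟨x0, ?_⟩
    have : Dd u x0 y0 = 0 := by unfold Dd; linarith
    show Dd u x0 y0 < h
    rw [this]; exact hh
  refine lt_of_lt_of_le (h2.measure_pos vol h3) (measure_mono ?_)
  intro x hx
  have hx' : Dd u x y0 < h := hx
  exact hx'.le

end Metric

section Geo

variable {n : ℕ} {M : Type*} [MetricSpace M] [ChartedSpace (EuclideanSpace ℝ (Fin n)) M]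
  [IsManifold (𝓡 n) ∞ M]
  [RiemannianBundle (fun p : M => TangentSpace (𝓡 n) p)]
  [IsContMDiffRiemannianBundle (𝓡 n) ∞ (EuclideanSpace ℝ (Fin n))
    (fun p : M => TangentSpace (𝓡 n) p)]
  [CompactSpace M] [MeasurableSpace M] [BorelSpace M]
  {G : GeoData n M}

lemma continuous_exx (G : GeoData n M) (x : M) : Continuous (G.ex x) :=
  (CutTop478.continuous_ex G).comp (CutTop478.continuous_mk x)

/-- the exponent used in the engulfing constant -/
lemma exists_k {τ : ℝ} (hτ0 : 0 < τ) (hτ1 : τ < 1) {ε : ℝ} (hε : 0 < ε) :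
    ∃ k : ℕ, 1 ≤ k ∧ (1 - τ) ^ k ≤ ε := by
  obtain ⟨k, hk⟩ := exists_pow_lt_of_lt_one hε (show 1 - τ < 1 by linarith)
  refine ⟨k + 1, by omega, ?_⟩
  have h1 : (1 - τ) ^ (k + 1) ≤ (1 - τ) ^ k :=
    pow_le_pow_of_le_one (by linarith) (by linarith) (Nat.le_succ k)
  linarith

/-- **Theorem 1 of doc 848**, for one potential `u`, given Steps 1 and 2. -/
theorem engulf_of_steps (vol : Measure M) [IsFiniteMeasure vol] [vol.IsOpenPosMeasure]
    {τ : ℝ} (hτ0 : 0 < τ) (hτ1 : τ < 1) (hQ : QQw G τ)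
    {cW : ℝ} (hcW : 0 < cW) (hJ : JMonoC G vol cW) (hnull : CutNullP G vol)
    {C1 c1 m B CB : ℝ} (hC1 : 0 ≤ C1) (hc1 : 0 < c1) (hm : 0 < m) (hCB : 0 < CB)
    (hB1 : 2 * C1 ≤ B) (hB2 : 3 / 2 ≤ B)
    {k : ℕ} (hk1 : 1 ≤ k) (hk : (1 - τ) ^ k ≤ cW / (2 * (CB / (m * c1 * m))))
    {u : M → ℝ} (hu : CConv u) (hP : AlexPinch vol u m)
    (h1 : Step1P vol C1 c1 u) (h2 : Step2P G vol B CB u) :
    EngulfP (2 + 2 ^ (k + 3) * C1) u := by
  intro x xh y y0
  have hcont := CConv.continuous hu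
  -- it is enough to treat `h > 0` above the maximum
  have main : ∀ h : ℝ, 0 < h → Dd u x y0 ≤ h → Dd u xh y0 ≤ h → Dd u xh y ≤ h →
      Dd u x y ≤ (2 + 2 ^ (k + 3) * C1) * h := by
    intro h hh a1 a2 a3
    have hh' : 0 < 2 * h := by linarith
    obtain ⟨S', hS'c, hS'S, hS'v, hS'⟩ := h1 y0 (2 * h) hh'
    obtain ⟨hconv, hvolSo⟩ := h2 y0 (2 * h) hh' xh (by linarith)
    set S : Set M := Sec u (2 * h) y0 with hSdef
    set Yc : Set M := cImg u S' with hYc
    have hxhS : xh ∈ S := by show Dd u xh y0 ≤ 2 * h; linarith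
    have hxS : x ∈ S := by show Dd u x y0 ≤ 2 * h; linarith
    have hYcomp : IsCompact Yc := isCompact_cImg hu hS'c
    have hexc := continuous_exx G xh
    -- the sets in the tangent space
    set P : Set (TangentSpace (𝓡 n) xh) := {p | p ∈ G.K xh ∧ G.ex xh p ∈ Yc} with hPdef
    set Q : Set (TangentSpace (𝓡 n) xh) :=
      {p | p ∈ G.K xh ∧ G.ex xh p ∈ SoB u (2 * h) y0 xh B} with hQdef
    have himg : ∀ Z : Set M, G.ex xh '' {p | p ∈ G.K xh ∧ G.ex xh p ∈ Z} = Z := by
      intro Z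
      ext z
      constructor
      · rintro ⟨p, hp, rfl⟩; exact hp.2
      · intro hz
        obtain ⟨v, hv, hn⟩ := G.surj xh z
        refine ⟨v, ⟨?_, ?_⟩, hv⟩
        · show dist xh (G.ex xh v) = ‖v‖
          rw [hv, hn]
        · rw [hv]; exact hz
    have hPimg : G.ex xh '' P = Yc := himg Yc
    have hQimg : G.ex xh '' Q = SoB u (2 * h) y0 xh B := himg _
    have hPcomp : IsCompact P :=
      (CutTop478.isCompact_K G xh).inter_right (hYcomp.isClosed.preimage hexc)
    -- bound of `F_y` on `Yc`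
    have hF : ∀ y' ∈ Yc, ∀ a ∈ S, ∀ b ∈ S, Fd y0 y' a - Fd y0 y' b ≤ 2 * C1 * (2 * h) := by
      intro y' hy' a ha b hb
      simp only [hYc, cImg, mem_iUnion, exists_prop] at hy'
      obtain ⟨x', hx', hyx'⟩ := hy'
      have b1 := hS' x' hx' y' hyx' a ha
      have b2 := hS' x' hx' y' hyx' b hb
      rw [abs_le] at b1 b2
      linarith [b1.2, b2.1]
    have hPQ : P ⊆ Q := by
      rintro p ⟨hpK, hpY⟩
      refine ⟨hpK, fun a ha => ?_⟩
      have b1 := hF _ hpY a ha xh hxhS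
      have b2 : 2 * C1 * (2 * h) ≤ B * (2 * h) := mul_le_mul_of_nonneg_right hB1 hh'.le
      linarith
    -- the function `ν`
    set ν : M → ℝ := fun y' => Fd y0 y' xh - Fd y0 y' x with hν
    have hνC : ∀ p ∈ P, |ν (G.ex xh p)| ≤ 2 * C1 * (2 * h) := by
      rintro p ⟨hpK, hpY⟩
      rw [abs_le]
      constructor
      · have := hF _ hpY x hxS xh hxhS
        simp only [hν]; linarith
      · have := hF _ hpY xh hxhS x hxS
        simp only [hν]; linarith
    have hνf : ∀ p ∈ G.K xh, ν (G.ex xh p) =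
        (halfDistSq xh y0 - halfDistSq x y0) - (‖p‖ ^ 2 / 2 - halfDistSq x (G.ex xh p)) := by
      intro p hp
      have hp' : dist xh (G.ex xh p) = ‖p‖ := hp
      have e1 : halfDistSq xh (G.ex xh p) = ‖p‖ ^ 2 / 2 := by unfold halfDistSq; rw [hp']
      simp only [hν, Fd]
      rw [e1]; ring
    have hqq : ∀ p0 ∈ Q, ∀ p1 ∈ Q, ∀ t : ℝ, 0 ≤ t → t ≤ τ →
        ν (G.ex xh p0) - max (ν (G.ex xh p0) - ν (G.ex xh p1)) 0 / 2 ≤
          ν (G.ex xh ((1 - t) • p0 + t • p1)) := by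
      intro p0 hp0 p1 hp1 t ht0 ht1
      have c1 := hQ xh x p0 hp0.1 p1 hp1.1 t ht0 ht1
      have hmem : (1 - t) • p0 + t • p1 ∈ Q :=
        hconv hp0 hp1 (by linarith) ht0 (by ring)
      rw [hνf _ hp0.1, hνf _ hp1.1, hνf _ hmem.1]
      have e2 : (halfDistSq xh y0 - halfDistSq x y0) -
          (‖p0‖ ^ 2 / 2 - halfDistSq x (G.ex xh p0)) -
          ((halfDistSq xh y0 - halfDistSq x y0) -
          (‖p1‖ ^ 2 / 2 - halfDistSq x (G.ex xh p1))) =
          (‖p1‖ ^ 2 / 2 - halfDistSq x (G.ex xh p1)) -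
          (‖p0‖ ^ 2 / 2 - halfDistSq x (G.ex xh p0)) := by ring
      rw [e2]
      linarith
    -- the vector of `y`
    obtain ⟨pL, hpLy, hpLn⟩ := G.surj xh y
    have hpLK : pL ∈ G.K xh := by
      show dist xh (G.ex xh pL) = ‖pL‖
      rw [hpLy, hpLn]
    have hpLQ : pL ∈ Q := by
      refine ⟨hpLK, ?_⟩
      rw [hpLy]
      intro a ha
      have b1 : Dd u a y0 ≤ 2 * h := ha
      have b2 := Dd_nonneg hu a y
      have b3 := Dd_nonneg hu xh y0
      have e3 : Fd y0 y a - Fd y0 y xh = Dd u a y0 - Dd u a y - Dd u xh y0 + Dd u xh y := by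
        unfold Fd Dd; ring
      rw [e3]
      nlinarith
    -- volumes
    have hvS : 0 < vol S := Sec_pos vol hu hh' y0
    have hvS' : 0 < vol S' := by
      refine lt_of_lt_of_le ?_ hS'v
      exact ENNReal.mul_pos (by simpa using hc1) hvS.ne'
    have hSm : MeasurableSet S := (isClosed_Sec hu _ _).measurableSet
    have hS'm : MeasurableSet S' := hS'c.isClosed.measurableSet
    have p1 : ENNReal.ofReal m * vol S' ≤ vol Yc := (hP S' hS'm).1
    have p2 : ENNReal.ofReal m * vol (cImg u S) ≤ vol S := (hP S hSm).2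
    have hYpos : vol Yc ≠ 0 := by
      refine (lt_of_lt_of_le ?_ p1).ne'
      exact ENNReal.mul_pos (by simpa using hm) hvS'.ne'
    have hYfin : vol Yc ≠ ⊤ := measure_ne_top vol Yc
    have p3 : ENNReal.ofReal (m * c1 * m) * vol (cImg u S) ≤ vol Yc := by
      calc ENNReal.ofReal (m * c1 * m) * vol (cImg u S)
          = ENNReal.ofReal m * (ENNReal.ofReal c1 * (ENNReal.ofReal m * vol (cImg u S))) := by
            rw [ENNReal.ofReal_mul (by positivity), ENNReal.ofReal_mul hm.le]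
            ring
        _ ≤ ENNReal.ofReal m * (ENNReal.ofReal c1 * vol S) := by gcongr
        _ ≤ ENNReal.ofReal m * vol S' := by gcongr
        _ ≤ vol Yc := p1
    have hmm : 0 < m * c1 * m := by positivity
    have hvol : vol (G.ex xh '' Q) ≤ ENNReal.ofReal (CB / (m * c1 * m)) * vol (G.ex xh '' P) := by
      rw [hPimg, hQimg]
      calc vol (SoB u (2 * h) y0 xh B) ≤ ENNReal.ofReal CB * vol (cImg u S) := hvolSo
        _ = ENNReal.ofReal (CB / (m * c1 * m)) *
            (ENNReal.ofReal (m * c1 * m) * vol (cImg u S)) := by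
            rw [← mul_assoc, ← ENNReal.ofReal_mul (by positivity)]
            congr 2
            field_simp
        _ ≤ ENNReal.ofReal (CB / (m * c1 * m)) * vol Yc := by gcongr
    have hcount := Count964.count_bound vol (G.ex xh) hexc (K := G.K xh) (Q := Q) (P := P)
      hconv (fun p hp => hp.1) hPQ hPcomp (hnull xh) ν hτ0 hτ1 hqq hνC hpLQ hcW
      (by positivity : 0 < CB / (m * c1 * m))
      (fun t ht0 ht1 => hJ xh P (fun p hp => hp.1) hPcomp pL hpLK t ht0 ht1) hvol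
      (by rw [hPimg]; exact hYpos) (by rw [hPimg]; exact hYfin) k hk1 hk
    rw [hpLy] at hcount
    have e4 : Dd u x y = Dd u x y0 - Dd u xh y0 + Dd u xh y + ν y := by
      simp only [hν]; unfold Fd Dd; ring
    have e5 : (2 : ℝ) ^ (k + 1) * (2 * C1 * (2 * h)) = 2 ^ (k + 3) * C1 * h := by
      rw [pow_add, pow_add]; ring
    rw [e5] at hcount
    have b3 := Dd_nonneg hu xh y0
    rw [e4]
    nlinarith
  -- conclusion
  set h0 : ℝ := max (Dd u x y0) (max (Dd u xh y0) (Dd u xh y)) with hh0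
  have hb1 : Dd u x y0 ≤ h0 := le_max_left _ _
  have hb2 : Dd u xh y0 ≤ h0 := (le_max_left _ _).trans (le_max_right _ _)
  have hb3 : Dd u xh y ≤ h0 := (le_max_right _ _).trans (le_max_right _ _)
  have hK0 : 0 < 2 + 2 ^ (k + 3) * C1 := by positivity
  have h00 : 0 ≤ h0 := (Dd_nonneg hu x y0).trans hb1
  refine le_of_forall_pos_le_add fun ε hε => ?_
  have hδ : 0 < ε / (2 + 2 ^ (k + 3) * C1) := by positivity
  have := main (h0 + ε / (2 + 2 ^ (k + 3) * C1)) (by linarith) (by linarith) (by linarith)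
    (by linarith)
  have e6 : (2 + 2 ^ (k + 3) * C1) * (h0 + ε / (2 + 2 ^ (k + 3) * C1)) =
      (2 + 2 ^ (k + 3) * C1) * h0 + ε := by
    field_simp
  linarith

/-- **Theorem 1 of doc 848** (engulfing), uniform version. -/
theorem engulf (vol : Measure M) [IsFiniteMeasure vol] [vol.IsOpenPosMeasure]
    {τ : ℝ} (hτ0 : 0 < τ) (hτ1 : τ < 1) (hQ : QQw G τ)
    {cW : ℝ} (hcW : 0 < cW) (hJ : JMonoC G vol cW) (hnull : CutNullP G vol)
    (h1 : ∃ C1 c1 : ℝ, 0 < c1 ∧ ∀ u : M → ℝ, CConv u → Step1P vol C1 c1 u)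
    (h2 : ∀ B : ℝ, 1 ≤ B → ∃ CB : ℝ, 0 < CB ∧ ∀ u : M → ℝ, CConv u → Step2P G vol B CB u)
    {m : ℝ} (hm : 0 < m) :
    ∃ K0 : ℝ, 0 < K0 ∧ ∀ u : M → ℝ, CConv u → AlexPinch vol u m → EngulfP K0 u := by
  obtain ⟨C1, c1, hc1, h1⟩ := h1
  obtain ⟨CB, hCB, h2⟩ := h2 (max (2 * max C1 0) (3 / 2))
    (le_trans (by norm_num) (le_max_right _ _))
  obtain ⟨k, hk1, hk⟩ := exists_k hτ0 hτ1
    (show 0 < cW / (2 * (CB / (m * c1 * m))) by positivity)
  refine ⟨2 + 2 ^ (k + 3) * max C1 0, by positivity, fun u hu hP => ?_⟩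
  refine engulf_of_steps vol hτ0 hτ1 hQ hcW hJ hnull (le_max_right _ _) hc1 hm hCB
    (le_max_left _ _) (le_max_right _ _) hk1 hk hu hP ?_ (h2 u hu)
  intro y0 h hh
  obtain ⟨S', a1, a2, a3, a4⟩ := h1 u hu y0 h hh
  refine ⟨S', a1, a2, a3, fun x' hx' y hy x hx => (a4 x' hx' y hy x hx).trans ?_⟩
  exact mul_le_mul_of_nonneg_right (le_max_left _ _) hh.le

end Geo

end Crest.Agent.R226.Engulf964
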