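/-
R226, task B6 (helper616): basic facts about a `GeoData`.
-/
import Crest.Agent.R226.TB_616

set_option autoImplicit false

open MeasureTheory Bundle Set Filter
open scoped Manifold ContDiff Bundle ENNReal Topology
open Crest.GeometryTopology.MTW

namespace Crest.Agent.R226.GeoBasic616

open Crest.Agent.R226.TB616

variable {n : ℕ} {M : Type*} [MetricSpace M] [ChartedSpace (EuclideanSpace ℝ (Fin n)) M]
  [IsManifold (𝓡 n) ∞ M]
  [RiemannianBundle (fun p : M => TangentSpace (𝓡 n) p)]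

variable (G : GeoData n M)

/-! ### Smoothness -/

theorem contMDiff_ex_smul {E' : Type*} [NormedAddCommGroup E'] [NormedSpace ℝ E'] {H' : Type*}
    [TopologicalSpace H'] {I' : ModelWithCorners ℝ E' H'} {N : Type*} [TopologicalSpace N]
    [ChartedSpace H' N] {f : N → ℝ} {s : N → TangentBundle (𝓡 n) M}
    (hf : ContMDiff I' 𝓘(ℝ) ∞ f) (hs : ContMDiff I' (𝓡 n).tangent ∞ s) :
    ContMDiff I' (𝓡 n) ∞ (fun z => G.ex (s z).1 (f z • (s z).2)) :=
  G.smooth.comp (contMDiff_smul hf hs)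

/-- radial curves are smooth -/
theorem contMDiff_ray (x : M) (v : TangentSpace (𝓡 n) x) :
    ContMDiff 𝓘(ℝ, ℝ) (𝓡 n) ∞ (fun t : ℝ => G.ex x (t • v)) :=
  contMDiff_ex_smul G (s := fun _ => (⟨x, v⟩ : TangentBundle (𝓡 n) M)) contMDiff_id contMDiff_const

theorem mdifferentiableAt_ray (x : M) (v : TangentSpace (𝓡 n) x) (t : ℝ) :
    MDifferentiableAt 𝓘(ℝ, ℝ) (𝓡 n) (fun t : ℝ => G.ex x (t • v)) t :=
  (contMDiff_ray G x v).mdifferentiableAt (by simp)

/-- the exponential map in a fibre is smooth -/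
theorem contMDiff_ex_fibre (x : M) :
    ContMDiff 𝓘(ℝ, EuclideanSpace ℝ (Fin n)) (𝓡 n) ∞
      (fun v : EuclideanSpace ℝ (Fin n) => G.ex x v) :=
  G.smooth.comp (contMDiff_fibre x)

theorem contMDiff_Flow :
    ContMDiff (𝓘(ℝ, ℝ).prod (𝓡 n).tangent) (𝓡 n).tangent ∞
      (fun z : ℝ × TangentBundle (𝓡 n) M => G.Flow z.1 z.2) := by
  intro z
  refine contMDiffAt_curveVel (m := ∞) (k := ∞)
    (fun (z : ℝ × TangentBundle (𝓡 n) M) (t : ℝ) => G.ex z.2.1 (t • z.2.2)) (fun z => z.1) z ?_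
    contMDiffAt_fst (by simp)
  exact (contMDiff_ex_smul G (I' := (𝓘(ℝ, ℝ).prod (𝓡 n).tangent).prod 𝓘(ℝ, ℝ))
    (f := fun w : (ℝ × TangentBundle (𝓡 n) M) × ℝ => w.2)
    (s := fun w : (ℝ × TangentBundle (𝓡 n) M) × ℝ => w.1.2) contMDiff_snd
    (contMDiff_snd.comp contMDiff_fst)) _

theorem continuous_Flow :
    Continuous (fun z : ℝ × TangentBundle (𝓡 n) M => G.Flow z.1 z.2) :=
  (contMDiff_Flow G).continuous

/-! ### Algebra of the flow -/

@[simp] theorem Flow_fst (t : ℝ) (p : TangentBundle (𝓡 n) M) :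
    (G.Flow t p).1 = G.ex p.1 (t • p.2) := rfl

theorem Flow_snd (t : ℝ) (p : TangentBundle (𝓡 n) M) :
    (G.Flow t p).2 = G.vel p.1 p.2 t := rfl

theorem norm_vel (x : M) (v : TangentSpace (𝓡 n) x) (t : ℝ) : ‖G.vel x v t‖ = ‖v‖ :=
  G.norm_vel x v t

theorem norm_Flow (t : ℝ) (p : TangentBundle (𝓡 n) M) : ‖(G.Flow t p).2‖ = ‖p.2‖ :=
  G.norm_vel p.1 p.2 t

theorem Flow_zero (p : TangentBundle (𝓡 n) M) : G.Flow 0 p = p := by
  obtain ⟨x, v⟩ := p
  refine tb_ext ?_ (G.vel_zero x v)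
  change G.ex x ((0 : ℝ) • v) = x
  rw [zero_smul, G.ex_zero]

theorem Flow_add (s t : ℝ) (p : TangentBundle (𝓡 n) M) :
    G.Flow s (G.Flow t p) = G.Flow (t + s) p := by
  obtain ⟨x, v⟩ := p
  refine tb_ext (G.flow x v t s) ?_
  have h1 : (fun s : ℝ => G.ex (G.ex x (t • v)) (s • G.vel x v t)) =
      fun s : ℝ => G.ex x ((t + s) • v) := by
    funext s; exact G.flow x v t s
  change curveVel n (fun s : ℝ => G.ex (G.ex x (t • v)) (s • G.vel x v t)) s = _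
  rw [h1]
  have h2 := curveVel_comp (n := n) (γ := fun t : ℝ => G.ex x (t • v)) (h := fun s => t + s) (h' := 1)
    (t := s) (mdifferentiableAt_ray G x v _) ((hasDerivAt_id s).const_add t)
  rw [one_smul] at h2
  exact h2

theorem Flow_smul (t a : ℝ) (p : TangentBundle (𝓡 n) M) :
    G.Flow t ⟨p.1, a • p.2⟩ = ⟨(G.Flow (a * t) p).1, a • (G.Flow (a * t) p).2⟩ := by
  obtain ⟨x, v⟩ := p
  have h1 : (fun s : ℝ => G.ex x (s • a • v)) = fun s : ℝ => G.ex x ((a * s) • v) := by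
    funext s; rw [smul_smul, mul_comm]
  refine tb_ext ?_ ?_
  · exact congrFun h1 t
  · change curveVel n (fun s : ℝ => G.ex x (s • a • v)) t = _
    rw [h1]
    have h2 := curveVel_comp (n := n) (γ := fun t : ℝ => G.ex x (t • v)) (h := fun s => a * s)
      (h' := a) (t := t) (mdifferentiableAt_ray G x v _) (by simpa using (hasDerivAt_id t).const_mul a)
    exact h2

/-- the flow as a homeomorphism inverse: `Flow (-t)` inverts `Flow t` -/
theorem Flow_neg_Flow (t : ℝ) (p : TangentBundle (𝓡 n) M) : G.Flow (-t) (G.Flow t p) = p := by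
  rw [Flow_add, add_neg_cancel, Flow_zero]

theorem Flow_Flow_neg (t : ℝ) (p : TangentBundle (𝓡 n) M) : G.Flow t (G.Flow (-t) p) = p := by
  rw [Flow_add, neg_add_cancel, Flow_zero]

theorem Flow_injective (t : ℝ) : Function.Injective (G.Flow t) := fun p q h => by
  rw [← Flow_neg_Flow G t p, h, Flow_neg_Flow]

/-- `Flow` intertwines the flip `v ↦ -v` with time reversal -/
theorem Flow_neg (t : ℝ) (p : TangentBundle (𝓡 n) M) :
    G.Flow t ⟨p.1, -p.2⟩ = ⟨(G.Flow (-t) p).1, -(G.Flow (-t) p).2⟩ := by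
  have h := Flow_smul G t (-1) p
  rw [show (-1 : ℝ) * t = -t by ring] at h
  simp only [neg_smul, one_smul] at h
  exact h

/-- equality of tangent vectors in the bundle gives equality of `ex` -/
theorem ex_congr {x y : M} {v : TangentSpace (𝓡 n) x} {w : TangentSpace (𝓡 n) y}
    (h : (⟨x, v⟩ : TangentBundle (𝓡 n) M) = ⟨y, w⟩) : G.ex x v = G.ex y w :=
  congrArg (fun p : TangentBundle (𝓡 n) M => G.ex p.1 p.2) h

theorem ex_smul_congr {x y : M} {v : TangentSpace (𝓡 n) x} {w : TangentSpace (𝓡 n) y}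
    (h : (⟨x, v⟩ : TangentBundle (𝓡 n) M) = ⟨y, w⟩) (t : ℝ) : G.ex x (t • v) = G.ex y (t • w) :=
  congrArg (fun p : TangentBundle (𝓡 n) M => G.ex p.1 (t • p.2)) h

/-! ### Reversal -/

theorem rev_ex_gen (x : M) (v : TangentSpace (𝓡 n) x) (s t : ℝ) :
    G.ex (G.ex x (s • v)) (t • (-(G.vel x v s))) = G.ex x ((s - t) • v) := by
  have h := G.flow x v s (-t)
  rw [sub_eq_add_neg, ← h]
  congr 1
  rw [smul_neg, neg_smul]
  rfl

theorem rev_ex (x : M) (v : TangentSpace (𝓡 n) x) (t : ℝ) :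
    G.ex (G.ex x ((1 : ℝ) • v)) (t • (-(G.vel x v 1))) = G.ex x ((1 - t) • v) :=
  rev_ex_gen G x v 1 t

theorem rev_ex_one (x : M) (v : TangentSpace (𝓡 n) x) :
    G.ex (G.ex x ((1 : ℝ) • v)) (-(G.vel x v 1)) = x := by
  have h := rev_ex G x v 1
  have h2 : G.ex (G.ex x ((1 : ℝ) • v)) ((1 : ℝ) • (-(G.vel x v 1))) =
    G.ex (G.ex x ((1 : ℝ) • v)) (-(G.vel x v 1)) := congrArg _ (one_smul ℝ _)
  rw [← h2, h, sub_self, zero_smul, G.ex_zero]

/-- the velocity of the reversed geodesic -/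
theorem rev_Flow (t : ℝ) (p : TangentBundle (𝓡 n) M) :
    G.Flow t ⟨(G.Flow 1 p).1, -(G.Flow 1 p).2⟩ =
      ⟨(G.Flow (1 - t) p).1, -(G.Flow (1 - t) p).2⟩ := by
  rw [Flow_neg, Flow_add, sub_eq_add_neg]

/-- reversal at time `s` -/
theorem rev_Flow_gen (s t : ℝ) (p : TangentBundle (𝓡 n) M) :
    G.Flow t ⟨(G.Flow s p).1, -(G.Flow s p).2⟩ =
      ⟨(G.Flow (s - t) p).1, -(G.Flow (s - t) p).2⟩ := by
  rw [Flow_neg, Flow_add, sub_eq_add_neg]

/-- reversal is an involution -/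
theorem rev_rev (p : TangentBundle (𝓡 n) M) :
    G.Flow 1 ⟨(G.Flow 1 p).1, -(G.Flow 1 p).2⟩ = ⟨p.1, -p.2⟩ := by
  rw [rev_Flow, sub_self, Flow_zero]

/-! ### The exponential map is an exponential map in the sense of the statement -/

theorem isGeodesicLine (x : M) (v : TangentSpace (𝓡 n) x) :
    IsGeodesicLine n (fun t : ℝ => G.ex x (t • v)) := by
  refine ⟨contMDiff_ray G x v, ‖v‖, norm_nonneg _, fun t => G.norm_vel x v t, fun t => ?_⟩
  have hr := G.r₀_pos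
  have hv := norm_nonneg v
  refine ⟨G.r₀ / (4 * (‖v‖ + 1)), by positivity, ?_⟩
  intro s₁ hs₁ s₂ hs₂
  rw [mul_comm]
  refine G.dist_eq x v s₁ s₂ ?_
  have h1 : |s₁ - s₂| ≤ 2 * (G.r₀ / (4 * (‖v‖ + 1))) := by
    rw [abs_le]; constructor <;> linarith [hs₁.1, hs₁.2, hs₂.1, hs₂.2]
  calc |s₁ - s₂| * ‖v‖ ≤ 2 * (G.r₀ / (4 * (‖v‖ + 1))) * (‖v‖ + 1) := by gcongr; linarith
    _ = G.r₀ / 2 := by field_simp; ring
    _ < G.r₀ := by linarith

theorem isExpMapAt (x : M) : IsExpMapAt n x (G.ex x) := by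
  refine fun w => ⟨isGeodesicLine G x w, ?_, G.vel_zero x w⟩
  rw [zero_smul, G.ex_zero]

/-! ### `K`, `I` and intermediate points -/

theorem mem_K {x : M} {v : TangentSpace (𝓡 n) x} : v ∈ G.K x ↔ dist x (G.ex x v) = ‖v‖ := Iff.rfl

theorem dist_ex_le (x : M) (v : TangentSpace (𝓡 n) x) : dist x (G.ex x v) ≤ ‖v‖ := by
  have h := G.dist_le x v 0 1
  simpa [G.ex_zero] using h

theorem dist_ex_smul_le (x : M) (v : TangentSpace (𝓡 n) x) (t : ℝ) :
    dist x (G.ex x (t • v)) ≤ |t| * ‖v‖ := by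
  have h := G.dist_le x v 0 t
  simpa [G.ex_zero] using h

/-- short vectors are minimising -/
theorem mem_K_of_norm_lt {x : M} {v : TangentSpace (𝓡 n) x} (h : ‖v‖ < G.r₀) : v ∈ G.K x := by
  have h1 := G.dist_eq x v 0 1 (by simpa using h)
  simpa [G.ex_zero, mem_K] using h1

theorem dist_ex_of_norm_lt {x : M} {v : TangentSpace (𝓡 n) x} (h : ‖v‖ < G.r₀) :
    dist x (G.ex x v) = ‖v‖ := mem_K_of_norm_lt G h

/-- intermediate points of a minimiser -/
theorem dist_eq_of_mem_K {x : M} {v : TangentSpace (𝓡 n) x} (hv : v ∈ G.K x) {s t : ℝ}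
    (hs : 0 ≤ s) (hst : s ≤ t) (ht : t ≤ 1) :
    dist (G.ex x (s • v)) (G.ex x (t • v)) = (t - s) * ‖v‖ := by
  have h1 : dist x (G.ex x (s • v)) ≤ s * ‖v‖ := by
    have := dist_ex_smul_le G x v s; rwa [abs_of_nonneg hs] at this
  have h2 : dist (G.ex x (t • v)) (G.ex x v) ≤ (1 - t) * ‖v‖ := by
    have := G.dist_le x v t 1
    rw [one_smul, abs_sub_comm, abs_of_nonneg (by linarith)] at this
    exact this
  have h3 : dist (G.ex x (s • v)) (G.ex x (t • v)) ≤ (t - s) * ‖v‖ := by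
    have := G.dist_le x v s t
    rwa [abs_sub_comm, abs_of_nonneg (by linarith)] at this
  have h4 : ‖v‖ ≤ dist x (G.ex x (s • v)) + dist (G.ex x (s • v)) (G.ex x (t • v)) +
      dist (G.ex x (t • v)) (G.ex x v) := by
    rw [← (mem_K G).1 hv]; exact dist_triangle4 _ _ _ _
  refine le_antisymm h3 ?_
  nlinarith

theorem smul_mem_K {x : M} {v : TangentSpace (𝓡 n) x} (hv : v ∈ G.K x) {t : ℝ}
    (h0 : 0 ≤ t) (h1 : t ≤ 1) : t • v ∈ G.K x := by
  have h := dist_eq_of_mem_K G hv (le_refl 0) h0 h1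
  rw [zero_smul, G.ex_zero, sub_zero] at h
  rw [mem_K, h, norm_smul, Real.norm_eq_abs, abs_of_nonneg h0]

theorem dist_left_of_mem_K {x : M} {v : TangentSpace (𝓡 n) x} (hv : v ∈ G.K x) {t : ℝ}
    (h0 : 0 ≤ t) (h1 : t ≤ 1) : dist x (G.ex x (t • v)) = t * ‖v‖ := by
  have h := dist_eq_of_mem_K G hv (le_refl 0) h0 h1
  rwa [zero_smul, G.ex_zero, sub_zero] at h

theorem dist_right_of_mem_K {x : M} {v : TangentSpace (𝓡 n) x} (hv : v ∈ G.K x) {t : ℝ}
    (h0 : 0 ≤ t) (h1 : t ≤ 1) : dist (G.ex x (t • v)) (G.ex x v) = (1 - t) * ‖v‖ := by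
  have h := dist_eq_of_mem_K G hv h0 h1 le_rfl
  rwa [one_smul] at h

theorem zero_mem_K (x : M) : (0 : TangentSpace (𝓡 n) x) ∈ G.K x := by
  rw [mem_K, G.ex_zero, dist_self, norm_zero]

theorem I_subset_K (x : M) : G.I x ⊆ G.K x := by
  rintro v ⟨a, ha, hv⟩
  have h := smul_mem_K G hv (t := a⁻¹) (by positivity) (inv_le_one_of_one_le₀ ha.le)
  rwa [smul_smul, inv_mul_cancel₀ (by positivity), one_smul] at h

theorem injDomain_eq_I (x : M) : injDomain n x = G.I x := by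
  rw [G.injDomain_eq x]
  ext v
  refine exists_congr fun a => and_congr_right fun ha => ?_
  rw [mem_K, norm_smul, Real.norm_eq_abs, abs_of_pos (by linarith)]

theorem smul_mem_I_of_mem_K {x : M} {v : TangentSpace (𝓡 n) x} (hv : v ∈ G.K x) {t : ℝ}
    (h0 : 0 ≤ t) (h1 : t < 1) : t • v ∈ G.I x := by
  rcases h0.eq_or_lt with rfl | h0
  · exact ⟨2, by norm_num, by rw [zero_smul, smul_zero]; exact zero_mem_K G x⟩
  · refine ⟨t⁻¹, (one_lt_inv₀ h0).2 h1, ?_⟩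
    rwa [smul_smul, inv_mul_cancel₀ h0.ne', one_smul]

theorem smul_mem_I {x : M} {v : TangentSpace (𝓡 n) x} (hv : v ∈ G.I x) {t : ℝ}
    (h0 : 0 ≤ t) (h1 : t ≤ 1) : t • v ∈ G.I x := by
  obtain ⟨a, ha, hv⟩ := hv
  have h := smul_mem_I_of_mem_K G hv (t := t * a⁻¹) (by positivity)
    (by
      have := inv_lt_one_of_one_lt₀ ha
      nlinarith [inv_pos.2 (lt_trans one_pos ha)])
  rwa [smul_smul, mul_assoc, inv_mul_cancel₀ (by positivity), mul_one] at h

theorem mem_I_of_norm_lt {x : M} {v : TangentSpace (𝓡 n) x} (h : ‖v‖ < G.r₀) : v ∈ G.I x := by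
  obtain ⟨a, ha, hva⟩ : ∃ a : ℝ, 1 < a ∧ a * ‖v‖ < G.r₀ := by
    have h1 : Tendsto (fun a : ℝ => a * ‖v‖) (𝓝[>] 1) (𝓝 (1 * ‖v‖)) :=
      (continuous_id.mul continuous_const).continuousAt.continuousWithinAt.tendsto
    have h2 : ∀ᶠ a in 𝓝[>] (1 : ℝ), a * ‖v‖ < G.r₀ :=
      h1.eventually (gt_mem_nhds (by rwa [one_mul]))
    obtain ⟨a, ha⟩ := (h2.and self_mem_nhdsWithin).exists
    exact ⟨a, ha.2, ha.1⟩
  refine ⟨a, ha, mem_K_of_norm_lt G ?_⟩
  rwa [norm_smul, Real.norm_eq_abs, abs_of_pos (by linarith)]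

/-- reversal preserves `K` -/
theorem rev_mem_K {x : M} {v : TangentSpace (𝓡 n) x} (hv : v ∈ G.K x) :
    -(G.vel x v 1) ∈ G.K (G.ex x ((1 : ℝ) • v)) := by
  rw [mem_K, rev_ex_one, norm_neg, norm_vel, dist_comm]
  rw [one_smul]
  exact hv

/-- the remaining part of a minimiser is minimising -/
theorem tail_mem_K {x : M} {v : TangentSpace (𝓡 n) x} (hv : v ∈ G.K x) {t : ℝ}
    (h0 : 0 ≤ t) (h1 : t ≤ 1) : (1 - t) • G.vel x v t ∈ G.K (G.ex x (t • v)) := by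
  have h := G.flow x v t (1 - t)
  rw [mem_K, norm_smul, norm_vel, Real.norm_eq_abs, abs_of_nonneg (by linarith)]
  change dist (G.ex x (t • v)) (G.ex (G.ex x (t • v))
    ((1 - t) • curveVel n (fun t : ℝ => G.ex x (t • v)) t)) = (1 - t) * ‖v‖
  rw [h, add_sub_cancel, one_smul]
  exact dist_right_of_mem_K G hv h0 h1

/-- the initial part of a reversed minimiser is minimising -/
theorem rev_mem_K_gen {x : M} {v : TangentSpace (𝓡 n) x} (hv : v ∈ G.K x) {t : ℝ}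
    (h0 : 0 ≤ t) (h1 : t ≤ 1) : t • (-(G.vel x v t)) ∈ G.K (G.ex x (t • v)) := by
  rw [mem_K, rev_ex_gen, sub_self, zero_smul, G.ex_zero, norm_smul, norm_neg, norm_vel, dist_comm,
    Real.norm_eq_abs, abs_of_nonneg h0]
  exact dist_left_of_mem_K G hv h0 h1

end Crest.Agent.R226.GeoBasic616
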