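/-
R226, E1.7 (helper659): the midpoint picture.  Chart-free.

For a `c`-convex `u` on `M` (all hypotheses: `CutFacts G`, `DFacts G`, `Good u 1`):
`theta u z = min_x (u x + 2 c(x,z)) = - min_y (u^c y + 2 c(z,y))`; every `z` is the midpoint of
exactly one contact geodesic `X z → Y z`; all estimates are uniform in `u`.
-/
import Crest.Agent.R226.DDefs_267
import Crest.Agent.R226.Kant_624
import Crest.Agent.R226.GeoBasic_616

set_option autoImplicit false

open MeasureTheory Bundle Set Filter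
open scoped Manifold ContDiff Bundle ENNReal Topology
open Crest.GeometryTopology.MTW

namespace Crest.Agent.R226.Mid659

open Crest.Agent.R226 Crest.Agent.R226.Kant624 Crest.Agent.R226.GeoBasic616

/-! ### Metric part -/

section Metric

variable {M : Type*} [MetricSpace M]

/-- `D(x,y) = u(x) + u^c(y) + c(x,y)`. -/
noncomputable def DD (u : M → ℝ) (x y : M) : ℝ := u x + ctr u y + halfDistSq x y

/-- `θ(z) = min_x (u(x) + 2 c(x,z))`. -/
noncomputable def theta (u : M → ℝ) (z : M) : ℝ := ⨅ x, (u x + 2 * halfDistSq x z)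

/-- `D_X(x,z) = u(x) + 2 c(x,z) - θ(z)`. -/
noncomputable def DX (u : M → ℝ) (x z : M) : ℝ := u x + 2 * halfDistSq x z - theta u z

/-- `D_Y(z,y) = u^c(y) + 2 c(z,y) + θ(z)`. -/
noncomputable def DY (u : M → ℝ) (z y : M) : ℝ := ctr u y + 2 * halfDistSq z y + theta u z

lemma halfDistSq_le (x y z : M) :
    halfDistSq x y ≤ 2 * halfDistSq x z + 2 * halfDistSq z y := by
  unfold halfDistSq
  have h := dist_triangle x z y
  have h0 := dist_nonneg (x := x) (y := y)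
  nlinarith [sq_nonneg (dist x z - dist z y)]

lemma DX_add_DY (u : M → ℝ) (x z y : M) : DX u x z + DY u z y =
    DD u x y + (2 * halfDistSq x z + 2 * halfDistSq z y - halfDistSq x y) := by
  unfold DX DY DD; ring

variable [CompactSpace M]

lemma DD_nonneg {u : M → ℝ} (hu : Continuous u) (x y : M) : 0 ≤ DD u x y := by
  have := le_ctr hu x y
  unfold DD; linarith

lemma exists_theta {u : M → ℝ} (hu : Continuous u) (z : M) :
    ∃ x, theta u z = u x + 2 * halfDistSq x z ∧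
      ∀ x', u x + 2 * halfDistSq x z ≤ u x' + 2 * halfDistSq x' z := by
  have hc : Continuous (fun x => u x + 2 * halfDistSq x z) := by
    unfold halfDistSq; fun_prop
  obtain ⟨x, -, hx⟩ := isCompact_univ.exists_isMinOn ⟨z, mem_univ z⟩ hc.continuousOn
  have hx' : ∀ x', u x + 2 * halfDistSq x z ≤ u x' + 2 * halfDistSq x' z := fun x' => hx (mem_univ x')
  refine ⟨x, ?_, hx'⟩
  unfold theta
  have : Nonempty M := ⟨z⟩
  refine le_antisymm ?_ (le_ciInf hx')
  exact ciInf_le (f := fun x => u x + 2 * halfDistSq x z) ⟨_, by rintro _ ⟨y, rfl⟩; exact hx' y⟩ x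

lemma theta_le {u : M → ℝ} (hu : Continuous u) (x z : M) :
    theta u z ≤ u x + 2 * halfDistSq x z := by
  obtain ⟨y, hy, hy'⟩ := exists_theta hu z
  rw [hy]; exact hy' x

lemma DX_nonneg {u : M → ℝ} (hu : Continuous u) (x z : M) : 0 ≤ DX u x z := by
  have := theta_le hu x z
  unfold DX; linarith

lemma DY_nonneg {u : M → ℝ} (hu : Continuous u) (z y : M) : 0 ≤ DY u z y := by
  obtain ⟨x, hx, -⟩ := exists_theta hu z
  have h1 := le_ctr hu x y
  have h2 := halfDistSq_le x y z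
  unfold DY; linarith

/-- `D ≤ D_X + D_Y`. -/
lemma DD_le (u : M → ℝ) (x z y : M) : DD u x y ≤ DX u x z + DY u z y := by
  have h1 := DX_add_DY u x z y
  have h2 := halfDistSq_le x y z
  linarith

lemma contact_iff {u : M → ℝ} (hu : Continuous u) (x y : M) : DD u x y = 0 ↔ y ∈ cSub u x :=
  (mem_cSub_iff hu x y).symm

lemma DD_swap {u : M → ℝ} (hu : CConv u) (x y : M) : DD (ctr u) y x = DD u x y := by
  unfold DD
  rw [ctr_ctr hu, halfDistSq_comm y x]; ring

end Metric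

/-! ### Manifold part -/

section Mfd

variable {n : ℕ} {M : Type*} [MetricSpace M] [ChartedSpace (EuclideanSpace ℝ (Fin n)) M]
  [IsManifold (𝓡 n) ∞ M]
  [RiemannianBundle (fun p : M => TangentSpace (𝓡 n) p)]

/-- `z` is the midpoint of the contact geodesic from `exp_z(-w/2)` to `exp_z(w/2)`. -/
structure IsMid (G : GeoData n M) (u : M → ℝ) (z : M) (w : TangentSpace (𝓡 n) z) : Prop where
  left : (-(1 / 2 : ℝ)) • w ∈ G.K z
  right : (1 / 2 : ℝ) • w ∈ G.K z
  dist_eq : dist (G.ex z ((-(1 / 2 : ℝ)) • w)) (G.ex z ((1 / 2 : ℝ) • w)) = ‖w‖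
  contact : DD u (G.ex z ((-(1 / 2 : ℝ)) • w)) (G.ex z ((1 / 2 : ℝ) • w)) = 0

/-- the semiconcavity inequality with constant `C₁`. -/
def SC (G : GeoData n M) (C₁ : ℝ) : Prop :=
  0 < C₁ ∧ ∀ x, ∀ v ∈ G.K x, ∀ ξ : TangentSpace (𝓡 n) x,
    halfDistSq (G.ex x ξ) (G.ex x v) ≤ halfDistSq x (G.ex x v) - inner ℝ v ξ + C₁ * ‖ξ‖ ^ 2

variable {G : GeoData n M}

theorem exists_SC (hC : CutFacts G) : ∃ C₁, SC G C₁ := hC.semiconcave

/-- two minimisers from `z` in the directions `a`, `b`: the defect of the broken geodesic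
controls `‖a + b‖²`. -/
theorem defect_ge {C₁ : ℝ} (h : SC G C₁) (z : M) (a b : TangentSpace (𝓡 n) z) (ha : a ∈ G.K z)
    (hb : b ∈ G.K z) : ‖a + b‖ ^ 2 ≤ 4 * C₁ * (2 * halfDistSq (G.ex z a) z +
      2 * halfDistSq z (G.ex z b) - halfDistSq (G.ex z a) (G.ex z b)) := by
  obtain ⟨h0, h1⟩ := h
  set s : ℝ := 1 / (4 * C₁) with hs
  have ea := h1 z a ha (s • (a + b))
  have eb := h1 z b hb (s • (a + b))
  have et := halfDistSq_le (G.ex z a) (G.ex z b) (G.ex z (s • (a + b)))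
  rw [halfDistSq_comm (G.ex z a) (G.ex z (s • (a + b)))] at et
  rw [halfDistSq_comm (G.ex z a) z]
  have ei : inner ℝ a (s • (a + b)) + inner ℝ b (s • (a + b)) = s * ‖a + b‖ ^ 2 := by
    rw [← inner_add_left, inner_smul_right, real_inner_self_eq_norm_sq]
  have en : ‖s • (a + b)‖ ^ 2 = s ^ 2 * ‖a + b‖ ^ 2 := by
    rw [norm_smul, mul_pow, Real.norm_eq_abs, sq_abs]
  rw [en] at ea eb
  have key : halfDistSq (G.ex z a) (G.ex z b) ≤ 2 * halfDistSq z (G.ex z a) +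
      2 * halfDistSq z (G.ex z b) - 2 * (s * ‖a + b‖ ^ 2) + 4 * C₁ * (s ^ 2 * ‖a + b‖ ^ 2) := by
    linarith
  have hs2 : 4 * C₁ * s ^ 2 = s := by
    rw [hs]; field_simp
  have hs3 : 4 * C₁ * s = 1 := by
    rw [hs]; field_simp
  have key2 : s * ‖a + b‖ ^ 2 ≤ 2 * halfDistSq z (G.ex z a) +
      2 * halfDistSq z (G.ex z b) - halfDistSq (G.ex z a) (G.ex z b) := by
    have : 4 * C₁ * (s ^ 2 * ‖a + b‖ ^ 2) = s * ‖a + b‖ ^ 2 := by
      rw [← mul_assoc, hs2]
    linarith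
  calc ‖a + b‖ ^ 2 = 4 * C₁ * (s * ‖a + b‖ ^ 2) := by rw [← mul_assoc, hs3, one_mul]
    _ ≤ _ := by gcongr

/-- geometry of midpoints -/
theorem ex_vel_half (x : M) (v : TangentSpace (𝓡 n) x) (s : ℝ) :
    G.ex (G.ex x ((1 / 2 : ℝ) • v)) (s • G.vel x v (1 / 2)) = G.ex x ((1 / 2 + s) • v) :=
  G.flow x v (1 / 2) s

theorem ex_left (x : M) (v : TangentSpace (𝓡 n) x) :
    G.ex (G.ex x ((1 / 2 : ℝ) • v)) ((-(1 / 2 : ℝ)) • G.vel x v (1 / 2)) = x := by
  rw [ex_vel_half, show (1 / 2 : ℝ) + -(1 / 2) = 0 by norm_num, zero_smul, G.ex_zero]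

theorem ex_right (x : M) (v : TangentSpace (𝓡 n) x) :
    G.ex (G.ex x ((1 / 2 : ℝ) • v)) ((1 / 2 : ℝ) • G.vel x v (1 / 2)) = G.ex x v := by
  rw [ex_vel_half, show (1 / 2 : ℝ) + 1 / 2 = 1 by norm_num, one_smul]

theorem norm_neg_half {z : M} (w : TangentSpace (𝓡 n) z) : ‖(-(1 / 2 : ℝ)) • w‖ = ‖w‖ / 2 := by
  rw [norm_smul, Real.norm_eq_abs, abs_neg, abs_of_pos (by norm_num)]; ring

theorem norm_half {z : M} (w : TangentSpace (𝓡 n) z) : ‖(1 / 2 : ℝ) • w‖ = ‖w‖ / 2 := by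
  rw [norm_smul, Real.norm_eq_abs, abs_of_pos (by norm_num)]; ring

/-- the midpoint of a contact geodesic -/
theorem isMid_of_contact {u : M → ℝ} {x : M} {v : TangentSpace (𝓡 n) x} (hv : v ∈ G.K x)
    (h : DD u x (G.ex x v) = 0) :
    IsMid G u (G.ex x ((1 / 2 : ℝ) • v)) (G.vel x v (1 / 2)) where
  left := by
    rw [mem_K, ex_left, norm_neg_half, norm_vel, dist_comm,
      dist_left_of_mem_K G hv (by norm_num) (by norm_num)]; ring
  right := by
    rw [mem_K, ex_right, norm_half, norm_vel,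
      dist_right_of_mem_K G hv (by norm_num) (by norm_num)]; ring
  dist_eq := by
    rw [ex_left, ex_right, norm_vel]; exact hv
  contact := by
    rw [ex_left, ex_right]; exact h

theorem IsMid.dist_left {u : M → ℝ} {z : M} {w : TangentSpace (𝓡 n) z} (h : IsMid G u z w) :
    dist (G.ex z ((-(1 / 2 : ℝ)) • w)) z = ‖w‖ / 2 := by
  rw [dist_comm, ← norm_neg_half]; exact h.left

theorem IsMid.dist_right {u : M → ℝ} {z : M} {w : TangentSpace (𝓡 n) z} (h : IsMid G u z w) :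
    dist z (G.ex z ((1 / 2 : ℝ) • w)) = ‖w‖ / 2 := by
  rw [← norm_half]; exact h.right

/-- the broken path has no defect at a midpoint -/
theorem IsMid.defect {u : M → ℝ} {z : M} {w : TangentSpace (𝓡 n) z} (h : IsMid G u z w) :
    2 * halfDistSq (G.ex z ((-(1 / 2 : ℝ)) • w)) z + 2 * halfDistSq z (G.ex z ((1 / 2 : ℝ) • w)) -
      halfDistSq (G.ex z ((-(1 / 2 : ℝ)) • w)) (G.ex z ((1 / 2 : ℝ) • w)) = 0 := by
  unfold halfDistSq
  rw [h.dist_left, h.dist_right, h.dist_eq]; ring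

variable [CompactSpace M]

theorem IsMid.DX_eq {u : M → ℝ} (hu : Continuous u) {z : M} {w : TangentSpace (𝓡 n) z}
    (h : IsMid G u z w) : DX u (G.ex z ((-(1 / 2 : ℝ)) • w)) z = 0 := by
  have h1 := DX_add_DY u (G.ex z ((-(1 / 2 : ℝ)) • w)) z (G.ex z ((1 / 2 : ℝ) • w))
  rw [h.contact, h.defect] at h1
  have h2 := DX_nonneg hu (G.ex z ((-(1 / 2 : ℝ)) • w)) z
  have h3 := DY_nonneg hu z (G.ex z ((1 / 2 : ℝ) • w))
  linarith

theorem IsMid.DY_eq {u : M → ℝ} (hu : Continuous u) {z : M} {w : TangentSpace (𝓡 n) z}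
    (h : IsMid G u z w) : DY u z (G.ex z ((1 / 2 : ℝ) • w)) = 0 := by
  have h1 := DX_add_DY u (G.ex z ((-(1 / 2 : ℝ)) • w)) z (G.ex z ((1 / 2 : ℝ) • w))
  rw [h.contact, h.defect, h.DX_eq hu] at h1
  linarith

/-- key estimate: `a` towards a point `x`, `b` towards a point `y` -/
theorem key_le {C₁ : ℝ} (hS : SC G C₁) {u : M → ℝ} (hu : Continuous u) (z : M)
    (a b : TangentSpace (𝓡 n) z) (ha : a ∈ G.K z) (hb : b ∈ G.K z) :
    ‖a + b‖ ^ 2 ≤ 4 * C₁ * (DX u (G.ex z a) z + DY u z (G.ex z b)) := by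
  refine (defect_ge hS z a b ha hb).trans ?_
  have h1 := DX_add_DY u (G.ex z a) z (G.ex z b)
  have h2 := DD_nonneg hu (G.ex z a) (G.ex z b)
  have := hS.1
  gcongr
  linarith

theorem IsMid.unique {C₁ : ℝ} (hS : SC G C₁) {u : M → ℝ} (hu : Continuous u) {z : M}
    {w w' : TangentSpace (𝓡 n) z} (h : IsMid G u z w) (h' : IsMid G u z w') : w = w' := by
  have h1 := key_le hS hu z _ _ h.left h'.right
  rw [h.DX_eq hu, h'.DY_eq hu, add_zero, mul_zero] at h1
  have h2 : (-(1 / 2 : ℝ)) • w + (1 / 2 : ℝ) • w' = 0 := by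
    rw [← norm_eq_zero]
    nlinarith [norm_nonneg ((-(1 / 2 : ℝ)) • w + (1 / 2 : ℝ) • w')]
  have h3 : (1 / 2 : ℝ) • w = (1 / 2 : ℝ) • w' := by
    rw [neg_smul, neg_add_eq_zero] at h2
    exact h2
  exact smul_right_injective _ (by norm_num : (1 / 2 : ℝ) ≠ 0) h3

/-- existence of midpoints: this is where `L-C` and `Good u 1` are used. -/
theorem exists_isMid (hD : DFacts G) {u : M → ℝ} (hu : CConv u) (hg : G.Good u 1) (z : M) :
    ∃ w, IsMid G u z w := by
  have huc := hD.cont u hu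
  obtain ⟨x, hx, hx'⟩ := exists_theta huc z
  obtain ⟨v, hv, hvn⟩ := G.surj x z
  have hvK : v ∈ G.K x := by rw [mem_K, hv, hvn]
  obtain ⟨p, hp, hpv⟩ := hD.LC u hu 1 zero_le_one (1 / 2) (by norm_num) x z
    (fun x' => by have := hx' x'; linarith) v hvK hv
  have h2 : (2 : ℝ) • v = p := by
    rw [one_smul] at hpv
    rw [← hpv]; norm_num
  have h3 := hg x p hp
  rw [one_smul] at h3
  have h4 : p ∈ G.P u x := by
    refine ⟨h3.1, fun x' => ?_⟩
    have := h3.2 x'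
    simpa only [one_mul] using this
  rw [← h2] at h4
  have h5 : DD u x (G.ex x ((2 : ℝ) • v)) = 0 := (contact_iff huc _ _).2 h4.2
  have h6 := isMid_of_contact h4.1 h5
  have h7 : G.ex x ((1 / 2 : ℝ) • (2 : ℝ) • v) = z := by
    rw [smul_smul, show (1 / 2 : ℝ) * 2 = 1 by norm_num, one_smul, hv]
  rw [← h7]
  exact ⟨_, h6⟩

open Classical in
/-- the velocity at the midpoint `z` of the contact geodesic through `z`. -/
noncomputable def mv (G : GeoData n M) (u : M → ℝ) (z : M) : TangentSpace (𝓡 n) z :=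
  if h : ∃ w, IsMid G u z w then h.choose else 0

/-- the initial point of the contact geodesic with midpoint `z`. -/
noncomputable def X (G : GeoData n M) (u : M → ℝ) (z : M) : M :=
  G.ex z ((-(1 / 2 : ℝ)) • mv G u z)

/-- the end point of the contact geodesic with midpoint `z`. -/
noncomputable def Y (G : GeoData n M) (u : M → ℝ) (z : M) : M :=
  G.ex z ((1 / 2 : ℝ) • mv G u z)

theorem isMid_mv (hD : DFacts G) {u : M → ℝ} (hu : CConv u) (hg : G.Good u 1) (z : M) :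
    IsMid G u z (mv G u z) := by
  unfold mv
  rw [dif_pos (exists_isMid hD hu hg z)]
  exact (exists_isMid hD hu hg z).choose_spec

theorem DD_X_Y (hD : DFacts G) {u : M → ℝ} (hu : CConv u) (hg : G.Good u 1) (z : M) :
    DD u (X G u z) (Y G u z) = 0 := (isMid_mv hD hu hg z).contact

theorem DX_X (hD : DFacts G) {u : M → ℝ} (hu : CConv u) (hg : G.Good u 1) (z : M) :
    DX u (X G u z) z = 0 := (isMid_mv hD hu hg z).DX_eq (hD.cont u hu)

theorem DY_Y (hD : DFacts G) {u : M → ℝ} (hu : CConv u) (hg : G.Good u 1) (z : M) :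
    DY u z (Y G u z) = 0 := (isMid_mv hD hu hg z).DY_eq (hD.cont u hu)

theorem Y_mem_cSub (hD : DFacts G) {u : M → ℝ} (hu : CConv u) (hg : G.Good u 1) (z : M) :
    Y G u z ∈ cSub u (X G u z) :=
  (contact_iff (hD.cont u hu) _ _).1 (DD_X_Y hD hu hg z)

/-- a point `x` optimal for `z` is `X z` -/
theorem eq_X_of_DX (hC : CutFacts G) (hD : DFacts G) {u : M → ℝ} (hu : CConv u) (hg : G.Good u 1)
    {x z : M} (h : DX u x z = 0) : x = X G u z := by
  obtain ⟨C₁, hS⟩ := exists_SC hC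
  have hm := isMid_mv hD hu hg z
  have huc := hD.cont u hu
  obtain ⟨a, ha, han⟩ := G.surj z x
  have haK : a ∈ G.K z := by rw [mem_K, ha, han]
  have h1 := key_le hS huc z _ _ haK hm.right
  rw [ha, h, hm.DY_eq huc, add_zero, mul_zero] at h1
  have h2 : a + (1 / 2 : ℝ) • mv G u z = 0 := by
    rw [← norm_eq_zero]
    nlinarith [norm_nonneg (a + (1 / 2 : ℝ) • mv G u z)]
  have h3 : a = (-(1 / 2 : ℝ)) • mv G u z := by
    rw [neg_smul]; exact eq_neg_of_add_eq_zero_left h2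
  rw [← ha, h3]; rfl

theorem eq_Y_of_DY (hC : CutFacts G) (hD : DFacts G) {u : M → ℝ} (hu : CConv u) (hg : G.Good u 1)
    {z y : M} (h : DY u z y = 0) : y = Y G u z := by
  obtain ⟨C₁, hS⟩ := exists_SC hC
  have hm := isMid_mv hD hu hg z
  have huc := hD.cont u hu
  obtain ⟨b, hb, hbn⟩ := G.surj z y
  have hbK : b ∈ G.K z := by rw [mem_K, hb, hbn]
  have h1 := key_le hS huc z _ _ hm.left hbK
  rw [hb, h, hm.DX_eq huc, add_zero, mul_zero] at h1
  have h2 : (-(1 / 2 : ℝ)) • mv G u z + b = 0 := by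
    rw [← norm_eq_zero]
    nlinarith [norm_nonneg ((-(1 / 2 : ℝ)) • mv G u z + b)]
  have h3 : b = (1 / 2 : ℝ) • mv G u z := by
    rw [neg_smul, neg_add_eq_zero] at h2
    exact h2.symm
  rw [← hb, h3]; rfl

theorem DX_eq_zero_iff (hC : CutFacts G) (hD : DFacts G) {u : M → ℝ} (hu : CConv u)
    (hg : G.Good u 1) {x z : M} : DX u x z = 0 ↔ x = X G u z :=
  ⟨eq_X_of_DX hC hD hu hg, fun h => h ▸ DX_X hD hu hg z⟩

theorem DY_eq_zero_iff (hC : CutFacts G) (hD : DFacts G) {u : M → ℝ} (hu : CConv u)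
    (hg : G.Good u 1) {z y : M} : DY u z y = 0 ↔ y = Y G u z :=
  ⟨eq_Y_of_DY hC hD hu hg, fun h => h ▸ DY_Y hD hu hg z⟩

/-- the midpoint of a contact geodesic -/
theorem mv_of_contact (hC : CutFacts G) (hD : DFacts G) {u : M → ℝ} (hu : CConv u)
    (hg : G.Good u 1) {x : M} {v : TangentSpace (𝓡 n) x} (hv : v ∈ G.K x)
    (h : DD u x (G.ex x v) = 0) :
    mv G u (G.ex x ((1 / 2 : ℝ) • v)) = G.vel x v (1 / 2) := by
  obtain ⟨C₁, hS⟩ := exists_SC hC
  exact (isMid_mv hD hu hg _).unique hS (hD.cont u hu) (isMid_of_contact hv h)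

theorem X_of_contact (hC : CutFacts G) (hD : DFacts G) {u : M → ℝ} (hu : CConv u)
    (hg : G.Good u 1) {x : M} {v : TangentSpace (𝓡 n) x} (hv : v ∈ G.K x)
    (h : DD u x (G.ex x v) = 0) : X G u (G.ex x ((1 / 2 : ℝ) • v)) = x := by
  unfold X
  rw [mv_of_contact hC hD hu hg hv h, ex_left]

theorem Y_of_contact (hC : CutFacts G) (hD : DFacts G) {u : M → ℝ} (hu : CConv u)
    (hg : G.Good u 1) {x : M} {v : TangentSpace (𝓡 n) x} (hv : v ∈ G.K x)
    (h : DD u x (G.ex x v) = 0) : Y G u (G.ex x ((1 / 2 : ℝ) • v)) = G.ex x v := by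
  unfold Y
  rw [mv_of_contact hC hD hu hg hv h, ex_right]

/-- every contact pair has a midpoint -/
theorem exists_mid_of_contact (hC : CutFacts G) (hD : DFacts G) {u : M → ℝ} (hu : CConv u)
    (hg : G.Good u 1) {x y : M} (h : DD u x y = 0) :
    ∃ z, X G u z = x ∧ Y G u z = y ∧ dist x z = dist x y / 2 ∧ dist z y = dist x y / 2 := by
  obtain ⟨v, hv, hvn⟩ := G.surj x y
  have hvK : v ∈ G.K x := by rw [mem_K, hv, hvn]
  rw [← hv] at h
  refine ⟨G.ex x ((1 / 2 : ℝ) • v), X_of_contact hC hD hu hg hvK h, ?_, ?_, ?_⟩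
  · rw [Y_of_contact hC hD hu hg hvK h, hv]
  · rw [dist_left_of_mem_K G hvK (by norm_num) (by norm_num), hvn]; ring
  · rw [← hv, dist_right_of_mem_K G hvK (by norm_num) (by norm_num), hvn, hv]; ring

theorem exists_mid_left (hC : CutFacts G) (hD : DFacts G) {u : M → ℝ} (hu : CConv u)
    (hg : G.Good u 1) (x : M) : ∃ z, X G u z = x := by
  obtain ⟨y, hy⟩ := hu x
  obtain ⟨z, hz, -⟩ := exists_mid_of_contact hC hD hu hg
    ((contact_iff (hD.cont u hu) x y).2 hy)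
  exact ⟨z, hz⟩

/-! ### Symmetry -/

theorem theta_eq (hD : DFacts G) {u : M → ℝ} (hu : CConv u) (hg : G.Good u 1) (z : M) :
    theta (ctr u) z = - theta u z := by
  have huc := hD.cont u hu
  have hcc : Continuous (ctr u) := continuous_ctr huc
  have h1 : theta (ctr u) z ≤ - theta u z := by
    have h2 := theta_le hcc (Y G u z) z
    have h3 := DY_Y hD hu hg z
    unfold DY at h3
    rw [halfDistSq_comm] at h2
    linarith
  refine le_antisymm h1 ?_
  obtain ⟨y, hy, -⟩ := exists_theta hcc z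
  have h4 := DY_nonneg huc z y
  unfold DY at h4
  rw [hy, halfDistSq_comm]
  linarith

theorem DX_swap (hD : DFacts G) {u : M → ℝ} (hu : CConv u) (hg : G.Good u 1) (y z : M) :
    DX (ctr u) y z = DY u z y := by
  unfold DX DY
  rw [theta_eq hD hu hg, halfDistSq_comm y z]; ring

theorem DY_swap (hD : DFacts G) {u : M → ℝ} (hu : CConv u) (hg : G.Good u 1) (x z : M) :
    DY (ctr u) z x = DX u x z := by
  unfold DX DY
  rw [theta_eq hD hu hg, halfDistSq_comm z x, ctr_ctr hu]; ring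

theorem IsMid.swap {u : M → ℝ} (hu : CConv u) {z : M} {w : TangentSpace (𝓡 n) z}
    (h : IsMid G u z w) : IsMid G (ctr u) z (-w) where
  left := by
    have := h.right
    rwa [neg_smul, smul_neg, neg_neg]
  right := by
    have := h.left
    rwa [smul_neg, ← neg_smul]
  dist_eq := by
    have h1 : (-(1 / 2 : ℝ)) • (-w) = (1 / 2 : ℝ) • w := by rw [neg_smul, smul_neg, neg_neg]
    have h2 : (1 / 2 : ℝ) • (-w) = (-(1 / 2 : ℝ)) • w := by rw [smul_neg, ← neg_smul]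
    rw [h1, h2, dist_comm, norm_neg]; exact h.dist_eq
  contact := by
    have h1 : (-(1 / 2 : ℝ)) • (-w) = (1 / 2 : ℝ) • w := by rw [neg_smul, smul_neg, neg_neg]
    have h2 : (1 / 2 : ℝ) • (-w) = (-(1 / 2 : ℝ)) • w := by rw [smul_neg, ← neg_smul]
    rw [h1, h2, DD_swap hu]; exact h.contact

theorem mv_swap (hC : CutFacts G) (hD : DFacts G) {u : M → ℝ} (hu : CConv u) (hg : G.Good u 1)
    (z : M) : mv G (ctr u) z = - mv G u z := by
  obtain ⟨C₁, hS⟩ := exists_SC hC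
  have h := (isMid_mv hD hu hg z).swap hu
  have h' : IsMid G (ctr u) z (mv G (ctr u) z) := by
    unfold mv
    rw [dif_pos ⟨_, h⟩]
    exact (⟨_, h⟩ : ∃ w, IsMid G (ctr u) z w).choose_spec
  exact h'.unique hS (continuous_ctr (hD.cont u hu)) h

theorem X_swap (hC : CutFacts G) (hD : DFacts G) {u : M → ℝ} (hu : CConv u) (hg : G.Good u 1)
    (z : M) : X G (ctr u) z = Y G u z := by
  unfold X Y
  rw [mv_swap hC hD hu hg, neg_smul, smul_neg, neg_neg]

theorem Y_swap (hC : CutFacts G) (hD : DFacts G) {u : M → ℝ} (hu : CConv u) (hg : G.Good u 1)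
    (z : M) : Y G (ctr u) z = X G u z := by
  unfold X Y
  rw [mv_swap hC hD hu hg, smul_neg, ← neg_smul]

/-! ### Uniform estimates -/

theorem DY_le {C₁ : ℝ} (hS : SC G C₁) (hD : DFacts G) {u : M → ℝ} (hu : CConv u)
    (hg : G.Good u 1) (z z' : M) : DY u z (Y G u z') ≤ 4 * C₁ * dist z z' ^ 2 := by
  have huc := hD.cont u hu
  have hm := isMid_mv hD hu hg z'
  obtain ⟨ξ, hξ, hξn⟩ := G.surj z' z
  have h1 := hS.2 z' _ hm.right ξ
  have h2 := hS.2 z' _ hm.left ξ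
  have h3 := theta_le huc (X G u z') z
  have h4 := hm.contact
  have h5 := hm.defect
  rw [hξ, hξn] at h1 h2
  rw [inner_smul_left] at h1 h2
  simp only [conj_trivial] at h1 h2
  unfold DY
  unfold DD at h4
  change theta u z ≤ u (G.ex z' ((-(1 / 2 : ℝ)) • mv G u z')) +
    2 * halfDistSq (G.ex z' ((-(1 / 2 : ℝ)) • mv G u z')) z at h3
  change ctr u (G.ex z' ((1 / 2 : ℝ) • mv G u z')) +
    2 * halfDistSq z (G.ex z' ((1 / 2 : ℝ) • mv G u z')) + theta u z ≤ _
  rw [halfDistSq_comm _ z] at h3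
  rw [halfDistSq_comm _ z'] at h5
  rw [dist_comm z z']
  nlinarith

theorem DX_le {C₁ : ℝ} (hS : SC G C₁) (hC : CutFacts G) (hD : DFacts G) {u : M → ℝ} (hu : CConv u)
    (hg : G.Good u 1) (hg' : G.Good (ctr u) 1) (z z' : M) :
    DX u (X G u z') z ≤ 4 * C₁ * dist z z' ^ 2 := by
  have h := DY_le hS hD (hD.cconv_ctr u (hD.cont u hu)) hg' z z'
  rwa [Y_swap hC hD hu hg, DY_swap hD hu hg] at h

/-- `ρ(z,z') = D(X z, Y z') ≤ 4 C₁ d(z,z')²`. -/
theorem rho_le {C₁ : ℝ} (hS : SC G C₁) (hD : DFacts G) {u : M → ℝ} (hu : CConv u)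
    (hg : G.Good u 1) (z z' : M) : DD u (X G u z) (Y G u z') ≤ 4 * C₁ * dist z z' ^ 2 := by
  refine (DD_le u (X G u z) z (Y G u z')).trans ?_
  rw [DX_X hD hu hg, zero_add]
  exact DY_le hS hD hu hg z z'

/-- the direction at `z` of the point `Y z'` is `4 C₁ d(z,z')`-close to that of `Y z`. -/
theorem norm_dir_Y {C₁ : ℝ} (hS : SC G C₁) (hD : DFacts G) {u : M → ℝ} (hu : CConv u)
    (hg : G.Good u 1) (z z' : M) (b : TangentSpace (𝓡 n) z) (hb : b ∈ G.K z)
    (hbe : G.ex z b = Y G u z') : ‖b - (1 / 2 : ℝ) • mv G u z‖ ≤ 4 * C₁ * dist z z' := by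
  have hm := isMid_mv hD hu hg z
  have h1 := key_le hS (hD.cont u hu) z _ _ hm.left hb
  rw [hm.DX_eq (hD.cont u hu), zero_add, hbe] at h1
  have h2 := DY_le hS hD hu hg z z'
  have h0 := hS.1
  have h3 : ‖(-(1 / 2 : ℝ)) • mv G u z + b‖ ^ 2 ≤ (4 * C₁ * dist z z') ^ 2 := by
    refine h1.trans ?_
    calc 4 * C₁ * DY u z (Y G u z') ≤ 4 * C₁ * (4 * C₁ * dist z z' ^ 2) := by gcongr
      _ = _ := by ring
  have h4 : b - (1 / 2 : ℝ) • mv G u z = (-(1 / 2 : ℝ)) • mv G u z + b := by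
    rw [neg_smul]; abel
  rw [h4]
  exact abs_le_of_sq_le_sq' h3 (by positivity) |>.2

end Mfd

end Crest.Agent.R226.Mid659
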