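/-
R226, E1.7 (helper659): uniform Lipschitz bounds for the midpoint picture, and the remaining
elementary facts used in E1.9.
-/
import Crest.Agent.R226.Midpoint_659
import Crest.Agent.R226.ExLip_659

set_option autoImplicit false

open MeasureTheory Bundle Set Filter
open scoped Manifold ContDiff Bundle ENNReal Topology
open Crest.GeometryTopology.MTW

namespace Crest.Agent.R226.Mid659

open Crest.Agent.R226 Crest.Agent.R226.Kant624 Crest.Agent.R226.GeoBasic616

section Metric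

variable {M : Type*} [MetricSpace M] [CompactSpace M]

/-- `3 * diam M`. -/
lemma abs_cost_sub_le (x x' y : M) :
    |halfDistSq x y - halfDistSq x' y| ≤ Metric.diam (univ : Set M) * dist x x' := by
  rw [abs_le]
  have h1 := halfDistSq_lip x x' y
  have h2 := halfDistSq_lip x' x y
  rw [dist_comm x' x] at h2
  constructor <;> linarith

lemma abs_cost_sub_le' (x y y' : M) :
    |halfDistSq x y - halfDistSq x y'| ≤ Metric.diam (univ : Set M) * dist y y' := by
  rw [halfDistSq_comm x y, halfDistSq_comm x y']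
  exact abs_cost_sub_le y y' x

lemma abs_DD_sub_le {u : M → ℝ} (hu : CConv u) (x x' y : M) :
    |DD u x y - DD u x' y| ≤ 2 * Metric.diam (univ : Set M) * dist x x' := by
  have h1 := abs_le.1 (CConv.abs_sub_le hu x x')
  have h2 := abs_le.1 (abs_cost_sub_le x x' y)
  unfold DD
  rw [abs_le]
  constructor <;> linarith [h1.1, h1.2, h2.1, h2.2]

lemma abs_DD_sub_le' {u : M → ℝ} (hu : CConv u) (x y y' : M) :
    |DD u x y - DD u x y'| ≤ 2 * Metric.diam (univ : Set M) * dist y y' := by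
  rw [← DD_swap hu, ← DD_swap hu]
  exact abs_DD_sub_le (CConv_ctr (CConv.continuous hu)) y y' x

lemma abs_DX_sub_le {u : M → ℝ} (hu : CConv u) (x x' z : M) :
    |DX u x z - DX u x' z| ≤ 3 * Metric.diam (univ : Set M) * dist x x' := by
  have h1 := abs_le.1 (CConv.abs_sub_le hu x x')
  have h2 := abs_le.1 (abs_cost_sub_le x x' z)
  unfold DX
  rw [abs_le]
  constructor <;> linarith [h1.1, h1.2, h2.1, h2.2]

lemma abs_DY_sub_le {u : M → ℝ} (hu : CConv u) (z y y' : M) :
    |DY u z y - DY u z y'| ≤ 3 * Metric.diam (univ : Set M) * dist y y' := by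
  have h1 := abs_le.1 (CConv.abs_sub_le (CConv_ctr (CConv.continuous hu)) y y')
  have h2 := abs_le.1 (abs_cost_sub_le' z y y')
  unfold DY
  rw [abs_le]
  constructor <;> linarith [h1.1, h1.2, h2.1, h2.2]

/-- a midpoint of `x` and `y` (in the metric sense) realises `D_X + D_Y = D`. -/
lemma DX_add_DY_of_mid (u : M → ℝ) {x y z : M} (h1 : dist x z = dist x y / 2)
    (h2 : dist z y = dist x y / 2) : DX u x z + DY u z y = DD u x y := by
  rw [DX_add_DY]
  unfold halfDistSq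
  rw [h1, h2]; ring

end Metric

variable {n : ℕ} {M : Type*} [MetricSpace M] [ChartedSpace (EuclideanSpace ℝ (Fin n)) M]
  [IsManifold (𝓡 n) ∞ M]
  [RiemannianBundle (fun p : M => TangentSpace (𝓡 n) p)]

/-- midpoints exist -/
theorem exists_midpoint (G : GeoData n M) (x y : M) :
    ∃ z, dist x z = dist x y / 2 ∧ dist z y = dist x y / 2 := by
  obtain ⟨v, hv, hvn⟩ := G.surj x y
  have hvK : v ∈ G.K x := by rw [mem_K, hv, hvn]
  refine ⟨G.ex x ((1 / 2 : ℝ) • v), ?_, ?_⟩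
  · rw [dist_left_of_mem_K G hvK (by norm_num) (by norm_num), hvn]; ring
  · rw [← hv, dist_right_of_mem_K G hvK (by norm_num) (by norm_num), hvn, hv]; ring

theorem exists_DX_add_DY [CompactSpace M] (G : GeoData n M) (u : M → ℝ) (x y : M) :
    ∃ z, DX u x z + DY u z y = DD u x y := by
  obtain ⟨z, h1, h2⟩ := exists_midpoint G x y
  exact ⟨z, DX_add_DY_of_mid u h1 h2⟩

/-- pairs of points at prescribed small distance -/
theorem exists_dist_eq (G : GeoData n M) (hn : 0 < n) (z : M) {t : ℝ} (h0 : 0 ≤ t)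
    (ht : t < G.r₀) : ∃ z', dist z z' = t := by
  have : Nonempty (Fin n) := ⟨⟨0, hn⟩⟩
  have : Nontrivial (TangentSpace (𝓡 n) z) :=
    inferInstanceAs (Nontrivial (EuclideanSpace ℝ (Fin n)))
  obtain ⟨v, hv⟩ := exists_norm_eq (TangentSpace (𝓡 n) z) h0
  refine ⟨G.ex z v, ?_⟩
  rw [dist_ex_of_norm_lt G (by rw [hv]; exact ht), hv]

section
variable [CompactSpace M] {G : GeoData n M}

/-- `L(h) ≥ c √h`. -/
theorem low {C₁ : ℝ} (hS : SC G C₁) (hD : DFacts G) (hn : 0 < n) [Nonempty M] {u : M → ℝ}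
    (hu : CConv u) (hg : G.Good u 1) {t : ℝ} (h0 : 0 ≤ t) (ht : t < G.r₀) :
    ∃ z z', dist z z' = t ∧ DD u (X G u z) (Y G u z') ≤ 4 * C₁ * t ^ 2 := by
  obtain ⟨z⟩ := ‹Nonempty M›
  obtain ⟨z', hz'⟩ := exists_dist_eq G hn z h0 ht
  refine ⟨z, z', hz', ?_⟩
  rw [← hz']
  exact rho_le hS hD hu hg z z'

theorem surjective_X (hC : CutFacts G) (hD : DFacts G) {u : M → ℝ} (hu : CConv u)
    (hg : G.Good u 1) : Function.Surjective (X G u) :=
  fun x => exists_mid_left hC hD hu hg x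

theorem surjective_Y (hC : CutFacts G) (hD : DFacts G) {u : M → ℝ} (hu : CConv u)
    (hg : G.Good u 1) (hg' : G.Good (ctr u) 1) : Function.Surjective (Y G u) := by
  intro y
  obtain ⟨z, hz⟩ := exists_mid_left hC hD (hD.cconv_ctr u (hD.cont u hu)) hg' y
  exact ⟨z, by rw [← X_swap hC hD hu hg]; exact hz⟩

variable [IsContMDiffRiemannianBundle (𝓡 n) ∞ (EuclideanSpace ℝ (Fin n))
    (fun p : M => TangentSpace (𝓡 n) p)] [IsRiemannianManifold (𝓡 n) M]

/-- `Y` is Lipschitz, uniformly in `u`. -/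
theorem exists_lip_Y (hC : CutFacts G) (hD : DFacts G) :
    ∃ L : ℝ, 0 ≤ L ∧ ∀ u : M → ℝ, CConv u → G.Good u 1 → ∀ z z',
      dist (Y G u z) (Y G u z') ≤ L * dist z z' := by
  obtain ⟨C₁, hS⟩ := exists_SC hC
  obtain ⟨L, hL, hlip⟩ := ExLip659.ex_lip G (Metric.diam (univ : Set M))
  have h0 := hS.1
  refine ⟨L * (4 * C₁), by positivity, ?_⟩
  intro u hu hg z z'
  obtain ⟨b, hb, hbn⟩ := G.surj z (Y G u z')
  have hbK : b ∈ G.K z := by rw [mem_K, hb, hbn]
  have h1 := norm_dir_Y hS hD hu hg z z' b hbK hb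
  have hm := isMid_mv hD hu hg z
  have h2 : ‖(1 / 2 : ℝ) • mv G u z‖ ≤ Metric.diam (univ : Set M) := by
    rw [← (mem_K G).1 hm.right]
    exact Metric.dist_le_diam_of_mem isCompact_univ.isBounded (mem_univ _) (mem_univ _)
  have h3 := hlip z _ b h2
  rw [hb] at h3
  rw [norm_sub_rev] at h3
  calc dist (Y G u z) (Y G u z') ≤ L * ‖b - (1 / 2 : ℝ) • mv G u z‖ := h3
    _ ≤ L * (4 * C₁ * dist z z') := by gcongr
    _ = L * (4 * C₁) * dist z z' := by ring

/-- `X` and `Y` are Lipschitz, uniformly in `u`. -/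
theorem exists_lip (hC : CutFacts G) (hD : DFacts G) :
    ∃ L : ℝ, 0 ≤ L ∧ ∀ u : M → ℝ, CConv u → G.Good u 1 → G.Good (ctr u) 1 → ∀ z z',
      dist (X G u z) (X G u z') ≤ L * dist z z' ∧ dist (Y G u z) (Y G u z') ≤ L * dist z z' := by
  obtain ⟨L, hL, h⟩ := exists_lip_Y hC hD
  refine ⟨L, hL, fun u hu hg hg' z z' => ⟨?_, h u hu hg z z'⟩⟩
  have h1 := h (ctr u) (hD.cconv_ctr u (hD.cont u hu)) hg' z z'
  rwa [Y_swap hC hD hu hg, Y_swap hC hD hu hg] at h1

end

end Crest.Agent.R226.Mid659
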