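/-
R226 E1.6 (helper619): compactness of the class of `c`-convex functions satisfying the engulfing
inequality, and the uniform modulus of continuity of the contact picture.
-/
import Crest.Agent.R226.Kant_624

set_option autoImplicit false
set_option linter.unusedSectionVars false

open Set Filter Topology
open Crest.GeometryTopology.MTW

namespace Crest.Agent.R226.Mod619

open Crest.Agent.R226 Crest.Agent.R226.Kant624

variable {M : Type*} [MetricSpace M]

/-- `D_u(x,y) = u(x) + u^c(y) + c(x,y) ≥ 0`. -/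
noncomputable def D (u : M → ℝ) (x y : M) : ℝ := u x + ctr u y + halfDistSq x y

/-- the engulfing inequality (E) with constant `K₀`. -/
def Eng (K₀ : ℝ) (u : M → ℝ) : Prop :=
  ∀ x xh y y₀ : M, D u x y ≤ K₀ * max (D u x y₀) (max (D u xh y₀) (D u xh y))

/-- `(x, z, y)` is a contact triple of `u`: `y ∈ ∂_c u (x)` and `z` is a midpoint (in the sense of
the closed relation `R`). -/
def CT (R : Set (M × M × M)) (u : M → ℝ) (x z y : M) : Prop :=
  D u x y = 0 ∧ (x, z, y) ∈ R

section Compact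

variable [CompactSpace M]

lemma D_nonneg {u : M → ℝ} (hu : CConv u) (x y : M) : 0 ≤ D u x y := by
  have := le_ctr (CConv.continuous hu) x y
  unfold D
  linarith

lemma D_eq_zero_iff {u : M → ℝ} (hu : CConv u) (x y : M) : D u x y = 0 ↔ y ∈ cSub u x :=
  (mem_cSub_iff (CConv.continuous hu) x y).symm

/-- `D` is symmetric in `u ↔ u^c`. -/
lemma D_ctr {u : M → ℝ} (hu : CConv u) (x y : M) : D (ctr u) y x = D u x y := by
  unfold D
  rw [ctr_ctr hu, halfDistSq_comm y x]
  ring

/-- the engulfing inequality is symmetric in `u ↔ u^c`. -/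
lemma Eng_ctr {K₀ : ℝ} {u : M → ℝ} (hu : CConv u) (h : Eng K₀ u) : Eng K₀ (ctr u) := by
  intro y yh x x₀
  rw [D_ctr hu, D_ctr hu, D_ctr hu, D_ctr hu]
  have h1 := h x x₀ y yh
  refine h1.trans_eq ?_
  congr 1
  rw [max_comm (D u x₀ yh) (D u x₀ y), max_left_comm, max_comm (D u x yh)]

lemma ctr_sub_const {u : M → ℝ} (hu : CConv u) (a : ℝ) (y : M) :
    ctr (fun x => u x - a) y = ctr u y + a := by
  have hc := CConv.continuous hu
  obtain ⟨x, hx, hx'⟩ := exists_ctr hc y
  have hc2 : Continuous fun x => u x - a := hc.sub continuous_const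
  obtain ⟨z, hz, hz'⟩ := exists_ctr hc2 y
  have h1 := hx' z
  have h2 := hz' x
  rw [hx, hz]
  linarith

lemma D_sub_const {u : M → ℝ} (hu : CConv u) (a : ℝ) (x y : M) :
    D (fun x => u x - a) x y = D u x y := by
  unfold D
  rw [ctr_sub_const hu]
  ring

omit [CompactSpace M] in
lemma CConv_sub_const {u : M → ℝ} (hu : CConv u) (a : ℝ) : CConv (fun x => u x - a) := by
  intro x
  obtain ⟨y, hy⟩ := hu x
  exact ⟨y, fun x' => by have := hy x'; linarith⟩

lemma Eng_sub_const {K₀ : ℝ} {u : M → ℝ} (hu : CConv u) (h : Eng K₀ u) (a : ℝ) :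
    Eng K₀ (fun x => u x - a) := by
  intro x xh y y₀
  rw [D_sub_const hu, D_sub_const hu, D_sub_const hu, D_sub_const hu]
  exact h x xh y y₀

/-- equi-Lipschitz functions: pointwise convergence along an ultrafilter implies continuous
convergence. -/
lemma tendsto_comp_of_lip {l : Filter ℕ} {f : ℕ → M → ℝ} {g : M → ℝ} {C : ℝ}
    (hlip : ∀ k x x', |f k x - f k x'| ≤ C * dist x x') (hf : ∀ x, Tendsto (fun k => f k x) l (𝓝 (g x)))
    {x : ℕ → M} {a : M} (hx : Tendsto x l (𝓝 a)) : Tendsto (fun k => f k (x k)) l (𝓝 (g a)) := by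
  have h1 : Tendsto (fun k => C * dist (x k) a) l (𝓝 (C * dist a a)) :=
    ((hx.dist tendsto_const_nhds).const_mul C)
  rw [dist_self, mul_zero] at h1
  have h2 : Tendsto (fun k => f k (x k) - f k a) l (𝓝 0) :=
    squeeze_zero_norm (fun k => by rw [Real.norm_eq_abs]; exact hlip k _ _) h1
  have h3 := h2.add (hf a)
  rw [zero_add] at h3
  refine h3.congr fun k => ?_
  ring

/-- **Compactness of the class of normalised `c`-convex functions**, in ultrafilter form. -/
theorem exists_limit (l : Ultrafilter ℕ) (u : ℕ → M → ℝ) (hu : ∀ k, CConv (u k)) (x₀ : M)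
    (h0 : ∀ k, u k x₀ = 0) :
    ∃ v : M → ℝ, CConv v ∧ v x₀ = 0 ∧
      (∀ x : ℕ → M, ∀ a : M, Tendsto x l (𝓝 a) → Tendsto (fun k => u k (x k)) l (𝓝 (v a))) ∧
      (∀ y : ℕ → M, ∀ b : M, Tendsto y l (𝓝 b) →
        Tendsto (fun k => ctr (u k) (y k)) l (𝓝 (ctr v b))) := by
  set d := Metric.diam (univ : Set M) with hd
  have hd0 : 0 ≤ d := Metric.diam_nonneg
  have hb : Bornology.IsBounded (univ : Set M) := isCompact_univ.isBounded
  have hdist : ∀ x y : M, dist x y ≤ d := fun x y =>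
    Metric.dist_le_diam_of_mem hb (mem_univ _) (mem_univ _)
  have hlip : ∀ k x x', |u k x - u k x'| ≤ d * dist x x' := fun k x x' =>
    CConv.abs_sub_le (hu k) x x'
  have hbd : ∀ k x, |u k x| ≤ d * d := by
    intro k x
    have h1 := hlip k x x₀
    rw [h0 k, sub_zero] at h1
    exact h1.trans (mul_le_mul_of_nonneg_left (hdist _ _) hd0)
  have hhd : ∀ x y : M, 0 ≤ halfDistSq x y ∧ halfDistSq x y ≤ d * d / 2 := by
    intro x y
    refine ⟨halfDistSq_nonneg x y, ?_⟩
    unfold halfDistSq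
    have := hdist x y
    have h2 : (0:ℝ) ≤ dist x y := dist_nonneg
    nlinarith
  -- the pointwise limits
  have hex : ∀ x, ∃ a : ℝ, Tendsto (fun k => u k x) l (𝓝 a) := by
    intro x
    have hK : IsCompact (Icc (-(d * d)) (d * d)) := isCompact_Icc
    obtain ⟨a, -, ha⟩ := hK.ultrafilter_le_nhds (l.map fun k : ℕ => u k x) (by
      rw [le_principal_iff]
      exact Eventually.of_forall (p := fun k : ℕ => u k x ∈ Icc (-(d * d)) (d * d))
        fun k => abs_le.1 (hbd k x))
    exact ⟨a, ha⟩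
  choose v hv using hex
  have hucomp : ∀ x : ℕ → M, ∀ a : M, Tendsto x l (𝓝 a) →
      Tendsto (fun k => u k (x k)) l (𝓝 (v a)) := fun x a hx => tendsto_comp_of_lip hlip hv hx
  have hcc : ∀ {x y : ℕ → M} {a b : M}, Tendsto x l (𝓝 a) → Tendsto y l (𝓝 b) →
      Tendsto (fun k => halfDistSq (x k) (y k)) l (𝓝 (halfDistSq a b)) := by
    intro x y a b hx hy
    unfold halfDistSq
    exact ((hx.dist hy).pow 2).div_const 2
  have hpt : ∀ x : ℕ → M, ∃ a : M, Tendsto x l (𝓝 a) := by
    intro x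
    obtain ⟨a, -, ha⟩ := isCompact_univ.ultrafilter_le_nhds (l.map x) (by simp)
    exact ⟨a, ha⟩
  -- `v` is `c`-convex
  have hvc : CConv v := by
    intro x
    choose y hy using fun k => hu k x
    obtain ⟨b, hb'⟩ := hpt y
    refine ⟨b, fun x' => ?_⟩
    have h1 : Tendsto (fun k => u k x + halfDistSq x (y k)) l (𝓝 (v x + halfDistSq x b)) :=
      (hv x).add (hcc tendsto_const_nhds hb')
    have h2 : Tendsto (fun k => u k x' + halfDistSq x' (y k)) l (𝓝 (v x' + halfDistSq x' b)) :=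
      (hv x').add (hcc tendsto_const_nhds hb')
    exact le_of_tendsto_of_tendsto' h1 h2 fun k => hy k x'
  have hvcont := CConv.continuous hvc
  refine ⟨v, hvc, ?_, hucomp, ?_⟩
  · refine tendsto_nhds_unique (hv x₀) ?_
    simp only [h0]
    exact tendsto_const_nhds
  · intro y b hy
    -- pointwise convergence of the transforms
    have hct : ∀ y : M, Tendsto (fun k => ctr (u k) y) l (𝓝 (ctr v y)) := by
      intro y
      have hbd2 : ∀ k, |ctr (u k) y| ≤ 2 * (d * d) := by
        intro k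
        obtain ⟨z, hz, -⟩ := exists_ctr (CConv.continuous (hu k)) y
        have h1 := abs_le.1 (hbd k z)
        have h2 := hhd z y
        rw [hz, abs_le]
        constructor <;> nlinarith
      obtain ⟨a, -, ha⟩ := (isCompact_Icc (a := -(2 * (d * d))) (b := 2 * (d * d))).ultrafilter_le_nhds
        (l.map fun k : ℕ => ctr (u k) y) (by
          rw [le_principal_iff]
          exact Eventually.of_forall
            (p := fun k : ℕ => ctr (u k) y ∈ Icc (-(2 * (d * d))) (2 * (d * d)))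
            fun k => abs_le.1 (hbd2 k))
      have ha' : Tendsto (fun k => ctr (u k) y) l (𝓝 a) := ha
      have e : a = ctr v y := by
        refine le_antisymm ?_ ?_
        · choose x hx _ using fun k => exists_ctr (CConv.continuous (hu k)) y
          obtain ⟨xi, hxi⟩ := hpt x
          have h1 : Tendsto (fun k => -u k (x k) - halfDistSq (x k) y) l
              (𝓝 (-v xi - halfDistSq xi y)) :=
            (hucomp x xi hxi).neg.sub (hcc hxi tendsto_const_nhds)
          have h2 : a = -v xi - halfDistSq xi y := by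
            refine tendsto_nhds_unique ha' (h1.congr fun k => ?_)
            exact (hx k).symm
          rw [h2]
          exact le_ctr hvcont xi y
        · obtain ⟨z, hz, -⟩ := exists_ctr hvcont y
          rw [hz]
          have h1 : Tendsto (fun k => -u k z - halfDistSq z y) l
              (𝓝 (-v z - halfDistSq z y)) :=
            (hv z).neg.sub tendsto_const_nhds
          exact le_of_tendsto_of_tendsto' h1 ha' fun k => le_ctr (CConv.continuous (hu k)) z y
      rw [← e]
      exact ha'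
    exact tendsto_comp_of_lip (fun k x x' =>
      CConv.abs_sub_le (CConv_ctr (CConv.continuous (hu k))) x x') hct hy

/-- convergence of `D` along the compactness theorem. -/
lemma tendsto_D {l : Ultrafilter ℕ} {u : ℕ → M → ℝ} {v : M → ℝ}
    (h1 : ∀ x : ℕ → M, ∀ a : M, Tendsto x l (𝓝 a) → Tendsto (fun k => u k (x k)) l (𝓝 (v a)))
    (h2 : ∀ y : ℕ → M, ∀ b : M, Tendsto y l (𝓝 b) →
        Tendsto (fun k => ctr (u k) (y k)) l (𝓝 (ctr v b)))
    {x y : ℕ → M} {a b : M} (hx : Tendsto x l (𝓝 a)) (hy : Tendsto y l (𝓝 b)) :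
    Tendsto (fun k => D (u k) (x k) (y k)) l (𝓝 (D v a b)) := by
  refine ((h1 x a hx).add (h2 y b hy)).add ?_
  unfold halfDistSq
  exact ((hx.dist hy).pow 2).div_const 2

/-- the engulfing inequality passes to limits. -/
lemma Eng_of_tendsto {K₀ : ℝ} {l : Ultrafilter ℕ} {u : ℕ → M → ℝ} {v : M → ℝ}
    (h1 : ∀ x : ℕ → M, ∀ a : M, Tendsto x l (𝓝 a) → Tendsto (fun k => u k (x k)) l (𝓝 (v a)))
    (h2 : ∀ y : ℕ → M, ∀ b : M, Tendsto y l (𝓝 b) →
        Tendsto (fun k => ctr (u k) (y k)) l (𝓝 (ctr v b)))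
    (hE : ∀ k, Eng K₀ (u k)) : Eng K₀ v := by
  intro x xh y y₀
  have hD : ∀ a b : M, Tendsto (fun k => D (u k) a b) l (𝓝 (D v a b)) := fun a b =>
    tendsto_D h1 h2 tendsto_const_nhds tendsto_const_nhds
  exact le_of_tendsto_of_tendsto' (hD x y)
    (((hD x y₀).max ((hD xh y₀).max (hD xh y))).const_mul K₀) fun k => hE k x xh y y₀

/-- **E1.6: uniform modulus.**  `huniq` is the output of Theorem 2 (`Engulf ⟹ C¹`): for every
`c`-convex `u` with the engulfing inequality, the contact point `y` of `x` is unique and the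
midpoint of the contact pair is unique. -/
theorem modulus {K₀ : ℝ} {R : Set (M × M × M)} (hR : IsClosed R)
    (huniq : ∀ u : M → ℝ, CConv u → Eng K₀ u → ∀ x y y', D u x y = 0 → D u x y' = 0 → y = y')
    (hmid : ∀ u : M → ℝ, CConv u → Eng K₀ u → ∀ x z z' y, CT R u x z y → CT R u x z' y → z = z') :
    ∀ ε : ℝ, 0 < ε → ∃ h₁ : ℝ, 0 < h₁ ∧ ∀ u : M → ℝ, CConv u → Eng K₀ u →
      ∀ x z y x' z' y' : M, CT R u x z y → CT R u x' z' y' → D u x y' ≤ h₁ →
        dist x x' ≤ ε ∧ dist z z' ≤ ε ∧ dist y y' ≤ ε := by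
  intro ε hε
  by_contra hcon
  push Not at hcon
  have hcon' : ∀ k : ℕ, ∃ u : M → ℝ, CConv u ∧ Eng K₀ u ∧ ∃ x z y x' z' y' : M,
      CT R u x z y ∧ CT R u x' z' y' ∧ D u x y' ≤ 1 / ((k : ℝ) + 1) ∧
        (dist x x' ≤ ε → dist z z' ≤ ε → ε < dist y y') := by
    intro k
    obtain ⟨u, h1, h2, x, z, y, x', z', y', h3, h4, h5, h6⟩ := hcon (1 / ((k : ℝ) + 1)) (by positivity)
    exact ⟨u, h1, h2, x, z, y, x', z', y', h3, h4, h5, h6⟩
  choose u hu hE x z y x' z' y' hT hT' hD hfar using hcon'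
  set l : Ultrafilter ℕ := hyperfilter ℕ with hl
  have hlat : (l : Filter ℕ) ≤ atTop := by
    rw [← Nat.cofinite_eq_atTop]
    exact hyperfilter_le_cofinite
  -- normalise
  set w : ℕ → M → ℝ := fun k a => u k a - u k (x 0) with hw
  have hwc : ∀ k, CConv (w k) := fun k => CConv_sub_const (hu k) _
  have hwD : ∀ k a b, D (w k) a b = D (u k) a b := fun k a b => D_sub_const (hu k) _ a b
  have hwE : ∀ k, Eng K₀ (w k) := fun k => Eng_sub_const (hu k) (hE k) _
  obtain ⟨v, hv, -, h1, h2⟩ := exists_limit l w hwc (x 0) (fun k => by simp [hw])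
  have hvE : Eng K₀ v := Eng_of_tendsto h1 h2 hwE
  have hpt : ∀ x : ℕ → M, ∃ a : M, Tendsto x l (𝓝 a) := by
    intro x
    obtain ⟨a, -, ha⟩ := isCompact_univ.ultrafilter_le_nhds (l.map x) (by simp)
    exact ⟨a, ha⟩
  obtain ⟨X, hX⟩ := hpt x
  obtain ⟨Z, hZ⟩ := hpt z
  obtain ⟨Y, hY⟩ := hpt y
  obtain ⟨X', hX'⟩ := hpt x'
  obtain ⟨Z', hZ'⟩ := hpt z'
  obtain ⟨Y', hY'⟩ := hpt y'
  have hCT : ∀ {a b c : ℕ → M} {A B C : M}, Tendsto a l (𝓝 A) → Tendsto b l (𝓝 B) →
      Tendsto c l (𝓝 C) → (∀ k, CT R (u k) (a k) (b k) (c k)) → CT R v A B C := by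
    intro a b c A B C ha hb hc h
    refine ⟨?_, ?_⟩
    · refine tendsto_nhds_unique (tendsto_D h1 h2 ha hc) ?_
      have : (fun k => D (w k) (a k) (c k)) = fun _ => (0:ℝ) := by
        funext k
        rw [hwD, (h k).1]
      rw [this]
      exact tendsto_const_nhds
    · exact hR.mem_of_tendsto (ha.prodMk_nhds (hb.prodMk_nhds hc))
        (Eventually.of_forall fun k => (h k).2)
  have c1 : CT R v X Z Y := hCT hX hZ hY hT
  have c2 : CT R v X' Z' Y' := hCT hX' hZ' hY' hT'
  have c3 : D v X Y' = 0 := by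
    refine le_antisymm ?_ (D_nonneg hv X Y')
    have h3 := tendsto_D h1 h2 hX hY'
    have h4 : Tendsto (fun k : ℕ => 1 / ((k : ℝ) + 1)) l (𝓝 0) :=
      tendsto_one_div_add_atTop_nhds_zero_nat.mono_left hlat
    exact le_of_tendsto_of_tendsto' h3 h4 fun k => by rw [hwD]; exact hD k
  have eY : Y = Y' := huniq v hv hvE X Y Y' c1.1 c3
  have eX : X = X' := by
    have hvc := CConv_ctr (CConv.continuous hv)
    refine huniq (ctr v) hvc (Eng_ctr hv hvE) Y' X X' ?_ ?_
    · rw [D_ctr hv]; exact c3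
    · rw [D_ctr hv]; exact c2.1
  subst eY
  subst eX
  have eZ : Z = Z' := hmid v hv hvE X Z Z' Y c1 c2
  subst eZ
  have hlt : ∀ {a b : ℕ → M} {A : M}, Tendsto a l (𝓝 A) → Tendsto b l (𝓝 A) →
      ∀ᶠ k in (l : Filter ℕ), dist (a k) (b k) < ε := by
    intro a b A ha hb
    have h3 := ha.dist hb
    rw [dist_self] at h3
    exact h3.eventually (gt_mem_nhds hε)
  obtain ⟨k, ⟨k1, k2⟩, k3⟩ := (((hlt hX hX').and (hlt hZ hZ')).and (hlt hY hY')).exists
  exact absurd (hfar k k1.le k2.le) (not_lt.2 k3.le)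

end Compact

end Crest.Agent.R226.Mod619
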