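/-
R226 E1.6 (helper619): geometric form of the uniform modulus.
-/
import Crest.Agent.R226.Modulus_619
import Crest.Agent.R226.CC0_227

set_option autoImplicit false
set_option linter.unusedSectionVars false

open Set Filter Topology Bundle
open scoped Manifold ContDiff Bundle
open Crest.GeometryTopology.MTW

namespace Crest.Agent.R226.Mod619

open Crest.Agent.R226 Crest.Agent.R226.Kant624

variable {n : ℕ} {M : Type*} [MetricSpace M] [ChartedSpace (EuclideanSpace ℝ (Fin n)) M]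
  [IsManifold (𝓡 n) ∞ M]
  [RiemannianBundle (fun p : M => TangentSpace (𝓡 n) p)]

/-- geometric midpoint relation: `(x, exp_x (w/2), exp_x w)` for `w ∈ K(x)`. -/
def GMid (G : GeoData n M) : Set (M × M × M) :=
  {q | ∃ w ∈ G.K q.1, G.ex q.1 ((1 / 2 : ℝ) • w) = q.2.1 ∧ G.ex q.1 w = q.2.2}

variable (G : GeoData n M)

theorem isClosed_GMid (hK : IsCompact G.KT) : IsClosed (GMid G) := by
  have hex := BundleTop345.continuous_ex G
  have hpr := FiberBundle.continuous_proj (EuclideanSpace ℝ (Fin n))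
      (TangentSpace (𝓡 n) : M → Type _)
  have hsm : Continuous (fun p : TangentBundle (𝓡 n) M =>
      (⟨p.1, (1 / 2 : ℝ) • p.2⟩ : TangentBundle (𝓡 n) M)) :=
    BAux227.continuous_smulTM.comp (continuous_const.prodMk continuous_id)
  have hmid : Continuous (fun p : TangentBundle (𝓡 n) M => G.ex p.1 ((1 / 2 : ℝ) • p.2)) :=
    hex.comp hsm
  have h1 : GMid G = (fun p : TangentBundle (𝓡 n) M =>
      (p.1, G.ex p.1 ((1 / 2 : ℝ) • p.2), G.ex p.1 p.2)) '' G.KT := by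
    ext q
    obtain ⟨x, z, y⟩ := q
    constructor
    · rintro ⟨w, hw, h2, h3⟩
      exact ⟨⟨x, w⟩, hw, by simp only at h2 h3 ⊢; rw [h2, h3]⟩
    · rintro ⟨⟨a, w⟩, hw, h⟩
      simp only [Prod.mk.injEq] at h
      obtain ⟨rfl, h2, h3⟩ := h
      exact ⟨w, hw, h2, h3⟩
  rw [h1]
  exact (hK.image (hpr.prodMk (hmid.prodMk hex))).isClosed

variable [CompactSpace M]

/-- **E1.6, geometric form.** -/
theorem modulus_geo (hK : IsCompact G.KT) {K₀ : ℝ}
    (hP : ∀ u : M → ℝ, CConv u → Eng K₀ u → ∀ x, (G.P u x).Subsingleton) :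
    ∀ ε : ℝ, 0 < ε → ∃ h₁ : ℝ, 0 < h₁ ∧ ∀ u : M → ℝ, CConv u → Eng K₀ u →
      ∀ x x' : M, ∀ w ∈ G.P u x, ∀ w' ∈ G.P u x', D u x (G.ex x' w') ≤ h₁ →
        dist x x' ≤ ε ∧ dist (G.ex x ((1 / 2 : ℝ) • w)) (G.ex x' ((1 / 2 : ℝ) • w')) ≤ ε ∧
          dist (G.ex x w) (G.ex x' w') ≤ ε := by
  have hlift : ∀ u : M → ℝ, CConv u → ∀ x y, D u x y = 0 → ∃ w ∈ G.P u x, G.ex x w = y := by
    intro u hu x y h
    obtain ⟨w, hw, hw'⟩ := G.surj x y
    have h2 : w ∈ G.K x := by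
      show dist x (G.ex x w) = ‖w‖
      rw [hw, hw']
    refine ⟨w, ⟨h2, ?_⟩, hw⟩
    rw [hw]
    exact (D_eq_zero_iff hu x y).1 h
  intro ε hε
  obtain ⟨h₁, hh, H⟩ := modulus (K₀ := K₀) (isClosed_GMid G hK) (fun u hu hE x y y' h1 h2 => by
      obtain ⟨w, hw, rfl⟩ := hlift u hu x y h1
      obtain ⟨w', hw', rfl⟩ := hlift u hu x y' h2
      rw [hP u hu hE x hw hw']) (fun u hu hE x z z' y h1 h2 => by
      obtain ⟨h1a, w, hw, h1b, h1c⟩ := h1
      obtain ⟨h2a, w', hw', h2b, h2c⟩ := h2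
      simp only at hw hw' h1b h1c h2b h2c
      have hwP : w ∈ G.P u x := ⟨hw, by rw [h1c]; exact (D_eq_zero_iff hu x y).1 h1a⟩
      have hwP' : w' ∈ G.P u x := ⟨hw', by rw [h2c]; exact (D_eq_zero_iff hu x y).1 h2a⟩
      rw [← h1b, ← h2b, hP u hu hE x hwP hwP']) ε hε
  refine ⟨h₁, hh, fun u hu hE x x' w hw w' hw' hD => ?_⟩
  have t : ∀ (x : M) (w : TangentSpace (𝓡 n) x), w ∈ G.P u x →
      CT (GMid G) u x (G.ex x ((1 / 2 : ℝ) • w)) (G.ex x w) := fun x w hw =>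
    ⟨(D_eq_zero_iff hu x _).2 hw.2, w, hw.1, rfl, rfl⟩
  exact H u hu hE x _ _ x' _ _ (t x w hw) (t x' w' hw') hD

end Crest.Agent.R226.Mod619
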