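/-
R226, task E1.8 (helper344), part 3: `lg`, `ell`, the geometric inequalities `geo1`, `geo2` and the
pair expansion `taylor_pair` of Theorem 3 (doc 848).
-/
import Crest.Agent.R226.Taylor2_344

set_option autoImplicit false
set_option linter.unusedSectionVars false

open MeasureTheory Bundle Set Filter
open scoped Manifold ContDiff Bundle ENNReal Topology
open Crest.GeometryTopology.MTW

namespace Crest.Agent.R226.Taylor344

variable {n : ℕ} {M : Type*} [MetricSpace M] [ChartedSpace (EuclideanSpace ℝ (Fin n)) M]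
  [IsManifold (𝓡 n) ∞ M]
  [RiemannianBundle (fun p : M => TangentSpace (𝓡 n) p)]

/-- a shortest logarithm -/
noncomputable def lg (G : GeoData n M) (z z' : M) : TangentSpace (𝓡 n) z :=
  Classical.choose (G.surj z z')

theorem ex_lg (G : GeoData n M) (z z' : M) : G.ex z (lg G z z') = z' :=
  (Classical.choose_spec (G.surj z z')).1

theorem norm_lg (G : GeoData n M) (z z' : M) : ‖lg G z z'‖ = dist z z' :=
  (Classical.choose_spec (G.surj z z')).2

/-- `ell z1 z2 z = ⟪w, log_{z1} z⟫`, `w` the unit vector at `z1` towards `z2`. -/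
noncomputable def ell (G : GeoData n M) (z1 z2 z : M) : ℝ :=
  inner ℝ (lg G z1 z2) (lg G z1 z) / dist z1 z2

theorem ell_le (G : GeoData n M) {z1 z2 : M} (h : z1 ≠ z2) (z : M) :
    |ell G z1 z2 z| ≤ dist z z1 := by
  have hL : 0 < dist z1 z2 := dist_pos.2 h
  unfold ell
  rw [abs_div, abs_of_pos hL, div_le_iff₀ hL]
  refine (abs_real_inner_le_norm _ _).trans ?_
  rw [norm_lg, norm_lg, dist_comm z z1, mul_comm]

section

variable [IsContMDiffRiemannianBundle (𝓡 n) ∞ (EuclideanSpace ℝ (Fin n))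
  (fun p : M => TangentSpace (𝓡 n) p)] [CompactSpace M]

/-- comparison of the distance with the euclidean one near `0`. -/
theorem near_zero {G : GeoData n M} (hC : CutFacts G) :
    ∃ C r : ℝ, 0 < C ∧ 0 < r ∧ ∀ (z : M) (v ζ : TangentSpace (𝓡 n) z), ‖v‖ ≤ r → ‖ζ‖ ≤ r →
      v ∈ G.K z ∧
      |dist (G.ex z ζ) (G.ex z v) ^ 2 - ‖v‖ ^ 2 - ‖ζ‖ ^ 2 + 2 * inner ℝ v ζ| ≤
        C * ‖v‖ * ‖ζ‖ ^ 2 := by
  have hS : IsCompact {p : TangentBundle (𝓡 n) M | ‖p.2‖ ≤ 0} := CutTop478.isCompact_disc 0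
  have hSI : {p : TangentBundle (𝓡 n) M | ‖p.2‖ ≤ 0} ⊆ G.IT := by
    rintro ⟨z, v⟩ hv
    have hv' : ‖v‖ ≤ 0 := hv
    have h0 : v = 0 := norm_le_zero_iff.1 hv'
    subst h0
    exact CutTop478.zero_mem_I G z
  obtain ⟨C, r, hC0, hr, h⟩ := rem_uniform hC hS hSI
  refine ⟨2 * C + 1, r, by positivity, hr, fun z v ζ hv hζ => ?_⟩
  have hz : (⟨z, 0⟩ : TangentBundle (𝓡 n) M) ∈ {p : TangentBundle (𝓡 n) M | ‖p.2‖ ≤ 0} := by
    change ‖(0 : TangentSpace (𝓡 n) z)‖ ≤ 0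
    rw [norm_zero]
  obtain ⟨hvI, hv2⟩ := h z 0 hz v ζ (by rwa [sub_zero]) hζ
  obtain ⟨hζI, -⟩ := h z 0 hz ζ ζ (by rwa [sub_zero]) hζ
  have hvK : dist z (G.ex z v) = ‖v‖ := hC.I_subset z hvI
  have hζK : dist z (G.ex z ζ) = ‖ζ‖ := hC.I_subset z hζI
  refine ⟨hC.I_subset z hvI, ?_⟩
  unfold rem halfDistSq at hv2
  rw [G.ex_zero, hvK, dist_comm (G.ex z ζ) z, hζK, dist_self, inner_zero_left, sub_zero] at hv2
  have h3 : dist (G.ex z ζ) (G.ex z v) ^ 2 - ‖v‖ ^ 2 - ‖ζ‖ ^ 2 + 2 * inner ℝ v ζ =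
      2 * (dist (G.ex z ζ) (G.ex z v) ^ 2 / 2 - ‖v‖ ^ 2 / 2 + inner ℝ v ζ -
        (‖ζ‖ ^ 2 / 2 - 0 ^ 2 / 2 + 0)) := by ring
  rw [h3, abs_mul, abs_two]
  have h4 : 0 ≤ ‖v‖ * ‖ζ‖ ^ 2 := by positivity
  calc 2 * |dist (G.ex z ζ) (G.ex z v) ^ 2 / 2 - ‖v‖ ^ 2 / 2 + inner ℝ v ζ -
        (‖ζ‖ ^ 2 / 2 - 0 ^ 2 / 2 + 0)| ≤ 2 * (C * ‖v‖ * ‖ζ‖ ^ 2) := by gcongr
    _ ≤ (2 * C + 1) * ‖v‖ * ‖ζ‖ ^ 2 := by nlinarith

/-- law of cosines for `ell`. -/
theorem ell_est {G : GeoData n M} (hC : CutFacts G) :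
    ∃ C r : ℝ, 0 < C ∧ 0 < r ∧ ∀ z1 z2 z : M, z1 ≠ z2 → dist z1 z2 ≤ r → dist z z1 ≤ r →
      |ell G z1 z2 z - (dist z z1 ^ 2 + dist z1 z2 ^ 2 - dist z z2 ^ 2) / (2 * dist z1 z2)| ≤
        C * dist z z1 ^ 2 := by
  obtain ⟨C, r, hC0, hr, h⟩ := near_zero hC
  refine ⟨C, r, hC0, hr, fun z1 z2 z hne h12 h1 => ?_⟩
  have hL : 0 < dist z1 z2 := dist_pos.2 hne
  obtain ⟨-, h3⟩ := h z1 (lg G z1 z2) (lg G z1 z) (by rwa [norm_lg]) (by rwa [norm_lg, dist_comm])
  rw [ex_lg, ex_lg, norm_lg, norm_lg, dist_comm z1 z] at h3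
  have h4 : ell G z1 z2 z - (dist z z1 ^ 2 + dist z1 z2 ^ 2 - dist z z2 ^ 2) / (2 * dist z1 z2) =
      (dist z z2 ^ 2 - dist z1 z2 ^ 2 - dist z z1 ^ 2 + 2 * inner ℝ (lg G z1 z2) (lg G z1 z)) /
        (2 * dist z1 z2) := by
    unfold ell
    field_simp
    ring
  rw [h4, abs_div, abs_of_pos (by positivity : 0 < 2 * dist z1 z2), div_le_iff₀ (by positivity)]
  refine h3.trans ?_
  have h5 : 0 ≤ C * dist z1 z2 * dist z z1 ^ 2 := by positivity
  nlinarith

/-- the two geometric inequalities. -/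
theorem geo {G : GeoData n M} (hC : CutFacts G) :
    ∃ C r : ℝ, 0 < C ∧ 0 < r ∧ ∀ z1 z2 z : M, z1 ≠ z2 → dist z1 z2 ≤ r → dist z z1 ≤ r →
      dist z1 z2 - ell G z1 z2 z ≤ dist z z2 + C * (dist z z1 + dist z1 z2) ^ 2 ∧
      dist z1 z2 ≤ ell G z1 z2 z + ell G z2 z1 z + C * (dist z z1 + dist z1 z2) ^ 2 := by
  obtain ⟨C, r, hC0, hr, h⟩ := ell_est hC
  refine ⟨2 * C, r / 2, by positivity, by positivity, fun z1 z2 z hne h12 h1 => ?_⟩
  have hL : 0 < dist z1 z2 := dist_pos.2 hne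
  have ha := dist_nonneg (x := z) (y := z1)
  have hb := dist_nonneg (x := z) (y := z2)
  have hbs : dist z z2 ≤ dist z z1 + dist z1 z2 := dist_triangle _ _ _
  have hLs : dist z1 z2 ≤ dist z z1 + dist z z2 := by
    have := dist_triangle z1 z z2
    rwa [dist_comm z1 z] at this
  have has : dist z z1 ≤ dist z z2 + dist z1 z2 := by
    have := dist_triangle z z2 z1
    rwa [dist_comm z2 z1] at this
  have e1 := h z1 z2 z hne (by linarith) (by linarith)
  have e2 := h z2 z1 z hne.symm (by rw [dist_comm]; linarith) (by linarith)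
  rw [dist_comm z2 z1] at e2
  have f1 := (abs_le.1 e1).1
  have f2 := (abs_le.1 e2).1
  have hsq1 : dist z z1 ^ 2 ≤ (dist z z1 + dist z1 z2) ^ 2 := by gcongr; linarith
  have hsq2 : dist z z2 ^ 2 ≤ (dist z z1 + dist z1 z2) ^ 2 := by gcongr
  have hCs1 : C * dist z z1 ^ 2 ≤ C * (dist z z1 + dist z1 z2) ^ 2 := by gcongr
  have hCs2 : C * dist z z2 ^ 2 ≤ C * (dist z z1 + dist z1 z2) ^ 2 := by gcongr
  constructor
  · have h5 : dist z1 z2 - (dist z z1 ^ 2 + dist z1 z2 ^ 2 - dist z z2 ^ 2) / (2 * dist z1 z2) ≤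
        dist z z2 := by
      rw [sub_le_iff_le_add, ← sub_le_iff_le_add', le_div_iff₀ (by positivity)]
      have h6 : (dist z1 z2 - dist z z2) ^ 2 ≤ dist z z1 ^ 2 := by
        apply sq_le_sq'
        · linarith
        · linarith
      nlinarith
    have h7 : 0 ≤ C * (dist z z1 + dist z1 z2) ^ 2 := by positivity
    linarith
  · have h8 : (dist z z1 ^ 2 + dist z1 z2 ^ 2 - dist z z2 ^ 2) / (2 * dist z1 z2) +
        (dist z z2 ^ 2 + dist z1 z2 ^ 2 - dist z z1 ^ 2) / (2 * dist z1 z2) = dist z1 z2 := by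
      field_simp
      ring
    linarith

/-- the pair expansion of Theorem 3. -/
theorem taylor_pair {G : GeoData n M} (hC : CutFacts G) :
    ∃ Λ C r : ℝ, 0 < Λ ∧ 0 < C ∧ 0 < r ∧ ∀ (z1 : M), ∀ v ∈ Sym G z1, ∀ z2 : M, z1 ≠ z2 →
      ∀ μ : ℝ, |μ| ≤ r → ∃ x y : M,
        dist x (G.ex z1 (-v)) ≤ Λ * |μ| ∧ dist y (G.ex z1 v) ≤ Λ * |μ| ∧
        ∀ z : M, dist z z1 ≤ r →
          |(2 * halfDistSq x z - 2 * halfDistSq (G.ex z1 (-v)) z) -
            (2 * halfDistSq x z1 - 2 * halfDistSq (G.ex z1 (-v)) z1) + 2 * μ * ell G z1 z2 z| ≤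
              C * |μ| * dist z z1 ^ 2 ∧
          |(2 * halfDistSq z y - 2 * halfDistSq z (G.ex z1 v)) -
            (2 * halfDistSq z1 y - 2 * halfDistSq z1 (G.ex z1 v)) - 2 * μ * ell G z1 z2 z| ≤
              C * |μ| * dist z z1 ^ 2 := by
  obtain ⟨C, r, hC0, hr, h⟩ := rem_uniform hC (isCompact_SymT G) (SymT_subset hC)
  obtain ⟨Λ, r', hΛ0, hr', h'⟩ := ex_lip_uniform G (isCompact_SymT G)
  refine ⟨Λ + 1, 2 * C + 1, min r r', by positivity, by positivity, lt_min hr hr', ?_⟩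
  intro z1 v hv z2 hne μ hμ
  have hL : 0 < dist z1 z2 := dist_pos.2 hne
  have hw : ‖(1 / dist z1 z2) • lg G z1 z2‖ = 1 := by
    rw [norm_smul, norm_lg, Real.norm_of_nonneg (by positivity)]
    field_simp
  obtain ⟨w, hwe⟩ : ∃ w, w = (1 / dist z1 z2) • lg G z1 z2 := ⟨_, rfl⟩
  rw [← hwe] at hw
  have hwell : ∀ z : M, inner ℝ w (lg G z1 z) = ell G z1 z2 z := by
    intro z
    rw [hwe, inner_smul_left]
    unfold ell
    simp only [conj_trivial]
    ring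
  have hμw : ‖μ • w‖ = |μ| := by rw [norm_smul, hw, mul_one, Real.norm_eq_abs]
  have hμr : |μ| ≤ r := hμ.trans (min_le_left _ _)
  have hμr' : |μ| ≤ r' := hμ.trans (min_le_right _ _)
  refine ⟨G.ex z1 (-v + μ • w), G.ex z1 (v - μ • w), ?_, ?_, ?_⟩
  · have h1 := h' z1 (-v) (sym_neg hv) (-v + μ • w) (by rw [add_sub_cancel_left, hμw]; exact hμr')
    rw [add_sub_cancel_left, hμw] at h1
    refine h1.trans ?_
    have := abs_nonneg μ
    nlinarith
  · have h1 := h' z1 v hv (v - μ • w) (by rw [sub_sub_cancel_left, norm_neg, hμw]; exact hμr')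
    rw [sub_sub_cancel_left, norm_neg, hμw] at h1
    refine h1.trans ?_
    have := abs_nonneg μ
    nlinarith
  · intro z hz
    have hζ : ‖lg G z1 z‖ ≤ r := by
      rw [norm_lg, dist_comm]
      exact hz.trans (min_le_left _ _)
    have hbd : 0 ≤ |μ| * dist z z1 ^ 2 := by positivity
    constructor
    · have h1 := (h z1 (-v) (sym_neg hv) (-v + μ • w) (lg G z1 z)
        (by rw [add_sub_cancel_left, hμw]; exact hμr) hζ).2
      rw [add_sub_cancel_left, hμw, norm_lg, dist_comm z1 z] at h1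
      unfold rem at h1
      rw [ex_lg, inner_add_left, inner_smul_left, hwell] at h1
      simp only [conj_trivial] at h1
      have e : (2 * halfDistSq (G.ex z1 (-v + μ • w)) z - 2 * halfDistSq (G.ex z1 (-v)) z) -
            (2 * halfDistSq (G.ex z1 (-v + μ • w)) z1 - 2 * halfDistSq (G.ex z1 (-v)) z1) +
            2 * μ * ell G z1 z2 z =
          2 * (halfDistSq z (G.ex z1 (-v + μ • w)) - halfDistSq z1 (G.ex z1 (-v + μ • w)) +
            (inner ℝ (-v) (lg G z1 z) + μ * ell G z1 z2 z) -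
            (halfDistSq z (G.ex z1 (-v)) - halfDistSq z1 (G.ex z1 (-v)) +
              inner ℝ (-v) (lg G z1 z))) := by
        rw [LoeperPt128.halfDistSq_comm' (G.ex z1 (-v + μ • w)) z,
          LoeperPt128.halfDistSq_comm' (G.ex z1 (-v)) z,
          LoeperPt128.halfDistSq_comm' (G.ex z1 (-v + μ • w)) z1,
          LoeperPt128.halfDistSq_comm' (G.ex z1 (-v)) z1]
        ring
      rw [e, abs_mul, abs_two]
      nlinarith
    · have h1 := (h z1 v hv (v - μ • w) (lg G z1 z)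
        (by rw [sub_sub_cancel_left, norm_neg, hμw]; exact hμr) hζ).2
      rw [sub_sub_cancel_left, norm_neg, hμw, norm_lg, dist_comm z1 z] at h1
      unfold rem at h1
      rw [ex_lg, inner_sub_left, inner_smul_left, hwell] at h1
      simp only [conj_trivial] at h1
      have e : (2 * halfDistSq z (G.ex z1 (v - μ • w)) - 2 * halfDistSq z (G.ex z1 v)) -
            (2 * halfDistSq z1 (G.ex z1 (v - μ • w)) - 2 * halfDistSq z1 (G.ex z1 v)) -
            2 * μ * ell G z1 z2 z =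
          2 * (halfDistSq z (G.ex z1 (v - μ • w)) - halfDistSq z1 (G.ex z1 (v - μ • w)) +
            (inner ℝ v (lg G z1 z) - μ * ell G z1 z2 z) -
            (halfDistSq z (G.ex z1 v) - halfDistSq z1 (G.ex z1 v) +
              inner ℝ v (lg G z1 z))) := by
        ring
      rw [e, abs_mul, abs_two]
      nlinarith

end

end Crest.Agent.R226.Taylor344
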