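/-
R226 group E, task E1.5 (helper887): Theorem 2 of doc 848.
The engulfing inequality implies that every `c`-subdifferential is a single point, and (with
convexity of `P_u(x)`, i.e. `Good u 1`) that `P_u(x)` is a single vector.
-/
import Crest.Agent.R226.CC1_227

set_option autoImplicit false
set_option linter.unusedSectionVars false

open Bundle Set Filter Module
open scoped Manifold ContDiff Bundle Topology
open Crest.GeometryTopology.MTW

namespace Crest.Agent.R226.Thm2_887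

open Crest.Agent.R226 Crest.Agent.R226.Kant624

variable {n : ℕ} {M : Type*} [MetricSpace M] [ChartedSpace (EuclideanSpace ℝ (Fin n)) M]
  [IsManifold (𝓡 n) ∞ M]
  [RiemannianBundle (fun p : M => TangentSpace (𝓡 n) p)]

variable {G : GeoData n M}
variable [IsContMDiffRiemannianBundle (𝓡 n) ∞ (EuclideanSpace ℝ (Fin n))
    (fun p : M => TangentSpace (𝓡 n) p)] [CompactSpace M]

/-- one-sided directional derivative of the cost (lower bound): if every minimising velocity `w`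
from `x` to `y` has `⟪w, ξ⟫ < m`, then `c(exp_x(tξ), y) > c(x,y) - m t` for small `t > 0`. -/
theorem cost_danskin (hC : CutFacts G) (x y : M) (ξ : TangentSpace (𝓡 n) x) (m : ℝ)
    (hm : ∀ w ∈ G.K x, G.ex x w = y → inner ℝ w ξ < m) :
    ∀ᶠ t : ℝ in 𝓝[>] 0, halfDistSq x y - m * t < halfDistSq (G.ex x (t • ξ)) y := by
  obtain ⟨C₁, hC₁0, hC₁⟩ := hC.semiconcave
  by_contra hcon
  rw [not_eventually] at hcon
  have hex : Continuous (fun p : TangentBundle (𝓡 n) M => G.ex p.1 p.2) := G.smooth.continuous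
  choose w hw1 hw2 using fun t : ℝ => G.surj (G.ex x (t • ξ)) y
  have hwK : ∀ t, w t ∈ G.K (G.ex x (t • ξ)) := by
    intro t
    show dist _ _ = _
    rw [hw1 t, hw2 t]
  -- main inequality
  have hkey : ∀ t : ℝ, 0 < t →
      ¬ (halfDistSq x y - m * t < halfDistSq (G.ex x (t • ξ)) y) →
      m ≤ inner ℝ (w t) (G.vel x ξ t) + C₁ * ‖ξ‖ ^ 2 * t := by
    intro t ht hbad
    have h1 := hC₁ (G.ex x (t • ξ)) (w t) (hwK t) ((-t) • G.vel x ξ t)
    have h2 : G.ex (G.ex x (t • ξ)) ((-t) • G.vel x ξ t) = x := by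
      have := G.flow x ξ t (-t)
      rw [show t + -t = 0 by ring, zero_smul, G.ex_zero] at this
      exact this
    have h4 : ‖(-t) • G.vel x ξ t‖ = t * ‖ξ‖ := by
      rw [norm_smul, Real.norm_eq_abs, abs_neg, abs_of_pos ht]
      congr 1
      exact G.norm_vel x ξ t
    rw [h2, real_inner_smul_right, h4, hw1 t] at h1
    have h5 : t * m ≤ t * (inner ℝ (w t) (G.vel x ξ t) + C₁ * ‖ξ‖ ^ 2 * t) := by
      have h6 := not_lt.1 hbad
      nlinarith
    exact le_of_mul_le_mul_left h5 ht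
  have hfreq : ∃ᶠ t : ℝ in 𝓝[>] 0,
      m ≤ inner ℝ (w t) (G.vel x ξ t) + C₁ * ‖ξ‖ ^ 2 * t := by
    refine (hcon.and_eventually self_mem_nhdsWithin).mono ?_
    rintro t ⟨h1, h2⟩
    exact hkey t h2 h1
  -- an ultrafilter
  have hne : (𝓝[>] (0:ℝ) ⊓ 𝓟 {t : ℝ |
      m ≤ inner ℝ (w t) (G.vel x ξ t) + C₁ * ‖ξ‖ ^ 2 * t}).NeBot :=
    frequently_mem_iff_neBot.1 hfreq
  obtain ⟨l, hl⟩ := @Ultrafilter.exists_le _ _ hne
  have hl1 : (l : Filter ℝ) ≤ 𝓝[>] 0 := hl.trans inf_le_left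
  have hl0 : (l : Filter ℝ) ≤ 𝓝 0 := hl1.trans nhdsWithin_le_nhds
  have hl2 : ∀ᶠ t in (l : Filter ℝ), m ≤ inner ℝ (w t) (G.vel x ξ t) + C₁ * ‖ξ‖ ^ 2 * t :=
    hl (mem_inf_of_right (mem_principal_self _))
  obtain ⟨p0, hp0, hlim⟩ := hC.isCompact_KT.ultrafilter_le_nhds
    (l.map fun t => (⟨G.ex x (t • ξ), w t⟩ : TangentBundle (𝓡 n) M))
    (by
      rw [le_principal_iff]
      show ∀ᶠ t in (l : Filter ℝ), _
      exact Eventually.of_forall fun t => hwK t)
  have hlim' : Tendsto (fun t => (⟨G.ex x (t • ξ), w t⟩ : TangentBundle (𝓡 n) M)) l (𝓝 p0) := hlim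
  have hvel := ((BAux227.continuous_vel G x ξ).tendsto 0).mono_left hl0
  have hx0 : G.ex x ((0 : ℝ) • ξ) = x := by rw [zero_smul, G.ex_zero]
  have hvel0 : (⟨G.ex x ((0:ℝ) • ξ), G.vel x ξ 0⟩ : TangentBundle (𝓡 n) M) = ⟨x, ξ⟩ := by
    refine TotalSpace.ext hx0 ?_
    exact heq_of_eq (show (curveVel n (fun t : ℝ => G.ex x (t • ξ)) 0 :
      EuclideanSpace ℝ (Fin n)) = (ξ : EuclideanSpace ℝ (Fin n)) from G.vel_zero x ξ)
  rw [hvel0] at hvel
  have hy : G.ex p0.1 p0.2 = y := by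
    have h1 : Tendsto (fun t => G.ex (G.ex x (t • ξ)) (w t)) l (𝓝 (G.ex p0.1 p0.2)) :=
      (hex.tendsto p0).comp hlim'
    have h2 : Tendsto (fun t => G.ex (G.ex x (t • ξ)) (w t)) l (𝓝 y) := by
      have : (fun t => G.ex (G.ex x (t • ξ)) (w t)) = fun _ => y := by
        funext t; exact hw1 t
      rw [this]
      exact tendsto_const_nhds
    exact tendsto_nhds_unique h1 h2
  obtain ⟨x0, w0⟩ := p0
  have hxx : x0 = x := by
    have h1 := (BAux227.tendsto_tm_iff.1 hlim').1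
    have h2 := (BAux227.tendsto_tm_iff.1 hvel).1
    exact tendsto_nhds_unique h1 h2
  subst hxx
  have hin := BAux227.tendsto_inner hlim' hvel
  have ht0 : Tendsto (fun t : ℝ => C₁ * ‖ξ‖ ^ 2 * t) l (𝓝 (C₁ * ‖ξ‖ ^ 2 * 0)) :=
    (tendsto_id.mono_left hl0).const_mul _
  have hfin := ge_of_tendsto (hin.add ht0) hl2
  rw [mul_zero, add_zero] at hfin
  exact absurd (hm w0 hp0 hy) (not_lt.2 hfin)

/-- the set of minimising velocities from `x` to `y` is compact. -/
theorem isCompact_W (hC : CutFacts G) (x y : M) :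
    IsCompact {w : TangentSpace (𝓡 n) x | w ∈ G.K x ∧ G.ex x w = y} := by
  have hex : Continuous (fun p : TangentBundle (𝓡 n) M => G.ex p.1 p.2) := G.smooth.continuous
  have h1 : IsCompact {p : TangentBundle (𝓡 n) M | p ∈ G.KT ∧ G.ex p.1 p.2 = y} :=
    hC.isCompact_KT.inter_right (isClosed_eq hex continuous_const)
  exact CC0227.isCompact_fibre h1 x

/-- **Theorem 2 (first half).**  Under the engulfing inequality the `c`-subdifferential of `u` is
at most one point everywhere. -/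
theorem cSub_subsingleton (hC : CutFacts G) {u : M → ℝ} (hu : CConv u) {K₀ : ℝ}
    (hE : ∀ x xh y y₀ : M, u x + ctr u y + halfDistSq x y ≤
      K₀ * max (u x + ctr u y₀ + halfDistSq x y₀)
        (max (u xh + ctr u y₀ + halfDistSq xh y₀) (u xh + ctr u y + halfDistSq xh y)))
    (x₁ : M) : (cSub u x₁).Subsingleton := by
  have huc := CConv.continuous hu
  obtain ⟨C₁, hC₁0, hC₁⟩ := hC.semiconcave
  have hPc : IsCompact (G.P u x₁) := CC0227.isCompact_P G hC.isCompact_KT huc x₁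
  obtain ⟨e, heP, hemax⟩ := hPc.exists_isMaxOn (Good272.P_nonempty G hu x₁)
    continuous_norm.continuousOn
  have hemax' : ∀ p ∈ G.P u x₁, ‖p‖ ≤ ‖e‖ := fun p hp => hemax hp
  have hPin : ∀ p ∈ G.P u x₁, inner ℝ p e ≤ ‖e‖ ^ 2 := by
    intro p hp
    have h1 := real_inner_le_norm p e
    have h2 := mul_le_mul_of_nonneg_right (hemax' p hp) (norm_nonneg e)
    nlinarith
  have hD0 : ∀ p ∈ G.P u x₁, u x₁ + ctr u (G.ex x₁ p) + halfDistSq x₁ (G.ex x₁ p) = 0 := by
    intro p hp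
    exact (mem_cSub_iff huc x₁ _).1 ((CC0227.mem_P_iff G).1 hp).2
  -- main claim
  have hmain : ∀ p₁ ∈ G.P u x₁, G.ex x₁ p₁ = G.ex x₁ e := by
    intro p₁ hp₁
    set y₁ := G.ex x₁ p₁ with hy₁
    have hWc := isCompact_W hC x₁ y₁
    obtain ⟨w, hwW, hwmax⟩ := hWc.exists_isMaxOn ⟨p₁, hp₁.1, rfl⟩
      (f := fun w : TangentSpace (𝓡 n) x₁ => inner ℝ w e)
      ((continuous_id.inner continuous_const).continuousOn)
    have hwP : w ∈ G.P u x₁ := by
      rw [CC0227.mem_P_iff]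
      refine ⟨hwW.1, ?_⟩
      rw [hwW.2]
      exact ((CC0227.mem_P_iff G).1 hp₁).2
    by_cases hlt : ‖e‖ ^ 2 ≤ inner ℝ w e
    · -- `w = e`
      have hwe : w = e := by
        have h1 := hemax' w hwP
        have h2 : ‖w - e‖ ^ 2 = ‖w‖ ^ 2 - 2 * inner ℝ w e + ‖e‖ ^ 2 := by
          rw [norm_sub_sq_real]
        have h3 : ‖w‖ ^ 2 ≤ ‖e‖ ^ 2 := by
          have := norm_nonneg w
          nlinarith
        have h4 : ‖w - e‖ ^ 2 ≤ 0 := by rw [h2]; linarith
        have h5 : ‖w - e‖ = 0 := by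
          have := sq_nonneg ‖w - e‖
          exact pow_eq_zero_iff (two_ne_zero) |>.1 (le_antisymm h4 this)
        exact sub_eq_zero.1 (norm_eq_zero.1 h5)
      rw [← hwe]
      exact hwW.2.symm
    · exfalso
      push Not at hlt
      set a : ℝ := inner ℝ w e with ha
      set gap : ℝ := (‖e‖ ^ 2 - a) / 2 with hgap
      have hgap0 : 0 < gap := by rw [hgap]; linarith
      set m' : ℝ := a + gap with hm'
      have hWm : ∀ v ∈ G.K x₁, G.ex x₁ v = y₁ → inner ℝ v e < m' := by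
        intro v hv hvy
        have h1 : inner ℝ v e ≤ inner ℝ w e := hwmax (show v ∈ {w | w ∈ G.K x₁ ∧ G.ex x₁ w = y₁}
          from ⟨hv, hvy⟩)
        rw [hm']
        linarith
      set ε : ℝ := gap / (2 * (|K₀| + 1)) with hε
      have hK : 0 < |K₀| + 1 := by positivity
      have hε0 : 0 < ε := by rw [hε]; positivity
      have hεK : |K₀| * ε < gap := by
        rw [hε]
        have h1 : |K₀| * (gap / (2 * (|K₀| + 1))) = gap * (|K₀| / (2 * (|K₀| + 1))) := by ring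
        rw [h1]
        have h2 : |K₀| / (2 * (|K₀| + 1)) < 1 := by
          rw [div_lt_one (by positivity)]
          have := abs_nonneg K₀
          linarith
        nlinarith
      have hd1 := cost_danskin hC x₁ y₁ e m' hWm
      have hd2 := CC1227.danskin hC hu x₁ e (‖e‖ ^ 2 + ε) (fun v hv => by
        have := hPin v hv
        linarith)
      have hev : ∀ᶠ t : ℝ in 𝓝[>] 0,
          gap ≤ |K₀| * ε + (C₁ * ‖e‖ ^ 2 + |K₀| * (C₁ * ‖e‖ ^ 2)) * t := by
        filter_upwards [hd1, hd2, self_mem_nhdsWithin] with t h1 h2 ht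
        have ht0 : (0:ℝ) < t := ht
        set xt := G.ex x₁ (t • e) with hxt
        have hn : ‖t • e‖ ^ 2 = t ^ 2 * ‖e‖ ^ 2 := by
          rw [norm_smul, Real.norm_eq_abs, mul_pow, sq_abs]
        -- lower bound for `u (x_t)`
        have h3 := CC1227.LB_P G hC₁ heP (t • e)
        rw [real_inner_smul_right, hn, real_inner_self_eq_norm_sq] at h3
        -- upper bound for `c(x_t, y*)`
        have h4 := hC₁ x₁ e heP.1 (t • e)
        rw [real_inner_smul_right, hn, real_inner_self_eq_norm_sq] at h4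
        have h5 := hD0 e heP
        have h6 := hD0 p₁ hp₁
        rw [← hy₁] at h6
        have h7 := hE xt x₁ y₁ (G.ex x₁ e)
        rw [h5, h6, max_self] at h7
        have h8 : u xt + ctr u (G.ex x₁ e) + halfDistSq xt (G.ex x₁ e) ≤
            t * (ε + C₁ * ‖e‖ ^ 2 * t) := by
          have : u xt + halfDistSq xt (G.ex x₁ e) ≤
              u x₁ + halfDistSq x₁ (G.ex x₁ e) + t * (ε + C₁ * ‖e‖ ^ 2 * t) := by
            nlinarith
          linarith
        have h9 : 0 ≤ t * (ε + C₁ * ‖e‖ ^ 2 * t) := by positivity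
        have h10 : max (u xt + ctr u (G.ex x₁ e) + halfDistSq xt (G.ex x₁ e)) 0 ≤
            t * (ε + C₁ * ‖e‖ ^ 2 * t) := max_le h8 h9
        have h11 : K₀ * max (u xt + ctr u (G.ex x₁ e) + halfDistSq xt (G.ex x₁ e)) 0 ≤
            |K₀| * (t * (ε + C₁ * ‖e‖ ^ 2 * t)) := by
          refine (mul_le_mul_of_nonneg_right (le_abs_self K₀) (le_max_right _ _)).trans ?_
          exact mul_le_mul_of_nonneg_left h10 (abs_nonneg _)
        have h12 : t * gap ≤ t * (|K₀| * ε + (C₁ * ‖e‖ ^ 2 + |K₀| * (C₁ * ‖e‖ ^ 2)) * t) := by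
          have e1 : ‖e‖ ^ 2 - m' = gap := by rw [hm', hgap]; ring
          have h13 : t * (‖e‖ ^ 2 - m') - C₁ * (t ^ 2 * ‖e‖ ^ 2) ≤
              u xt + ctr u y₁ + halfDistSq xt y₁ := by
            nlinarith
          rw [e1] at h13
          nlinarith
        exact le_of_mul_le_mul_left h12 ht0
      have hlim : Tendsto (fun t : ℝ =>
          |K₀| * ε + (C₁ * ‖e‖ ^ 2 + |K₀| * (C₁ * ‖e‖ ^ 2)) * t) (𝓝[>] 0)
          (𝓝 (|K₀| * ε + (C₁ * ‖e‖ ^ 2 + |K₀| * (C₁ * ‖e‖ ^ 2)) * 0)) :=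
        ((tendsto_id.const_mul _).const_add _).mono_left nhdsWithin_le_nhds
      have := ge_of_tendsto hlim hev
      rw [mul_zero, add_zero] at this
      linarith
  intro y hy z hz
  obtain ⟨v, hv1, hv2⟩ := G.surj x₁ y
  obtain ⟨w, hw1, hw2⟩ := G.surj x₁ z
  have hvP : v ∈ G.P u x₁ := by
    rw [CC0227.mem_P_iff, hv1]
    exact ⟨by show dist _ _ = _; rw [hv1, hv2], hy⟩
  have hwP : w ∈ G.P u x₁ := by
    rw [CC0227.mem_P_iff, hw1]
    exact ⟨by show dist _ _ = _; rw [hw1, hw2], hz⟩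
  rw [← hv1, ← hw1, hmain v hvP, hmain w hwP]

/-- **Theorem 2 (second half).**  If moreover `P_u(x)` is convex (`Good u 1`), it is a singleton. -/
theorem P_subsingleton (hC : CutFacts G) {u : M → ℝ} (hu : CConv u) {K₀ : ℝ}
    (hE : ∀ x xh y y₀ : M, u x + ctr u y + halfDistSq x y ≤
      K₀ * max (u x + ctr u y₀ + halfDistSq x y₀)
        (max (u xh + ctr u y₀ + halfDistSq xh y₀) (u xh + ctr u y + halfDistSq xh y)))
    (hgood : G.Good u 1) (x₁ : M) : (G.P u x₁).Subsingleton := by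
  have hconv := (Good272.Good_one_iff G u).1 hgood x₁
  have hs := cSub_subsingleton hC hu hE x₁
  have hnorm : ∀ p ∈ G.P u x₁, ∀ q ∈ G.P u x₁, ‖p‖ = ‖q‖ := by
    intro p hp q hq
    have h1 : dist x₁ (G.ex x₁ p) = ‖p‖ := hp.1
    have h2 : dist x₁ (G.ex x₁ q) = ‖q‖ := hq.1
    have h3 : G.ex x₁ p = G.ex x₁ q :=
      hs ((CC0227.mem_P_iff G).1 hp).2 ((CC0227.mem_P_iff G).1 hq).2
    rw [← h1, ← h2, h3]
  intro p hp q hq
  have hm : (1/2 : ℝ) • p + (1/2 : ℝ) • q ∈ G.P u x₁ :=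
    hconv hp hq (by norm_num) (by norm_num) (by norm_num)
  have h1 := hnorm p hp q hq
  have h2 := hnorm _ hm p hp
  have h3 : ‖p - q‖ ^ 2 = 0 := by
    have e1 : ‖p + q‖ ^ 2 = ‖p‖ ^ 2 + 2 * inner ℝ p q + ‖q‖ ^ 2 := norm_add_sq_real p q
    have e2 : ‖p - q‖ ^ 2 = ‖p‖ ^ 2 - 2 * inner ℝ p q + ‖q‖ ^ 2 := norm_sub_sq_real p q
    have e3 : ‖(1/2 : ℝ) • p + (1/2 : ℝ) • q‖ = (1/2) * ‖p + q‖ := by
      rw [← smul_add, norm_smul, Real.norm_eq_abs]
      norm_num
    rw [e3] at h2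
    have e4 : ‖p + q‖ = 2 * ‖p‖ := by linarith
    rw [e4] at e1
    rw [e2]
    rw [← h1] at e1 ⊢
    nlinarith
  have h4 : ‖p - q‖ = 0 := pow_eq_zero_iff (two_ne_zero) |>.1 h3
  exact sub_eq_zero.1 (norm_eq_zero.1 h4)

end Crest.Agent.R226.Thm2_887
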