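/-
R226, stream E1 (helper659): the `GD` instance (interface of helper762) for `c`-convex potentials
with the engulfing property: Midpoint_659 + Taylor3_344 + ModulusGeo_619 + Thm2_887.
-/
import Crest.Agent.R226.MidFacts_659
import Crest.Agent.R226.Taylor3_344
import Crest.Agent.R226.ModulusGeo_619
import Crest.Agent.R226.Thm2_887
import Crest.Agent.R226.GrowthDef_762
import Crest.Agent.R226.E1Shape_964

set_option autoImplicit false

open MeasureTheory Bundle Set Filter
open scoped Manifold ContDiff Bundle ENNReal Topology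
open Crest.GeometryTopology.MTW

namespace Crest.Agent.R226.GDInst659

open Crest.Agent.R226 Crest.Agent.R226.Kant624 Crest.Agent.R226.GeoBasic616
  Crest.Agent.R226.Mid659 Crest.Agent.R226.E1Shape964 Crest.Agent.R226.Growth762

variable {n : ℕ} {M : Type*} [MetricSpace M] [ChartedSpace (EuclideanSpace ℝ (Fin n)) M]
  [IsManifold (𝓡 n) ∞ M]
  [RiemannianBundle (fun p : M => TangentSpace (𝓡 n) p)]
  [CompactSpace M] {G : GeoData n M}

/-- the velocity at the initial point of a contact geodesic with midpoint `z`. -/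
theorem IsMid.exists_vel {u : M → ℝ} (hu : Continuous u) {z : M} {w : TangentSpace (𝓡 n) z}
    (hm : IsMid G u z w) :
    ∃ v ∈ G.P u (G.ex z ((-(1 / 2 : ℝ)) • w)),
      G.ex (G.ex z ((-(1 / 2 : ℝ)) • w)) v = G.ex z ((1 / 2 : ℝ) • w) ∧
      G.ex (G.ex z ((-(1 / 2 : ℝ)) • w)) ((1 / 2 : ℝ) • v) = z := by
  have h1 : ∀ s : ℝ, G.ex (G.ex z ((-(1 / 2 : ℝ)) • w)) (s • G.vel z w (-(1 / 2 : ℝ))) =
      G.ex z ((-(1 / 2 : ℝ) + s) • w) := fun s => G.flow z w (-(1 / 2 : ℝ)) s
  have h2 : G.ex (G.ex z ((-(1 / 2 : ℝ)) • w)) (G.vel z w (-(1 / 2 : ℝ))) =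
      G.ex z ((1 / 2 : ℝ) • w) := by
    have := h1 1
    rw [one_smul, show (-(1 / 2 : ℝ) + 1) = 1 / 2 by norm_num] at this
    exact this
  have h3 : G.ex (G.ex z ((-(1 / 2 : ℝ)) • w)) ((1 / 2 : ℝ) • G.vel z w (-(1 / 2 : ℝ))) = z := by
    rw [h1, show (-(1 / 2 : ℝ) + 1 / 2) = 0 by norm_num, zero_smul, G.ex_zero]
  refine ⟨G.vel z w (-(1 / 2 : ℝ)), ⟨?_, ?_⟩, h2, h3⟩
  · rw [mem_K, h2, norm_vel]
    exact hm.dist_eq
  · intro x'
    have := (contact_iff hu _ _).1 hm.contact x'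
    rw [h2]
    exact this

/-- the velocity at `X z` of the contact geodesic with midpoint `z`. -/
theorem exists_vel_X (hD : DFacts G) {u : M → ℝ} (hu : CConv u) (hg : G.Good u 1) (z : M) :
    ∃ v ∈ G.P u (X G u z), G.ex (X G u z) v = Y G u z ∧
      G.ex (X G u z) ((1 / 2 : ℝ) • v) = z :=
  IsMid.exists_vel (hD.cont u hu) (isMid_mv hD hu hg z)

variable [IsContMDiffRiemannianBundle (𝓡 n) ∞ (EuclideanSpace ℝ (Fin n))
    (fun p : M => TangentSpace (𝓡 n) p)] [IsRiemannianManifold (𝓡 n) M]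

/-- **the `GD` instance**, in the shape consumed by `EGlue915.estatement_of_GD`. -/
theorem exists_GD (hC : CutFacts G) (hD : DFacts G) (hGood : ∀ u : M → ℝ, CConv u → G.Good u 1)
    (hn : 0 < n) [Nonempty M] :
    ∀ K0 : ℝ, 1 ≤ K0 → ∃ (Λ C r μ0 : ℝ) (om : ℝ → ℝ), 1 ≤ Λ ∧ 1 ≤ C ∧ 0 < r ∧ 0 < μ0 ∧
      (∀ ε, 0 < ε → 0 < om ε) ∧ ∀ u : M → ℝ, CConv u → EngulfP K0 u →
        ∃ (X Y : M → M) (DX DY : M → M → ℝ) (ell : M → M → M → ℝ),
          GD K0 Λ C r μ0 om X Y (fun x y => u x + ctr u y + halfDistSq x y) DX DY ell ∧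
          (∀ x y, y ∈ cSub u x → ∃ z, X z = x ∧ Y z = y) ∧
          (∀ z z', dist (X z) (X z') ≤ Λ * dist z z') ∧
          (∀ z z', dist (Y z) (Y z') ≤ Λ * dist z z') := by
  intro K0 _
  obtain ⟨C₁, hS⟩ := exists_SC hC
  obtain ⟨L, hL, hlip⟩ := exists_lip (G := G) hC hD
  obtain ⟨C₂, r₂, hC₂, hr₂, hgeo⟩ := Taylor344.geo (G := G) hC
  obtain ⟨Λ₃, C₃, r₃, hΛ₃, hC₃, hr₃, htay⟩ := Taylor344.taylor_pair (G := G) hC
  have hmod := Mod619.modulus_geo (G := G) hC.isCompact_KT (K₀ := K0)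
    (fun u hu hE x => Thm2_887.P_subsingleton hC hu (K₀ := K0) (fun x xh y y₀ => hE x xh y y₀)
      (hGood u hu) x)
  choose! om hω hωm using hmod
  have hC₁ := hS.1
  obtain ⟨d, hd⟩ : ∃ d, d = Metric.diam (univ : Set M) := ⟨_, rfl⟩
  have hd0 : 0 ≤ d := by rw [hd]; exact Metric.diam_nonneg
  have hdd : ∀ x y : M, dist x y ≤ d := fun x y => by
    rw [hd]; exact Metric.dist_le_diam_of_mem isCompact_univ.isBounded (mem_univ _) (mem_univ _)
  obtain ⟨Λ, hΛ⟩ : ∃ Λ, Λ = 1 + 3 * d + L + Λ₃ := ⟨_, rfl⟩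
  obtain ⟨C, hCe⟩ : ∃ C, C = 1 + 4 * C₁ + C₂ + C₃ := ⟨_, rfl⟩
  have hr₀ := G.r₀_pos
  obtain ⟨r, hr⟩ : ∃ r, r = min (G.r₀ / 2) (min r₂ r₃) := ⟨_, rfl⟩
  have hr1 : r ≤ G.r₀ / 2 := by rw [hr]; exact min_le_left _ _
  have hr2 : r ≤ r₂ := by rw [hr]; exact (min_le_right _ _).trans (min_le_left _ _)
  have hr3 : r ≤ r₃ := by rw [hr]; exact (min_le_right _ _).trans (min_le_right _ _)
  have hr0 : 0 < r := by rw [hr]; exact lt_min (by positivity) (lt_min hr₂ hr₃)
  refine ⟨Λ, C, r, r₃, om, by rw [hΛ]; linarith, by rw [hCe]; linarith, hr0, hr₃, hω, ?_⟩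
  intro u hu hE
  have huc := hD.cont u hu
  have hcc := hD.cconv_ctr u huc
  have hg := hGood u hu
  have hg' := hGood (ctr u) hcc
  refine ⟨X G u, Y G u, DX u, DY u, Taylor344.ell G, ?_, ?_, ?_, ?_⟩
  · refine
      { D_nn := fun x y => DD_nonneg huc x y
        DX_nn := fun x z => DX_nonneg huc x z
        DY_nn := fun z y => DY_nonneg huc z y
        DX_self := fun z => DX_X hD hu hg z
        DY_self := fun z => DY_Y hD hu hg z
        surjX := surjective_X hC hD hu hg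
        surjY := surjective_Y hC hD hu hg hg'
        D_le := fun x z y => DD_le u x z y
        mid := fun x y => exists_DX_add_DY G u x y
        engulf := fun x y x' y0 => hE x x' y y0
        lipD1 := ?_
        lipD2 := ?_
        lipDX := ?_
        lipDY := ?_
        bdd := fun z z' => (hdd z z').trans (by rw [hΛ]; linarith)
        modulus := ?_
        low := ?_
        ell_le := fun z1 z2 z h _ _ => Taylor344.ell_le G h z
        geo1 := ?_
        geo2 := ?_
        taylor := ?_ }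
    · intro x x' y
      refine (abs_DD_sub_le hu x x' y).trans ?_
      rw [← hd]
      exact mul_le_mul_of_nonneg_right (by rw [hΛ]; linarith) dist_nonneg
    · intro x y y'
      refine (abs_DD_sub_le' hu x y y').trans ?_
      rw [← hd]
      exact mul_le_mul_of_nonneg_right (by rw [hΛ]; linarith) dist_nonneg
    · intro x x' z
      refine (abs_DX_sub_le hu x x' z).trans ?_
      rw [← hd]
      exact mul_le_mul_of_nonneg_right (by rw [hΛ]; linarith) dist_nonneg
    · intro z y y'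
      refine (abs_DY_sub_le hu z y y').trans ?_
      rw [← hd]
      exact mul_le_mul_of_nonneg_right (by rw [hΛ]; linarith) dist_nonneg
    · intro ε hε z z' h
      obtain ⟨v, hv, hv1, hv2⟩ := exists_vel_X hD hu hg z
      obtain ⟨v', hv', hv1', hv2'⟩ := exists_vel_X hD hu hg z'
      have h1 := (hωm ε hε u hu (fun x xh y y₀ => hE x xh y y₀) (X G u z) (X G u z') v hv v' hv'
        (by rw [hv1']; exact h)).2.1
      rwa [hv2, hv2'] at h1
    · intro t ht htr
      obtain ⟨z, z', h1, h2⟩ := low hS hD hn hu hg ht.le (by linarith : t < G.r₀)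
      refine ⟨z, z', h1.ge, h2.trans ?_⟩
      exact mul_le_mul_of_nonneg_right (by rw [hCe]; linarith) (sq_nonneg t)
    · intro z1 z2 z hne h1 h2
      refine ((hgeo z1 z2 z hne (h1.trans hr2) (h2.trans hr2)).1).trans ?_
      have : C₂ * (dist z z1 + dist z1 z2) ^ 2 ≤ C * (dist z z1 + dist z1 z2) ^ 2 :=
        mul_le_mul_of_nonneg_right (by rw [hCe]; linarith) (sq_nonneg _)
      linarith
    · intro z1 z2 z hne h1 h2 _
      refine ((hgeo z1 z2 z hne (h1.trans hr2) (h2.trans hr2)).2).trans ?_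
      have : C₂ * (dist z z1 + dist z1 z2) ^ 2 ≤ C * (dist z z1 + dist z1 z2) ^ 2 :=
        mul_le_mul_of_nonneg_right (by rw [hCe]; linarith) (sq_nonneg _)
      linarith
    · intro z1 z2 hne _ μ hμ
      have hm := isMid_mv hD hu hg z1
      have hsym : (1 / 2 : ℝ) • mv G u z1 ∈ Taylor344.Sym G z1 := by
        change dist (G.ex z1 (-((1 / 2 : ℝ) • mv G u z1))) (G.ex z1 ((1 / 2 : ℝ) • mv G u z1)) =
          2 * ‖(1 / 2 : ℝ) • mv G u z1‖
        rw [norm_half, ← neg_smul, hm.dist_eq]; ring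
      obtain ⟨x, y, hx, hy, hxy⟩ := htay z1 _ hsym z2 hne μ hμ
      have eX : G.ex z1 (-((1 / 2 : ℝ) • mv G u z1)) = X G u z1 := by
        rw [← neg_smul]; rfl
      have eY : G.ex z1 ((1 / 2 : ℝ) • mv G u z1) = Y G u z1 := rfl
      rw [eX] at hx hxy
      rw [eY] at hy hxy
      refine ⟨x, y, hx.trans ?_, hy.trans ?_, fun z hz => ?_⟩
      · exact mul_le_mul_of_nonneg_right (by rw [hΛ]; linarith) (abs_nonneg _)
      · exact mul_le_mul_of_nonneg_right (by rw [hΛ]; linarith) (abs_nonneg _)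
      obtain ⟨h1, h2⟩ := hxy z (hz.trans hr3)
      have hCC : C₃ * |μ| * dist z z1 ^ 2 ≤ C * |μ| * dist z z1 ^ 2 := by
        refine mul_le_mul_of_nonneg_right ?_ (sq_nonneg _)
        exact mul_le_mul_of_nonneg_right (by rw [hCe]; linarith) (abs_nonneg _)
      have d1 := DX_X hD hu hg z1
      have d2 := DY_Y hD hu hg z1
      constructor
      · refine le_trans (le_of_eq ?_) (h1.trans hCC)
        congr 1
        unfold DX at d1 ⊢
        linarith
      · refine le_trans (le_of_eq ?_) (h2.trans hCC)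
        congr 1
        unfold DY at d2 ⊢
        linarith
  · intro x y hy
    obtain ⟨z, h1, h2, -⟩ := exists_mid_of_contact hC hD hu hg ((contact_iff huc x y).2 hy)
    exact ⟨z, h1, h2⟩
  · intro z z'
    refine ((hlip u hu hg hg' z z').1).trans ?_
    exact mul_le_mul_of_nonneg_right (by rw [hΛ]; linarith) dist_nonneg
  · intro z z'
    refine ((hlip u hu hg hg' z z').2).trans ?_
    exact mul_le_mul_of_nonneg_right (by rw [hΛ]; linarith) dist_nonneg

end Crest.Agent.R226.GDInst659
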