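/-
R226 layer C, task C4 (helper299): normal coordinates `nc`, its gradient and Hessian, the Gauss
lemma `A(p)(p,ξ) = ⟪p,ξ⟫` and continuity of `phi`, from the smoothness of the cost at
`(x, exp_x p)`, `p ∈ I(x)` (output of C1b) taken as a hypothesis.
-/
import Crest.Agent.R226.CutFacts_484

set_option autoImplicit false

open MeasureTheory Bundle Set Filter
open scoped Manifold ContDiff Bundle ENNReal Topology
open Crest.GeometryTopology.MTW

namespace Crest.Agent.R226.GaussI299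

theorem two_le_infty : (2 : WithTop ℕ∞) ≤ ((⊤ : ℕ∞) : WithTop ℕ∞) := by
  have : ((2 : ℕ∞) : WithTop ℕ∞) ≤ ((⊤ : ℕ∞) : WithTop ℕ∞) := WithTop.coe_le_coe.2 le_top
  exact this

section calculus

variable {V : Type*} [NormedAddCommGroup V] [NormedSpace ℝ V]

/-- second derivative along a line through `0` = second Fréchet derivative on the diagonal. -/
theorem iteratedDeriv_two_line {f : V → ℝ} (hf : ContDiffAt ℝ 2 f 0) (ξ : V) :
    iteratedDeriv 2 (fun t : ℝ => f (t • ξ)) 0 = fderiv ℝ (fderiv ℝ f) 0 ξ ξ := by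
  have h0 : (0 : ℝ) • ξ = 0 := zero_smul _ _
  have hline : ∀ t : ℝ, HasDerivAt (fun t : ℝ => t • ξ) ξ t := fun t => by
    simpa using (hasDerivAt_id t).smul_const ξ
  have hcont : ContinuousAt (fun t : ℝ => t • ξ) 0 := (hline 0).continuousAt
  have hev : ∀ᶠ z in 𝓝 (0 : V), DifferentiableAt ℝ f z := by
    have := (hf.eventually (by simp)).mono
      (fun z hz => hz.differentiableAt (by simp))
    exact this
  have hev' : ∀ᶠ t in 𝓝 (0 : ℝ), DifferentiableAt ℝ f (t • ξ) := by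
    have := hcont.eventually (by simpa [h0] using hev)
    exact this
  have h1 : deriv (fun t : ℝ => f (t • ξ)) =ᶠ[𝓝 0] fun t => fderiv ℝ f (t • ξ) ξ := by
    filter_upwards [hev'] with t ht
    exact (ht.hasFDerivAt.comp_hasDerivAt t (hline t)).deriv
  have h2 : DifferentiableAt ℝ (fderiv ℝ f) 0 :=
    (hf.fderiv_right (m := 1) (by norm_num)).differentiableAt (by simp)
  have h2' : HasFDerivAt (fderiv ℝ f) (fderiv ℝ (fderiv ℝ f) 0) ((0 : ℝ) • ξ) := by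
    rw [h0]; exact h2.hasFDerivAt
  have h3 : HasDerivAt (fun t : ℝ => fderiv ℝ f (t • ξ)) (fderiv ℝ (fderiv ℝ f) 0 ξ) 0 :=
    h2'.comp_hasDerivAt (0 : ℝ) (hline 0)
  have h4 : HasDerivAt (fun t : ℝ => fderiv ℝ f (t • ξ) ξ) (fderiv ℝ (fderiv ℝ f) 0 ξ ξ) 0 := by
    have := h3.clm_apply (hasDerivAt_const (0 : ℝ) ξ)
    simpa using this
  rw [iteratedDeriv_succ, iteratedDeriv_one, h1.deriv_eq, h4.deriv]

theorem contDiffAt_second {F : V × V → ℝ} {p : V} (hF : ContDiffAt ℝ ((⊤ : ℕ∞) : WithTop ℕ∞) F (0, p))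
    (ξ η : V) :
    ContDiffAt ℝ ((⊤ : ℕ∞) : WithTop ℕ∞)
      (fun q : V => fderiv ℝ (fderiv ℝ F) (0, q) (ξ, 0) (η, 0)) p := by
  have hc : ContDiffAt ℝ ((⊤ : ℕ∞) : WithTop ℕ∞) (fderiv ℝ (fderiv ℝ F)) (0, p) :=
    (hF.fderiv_right (m := ((⊤ : ℕ∞) : WithTop ℕ∞)) (by simp)).fderiv_right
      (m := ((⊤ : ℕ∞) : WithTop ℕ∞)) (by simp)
  have h2 : ContDiffAt ℝ ((⊤ : ℕ∞) : WithTop ℕ∞) (fun q : V => ((0 : V), q)) p :=
    contDiffAt_const.prodMk contDiffAt_id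
  have h1 : ContDiffAt ℝ ((⊤ : ℕ∞) : WithTop ℕ∞) (fun q : V => fderiv ℝ (fderiv ℝ F) (0, q)) p :=
    ContDiffAt.comp p (g := fderiv ℝ (fderiv ℝ F)) hc h2
  exact (h1.clm_apply contDiffAt_const).clm_apply contDiffAt_const

end calculus

variable {n : ℕ} {M : Type*} [MetricSpace M] [ChartedSpace (EuclideanSpace ℝ (Fin n)) M]
  [IsManifold (𝓡 n) ∞ M]
  [RiemannianBundle (fun p : M => TangentSpace (𝓡 n) p)]

/-- the fibre inclusion `T_x M → TM` is smooth. -/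
theorem contMDiff_mk (x : M) :
    ContMDiff 𝓘(ℝ, TangentSpace (𝓡 n) x) (𝓡 n).tangent ∞
      (fun ξ : TangentSpace (𝓡 n) x => (⟨x, ξ⟩ : TangentBundle (𝓡 n) M)) := by
  intro ξ
  rw [Bundle.contMDiffAt_totalSpace]
  refine ⟨contMDiffAt_const, ?_⟩
  have hx : x ∈ (trivializationAt (EuclideanSpace ℝ (Fin n)) (TangentSpace (𝓡 n)) x).baseSet :=
    mem_baseSet_trivializationAt _ _ x
  have : (fun η : TangentSpace (𝓡 n) x =>
      (trivializationAt (EuclideanSpace ℝ (Fin n)) (TangentSpace (𝓡 n)) x ⟨x, η⟩).2) =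
      ((trivializationAt (EuclideanSpace ℝ (Fin n)) (TangentSpace (𝓡 n) (M := M)) x).continuousLinearMapAt ℝ x) := by
    funext η
    rw [Trivialization.continuousLinearMapAt_apply_of_mem _ _ hx]
  change ContMDiffAt _ _ _ (fun η : TangentSpace (𝓡 n) x =>
      (trivializationAt (EuclideanSpace ℝ (Fin n)) (TangentSpace (𝓡 n)) x ⟨x, η⟩).2) ξ
  rw [this]
  exact (ContinuousLinearMap.contDiff _).contMDiff.contMDiffAt

variable (G : GeoData n M)

/-- `exp_x` is smooth. -/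
theorem contMDiff_ex (x : M) :
    ContMDiff 𝓘(ℝ, TangentSpace (𝓡 n) x) (𝓡 n) ∞ (G.ex x) :=
  G.smooth.comp (contMDiff_mk x)

/-- the cost in exponential coordinates at `x` for both variables. -/
noncomputable def F (x : M) (q : TangentSpace (𝓡 n) x × TangentSpace (𝓡 n) x) : ℝ :=
  halfDistSq (G.ex x q.1) (G.ex x q.2)

theorem F_contDiffAt {x : M} {ξ p : TangentSpace (𝓡 n) x}
    (hs : ContMDiffAt ((𝓡 n).prod (𝓡 n)) 𝓘(ℝ) ∞
      (fun q : M × M => halfDistSq q.1 q.2) (G.ex x ξ, G.ex x p)) :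
    ContDiffAt ℝ ∞ (F G x) (ξ, p) := by
  rw [← contMDiffAt_iff_contDiffAt]
  have h1 : ContMDiffAt 𝓘(ℝ, TangentSpace (𝓡 n) x × TangentSpace (𝓡 n) x) (𝓡 n) ∞
      (fun q : TangentSpace (𝓡 n) x × TangentSpace (𝓡 n) x => G.ex x q.1) (ξ, p) :=
    ((contMDiff_ex G x).comp contDiff_fst.contMDiff).contMDiffAt
  have h2 : ContMDiffAt 𝓘(ℝ, TangentSpace (𝓡 n) x × TangentSpace (𝓡 n) x) (𝓡 n) ∞
      (fun q : TangentSpace (𝓡 n) x × TangentSpace (𝓡 n) x => G.ex x q.2) (ξ, p) :=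
    ((contMDiff_ex G x).comp contDiff_snd.contMDiff).contMDiffAt
  exact ContMDiffAt.comp (ξ, p) (g := fun q : M × M => halfDistSq q.1 q.2) hs (h1.prodMk h2)

theorem F_contDiffAt_zero {x : M} {p : TangentSpace (𝓡 n) x}
    (hs : ContMDiffAt ((𝓡 n).prod (𝓡 n)) 𝓘(ℝ) ∞
      (fun q : M × M => halfDistSq q.1 q.2) (x, G.ex x p)) :
    ContDiffAt ℝ ∞ (F G x) (0, p) := by
  apply F_contDiffAt
  rwa [G.ex_zero]

/-- field `nc_smooth`. -/
theorem nc_smooth {x : M} {p : TangentSpace (𝓡 n) x}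
    (hs : ContMDiffAt ((𝓡 n).prod (𝓡 n)) 𝓘(ℝ) ∞
      (fun q : M × M => halfDistSq q.1 q.2) (x, G.ex x p)) :
    ContDiffAt ℝ ∞ (G.nc x p) 0 := by
  have h := F_contDiffAt_zero G hs
  have h2 : ContDiffAt ℝ ∞ (fun ξ : TangentSpace (𝓡 n) x => (ξ, p)) 0 :=
    contDiffAt_id.prodMk contDiffAt_const
  exact ContDiffAt.comp (0 : TangentSpace (𝓡 n) x) (g := F G x) h h2

/-- field `nc_hess`. -/
theorem nc_hess {x : M} {p : TangentSpace (𝓡 n) x}
    (h : ContDiffAt ℝ 2 (G.nc x p) 0) (ξ : TangentSpace (𝓡 n) x) :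
    fderiv ℝ (fderiv ℝ (G.nc x p)) 0 ξ ξ = G.phi x ξ p :=
  (iteratedDeriv_two_line h ξ).symm

/-- field `phi_smul`. -/
theorem phi_smul {x : M} {p : TangentSpace (𝓡 n) x}
    (h : ContDiffAt ℝ 2 (G.nc x p) 0) (ξ : TangentSpace (𝓡 n) x) (t : ℝ) :
    G.phi x (t • ξ) p = t ^ 2 * G.phi x ξ p := by
  rw [← nc_hess G h, ← nc_hess G h]
  simp only [map_smul, smul_apply, smul_eq_mul]
  ring

/-- `phi` as a second derivative of the two-variable cost. -/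
theorem phi_eq_F {x : M} {p : TangentSpace (𝓡 n) x} (h : ContDiffAt ℝ 2 (F G x) (0, p))
    (ξ : TangentSpace (𝓡 n) x) :
    G.phi x ξ p = fderiv ℝ (fderiv ℝ (F G x)) (0, p) (ξ, 0) (ξ, 0) := by
  have hnc : ContDiffAt ℝ 2 (G.nc x p) 0 := by
    have h2 : ContDiffAt ℝ 2 (fun ξ : TangentSpace (𝓡 n) x => (ξ, p)) 0 :=
      contDiffAt_id.prodMk contDiffAt_const
    exact ContDiffAt.comp (0 : TangentSpace (𝓡 n) x) (g := F G x) h h2
  rw [← nc_hess G hnc]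
  have hline : ∀ z : TangentSpace (𝓡 n) x,
      HasFDerivAt (fun ξ : TangentSpace (𝓡 n) x => (ξ, p))
        (ContinuousLinearMap.inl ℝ (TangentSpace (𝓡 n) x) (TangentSpace (𝓡 n) x)) z := fun z =>
    hasFDerivAt_prodMk_left z p
  have hev : ∀ᶠ z in 𝓝 ((0 : TangentSpace (𝓡 n) x), p), DifferentiableAt ℝ (F G x) z :=
    (h.eventually (by simp)).mono (fun z hz => hz.differentiableAt (by simp))
  have hev' : ∀ᶠ z in 𝓝 (0 : TangentSpace (𝓡 n) x), DifferentiableAt ℝ (F G x) (z, p) :=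
    (hline 0).continuousAt.eventually hev
  have h1 : fderiv ℝ (G.nc x p) =ᶠ[𝓝 0] fun z => (fderiv ℝ (F G x) (z, p)).comp
      (ContinuousLinearMap.inl ℝ (TangentSpace (𝓡 n) x) (TangentSpace (𝓡 n) x)) := by
    filter_upwards [hev'] with z hz
    exact (hz.hasFDerivAt.comp z (hline z)).fderiv
  have h2 : HasFDerivAt (fderiv ℝ (F G x)) (fderiv ℝ (fderiv ℝ (F G x)) (0, p)) (0, p) :=
    ((h.fderiv_right (m := 1) (by norm_num)).differentiableAt (by simp)).hasFDerivAt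
  have h3 : HasFDerivAt (fun ξ : TangentSpace (𝓡 n) x => fderiv ℝ (F G x) (ξ, p))
      ((fderiv ℝ (fderiv ℝ (F G x)) (0, p)).comp
        (ContinuousLinearMap.inl ℝ (TangentSpace (𝓡 n) x) (TangentSpace (𝓡 n) x))) 0 :=
    HasFDerivAt.comp (g := fderiv ℝ (F G x)) (f := fun ξ : TangentSpace (𝓡 n) x => (ξ, p))
      (0 : TangentSpace (𝓡 n) x) h2 (hline 0)
  have h4 := h3.clm_comp (hasFDerivAt_const
      (ContinuousLinearMap.inl ℝ (TangentSpace (𝓡 n) x) (TangentSpace (𝓡 n) x))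
      (0 : TangentSpace (𝓡 n) x))
  rw [h1.fderiv_eq]
  erw [h4.fderiv]
  simp

/-- field `phi_cont`. -/
theorem phi_cont (x : M) (S : Set (TangentSpace (𝓡 n) x))
    (hs : ∀ p ∈ S, ContMDiffAt ((𝓡 n).prod (𝓡 n)) 𝓘(ℝ) ∞
      (fun q : M × M => halfDistSq q.1 q.2) (x, G.ex x p)) :
    ContinuousOn (fun q : TangentSpace (𝓡 n) x × TangentSpace (𝓡 n) x => G.phi x q.1 q.2)
      {q | q.2 ∈ S} := by
  intro q hq
  have hF : ContDiffAt ℝ 2 (F G x) (0, q.2) :=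
    (F_contDiffAt_zero G (hs q.2 hq)).of_le two_le_infty
  have hc : ContinuousAt (fderiv ℝ (fderiv ℝ (F G x))) (0, q.2) :=
    ((hF.fderiv_right (m := 1) (by norm_num)).fderiv_right (m := 0) (by norm_num)).continuousAt
  have hc' : ContinuousAt (fun q : TangentSpace (𝓡 n) x × TangentSpace (𝓡 n) x =>
      fderiv ℝ (fderiv ℝ (F G x)) (0, q.2) (q.1, 0) (q.1, 0)) q := by
    have h1 : ContinuousAt (fun q : TangentSpace (𝓡 n) x × TangentSpace (𝓡 n) x =>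
        fderiv ℝ (fderiv ℝ (F G x)) (0, q.2)) q :=
      ContinuousAt.comp (f := fun q : TangentSpace (𝓡 n) x × TangentSpace (𝓡 n) x =>
        ((0 : TangentSpace (𝓡 n) x), q.2)) hc (by fun_prop)
    have h2 : ContinuousAt (fun q : TangentSpace (𝓡 n) x × TangentSpace (𝓡 n) x =>
        (q.1, (0 : TangentSpace (𝓡 n) x))) q := by fun_prop
    exact (h1.clm_apply h2).clm_apply h2
  refine hc'.continuousWithinAt.congr (fun z hz => ?_) ?_
  · exact phi_eq_F G ((F_contDiffAt_zero G (hs z.2 hz)).of_le two_le_infty) z.1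
  · exact phi_eq_F G hF q.1

/-! ### the Gauss lemma -/

theorem fderiv_zero_of_pos {x : M} {p : TangentSpace (𝓡 n) x} (hp : p ∈ G.K x)
    {s : ℝ} (hs0 : 0 < s) (hs1 : s < 1) (hsr : ‖s • p‖ < G.r₀)
    (hd : DifferentiableAt ℝ (G.nc x p) (s • p)) (ξ : TangentSpace (𝓡 n) x) :
    fderiv ℝ (G.nc x p) (s • p) ξ = -((1 - s) * inner ℝ p ξ) := by
  have h1s : 0 < 1 - s := by linarith
  -- the comparison function
  set g : ℝ → ℝ := fun t => (‖s • p + t • ξ‖ ^ 2 / 2) / s + G.nc x p (s • p + t • ξ) / (1 - s)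
    with hg
  have hline : HasDerivAt (fun t : ℝ => s • p + t • ξ) ξ 0 := by
    simpa using ((hasDerivAt_id (0 : ℝ)).smul_const ξ).const_add (s • p)
  have hval : s • p + (0 : ℝ) • ξ = s • p := by simp
  have hcont : ContinuousAt (fun t : ℝ => s • p + t • ξ) 0 := hline.continuousAt
  have hK : dist x (G.ex x p) = ‖p‖ := hp
  have hone : (1 : ℝ) • p = p := one_smul _ _
  have hb0 : dist (G.ex x (s • p)) (G.ex x p) ≤ (1 - s) * ‖p‖ := by
    have := G.dist_le x p s 1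
    rw [hone] at this
    rwa [abs_sub_comm, abs_of_pos h1s] at this
  have hg0 : g 0 ≤ ‖p‖ ^ 2 / 2 := by
    simp only [hg, hval, GeoData.nc, halfDistSq]
    have h1 : ‖s • p‖ = s * ‖p‖ := by rw [norm_smul, Real.norm_of_nonneg hs0.le]
    have h2 : dist (G.ex x (s • p)) (G.ex x p) ^ 2 ≤ ((1 - s) * ‖p‖) ^ 2 :=
      pow_le_pow_left₀ dist_nonneg hb0 2
    rw [h1]
    have e1 : (s * ‖p‖) ^ 2 / 2 / s = s * ‖p‖ ^ 2 / 2 := by
      field_simp
    have e2 : ((1 - s) * ‖p‖) ^ 2 / 2 / (1 - s) = (1 - s) * ‖p‖ ^ 2 / 2 := by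
      field_simp
    have e3 : dist (G.ex x (s • p)) (G.ex x p) ^ 2 / 2 / (1 - s) ≤
        ((1 - s) * ‖p‖) ^ 2 / 2 / (1 - s) := by gcongr
    rw [e1]
    calc _ ≤ s * ‖p‖ ^ 2 / 2 + (1 - s) * ‖p‖ ^ 2 / 2 := by rw [← e2]; gcongr
      _ = ‖p‖ ^ 2 / 2 := by ring
  have hgt : ∀ᶠ t in 𝓝 (0 : ℝ), ‖p‖ ^ 2 / 2 ≤ g t := by
    have hev : ∀ᶠ t in 𝓝 (0 : ℝ), ‖s • p + t • ξ‖ < G.r₀ := by
      have h1 : ContinuousAt (fun t : ℝ => ‖s • p + t • ξ‖) 0 := hcont.norm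
      exact h1.eventually_lt continuousAt_const (by simpa using hsr)
    filter_upwards [hev] with t ht
    set w := s • p + t • ξ with hw
    have hd1 : dist x (G.ex x w) = ‖w‖ := by
      have := G.dist_eq x w 0 1 (by simpa using ht)
      simpa [G.ex_zero] using this
    have htri : ‖p‖ ≤ ‖w‖ + dist (G.ex x w) (G.ex x p) := by
      rw [← hK, ← hd1]; exact dist_triangle _ _ _
    have hgw : g t = ‖w‖ ^ 2 / 2 / s + dist (G.ex x w) (G.ex x p) ^ 2 / 2 / (1 - s) := rfl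
    rw [hgw]
    set a := ‖w‖ with ha
    set b := dist (G.ex x w) (G.ex x p) with hb
    have ha0 : 0 ≤ a := norm_nonneg _
    have hb0 : 0 ≤ b := dist_nonneg
    have h1 : ‖p‖ ^ 2 ≤ (a + b) ^ 2 := pow_le_pow_left₀ (norm_nonneg _) htri 2
    have h2 : (a + b) ^ 2 / 2 ≤ a ^ 2 / 2 / s + b ^ 2 / 2 / (1 - s) := by
      rw [div_div, div_div, div_add_div _ _ (by positivity) (by positivity),
        div_le_div_iff₀ (by positivity) (by positivity)]
      nlinarith [sq_nonneg ((1 - s) * a - s * b), sq_nonneg (a + b), mul_pos hs0 h1s]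
    linarith
  have hmin : IsLocalMin g 0 := by
    filter_upwards [hgt] with t ht
    exact hg0.trans ht
  have hdg : HasDerivAt g ((inner ℝ (s • p) ξ) / s + fderiv ℝ (G.nc x p) (s • p) ξ / (1 - s)) 0 := by
    have h1 : HasDerivAt (fun t : ℝ => ‖s • p + t • ξ‖ ^ 2) (2 * inner ℝ (s • p + (0 : ℝ) • ξ) ξ) 0 :=
      hline.norm_sq
    have h2 : HasDerivAt (fun t : ℝ => G.nc x p (s • p + t • ξ))
        (fderiv ℝ (G.nc x p) (s • p) ξ) 0 := by
      have hd' : HasFDerivAt (G.nc x p) (fderiv ℝ (G.nc x p) (s • p)) (s • p + (0 : ℝ) • ξ) := by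
        rw [hval]; exact hd.hasFDerivAt
      exact hd'.comp_hasDerivAt (0 : ℝ) hline
    have h3 : HasDerivAt g (2 * inner ℝ (s • p + (0 : ℝ) • ξ) ξ / 2 / s +
        fderiv ℝ (G.nc x p) (s • p) ξ / (1 - s)) 0 :=
      ((h1.div_const 2).div_const s).add (h2.div_const (1 - s))
    refine h3.congr_deriv ?_
    rw [hval]
    ring
  have hz := hmin.hasDerivAt_eq_zero hdg
  rw [real_inner_smul_left] at hz
  field_simp at hz
  linarith

/-- gradient of the cost along the initial part of the geodesic; the basic identity. -/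
theorem fderiv_nc_smul {x : M} {p : TangentSpace (𝓡 n) x} (hp : p ∈ G.K x)
    (hs : ContDiffAt ℝ 1 (G.nc x p) 0) (ξ : TangentSpace (𝓡 n) x) :
    ∀ᶠ s in 𝓝[>] (0 : ℝ), fderiv ℝ (G.nc x p) (s • p) ξ = -((1 - s) * inner ℝ p ξ) := by
  have hc : ContinuousAt (fun s : ℝ => s • p) 0 := by fun_prop
  have h1 : ∀ᶠ s in 𝓝 (0 : ℝ), DifferentiableAt ℝ (G.nc x p) (s • p) := by
    have hev : ∀ᶠ z in 𝓝 (0 : TangentSpace (𝓡 n) x), DifferentiableAt ℝ (G.nc x p) z :=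
      (hs.eventually (by simp)).mono (fun z hz => hz.differentiableAt (by simp))
    exact hc.eventually (by simpa using hev)
  have h2 : ∀ᶠ s in 𝓝 (0 : ℝ), ‖s • p‖ < G.r₀ :=
    hc.norm.eventually_lt continuousAt_const (by simpa using G.r₀_pos)
  have h3 : ∀ᶠ s in 𝓝 (0 : ℝ), s < 1 := eventually_lt_nhds (by norm_num)
  filter_upwards [h1.filter_mono nhdsWithin_le_nhds, h2.filter_mono nhdsWithin_le_nhds,
    h3.filter_mono nhdsWithin_le_nhds, self_mem_nhdsWithin] with s a b c d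
  exact fderiv_zero_of_pos G hp d c b a ξ

/-- field `nc_fderiv` (valid for every `p ∈ K(x)` at which the cost is smooth). -/
theorem nc_fderiv {x : M} {p : TangentSpace (𝓡 n) x} (hp : p ∈ G.K x)
    (hs : ContDiffAt ℝ 1 (G.nc x p) 0) (ξ : TangentSpace (𝓡 n) x) :
    fderiv ℝ (G.nc x p) 0 ξ = -inner ℝ p ξ := by
  have hc : ContinuousAt (fderiv ℝ (G.nc x p)) ((0 : ℝ) • p) := by
    rw [zero_smul]
    exact (hs.fderiv_right (m := 0) (by norm_num)).continuousAt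
  have h1 : Tendsto (fun s : ℝ => fderiv ℝ (G.nc x p) (s • p) ξ) (𝓝[>] 0)
      (𝓝 (fderiv ℝ (G.nc x p) 0 ξ)) := by
    have : ContinuousAt (fun s : ℝ => fderiv ℝ (G.nc x p) (s • p) ξ) 0 :=
      (ContinuousAt.comp (f := fun s : ℝ => s • p) hc (by fun_prop)).clm_apply continuousAt_const
    have h := this.tendsto
    rw [zero_smul] at h
    exact h.mono_left nhdsWithin_le_nhds
  have h2 : Tendsto (fun s : ℝ => -((1 - s) * inner ℝ p ξ)) (𝓝[>] 0)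
      (𝓝 (-((1 - 0) * inner ℝ p ξ))) := by
    have : ContinuousAt (fun s : ℝ => -((1 - s) * inner ℝ p ξ)) 0 := by fun_prop
    exact this.tendsto.mono_left nhdsWithin_le_nhds
  have h3 := h2.congr' ((fderiv_nc_smul G hp hs ξ).mono fun s hs => hs.symm)
  have := tendsto_nhds_unique h1 h3
  rw [this]; ring

/-- **Gauss lemma** for the Hessian of the cost: `A(p)(p,ξ) = ⟪p,ξ⟫`. -/
theorem hess_left {x : M} {p : TangentSpace (𝓡 n) x} (hp : p ∈ G.K x)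
    (hs : ContDiffAt ℝ 2 (G.nc x p) 0) (ξ : TangentSpace (𝓡 n) x) :
    fderiv ℝ (fderiv ℝ (G.nc x p)) 0 p ξ = inner ℝ p ξ := by
  have hs1 : ContDiffAt ℝ 1 (G.nc x p) 0 := hs.of_le (by norm_num)
  have h2 : HasFDerivAt (fderiv ℝ (G.nc x p)) (fderiv ℝ (fderiv ℝ (G.nc x p)) 0) ((0 : ℝ) • p) := by
    rw [zero_smul]
    exact ((hs.fderiv_right (m := 1) (by norm_num)).differentiableAt (by simp)).hasFDerivAt
  have hline : HasDerivAt (fun s : ℝ => s • p) p 0 := by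
    simpa using (hasDerivAt_id (0 : ℝ)).smul_const p
  have h3 : HasDerivAt (fun s : ℝ => fderiv ℝ (G.nc x p) (s • p))
      (fderiv ℝ (fderiv ℝ (G.nc x p)) 0 p) 0 :=
    HasFDerivAt.comp_hasDerivAt (l := fderiv ℝ (G.nc x p)) (f := fun s : ℝ => s • p) (0 : ℝ) h2 hline
  have h4 : HasDerivAt (fun s : ℝ => fderiv ℝ (G.nc x p) (s • p) ξ)
      (fderiv ℝ (fderiv ℝ (G.nc x p)) 0 p ξ) 0 := by
    have := h3.clm_apply (hasDerivAt_const (0 : ℝ) ξ)
    simpa using this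
  have h5 : HasDerivAt (fun s : ℝ => -((1 - s) * inner ℝ p ξ)) (inner ℝ p ξ) 0 := by
    have h0 : HasDerivAt (fun s : ℝ => -((1 - s) * inner ℝ p ξ)) (-(-1 * inner ℝ p ξ)) 0 :=
      (((hasDerivAt_id (0 : ℝ)).const_sub 1).mul_const (inner ℝ p ξ)).neg
    exact h0.congr_deriv (by ring)
  have h6 : (fun s : ℝ => -((1 - s) * inner ℝ p ξ)) =ᶠ[𝓝[≥] 0]
      fun s : ℝ => fderiv ℝ (G.nc x p) (s • p) ξ := by
    rw [← Ioi_insert (a := (0 : ℝ)), nhdsWithin_insert]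
    refine Filter.eventually_sup.2 ⟨?_, ?_⟩
    · simp only [eventually_pure, zero_smul]
      rw [nc_fderiv G hp hs1]
      ring
    · exact (fderiv_nc_smul G hp hs1 ξ).mono fun s hs => hs.symm
  have h7 : HasDerivWithinAt (fun s : ℝ => fderiv ℝ (G.nc x p) (s • p) ξ) (inner ℝ p ξ) (Ici 0) 0 :=
    h5.hasDerivWithinAt.congr_of_eventuallyEq h6.symm (h6.self_of_nhdsWithin (by simp)).symm
  exact (uniqueDiffWithinAt_Ici (0 : ℝ)).eq_deriv _ h4.hasDerivWithinAt h7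

theorem hess_symm {x : M} {p : TangentSpace (𝓡 n) x}
    (hs : ContDiffAt ℝ 2 (G.nc x p) 0) (ξ η : TangentSpace (𝓡 n) x) :
    fderiv ℝ (fderiv ℝ (G.nc x p)) 0 ξ η = fderiv ℝ (fderiv ℝ (G.nc x p)) 0 η ξ :=
  (hs.isSymmSndFDerivAt (by simp)) ξ η

/-- field `gauss`. -/
theorem gauss {x : M} {p : TangentSpace (𝓡 n) x} (hp : p ∈ G.K x)
    (hs : ContDiffAt ℝ 2 (G.nc x p) 0) (η : TangentSpace (𝓡 n) x) (hη : inner ℝ p η = 0) (a : ℝ) :
    G.phi x (a • p + η) p = a ^ 2 * ‖p‖ ^ 2 + G.phi x η p := by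
  rw [← nc_hess G hs, ← nc_hess G hs]
  simp only [map_add, map_smul, add_apply, smul_apply, smul_eq_mul]
  rw [hess_symm G hs η p, hess_left G hp hs, hess_left G hp hs, hη, real_inner_self_eq_norm_sq]
  ring

/-- `φ_p(p) = ‖p‖²`. -/
theorem phi_self {x : M} {p : TangentSpace (𝓡 n) x} (hp : p ∈ G.K x)
    (hs : ContDiffAt ℝ 2 (G.nc x p) 0) : G.phi x p p = ‖p‖ ^ 2 := by
  rw [← nc_hess G hs, hess_left G hp hs, real_inner_self_eq_norm_sq]

/-! ### the bilinear form `A x p` -/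

/-- the Hessian of the cost in normal coordinates, as a bilinear form. -/
noncomputable def A (x : M) (p : TangentSpace (𝓡 n) x) :
    TangentSpace (𝓡 n) x →L[ℝ] TangentSpace (𝓡 n) x →L[ℝ] ℝ :=
  fderiv ℝ (fderiv ℝ (G.nc x p)) 0

/-- `A` as a mixed second derivative of the two-variable cost. -/
theorem A_eq_F {x : M} {p : TangentSpace (𝓡 n) x} (h : ContDiffAt ℝ 2 (F G x) (0, p))
    (ξ η : TangentSpace (𝓡 n) x) :
    A G x p ξ η = fderiv ℝ (fderiv ℝ (F G x)) (0, p) (ξ, 0) (η, 0) := by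
  have hline : ∀ z : TangentSpace (𝓡 n) x,
      HasFDerivAt (fun ξ : TangentSpace (𝓡 n) x => (ξ, p))
        (ContinuousLinearMap.inl ℝ (TangentSpace (𝓡 n) x) (TangentSpace (𝓡 n) x)) z := fun z =>
    hasFDerivAt_prodMk_left z p
  have hev : ∀ᶠ z in 𝓝 ((0 : TangentSpace (𝓡 n) x), p), DifferentiableAt ℝ (F G x) z :=
    (h.eventually (by simp)).mono (fun z hz => hz.differentiableAt (by simp))
  have hev' : ∀ᶠ z in 𝓝 (0 : TangentSpace (𝓡 n) x), DifferentiableAt ℝ (F G x) (z, p) :=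
    (hline 0).continuousAt.eventually hev
  have h1 : fderiv ℝ (G.nc x p) =ᶠ[𝓝 0] fun z => (fderiv ℝ (F G x) (z, p)).comp
      (ContinuousLinearMap.inl ℝ (TangentSpace (𝓡 n) x) (TangentSpace (𝓡 n) x)) := by
    filter_upwards [hev'] with z hz
    exact (hz.hasFDerivAt.comp z (hline z)).fderiv
  have h2 : HasFDerivAt (fderiv ℝ (F G x)) (fderiv ℝ (fderiv ℝ (F G x)) (0, p)) (0, p) :=
    ((h.fderiv_right (m := 1) (by norm_num)).differentiableAt (by simp)).hasFDerivAt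
  have h3 : HasFDerivAt (fun ξ : TangentSpace (𝓡 n) x => fderiv ℝ (F G x) (ξ, p))
      ((fderiv ℝ (fderiv ℝ (F G x)) (0, p)).comp
        (ContinuousLinearMap.inl ℝ (TangentSpace (𝓡 n) x) (TangentSpace (𝓡 n) x))) 0 :=
    HasFDerivAt.comp (g := fderiv ℝ (F G x)) (f := fun ξ : TangentSpace (𝓡 n) x => (ξ, p))
      (0 : TangentSpace (𝓡 n) x) h2 (hline 0)
  have h4 := h3.clm_comp (hasFDerivAt_const
      (ContinuousLinearMap.inl ℝ (TangentSpace (𝓡 n) x) (TangentSpace (𝓡 n) x))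
      (0 : TangentSpace (𝓡 n) x))
  rw [A, h1.fderiv_eq]
  erw [h4.fderiv]
  simp

theorem A_contDiffAt {x : M} {p : TangentSpace (𝓡 n) x} {S : Set (TangentSpace (𝓡 n) x)}
    (hS : S ∈ 𝓝 p)
    (hs : ∀ p ∈ S, ContMDiffAt ((𝓡 n).prod (𝓡 n)) 𝓘(ℝ) ∞
      (fun q : M × M => halfDistSq q.1 q.2) (x, G.ex x p)) (ξ η : TangentSpace (𝓡 n) x) :
    ContDiffAt ℝ ∞ (fun p => A G x p ξ η) p := by
  have hF : ContDiffAt ℝ ∞ (F G x) (0, p) := F_contDiffAt_zero G (hs p (mem_of_mem_nhds hS))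
  have h3 := contDiffAt_second hF ξ η
  refine h3.congr_of_eventuallyEq ?_
  filter_upwards [hS] with q hq
  exact A_eq_F G ((F_contDiffAt_zero G (hs q hq)).of_le two_le_infty) ξ η

theorem A_self {x : M} {p : TangentSpace (𝓡 n) x}
    (h : ContDiffAt ℝ 2 (G.nc x p) 0) (ξ : TangentSpace (𝓡 n) x) :
    A G x p ξ ξ = G.phi x ξ p := nc_hess G h ξ

theorem A_symm {x : M} {p : TangentSpace (𝓡 n) x}
    (hs : ContDiffAt ℝ 2 (G.nc x p) 0) (ξ η : TangentSpace (𝓡 n) x) :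
    A G x p ξ η = A G x p η ξ := hess_symm G hs ξ η

theorem A_gauss {x : M} {p : TangentSpace (𝓡 n) x} (hp : p ∈ G.K x)
    (hs : ContDiffAt ℝ 2 (G.nc x p) 0) (ξ : TangentSpace (𝓡 n) x) :
    A G x p p ξ = inner ℝ p ξ := hess_left G hp hs ξ

/-- at `p = 0` the cost in normal coordinates is `‖ξ‖²/2` near `0`. -/
theorem nc_zero {x : M} {ξ : TangentSpace (𝓡 n) x} (hξ : ‖ξ‖ < G.r₀) :
    G.nc x 0 ξ = ‖ξ‖ ^ 2 / 2 := by
  have := G.dist_eq x ξ 1 0 (by simpa using hξ)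
  simp only [one_smul, zero_smul, G.ex_zero, sub_zero, abs_one, one_mul] at this
  simp only [GeoData.nc, halfDistSq, G.ex_zero, this]

/-- `φ_ξ(0) = ‖ξ‖²`. -/
theorem phi_zero {x : M} (ξ : TangentSpace (𝓡 n) x) : G.phi x ξ 0 = ‖ξ‖ ^ 2 := by
  have hc : ContinuousAt (fun t : ℝ => ‖t • ξ‖) 0 := by fun_prop
  have hev : (fun t : ℝ => G.nc x 0 (t • ξ)) =ᶠ[𝓝 0] fun t => t ^ 2 * (‖ξ‖ ^ 2 / 2) := by
    have : ∀ᶠ t in 𝓝 (0 : ℝ), ‖t • ξ‖ < G.r₀ :=
      hc.eventually_lt continuousAt_const (by simpa using G.r₀_pos)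
    filter_upwards [this] with t ht
    rw [nc_zero G ht, norm_smul, mul_pow, Real.norm_eq_abs, sq_abs]
    ring
  have : G.phi x ξ 0 = iteratedDeriv 2 (fun t : ℝ => G.nc x 0 (t • ξ)) 0 := rfl
  rw [this, hev.iteratedDeriv_eq, iteratedDeriv_succ, iteratedDeriv_one]
  have h1 : deriv (fun t : ℝ => t ^ 2 * (‖ξ‖ ^ 2 / 2)) = fun t => 2 * t * (‖ξ‖ ^ 2 / 2) := by
    funext t
    simp
  rw [h1]
  have h2 : HasDerivAt (fun t : ℝ => 2 * t * (‖ξ‖ ^ 2 / 2)) (2 * 1 * (‖ξ‖ ^ 2 / 2)) 0 :=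
    ((hasDerivAt_id (0 : ℝ)).const_mul 2).mul_const _
  rw [h2.deriv]; ring

/-! ### the package -/

/-- the fields of `CutFacts` delivered by task C4. -/
structure NcFacts (G : GeoData n M) : Prop where
  nc_smooth : ∀ x, ∀ v ∈ G.I x, ContDiffAt ℝ ∞ (G.nc x v) 0
  nc_fderiv : ∀ x, ∀ v ∈ G.I x, ∀ ξ, fderiv ℝ (G.nc x v) 0 ξ = -inner ℝ v ξ
  nc_hess : ∀ x, ∀ v ∈ G.I x, ∀ ξ, fderiv ℝ (fderiv ℝ (G.nc x v)) 0 ξ ξ = G.phi x ξ v
  phi_smul : ∀ x, ∀ v ∈ G.I x, ∀ ξ, ∀ t : ℝ, G.phi x (t • ξ) v = t ^ 2 * G.phi x ξ v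
  phi_cont : ∀ x, ContinuousOn
    (fun q : TangentSpace (𝓡 n) x × TangentSpace (𝓡 n) x => G.phi x q.1 q.2) {q | q.2 ∈ G.I x}
  gauss : ∀ x, ∀ p ∈ G.I x, ∀ η : TangentSpace (𝓡 n) x, inner ℝ p η = 0 → ∀ a : ℝ,
    G.phi x (a • p + η) p = a ^ 2 * ‖p‖ ^ 2 + G.phi x η p

/-- **C4**: all of them follow from the smoothness of the cost on `I` and `I ⊆ K`. -/
theorem ncFacts
    (hsc : ∀ x, ∀ v ∈ G.I x, ContMDiffAt ((𝓡 n).prod (𝓡 n)) 𝓘(ℝ) ∞
      (fun q : M × M => halfDistSq q.1 q.2) (x, G.ex x v))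
    (hIK : ∀ x, G.I x ⊆ G.K x) : NcFacts G where
  nc_smooth x v hv := nc_smooth G (hsc x v hv)
  nc_fderiv x v hv ξ := nc_fderiv G (hIK x hv)
    ((nc_smooth G (hsc x v hv)).of_le (le_trans (by norm_num) two_le_infty)) ξ
  nc_hess x v hv ξ := nc_hess G ((nc_smooth G (hsc x v hv)).of_le two_le_infty) ξ
  phi_smul x v hv ξ t := phi_smul G ((nc_smooth G (hsc x v hv)).of_le two_le_infty) ξ t
  phi_cont x := phi_cont G x (G.I x) (hsc x)
  gauss x p hp η hη a := gauss G (hIK x hp)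
    ((nc_smooth G (hsc x p hp)).of_le two_le_infty) η hη a

end Crest.Agent.R226.GaussI299
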