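/-
R226 Layer B (helper415): extension of a local one-parameter flow to a global one
(pure algebra of iterates).
-/
import Mathlib

set_option autoImplicit false

open Set Filter
open scoped Topology

namespace Crest.Agent.R226.LocFlow415

variable {X : Type*} {ν : X → ℝ} {ρ : ℝ} {S : ℝ → X → X}

/-- A local flow `S` on `X`, defined (meaningful) at `(t,p)` when `|t| * ν p < ρ`, preserving `ν`. -/
structure LocalFlow (ν : X → ℝ) (ρ : ℝ) (S : ℝ → X → X) : Prop where
  rho_pos : 0 < ρ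
  nu_nonneg : ∀ p, 0 ≤ ν p
  zero : ∀ p, S 0 p = p
  nu : ∀ t p, |t| * ν p < ρ → ν (S t p) = ν p
  add : ∀ s t p, |s| * ν p < ρ → |t| * ν p < ρ → |s + t| * ν p < ρ → S s (S t p) = S (s + t) p

namespace LocalFlow

theorem nu_iterate (h : LocalFlow ν ρ S) {t : ℝ} {p : X} (ht : |t| * ν p < ρ) (j : ℕ) :
    ν ((S t)^[j] p) = ν p := by
  induction j with
  | zero => rfl
  | succ j ih =>
    rw [Function.iterate_succ_apply', h.nu t _ (by rw [ih]; exact ht), ih]

theorem small_iterate (h : LocalFlow ν ρ S) {u : ℝ} {p : X} {l : ℕ} (hl : l ≠ 0)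
    (hu : |u| * ν p < ρ) (j : ℕ) (hj : j ≤ l) :
    (S (u / l))^[j] p = S (j * (u / l)) p := by
  have hl' : (0 : ℝ) < l := by exact_mod_cast Nat.pos_of_ne_zero hl
  have hν := h.nu_nonneg p
  have key : ∀ i : ℕ, i ≤ l → |(i : ℝ) * (u / l)| * ν p < ρ := by
    intro i hi
    have h1 : |(i : ℝ) * (u / l)| ≤ |u| := by
      rw [abs_mul, abs_div, Nat.abs_cast, Nat.abs_cast]
      have : (i : ℝ) * (|u| / l) = |u| * (i / l) := by ring
      rw [this]
      have h2 : (i : ℝ) / l ≤ 1 := by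
        rw [div_le_one hl']; exact_mod_cast hi
      calc |u| * ((i : ℝ) / l) ≤ |u| * 1 := mul_le_mul_of_nonneg_left h2 (abs_nonneg _)
        _ = |u| := mul_one _
    exact lt_of_le_of_lt (mul_le_mul_of_nonneg_right h1 hν) hu
  induction j with
  | zero => simp [h.zero]
  | succ j ih =>
    have hj' : j ≤ l := Nat.le_of_succ_le hj
    rw [Function.iterate_succ_apply', ih hj']
    have h1 := key 1 (Nat.one_le_iff_ne_zero.2 hl)
    rw [Nat.cast_one, one_mul] at h1
    have h2 := key (j + 1) hj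
    rw [h.add (u / l) (j * (u / l)) p h1 (key j hj')]
    · push_cast; ring_nf
    · have : u / l + (j : ℝ) * (u / l) = ((j + 1 : ℕ) : ℝ) * (u / l) := by push_cast; ring
      rw [this]; exact h2

theorem iterate_div (h : LocalFlow ν ρ S) {u : ℝ} {p : X} {l : ℕ} (hl : l ≠ 0)
    (hu : |u| * ν p < ρ) : (S (u / l))^[l] p = S u p := by
  have hl' : (l : ℝ) ≠ 0 := by exact_mod_cast hl
  rw [h.small_iterate hl hu l le_rfl, mul_div_cancel₀ _ hl']

theorem iterate_iterate_div (h : LocalFlow ν ρ S) {u : ℝ} {p : X} {l : ℕ} (hl : l ≠ 0)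
    (hu : |u| * ν p < ρ) (j : ℕ) : ((S (u / l))^[l])^[j] p = (S u)^[j] p := by
  induction j with
  | zero => rfl
  | succ j ih =>
    rw [Function.iterate_succ_apply', ih, Function.iterate_succ_apply']
    exact h.iterate_div hl (by rw [h.nu_iterate hu]; exact hu)

theorem refine_iterate (h : LocalFlow ν ρ S) {t : ℝ} {p : X} {k l : ℕ} (hl : l ≠ 0)
    (hk : |t / k| * ν p < ρ) : (S (t / k / l))^[l * k] p = (S (t / k))^[k] p := by
  rw [Function.iterate_mul]
  exact h.iterate_iterate_div hl hk k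

theorem indep (h : LocalFlow ν ρ S) {t : ℝ} {p : X} {k l : ℕ} (hk0 : k ≠ 0) (hl0 : l ≠ 0)
    (hk : |t / k| * ν p < ρ) (hl : |t / l| * ν p < ρ) :
    (S (t / k))^[k] p = (S (t / l))^[l] p := by
  rw [← h.refine_iterate hl0 hk, ← h.refine_iterate hk0 hl, div_div, div_div, mul_comm l k,
    mul_comm (l : ℝ) (k : ℝ)]

end LocalFlow

/-- the number of steps used in the definition of the global flow -/
noncomputable def steps (ν : X → ℝ) (ρ : ℝ) (t : ℝ) (p : X) : ℕ := ⌊|t| * ν p / ρ⌋₊ + 1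

/-- the global flow -/
noncomputable def Fl (ν : X → ℝ) (ρ : ℝ) (S : ℝ → X → X) (t : ℝ) (p : X) : X :=
  (S (t / (steps ν ρ t p : ℕ)))^[steps ν ρ t p] p

namespace LocalFlow

theorem steps_ne_zero (t : ℝ) (p : X) : steps ν ρ t p ≠ 0 := Nat.succ_ne_zero _

theorem abs_div_lt (hρ : 0 < ρ) {t : ℝ} {a : ℝ} {k : ℕ} (hk : |t| * a / ρ < k) (hk0 : k ≠ 0) :
    |t / k| * a < ρ := by
  have hk' : (0 : ℝ) < k := by exact_mod_cast Nat.pos_of_ne_zero hk0
  rw [div_lt_iff₀ hρ] at hk
  rw [abs_div, Nat.abs_cast, div_mul_eq_mul_div, div_lt_iff₀ hk']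
  linarith

theorem steps_small (h : LocalFlow ν ρ S) (t : ℝ) (p : X) :
    |t / (steps ν ρ t p : ℕ)| * ν p < ρ := by
  apply abs_div_lt h.rho_pos _ (steps_ne_zero t p)
  unfold steps
  exact_mod_cast Nat.lt_floor_add_one (|t| * ν p / ρ)

theorem Fl_eq (h : LocalFlow ν ρ S) {t : ℝ} {p : X} {k : ℕ} (hk0 : k ≠ 0)
    (hk : |t / k| * ν p < ρ) : Fl ν ρ S t p = (S (t / k))^[k] p :=
  h.indep (steps_ne_zero t p) hk0 (h.steps_small t p) hk

theorem Fl_eq_of_small (h : LocalFlow ν ρ S) {t : ℝ} {p : X} (ht : |t| * ν p < ρ) :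
    Fl ν ρ S t p = S t p := by
  rw [h.Fl_eq (k := 1) one_ne_zero (by simpa using ht)]
  simp

theorem Fl_zero (h : LocalFlow ν ρ S) (p : X) : Fl ν ρ S 0 p = p := by
  rw [h.Fl_eq_of_small (by simpa using h.rho_pos), h.zero]

theorem nu_Fl (h : LocalFlow ν ρ S) (t : ℝ) (p : X) : ν (Fl ν ρ S t p) = ν p :=
  h.nu_iterate (h.steps_small t p) _

theorem commute_iterate (h : LocalFlow ν ρ S) {a b : ℝ} {p : X} (hab : (|a| + |b|) * ν p < ρ)
    (j : ℕ) : S a ((S b)^[j] p) = (S b)^[j] (S a p) := by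
  have hν := h.nu_nonneg p
  have ha : |a| * ν p < ρ := lt_of_le_of_lt
    (mul_le_mul_of_nonneg_right (by linarith [abs_nonneg b]) hν) hab
  have hb : |b| * ν p < ρ := lt_of_le_of_lt
    (mul_le_mul_of_nonneg_right (by linarith [abs_nonneg a]) hν) hab
  have hs : |a + b| * ν p < ρ := lt_of_le_of_lt
    (mul_le_mul_of_nonneg_right (abs_add_le a b) hν) hab
  have comm : ∀ q, ν q = ν p → S a (S b q) = S b (S a q) := by
    intro q hq
    rw [h.add a b q (by rw [hq]; exact ha) (by rw [hq]; exact hb) (by rw [hq]; exact hs),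
      h.add b a q (by rw [hq]; exact hb) (by rw [hq]; exact ha)
        (by rw [hq, add_comm]; exact hs), add_comm]
  induction j with
  | zero => rfl
  | succ j ih =>
    rw [Function.iterate_succ_apply', comm _ (h.nu_iterate hb j), ih,
      ← Function.iterate_succ_apply' (S b) j]

theorem add_iterate (h : LocalFlow ν ρ S) {a b : ℝ} {p : X} (hab : (|a| + |b|) * ν p < ρ)
    (j : ℕ) : (S (a + b))^[j] p = (S a)^[j] ((S b)^[j] p) := by
  have hν := h.nu_nonneg p
  have ha : |a| * ν p < ρ := lt_of_le_of_lt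
    (mul_le_mul_of_nonneg_right (by linarith [abs_nonneg b]) hν) hab
  have hb : |b| * ν p < ρ := lt_of_le_of_lt
    (mul_le_mul_of_nonneg_right (by linarith [abs_nonneg a]) hν) hab
  have hs : |a + b| * ν p < ρ := lt_of_le_of_lt
    (mul_le_mul_of_nonneg_right (abs_add_le a b) hν) hab
  induction j with
  | zero => rfl
  | succ j ih =>
    rw [Function.iterate_succ_apply', ih]
    have hbj : ν ((S b)^[j] p) = ν p := h.nu_iterate hb j
    have haj : ν ((S a)^[j] ((S b)^[j] p)) = ν p := by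
      rw [h.nu_iterate (by rw [hbj]; exact ha) j, hbj]
    rw [← h.add a b _ (by rw [haj]; exact ha) (by rw [haj]; exact hb) (by rw [haj]; exact hs)]
    rw [h.commute_iterate (a := b) (b := a) (by rw [hbj, add_comm]; exact hab) j]
    rw [← Function.iterate_succ_apply' (S b) j, ← Function.iterate_succ_apply' (S a) j]

theorem exists_nat_small (h : LocalFlow ν ρ S) (C : ℝ) (hC : 0 ≤ C) :
    ∃ k : ℕ, k ≠ 0 ∧ ∀ t a : ℝ, 0 ≤ a → |t| * a ≤ C → |t / k| * a < ρ := by
  refine ⟨⌊C / ρ⌋₊ + 1, Nat.succ_ne_zero _, fun t a _ hta => ?_⟩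
  apply abs_div_lt h.rho_pos _ (Nat.succ_ne_zero _)
  calc |t| * a / ρ ≤ C / ρ := by
        apply div_le_div_of_nonneg_right hta h.rho_pos.le
    _ < _ := by exact_mod_cast Nat.lt_floor_add_one (C / ρ)

theorem Fl_add (h : LocalFlow ν ρ S) (s t : ℝ) (p : X) :
    Fl ν ρ S (s + t) p = Fl ν ρ S s (Fl ν ρ S t p) := by
  have hν := h.nu_nonneg p
  obtain ⟨k, hk0, hk⟩ := h.exists_nat_small ((|s| + |t|) * ν p)
    (mul_nonneg (by positivity) hν)
  have hk' : (0 : ℝ) < k := by exact_mod_cast Nat.pos_of_ne_zero hk0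
  have h1 : (|s / k| + |t / k|) * ν p < ρ := by
    have := hk (|s| + |t|) (ν p) hν (by rw [abs_of_nonneg (by positivity)])
    rw [abs_of_nonneg (by positivity)] at this
    rw [abs_div, abs_div, Nat.abs_cast, ← add_div]
    exact this
  have hs : |s / k| * ν p < ρ := hk s _ hν
    (mul_le_mul_of_nonneg_right (by linarith [abs_nonneg t]) hν)
  have ht : |t / k| * ν p < ρ := hk t _ hν
    (mul_le_mul_of_nonneg_right (by linarith [abs_nonneg s]) hν)
  have hst : |(s + t) / k| * ν p < ρ := hk (s + t) _ hν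
    (mul_le_mul_of_nonneg_right (abs_add_le s t) hν)
  rw [h.Fl_eq hk0 hst, h.Fl_eq (t := t) hk0 ht]
  rw [h.Fl_eq (t := s) hk0 (by rw [h.nu_iterate ht]; exact hs), add_div]
  exact h.add_iterate h1 k

end LocalFlow

end Crest.Agent.R226.LocFlow415
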