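/-
R226 Layer B (helper415): tangent bundle tools: velocities of curves as elements of `TM`,
scaling, continuity of the norm, joint smoothness of the radial lift.
-/
import Crest.Agent.R226.BDefs_542

set_option autoImplicit false

open MeasureTheory Bundle Set Filter
open scoped Manifold ContDiff Bundle ENNReal Topology
open Crest.GeometryTopology.MTW

namespace Crest.Agent.R226.GlobalEx415

section curves
variable {n : ℕ} {M : Type*} [MetricSpace M] [ChartedSpace (EuclideanSpace ℝ (Fin n)) M]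

/-- the tangent lift of a curve -/
noncomputable def curveT (n : ℕ) [ChartedSpace (EuclideanSpace ℝ (Fin n)) M] (γ : ℝ → M) (t : ℝ) :
    TangentBundle (𝓡 n) M := ⟨γ t, curveVel n γ t⟩

theorem curveT_eq_tangentMap (γ : ℝ → M) (t : ℝ) :
    curveT n γ t = tangentMap 𝓘(ℝ, ℝ) (𝓡 n) γ ⟨t, (1 : ℝ)⟩ := rfl

theorem curveT_congr {γ γ' : ℝ → M} {t : ℝ} (h : γ =ᶠ[𝓝 t] γ') : curveT n γ t = curveT n γ' t := by
  have h1 : γ t = γ' t := h.eq_of_nhds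
  unfold curveT curveVel
  refine TotalSpace.ext h1 ?_
  have h2 : mfderiv 𝓘(ℝ, ℝ) (𝓡 n) γ t = (mfderiv 𝓘(ℝ, ℝ) (𝓡 n) γ' t : _) :=
    Filter.EventuallyEq.mfderiv_eq h
  exact heq_of_eq (congrArg (fun L : ℝ →L[ℝ] EuclideanSpace ℝ (Fin n) => L 1) h2)

theorem curveT_comp_add (γ : ℝ → M) (t s : ℝ) (hγ : MDifferentiableAt 𝓘(ℝ, ℝ) (𝓡 n) γ (t + s)) :
    curveT n (fun s => γ (t + s)) s = curveT n γ (t + s) := by
  have h1 : HasMFDerivAt 𝓘(ℝ, ℝ) 𝓘(ℝ, ℝ) (fun s : ℝ => t + s) s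
      (ContinuousLinearMap.id ℝ ℝ) := by
    have : HasFDerivAt (fun s : ℝ => t + s) (ContinuousLinearMap.id ℝ ℝ) s :=
      (hasFDerivAt_id s).const_add t
    exact this.hasMFDerivAt
  have h2 := (hγ.hasMFDerivAt).comp s h1
  have h3 := h2.mfderiv
  refine TotalSpace.ext rfl ?_
  refine heq_of_eq ?_
  show mfderiv 𝓘(ℝ, ℝ) (𝓡 n) (γ ∘ fun s => t + s) s (1 : ℝ) = _
  rw [h3]
  rfl

theorem curveT_comp_mul (γ : ℝ → M) (c s : ℝ) (hγ : MDifferentiableAt 𝓘(ℝ, ℝ) (𝓡 n) γ (c * s)) :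
    curveT n (fun s => γ (c * s)) s = scaleT c (curveT n γ (c * s)) := by
  have h1 : HasMFDerivAt 𝓘(ℝ, ℝ) 𝓘(ℝ, ℝ) (fun s : ℝ => c * s) s
      (c • ContinuousLinearMap.id ℝ ℝ) := by
    have : HasFDerivAt (fun s : ℝ => c * s) (c • ContinuousLinearMap.id ℝ ℝ) s :=
      (hasFDerivAt_id s).const_mul c
    exact this.hasMFDerivAt
  have h2 := (hγ.hasMFDerivAt).comp s h1
  have h3 := h2.mfderiv
  refine TotalSpace.ext rfl ?_
  refine heq_of_eq ?_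
  show mfderiv 𝓘(ℝ, ℝ) (𝓡 n) (γ ∘ fun s => c * s) s (1 : ℝ) = _
  rw [h3]
  have h4 : ∀ L : ℝ →L[ℝ] EuclideanSpace ℝ (Fin n), L (c • (1 : ℝ)) = c • L 1 :=
    fun L => L.map_smul c 1
  exact h4 (mfderiv 𝓘(ℝ, ℝ) (𝓡 n) γ (c * s))

end curves

section smul
variable {n : ℕ} {M : Type*} [MetricSpace M] [ChartedSpace (EuclideanSpace ℝ (Fin n)) M]
  [IsManifold (𝓡 n) ∞ M]

/-- joint smoothness of the scaling of tangent vectors -/
theorem contMDiff_scaleT : ContMDiff (𝓘(ℝ, ℝ).prod (𝓡 n).tangent) (𝓡 n).tangent ∞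
    (fun q : ℝ × TangentBundle (𝓡 n) M => scaleT q.1 q.2) := by
  intro q₀
  rw [contMDiffAt_totalSpace]
  have hid : ContMDiffAt (𝓘(ℝ, ℝ).prod (𝓡 n).tangent) (𝓡 n).tangent ∞
      (fun q : ℝ × TangentBundle (𝓡 n) M => q.2) q₀ := contMDiffAt_snd
  rw [contMDiffAt_totalSpace] at hid
  refine ⟨hid.1, ?_⟩
  have h1 : ContMDiffAt (𝓘(ℝ, ℝ).prod (𝓡 n).tangent) 𝓘(ℝ, EuclideanSpace ℝ (Fin n)) ∞
      (fun q : ℝ × TangentBundle (𝓡 n) M => q.1 • (trivializationAt (EuclideanSpace ℝ (Fin n))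
        (TangentSpace (𝓡 n)) q₀.2.proj q.2).2) q₀ := contMDiffAt_fst.smul hid.2
  refine h1.congr_of_eventuallyEq ?_
  have hb : ∀ᶠ q : ℝ × TangentBundle (𝓡 n) M in 𝓝 q₀, q.2.proj ∈
      (trivializationAt (EuclideanSpace ℝ (Fin n)) (TangentSpace (𝓡 n)) q₀.2.proj).baseSet := by
    have hc : ContinuousAt (fun q : ℝ × TangentBundle (𝓡 n) M => q.2.proj) q₀ :=
      hid.1.continuousAt
    exact hc.preimage_mem_nhds ((trivializationAt (EuclideanSpace ℝ (Fin n))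
      (TangentSpace (𝓡 n)) q₀.2.proj).open_baseSet.mem_nhds
      (mem_baseSet_trivializationAt (EuclideanSpace ℝ (Fin n)) (TangentSpace (𝓡 n)) q₀.2.proj))
  filter_upwards [hb] with q hq
  have hl := (trivializationAt (EuclideanSpace ℝ (Fin n)) (TangentSpace (𝓡 n))
    q₀.2.proj).linear ℝ hq
  exact hl.map_smul q.1 q.2.2

end smul

section norm
variable {n : ℕ} {M : Type*} [MetricSpace M] [ChartedSpace (EuclideanSpace ℝ (Fin n)) M]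
  [IsManifold (𝓡 n) ∞ M]
  [RiemannianBundle (fun p : M => TangentSpace (𝓡 n) p)]
  [IsContMDiffRiemannianBundle (𝓡 n) ∞ (EuclideanSpace ℝ (Fin n)) (fun p : M => TangentSpace (𝓡 n) p)]

theorem contMDiff_normSq : ContMDiff (𝓡 n).tangent 𝓘(ℝ, ℝ) ∞
    (fun p : TangentBundle (𝓡 n) M => inner ℝ p.2 p.2) := by
  have h : ContMDiff (𝓡 n).tangent (𝓡 n).tangent ∞
      (fun p : TangentBundle (𝓡 n) M => (⟨p.1, p.2⟩ : TangentBundle (𝓡 n) M)) := contMDiff_id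
  exact ContMDiff.inner_bundle (b := fun p : TangentBundle (𝓡 n) M => p.1)
    (v := fun p : TangentBundle (𝓡 n) M => p.2) (w := fun p : TangentBundle (𝓡 n) M => p.2) h h

theorem continuous_norm : Continuous (fun p : TangentBundle (𝓡 n) M => ‖p.2‖) := by
  have h := (contMDiff_normSq (n := n) (M := M)).continuous
  have h2 : (fun p : TangentBundle (𝓡 n) M => ‖p.2‖) =
      fun p : TangentBundle (𝓡 n) M => Real.sqrt (inner ℝ p.2 p.2) := by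
    funext p
    rw [real_inner_self_eq_norm_sq, Real.sqrt_sq (norm_nonneg _)]
  rw [h2]
  exact h.sqrt

end norm

section radial
variable {n : ℕ} {M : Type*} [MetricSpace M] [ChartedSpace (EuclideanSpace ℝ (Fin n)) M]
  [IsManifold (𝓡 n) ∞ M]

/-- the evaluation map `(t,p) ↦ e (t p)` -/
noncomputable def Phi (e : ∀ x : M, TangentSpace (𝓡 n) x → M) (q : ℝ × TangentBundle (𝓡 n) M) : M :=
  e q.2.1 (q.1 • q.2.2)

/-- the domain on which `Phi e` is smooth -/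
def Dom (O : Set (TangentBundle (𝓡 n) M)) :
    Set (ℝ × TangentBundle (𝓡 n) M) := {q | scaleT q.1 q.2 ∈ O}

theorem isOpen_Dom {O : Set (TangentBundle (𝓡 n) M)} (hO : IsOpen O) : IsOpen (Dom O) :=
  hO.preimage (contMDiff_scaleT (n := n) (M := M)).continuous

theorem contMDiffOn_Phi {e : ∀ x : M, TangentSpace (𝓡 n) x → M} {O : Set (TangentBundle (𝓡 n) M)}
    (he : ContMDiffOn (𝓡 n).tangent (𝓡 n) ∞ (fun p : TangentBundle (𝓡 n) M => e p.1 p.2) O) :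
    ContMDiffOn (𝓘(ℝ, ℝ).prod (𝓡 n).tangent) (𝓡 n) ∞ (Phi e) (Dom O) := by
  have h0 : ContMDiffOn (𝓘(ℝ, ℝ).prod (𝓡 n).tangent) (𝓡 n).tangent ∞
      (fun q : ℝ × TangentBundle (𝓡 n) M => scaleT q.1 q.2) (Dom O) :=
    contMDiff_scaleT.contMDiffOn
  exact he.comp h0 (fun q hq => hq)

/-- the vector `((t,p),(1,0))` of the tangent space of `ℝ × TM` -/
noncomputable def unitT (q : ℝ × TangentBundle (𝓡 n) M) :
    TangentBundle (𝓘(ℝ, ℝ).prod (𝓡 n).tangent) (ℝ × TangentBundle (𝓡 n) M) :=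
  (equivTangentBundleProd 𝓘(ℝ, ℝ) ℝ (𝓡 n).tangent (TangentBundle (𝓡 n) M)).symm
    (⟨q.1, (1 : ℝ)⟩, ⟨q.2, 0⟩)

theorem contMDiff_unitT :
    ContMDiff (𝓘(ℝ, ℝ).prod (𝓡 n).tangent) (𝓘(ℝ, ℝ).prod (𝓡 n).tangent).tangent ∞
      (unitT (n := n) (M := M)) := by
  have h0 : ContMDiff 𝓘(ℝ, ℝ) 𝓘(ℝ, ℝ).tangent ∞
      (fun t : ℝ => (⟨t, (1 : ℝ)⟩ : TangentBundle 𝓘(ℝ, ℝ) ℝ)) := by
    intro t
    rw [contMDiffAt_totalSpace]
    refine ⟨contMDiffAt_id, ?_⟩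
    simp only [TangentBundle.trivializationAt_apply, mfld_simps]
    have h00 : ContMDiffAt 𝓘(ℝ, ℝ) 𝓘(ℝ, ℝ) ∞ (fun _ : ℝ => (1 : ℝ)) t := contMDiffAt_const
    convert h00 using 2
    simp [chartAt_self_eq]
  have h1 : ContMDiff (𝓡 n).tangent (𝓡 n).tangent.tangent ∞
      (fun p : TangentBundle (𝓡 n) M =>
        (⟨p, 0⟩ : TangentBundle (𝓡 n).tangent (TangentBundle (𝓡 n) M))) :=
    contMDiff_zeroSection ℝ (TangentSpace (𝓡 n).tangent (M := TangentBundle (𝓡 n) M))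
  have h2 := (h0.comp (contMDiff_fst (M := ℝ) (N := TangentBundle (𝓡 n) M)
    (I := 𝓘(ℝ, ℝ)) (J := (𝓡 n).tangent))).prodMk (h1.comp (contMDiff_snd (M := ℝ)
      (N := TangentBundle (𝓡 n) M) (I := 𝓘(ℝ, ℝ)) (J := (𝓡 n).tangent)))
  exact (contMDiff_equivTangentBundleProd_symm (I := 𝓘(ℝ, ℝ)) (M := ℝ)
    (I' := (𝓡 n).tangent) (M' := TangentBundle (𝓡 n) M)).comp h2

/-- the radial curve `t ↦ e (t p)` is smooth where `t p ∈ O` -/
theorem contMDiffAt_radialCurve {e : ∀ x : M, TangentSpace (𝓡 n) x → M}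
    {O : Set (TangentBundle (𝓡 n) M)} (hO : IsOpen O)
    (he : ContMDiffOn (𝓡 n).tangent (𝓡 n) ∞ (fun p : TangentBundle (𝓡 n) M => e p.1 p.2) O)
    (p : TangentBundle (𝓡 n) M) (t : ℝ) (ht : scaleT t p ∈ O) :
    ContMDiffAt 𝓘(ℝ, ℝ) (𝓡 n) ∞ (fun t : ℝ => e p.1 (t • p.2)) t := by
  have hΦ : ContMDiffAt (𝓘(ℝ, ℝ).prod (𝓡 n).tangent) (𝓡 n) ∞ (Phi e) (t, p) :=
    (contMDiffOn_Phi he (t, p) ht).contMDiffAt ((isOpen_Dom hO).mem_nhds ht)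
  have hι : ContMDiffAt 𝓘(ℝ, ℝ) (𝓘(ℝ, ℝ).prod (𝓡 n).tangent) ∞
      (fun t : ℝ => ((t, p) : ℝ × TangentBundle (𝓡 n) M)) t :=
    contMDiffAt_id.prodMk contMDiffAt_const
  exact ContMDiffAt.comp (g := Phi e) (f := fun t : ℝ => ((t, p) : ℝ × TangentBundle (𝓡 n) M))
    t hΦ hι

theorem radial_eq_tangentMapWithin {e : ∀ x : M, TangentSpace (𝓡 n) x → M}
    {O : Set (TangentBundle (𝓡 n) M)} (hO : IsOpen O)
    (he : ContMDiffOn (𝓡 n).tangent (𝓡 n) ∞ (fun p : TangentBundle (𝓡 n) M => e p.1 p.2) O)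
    (q : ℝ × TangentBundle (𝓡 n) M) (hq : q ∈ Dom O) :
    radial e q.1 q.2 = tangentMapWithin (𝓘(ℝ, ℝ).prod (𝓡 n).tangent) (𝓡 n) (Phi e) (Dom O)
      (unitT q) := by
  have hΦ : MDifferentiableAt (𝓘(ℝ, ℝ).prod (𝓡 n).tangent) (𝓡 n) (Phi e) q :=
    ((contMDiffOn_Phi he q hq).contMDiffAt ((isOpen_Dom hO).mem_nhds hq)).mdifferentiableAt
      (by simp)
  have hι : HasMFDerivAt 𝓘(ℝ, ℝ) (𝓘(ℝ, ℝ).prod (𝓡 n).tangent)
      (fun t : ℝ => ((t, q.2) : ℝ × TangentBundle (𝓡 n) M)) q.1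
      ((ContinuousLinearMap.id ℝ (TangentSpace 𝓘(ℝ, ℝ) q.1)).prod
        (0 : TangentSpace 𝓘(ℝ, ℝ) q.1 →L[ℝ] TangentSpace (𝓡 n).tangent q.2)) :=
    (hasMFDerivAt_id q.1).prodMk (hasMFDerivAt_const q.2 q.1)
  have hc := (hΦ.hasMFDerivAt).comp q.1 hι
  have hm := hc.mfderiv
  have hw : mfderivWithin (𝓘(ℝ, ℝ).prod (𝓡 n).tangent) (𝓡 n) (Phi e) (Dom O) q =
      mfderiv (𝓘(ℝ, ℝ).prod (𝓡 n).tangent) (𝓡 n) (Phi e) q :=
    mfderivWithin_of_isOpen (isOpen_Dom hO) hq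
  refine TotalSpace.ext rfl ?_
  refine heq_of_eq ?_
  show mfderiv 𝓘(ℝ, ℝ) (𝓡 n) (Phi e ∘ fun t : ℝ => ((t, q.2) : ℝ × TangentBundle (𝓡 n) M))
    q.1 (1 : ℝ) = mfderivWithin (𝓘(ℝ, ℝ).prod (𝓡 n).tangent) (𝓡 n) (Phi e) (Dom O) q _
  rw [hw, hm]
  rfl

/-- joint smoothness of the radial lift -/
theorem contMDiffOn_radial {e : ∀ x : M, TangentSpace (𝓡 n) x → M}
    {O : Set (TangentBundle (𝓡 n) M)} (hO : IsOpen O)
    (he : ContMDiffOn (𝓡 n).tangent (𝓡 n) ∞ (fun p : TangentBundle (𝓡 n) M => e p.1 p.2) O) :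
    ContMDiffOn (𝓘(ℝ, ℝ).prod (𝓡 n).tangent) (𝓡 n).tangent ∞
      (fun q : ℝ × TangentBundle (𝓡 n) M => radial e q.1 q.2) {q | scaleT q.1 q.2 ∈ O} := by
  have h1 := (contMDiffOn_Phi he).contMDiffOn_tangentMapWithin (m := ∞) (by simp)
    (isOpen_Dom hO).uniqueMDiffOn
  have h0 : ContMDiffOn (𝓘(ℝ, ℝ).prod (𝓡 n).tangent)
      (𝓘(ℝ, ℝ).prod (𝓡 n).tangent).tangent ∞ (unitT (n := n) (M := M)) (Dom O) :=
    contMDiff_unitT.contMDiffOn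
  have h2 := h1.comp h0 (fun q hq => hq)
  exact h2.congr (fun q hq => radial_eq_tangentMapWithin hO he q hq)

end radial

set_option linter.unusedSectionVars false

section near
variable {n : ℕ} {M : Type*} [MetricSpace M] [ChartedSpace (EuclideanSpace ℝ (Fin n)) M]
  [IsManifold (𝓡 n) ∞ M]
  [RiemannianBundle (fun p : M => TangentSpace (𝓡 n) p)]
  [IsContMDiffRiemannianBundle (𝓡 n) ∞ (EuclideanSpace ℝ (Fin n)) (fun p : M => TangentSpace (𝓡 n) p)]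

theorem isOpen_disc (r : ℝ) : IsOpen {p : TangentBundle (𝓡 n) M | ‖p.2‖ < r} :=
  isOpen_lt continuous_norm continuous_const

/-- `SmallFlow.smooth` -/
theorem nearDiag_radial_smooth (N : NearDiag n M) :
    ContMDiffOn (𝓘(ℝ, ℝ).prod (𝓡 n).tangent) (𝓡 n).tangent ∞
      (fun q : ℝ × TangentBundle (𝓡 n) M => radial N.e q.1 q.2) {q | |q.1| * ‖q.2.2‖ < N.r₀} := by
  have h := contMDiffOn_radial (isOpen_disc N.r₀) N.smooth
  convert h using 2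
  ext q
  show _ ↔ ‖q.1 • q.2.2‖ < N.r₀
  rw [norm_smul, Real.norm_eq_abs]

/-- `GeoCore.smooth_radial` -/
theorem contMDiff_radial_of_contMDiff {e : ∀ x : M, TangentSpace (𝓡 n) x → M}
    (he : ContMDiff (𝓡 n).tangent (𝓡 n) ∞ (fun p : TangentBundle (𝓡 n) M => e p.1 p.2)) :
    ContMDiff (𝓘(ℝ, ℝ).prod (𝓡 n).tangent) (𝓡 n).tangent ∞
      (fun q : ℝ × TangentBundle (𝓡 n) M => radial e q.1 q.2) := by
  have h := contMDiffOn_radial isOpen_univ he.contMDiffOn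
  rw [← contMDiffOn_univ]
  convert h using 2
  ext q
  simp

end near

end Crest.Agent.R226.GlobalEx415
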