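/-
R226 Layer B, tasks B2 and B3 (helper415): `SmallFlow N → GlobalFlow N → GeoCore n M`.
-/
import Crest.Agent.R226.BDefs_542
import Crest.Agent.R226.LocFlow_415
import Crest.Agent.R226.TangentTools_415

set_option autoImplicit false
set_option linter.unusedSectionVars false

open MeasureTheory Bundle Set Filter
open scoped Manifold ContDiff Bundle ENNReal Topology
open Crest.GeometryTopology.MTW

namespace Crest.Agent.R226.GlobalEx415

open Crest.Agent.R226.LocFlow415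

variable {n : ℕ} {M : Type*} [MetricSpace M] [ChartedSpace (EuclideanSpace ℝ (Fin n)) M]
  [IsManifold (𝓡 n) ∞ M]
  [RiemannianBundle (fun p : M => TangentSpace (𝓡 n) p)]
  [IsContMDiffRiemannianBundle (𝓡 n) ∞ (EuclideanSpace ℝ (Fin n)) (fun p : M => TangentSpace (𝓡 n) p)]

/-- the norm on the tangent bundle -/
noncomputable def nuT (p : TangentBundle (𝓡 n) M) : ℝ := ‖p.2‖

theorem localFlow_of_smallFlow {N : NearDiag n M} (h : SmallFlow N) :
    LocalFlow (nuT (n := n) (M := M)) N.r₀ (radial N.e) where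
  rho_pos := N.r₀_pos
  nu_nonneg := fun p => norm_nonneg p.2
  zero := h.zero
  nu := fun t p ht => h.norm t p ht
  add := by
    intro s t p hs ht hst
    rw [h.add t s p ht hs (by rw [add_comm]; exact hst), add_comm]

section B2
variable {N : NearDiag n M}

/-- the global flow -/
noncomputable def Flo (N : NearDiag n M) (t : ℝ) (p : TangentBundle (𝓡 n) M) :
    TangentBundle (𝓡 n) M := Fl nuT N.r₀ (radial N.e) t p

theorem nuT_scaleT (a : ℝ) (p : TangentBundle (𝓡 n) M) : nuT (scaleT a p) = |a| * nuT p := by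
  unfold nuT scaleT
  rw [norm_smul, Real.norm_eq_abs]

theorem Flo_scale (h : SmallFlow N) (a t : ℝ) (p : TangentBundle (𝓡 n) M) :
    Flo N t (scaleT a p) = scaleT a (Flo N (t * a) p) := by
  have hF := localFlow_of_smallFlow h
  obtain ⟨k, hk0, hk⟩ := hF.exists_nat_small (|t| * (|a| * nuT p))
    (mul_nonneg (abs_nonneg _) (mul_nonneg (abs_nonneg _) (norm_nonneg _)))
  have h1 : |t / k| * nuT (scaleT a p) < N.r₀ := by
    rw [nuT_scaleT]
    exact hk t _ (mul_nonneg (abs_nonneg _) (norm_nonneg _)) le_rfl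
  have h2 : |t * a / k| * nuT p < N.r₀ := by
    have := hk (t * a) (nuT p) (norm_nonneg _) (by rw [abs_mul]; linarith)
    exact this
  unfold Flo
  rw [hF.Fl_eq hk0 h1, hF.Fl_eq hk0 h2]
  have key : ∀ j : ℕ, (radial N.e (t / k))^[j] (scaleT a p) =
      scaleT a ((radial N.e (t * a / k))^[j] p) := by
    intro j
    induction j with
    | zero => rfl
    | succ j ih =>
      rw [Function.iterate_succ_apply', ih, Function.iterate_succ_apply', h.scale]
      congr 2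
      ring
  exact key k

theorem Flo_smooth (h : SmallFlow N) :
    ContMDiff (𝓘(ℝ, ℝ).prod (𝓡 n).tangent) (𝓡 n).tangent ∞
      (fun q : ℝ × TangentBundle (𝓡 n) M => Flo N q.1 q.2) := by
  have hF := localFlow_of_smallFlow h
  intro q₀
  set C : ℝ := |q₀.1| * nuT q₀.2 + 1 with hC
  have hC0 : 0 ≤ C := by
    have : 0 ≤ |q₀.1| * nuT q₀.2 := mul_nonneg (abs_nonneg _) (norm_nonneg _)
    linarith
  obtain ⟨k, hk0, hk⟩ := hF.exists_nat_small C hC0
  set W : Set (ℝ × TangentBundle (𝓡 n) M) := {q | |q.1| * ‖q.2.2‖ < C} with hW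
  have hWo : IsOpen W := by
    have hc : Continuous (fun q : ℝ × TangentBundle (𝓡 n) M => |q.1| * ‖q.2.2‖) :=
      (continuous_abs.comp continuous_fst).mul (continuous_norm.comp continuous_snd)
    exact isOpen_lt hc continuous_const
  have hq₀ : q₀ ∈ W := by
    show |q₀.1| * ‖q₀.2.2‖ < C
    rw [hC]; unfold nuT; linarith
  have hsm : ∀ q ∈ W, |q.1 / k| * nuT q.2 < N.r₀ := fun q hq =>
    hk q.1 (nuT q.2) (norm_nonneg _) (le_of_lt hq)
  have hit : ∀ j : ℕ, ContMDiffOn (𝓘(ℝ, ℝ).prod (𝓡 n).tangent) (𝓡 n).tangent ∞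
      (fun q : ℝ × TangentBundle (𝓡 n) M => (radial N.e (q.1 / k))^[j] q.2) W := by
    intro j
    induction j with
    | zero => exact contMDiff_snd.contMDiffOn
    | succ j ih =>
      have hdiv : ContMDiffOn (𝓘(ℝ, ℝ).prod (𝓡 n).tangent) 𝓘(ℝ, ℝ) ∞
          (fun q : ℝ × TangentBundle (𝓡 n) M => q.1 / k) W := by
        have h1 : ContMDiff 𝓘(ℝ, ℝ) 𝓘(ℝ, ℝ) ∞ (fun t : ℝ => t / k) :=
          (contDiff_id.div_const _).contMDiff
        exact (h1.comp contMDiff_fst).contMDiffOn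
      have h2 := hdiv.prodMk ih
      have h3 : ContMDiffOn (𝓘(ℝ, ℝ).prod (𝓡 n).tangent) (𝓡 n).tangent ∞
          ((fun q : ℝ × TangentBundle (𝓡 n) M => radial N.e q.1 q.2) ∘
            fun q : ℝ × TangentBundle (𝓡 n) M => (q.1 / (k : ℝ), (radial N.e (q.1 / k))^[j] q.2)) W := by
        refine h.smooth.comp h2 ?_
        intro q hq
        show |q.1 / k| * ‖((radial N.e (q.1 / k))^[j] q.2).2‖ < N.r₀
        have h4 := hF.nu_iterate (hsm q hq) j
        have h5 : ‖((radial N.e (q.1 / k))^[j] q.2).2‖ = nuT q.2 := h4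
        rw [h5]
        exact hsm q hq
      refine h3.congr ?_
      intro q _
      rw [Function.iterate_succ_apply']
      rfl
  have hcongr : ∀ q ∈ W, Flo N q.1 q.2 = (radial N.e (q.1 / k))^[k] q.2 := fun q hq =>
    hF.Fl_eq hk0 (hsm q hq)
  exact ((hit k).congr hcongr q₀ hq₀).contMDiffAt (hWo.mem_nhds hq₀)

/-- B2 : the global flow. -/
noncomputable def globalFlow (h : SmallFlow N) : GlobalFlow N where
  Fl := Flo N
  small := fun t p ht => (localFlow_of_smallFlow h).Fl_eq_of_small ht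
  norm := fun t p => (localFlow_of_smallFlow h).nu_Fl t p
  add := fun t s p => by
    show Fl _ _ _ _ _ = Fl _ _ _ _ _
    rw [add_comm]
    exact ((localFlow_of_smallFlow h).Fl_add s t p).symm
  scale := fun a t p => Flo_scale h a t p
  smooth := Flo_smooth h

end B2

section B3
variable {N : NearDiag n M}

theorem ex_smul (F : GlobalFlow N) (t : ℝ) (p : TangentBundle (𝓡 n) M) :
    F.ex p.1 (t • p.2) = (F.Fl t p).1 := by
  have h := F.scale t 1 p
  rw [one_mul] at h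
  have h2 : F.ex p.1 (t • p.2) = (F.Fl 1 (scaleT t p)).1 := rfl
  rw [h2, h]
  rfl

/-- the radial lift of the global exponential map is the flow -/
theorem radial_ex (h : SmallFlow N) (F : GlobalFlow N) (t : ℝ) (p : TangentBundle (𝓡 n) M) :
    radial F.ex t p = F.Fl t p := by
  set q := F.Fl t p with hq
  have hopen : ∀ᶠ s in 𝓝 t, |s - t| * ‖q.2‖ < N.r₀ := by
    have hc : Continuous (fun s : ℝ => |s - t| * ‖q.2‖) := by fun_prop
    have h0 : |t - t| * ‖q.2‖ < N.r₀ := by simpa using N.r₀_pos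
    exact hc.continuousAt.eventually (gt_mem_nhds h0) |>.mono fun s hs => hs
  have hev : (fun s : ℝ => F.ex p.1 (s • p.2)) =ᶠ[𝓝 t] fun s : ℝ => N.e q.1 ((-t + s) • q.2) := by
    filter_upwards [hopen] with s hs
    have h1 : F.Fl s p = F.Fl (s - t) q := by
      rw [hq, F.add]; congr 1; ring
    rw [ex_smul, h1, F.small _ _ hs]
    show N.e q.1 ((s - t) • q.2) = _
    congr 2
    ring
  have h1 : radial F.ex t p = curveT n (fun s : ℝ => F.ex p.1 (s • p.2)) t := rfl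
  rw [h1, curveT_congr hev]
  have hz : (-t + t : ℝ) = 0 := by ring
  have hd : MDifferentiableAt 𝓘(ℝ, ℝ) (𝓡 n) (fun s : ℝ => N.e q.1 (s • q.2)) (-t + t) := by
    rw [hz]
    refine (contMDiffAt_radialCurve (isOpen_disc N.r₀) N.smooth q 0 ?_).mdifferentiableAt (by simp)
    show ‖(0 : ℝ) • q.2‖ < N.r₀
    rw [zero_smul, norm_zero]; exact N.r₀_pos
  have h2 := curveT_comp_add (fun s : ℝ => N.e q.1 (s • q.2)) (-t) t hd
  rw [h2, hz]
  exact h.zero q

theorem ex_eq_e (F : GlobalFlow N) (x : M) (v : TangentSpace (𝓡 n) x) (hv : ‖v‖ < N.r₀) :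
    F.ex x v = N.e x v := by
  have h1 : F.Fl 1 ⟨x, v⟩ = radial N.e 1 ⟨x, v⟩ := F.small 1 ⟨x, v⟩ (by simpa using hv)
  show (F.Fl 1 ⟨x, v⟩).1 = _
  rw [h1]
  show N.e x ((1 : ℝ) • v) = N.e x v
  rw [one_smul]

theorem ex_dist_eq (h : SmallFlow N) (F : GlobalFlow N) (x : M) (v : TangentSpace (𝓡 n) x)
    (s t : ℝ) (hst : |s - t| * ‖v‖ < N.r₀) :
    dist (F.ex x (s • v)) (F.ex x (t • v)) = |s - t| * ‖v‖ := by
  have h1 : F.ex x (s • v) = (F.Fl s ⟨x, v⟩).1 := ex_smul F s ⟨x, v⟩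
  have h2 : F.ex x (t • v) = (F.Fl t ⟨x, v⟩).1 := ex_smul F t ⟨x, v⟩
  set q := F.Fl t ⟨x, v⟩ with hq
  have hn : ‖q.2‖ = ‖v‖ := F.norm t ⟨x, v⟩
  have h3 : F.Fl s ⟨x, v⟩ = F.Fl (s - t) q := by
    rw [hq, F.add]; congr 1; ring
  have h4 : F.Fl (s - t) q = radial N.e (s - t) q := F.small _ _ (by rw [hn]; exact hst)
  rw [h1, h2, h3, h4]
  show dist (N.e q.1 ((s - t) • q.2)) q.1 = _
  have hw : ‖(s - t) • q.2‖ < N.r₀ := by
    rw [norm_smul, Real.norm_eq_abs, hn]; exact hst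
  have h5 := N.dist_eq q.1 ((s - t) • q.2) hw 1 0 (by simp) (by simp)
  rw [one_smul, zero_smul, N.e_zero] at h5
  rw [h5, norm_smul, Real.norm_eq_abs, hn]
  simp

theorem ex_dist_le (h : SmallFlow N) (F : GlobalFlow N) (x : M) (v : TangentSpace (𝓡 n) x)
    (s t : ℝ) : dist (F.ex x (s • v)) (F.ex x (t • v)) ≤ |s - t| * ‖v‖ := by
  obtain ⟨k, hk0, hk⟩ := (localFlow_of_smallFlow h).exists_nat_small (|s - t| * ‖v‖)
    (mul_nonneg (abs_nonneg _) (norm_nonneg _))
  have hk1 := hk (s - t) ‖v‖ (norm_nonneg _) le_rfl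
  have hk' : (k : ℝ) ≠ 0 := by exact_mod_cast hk0
  have key : ∀ j : ℕ, dist (F.ex x ((t + j * ((s - t) / k)) • v)) (F.ex x (t • v)) ≤
      j * (|(s - t) / k| * ‖v‖) := by
    intro j
    induction j with
    | zero => simp
    | succ j ih =>
      have h1 : dist (F.ex x ((t + (j + 1 : ℕ) * ((s - t) / k)) • v))
          (F.ex x ((t + j * ((s - t) / k)) • v)) = |(s - t) / k| * ‖v‖ := by
        rw [ex_dist_eq h F x v]
        · congr 2; push_cast; ring
        · have : (t + (j + 1 : ℕ) * ((s - t) / k)) - (t + j * ((s - t) / k)) = (s - t) / k := by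
            push_cast; ring
          rw [this]; exact hk1
      calc _ ≤ _ + _ := dist_triangle _ (F.ex x ((t + j * ((s - t) / k)) • v)) _
        _ ≤ |(s - t) / k| * ‖v‖ + j * (|(s - t) / k| * ‖v‖) := add_le_add h1.le ih
        _ = _ := by push_cast; ring
  have h2 := key k
  have h3 : t + k * ((s - t) / k) = s := by field_simp; ring
  rw [h3] at h2
  refine h2.trans_eq ?_
  rw [abs_div, Nat.abs_cast]
  field_simp

theorem ex_hasDerivAt_cost (F : GlobalFlow N) (x : M) (v ξ : TangentSpace (𝓡 n) x)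
    (hv : ‖v‖ < N.r₀) :
    HasDerivAt (fun t : ℝ => halfDistSq (F.ex x (t • ξ)) (F.ex x v)) (-inner ℝ v ξ) 0 := by
  have hc : ∃ c : ℝ, 0 < c ∧ ‖c • ξ‖ < N.r₀ := by
    refine ⟨N.r₀ / (‖ξ‖ + 1) / 2, by have := N.r₀_pos; positivity, ?_⟩
    have h0 := N.r₀_pos
    rw [norm_smul, Real.norm_eq_abs, abs_of_nonneg (by positivity)]
    have h1 : N.r₀ / (‖ξ‖ + 1) / 2 * ‖ξ‖ = N.r₀ * (‖ξ‖ / (‖ξ‖ + 1)) / 2 := by ring
    rw [h1]
    have h2 : ‖ξ‖ / (‖ξ‖ + 1) ≤ 1 := by
      rw [div_le_one (by positivity)]; linarith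
    nlinarith
  obtain ⟨c, hc0, hc⟩ := hc
  have h1 := N.hasDerivAt_cost x v (c • ξ) hv hc
  have h2 : HasDerivAt (fun t : ℝ => t / c) (1 / c) (0 : ℝ) := (hasDerivAt_id (0 : ℝ)).div_const c
  have h1' : HasDerivAt (fun t : ℝ => halfDistSq (N.e x (t • (c • ξ))) (N.e x v))
      (-inner ℝ v (c • ξ)) ((0 : ℝ) / c) := by rw [zero_div]; exact h1
  have h3 := HasDerivAt.comp (0 : ℝ) h1' h2
  have h4 : -inner ℝ v (c • ξ) * (1 / c) = -inner ℝ v ξ := by
    rw [inner_smul_right]; field_simp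
  rw [h4] at h3
  refine h3.congr_of_eventuallyEq ?_
  have hopen : ∀ᶠ t in 𝓝 (0 : ℝ), |t| * ‖ξ‖ < N.r₀ := by
    have hcont : Continuous (fun t : ℝ => |t| * ‖ξ‖) := by fun_prop
    have h0 : |(0 : ℝ)| * ‖ξ‖ < N.r₀ := by simpa using N.r₀_pos
    exact hcont.continuousAt.eventually (gt_mem_nhds h0) |>.mono fun s hs => hs
  filter_upwards [hopen] with t ht
  have h5 : F.ex x (t • ξ) = N.e x (t • ξ) := ex_eq_e F x _ (by
    rw [norm_smul, Real.norm_eq_abs]; exact ht)
  have h6 : F.ex x v = N.e x v := ex_eq_e F x v hv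
  rw [h5, h6]
  show _ = halfDistSq (N.e x ((t / c) • (c • ξ))) (N.e x v)
  rw [smul_smul, div_mul_cancel₀ _ hc0.ne']

/-- B3 : the core geometry from a global flow. -/
noncomputable def geoCore (h : SmallFlow N) (F : GlobalFlow N) : GeoCore n M where
  ex := F.ex
  smooth := by
    have h1 : ContMDiff (𝓡 n).tangent (𝓘(ℝ, ℝ).prod (𝓡 n).tangent) ∞
        (fun p : TangentBundle (𝓡 n) M => ((1 : ℝ), p)) := contMDiff_const.prodMk contMDiff_id
    exact (contMDiff_proj (TangentSpace (𝓡 n) (M := M))).comp (F.smooth.comp h1)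
  ex_zero := fun x => by
    rw [ex_eq_e F x 0 (by rw [norm_zero]; exact N.r₀_pos), N.e_zero]
  vel_zero := fun x v => by
    have h1 := radial_ex h F 0 ⟨x, v⟩
    have h2 : F.Fl 0 ⟨x, v⟩ = ⟨x, v⟩ := by
      rw [F.small 0 ⟨x, v⟩ (by simpa using N.r₀_pos)]; exact h.zero _
    rw [h2] at h1
    have h3 : ∀ (a b : TangentBundle (𝓡 n) M), a = b → (a.2 : EuclideanSpace ℝ (Fin n)) = b.2 := by
      intro a b hab; rw [hab]
    exact h3 _ _ h1
  norm_vel := fun x v t => by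
    have h1 := radial_ex h F t ⟨x, v⟩
    have h2 : ‖(radial F.ex t ⟨x, v⟩).2‖ = ‖v‖ := by rw [h1]; exact F.norm t ⟨x, v⟩
    exact h2
  flow := fun x v t s => by
    have h1 := radial_ex h F t ⟨x, v⟩
    have h2 : F.ex (F.ex x (t • v)) (s • curveVel n (fun t : ℝ => F.ex x (t • v)) t) =
        F.ex (radial F.ex t ⟨x, v⟩).1 (s • (radial F.ex t ⟨x, v⟩).2) := rfl
    rw [h2, ex_smul, h1, F.add]
    exact (ex_smul F (t + s) ⟨x, v⟩).symm
  dist_le := ex_dist_le h F
  r₀ := N.r₀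
  r₀_pos := N.r₀_pos
  dist_eq := ex_dist_eq h F
  inj := fun x v w hv hw hvw => by
    rw [ex_eq_e F x v hv, ex_eq_e F x w hw] at hvw
    exact N.inj x v w hv hw hvw
  smooth_cost := N.smooth_cost
  hasDerivAt_cost := ex_hasDerivAt_cost F
  surj_near := fun x y hxy => by
    obtain ⟨v, hv, hy⟩ := N.surj x y hxy
    exact ⟨v, hv, by rw [ex_eq_e F x v (by rw [hv]; exact hxy), hy]⟩
  smooth_radial := by
    have h1 : (fun q : ℝ × TangentBundle (𝓡 n) M => radial F.ex q.1 q.2) =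
        fun q : ℝ × TangentBundle (𝓡 n) M => F.Fl q.1 q.2 := by
      funext q; exact radial_ex h F q.1 q.2
    rw [h1]
    exact F.smooth

/-- B2 + B3 -/
theorem nonempty_geoCore {N : NearDiag n M} (h : SmallFlow N) : Nonempty (GeoCore n M) :=
  ⟨geoCore h (globalFlow h)⟩

end B3

end Crest.Agent.R226.GlobalEx415
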