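/-
R226 layer B, task B4 (helper114).
(i) exact intermediate points in a compact Riemannian manifold (`exists_mid`);
(ii) Hopf–Rinow: from `GeoCore` (BDefs_542) and `HasBetween M` every pair of points is joined by a
minimising `ex`-geodesic (`GeoCore.surj114`).
Main results: `hasBetween`, `nearDiag_mid_unique`, `geoCore_mid_unique`, `geoCore_extend`,
`geoCore_surj`.
-/
import Crest.Agent.R226.BDefs_542

set_option autoImplicit false

open MeasureTheory Bundle Set Filter Manifold
open scoped Manifold ContDiff Bundle ENNReal Topology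
open Crest.GeometryTopology.MTW

namespace Crest.Agent.R226.HopfRinow114

variable {n : ℕ} {M : Type*} [MetricSpace M] [ChartedSpace (EuclideanSpace ℝ (Fin n)) M]
  [IsManifold (𝓡 n) ∞ M]
  [RiemannianBundle (fun p : M => TangentSpace (𝓡 n) p)]

/-! ### (i) intermediate points -/

omit [IsManifold (𝓡 n) ∞ M] in
variable (n) in
theorem exists_approx_mid [IsRiemannianManifold (𝓡 n) M] (x y : M) (t : ℝ) (ht0 : 0 ≤ t)
    (ht1 : t ≤ 1) (ε : ℝ) (hε : 0 < ε) :
    ∃ z, dist x z = t * dist x y ∧ dist z y ≤ (1 - t) * dist x y + ε := by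
  have h0 : riemannianEDist (𝓡 n) x y < ENNReal.ofReal (dist x y + ε) := by
    rw [← IsRiemannianManifold.out (I := 𝓡 n) x y, edist_dist]
    exact (ENNReal.ofReal_lt_ofReal_iff (by positivity)).2 (by linarith)
  obtain ⟨γ, h0x, h1y, hC, hlen⟩ := exists_lt_of_riemannianEDist_lt h0
  have hcont : ContinuousOn (fun s => dist x (γ s)) (Icc 0 1) :=
    (continuous_const.dist continuous_id).comp_continuousOn hC.continuousOn
  have hmem : t * dist x y ∈ Icc ((fun s => dist x (γ s)) 0) ((fun s => dist x (γ s)) 1) := by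
    simp only [h0x, h1y, dist_self]
    exact ⟨mul_nonneg ht0 dist_nonneg, mul_le_of_le_one_left dist_nonneg ht1⟩
  obtain ⟨s, hs, hst⟩ := intermediate_value_Icc zero_le_one hcont hmem
  refine ⟨γ s, hst, ?_⟩
  have e1 : edist x (γ s) ≤ pathELength (𝓡 n) γ 0 s := by
    rw [IsRiemannianManifold.out (I := 𝓡 n) x (γ s)]
    exact riemannianEDist_le_pathELength (hC.mono (Icc_subset_Icc le_rfl hs.2)) h0x rfl hs.1
  have e2 : edist (γ s) y ≤ pathELength (𝓡 n) γ s 1 := by
    rw [IsRiemannianManifold.out (I := 𝓡 n) (γ s) y]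
    exact riemannianEDist_le_pathELength (hC.mono (Icc_subset_Icc hs.1 le_rfl)) rfl h1y hs.2
  have e3 : edist x (γ s) + edist (γ s) y < ENNReal.ofReal (dist x y + ε) := by
    calc edist x (γ s) + edist (γ s) y ≤ pathELength (𝓡 n) γ 0 s + pathELength (𝓡 n) γ s 1 :=
          add_le_add e1 e2
      _ = pathELength (𝓡 n) γ 0 1 := pathELength_add hs.1 hs.2
      _ < _ := hlen
  rw [edist_dist, edist_dist, ← ENNReal.ofReal_add dist_nonneg dist_nonneg,
    ENNReal.ofReal_lt_ofReal_iff (by positivity)] at e3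
  have e4 : dist x (γ s) = t * dist x y := hst
  linarith

omit [IsManifold (𝓡 n) ∞ M] in
variable (n) in
/-- exact intermediate points -/
theorem exists_mid [IsRiemannianManifold (𝓡 n) M] [CompactSpace M] (x y : M) (t : ℝ)
    (ht0 : 0 ≤ t) (ht1 : t ≤ 1) :
    ∃ z, dist x z = t * dist x y ∧ dist z y = (1 - t) * dist x y := by
  have hK : IsCompact {z : M | dist x z = t * dist x y} :=
    (isClosed_eq (continuous_const.dist continuous_id) continuous_const).isCompact
  have hne : {z : M | dist x z = t * dist x y}.Nonempty := by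
    obtain ⟨z, hz, -⟩ := exists_approx_mid n x y t ht0 ht1 1 one_pos
    exact ⟨z, hz⟩
  obtain ⟨z, hz, hmin⟩ := hK.exists_isMinOn hne
    (f := fun z => dist z y) (continuous_id.dist continuous_const).continuousOn
  refine ⟨z, hz, le_antisymm ?_ ?_⟩
  · refine le_of_forall_pos_le_add fun ε hε => ?_
    obtain ⟨w, hw, hw2⟩ := exists_approx_mid n x y t ht0 ht1 ε hε
    exact (hmin hw).trans hw2
  · have h1 := dist_triangle x z y
    have h2 : dist x z = t * dist x y := hz
    linarith

omit [IsManifold (𝓡 n) ∞ M] in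
variable (n) (M) in
/-- task B4i -/
theorem hasBetween [IsRiemannianManifold (𝓡 n) M] [CompactSpace M] : HasBetween M :=
  fun x y t ht => exists_mid n x y t ht.1 ht.2

/-! ### (ii) unique intermediate points near the diagonal -/

theorem halfDistSq_le_split (x y z : M) (s : ℝ) (hs0 : 0 < s) (hs1 : s < 1) :
    halfDistSq x y ≤ halfDistSq x z / s + halfDistSq z y / (1 - s) := by
  unfold halfDistSq
  have h := dist_triangle x z y
  have h0 : 0 ≤ dist x y := dist_nonneg
  have h1s : 0 < 1 - s := by linarith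
  have h2 : dist x y ^ 2 ≤ (dist x z + dist z y) ^ 2 := by
    exact pow_le_pow_left₀ h0 h 2
  have h3 : (dist x z + dist z y) ^ 2 ≤ dist x z ^ 2 / s + dist z y ^ 2 / (1 - s) := by
    rw [div_add_div _ _ hs0.ne' h1s.ne', le_div_iff₀ (by positivity)]
    nlinarith [sq_nonneg ((1 - s) * dist x z - s * dist z y)]
  calc dist x y ^ 2 / 2 ≤ (dist x z ^ 2 / s + dist z y ^ 2 / (1 - s)) / 2 := by linarith
    _ = dist x z ^ 2 / 2 / s + dist z y ^ 2 / 2 / (1 - s) := by ring

theorem halfDistSq_split_eq (x y z : M) (s : ℝ) (_hs0 : 0 < s) (hs1 : s < 1)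
    (h1 : dist x z = s * dist x y) (h2 : dist z y = (1 - s) * dist x y) :
    halfDistSq x y = halfDistSq x z / s + halfDistSq z y / (1 - s) := by
  unfold halfDistSq
  have h1s : 1 - s ≠ 0 := by linarith
  rw [h1, h2]
  field_simp
  ring

section near

variable {r₀ : ℝ} {ex : ∀ x : M, TangentSpace (𝓡 n) x → M}

omit [IsManifold (𝓡 n) ∞ M] in
/-- Unique intermediate points near the diagonal (gradients at `x` of `c(·,y)` and `c(·,m)`). -/
theorem mid_unique
    (h0 : ∀ x, ex x 0 = x)
    (surj_near : ∀ x y, dist x y < r₀ → ∃ v : TangentSpace (𝓡 n) x, ‖v‖ = dist x y ∧ ex x v = y)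
    (hd : ∀ x, ∀ v ξ : TangentSpace (𝓡 n) x, ‖v‖ < r₀ → ‖ξ‖ < r₀ →
      HasDerivAt (fun t : ℝ => halfDistSq (ex x (t • ξ)) (ex x v)) (-inner ℝ v ξ) 0)
    (x y m : M) (s : ℝ) (hs0 : 0 < s) (hs1 : s < 1) (hxy : dist x y < r₀)
    (h1 : dist x m = s * dist x y) (h2 : dist m y = (1 - s) * dist x y)
    (v : TangentSpace (𝓡 n) x) (hv : ex x v = y) (hvn : ‖v‖ < r₀) :
    m = ex x (s • v) := by
  have h1s : 0 < 1 - s := by linarith
  have hxm : dist x m < r₀ := by
    rw [h1]
    exact (mul_le_of_le_one_left dist_nonneg hs1.le).trans_lt hxy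
  obtain ⟨w, hwn, hw⟩ := surj_near x m hxm
  have hr : 0 < r₀ := dist_nonneg.trans_lt hxy
  -- gradients
  have key : ∀ ξ : TangentSpace (𝓡 n) x, ‖ξ‖ < r₀ → inner ℝ v ξ = inner ℝ w ξ / s := by
    intro ξ hξ
    have d1 := hd x v ξ hvn hξ
    have d2 := hd x w ξ (hwn ▸ hxm) hξ
    rw [hv] at d1
    rw [hw] at d2
    set F : ℝ → ℝ := fun t => halfDistSq (ex x (t • ξ)) m / s + halfDistSq m y / (1 - s)
      - halfDistSq (ex x (t • ξ)) y with hF
    have d3 : HasDerivAt F (-inner ℝ w ξ / s - -inner ℝ v ξ) 0 :=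
      ((d2.div_const s).add_const _).sub d1
    have hF0 : F 0 = 0 := by
      simp only [hF, zero_smul, h0]
      rw [halfDistSq_split_eq x y m s hs0 hs1 h1 h2]
      ring
    have hmin : IsLocalMin F 0 := by
      refine Filter.Eventually.of_forall fun t => ?_
      rw [hF0]
      simp only [hF]
      have := halfDistSq_le_split (ex x (t • ξ)) y m s hs0 hs1
      linarith
    have := hmin.hasDerivAt_eq_zero d3
    have e : -inner ℝ w ξ / s = -(inner ℝ w ξ / s) := by ring
    rw [e] at this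
    linarith
  have key2 : ∀ ξ : TangentSpace (𝓡 n) x, inner ℝ (s • v - w) ξ = 0 := by
    intro ξ
    obtain ⟨c, hc0, hc⟩ : ∃ c : ℝ, 0 < c ∧ ‖c • ξ‖ < r₀ := by
      refine ⟨r₀ / (2 * (‖ξ‖ + 1)), by positivity, ?_⟩
      rw [norm_smul, Real.norm_of_nonneg (by positivity)]
      have : 0 ≤ ‖ξ‖ := norm_nonneg _
      rw [div_mul_eq_mul_div, div_lt_iff₀ (by positivity)]
      nlinarith
    have h := key (c • ξ) hc
    rw [inner_smul_right, inner_smul_right] at h
    have h' : inner ℝ v ξ = inner ℝ w ξ / s := by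
      have : c * (inner ℝ v ξ - inner ℝ w ξ / s) = 0 := by
        rw [mul_sub, h]; ring
      rcases mul_eq_zero.1 this with h'' | h''
      · exact absurd h'' hc0.ne'
      · linarith
    rw [inner_sub_left, inner_smul_left, h']
    simp
    field_simp
    ring
  have h3 : s • v - w = 0 := inner_self_eq_zero.1 (key2 _)
  rw [← hw, ← sub_eq_zero.1 h3]

end near

/-- `mid_unique` for `NearDiag`. -/
theorem nearDiag_mid_unique (N : NearDiag n M) (x y m : M) (s : ℝ) (hs0 : 0 < s) (hs1 : s < 1)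
    (hxy : dist x y < N.r₀) (h1 : dist x m = s * dist x y) (h2 : dist m y = (1 - s) * dist x y)
    (v : TangentSpace (𝓡 n) x) (hv : N.e x v = y) (hvn : ‖v‖ < N.r₀) :
    m = N.e x (s • v) :=
  mid_unique N.e_zero N.surj N.hasDerivAt_cost x y m s hs0 hs1 hxy h1 h2 v hv hvn

section core

variable (P : GeoCore n M)

include P in
/-- `mid_unique` for `GeoCore`. -/
theorem geoCore_mid_unique (x y m : M) (s : ℝ) (hs0 : 0 < s) (hs1 : s < 1)
    (hxy : dist x y < P.r₀) (h1 : dist x m = s * dist x y) (h2 : dist m y = (1 - s) * dist x y)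
    (v : TangentSpace (𝓡 n) x) (hv : P.ex x v = y) (hvn : ‖v‖ < P.r₀) :
    m = P.ex x (s • v) :=
  mid_unique P.ex_zero P.surj_near (fun x v ξ hv _ => P.hasDerivAt_cost x v ξ hv)
    x y m s hs0 hs1 hxy h1 h2 v hv hvn

/-- **Extension step**: if `p = ex x ((a+b) v)`, `p⁻ = ex x (a v)` and `q` satisfies
`dist p q = b‖v‖`, `dist p⁻ q = 2b‖v‖ < r₀`, then `q = ex x ((a+2b) v)`. -/
theorem geoCore_extend (x : M) (v : TangentSpace (𝓡 n) x) (a b : ℝ) (hb : 0 < b)
    (hsmall : 2 * b * ‖v‖ < P.r₀) (q : M)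
    (h1 : dist (P.ex x ((a + b) • v)) q = b * ‖v‖)
    (h2 : dist (P.ex x (a • v)) q = 2 * b * ‖v‖) :
    q = P.ex x ((a + 2 * b) • v) := by
  have hnn : 0 ≤ b * ‖v‖ := by positivity
  set pm := P.ex x (a • v) with hpm
  set vel := curveVel n (fun t : ℝ => P.ex x (t • v)) a with hvel
  have hveln : ‖vel‖ = ‖v‖ := P.norm_vel x v a
  have hp : dist pm (P.ex x ((a + b) • v)) = b * ‖v‖ := by
    have h3 : dist pm (P.ex x ((a + b) • v)) ≤ b * ‖v‖ := by
      have := P.dist_le x v a (a + b)
      have e : |a - (a + b)| = b := by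
        rw [show a - (a + b) = -b by ring, abs_neg, abs_of_pos hb]
      rwa [e] at this
    have h4 := dist_triangle pm (P.ex x ((a + b) • v)) q
    linarith
  obtain ⟨w, hwn, hw⟩ := P.surj_near pm q (by rw [h2]; exact hsmall)
  have hwn' : ‖w‖ = 2 * b * ‖v‖ := by rw [hwn, h2]
  have hm := geoCore_mid_unique P pm q (P.ex x ((a + b) • v)) (1 / 2) (by norm_num) (by norm_num)
    (by rw [h2]; exact hsmall) (by rw [hp, h2]; ring) (by rw [h1, h2]; ring) w hw
    (by rw [hwn']; exact hsmall)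
  have hf := P.flow x v a b
  have hf2 := P.flow x v a (2 * b)
  have hinj : (1 / 2 : ℝ) • w = b • vel := by
    apply P.inj pm
    · rw [norm_smul, hwn', Real.norm_of_nonneg (by norm_num)]
      linarith
    · rw [norm_smul, hveln, Real.norm_of_nonneg hb.le]
      linarith
    · rw [← hm]
      exact hf.symm
  have hw2 : w = (2 * b) • vel := by
    have : (2 : ℝ) • ((1 / 2 : ℝ) • w) = (2 : ℝ) • (b • vel) := by rw [hinj]
    rw [smul_smul, smul_smul] at this
    simpa using this
  rw [← hw, hw2]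
  exact hf2

/-- **Hopf–Rinow.** -/
theorem geoCore_surj (hB : HasBetween M) (x y : M) :
    ∃ v : TangentSpace (𝓡 n) x, P.ex x v = y ∧ ‖v‖ = dist x y := by
  obtain ⟨N, hN⟩ := exists_nat_gt (max 1 (2 * dist x y / P.r₀))
  have hN1 : (1 : ℝ) < N := (le_max_left _ _).trans_lt hN
  have hN2 : 2 * dist x y / P.r₀ < N := (le_max_right _ _).trans_lt hN
  have hNpos : (0 : ℝ) < N := by linarith
  have hr := P.r₀_pos
  set δ := dist x y / N with hδ
  have hδ0 : 0 ≤ δ := by positivity
  have hδr : 2 * δ < P.r₀ := by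
    rw [hδ, ← mul_div_assoc, div_lt_iff₀ hNpos]
    rw [div_lt_iff₀ hr] at hN2
    linarith
  have hNδ : N * δ = dist x y := by
    rw [hδ]; field_simp
  -- first point
  obtain ⟨z, hz1, hz2⟩ := hB x y (1 / N) ⟨by positivity,
    (by rw [div_le_one hNpos]; exact hN1.le)⟩
  have hz1' : dist x z = δ := by rw [hz1, hδ]; ring
  have hz2' : dist z y = (N - 1) * δ := by
    rw [hz2, hδ]; field_simp
  obtain ⟨v, hvn, hv⟩ := P.surj_near x z (by rw [hz1']; linarith)
  rw [hz1'] at hvn
  have main : ∀ k : ℕ, k + 1 ≤ N →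
      dist (P.ex x ((k : ℝ) • v)) y = (N - k) * δ ∧
      dist (P.ex x (((k : ℝ) + 1) • v)) y = (N - (k + 1)) * δ := by
    intro k
    induction k with
    | zero =>
      intro _
      refine ⟨?_, ?_⟩
      · simp only [Nat.cast_zero, zero_smul, P.ex_zero, sub_zero]
        exact hNδ.symm
      · simp only [Nat.cast_zero, zero_add, one_smul]
        rw [hv, hz2']
    | succ k ih =>
      intro hk
      obtain ⟨i1, i2⟩ := ih (by omega)
      have hkN : (k : ℝ) + 1 + 1 ≤ N := by exact_mod_cast hk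
      refine ⟨by push_cast; exact i2, ?_⟩
      have hpos : (0 : ℝ) < N - (k + 1) := by linarith
      obtain ⟨q, hq1, hq2⟩ := hB (P.ex x (((k : ℝ) + 1) • v)) y (1 / (N - (k + 1)))
        ⟨by positivity, by rw [div_le_one hpos]; linarith⟩
      rw [i2] at hq1 hq2
      have hq1' : dist (P.ex x (((k : ℝ) + 1) • v)) q = δ := by
        rw [hq1]; field_simp
      have hq2' : dist q y = (N - (k + 1) - 1) * δ := by
        rw [hq2]; field_simp
      have hd1 : dist (P.ex x ((k : ℝ) • v)) (P.ex x (((k : ℝ) + 1) • v)) ≤ δ := by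
        have := P.dist_le x v k (k + 1)
        have e : |(k : ℝ) - (k + 1)| = 1 := by
          rw [show (k : ℝ) - (k + 1) = -1 by ring, abs_neg, abs_one]
        rwa [e, one_mul, hvn] at this
      have hd2 : dist (P.ex x ((k : ℝ) • v)) q = 2 * δ := by
        have t1 := dist_triangle (P.ex x ((k : ℝ) • v)) (P.ex x (((k : ℝ) + 1) • v)) q
        have t2 := dist_triangle (P.ex x ((k : ℝ) • v)) q y
        rw [i1, hq2'] at t2
        apply le_antisymm
        · linarith
        · linarith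
      have hext := geoCore_extend P x v k 1 one_pos (by rw [hvn]; linarith) q
        (by rw [hq1', hvn, one_mul]) (by rw [hd2, hvn]; ring)
      have e2 : ((k + 1 : ℕ) : ℝ) + 1 = (k : ℝ) + 2 * 1 := by push_cast; ring
      rw [e2, ← hext, hq2']
      ring
  obtain ⟨k, rfl⟩ : ∃ k : ℕ, N = k + 1 := by
    refine ⟨N - 1, ?_⟩
    have : 1 < N := by exact_mod_cast hN1
    omega
  obtain ⟨-, hk⟩ := main k le_rfl
  refine ⟨((k : ℝ) + 1) • v, ?_, ?_⟩
  · rw [← dist_eq_zero, hk]
    push_cast
    ring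
  · rw [norm_smul, hvn, Real.norm_of_nonneg (by positivity), ← hNδ]
    push_cast
    ring

end core

end Crest.Agent.R226.HopfRinow114
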