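/-
R226 layer B, task B5 (helper114).
`speedLip : SpeedLip n M`, `minimiserGeodesic : MinimiserGeodesic n M C`,
`injDomain_eq : injDomain n x = {v | ∃ a > 1, dist x (C.ex x (a • v)) = a * ‖v‖}`.
-/
import Crest.Agent.R226.HopfRinow_114

set_option autoImplicit false

open MeasureTheory Bundle Set Filter Manifold
open scoped Manifold ContDiff Bundle ENNReal Topology
open Crest.GeometryTopology.MTW

namespace Crest.Agent.R226.Minimiser114

open Crest.Agent.R226.HopfRinow114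

variable {n : ℕ} {M : Type*} [MetricSpace M] [ChartedSpace (EuclideanSpace ℝ (Fin n)) M]
  [IsManifold (𝓡 n) ∞ M]
  [RiemannianBundle (fun p : M => TangentSpace (𝓡 n) p)]

/-! ### (i) curves of speed `c` are `c`-Lipschitz -/

omit [IsManifold (𝓡 n) ∞ M] in
theorem dist_le_of_speed_le [IsRiemannianManifold (𝓡 n) M] {γ : ℝ → M} {s t c : ℝ} (hst : s ≤ t)
    (hγ : ContMDiffOn 𝓘(ℝ, ℝ) (𝓡 n) 1 γ (Icc s t)) (hc : 0 ≤ c)
    (hs : ∀ τ ∈ Icc s t, ‖curveVel n γ τ‖ ≤ c) : dist (γ s) (γ t) ≤ c * (t - s) := by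
  have h1 : edist (γ s) (γ t) ≤ pathELength (𝓡 n) γ s t := by
    rw [IsRiemannianManifold.out (I := 𝓡 n) (γ s) (γ t)]
    exact riemannianEDist_le_pathELength hγ rfl rfl hst
  have h2 : pathELength (𝓡 n) γ s t ≤ ENNReal.ofReal (c * (t - s)) := by
    rw [pathELength_eq_lintegral_mfderiv_Icc]
    calc ∫⁻ τ in Icc s t, ‖mfderiv 𝓘(ℝ, ℝ) (𝓡 n) γ τ 1‖ₑ
        ≤ ∫⁻ _ in Icc s t, ENNReal.ofReal c := by
          apply setLIntegral_mono' measurableSet_Icc
          intro τ hτ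
          have := hs τ hτ
          rw [← ofReal_norm]
          exact ENNReal.ofReal_le_ofReal this
      _ = ENNReal.ofReal (c * (t - s)) := by
          rw [setLIntegral_const, Real.volume_Icc, ← ENNReal.ofReal_mul hc]
  have h3 := h1.trans h2
  rw [edist_dist, ENNReal.ofReal_le_ofReal_iff (by
    have : 0 ≤ t - s := by linarith
    positivity)] at h3
  exact h3

omit [IsManifold (𝓡 n) ∞ M] in
variable (n) (M) in
/-- task B5i -/
theorem speedLip [IsRiemannianManifold (𝓡 n) M] : SpeedLip n M := by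
  intro γ a c hγ hs
  have main : ∀ s ∈ Icc (0 : ℝ) a, ∀ t ∈ Icc (0 : ℝ) a, s ≤ t →
      dist (γ s) (γ t) ≤ c * (t - s) := by
    intro s hs' t ht' hst
    apply dist_le_of_speed_le hst hγ.contMDiffOn
    · rw [← hs s hs']; exact norm_nonneg _
    · intro τ hτ
      exact (hs τ ⟨hs'.1.trans hτ.1, hτ.2.trans ht'.2⟩).le
  intro s hs' t ht'
  rcases le_total s t with h | h
  · rw [abs_sub_comm, abs_of_nonneg (sub_nonneg.2 h)]
    exact main s hs' t ht' h
  · rw [dist_comm, abs_of_nonneg (sub_nonneg.2 h)]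
    exact main t ht' s hs' h

/-! ### (ii) minimisers are geodesics -/

theorem contMDiff_ex_ray (C : GeoCore n M) (x : M) (v : TangentSpace (𝓡 n) x) :
    ContMDiff 𝓘(ℝ, ℝ) (𝓡 n) ∞ (fun t : ℝ => C.ex x (t • v)) := by
  have h1 : ContMDiff 𝓘(ℝ, ℝ) (𝓡 n).tangent ∞
      (fun t : ℝ => radial C.ex t (⟨x, v⟩ : TangentBundle (𝓡 n) M)) :=
    C.smooth_radial.comp (contMDiff_id.prodMk contMDiff_const)
  exact (contMDiff_proj (TangentSpace (𝓡 n) : M → Type _)).comp h1

omit [IsManifold (𝓡 n) ∞ M] [RiemannianBundle (fun p : M => TangentSpace (𝓡 n) p)] in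
/-- two curves which agree on `[0,b]` and are differentiable at `0` have the same velocity there -/
theorem curveVel_eq_of_eqOn {γ σ : ℝ → M} {b : ℝ} (hb : 0 < b) (h : EqOn γ σ (Icc 0 b))
    (hγ : MDifferentiableAt 𝓘(ℝ, ℝ) (𝓡 n) γ 0) (hσ : MDifferentiableAt 𝓘(ℝ, ℝ) (𝓡 n) σ 0) :
    (curveVel n γ 0 : EuclideanSpace ℝ (Fin n)) = curveVel n σ 0 := by
  have hu : UniqueMDiffWithinAt 𝓘(ℝ, ℝ) (Icc (0 : ℝ) b) 0 := by
    rw [uniqueMDiffWithinAt_iff_uniqueDiffWithinAt]
    exact uniqueDiffOn_Icc hb _ ⟨le_rfl, hb.le⟩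
  have h1 : mfderivWithin 𝓘(ℝ, ℝ) (𝓡 n) γ (Icc 0 b) 0 = mfderiv 𝓘(ℝ, ℝ) (𝓡 n) γ 0 :=
    mfderivWithin_eq_mfderiv hu hγ
  have h2 : mfderivWithin 𝓘(ℝ, ℝ) (𝓡 n) σ (Icc 0 b) 0 = mfderiv 𝓘(ℝ, ℝ) (𝓡 n) σ 0 :=
    mfderivWithin_eq_mfderiv hu hσ
  have h3 : mfderivWithin 𝓘(ℝ, ℝ) (𝓡 n) γ (Icc 0 b) 0 =
      (mfderivWithin 𝓘(ℝ, ℝ) (𝓡 n) σ (Icc 0 b) 0 :) :=
    mfderivWithin_congr (fun t ht => h ht) (h ⟨le_rfl, hb.le⟩)
  unfold curveVel
  rw [← h1, ← h2, h3]
  rfl

/-- task B5ii -/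
theorem minimiserGeodesic (C : GeoCore n M) : MinimiserGeodesic n M C := by
  intro γ a c ha hγ hspeed hdist
  have h0a : (0 : ℝ) ∈ Icc 0 a := ⟨le_rfl, ha.le⟩
  have hc : 0 ≤ c := by rw [← hspeed 0 h0a]; exact norm_nonneg _
  have hr := C.r₀_pos
  set x := γ 0 with hx
  obtain ⟨N, hN⟩ := exists_nat_gt (max 1 (2 * (a * c) / C.r₀))
  have hN1 : (1 : ℝ) < N := (le_max_left _ _).trans_lt hN
  have hN2 : 2 * (a * c) / C.r₀ < N := (le_max_right _ _).trans_lt hN
  have hNpos : (0 : ℝ) < N := by linarith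
  set b := a / N with hb
  have hbpos : 0 < b := by positivity
  have hbr : 2 * b * c < C.r₀ := by
    rw [hb]
    rw [div_lt_iff₀ hr] at hN2
    have : 2 * (a / N) * c = 2 * (a * c) / N := by ring
    rw [this, div_lt_iff₀ hNpos]
    linarith
  have hNb : N * b = a := by rw [hb]; field_simp
  have hba : b ≤ a := by rw [← hNb]; nlinarith
  have hbmem : b ∈ Icc (0 : ℝ) a := ⟨hbpos.le, hba⟩
  have hd0b : dist x (γ b) = c * b := by
    rw [hx, hdist 0 h0a b hbmem, zero_sub, abs_neg, abs_of_pos hbpos]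
  have hbc0 : 0 ≤ b * c := by positivity
  obtain ⟨v₁, hv₁n, hv₁⟩ := C.surj_near x (γ b) (by rw [hd0b]; linarith)
  rw [hd0b] at hv₁n
  set v : TangentSpace (𝓡 n) x := b⁻¹ • v₁ with hv
  have hvn : ‖v‖ = c := by
    rw [hv, norm_smul, hv₁n, Real.norm_of_nonneg (by positivity)]
    field_simp
  have hbv : b • v = v₁ := by
    rw [hv, smul_smul, mul_inv_cancel₀ hbpos.ne', one_smul]
  -- on `[0,b]`
  have hloc : ∀ t ∈ Icc (0 : ℝ) b, γ t = C.ex x (t • v) := by
    intro t ht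
    have hta : t ∈ Icc (0 : ℝ) a := ⟨ht.1, ht.2.trans hba⟩
    rcases eq_or_lt_of_le ht.1 with h | h
    · rw [← h, zero_smul, C.ex_zero]
    rcases eq_or_lt_of_le ht.2 with h' | h'
    · rw [h', hbv, hv₁]
    have e1 : dist x (γ t) = (t / b) * dist x (γ b) := by
      rw [hd0b, hx, hdist 0 h0a t hta, zero_sub, abs_neg, abs_of_pos h]
      field_simp
    have e2 : dist (γ t) (γ b) = (1 - t / b) * dist x (γ b) := by
      rw [hd0b, hdist t hta b hbmem, abs_sub_comm, abs_of_pos (sub_pos.2 h')]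
      field_simp
    have := geoCore_mid_unique C x (γ b) (γ t) (t / b) (by positivity)
      (by rw [div_lt_one hbpos]; exact h') (by rw [hd0b]; linarith) e1 e2 v₁ hv₁
      (by rw [hv₁n]; linarith)
    rw [this, ← hbv, smul_smul]
    congr 2
    field_simp
  -- `v = γ'(0)`
  have hvel : (curveVel n γ 0 : EuclideanSpace ℝ (Fin n)) = v := by
    have h1 := curveVel_eq_of_eqOn (n := n) (γ := γ) (σ := fun t : ℝ => C.ex x (t • v)) hbpos
      (fun t ht => hloc t ht) (hγ.mdifferentiable one_ne_zero 0)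
      ((contMDiff_ex_ray C x v).mdifferentiable (by simp) 0)
    rw [h1]
    exact C.vel_zero x v
  have hvel' : curveVel n γ 0 = v := hvel
  rw [hvel']
  -- induction along the multiples of `b`
  have main : ∀ k : ℕ, k + 1 ≤ N →
      γ (k * b) = C.ex x (((k : ℝ) * b) • v) ∧
      γ ((k + 1) * b) = C.ex x ((((k : ℝ) + 1) * b) • v) := by
    intro k
    induction k with
    | zero =>
      intro _
      refine ⟨?_, ?_⟩
      · simp only [Nat.cast_zero, zero_mul, zero_smul, C.ex_zero]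
        exact hx.symm
      · simp only [Nat.cast_zero, zero_add, one_mul]
        exact hloc b ⟨hbpos.le, le_rfl⟩
    | succ k ih =>
      intro hk
      obtain ⟨i1, i2⟩ := ih (by omega)
      have hkN : (k : ℝ) + 1 + 1 ≤ N := by exact_mod_cast hk
      have hk0 : (0 : ℝ) ≤ k := Nat.cast_nonneg k
      have m0 : (k : ℝ) * b ∈ Icc (0 : ℝ) a := by
        refine ⟨by positivity, ?_⟩
        rw [← hNb]; nlinarith
      have m1 : ((k : ℝ) + 1) * b ∈ Icc (0 : ℝ) a := by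
        refine ⟨by positivity, ?_⟩
        rw [← hNb]; nlinarith
      have m2 : ((k : ℝ) + 1 + 1) * b ∈ Icc (0 : ℝ) a := by
        refine ⟨by positivity, ?_⟩
        rw [← hNb]; nlinarith
      refine ⟨by push_cast; exact i2, ?_⟩
      push_cast
      have hext := geoCore_extend C x v (k * b) b hbpos (by rw [hvn]; exact hbr)
        (γ (((k : ℝ) + 1 + 1) * b))
        (by
          have e : (k : ℝ) * b + b = (k + 1) * b := by ring
          rw [e, ← i2, hdist _ m1 _ m2, hvn,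
            show ((k : ℝ) + 1) * b - (k + 1 + 1) * b = -b by ring, abs_neg, abs_of_pos hbpos]
          ring)
        (by
          rw [← i1, hdist _ m0 _ m2, hvn,
            show (k : ℝ) * b - (k + 1 + 1) * b = -(2 * b) by ring, abs_neg,
            abs_of_pos (by positivity)]
          ring)
      rw [hext]
      congr 2
      ring
  obtain ⟨k, rfl⟩ : ∃ k : ℕ, N = k + 1 := by
    refine ⟨N - 1, ?_⟩
    have : 1 < N := by exact_mod_cast hN1
    omega
  obtain ⟨-, hk⟩ := main k le_rfl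
  have e : ((k : ℝ) + 1) * b = a := by
    rw [← hNb]; push_cast; ring
  rw [e] at hk
  exact hk

/-! ### (iii) the injectivity domain -/

/-- a curve of speed `c` on `[0,a]` whose endpoints are at distance `a c` minimises on subintervals -/
theorem dist_eq_of_minimising {γ : ℝ → M} {a c : ℝ} (ha : 0 ≤ a)
    (hL : ∀ s ∈ Icc (0 : ℝ) a, ∀ t ∈ Icc (0 : ℝ) a, dist (γ s) (γ t) ≤ c * |s - t|)
    (hd : dist (γ 0) (γ a) = a * c) :
    ∀ s ∈ Icc (0 : ℝ) a, ∀ t ∈ Icc (0 : ℝ) a, dist (γ s) (γ t) = c * |s - t| := by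
  have h0a : (0 : ℝ) ∈ Icc 0 a := ⟨le_rfl, ha⟩
  have haa : a ∈ Icc 0 a := ⟨ha, le_rfl⟩
  have main : ∀ s ∈ Icc (0 : ℝ) a, ∀ t ∈ Icc (0 : ℝ) a, s ≤ t →
      c * |s - t| ≤ dist (γ s) (γ t) := by
    intro s hs t ht hst
    have h1 := hL 0 h0a s hs
    have h2 := hL t ht a haa
    rw [zero_sub, abs_neg, abs_of_nonneg hs.1] at h1
    rw [abs_sub_comm, abs_of_nonneg (sub_nonneg.2 ht.2)] at h2
    rw [abs_sub_comm, abs_of_nonneg (sub_nonneg.2 hst)]
    have h3 := dist_triangle4 (γ 0) (γ s) (γ t) (γ a)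
    rw [hd] at h3
    nlinarith
  intro s hs t ht
  refine le_antisymm (hL s hs t ht) ?_
  rcases le_total s t with h | h
  · exact main s hs t ht h
  · rw [dist_comm, abs_sub_comm]
    exact main t ht s hs h

/-- task B5iii: `injDomain` in terms of `ex` -/
theorem injDomain_eq (C : GeoCore n M) (hS : SpeedLip n M) (x : M) : injDomain n x =
    {v : TangentSpace (𝓡 n) x | ∃ a : ℝ, 1 < a ∧ dist x (C.ex x (a • v)) = a * ‖v‖} := by
  ext v
  constructor
  · rintro ⟨a, ha, γ, hγ, hγ0, hv, hs, hd⟩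
    have ha0 : 0 < a := by linarith
    refine ⟨a, ha, ?_⟩
    subst hγ0
    have hL := hS γ a ‖v‖ hγ hs
    have hE := dist_eq_of_minimising ha0.le hL hd
    have h := minimiserGeodesic C γ a ‖v‖ ha0 hγ hs hE
    rw [hv] at h
    rw [← h]
    exact hd
  · rintro ⟨a, ha, hd⟩
    refine ⟨a, ha, fun t => C.ex x (t • v), (contMDiff_ex_ray C x v).of_le (by simp), ?_,
      C.vel_zero x v, fun t _ => C.norm_vel x v t, hd⟩
    simp only [zero_smul, C.ex_zero]

/-- assembly of `GeoData` from `GeoCore` (task B7, modulo `GeoCore`) -/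
def geoData (C : GeoCore n M) (hB : HasBetween M) (hS : SpeedLip n M) : GeoData n M where
  ex := C.ex
  smooth := C.smooth
  ex_zero := C.ex_zero
  vel_zero := C.vel_zero
  norm_vel := C.norm_vel
  flow := C.flow
  dist_le := C.dist_le
  surj := geoCore_surj C hB
  r₀ := C.r₀
  r₀_pos := C.r₀_pos
  dist_eq := C.dist_eq
  inj := C.inj
  smooth_cost := C.smooth_cost
  hasDerivAt_cost := C.hasDerivAt_cost
  injDomain_eq := injDomain_eq C hS

end Crest.Agent.R226.Minimiser114
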