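/-
R226, Layer B, task B1 (helper90): `SmallFlow N`.
-/
import Crest.Agent.R226.SmallFlow2_90
import Crest.Agent.R226.RadialSmooth_542

set_option autoImplicit false
set_option linter.unusedSectionVars false

open MeasureTheory Bundle Set Filter
open scoped Manifold ContDiff Bundle ENNReal Topology
open Crest.GeometryTopology.MTW

namespace Crest.Agent.R226.SmallFlow90

variable {n : ℕ} {M : Type*} [MetricSpace M] [ChartedSpace (EuclideanSpace ℝ (Fin n)) M]
  [IsManifold (𝓡 n) ∞ M]
  [RiemannianBundle (fun p : M => TangentSpace (𝓡 n) p)]
  [IsContMDiffRiemannianBundle (𝓡 n) ∞ (EuclideanSpace ℝ (Fin n))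
    (fun p : M => TangentSpace (𝓡 n) p)]

/-- **(B1)** the local geodesic flow of a `NearDiag`. -/
theorem smallFlow (N : NearDiag n M) : SmallFlow N where
  cont_norm := continuous_normT
  zero := radial_zero N
  norm := radial_norm N
  add := radial_add N
  scale := radial_scale N.e
  smooth := N.contMDiffOn_radial

end Crest.Agent.R226.SmallFlow90
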