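/-
R226 layer B, step B7 (helper542): `NearDiag ⟶ GeoData`.
-/
import Crest.Agent.R226.SmallFlow3_90
import Crest.Agent.R226.GlobalEx_415
import Crest.Agent.R226.HopfRinow_114
import Crest.Agent.R226.Minimiser_114

set_option autoImplicit false

open MeasureTheory Bundle Set
open scoped Manifold ContDiff Bundle ENNReal Topology
open Crest.GeometryTopology.MTW

namespace Crest.Agent.R226.GeoThm542

variable {n : ℕ} {M : Type*} [MetricSpace M] [ChartedSpace (EuclideanSpace ℝ (Fin n)) M]
  [IsManifold (𝓡 n) ∞ M]
  [RiemannianBundle (fun p : M => TangentSpace (𝓡 n) p)]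
  [IsContMDiffRiemannianBundle (𝓡 n) ∞ (EuclideanSpace ℝ (Fin n))
    (fun p : M => TangentSpace (𝓡 n) p)]
  [IsRiemannianManifold (𝓡 n) M] [CompactSpace M]

/-- **Layer B**: the uniform near-diagonal package gives the global geodesic package. -/
theorem nonempty_geoData (N : NearDiag n M) : Nonempty (GeoData n M) := by
  obtain ⟨C⟩ := GlobalEx415.nonempty_geoCore (SmallFlow90.smallFlow N)
  exact ⟨Minimiser114.geoData C (HopfRinow114.hasBetween n M) (Minimiser114.speedLip n M)⟩

end Crest.Agent.R226.GeoThm542
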