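/-
R226 (helper90): the Riemannian gradient in the first variable of a smooth function on `M × M`
is a smooth map into the tangent bundle.
-/
import Crest.Agent.R226.NearLem_90

set_option autoImplicit false
set_option linter.unusedSectionVars false

open MeasureTheory Bundle Set Filter
open scoped Manifold ContDiff Bundle ENNReal Topology
open Crest.GeometryTopology.MTW

namespace Crest.Agent.R226.GradSmooth90

open NearLem90

variable {n : ℕ} {M : Type*} [MetricSpace M] [ChartedSpace (EuclideanSpace ℝ (Fin n)) M]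
  [IsManifold (𝓡 n) ∞ M]
  [RiemannianBundle (fun p : M => TangentSpace (𝓡 n) p)]
  [IsContMDiffRiemannianBundle (𝓡 n) ∞ (EuclideanSpace ℝ (Fin n))
    (fun p : M => TangentSpace (𝓡 n) p)]

local notation "𝔼" => EuclideanSpace ℝ (Fin n)

/-- smoothness of the gradient in the first variable -/
theorem contMDiffAt_gradX {f : M × M → ℝ} {q₀ : M × M}
    (hf : ContMDiffAt ((𝓡 n).prod (𝓡 n)) 𝓘(ℝ) ∞ f q₀)
    {w : ∀ q : M × M, TangentSpace (𝓡 n) q.1}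
    (hw : ∀ᶠ q in 𝓝 q₀, ∀ ξ : TangentSpace (𝓡 n) q.1,
      inner ℝ (w q) ξ = dL n (fun x' => f (x', q.2)) q.1 ξ) :
    ContMDiffAt ((𝓡 n).prod (𝓡 n)) (𝓡 n).tangent ∞
      (fun q => (⟨q.1, w q⟩ : TangentBundle (𝓡 n) M)) q₀ := by
  obtain ⟨g, g_smooth, hg⟩ := IsContMDiffRiemannianBundle.exists_contMDiff (IB := 𝓡 n) (n := ∞)
    (F := EuclideanSpace ℝ (Fin n)) (E := fun p : M => TangentSpace (𝓡 n) p)
  rw [contMDiffAt_totalSpace]
  refine ⟨contMDiffAt_fst, ?_⟩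
  have hgt := (contMDiffAt_hom_bundle _).1 (g_smooth q₀.1)
  set gt : M → 𝔼 →L[ℝ] 𝔼 →L[ℝ] ℝ := fun x =>
    ContinuousLinearMap.inCoordinates 𝔼 (fun p : M => TangentSpace (𝓡 n) p) (𝔼 →L[ℝ] ℝ)
      (fun p : M => TangentSpace (𝓡 n) p →L[ℝ] ℝ) q₀.1 x q₀.1 x (g x) with hgtdef
  have hgt2 : ContMDiffAt (𝓡 n) 𝓘(ℝ, 𝔼 →L[ℝ] 𝔼 →L[ℝ] ℝ) ∞ gt q₀.1 := hgt.2
  have hα := ContMDiffAt.mfderiv (I := 𝓡 n) (I' := 𝓘(ℝ)) (J := (𝓡 n).prod (𝓡 n)) (m := ∞)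
    (n := ∞) (x₀ := q₀) (fun (q : M × M) (x' : M) => f (x', q.2)) (fun q => q.1)
    (ContMDiffAt.comp (q₀, q₀.1) (g := f) (f := fun r : (M × M) × M => (r.2, r.1.2)) hf
      (contMDiffAt_snd.prodMk (contMDiffAt_snd.comp _ contMDiffAt_fst))) contMDiffAt_fst (by simp)
  set α : M × M → 𝔼 →L[ℝ] ℝ := inTangentCoordinates (𝓡 n) 𝓘(ℝ) (fun q : M × M => q.1)
    (fun q : M × M => f (q.1, q.2))
    (fun q : M × M => mfderiv (𝓡 n) 𝓘(ℝ) (fun x' => f (x', q.2)) q.1) q₀ with hαdef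
  have hα' : ContMDiffAt ((𝓡 n).prod (𝓡 n)) 𝓘(ℝ, 𝔼 →L[ℝ] ℝ) ∞ α q₀ := hα
  set T := trivializationAt 𝔼 (fun p : M => TangentSpace (𝓡 n) p) q₀.1 with hT
  have hbase : q₀.1 ∈ T.baseSet := mem_baseSet_trivializationAt _ _ _
  -- the metric in coordinates
  have hgt_apply : ∀ x ∈ T.baseSet, ∀ u v : 𝔼, gt x u v = inner ℝ (T.symm x u) (T.symm x v) := by
    intro x hx u v
    have h1 := inCoordinates_apply_eq₂ (F₁ := 𝔼) (E₁ := fun p : M => TangentSpace (𝓡 n) p)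
      (F₂ := 𝔼) (E₂ := fun p : M => TangentSpace (𝓡 n) p) (F₃ := ℝ) (E₃ := fun _ : M => ℝ)
      (x₀ := q₀.1) (x := x) (ϕ := g x) (v := u) (w := v) hx hx (by simp)
    rw [hg]
    refine h1.trans ?_
    simp only [Bundle.Trivial.fiberBundle_trivializationAt', Bundle.Trivial.linearMapAt_trivialization,
        LinearMap.id_coe, id_eq]
    rfl
  have hα_apply : ∀ q : M × M, q.1 ∈ T.baseSet → ∀ v : 𝔼,
      α q v = dL n (fun x' => f (x', q.2)) q.1 (T.symm q.1 v) := by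
    intro q hq v
    have h1 : α q = ((trivializationAt ℝ (TangentSpace 𝓘(ℝ, ℝ)) (f (q₀.1, q₀.2))).continuousLinearMapAt
        ℝ (f (q.1, q.2))).comp ((dL n (fun x' => f (x', q.2)) q.1).comp (T.symmL ℝ q.1)) := rfl
    rw [h1, TangentBundle.continuousLinearMapAt_model_space, ← T.symmL_apply (R := ℝ) hq]
    rfl
  -- base set is a neighbourhood
  have hnhds : ∀ᶠ q in 𝓝 q₀, q.1 ∈ T.baseSet :=
    continuousAt_fst.eventually (T.open_baseSet.mem_nhds hbase)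
  -- injectivity of the metric
  have hinj : ∀ x ∈ T.baseSet, Function.Injective (gt x) := by
    intro x hx
    refine (injective_iff_map_eq_zero (gt x)).2 ?_
    intro u hu
    have h1 := hgt_apply x hx u u
    rw [hu] at h1
    have h2 : T.symm x u = 0 := by
      have : inner ℝ (T.symm x u) (T.symm x u) = 0 := h1.symm
      exact inner_self_eq_zero.1 this
    have h3 : T.symmL ℝ x u = 0 := (T.symmL_apply (R := ℝ) hx u).trans h2
    have h4 := T.continuousLinearMapAt_symmL (R := ℝ) hx u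
    rw [h3, map_zero] at h4
    exact h4.symm
  have hequiv : ∀ x ∈ T.baseSet, ∃ e : 𝔼 ≃L[ℝ] (𝔼 →L[ℝ] ℝ), (e : 𝔼 →L[ℝ] (𝔼 →L[ℝ] ℝ)) = gt x := by
    intro x hx
    have hfr : Module.finrank ℝ 𝔼 = Module.finrank ℝ (𝔼 →L[ℝ] ℝ) :=
      LinearEquiv.finrank_eq (InnerProductSpace.toDual ℝ 𝔼).toLinearEquiv
    have hker : LinearMap.ker (gt x : 𝔼 →ₗ[ℝ] (𝔼 →L[ℝ] ℝ)) = ⊥ :=
      LinearMap.ker_eq_bot.2 (hinj x hx)
    let e := (LinearEquiv.ofInjectiveOfFinrankEq (gt x : 𝔼 →ₗ[ℝ] (𝔼 →L[ℝ] ℝ)) (hinj x hx) hfr)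
    refine ⟨e.toContinuousLinearEquiv, ?_⟩
    ext u v
    rfl
  -- the formula in coordinates
  have hform : ∀ᶠ q in 𝓝 q₀, (T ⟨q.1, w q⟩).2 = (gt q.1).inverse (α q) := by
    filter_upwards [hnhds, hw] with q hq hwq
    obtain ⟨e, he⟩ := hequiv q.1 hq
    have h1 : α q = gt q.1 (T ⟨q.1, w q⟩).2 := by
      ext v
      rw [hα_apply q hq v, hgt_apply q.1 hq, ← hwq]
      congr 1
      exact (T.symm_apply_apply_mk hq (w q)).symm
    rw [h1, ← he, ContinuousLinearMap.inverse_equiv]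
    exact (e.symm_apply_apply _).symm
  refine ContMDiffAt.congr_of_eventuallyEq ?_ hform
  obtain ⟨e, he⟩ := hequiv q₀.1 hbase
  have hinv : ContMDiffAt ((𝓡 n).prod (𝓡 n)) 𝓘(ℝ, (𝔼 →L[ℝ] ℝ) →L[ℝ] 𝔼) ∞
      (fun q : M × M => (gt q.1).inverse) q₀ := by
    have h1 : ContMDiffAt ((𝓡 n).prod (𝓡 n)) 𝓘(ℝ, 𝔼 →L[ℝ] 𝔼 →L[ℝ] ℝ) ∞
        (fun q : M × M => gt q.1) q₀ := ContMDiffAt.comp q₀ hgt2 contMDiffAt_fst
    have h2 : ContDiffAt ℝ ∞ (ContinuousLinearMap.inverse :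
        (𝔼 →L[ℝ] 𝔼 →L[ℝ] ℝ) → ((𝔼 →L[ℝ] ℝ) →L[ℝ] 𝔼)) (gt q₀.1) := by
      rw [← he]; exact contDiffAt_map_inverse e
    exact ContMDiffAt.comp q₀ (h2.contMDiffAt) h1
  exact hinv.clm_apply hα'

end Crest.Agent.R226.GradSmooth90
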