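/-
R226 (helper413), leaf L7: the sup-functional iteration of doc 1855 (2) (helper847), abstract form.

States `w : ι` with a size `A w h` and a volume `V w h`, both nondecreasing in the level `h`.
If for every `B` and `δm > 0` there are `δ ≤ δm` and `C1` such that at every state `w₀` without
growth and with the row bound there is a state `w` with `A w (K h) ≥ (1-δ) A w₀ h - C1 h` and
`V w (K h) ≥ B V w₀ h`, then `A w h ≤ C h ^ g` for all states.
-/
import Mathlib.Analysis.SpecialFunctions.Pow.Real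
import Mathlib.Analysis.SpecialFunctions.Log.Basic
import Mathlib.Tactic

set_option autoImplicit false
set_option linter.unusedVariables false

open Set Filter

namespace Crest.Agent.R226.SupIter413

section

variable {ι : Type*}

/-- iteration of `Ψ h ≤ max (q⁻¹ Ψ (K h)) (C h)`. -/
theorem iter_decay {Ψ : ℝ → ℝ} {K q C1 B g : ℝ} (hK : 1 < K) (hq : 1 < q) (hB : 0 ≤ B)
    (hC1 : 0 ≤ C1) (hb : ∀ h, 0 < h → Ψ h ≤ B) (hg0 : 0 < g) (hg1 : g ≤ 1) (hg : K ^ g ≤ q)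
    (h0 : 0 < (1 : ℝ) / K)
    (hstep : ∀ h, 0 < h → K * h ≤ 1 → q * Ψ h ≤ Ψ (K * h) ∨ Ψ h ≤ C1 * h) :
    ∀ h, 0 < h → h ≤ 1 → Ψ h ≤ (B * K + C1) * h ^ g := by
  have hK0 : 0 < K := by linarith
  have main : ∀ k : ℕ, ∀ h, 0 < h → h ≤ 1 → 1 < K ^ (k + 1) * h → Ψ h ≤ (B * K + C1) * h ^ g := by
    intro k
    induction k with
    | zero =>
      intro h hh h1 hk
      rw [zero_add, pow_one] at hk
      have hKg : (1 : ℝ) / K ≤ h := by
        rw [div_le_iff₀ hK0]; linarith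
      have h2 : (1 / K : ℝ) ≤ h ^ g := by
        calc (1 / K : ℝ) ≤ h := hKg
          _ = h ^ (1 : ℝ) := (Real.rpow_one h).symm
          _ ≤ h ^ g := Real.rpow_le_rpow_of_exponent_ge hh h1 hg1
      calc Ψ h ≤ B := hb h hh
        _ = B * K * (1 / K) := by field_simp
        _ ≤ B * K * h ^ g := by gcongr
        _ ≤ (B * K + C1) * h ^ g := by
            have : 0 ≤ h ^ g := Real.rpow_nonneg hh.le g
            nlinarith
    | succ k ih =>
      intro h hh h1 hk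
      have hhg : 0 ≤ h ^ g := Real.rpow_nonneg hh.le g
      by_cases hKh : K * h ≤ 1
      · rcases hstep h hh hKh with h3 | h3
        · have h4 := ih (K * h) (by positivity) hKh (by
            calc (1 : ℝ) < K ^ (k + 1 + 1) * h := hk
              _ = K ^ (k + 1) * (K * h) := by ring)
          rw [Real.mul_rpow hK0.le hh.le] at h4
          have h5 : q * Ψ h ≤ q * ((B * K + C1) * h ^ g) := by
            calc q * Ψ h ≤ Ψ (K * h) := h3
              _ ≤ (B * K + C1) * (K ^ g * h ^ g) := h4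
              _ ≤ (B * K + C1) * (q * h ^ g) := by gcongr
              _ = q * ((B * K + C1) * h ^ g) := by ring
          exact le_of_mul_le_mul_left h5 (by linarith)
        · have h2 : h ≤ h ^ g := by
            calc h = h ^ (1 : ℝ) := (Real.rpow_one h).symm
              _ ≤ h ^ g := Real.rpow_le_rpow_of_exponent_ge hh h1 hg1
          calc Ψ h ≤ C1 * h := h3
            _ ≤ C1 * h ^ g := by gcongr
            _ ≤ (B * K + C1) * h ^ g := by
                have : 0 ≤ B * K := by positivity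
                nlinarith
      · push Not at hKh
        -- same as the base case
        have hKg : (1 : ℝ) / K ≤ h := by
          rw [div_le_iff₀ hK0]; linarith
        have h2 : (1 / K : ℝ) ≤ h ^ g := by
          calc (1 / K : ℝ) ≤ h := hKg
            _ = h ^ (1 : ℝ) := (Real.rpow_one h).symm
            _ ≤ h ^ g := Real.rpow_le_rpow_of_exponent_ge hh h1 hg1
        calc Ψ h ≤ B := hb h hh
          _ = B * K * (1 / K) := by field_simp
          _ ≤ B * K * h ^ g := by gcongr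
          _ ≤ (B * K + C1) * h ^ g := by nlinarith
  intro h hh h1
  obtain ⟨k, hk⟩ := pow_unbounded_of_one_lt (1 / h) hK
  refine main k h hh h1 ?_
  rw [div_lt_iff₀ hh] at hk
  calc (1 : ℝ) < K ^ k * h := hk
    _ ≤ K ^ (k + 1) * h := by
        gcongr
        · exact hK.le
        · omega

/-- **sup-functional iteration**, with the numerical conditions as hypotheses. -/
theorem sup_iter_num [Nonempty ι] {A V : ι → ℝ → ℝ} {d : ℕ} {A1 V1 c0 K c δ C1 M ε δ' g : ℝ}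
    (hK : 1 < K) (hA1 : 0 ≤ A1) (hV1 : 0 ≤ V1) (hc0 : 0 < c0) (hc : 0 < c) (hδ : 0 < δ)
    (hC1 : 0 < C1) (hM : 0 < M) (hε : 0 < ε) (hδ' : 0 < δ')
    (hA0 : ∀ w h, 0 < h → 0 ≤ A w h) (hAb : ∀ w h, 0 < h → A w h ≤ A1)
    (hVb : ∀ w h, 0 < h → V w h ≤ V1)
    (hVmono : ∀ w h h', 0 < h → h ≤ h' → V w h ≤ V w h')
    (hAmono : ∀ w h h', 0 < h → h ≤ h' → A w h ≤ A w h')
    (hVlow : ∀ w h, 0 < h → h ≤ 1 → c0 * h ^ d ≤ V w h)
    (hN1 : (1 + δ') ^ 2 ≤ 1 + δ) (hN2 : (1 + δ') ^ 2 ≤ 2 * c ^ ε)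
    (hN3 : (1 + δ') ^ 2 < (1 - 2 * δ) * M ^ ε)
    (hg0 : 0 < g) (hg1 : g ≤ 1) (hN4 : K ^ g ≤ 1 + δ')
    (hD : ∀ w₀ h, 0 < h → K * h ≤ 1 → C1 * h ≤ A w₀ h → A w₀ (K * h) ≤ (1 + δ) * A w₀ h →
      (∀ w, c * V w₀ h ≤ V w (K * h) → A w (K * h) ≤ 2 * A w₀ h) →
      ∃ w, (1 - 2 * δ) * A w₀ h ≤ A w (K * h) ∧ M * V w₀ h ≤ V w (K * h)) :
    ∃ C : ℝ, 0 < C ∧ ∀ w h, 0 < h → h ≤ 1 → A w h * V w h ^ ε ≤ C * h ^ g := by
  classical
  have hK0 : 0 < K := by linarith
  have hVpos : ∀ w h, 0 < h → h ≤ 1 → 0 < V w h := fun w h hh h1 =>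
    lt_of_lt_of_le (by positivity) (hVlow w h hh h1)
  have hVnn : ∀ w h, 0 < h → 0 ≤ V w h := by
    intro w h hh
    have h1 : 0 < min h 1 := lt_min hh one_pos
    exact (hVpos w (min h 1) h1 (min_le_right _ _)).le.trans (hVmono w _ _ h1 (min_le_left _ _))
  set Ψ : ℝ → ℝ := fun h => ⨆ w, A w h * V w h ^ ε with hΨ
  have hterm : ∀ w h, 0 < h → A w h * V w h ^ ε ≤ A1 * V1 ^ ε := by
    intro w h hh
    have h1 := hA0 w h hh
    have h2 := hAb w h hh
    have h3 : V w h ^ ε ≤ V1 ^ ε := Real.rpow_le_rpow (hVnn w h hh) (hVb w h hh) hε.le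
    have h4 : 0 ≤ V w h ^ ε := Real.rpow_nonneg (hVnn w h hh) _
    exact mul_le_mul h2 h3 h4 hA1
  have hbdd : ∀ h, 0 < h → BddAbove (range fun w => A w h * V w h ^ ε) := by
    intro h hh
    exact ⟨A1 * V1 ^ ε, by rintro _ ⟨w, rfl⟩; exact hterm w h hh⟩
  have hle : ∀ w h, 0 < h → A w h * V w h ^ ε ≤ Ψ h := fun w h hh => le_ciSup (hbdd h hh) w
  have hΨ0 : ∀ h, 0 < h → 0 ≤ Ψ h := by
    intro h hh
    obtain ⟨w⟩ := ‹Nonempty ι›
    exact (mul_nonneg (hA0 w h hh) (Real.rpow_nonneg (hVnn w h hh) _)).trans (hle w h hh)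
  have hΨb : ∀ h, 0 < h → Ψ h ≤ A1 * V1 ^ ε := fun h hh => ciSup_le fun w => hterm w h hh
  have hstep : ∀ h, 0 < h → K * h ≤ 1 → (1 + δ') * Ψ h ≤ Ψ (K * h) ∨
      Ψ h ≤ ((1 + δ') * (C1 * V1 ^ ε)) * h := by
    intro h hh hKh
    have hKh0 : 0 < K * h := by positivity
    have hh1 : h ≤ 1 := by nlinarith
    by_contra hcon
    push Not at hcon
    obtain ⟨hc1, hc2⟩ := hcon
    have hΨpos : 0 < Ψ h := lt_of_le_of_lt (by positivity) hc2
    -- a near maximiser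
    obtain ⟨w₀, hw₀⟩ : ∃ w, Ψ h / (1 + δ') < A w h * V w h ^ ε := by
      apply exists_lt_of_lt_ciSup
      rw [div_lt_iff₀ (by positivity)]
      show Ψ h < Ψ h * (1 + δ')
      nlinarith
    rw [div_lt_iff₀ (by positivity)] at hw₀
    set a := A w₀ h with ha
    set v := V w₀ h with hv
    have ha0 : 0 ≤ a := hA0 w₀ h hh
    have hv0 : 0 < v := hVpos w₀ h hh hh1
    have hvε : 0 < v ^ ε := Real.rpow_pos_of_pos hv0 ε
    have haC : C1 * h ≤ a := by
      by_contra hlt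
      push Not at hlt
      have h5 : a * v ^ ε ≤ C1 * h * V1 ^ ε := by
        have : v ^ ε ≤ V1 ^ ε := Real.rpow_le_rpow hv0.le (hVb w₀ h hh) hε.le
        exact mul_le_mul hlt.le this hvε.le (by positivity)
      have : Ψ h < ((1 + δ') * (C1 * V1 ^ ε)) * h := by
        calc Ψ h < a * v ^ ε * (1 + δ') := hw₀
          _ ≤ C1 * h * V1 ^ ε * (1 + δ') := by gcongr
          _ = ((1 + δ') * (C1 * V1 ^ ε)) * h := by ring
      linarith
    have hapos : 0 < a := lt_of_lt_of_le (by positivity) haC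
    -- every state at level `K h` is controlled
    have hall : ∀ w, A w (K * h) * V w (K * h) ^ ε < (1 + δ') ^ 2 * (a * v ^ ε) := by
      intro w
      calc A w (K * h) * V w (K * h) ^ ε ≤ Ψ (K * h) := hle w _ hKh0
        _ < (1 + δ') * Ψ h := hc1
        _ ≤ (1 + δ') * (a * v ^ ε * (1 + δ')) := by gcongr
        _ = (1 + δ') ^ 2 * (a * v ^ ε) := by ring
    have hgr : A w₀ (K * h) ≤ (1 + δ) * a := by
      have h6 := hall w₀
      have h7 : v ^ ε ≤ V w₀ (K * h) ^ ε :=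
        Real.rpow_le_rpow hv0.le (hVmono w₀ _ _ hh (by nlinarith)) hε.le
      have h8 : A w₀ (K * h) * v ^ ε ≤ ((1 + δ) * a) * v ^ ε := by
        calc A w₀ (K * h) * v ^ ε ≤ A w₀ (K * h) * V w₀ (K * h) ^ ε := by
              gcongr
              exact hA0 w₀ _ hKh0
          _ ≤ (1 + δ') ^ 2 * (a * v ^ ε) := h6.le
          _ ≤ (1 + δ) * (a * v ^ ε) := by gcongr
          _ = ((1 + δ) * a) * v ^ ε := by ring
      exact le_of_mul_le_mul_right h8 hvε
    have hrow : ∀ w, c * v ≤ V w (K * h) → A w (K * h) ≤ 2 * a := by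
      intro w hw
      have h6 := hall w
      have h7 : c ^ ε * v ^ ε ≤ V w (K * h) ^ ε := by
        rw [← Real.mul_rpow hc.le hv0.le]
        exact Real.rpow_le_rpow (by positivity) hw hε.le
      have hcε : 0 < c ^ ε := Real.rpow_pos_of_pos hc ε
      have h8 : A w (K * h) * (c ^ ε * v ^ ε) ≤ (2 * a) * (c ^ ε * v ^ ε) := by
        calc A w (K * h) * (c ^ ε * v ^ ε) ≤ A w (K * h) * V w (K * h) ^ ε := by
              gcongr
              exact hA0 w _ hKh0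
          _ ≤ (1 + δ') ^ 2 * (a * v ^ ε) := h6.le
          _ ≤ (2 * c ^ ε) * (a * v ^ ε) := by gcongr
          _ = (2 * a) * (c ^ ε * v ^ ε) := by ring
      exact le_of_mul_le_mul_right h8 (by positivity)
    obtain ⟨w, hw1, hw2⟩ := hD w₀ h hh hKh haC hgr hrow
    have h6 := hall w
    have hMε : 0 < M ^ ε := Real.rpow_pos_of_pos hM ε
    have h2δ : 0 < 1 - 2 * δ := by
      by_contra hn
      push Not at hn
      have : (1 - 2 * δ) * M ^ ε ≤ 0 := mul_nonpos_of_nonpos_of_nonneg hn hMε.le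
      have : 0 < (1 + δ') ^ 2 := by positivity
      linarith
    have h7 : M ^ ε * v ^ ε ≤ V w (K * h) ^ ε := by
      rw [← Real.mul_rpow hM.le hv0.le]
      exact Real.rpow_le_rpow (by positivity) hw2 hε.le
    have h8 : ((1 - 2 * δ) * a) * (M ^ ε * v ^ ε) ≤ A w (K * h) * V w (K * h) ^ ε :=
      mul_le_mul hw1 h7 (by positivity) (hA0 w _ hKh0)
    have h9 : (1 + δ') ^ 2 * (a * v ^ ε) < ((1 - 2 * δ) * M ^ ε) * (a * v ^ ε) := by
      apply mul_lt_mul_of_pos_right hN3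
      positivity
    have h10 : ((1 - 2 * δ) * M ^ ε) * (a * v ^ ε) = ((1 - 2 * δ) * a) * (M ^ ε * v ^ ε) := by ring
    linarith
  have hV1ε : 0 ≤ V1 ^ ε := Real.rpow_nonneg hV1 ε
  have hfin := iter_decay (Ψ := Ψ) (K := K) (q := 1 + δ') (C1 := (1 + δ') * (C1 * V1 ^ ε))
    (B := A1 * V1 ^ ε) (g := g) hK (by linarith) (by positivity) (by positivity) hΨb hg0 hg1 hN4
    (by positivity) hstep
  refine ⟨A1 * V1 ^ ε * K + (1 + δ') * (C1 * V1 ^ ε) + 1, by positivity, ?_⟩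
  intro w h hh h1
  have hhg : 0 ≤ h ^ g := Real.rpow_nonneg hh.le g
  calc A w h * V w h ^ ε ≤ Ψ h := hle w h hh
    _ ≤ (A1 * V1 ^ ε * K + (1 + δ') * (C1 * V1 ^ ε)) * h ^ g := hfin h hh h1
    _ ≤ _ := by nlinarith


/-- exponent bookkeeping for `sup_iter`. -/
theorem exp_half_le {x : ℝ} (h0 : 0 ≤ x) (h1 : x ≤ 1) : Real.exp (x / 2) ≤ 1 + x := by
  have h2 : 1 - x / 2 ≤ Real.exp (-(x / 2)) := by
    have := Real.add_one_le_exp (-(x / 2))
    linarith
  have h3 : 0 < 1 - x / 2 := by linarith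
  have h4 : Real.exp (x / 2) * (1 - x / 2) ≤ 1 := by
    calc Real.exp (x / 2) * (1 - x / 2) ≤ Real.exp (x / 2) * Real.exp (-(x / 2)) := by
          gcongr
      _ = 1 := by rw [← Real.exp_add]; simp
  have h5 : 1 ≤ (1 + x) * (1 - x / 2) := by nlinarith
  have h6 : Real.exp (x / 2) * (1 - x / 2) ≤ (1 + x) * (1 - x / 2) := h4.trans h5
  exact le_of_mul_le_mul_right h6 h3

/-- **L7, sup-functional iteration** (helper847's functional `Ψ h = sup A V^ε`). -/
theorem sup_iter [Nonempty ι] {A V : ι → ℝ → ℝ} {d : ℕ} {A1 V1 c0 K c : ℝ}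
    (hK : 1 < K) (hA1 : 0 ≤ A1) (hV1 : 0 ≤ V1) (hc0 : 0 < c0) (hc : 0 < c)
    (hA0 : ∀ w h, 0 < h → 0 ≤ A w h) (hAb : ∀ w h, 0 < h → A w h ≤ A1)
    (hVb : ∀ w h, 0 < h → V w h ≤ V1)
    (hVmono : ∀ w h h', 0 < h → h ≤ h' → V w h ≤ V w h')
    (hAmono : ∀ w h h', 0 < h → h ≤ h' → A w h ≤ A w h')
    (hVlow : ∀ w h, 0 < h → h ≤ 1 → c0 * h ^ d ≤ V w h)
    (hD : ∀ B δm : ℝ, 0 < B → 0 < δm → ∃ δ C1 : ℝ, 0 < δ ∧ δ ≤ δm ∧ 0 < C1 ∧
      ∀ w₀ h, 0 < h → K * h ≤ 1 → C1 * h ≤ A w₀ h → A w₀ (K * h) ≤ (1 + δ) * A w₀ h →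
        (∀ w, c * V w₀ h ≤ V w (K * h) → A w (K * h) ≤ 2 * A w₀ h) →
        ∃ w, (1 - 2 * δ) * A w₀ h ≤ A w (K * h) ∧ B * V w₀ h ≤ V w (K * h)) :
    ∃ C g : ℝ, 0 < C ∧ 0 < g ∧ g ≤ 1 ∧ ∀ w h, 0 < h → h ≤ 1 → A w h ≤ C * h ^ g := by
  have hK0 : 0 < K := by linarith
  have hlK : 0 < Real.log K := Real.log_pos hK
  set L : ℝ := |Real.log c| with hL
  have hL0 : 0 ≤ L := abs_nonneg _
  set D : ℝ := (d : ℝ) + 1 with hDdef
  have hD1 : 1 ≤ D := by rw [hDdef]; have : (0 : ℝ) ≤ d := Nat.cast_nonneg d; linarith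
  set δm : ℝ := min (min (1 / 8) (8 * Real.log K)) (4 * D * Real.log K / (L + 1)) with hδm
  have hδm0 : 0 < δm := by
    rw [hδm]
    refine lt_min (lt_min (by norm_num) (by positivity)) (by positivity)
  obtain ⟨δ, C1, hδ0, hδle, hC1, H⟩ := hD (K ^ (96 * D)) δm (Real.rpow_pos_of_pos hK0 _) hδm0
  have hδ1 : δ ≤ 1 / 8 := hδle.trans ((min_le_left _ _).trans (min_le_left _ _))
  have hδ2 : δ ≤ 8 * Real.log K := hδle.trans ((min_le_left _ _).trans (min_le_right _ _))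
  have hδ3 : δ ≤ 4 * D * Real.log K / (L + 1) := hδle.trans (min_le_right _ _)
  set δ' : ℝ := δ / 4 with hδ'
  set ε : ℝ := δ / (16 * D * Real.log K) with hε
  set g : ℝ := δ / (8 * Real.log K) with hg
  have hε0 : 0 < ε := by positivity
  have hg0 : 0 < g := by positivity
  have hN1 : (1 + δ') ^ 2 ≤ 1 + δ := by rw [hδ']; nlinarith
  have hεL : ε * L ≤ 1 / 4 := by
    have h1 : δ * (L + 1) ≤ 4 * D * Real.log K := by
      rw [le_div_iff₀ (by positivity)] at hδ3; exact hδ3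
    have h2 : δ * L ≤ 4 * D * Real.log K := by nlinarith
    calc ε * L = (δ * L) / (16 * D * Real.log K) := by rw [hε]; ring
      _ ≤ (4 * D * Real.log K) / (16 * D * Real.log K) := by gcongr
      _ = 1 / 4 := by field_simp; norm_num
  have hcε : 3 / 4 ≤ c ^ ε := by
    rw [Real.rpow_def_of_pos hc]
    have h1 : -(1 / 4 : ℝ) ≤ Real.log c * ε := by
      have : |Real.log c * ε| ≤ 1 / 4 := by
        rw [abs_mul, abs_of_pos hε0, mul_comm]; exact hεL
      exact (abs_le.1 this).1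
    have h2 := Real.add_one_le_exp (Real.log c * ε)
    linarith
  have hN2 : (1 + δ') ^ 2 ≤ 2 * c ^ ε := by
    have : (1 + δ') ^ 2 ≤ 3 / 2 := by rw [hδ']; nlinarith
    linarith
  have hMε : 1 + 6 * δ ≤ (K ^ (96 * D)) ^ ε := by
    rw [← Real.rpow_mul hK0.le, Real.rpow_def_of_pos hK0]
    have h1 : Real.log K * (96 * D * ε) = 6 * δ := by
      rw [hε]; field_simp; norm_num
    rw [h1]
    have := Real.add_one_le_exp (6 * δ)
    linarith
  have hN3 : (1 + δ') ^ 2 < (1 - 2 * δ) * (K ^ (96 * D)) ^ ε := by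
    have h1 : (1 - 2 * δ) * (1 + 6 * δ) ≤ (1 - 2 * δ) * (K ^ (96 * D)) ^ ε := by
      apply mul_le_mul_of_nonneg_left hMε
      linarith
    have h2 : (1 + δ') ^ 2 < (1 - 2 * δ) * (1 + 6 * δ) := by
      have h3 : (1 - 2 * δ) * (1 + 6 * δ) = 1 + 4 * δ - 12 * δ ^ 2 := by ring
      rw [h3]
      nlinarith
    linarith
  have hg1 : g ≤ 1 := by
    rw [hg, div_le_one (by positivity)]; exact hδ2
  have hN4 : K ^ g ≤ 1 + δ' := by
    rw [Real.rpow_def_of_pos hK0]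
    have h1 : Real.log K * g = δ' / 2 := by
      rw [hg, hδ']; field_simp; norm_num
    rw [h1]
    exact exp_half_le (by positivity) (by rw [hδ']; linarith)
  obtain ⟨C, hC, hCC⟩ := sup_iter_num (ι := ι) (A := A) (V := V) (d := d) (A1 := A1) (V1 := V1)
    (c0 := c0) (K := K) (c := c) (δ := δ) (C1 := C1) (M := K ^ (96 * D)) (ε := ε) (δ' := δ')
    (g := g) hK hA1 hV1 hc0 hc hδ0 hC1 (Real.rpow_pos_of_pos hK0 _) hε0 (by positivity)
    hA0 hAb hVb hVmono hAmono hVlow hN1 hN2 hN3 hg0 hg1 hN4 H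
  have hdε : d * ε ≤ g / 2 := by
    have h1 : (d : ℝ) ≤ D := by rw [hDdef]; linarith
    calc d * ε ≤ D * ε := by gcongr
      _ = g / 2 := by rw [hε, hg]; field_simp; norm_num
  refine ⟨C / c0 ^ ε, g / 2, by positivity, by positivity, by linarith, ?_⟩
  intro w h hh h1
  have h2 := hCC w h hh h1
  have h3 := hVlow w h hh h1
  have h4 : c0 ^ ε * h ^ (g / 2) ≤ V w h ^ ε := by
    calc c0 ^ ε * h ^ (g / 2) ≤ c0 ^ ε * h ^ (d * ε) := by
          gcongr ?_ * ?_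
          exact Real.rpow_le_rpow_of_exponent_ge hh h1 hdε
      _ = (c0 * h ^ d) ^ ε := by
          rw [Real.mul_rpow hc0.le (by positivity), ← Real.rpow_natCast h d, ← Real.rpow_mul hh.le]
      _ ≤ V w h ^ ε := Real.rpow_le_rpow (by positivity) h3 hε0.le
  have hc0ε : 0 < c0 ^ ε := Real.rpow_pos_of_pos hc0 ε
  have hhg : 0 < h ^ (g / 2) := Real.rpow_pos_of_pos hh _
  have h5 : A w h * (c0 ^ ε * h ^ (g / 2)) ≤ C / c0 ^ ε * h ^ (g / 2) * (c0 ^ ε * h ^ (g / 2)) := by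
    calc A w h * (c0 ^ ε * h ^ (g / 2)) ≤ A w h * V w h ^ ε := by
          gcongr
          exact hA0 w h hh
      _ ≤ C * h ^ g := h2
      _ = C / c0 ^ ε * h ^ (g / 2) * (c0 ^ ε * h ^ (g / 2)) := by
          have : h ^ g = h ^ (g / 2) * h ^ (g / 2) := by
            rw [← Real.rpow_add hh]; ring_nf
          rw [this]
          field_simp
  exact le_of_mul_le_mul_right h5 (by positivity)

end

end Crest.Agent.R226.SupIter413
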