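import Crest.Agent.R226.VolChartB_767

/-!
R226, Layer F, task F2 (helper767).

Part 3: uniform families of good charts on a compact manifold, uniform volume bounds for balls,
doubling.
-/

set_option autoImplicit false

open Bundle Bornology Set MeasureTheory Manifold Filter Metric
open scoped ENNReal ContDiff Topology NNReal

namespace Crest.Agent.R226.VolChart767

noncomputable section

variable {n : ℕ} {M : Type*} [MetricSpace M] [ChartedSpace (EuclideanSpace ℝ (Fin n)) M]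
  [IsManifold (𝓡 n) ∞ M] [RiemannianBundle (fun p : M => TangentSpace (𝓡 n) p)]
  [IsContMDiffRiemannianBundle (𝓡 n) ∞ (EuclideanSpace ℝ (Fin n))
    (fun p : M => TangentSpace (𝓡 n) p)]
  [IsRiemannianManifold (𝓡 n) M]

/-- On a compact manifold there is a finite family of good charts with the same constant `K` such
that every ball of radius `δ` is in the domain of one of them, and its chart image has a
`ρ`-neighbourhood of the image of the centre in the chart ball. -/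
theorem exists_uniform_charts [CompactSpace M] :
    ∃ (K : ℝ≥0) (δ ρ : ℝ) (t : Finset M) (R : M → ℝ), 1 ≤ K ∧ 0 < δ ∧ 0 < ρ ∧
      (∀ i ∈ t, GoodChart n i K (R i)) ∧
      ∀ x : M, ∃ i ∈ t, ball x δ ⊆ dom n i (R i) ∧
        ball (extChartAt (𝓡 n) i x) ρ ⊆ ball (extChartAt (𝓡 n) i i) (R i) := by
  choose K R hKR using fun x : M => exists_goodChart (n := n) x
  have hhalf : ∀ x : M, GoodChart n x (K x) (R x / 2) := fun x =>
    (hKR x).mono (half_pos (hKR x).r_pos) (half_le_self (hKR x).r_pos.le)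
  obtain ⟨t, -, ht⟩ := isCompact_univ.elim_nhds_subcover (fun x : M => dom n x (R x / 2))
    (fun x _ => (hhalf x).dom_mem_nhds)
  obtain ⟨δ, hδ, hδt⟩ := lebesgue_number_lemma_of_metric (ι := t) (s := (univ : Set M))
    (c := fun i => dom n (i : M) (R i / 2)) isCompact_univ
    (fun i => (hhalf i).isOpen_dom) (by
      intro x hx
      obtain ⟨i, hi, hxi⟩ := mem_iUnion₂.1 (ht hx)
      exact mem_iUnion.2 ⟨⟨i, hi⟩, hxi⟩)
  obtain ⟨ρ, hρ, hρt⟩ : ∃ ρ : ℝ, 0 < ρ ∧ ∀ i ∈ t, ρ ≤ R i / 2 := by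
    have h1 : ∀ᶠ ρ : ℝ in 𝓝[>] 0, ∀ i ∈ t, ρ ≤ R i / 2 := by
      rw [Finset.eventually_all]
      intro i _
      exact (eventually_le_nhds (half_pos (hKR i).r_pos)).filter_mono nhdsWithin_le_nhds
    obtain ⟨ρ, h2, h3⟩ := (h1.and self_mem_nhdsWithin).exists
    exact ⟨ρ, h3, h2⟩
  refine ⟨max 1 (t.sup K), δ, ρ, t, R, le_max_left _ _, hδ, hρ, fun i hi =>
    (hKR i).weaken ((Finset.le_sup hi).trans (le_max_right _ _)), fun x => ?_⟩
  obtain ⟨⟨i, hi⟩, hxi⟩ := hδt x (mem_univ x)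
  refine ⟨i, hi, hxi.trans (image_mono (ball_subset_ball (half_le_self (hKR i).r_pos.le))), ?_⟩
  have h1 : extChartAt (𝓡 n) i x ∈ ball (extChartAt (𝓡 n) i i) (R i / 2) :=
    (hhalf i).mapsTo (hxi (mem_ball_self hδ))
  refine ball_subset_ball' ?_
  have h2 := hρt i hi
  have h3 := mem_ball.1 h1
  linarith

variable [MeasurableSpace M] [BorelSpace M]

/-- Upper volume bound for balls, uniform on a compact manifold. -/
theorem exists_vol_closedBall_le [CompactSpace M] :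
    ∃ C : ℝ≥0, ∀ (x : M) (r : ℝ), 0 < r →
      μH[(n : ℝ)] (closedBall x r) ≤ C * ENNReal.ofReal (r ^ n) := by
  have := isFiniteMeasure (n := n) (M := M)
  obtain ⟨K, δ, ρ, t, R, hK, hδ, hρ, hgood, hcov⟩ := exists_uniform_charts (n := n) (M := M)
  set om : ℝ≥0∞ := volume (ball (0 : EuclideanSpace ℝ (Fin n)) 1) with hom
  have hom' : om ≠ ⊤ := measure_ball_lt_top.ne
  set C₁ : ℝ≥0∞ := (K : ℝ≥0∞) ^ n * (cH n * (ENNReal.ofReal (K ^ n) * om)) with hC₁
  have hC₁' : C₁ ≠ ⊤ := by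
    rw [hC₁]; finiteness
  set C₂ : ℝ≥0∞ := μH[(n : ℝ)] (univ : Set M) / ENNReal.ofReal (δ ^ n) with hC₂
  have hδn : 0 < δ ^ n := by positivity
  have hC₂' : C₂ ≠ ⊤ := by
    refine ENNReal.div_ne_top (measure_ne_top _ _) ?_
    simpa using hδn
  refine ⟨(max C₁ C₂).toNNReal, fun x r hr => ?_⟩
  rw [ENNReal.coe_toNNReal (by simp [hC₁', hC₂'])]
  rcases lt_or_ge r δ with h | h
  · obtain ⟨i, hi, h1, -⟩ := hcov x
    have hx : closedBall x r ⊆ dom n i (R i) := (closedBall_subset_ball h).trans h1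
    have h2 := (hgood i hi).vol_le hx
    have h3 : extChartAt (𝓡 n) i '' closedBall x r ⊆
        closedBall (extChartAt (𝓡 n) i x) (K * r) := by
      rintro _ ⟨y, hy, rfl⟩
      have := (hgood i hi).dist_le (hx hy) (hx (mem_closedBall_self hr.le))
      refine mem_closedBall.2 (this.trans ?_)
      gcongr
      exact hy
    have h4 : volume (closedBall (extChartAt (𝓡 n) i x) (K * r)) =
        ENNReal.ofReal (K ^ n) * ENNReal.ofReal (r ^ n) * om := by
      rw [Measure.addHaar_closedBall _ _ (by positivity)]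
      simp only [finrank_euclideanSpace, Fintype.card_fin]
      rw [mul_pow, ENNReal.ofReal_mul (by positivity)]
    calc μH[(n : ℝ)] (closedBall x r)
        ≤ (K : ℝ≥0∞) ^ n * (cH n * volume (extChartAt (𝓡 n) i '' closedBall x r)) := h2
      _ ≤ (K : ℝ≥0∞) ^ n * (cH n * (ENNReal.ofReal (K ^ n) * ENNReal.ofReal (r ^ n) * om)) := by
          gcongr
          rw [← h4]
          exact measure_mono h3
      _ = C₁ * ENNReal.ofReal (r ^ n) := by rw [hC₁]; ring
      _ ≤ max C₁ C₂ * ENNReal.ofReal (r ^ n) := by gcongr; exact le_max_left _ _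
  · calc μH[(n : ℝ)] (closedBall x r) ≤ μH[(n : ℝ)] (univ : Set M) := measure_mono (subset_univ _)
      _ = C₂ * ENNReal.ofReal (δ ^ n) := by
          rw [hC₂, ENNReal.div_mul_cancel]
          · simpa using hδn
          · simp
      _ ≤ max C₁ C₂ * ENNReal.ofReal (r ^ n) := by
          gcongr
          exact le_max_right _ _

/-- Lower volume bound for balls, uniform on a compact manifold. -/
theorem exists_le_vol_ball [CompactSpace M] (R₀ : ℝ) :
    ∃ c : ℝ≥0, 0 < c ∧ ∀ (x : M) (r : ℝ), 0 < r → r ≤ R₀ →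
      c * ENNReal.ofReal (r ^ n) ≤ μH[(n : ℝ)] (ball x r) := by
  obtain ⟨K, δ, ρ, t, R, hK, hδ, hρ, hgood, hcov⟩ := exists_uniform_charts (n := n) (M := M)
  have hK0 : 0 < K := lt_of_lt_of_le one_pos hK
  have hKR : (1 : ℝ) ≤ K := by exact_mod_cast hK
  set om : ℝ≥0∞ := volume (ball (0 : EuclideanSpace ℝ (Fin n)) 1) with hom
  have hom' : om ≠ ⊤ := measure_ball_lt_top.ne
  have hom0 : 0 < om := measure_ball_pos _ _ one_pos
  set c₁ : ℝ≥0∞ := ((K : ℝ≥0∞) ^ n)⁻¹ * (cH n * (ENNReal.ofReal ((K : ℝ)⁻¹ ^ n) * om)) with hc₁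
  have hKn : (K : ℝ≥0∞) ^ n ≠ 0 := pow_ne_zero _ (by exact_mod_cast hK0.ne')
  have hKn' : (K : ℝ≥0∞) ^ n ≠ ⊤ := by finiteness
  have hc₁' : c₁ ≠ ⊤ := by
    rw [hc₁]
    refine ENNReal.mul_ne_top (ENNReal.inv_ne_top.2 hKn) (by finiteness)
  have hc₁0 : 0 < c₁ := by
    rw [hc₁]
    have h1 : 0 < ((K : ℝ≥0∞) ^ n)⁻¹ := ENNReal.inv_pos.2 hKn'
    have h2 : (0 : ℝ≥0∞) < cH n := by exact_mod_cast cH_pos n
    have h3 : 0 < ENNReal.ofReal ((K : ℝ)⁻¹ ^ n) := by
      rw [ENNReal.ofReal_pos]; positivity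
    exact ENNReal.mul_pos h1.ne' (ENNReal.mul_pos h2.ne' (ENNReal.mul_pos h3.ne' hom0.ne').ne').ne'
  set r₁ : ℝ := min ρ δ with hr₁
  have hr₁0 : 0 < r₁ := lt_min hρ hδ
  -- small radii
  have hsmall : ∀ (x : M) (r : ℝ), 0 < r → r ≤ r₁ →
      c₁ * ENNReal.ofReal (r ^ n) ≤ μH[(n : ℝ)] (ball x r) := by
    intro x r hr hrr
    obtain ⟨i, hi, h1, h2⟩ := hcov x
    have hg := hgood i hi
    have hxi : x ∈ dom n i (R i) := h1 (mem_ball_self hδ)
    have hrK : r / K ≤ ρ := by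
      calc r / K ≤ r := div_le_self hr.le hKR
        _ ≤ ρ := hrr.trans (min_le_left _ _)
    have h3 : ball (extChartAt (𝓡 n) i x) (r / K) ⊆ ball (extChartAt (𝓡 n) i i) (R i) :=
      (ball_subset_ball hrK).trans h2
    have h4 : (extChartAt (𝓡 n) i).symm '' ball (extChartAt (𝓡 n) i x) (r / K) ⊆ ball x r := by
      rintro _ ⟨y, hy, rfl⟩
      have h5 := hg.dist_symm_le (h3 hy) (hg.mapsTo hxi)
      rw [hg.left_inv hxi] at h5
      refine mem_ball.2 (h5.trans_lt ?_)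
      have h6 : dist y (extChartAt (𝓡 n) i x) < r / K := hy
      rwa [lt_div_iff₀' (by positivity)] at h6
    have h5 := hg.volume_le h3
    have h6 : volume (ball (extChartAt (𝓡 n) i x) (r / K)) =
        ENNReal.ofReal ((K : ℝ)⁻¹ ^ n) * ENNReal.ofReal (r ^ n) * om := by
      rw [Measure.addHaar_ball_of_pos _ _ (by positivity)]
      simp only [finrank_euclideanSpace, Fintype.card_fin]
      rw [div_eq_inv_mul, mul_pow, ENNReal.ofReal_mul (by positivity)]
    calc c₁ * ENNReal.ofReal (r ^ n)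
        = ((K : ℝ≥0∞) ^ n)⁻¹ * (cH n * volume (ball (extChartAt (𝓡 n) i x) (r / K))) := by
          rw [h6, hc₁]; ring
      _ ≤ ((K : ℝ≥0∞) ^ n)⁻¹ * ((K : ℝ≥0∞) ^ n *
          μH[(n : ℝ)] ((extChartAt (𝓡 n) i).symm '' ball (extChartAt (𝓡 n) i x) (r / K))) := by
          gcongr
      _ = μH[(n : ℝ)] ((extChartAt (𝓡 n) i).symm '' ball (extChartAt (𝓡 n) i x) (r / K)) := by
          rw [← mul_assoc, ENNReal.inv_mul_cancel hKn hKn', one_mul]
      _ ≤ μH[(n : ℝ)] (ball x r) := measure_mono h4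
  rcases le_or_gt R₀ r₁ with hR | hR
  · refine ⟨c₁.toNNReal, ENNReal.toNNReal_pos hc₁0.ne' hc₁', fun x r hr hrR => ?_⟩
    rw [ENNReal.coe_toNNReal hc₁']
    exact hsmall x r hr (hrR.trans hR)
  · have hR₀ : 0 < R₀ := hr₁0.trans hR
    set c₂ : ℝ≥0∞ := c₁ * ENNReal.ofReal ((r₁ / R₀) ^ n) with hc₂
    have hc₂0 : 0 < c₂ := ENNReal.mul_pos hc₁0.ne' (by
      rw [← pos_iff_ne_zero, ENNReal.ofReal_pos]; positivity)
    have hc₂' : c₂ ≠ ⊤ := by rw [hc₂]; finiteness
    refine ⟨c₂.toNNReal, ENNReal.toNNReal_pos hc₂0.ne' hc₂', fun x r hr hrR => ?_⟩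
    rw [ENNReal.coe_toNNReal hc₂']
    have hquot : r₁ / R₀ ≤ 1 := (div_le_one hR₀).2 hR.le
    have hmin : 0 < r₁ / R₀ * r := by positivity
    have h1 : r₁ / R₀ * r ≤ r₁ := by
      rw [div_mul_eq_mul_div, div_le_iff₀ hR₀]
      gcongr
    calc c₂ * ENNReal.ofReal (r ^ n) = c₁ * ENNReal.ofReal ((r₁ / R₀ * r) ^ n) := by
          rw [hc₂, mul_pow, ENNReal.ofReal_mul (by positivity), mul_assoc]
      _ ≤ μH[(n : ℝ)] (ball x (r₁ / R₀ * r)) := hsmall x _ hmin h1
      _ ≤ μH[(n : ℝ)] (ball x r) := by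
          refine measure_mono (ball_subset_ball ?_)
          calc r₁ / R₀ * r ≤ 1 * r := by gcongr
            _ = r := one_mul r

/-- `vol` is a doubling measure on a compact manifold (uniformly at small scales). -/
theorem isUnifLocDoublingMeasure [CompactSpace M] :
    IsUnifLocDoublingMeasure (μH[(n : ℝ)] : Measure M) := by
  obtain ⟨C, hC⟩ := exists_vol_closedBall_le (n := n) (M := M)
  obtain ⟨c, hc, hc'⟩ := exists_le_vol_ball (n := n) (M := M) 1
  refine ⟨⟨C * 2 ^ n / c, ?_⟩⟩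
  filter_upwards [self_mem_nhdsWithin, nhdsWithin_le_nhds (eventually_le_nhds
    (one_pos : (0 : ℝ) < 1))] with r hr hr1 x
  have hr0 : (0 : ℝ) < r := hr
  have h1 := hC x (2 * r) (by positivity)
  have h2 := (hc' x r hr0 hr1).trans (measure_mono ball_subset_closedBall)
  have hc0 : (c : ℝ≥0∞) ≠ 0 := by exact_mod_cast hc.ne'
  calc μH[(n : ℝ)] (closedBall x (2 * r)) ≤ C * ENNReal.ofReal ((2 * r) ^ n) := h1
    _ = (C * 2 ^ n / c : ℝ≥0∞) * (c * ENNReal.ofReal (r ^ n)) := by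
        rw [mul_pow, ENNReal.ofReal_mul (by positivity), ← mul_assoc (C * 2 ^ n / c : ℝ≥0∞),
          ENNReal.div_mul_cancel hc0 ENNReal.coe_ne_top, ENNReal.ofReal_pow (by norm_num)]
        simp [mul_assoc]
    _ ≤ (C * 2 ^ n / c : ℝ≥0∞) * μH[(n : ℝ)] (closedBall x r) := by gcongr
    _ = ((C * 2 ^ n / c : ℝ≥0) : ℝ≥0∞) * μH[(n : ℝ)] (closedBall x r) := by
        rw [ENNReal.coe_div hc.ne']
        push_cast
        rfl

end

end Crest.Agent.R226.VolChart767
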