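/-
R226 (helper413), leaves L7p + L8p: the pair functional (helper579/619).

States: a pinched potential `u` and a pair of points `x₀, x₁`; size `|u x₀ - u x₁|`, volume of
`Y_h(x₀) ∩ Y_h(x₁)`.  `sup_iter2`: abstract iteration; `estatement_of_pairs`: the dichotomy for
pairs implies `EStatement`.
-/
import Crest.Agent.R226.SupIter_413
import Crest.Agent.R226.OscEnd_977
import Crest.Agent.R226.VolChartC_767

set_option autoImplicit false
set_option linter.unusedVariables false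
set_option linter.unusedSectionVars false

open Set Filter

namespace Crest.Agent.R226.SupPair413

open Crest.Agent.R226.SupIter413

section abstract

variable {ι : Type*}

/-- **sup-functional iteration**, second version, with the numerical conditions as hypotheses. -/
theorem sup_iter2_num [Nonempty ι] {A V : ι → ℝ → ℝ} {A1 V1 K c δ C1 M ε δ' g : ℝ}
    (hK : 1 < K) (hA1 : 0 ≤ A1) (hV1 : 0 ≤ V1) (hc : 0 < c) (hδ : 0 < δ)
    (hC1 : 0 < C1) (hM : 0 < M) (hε : 0 < ε) (hδ' : 0 < δ')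
    (hA0 : ∀ w h, 0 < h → 0 ≤ A w h) (hAb : ∀ w h, 0 < h → A w h ≤ A1)
    (hV0 : ∀ w h, 0 < h → 0 ≤ V w h) (hVb : ∀ w h, 0 < h → V w h ≤ V1)
    (hN2 : (1 + δ') ^ 2 ≤ (1 + δ) * c ^ ε)
    (hN3 : (1 + δ') ^ 2 < (1 - 2 * δ) * M ^ ε)
    (hg0 : 0 < g) (hg1 : g ≤ 1) (hN4 : K ^ g ≤ 1 + δ')
    (hD : ∀ w₀ h, 0 < h → K * h ≤ 1 → C1 * h ≤ A w₀ h → 0 < V w₀ h →
      (∀ w, c * V w₀ h ≤ V w (K * h) → A w (K * h) ≤ (1 + δ) * A w₀ h) →
      ∃ w, (1 - 2 * δ) * A w₀ h ≤ A w (K * h) ∧ M * V w₀ h ≤ V w (K * h)) :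
    ∃ C : ℝ, 0 < C ∧ ∀ w h, 0 < h → h ≤ 1 → A w h * V w h ^ ε ≤ C * h ^ g := by
  classical
  have hK0 : 0 < K := by linarith
  set Ψ : ℝ → ℝ := fun h => ⨆ w, A w h * V w h ^ ε with hΨ
  have hterm : ∀ w h, 0 < h → A w h * V w h ^ ε ≤ A1 * V1 ^ ε := by
    intro w h hh
    have h1 := hA0 w h hh
    have h2 := hAb w h hh
    have h3 : V w h ^ ε ≤ V1 ^ ε := Real.rpow_le_rpow (hV0 w h hh) (hVb w h hh) hε.le
    have h4 : 0 ≤ V w h ^ ε := Real.rpow_nonneg (hV0 w h hh) _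
    exact mul_le_mul h2 h3 h4 hA1
  have hbdd : ∀ h, 0 < h → BddAbove (range fun w => A w h * V w h ^ ε) := by
    intro h hh
    exact ⟨A1 * V1 ^ ε, by rintro _ ⟨w, rfl⟩; exact hterm w h hh⟩
  have hle : ∀ w h, 0 < h → A w h * V w h ^ ε ≤ Ψ h := fun w h hh => le_ciSup (hbdd h hh) w
  have hΨ0 : ∀ h, 0 < h → 0 ≤ Ψ h := by
    intro h hh
    obtain ⟨w⟩ := ‹Nonempty ι›
    exact (mul_nonneg (hA0 w h hh) (Real.rpow_nonneg (hV0 w h hh) _)).trans (hle w h hh)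
  have hΨb : ∀ h, 0 < h → Ψ h ≤ A1 * V1 ^ ε := fun h hh => ciSup_le fun w => hterm w h hh
  have hstep : ∀ h, 0 < h → K * h ≤ 1 → (1 + δ') * Ψ h ≤ Ψ (K * h) ∨
      Ψ h ≤ ((1 + δ') * (C1 * V1 ^ ε)) * h := by
    intro h hh hKh
    have hKh0 : 0 < K * h := by positivity
    have hh1 : h ≤ 1 := by nlinarith
    by_contra hcon
    push Not at hcon
    obtain ⟨hc1, hc2⟩ := hcon
    have hΨpos : 0 < Ψ h := lt_of_le_of_lt (by positivity) hc2
    -- a near maximiser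
    obtain ⟨w₀, hw₀⟩ : ∃ w, Ψ h / (1 + δ') < A w h * V w h ^ ε := by
      apply exists_lt_of_lt_ciSup
      rw [div_lt_iff₀ (by positivity)]
      show Ψ h < Ψ h * (1 + δ')
      nlinarith
    have hprod : 0 < A w₀ h * V w₀ h ^ ε := lt_of_le_of_lt (by positivity) hw₀
    rw [div_lt_iff₀ (by positivity)] at hw₀
    set a := A w₀ h with ha
    set v := V w₀ h with hv
    have ha0 : 0 ≤ a := hA0 w₀ h hh
    have hv0' : 0 ≤ v := hV0 w₀ h hh
    have hv0 : 0 < v := by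
      rcases hv0'.eq_or_lt with h | h
      · exfalso
        rw [← h, Real.zero_rpow hε.ne', mul_zero] at hprod
        exact lt_irrefl _ hprod
      · exact h
    have hvε : 0 < v ^ ε := Real.rpow_pos_of_pos hv0 ε
    have haC : C1 * h ≤ a := by
      by_contra hlt
      push Not at hlt
      have h5 : a * v ^ ε ≤ C1 * h * V1 ^ ε := by
        have : v ^ ε ≤ V1 ^ ε := Real.rpow_le_rpow hv0.le (hVb w₀ h hh) hε.le
        exact mul_le_mul hlt.le this hvε.le (by positivity)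
      have : Ψ h < ((1 + δ') * (C1 * V1 ^ ε)) * h := by
        calc Ψ h < a * v ^ ε * (1 + δ') := hw₀
          _ ≤ C1 * h * V1 ^ ε * (1 + δ') := by gcongr
          _ = ((1 + δ') * (C1 * V1 ^ ε)) * h := by ring
      linarith
    have hapos : 0 < a := lt_of_lt_of_le (by positivity) haC
    -- every state at level `K h` is controlled
    have hall : ∀ w, A w (K * h) * V w (K * h) ^ ε < (1 + δ') ^ 2 * (a * v ^ ε) := by
      intro w
      calc A w (K * h) * V w (K * h) ^ ε ≤ Ψ (K * h) := hle w _ hKh0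
        _ < (1 + δ') * Ψ h := hc1
        _ ≤ (1 + δ') * (a * v ^ ε * (1 + δ')) := by gcongr
        _ = (1 + δ') ^ 2 * (a * v ^ ε) := by ring
    have hrow : ∀ w, c * v ≤ V w (K * h) → A w (K * h) ≤ (1 + δ) * a := by
      intro w hw
      have h6 := hall w
      have h7 : c ^ ε * v ^ ε ≤ V w (K * h) ^ ε := by
        rw [← Real.mul_rpow hc.le hv0.le]
        exact Real.rpow_le_rpow (by positivity) hw hε.le
      have hcε : 0 < c ^ ε := Real.rpow_pos_of_pos hc ε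
      have h8 : A w (K * h) * (c ^ ε * v ^ ε) ≤ ((1 + δ) * a) * (c ^ ε * v ^ ε) := by
        calc A w (K * h) * (c ^ ε * v ^ ε) ≤ A w (K * h) * V w (K * h) ^ ε := by
              gcongr
              exact hA0 w _ hKh0
          _ ≤ (1 + δ') ^ 2 * (a * v ^ ε) := h6.le
          _ ≤ ((1 + δ) * c ^ ε) * (a * v ^ ε) := by gcongr
          _ = ((1 + δ) * a) * (c ^ ε * v ^ ε) := by ring
      exact le_of_mul_le_mul_right h8 (by positivity)
    obtain ⟨w, hw1, hw2⟩ := hD w₀ h hh hKh haC hv0 hrow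
    have h6 := hall w
    have hMε : 0 < M ^ ε := Real.rpow_pos_of_pos hM ε
    have h2δ : 0 < 1 - 2 * δ := by
      by_contra hn
      push Not at hn
      have : (1 - 2 * δ) * M ^ ε ≤ 0 := mul_nonpos_of_nonpos_of_nonneg hn hMε.le
      have : 0 < (1 + δ') ^ 2 := by positivity
      linarith
    have h7 : M ^ ε * v ^ ε ≤ V w (K * h) ^ ε := by
      rw [← Real.mul_rpow hM.le hv0.le]
      exact Real.rpow_le_rpow (by positivity) hw2 hε.le
    have h8 : ((1 - 2 * δ) * a) * (M ^ ε * v ^ ε) ≤ A w (K * h) * V w (K * h) ^ ε :=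
      mul_le_mul hw1 h7 (by positivity) (hA0 w _ hKh0)
    have h9 : (1 + δ') ^ 2 * (a * v ^ ε) < ((1 - 2 * δ) * M ^ ε) * (a * v ^ ε) := by
      apply mul_lt_mul_of_pos_right hN3
      positivity
    have h10 : ((1 - 2 * δ) * M ^ ε) * (a * v ^ ε) = ((1 - 2 * δ) * a) * (M ^ ε * v ^ ε) := by ring
    linarith
  have hV1ε : 0 ≤ V1 ^ ε := Real.rpow_nonneg hV1 ε
  have hfin := iter_decay (Ψ := Ψ) (K := K) (q := 1 + δ') (C1 := (1 + δ') * (C1 * V1 ^ ε))
    (B := A1 * V1 ^ ε) (g := g) hK (by linarith) (by positivity) (by positivity) hΨb hg0 hg1 hN4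
    (by positivity) hstep
  refine ⟨A1 * V1 ^ ε * K + (1 + δ') * (C1 * V1 ^ ε) + 1, by positivity, ?_⟩
  intro w h hh h1
  have hhg : 0 ≤ h ^ g := Real.rpow_nonneg hh.le g
  calc A w h * V w h ^ ε ≤ Ψ h := hle w h hh
    _ ≤ (A1 * V1 ^ ε * K + (1 + δ') * (C1 * V1 ^ ε)) * h ^ g := hfin h hh h1
    _ ≤ _ := by nlinarith

/-- **sup-functional iteration**, second version. -/
theorem sup_iter2 [Nonempty ι] {A V : ι → ℝ → ℝ} (d : ℕ) {A1 V1 c0 K c : ℝ}
    (hK : 1 < K) (hA1 : 0 ≤ A1) (hV1 : 0 ≤ V1) (hc0 : 0 < c0) (hc : 0 < c)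
    (hA0 : ∀ w h, 0 < h → 0 ≤ A w h) (hAb : ∀ w h, 0 < h → A w h ≤ A1)
    (hV0 : ∀ w h, 0 < h → 0 ≤ V w h) (hVb : ∀ w h, 0 < h → V w h ≤ V1)
    (hD : ∀ B δm : ℝ, 0 < B → 0 < δm → ∃ δ C1 : ℝ, 0 < δ ∧ δ ≤ δm ∧ 0 < C1 ∧
      ∀ w₀ h, 0 < h → K * h ≤ 1 → C1 * h ≤ A w₀ h → 0 < V w₀ h →
        (∀ w, c * V w₀ h ≤ V w (K * h) → A w (K * h) ≤ (1 + δ) * A w₀ h) →
        ∃ w, (1 - 2 * δ) * A w₀ h ≤ A w (K * h) ∧ B * V w₀ h ≤ V w (K * h)) :
    ∃ C g : ℝ, 0 < C ∧ 0 < g ∧ g ≤ 1 ∧ ∀ w h, 0 < h → h ≤ 1 → c0 * h ^ d ≤ V w h →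
      A w h ≤ C * h ^ g := by
  have hK0 : 0 < K := by linarith
  have hlK : 0 < Real.log K := Real.log_pos hK
  set L : ℝ := |Real.log c| with hL
  have hL0 : 0 ≤ L := abs_nonneg _
  set Λ : ℝ := Real.log K + L + 1 with hΛ
  have hΛ1 : 1 ≤ Λ := by rw [hΛ]; linarith
  have hΛ0 : 0 < Λ := by linarith
  set D : ℝ := (d : ℝ) + 1 with hDdef
  have hD1 : 1 ≤ D := by rw [hDdef]; have : (0 : ℝ) ≤ d := Nat.cast_nonneg d; linarith
  have hD0 : 0 < D := by linarith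
  obtain ⟨δ, C1, hδ0, hδ1, hC1, H⟩ := hD (Real.exp (192 * D * Λ)) (1 / 8) (Real.exp_pos _)
    (by norm_num)
  set δ' : ℝ := δ / 8 with hδ'
  set ε : ℝ := δ / (32 * D * Λ) with hε
  set g : ℝ := δ / (16 * Λ) with hg
  have hε0 : 0 < ε := by positivity
  have hg0 : 0 < g := by positivity
  have hεL : ε * L ≤ δ / 16 := by
    have h1 : L ≤ 2 * D * Λ := by
      have : L ≤ Λ := by rw [hΛ]; linarith
      nlinarith
    calc ε * L ≤ ε * (2 * D * Λ) := by gcongr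
      _ = δ / 16 := by rw [hε]; field_simp; norm_num
  have hcε : 1 - δ / 16 ≤ c ^ ε := by
    rw [Real.rpow_def_of_pos hc]
    have h1 : -(δ / 16 : ℝ) ≤ Real.log c * ε := by
      have : |Real.log c * ε| ≤ δ / 16 := by
        rw [abs_mul, abs_of_pos hε0, mul_comm]; exact hεL
      exact (abs_le.1 this).1
    have h2 := Real.add_one_le_exp (Real.log c * ε)
    linarith
  have hN2 : (1 + δ') ^ 2 ≤ (1 + δ) * c ^ ε := by
    have h1 : (1 + δ) * (1 - δ / 16) ≤ (1 + δ) * c ^ ε := by gcongr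
    have h2 : (1 + δ') ^ 2 ≤ (1 + δ) * (1 - δ / 16) := by rw [hδ']; nlinarith
    linarith
  have hMε : 1 + 6 * δ ≤ (Real.exp (192 * D * Λ)) ^ ε := by
    rw [← Real.exp_mul]
    have h1 : 192 * D * Λ * ε = 6 * δ := by
      rw [hε]; field_simp; norm_num
    rw [h1]
    have := Real.add_one_le_exp (6 * δ)
    linarith
  have hN3 : (1 + δ') ^ 2 < (1 - 2 * δ) * (Real.exp (192 * D * Λ)) ^ ε := by
    have h1 : (1 - 2 * δ) * (1 + 6 * δ) ≤ (1 - 2 * δ) * (Real.exp (192 * D * Λ)) ^ ε := by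
      apply mul_le_mul_of_nonneg_left hMε
      linarith
    have h2 : (1 + δ') ^ 2 < (1 - 2 * δ) * (1 + 6 * δ) := by
      have h3 : (1 - 2 * δ) * (1 + 6 * δ) = 1 + 4 * δ - 12 * δ ^ 2 := by ring
      rw [h3, hδ']
      nlinarith
    linarith
  have hg1 : g ≤ 1 := by
    rw [hg, div_le_one (by positivity)]; nlinarith
  have hN4 : K ^ g ≤ 1 + δ' := by
    rw [Real.rpow_def_of_pos hK0]
    have h1 : Real.log K * g ≤ δ' / 2 := by
      have h2 : Real.log K ≤ Λ := by rw [hΛ]; linarith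
      calc Real.log K * g ≤ Λ * g := by gcongr
        _ = δ' / 2 := by rw [hg, hδ']; field_simp; norm_num
    exact (Real.exp_le_exp.2 h1).trans (exp_half_le (by positivity) (by rw [hδ']; linarith))
  obtain ⟨C, hC, hCC⟩ := sup_iter2_num (ι := ι) (A := A) (V := V) (A1 := A1) (V1 := V1)
    (K := K) (c := c) (δ := δ) (C1 := C1) (M := Real.exp (192 * D * Λ)) (ε := ε) (δ' := δ')
    (g := g) hK hA1 hV1 hc hδ0 hC1 (Real.exp_pos _) hε0 (by positivity)
    hA0 hAb hV0 hVb hN2 hN3 hg0 hg1 hN4 H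
  have hdε : d * ε ≤ g / 2 := by
    have h1 : (d : ℝ) ≤ D := by rw [hDdef]; linarith
    calc d * ε ≤ D * ε := by gcongr
      _ = g / 2 := by rw [hε, hg]; field_simp; norm_num
  refine ⟨C / c0 ^ ε, g / 2, by positivity, by positivity, by linarith, ?_⟩
  intro w h hh h1 h3
  have h2 := hCC w h hh h1
  have h4 : c0 ^ ε * h ^ (g / 2) ≤ V w h ^ ε := by
    calc c0 ^ ε * h ^ (g / 2) ≤ c0 ^ ε * h ^ (d * ε) := by
          gcongr ?_ * ?_
          exact Real.rpow_le_rpow_of_exponent_ge hh h1 hdε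
      _ = (c0 * h ^ d) ^ ε := by
          rw [Real.mul_rpow hc0.le (by positivity), ← Real.rpow_natCast h d, ← Real.rpow_mul hh.le]
      _ ≤ V w h ^ ε := Real.rpow_le_rpow (by positivity) h3 hε0.le
  have hc0ε : 0 < c0 ^ ε := Real.rpow_pos_of_pos hc0 ε
  have hhg : 0 < h ^ (g / 2) := Real.rpow_pos_of_pos hh _
  have h5 : A w h * (c0 ^ ε * h ^ (g / 2)) ≤ C / c0 ^ ε * h ^ (g / 2) * (c0 ^ ε * h ^ (g / 2)) := by
    calc A w h * (c0 ^ ε * h ^ (g / 2)) ≤ A w h * V w h ^ ε := by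
          gcongr
          exact hA0 w h hh
      _ ≤ C * h ^ g := h2
      _ = C / c0 ^ ε * h ^ (g / 2) * (c0 ^ ε * h ^ (g / 2)) := by
          have : h ^ g = h ^ (g / 2) * h ^ (g / 2) := by
            rw [← Real.rpow_add hh]; ring_nf
          rw [this]
          field_simp
  exact le_of_mul_le_mul_right h5 (by positivity)


/-- **sup-functional iteration**, R-form (helper227/619), numerical conditions as hypotheses. -/
theorem sup_iter3_num [Nonempty ι] {A V : ι → ℝ → ℝ} {A1 V1 K c δ C1 M ε δ' g C7 : ℝ}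
    (hK : 1 < K) (hA1 : 0 ≤ A1) (hV1 : 0 ≤ V1) (hc : 0 < c) (hδ : 0 < δ)
    (hC1 : 0 < C1) (hM : 0 < M) (hε : 0 < ε) (hε1 : ε ≤ 1) (hδ' : 0 < δ')
    (hA0 : ∀ w h, 0 < h → 0 ≤ A w h) (hAb : ∀ w h, 0 < h → A w h ≤ A1)
    (hV0 : ∀ w h, 0 < h → 0 ≤ V w h) (hVb : ∀ w h, 0 < h → V w h ≤ V1)
    (hN2 : (1 + δ') ^ 2 ≤ (1 + δ) * c ^ ε)
    (hN3 : (1 + δ') ^ 2 < (1 - C7 * δ) * M ^ ε)
    (hg0 : 0 < g) (hg1 : g ≤ 1) (hN4 : K ^ g ≤ 1 + δ')
    (hD : ∀ w₀ h, 0 < h → K * h ≤ 1 → C1 * h ≤ A w₀ h → 0 < V w₀ h →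
      (∀ w, ∀ R : ℝ, 1 ≤ R → c * V w₀ h ≤ R * V w (K * h) →
        A w (K * h) ≤ (1 + δ) * R * A w₀ h) →
      ∃ w, ∃ R : ℝ, 1 ≤ R ∧ (1 - C7 * δ) * R * A w₀ h ≤ A w (K * h) ∧
        M * V w₀ h ≤ R * V w (K * h)) :
    ∃ C : ℝ, 0 < C ∧ ∀ w h, 0 < h → h ≤ 1 → A w h * V w h ^ ε ≤ C * h ^ g := by
  classical
  have hK0 : 0 < K := by linarith
  set Ψ : ℝ → ℝ := fun h => ⨆ w, A w h * V w h ^ ε with hΨ
  have hterm : ∀ w h, 0 < h → A w h * V w h ^ ε ≤ A1 * V1 ^ ε := by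
    intro w h hh
    have h1 := hA0 w h hh
    have h2 := hAb w h hh
    have h3 : V w h ^ ε ≤ V1 ^ ε := Real.rpow_le_rpow (hV0 w h hh) (hVb w h hh) hε.le
    have h4 : 0 ≤ V w h ^ ε := Real.rpow_nonneg (hV0 w h hh) _
    exact mul_le_mul h2 h3 h4 hA1
  have hbdd : ∀ h, 0 < h → BddAbove (range fun w => A w h * V w h ^ ε) := by
    intro h hh
    exact ⟨A1 * V1 ^ ε, by rintro _ ⟨w, rfl⟩; exact hterm w h hh⟩
  have hle : ∀ w h, 0 < h → A w h * V w h ^ ε ≤ Ψ h := fun w h hh => le_ciSup (hbdd h hh) w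
  have hΨb : ∀ h, 0 < h → Ψ h ≤ A1 * V1 ^ ε := fun h hh => ciSup_le fun w => hterm w h hh
  have hstep : ∀ h, 0 < h → K * h ≤ 1 → (1 + δ') * Ψ h ≤ Ψ (K * h) ∨
      Ψ h ≤ ((1 + δ') * (C1 * V1 ^ ε)) * h := by
    intro h hh hKh
    have hKh0 : 0 < K * h := by positivity
    have hh1 : h ≤ 1 := by nlinarith
    by_contra hcon
    push Not at hcon
    obtain ⟨hc1, hc2⟩ := hcon
    have hΨpos : 0 < Ψ h := lt_of_le_of_lt (by positivity) hc2
    obtain ⟨w₀, hw₀⟩ : ∃ w, Ψ h / (1 + δ') < A w h * V w h ^ ε := by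
      apply exists_lt_of_lt_ciSup
      rw [div_lt_iff₀ (by positivity)]
      show Ψ h < Ψ h * (1 + δ')
      nlinarith
    have hprod : 0 < A w₀ h * V w₀ h ^ ε := lt_of_le_of_lt (by positivity) hw₀
    rw [div_lt_iff₀ (by positivity)] at hw₀
    set a := A w₀ h with ha
    set v := V w₀ h with hv
    have ha0 : 0 ≤ a := hA0 w₀ h hh
    have hv0' : 0 ≤ v := hV0 w₀ h hh
    have hv0 : 0 < v := by
      rcases hv0'.eq_or_lt with h | h
      · exfalso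
        rw [← h, Real.zero_rpow hε.ne', mul_zero] at hprod
        exact lt_irrefl _ hprod
      · exact h
    have hvε : 0 < v ^ ε := Real.rpow_pos_of_pos hv0 ε
    have haC : C1 * h ≤ a := by
      by_contra hlt
      push Not at hlt
      have h5 : a * v ^ ε ≤ C1 * h * V1 ^ ε := by
        have : v ^ ε ≤ V1 ^ ε := Real.rpow_le_rpow hv0.le (hVb w₀ h hh) hε.le
        exact mul_le_mul hlt.le this hvε.le (by positivity)
      have : Ψ h < ((1 + δ') * (C1 * V1 ^ ε)) * h := by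
        calc Ψ h < a * v ^ ε * (1 + δ') := hw₀
          _ ≤ C1 * h * V1 ^ ε * (1 + δ') := by gcongr
          _ = ((1 + δ') * (C1 * V1 ^ ε)) * h := by ring
      linarith
    have hapos : 0 < a := lt_of_lt_of_le (by positivity) haC
    have hall : ∀ w, A w (K * h) * V w (K * h) ^ ε < (1 + δ') ^ 2 * (a * v ^ ε) := by
      intro w
      calc A w (K * h) * V w (K * h) ^ ε ≤ Ψ (K * h) := hle w _ hKh0
        _ < (1 + δ') * Ψ h := hc1
        _ ≤ (1 + δ') * (a * v ^ ε * (1 + δ')) := by gcongr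
        _ = (1 + δ') ^ 2 * (a * v ^ ε) := by ring
    -- powers of `R`
    have hR : ∀ R : ℝ, 1 ≤ R → 0 < R ^ ε ∧ R ^ ε ≤ R := by
      intro R hR1
      refine ⟨Real.rpow_pos_of_pos (by linarith) _, ?_⟩
      calc R ^ ε ≤ R ^ (1 : ℝ) := Real.rpow_le_rpow_of_exponent_le hR1 hε1
        _ = R := Real.rpow_one R
    have hrow : ∀ w, ∀ R : ℝ, 1 ≤ R → c * v ≤ R * V w (K * h) →
        A w (K * h) ≤ (1 + δ) * R * a := by
      intro w R hR1 hw
      have hR0 : 0 < R := by linarith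
      obtain ⟨hRe, hRle⟩ := hR R hR1
      have h6 := hall w
      have hVn := hV0 w (K * h) hKh0
      have h7 : c ^ ε * v ^ ε ≤ R ^ ε * V w (K * h) ^ ε := by
        rw [← Real.mul_rpow hc.le hv0.le, ← Real.mul_rpow hR0.le hVn]
        exact Real.rpow_le_rpow (by positivity) hw hε.le
      have hcε : 0 < c ^ ε := Real.rpow_pos_of_pos hc ε
      have h8 : A w (K * h) * (c ^ ε * v ^ ε) ≤ ((1 + δ) * R * a) * (c ^ ε * v ^ ε) := by
        calc A w (K * h) * (c ^ ε * v ^ ε) ≤ A w (K * h) * (R ^ ε * V w (K * h) ^ ε) := by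
              gcongr
              exact hA0 w _ hKh0
          _ = R ^ ε * (A w (K * h) * V w (K * h) ^ ε) := by ring
          _ ≤ R ^ ε * ((1 + δ') ^ 2 * (a * v ^ ε)) := by gcongr
          _ ≤ R * (((1 + δ) * c ^ ε) * (a * v ^ ε)) := by gcongr
          _ = ((1 + δ) * R * a) * (c ^ ε * v ^ ε) := by ring
      exact le_of_mul_le_mul_right h8 (by positivity)
    obtain ⟨w, R, hR1, hw1, hw2⟩ := hD w₀ h hh hKh haC hv0 hrow
    have hR0 : 0 < R := by linarith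
    obtain ⟨hRe, hRle⟩ := hR R hR1
    have hVn := hV0 w (K * h) hKh0
    have h6 := hall w
    have hMε : 0 < M ^ ε := Real.rpow_pos_of_pos hM ε
    have h2δ : 0 < 1 - C7 * δ := by
      by_contra hn
      push Not at hn
      have : (1 - C7 * δ) * M ^ ε ≤ 0 := mul_nonpos_of_nonpos_of_nonneg hn hMε.le
      have : 0 < (1 + δ') ^ 2 := by positivity
      linarith
    have h7 : M ^ ε * v ^ ε ≤ R ^ ε * V w (K * h) ^ ε := by
      rw [← Real.mul_rpow hM.le hv0.le, ← Real.mul_rpow hR0.le hVn]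
      exact Real.rpow_le_rpow (by positivity) hw2 hε.le
    have h8 : ((1 - C7 * δ) * R * a) * (M ^ ε * v ^ ε) ≤
        A w (K * h) * (R ^ ε * V w (K * h) ^ ε) :=
      mul_le_mul hw1 h7 (by positivity) (hA0 w _ hKh0)
    have h9 : (1 + δ') ^ 2 * (a * v ^ ε) < ((1 - C7 * δ) * M ^ ε) * (a * v ^ ε) := by
      apply mul_lt_mul_of_pos_right hN3
      positivity
    have h10 : R * (A w (K * h) * V w (K * h) ^ ε) < R * (((1 - C7 * δ) * M ^ ε) * (a * v ^ ε)) :=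
      mul_lt_mul_of_pos_left (h6.trans h9) hR0
    have h11 : A w (K * h) * (R ^ ε * V w (K * h) ^ ε) ≤ R * (A w (K * h) * V w (K * h) ^ ε) := by
      have h12 : 0 ≤ A w (K * h) * V w (K * h) ^ ε :=
        mul_nonneg (hA0 w _ hKh0) (Real.rpow_nonneg hVn _)
      calc A w (K * h) * (R ^ ε * V w (K * h) ^ ε)
          = R ^ ε * (A w (K * h) * V w (K * h) ^ ε) := by ring
        _ ≤ R * (A w (K * h) * V w (K * h) ^ ε) := by gcongr
    have h13 : ((1 - C7 * δ) * R * a) * (M ^ ε * v ^ ε) =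
        R * (((1 - C7 * δ) * M ^ ε) * (a * v ^ ε)) := by ring
    linarith
  have hV1ε : 0 ≤ V1 ^ ε := Real.rpow_nonneg hV1 ε
  have hfin := iter_decay (Ψ := Ψ) (K := K) (q := 1 + δ') (C1 := (1 + δ') * (C1 * V1 ^ ε))
    (B := A1 * V1 ^ ε) (g := g) hK (by linarith) (by positivity) (by positivity) hΨb hg0 hg1 hN4
    (by positivity) hstep
  refine ⟨A1 * V1 ^ ε * K + (1 + δ') * (C1 * V1 ^ ε) + 1, by positivity, ?_⟩
  intro w h hh h1
  have hhg : 0 ≤ h ^ g := Real.rpow_nonneg hh.le g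
  calc A w h * V w h ^ ε ≤ Ψ h := hle w h hh
    _ ≤ (A1 * V1 ^ ε * K + (1 + δ') * (C1 * V1 ^ ε)) * h ^ g := hfin h hh h1
    _ ≤ _ := by nlinarith

set_option maxHeartbeats 1000000 in
/-- **sup-functional iteration**, R-form. -/
theorem sup_iter3 [Nonempty ι] {A V : ι → ℝ → ℝ} (d : ℕ) {A1 V1 c0 K c C7 : ℝ}
    (hK : 1 < K) (hA1 : 0 ≤ A1) (hV1 : 0 ≤ V1) (hc0 : 0 < c0) (hc : 0 < c) (hC7 : 0 ≤ C7)
    (hA0 : ∀ w h, 0 < h → 0 ≤ A w h) (hAb : ∀ w h, 0 < h → A w h ≤ A1)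
    (hV0 : ∀ w h, 0 < h → 0 ≤ V w h) (hVb : ∀ w h, 0 < h → V w h ≤ V1)
    (hD : ∀ B δm : ℝ, 0 < B → 0 < δm → ∃ δ C1 : ℝ, 0 < δ ∧ δ ≤ δm ∧ 0 < C1 ∧
      ∀ w₀ h, 0 < h → K * h ≤ 1 → C1 * h ≤ A w₀ h → 0 < V w₀ h →
        (∀ w, ∀ R : ℝ, 1 ≤ R → c * V w₀ h ≤ R * V w (K * h) →
          A w (K * h) ≤ (1 + δ) * R * A w₀ h) →
        ∃ w, ∃ R : ℝ, 1 ≤ R ∧ (1 - C7 * δ) * R * A w₀ h - C7 * h ≤ A w (K * h) ∧
          B * V w₀ h ≤ R * V w (K * h)) :
    ∃ C g : ℝ, 0 < C ∧ 0 < g ∧ g ≤ 1 ∧ ∀ w h, 0 < h → h ≤ 1 → c0 * h ^ d ≤ V w h →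
      A w h ≤ C * h ^ g := by
  have hK0 : 0 < K := by linarith
  have hlK : 0 < Real.log K := Real.log_pos hK
  set L : ℝ := |Real.log c| with hL
  have hL0 : 0 ≤ L := abs_nonneg _
  set Λ : ℝ := Real.log K + L + 1 with hΛ
  have hΛ1 : 1 ≤ Λ := by rw [hΛ]; linarith
  have hΛ0 : 0 < Λ := by linarith
  set D : ℝ := (d : ℝ) + 1 with hDdef
  have hD1 : 1 ≤ D := by rw [hDdef]; have : (0 : ℝ) ≤ d := Nat.cast_nonneg d; linarith
  have hD0 : 0 < D := by linarith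
  set C8 : ℝ := C7 + 2 with hC8
  have hC80 : 2 ≤ C8 := by rw [hC8]; linarith
  obtain ⟨δ, C1, hδ0, hδ1, hC1, H⟩ := hD (Real.exp (96 * C8 * D * Λ)) (1 / (8 * C8))
    (Real.exp_pos _) (by positivity)
  have hδ8 : δ * C8 ≤ 1 / 8 := by
    calc δ * C8 ≤ 1 / (8 * C8) * C8 := by gcongr
      _ = 1 / 8 := by field_simp
  have hδ16 : δ ≤ 1 / 16 := by nlinarith
  set δ' : ℝ := δ / 8 with hδ'
  set ε : ℝ := δ / (32 * D * Λ) with hε
  set g : ℝ := δ / (16 * Λ) with hg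
  have hε0 : 0 < ε := by positivity
  have hε1 : ε ≤ 1 := by
    rw [hε, div_le_one (by positivity)]
    nlinarith
  have hg0 : 0 < g := by positivity
  have hεL : ε * L ≤ δ / 16 := by
    have h1 : L ≤ 2 * D * Λ := by
      have : L ≤ Λ := by rw [hΛ]; linarith
      nlinarith
    calc ε * L ≤ ε * (2 * D * Λ) := by gcongr
      _ = δ / 16 := by rw [hε]; field_simp; norm_num
  have hcε : 1 - δ / 16 ≤ c ^ ε := by
    rw [Real.rpow_def_of_pos hc]
    have h1 : -(δ / 16 : ℝ) ≤ Real.log c * ε := by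
      have : |Real.log c * ε| ≤ δ / 16 := by
        rw [abs_mul, abs_of_pos hε0, mul_comm]; exact hεL
      exact (abs_le.1 this).1
    have h2 := Real.add_one_le_exp (Real.log c * ε)
    linarith
  have hN2 : (1 + δ') ^ 2 ≤ (1 + δ) * c ^ ε := by
    have h1 : (1 + δ) * (1 - δ / 16) ≤ (1 + δ) * c ^ ε := by gcongr
    have h2 : (1 + δ') ^ 2 ≤ (1 + δ) * (1 - δ / 16) := by rw [hδ']; nlinarith
    linarith
  have hMε : 1 + 3 * C8 * δ ≤ (Real.exp (96 * C8 * D * Λ)) ^ ε := by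
    rw [← Real.exp_mul]
    have h1 : 96 * C8 * D * Λ * ε = 3 * C8 * δ := by
      rw [hε]; field_simp; norm_num
    rw [h1]
    have := Real.add_one_le_exp (3 * C8 * δ)
    linarith
  have hC8δ : 0 ≤ C8 * δ := by positivity
  have hN3 : (1 + δ') ^ 2 < (1 - (C7 + 1) * δ) * (Real.exp (96 * C8 * D * Λ)) ^ ε := by
    have h0 : 0 ≤ 1 - (C7 + 1) * δ := by
      have : (C7 + 1) * δ ≤ C8 * δ := by rw [hC8]; nlinarith
      nlinarith
    have h1 : (1 - (C7 + 1) * δ) * (1 + 3 * C8 * δ) ≤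
        (1 - (C7 + 1) * δ) * (Real.exp (96 * C8 * D * Λ)) ^ ε :=
      mul_le_mul_of_nonneg_left hMε h0
    have h2 : (1 + δ') ^ 2 < (1 - (C7 + 1) * δ) * (1 + 3 * C8 * δ) := by
      have h3 : (C7 + 1) = C8 - 1 := by rw [hC8]; ring
      rw [h3, hδ']
      have h4 : (1 - (C8 - 1) * δ) * (1 + 3 * C8 * δ) =
          1 + 2 * (C8 * δ) + δ - 3 * (C8 * δ) * (C8 * δ) + 3 * δ * (C8 * δ) := by ring
      rw [h4]
      have h5 : (C8 * δ) * (C8 * δ) ≤ 1 / 8 * (C8 * δ) := by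
        have : C8 * δ ≤ 1 / 8 := by linarith
        gcongr
      have h6 : 0 ≤ δ * (C8 * δ) := by positivity
      nlinarith
    linarith
  have hg1 : g ≤ 1 := by
    rw [hg, div_le_one (by positivity)]; nlinarith
  have hN4 : K ^ g ≤ 1 + δ' := by
    rw [Real.rpow_def_of_pos hK0]
    have h1 : Real.log K * g ≤ δ' / 2 := by
      have h2 : Real.log K ≤ Λ := by rw [hΛ]; linarith
      calc Real.log K * g ≤ Λ * g := by gcongr
        _ = δ' / 2 := by rw [hg, hδ']; field_simp; norm_num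
    exact (Real.exp_le_exp.2 h1).trans (exp_half_le (by positivity) (by rw [hδ']; linarith))
  set C1' : ℝ := max C1 (C7 / δ) with hC1'
  have hC1'0 : 0 < C1' := lt_max_of_lt_left hC1
  obtain ⟨C, hC, hCC⟩ := sup_iter3_num (ι := ι) (A := A) (V := V) (A1 := A1) (V1 := V1)
    (K := K) (c := c) (δ := δ) (C1 := C1') (M := Real.exp (96 * C8 * D * Λ)) (ε := ε) (δ' := δ')
    (g := g) (C7 := C7 + 1) hK hA1 hV1 hc hδ0 hC1'0 (Real.exp_pos _) hε0 hε1 (by positivity)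
    hA0 hAb hV0 hVb hN2 hN3 hg0 hg1 hN4 (by
      intro w₀ h hh hKh hA hV hNG
      have e1 : C1 * h ≤ A w₀ h := by
        refine le_trans ?_ hA
        gcongr
        exact le_max_left _ _
      have e2 : C7 * h ≤ δ * A w₀ h := by
        have e3 : C7 / δ * h ≤ A w₀ h := by
          refine le_trans ?_ hA
          gcongr
          exact le_max_right _ _
        calc C7 * h = δ * (C7 / δ * h) := by field_simp
          _ ≤ δ * A w₀ h := by gcongr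
      obtain ⟨w, R, hR, hw1, hw2⟩ := H w₀ h hh hKh e1 hV hNG
      refine ⟨w, R, hR, ?_, hw2⟩
      have e4 : δ * A w₀ h ≤ δ * R * A w₀ h := by
        have := hA0 w₀ h hh
        have e5 : 0 ≤ δ * A w₀ h := by positivity
        nlinarith
      have e6 : (1 - (C7 + 1) * δ) * R * A w₀ h =
        (1 - C7 * δ) * R * A w₀ h - δ * R * A w₀ h := by ring
      linarith)
  have hdε : d * ε ≤ g / 2 := by
    have h1 : (d : ℝ) ≤ D := by rw [hDdef]; linarith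
    calc d * ε ≤ D * ε := by gcongr
      _ = g / 2 := by rw [hε, hg]; field_simp; norm_num
  refine ⟨C / c0 ^ ε, g / 2, by positivity, by positivity, by linarith, ?_⟩
  intro w h hh h1 h3
  have h2 := hCC w h hh h1
  have h4 : c0 ^ ε * h ^ (g / 2) ≤ V w h ^ ε := by
    calc c0 ^ ε * h ^ (g / 2) ≤ c0 ^ ε * h ^ (d * ε) := by
          gcongr ?_ * ?_
          exact Real.rpow_le_rpow_of_exponent_ge hh h1 hdε
      _ = (c0 * h ^ d) ^ ε := by
          rw [Real.mul_rpow hc0.le (by positivity), ← Real.rpow_natCast h d, ← Real.rpow_mul hh.le]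
      _ ≤ V w h ^ ε := Real.rpow_le_rpow (by positivity) h3 hε0.le
  have hc0ε : 0 < c0 ^ ε := Real.rpow_pos_of_pos hc0 ε
  have hhg : 0 < h ^ (g / 2) := Real.rpow_pos_of_pos hh _
  have h5 : A w h * (c0 ^ ε * h ^ (g / 2)) ≤ C / c0 ^ ε * h ^ (g / 2) * (c0 ^ ε * h ^ (g / 2)) := by
    calc A w h * (c0 ^ ε * h ^ (g / 2)) ≤ A w h * V w h ^ ε := by
          gcongr
          exact hA0 w h hh
      _ ≤ C * h ^ g := h2
      _ = C / c0 ^ ε * h ^ (g / 2) * (c0 ^ ε * h ^ (g / 2)) := by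
          have : h ^ g = h ^ (g / 2) * h ^ (g / 2) := by
            rw [← Real.rpow_add hh]; ring_nf
          rw [this]
          field_simp
  exact le_of_mul_le_mul_right h5 (by positivity)

end abstract

open MeasureTheory Bundle
open scoped Manifold ContDiff Bundle ENNReal Topology NNReal
open Crest.GeometryTopology.MTW
open Crest.Agent.R226 Crest.Agent.R226.Kant624 Crest.Agent.R226.Reduction624
  Crest.Agent.R226.HolderEnd915 Crest.Agent.R226.E1Shape964 Crest.Agent.R226.Dasm290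
  Crest.Agent.R226.Osc977

section Metric

variable {M : Type*} [MetricSpace M]

/-- `Y_h(x₀) ∩ Y_h(x₁)` -/
def YY (u : M → ℝ) (x₀ x₁ : M) (h : ℝ) : Set M := {y | Dd u x₀ y ≤ h ∧ Dd u x₁ y ≤ h}

/-- the volume of `Y_h(x₀) ∩ Y_h(x₁)` -/
noncomputable def Vp [MeasurableSpace M] (vol : Measure M) (u : M → ℝ) (x₀ x₁ : M) (h : ℝ) : ℝ :=
  (vol (YY u x₀ x₁ h)).toReal

variable [CompactSpace M]

lemma Dd_lip_right {u : M → ℝ} (hu : CConv u) (x y y' : M) :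
    Dd u x y' ≤ Dd u x y + 2 * Metric.diam (univ : Set M) * dist y y' := by
  have h1 := CConv.abs_sub_le (CConv_ctr (CConv.continuous hu)) y y'
  have h2 := halfDistSq_lip y' y x
  rw [Kant624.halfDistSq_comm y', Kant624.halfDistSq_comm y, dist_comm y' y] at h2
  have h3 := (abs_le.1 h1).1
  unfold Dd
  linarith

end Metric

section Geo

variable {n : ℕ} {M : Type*} [MetricSpace M] [ChartedSpace (EuclideanSpace ℝ (Fin n)) M]
  [IsManifold (𝓡 n) ∞ M]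
  [RiemannianBundle (fun p : M => TangentSpace (𝓡 n) p)]
  [CompactSpace M]
  [IsContMDiffRiemannianBundle (𝓡 n) ∞ (EuclideanSpace ℝ (Fin n))
    (fun p : M => TangentSpace (𝓡 n) p)]
  [IsRiemannianManifold (𝓡 n) M] [MeasurableSpace M] [BorelSpace M]

/-- a power bound for the pairs seeing a ball implies `EStatement`. -/
theorem estatement_of_pair_decay (G : GeoData n M) (hg : GoodAll G) (vol : Measure M)
    [IsFiniteMeasure vol] (m : ℝ) {cb : ℝ} (hcb : 0 < cb)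
    (hball : ∀ (x : M) (r : ℝ), 0 < r → r ≤ 1 → cb * r ^ n ≤ (vol (Metric.ball x r)).toReal)
    {C g : ℝ} (hC : 0 < C) (hg0 : 0 < g) (hg1 : g ≤ 1)
    (H : ∀ u ∈ Cls vol m, ∀ (x x' : M) (h : ℝ), 0 < h → h ≤ 1 →
      cb * (1 / (2 * (2 * Metric.diam (univ : Set M) + 1))) ^ n * h ^ n ≤ Vp vol u x x' h →
      |u x - u x'| ≤ C * h ^ g) : EStatement vol m := by
  set dm : ℝ := Metric.diam (univ : Set M) with hdm
  have hdm0 : 0 ≤ dm := Metric.diam_nonneg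
  set r0 : ℝ := 1 / (2 * (2 * dm + 1)) with hr0
  have hr0pos : 0 < r0 := by positivity
  refine estatement_of_osc G hg vol m ?_
  refine ⟨C * 2 ^ g + 1 + dm ^ 2 / 2 * 2 ^ g, g, hg0, ?_⟩
  intro u h1 h2 h3 y h hh hh1
  have hhg : 0 < h ^ g := Real.rpow_pos_of_pos hh g
  have h2g : (0 : ℝ) < 2 ^ g := Real.rpow_pos_of_pos (by norm_num) g
  by_cases h2h : 2 * h ≤ 1
  · have hB : 0 ≤ (C * 2 ^ g + 1) * h ^ g := by positivity
    have hle : osc u y h ≤ (C * 2 ^ g + 1) * h ^ g := by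
      refine osc_le hB ?_
      intro x x' hx hx'
      have e1 : halfDistSq x y - halfDistSq x' y = Dd u x y - Dd u x' y - (u x - u x') := by
        unfold Dd; ring
      have e2 : 0 ≤ Dd u x' y := Dd_nonneg (CConv.continuous h1) x' y
      have e3 : cb * r0 ^ n * (2 * h) ^ n ≤ Vp vol u x x' (2 * h) := by
        have e4 := hball y (r0 * (2 * h)) (by positivity) (by
          calc r0 * (2 * h) ≤ 1 * 1 := by
                gcongr
                rw [hr0, div_le_one (by positivity)]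
                linarith
            _ = 1 := by norm_num)
        calc cb * r0 ^ n * (2 * h) ^ n = cb * (r0 * (2 * h)) ^ n := by
              rw [mul_pow r0]; ring
          _ ≤ (vol (Metric.ball y (r0 * (2 * h)))).toReal := e4
          _ ≤ (vol (YY u x x' (2 * h))).toReal := by
              refine ENNReal.toReal_mono (measure_ne_top _ _) (measure_mono ?_)
              intro y' hy'
              have hy'' : dist y y' < r0 * (2 * h) := by
                rw [dist_comm]; exact hy'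
              have e5 : 2 * dm * dist y y' ≤ h := by
                have e6 : dist y y' ≤ r0 * (2 * h) := hy''.le
                calc 2 * dm * dist y y' ≤ (2 * dm + 1) * (r0 * (2 * h)) := by
                      gcongr
                      linarith
                  _ = h := by rw [hr0]; field_simp
              have e7 := Dd_lip_right h1 x y y'
              have e8 := Dd_lip_right h1 x' y y'
              constructor <;> linarith
      have e5 : |u x - u x'| ≤ C * (2 * h) ^ g := H u ⟨h1, h2, h3⟩ x x' (2 * h) (by positivity) h2h e3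
      have e6 : -(u x - u x') ≤ |u x - u x'| := neg_le_abs _
      have e7 : h ≤ h ^ g := by
        calc h = h ^ (1 : ℝ) := (Real.rpow_one h).symm
          _ ≤ h ^ g := Real.rpow_le_rpow_of_exponent_ge hh hh1 hg1
      rw [Real.mul_rpow (by norm_num) hh.le] at e5
      rw [e1]
      nlinarith
    refine hle.trans (mul_le_mul_of_nonneg_right ?_ hhg.le)
    have : 0 ≤ dm ^ 2 / 2 * 2 ^ g := by positivity
    linarith
  · push Not at h2h
    have e1 := osc_le_diam u y h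
    have e2 : 1 ≤ 2 ^ g * h ^ g := by
      rw [← Real.mul_rpow (by norm_num) hh.le]
      exact Real.one_le_rpow h2h.le hg0.le
    have e3 : dm ^ 2 / 2 ≤ (dm ^ 2 / 2 * 2 ^ g) * h ^ g := by
      have : 0 ≤ dm ^ 2 / 2 := by positivity
      nlinarith
    have e4 : 0 ≤ (C * 2 ^ g + 1) * h ^ g := by positivity
    calc osc u y h ≤ dm ^ 2 / 2 := e1
      _ ≤ (dm ^ 2 / 2 * 2 ^ g) * h ^ g := e3
      _ ≤ (C * 2 ^ g + 1 + dm ^ 2 / 2 * 2 ^ g) * h ^ g := by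
          rw [add_mul _ _ (h ^ g)]; linarith

/-- **the dichotomy for pairs**, R-form (helper227/619) -/
def PairDichR (vol : Measure M) (m : ℝ) : Prop :=
  ∃ K c C7 : ℝ, 1 < K ∧ 0 < c ∧ 0 ≤ C7 ∧ ∀ B δm : ℝ, 0 < B → 0 < δm →
    ∃ δ C1 : ℝ, 0 < δ ∧ δ ≤ δm ∧ 0 < C1 ∧
    ∀ u ∈ Cls vol m, ∀ (x₀ x₁ : M) (h : ℝ), 0 < h → K * h ≤ 1 → C1 * h ≤ u x₀ - u x₁ →
      0 < Vp vol u x₀ x₁ h →
      (∀ w ∈ Cls vol m, ∀ a₀ a₁ : M, ∀ R : ℝ, 1 ≤ R →
        c * Vp vol u x₀ x₁ h ≤ R * Vp vol w a₀ a₁ (K * h) →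
        w a₀ - w a₁ ≤ (1 + δ) * R * (u x₀ - u x₁)) →
      ∃ w ∈ Cls vol m, ∃ a₀ a₁ : M, ∃ R : ℝ, 1 ≤ R ∧
        (1 - C7 * δ) * R * (u x₀ - u x₁) - C7 * h ≤ w a₀ - w a₁ ∧
        B * Vp vol u x₀ x₁ h ≤ R * Vp vol w a₀ a₁ (K * h)

/-- **the dichotomy for pairs** -/
def PairDich (vol : Measure M) (m : ℝ) : Prop :=
  ∃ K c : ℝ, 1 < K ∧ 0 < c ∧ ∀ B δm : ℝ, 0 < B → 0 < δm → ∃ δ C1 : ℝ, 0 < δ ∧ δ ≤ δm ∧ 0 < C1 ∧
    ∀ u ∈ Cls vol m, ∀ (x₀ x₁ : M) (h : ℝ), 0 < h → K * h ≤ 1 → C1 * h ≤ u x₀ - u x₁ →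
      0 < Vp vol u x₀ x₁ h →
      (∀ w ∈ Cls vol m, ∀ a₀ a₁ : M, c * Vp vol u x₀ x₁ h ≤ Vp vol w a₀ a₁ (K * h) →
        w a₀ - w a₁ ≤ (1 + δ) * (u x₀ - u x₁)) →
      ∃ w ∈ Cls vol m, ∃ a₀ a₁ : M, (1 - 2 * δ) * (u x₀ - u x₁) ≤ w a₀ - w a₁ ∧
        B * Vp vol u x₀ x₁ h ≤ Vp vol w a₀ a₁ (K * h)

theorem PairDich.toR {vol : Measure M} {m : ℝ} (H : PairDich vol m) : PairDichR vol m := by
  obtain ⟨K, c, hK, hc, H⟩ := H
  refine ⟨K, c, 2, hK, hc, by norm_num, ?_⟩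
  intro B δm hB hδm
  obtain ⟨δ, C1, h1, h2, h3, H⟩ := H B δm hB hδm
  refine ⟨δ, C1, h1, h2, h3, ?_⟩
  intro u hu x₀ x₁ h hh hK hC hV hNG
  obtain ⟨w, hw, a₀, a₁, e1, e2⟩ := H u hu x₀ x₁ h hh hK hC hV (by
    intro w hw a₀ a₁ e
    have := hNG w hw a₀ a₁ 1 le_rfl (by rw [one_mul]; exact e)
    rwa [mul_one] at this)
  refine ⟨w, hw, a₀, a₁, 1, le_rfl, ?_, by rw [one_mul]; exact e2⟩
  rw [mul_one]
  linarith

/-- **L7p + L8p**: the dichotomy for pairs (R-form) implies `EStatement`. -/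
theorem estatement_of_pairsR' [Nonempty M] (G : GeoData n M) (hg : GoodAll G) (vol : Measure M)
    [IsFiniteMeasure vol] (m : ℝ)
    (hball : ∃ c : ℝ, 0 < c ∧ ∀ (x : M) (r : ℝ), 0 < r → r ≤ 1 →
      c * r ^ n ≤ (vol (Metric.ball x r)).toReal)
    (hD : PairDichR vol m) : EStatement vol m := by
  classical
  obtain ⟨K, c, C7, hK, hc, hC7, hD⟩ := hD
  obtain ⟨cb, hcb, hball⟩ := hball
  set dm : ℝ := Metric.diam (univ : Set M) with hdm
  have hdm0 : 0 ≤ dm := Metric.diam_nonneg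
  by_cases hne : (Cls vol m).Nonempty
  swap
  · refine estatement_of_pair_decay G hg vol m hcb hball one_pos one_pos le_rfl ?_
    intro u hu
    exact absurd ⟨u, hu⟩ hne
  let ι : Type _ := {u : M → ℝ // u ∈ Cls vol m} × M × M
  have : Nonempty ι := by
    obtain ⟨u, hu⟩ := hne
    exact ⟨(⟨u, hu⟩, Classical.arbitrary M, Classical.arbitrary M)⟩
  set A : ι → ℝ → ℝ := fun w _ => |w.1.1 w.2.1 - w.1.1 w.2.2| with hA
  set V : ι → ℝ → ℝ := fun w h => Vp vol w.1.1 w.2.1 w.2.2 h with hV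
  have hsymm : ∀ (u : M → ℝ) (a b : M) (h : ℝ), Vp vol u a b h = Vp vol u b a h := by
    intro u a b h
    unfold Vp YY
    congr 2
    ext y; exact and_comm
  set r0 : ℝ := 1 / (2 * (2 * dm + 1)) with hr0
  have hr0pos : 0 < r0 := by positivity
  have a1 : ∀ (w : ι) (h : ℝ), 0 < h → 0 ≤ A w h := by
    intro w h _; exact abs_nonneg _
  have a2 : ∀ (w : ι) (h : ℝ), 0 < h → A w h ≤ dm * dm := by
    intro w h _
    have e1 := CConv.abs_sub_le w.1.2.1 w.2.1 w.2.2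
    refine e1.trans ?_
    gcongr
    exact dist_le_diam _ _
  have a3 : ∀ (w : ι) (h : ℝ), 0 < h → 0 ≤ V w h := by
    intro w h _; exact ENNReal.toReal_nonneg
  have a4 : ∀ (w : ι) (h : ℝ), 0 < h → V w h ≤ (vol univ).toReal := by
    intro w h _
    exact ENNReal.toReal_mono (measure_ne_top _ _) (measure_mono (subset_univ _))
  have a5 : ∀ B δm : ℝ, 0 < B → 0 < δm → ∃ δ C1 : ℝ, 0 < δ ∧ δ ≤ δm ∧ 0 < C1 ∧
      ∀ (w₀ : ι) (h : ℝ), 0 < h → K * h ≤ 1 → C1 * h ≤ A w₀ h → 0 < V w₀ h →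
        (∀ w : ι, ∀ R : ℝ, 1 ≤ R → c * V w₀ h ≤ R * V w (K * h) →
          A w (K * h) ≤ (1 + δ) * R * A w₀ h) →
        ∃ w : ι, ∃ R : ℝ, 1 ≤ R ∧ (1 - C7 * δ) * R * A w₀ h - C7 * h ≤ A w (K * h) ∧
          B * V w₀ h ≤ R * V w (K * h) := by
    intro B δm hB hδm
    obtain ⟨δ, C1, hδ, hδle, hC1, H⟩ := hD B δm hB hδm
    refine ⟨δ, C1, hδ, hδle, hC1, ?_⟩
    intro w₀ h hh hKh hAC hV0 hNG
    have key : ∀ x₀ x₁ : M, C1 * h ≤ w₀.1.1 x₀ - w₀.1.1 x₁ →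
        |w₀.1.1 w₀.2.1 - w₀.1.1 w₀.2.2| = w₀.1.1 x₀ - w₀.1.1 x₁ →
        Vp vol w₀.1.1 x₀ x₁ h = V w₀ h →
        ∃ w : ι, ∃ R : ℝ, 1 ≤ R ∧ (1 - C7 * δ) * R * A w₀ h - C7 * h ≤ A w (K * h) ∧
          B * V w₀ h ≤ R * V w (K * h) := by
      intro x₀ x₁ a1 a2 a3
      obtain ⟨w, hw, b₀, b₁, R, hR, hw1, hw2⟩ := H w₀.1.1 w₀.1.2 x₀ x₁ h hh hKh a1
        (by rw [a3]; exact hV0)
        (by
          intro w hw b₀ b₁ R hR hb
          have e1 := hNG (⟨w, hw⟩, b₀, b₁) R hR (by rw [← a3]; exact hb)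
          have e2 : |w b₀ - w b₁| ≤ (1 + δ) * R * |w₀.1.1 w₀.2.1 - w₀.1.1 w₀.2.2| := e1
          rw [a2] at e2
          exact (le_abs_self _).trans e2)
      refine ⟨(⟨w, hw⟩, b₀, b₁), R, hR, ?_, ?_⟩
      · show (1 - C7 * δ) * R * |w₀.1.1 w₀.2.1 - w₀.1.1 w₀.2.2| - C7 * h ≤ |w b₀ - w b₁|
        rw [a2]
        exact hw1.trans (le_abs_self _)
      · rw [← a3]; exact hw2
    have hAC' : C1 * h ≤ |w₀.1.1 w₀.2.1 - w₀.1.1 w₀.2.2| := hAC
    rcases le_total 0 (w₀.1.1 w₀.2.1 - w₀.1.1 w₀.2.2) with hs | hs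
    · refine key w₀.2.1 w₀.2.2 ?_ (abs_of_nonneg hs) rfl
      rwa [abs_of_nonneg hs] at hAC'
    · refine key w₀.2.2 w₀.2.1 ?_ ?_ (hsymm _ _ _ _)
      · rw [abs_of_nonpos hs] at hAC'; linarith
      · rw [abs_of_nonpos hs]; ring
  obtain ⟨C, g, hC, hg0, hg1, H⟩ := sup_iter3 (ι := ι) (A := A) (V := V) n (A1 := dm * dm)
    (V1 := (vol univ).toReal) (c0 := cb * r0 ^ n) (K := K) (c := c) (C7 := C7) hK (by positivity)
    ENNReal.toReal_nonneg (by positivity) hc hC7 a1 a2 a3 a4 a5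
  refine estatement_of_pair_decay G hg vol m hcb hball hC hg0 hg1 ?_
  intro u hu x x' h hh hh1 hV'
  exact H (⟨u, hu⟩, x, x') h hh hh1 hV'

/-- **L7p + L8p** for the Riemannian volume, R-form. -/
theorem estatement_of_pairsR [Nonempty M] (G : GeoData n M) (hg : GoodAll G) (m : ℝ)
    (hD : PairDichR (Measure.hausdorffMeasure (n : ℝ) : Measure M) m) :
    EStatement (Measure.hausdorffMeasure (n : ℝ) : Measure M) m := by
  have := VolChart767.isFiniteMeasure (n := n) (M := M)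
  refine estatement_of_pairsR' G hg _ m ?_ hD
  obtain ⟨c, hc, H⟩ := VolChart767.exists_le_vol_ball (n := n) (M := M) 1
  refine ⟨c, by exact_mod_cast hc, ?_⟩
  intro x r hr hr1
  have h1 := H x r hr hr1
  have h2 := ENNReal.toReal_mono (measure_ne_top _ _) h1
  rwa [ENNReal.toReal_mul, ENNReal.toReal_ofReal (by positivity), ENNReal.coe_toReal] at h2

/-- **L7p + L8p** for the Riemannian volume. -/
theorem estatement_of_pairs [Nonempty M] (G : GeoData n M) (hg : GoodAll G) (m : ℝ)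
    (hD : PairDich (Measure.hausdorffMeasure (n : ℝ) : Measure M) m) :
    EStatement (Measure.hausdorffMeasure (n : ℝ) : Measure M) m :=
  estatement_of_pairsR G hg m hD.toR

end Geo

end Crest.Agent.R226.SupPair413
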