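/-
R226 / E (helper619): top level of the crossing-free PAIR scheme (579 / 619 / 227).

`Half1P` (new mass at top level, leaves (A)-(E)) and `Half2P` (the tall column `y_F`, leaf (F))
imply helper413's dichotomy for pairs `PairDichR`.
-/
import Crest.Agent.R226.SupPair_413

set_option autoImplicit false
set_option linter.unusedSectionVars false

open MeasureTheory Bundle Set Filter
open scoped Manifold ContDiff Bundle ENNReal Topology
open Crest.GeometryTopology.MTW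

namespace Crest.Agent.R226.Plan619

open Crest.Agent.R226 Crest.Agent.R226.Kant624 Crest.Agent.R226.Reduction624
  Crest.Agent.R226.HolderEnd915 Crest.Agent.R226.E1Shape964
  Crest.Agent.R226.Osc977 Crest.Agent.R226.SupPair413

variable {M : Type*} [MetricSpace M] [MeasurableSpace M] [BorelSpace M]

/-- **Half 1** (new mass): at a pair `(x₀, x₁)` without growth there are a column `y_F` seen by
`x₀` and a compact set `X` of points seeing `y_F`, at the level of `x₁`, of volume `≥ B V`. -/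
def Half1P (vol : Measure M) (m : ℝ) : Prop :=
  ∃ K1 c1 C7 K3 : ℝ, 0 < c1 ∧ 0 ≤ C7 ∧ 0 < K3 ∧ ∀ B : ℝ, 0 < B → ∃ δ0 : ℝ, 0 < δ0 ∧
    ∀ δ : ℝ, 0 < δ → δ ≤ δ0 → ∃ C1 : ℝ, 0 < C1 ∧
      ∀ u ∈ Cls vol m, ∀ (x₀ x₁ : M) (h : ℝ), 0 < h → C1 * h ≤ u x₀ - u x₁ →
        0 < Vp vol u x₀ x₁ h →
        (∀ x : M, c1 * Vp vol u x₀ x₁ h ≤ Vp vol u x₀ x (K1 * h) →
          u x₀ - u x ≤ (1 + δ) * (u x₀ - u x₁)) →
        ∃ (yF : M) (X : Set M), IsCompact X ∧ Dd u x₀ yF ≤ K3 * h ∧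
          (∀ x ∈ X, Dd u x yF ≤ K3 * h ∧ u x ≤ u x₁ + C7 * δ * (u x₀ - u x₁)) ∧
          B * Vp vol u x₀ x₁ h ≤ (vol X).toReal

/-- **Half 2** (tall column): a column `y` seen by `x₀` and by a compact set `X` of points whose
potential is `≥ a` below `u x₀` produces a pair (of `u` or of `ctr u`) of height `≥ R (a - C2 H)`
and volume `≥ c2 vol X / R`, for some `R ≥ 1`. -/
def Half2P (vol : Measure M) (m : ℝ) : Prop :=
  ∃ K2 c2 C2 : ℝ, 0 < K2 ∧ 0 < c2 ∧ 0 < C2 ∧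
    ∀ u ∈ Cls vol m, ∀ (y x₀ : M) (H a : ℝ) (X : Set M), 0 < H → C2 * H ≤ a → IsCompact X →
      0 < (vol X).toReal → Dd u x₀ y ≤ H → (∀ x ∈ X, Dd u x y ≤ H ∧ a ≤ u x₀ - u x) →
      ∃ w ∈ Cls vol m, ∃ (a₀ a₁ : M) (R : ℝ), 1 ≤ R ∧ R * (a - C2 * H) ≤ w a₀ - w a₁ ∧
        c2 * (vol X).toReal ≤ R * Vp vol w a₀ a₁ (K2 * H)

lemma Vp_mono (vol : Measure M) [IsFiniteMeasure vol] (u : M → ℝ) (x₀ x₁ : M) {h h' : ℝ}
    (hh : h ≤ h') : Vp vol u x₀ x₁ h ≤ Vp vol u x₀ x₁ h' := by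
  unfold Vp
  refine ENNReal.toReal_mono (measure_ne_top _ _) (measure_mono ?_)
  intro y hy
  exact ⟨hy.1.trans hh, hy.2.trans hh⟩

theorem pairDichR_of_halves (vol : Measure M) [IsFiniteMeasure vol] (m : ℝ)
    (h1 : Half1P vol m) (h2 : Half2P vol m) : PairDichR vol m := by
  obtain ⟨K1, c1, C7, K3, hc1, hC7, hK3, H1⟩ := h1
  obtain ⟨K2, c2, C2, hK2, hc2, hC2, H2⟩ := h2
  obtain ⟨K, hK⟩ : ∃ K : ℝ, K = max 2 (max K1 (K3 * K2)) := ⟨_, rfl⟩
  have hKa : 2 ≤ K := by rw [hK]; exact le_max_left _ _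
  have hKb : K1 ≤ K := by rw [hK]; exact (le_max_left _ _).trans (le_max_right _ _)
  have hKc : K3 * K2 ≤ K := by rw [hK]; exact (le_max_right _ _).trans (le_max_right _ _)
  refine ⟨K, c1, C7 + 1, by linarith, hc1, by linarith, ?_⟩
  intro B δm hB hδm
  obtain ⟨δ0, hδ0, H1'⟩ := H1 (B / c2) (by positivity)
  obtain ⟨δ, hδ⟩ : ∃ δ : ℝ, δ = min (min δ0 δm) (1 / (2 * (C7 + 1))) := ⟨_, rfl⟩
  have hC71 : 0 < C7 + 1 := by linarith
  have hδpos : 0 < δ := by
    rw [hδ]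
    exact lt_min (lt_min hδ0 hδm) (by positivity)
  have hδa : δ ≤ δ0 := by rw [hδ]; exact (min_le_left _ _).trans (min_le_left _ _)
  have hδb : δ ≤ δm := by rw [hδ]; exact (min_le_left _ _).trans (min_le_right _ _)
  have hδc : (C7 + 1) * δ ≤ 1 / 2 := by
    have : δ ≤ 1 / (2 * (C7 + 1)) := by rw [hδ]; exact min_le_right _ _
    calc (C7 + 1) * δ ≤ (C7 + 1) * (1 / (2 * (C7 + 1))) := by gcongr
      _ = 1 / 2 := by field_simp
  obtain ⟨C1, hC1, H1''⟩ := H1' δ hδpos hδa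
  obtain ⟨C, hC⟩ : ∃ C : ℝ, C = max C1 (max (2 * K3 * C2) (K3 * C2 / δ)) := ⟨_, rfl⟩
  have hCa : C1 ≤ C := by rw [hC]; exact le_max_left _ _
  have hCb : 2 * K3 * C2 ≤ C := by rw [hC]; exact (le_max_left _ _).trans (le_max_right _ _)
  have hCc : K3 * C2 / δ ≤ C := by rw [hC]; exact (le_max_right _ _).trans (le_max_right _ _)
  refine ⟨δ, C, hδpos, hδb, by linarith, ?_⟩
  intro u hu x₀ x₁ h hh hKh hCh hV hNG
  set a := u x₀ - u x₁ with ha
  have hCapos : 0 < C * h := mul_pos (by linarith) hh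
  have hapos : 0 < a := by linarith
  have hC1h : C1 * h ≤ a := by
    have := mul_le_mul_of_nonneg_right hCa hh.le
    linarith
  obtain ⟨yF, X, hXc, hx0, hX, hXV⟩ := H1'' u hu x₀ x₁ h hh hC1h hV (by
    intro x hx
    have e1 := Vp_mono vol u x₀ x (mul_le_mul_of_nonneg_right hKb hh.le)
    have := hNG u hu x₀ x 1 le_rfl (by rw [one_mul]; linarith)
    rwa [mul_one] at this)
  have h6 : K3 * C2 * h ≤ δ * a := by
    have e1 : K3 * C2 / δ * h ≤ a := by
      have := mul_le_mul_of_nonneg_right hCc hh.le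
      linarith
    calc K3 * C2 * h = δ * (K3 * C2 / δ * h) := by field_simp
      _ ≤ δ * a := by gcongr
  obtain ⟨w, hw, a₀, a₁, R, hR, hwa, hwV⟩ := H2 u hu yF x₀ (K3 * h) ((1 - C7 * δ) * a) X
    (by positivity) (by
      have e1 : 2 * K3 * C2 * h ≤ a := by
        have := mul_le_mul_of_nonneg_right hCb hh.le
        linarith
      have e2 : C7 * δ ≤ 1 / 2 := by nlinarith
      nlinarith) hXc (by
      have : 0 < B / c2 * Vp vol u x₀ x₁ h := by positivity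
      linarith) hx0 (by
      intro x hx
      obtain ⟨e1, e2⟩ := hX x hx
      refine ⟨e1, ?_⟩
      rw [← ha] at e2
      have e3 : u x ≤ u x₀ - a + C7 * δ * a := by
        have : u x₁ = u x₀ - a := by rw [ha]; ring
        linarith
      linarith [e3, (by ring : (1 - C7 * δ) * a = a - C7 * δ * a)])
  refine ⟨w, hw, a₀, a₁, R, hR, ?_, ?_⟩
  · have e1 : (1 - (C7 + 1) * δ) * R * a ≤ R * ((1 - C7 * δ) * a - C2 * (K3 * h)) := by
      have e3 : (1 - (C7 + 1) * δ) * R * a = R * ((1 - C7 * δ) * a - δ * a) := by ring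
      rw [e3]
      have hR0 : 0 ≤ R := by linarith
      refine mul_le_mul_of_nonneg_left ?_ hR0
      linarith
    have e2 : 0 ≤ (C7 + 1) * h := by positivity
    linarith
  · have hR0 : 0 ≤ R := by linarith
    have e1 : Vp vol w a₀ a₁ (K2 * (K3 * h)) ≤ Vp vol w a₀ a₁ (K * h) := by
      refine Vp_mono vol w a₀ a₁ ?_
      have := mul_le_mul_of_nonneg_right hKc hh.le
      linarith
    calc B * Vp vol u x₀ x₁ h = c2 * (B / c2 * Vp vol u x₀ x₁ h) := by field_simp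
      _ ≤ c2 * (vol X).toReal := by gcongr
      _ ≤ R * Vp vol w a₀ a₁ (K2 * (K3 * h)) := hwV
      _ ≤ R * Vp vol w a₀ a₁ (K * h) := by gcongr

end Crest.Agent.R226.Plan619
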