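/-
R226 (helper186): the statement of 881's `parent_seg` (msg 12332) with an explicit constant, and its
transport by a linear isometry: on the tangent spaces `T_x M` the constant does not depend on `x`.
-/
import Crest.Agent.R226.WNc_344
import Crest.Agent.R226.Jac6_344

set_option autoImplicit false
set_option linter.unusedSectionVars false
set_option linter.unusedVariables false

open MeasureTheory Set Filter Topology Module
open scoped ENNReal RealInnerProductSpace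

namespace Crest.Agent.R226.SegIso186

open Crest.Agent.R226.WOff915 Crest.Agent.R226.WNc344

/-- the conclusion of `parent_seg` with the constants `c₁` (of `WNcP`) and `C`. -/
def ParentSegC (E : Type*) [NormedAddCommGroup E] [InnerProductSpace ℝ E] [FiniteDimensional ℝ E]
    [MeasurableSpace E] [BorelSpace E] (c₁ C : ℝ) : Prop :=
  ∀ (μ : Measure E) [μ.IsAddHaarMeasure] (K : Set E) (J : E → ℝ≥0∞), Convex ℝ K →
    WNcP K J (1 / 1024) (1 / 4) c₁ →
    ∀ ps ∈ K, ∀ A ⊆ K, (∀ p ∈ A, 0 ≤ ⟪ps, p - ps⟫) →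
    ∀ 𝒢 ⊆ K, IsCompact 𝒢 → (∀ q ∈ 𝒢, ∃ p ∈ A, ∃ k : ℝ, 1 / 2 ≤ k ∧ k ≤ 1 ∧ q = con ps k p) →
    ∫⁻ p in 𝒢, J p ∂μ ≠ 0 → ∫⁻ p in 𝒢, J p ∂μ ≠ ∞ →
    ∃ zN ∈ A, ∃ zF ∈ A, ∃ W ⊆ K, IsCompact W ∧
      ∫⁻ p in 𝒢, J p ∂μ ≤ ENNReal.ofReal C * ∫⁻ p in W, J p ∂μ ∧
      ∀ p' ∈ W, ∃ p ∈ A, ∃ k : ℝ, 0 < k ∧ k ≤ 1 ∧ ∃ r ∈ segment ℝ zN zF, con ps (k / 4) p ∈ K ∧
        0 ≤ ⟪con ps (k / 4) p, r - con ps (k / 4) p⟫ ∧
        p' = con ps (k / 4) p + (1 / 2 : ℝ) • (r - con ps (k / 4) p) ∧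
        p' = ps + (1 / 2 : ℝ) • (r - ps) + (k / 8) • (p - ps)

section

variable {E : Type*} [NormedAddCommGroup E] [InnerProductSpace ℝ E] [FiniteDimensional ℝ E]
    [MeasurableSpace E] [BorelSpace E]
  {F : Type*} [NormedAddCommGroup F] [InnerProductSpace ℝ F] [FiniteDimensional ℝ F]
    [MeasurableSpace F] [BorelSpace F]

theorem map_con (ι : E ≃ₗᵢ[ℝ] F) (p₀ : E) (a : ℝ) (p : E) :
    ι (con p₀ a p) = con (ι p₀) a (ι p) := by
  unfold con
  rw [map_add, map_smul, map_sub]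

theorem image_con (ι : E ≃ₗᵢ[ℝ] F) (K : Set E) : ι '' K = ι.symm ⁻¹' K := by
  exact ι.toLinearEquiv.toEquiv.image_eq_preimage_symm K

/-- **transport of `parent_seg` by a linear isometry** -/
theorem ParentSegC.of_iso (ι : E ≃ₗᵢ[ℝ] F) {c₁ C : ℝ} (h : ParentSegC E c₁ C) :
    ParentSegC F c₁ C := by
  intro μ _ K J hK hW ps hps A hAK hA 𝒢 h𝒢K h𝒢c h𝒢 hne0 hnet
  have hιm : MeasurableEmbedding (fun q => ι.symm q) := ι.symm.toHomeomorph.measurableEmbedding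
  have hint : ∀ S : Set F, ∫⁻ p in ι ⁻¹' S, J (ι p) ∂(μ.map (fun q => ι.symm q)) =
      ∫⁻ q in S, J q ∂μ := by
    intro S
    rw [hιm.restrict_map, hιm.lintegral_map]
    have e1 : (fun q => ι.symm q) ⁻¹' (ι ⁻¹' S) = S := by
      ext q
      simp
    rw [e1]
    congr 1
    funext q
    simp
  have hHaar : (μ.map (fun q => ι.symm q)).IsAddHaarMeasure :=
    (ι.symm.toContinuousLinearEquiv).isAddHaarMeasure_map μ
  obtain ⟨zN, hzN, zF, hzF, W, hWK, hWc, hWm, hWp⟩ := h (μ.map (fun q => ι.symm q)) (ι ⁻¹' K)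
    (fun p => J (ι p)) (hK.linear_preimage ι.toLinearEquiv.toLinearMap)
    (by
      intro p₀ h₀ p₁ h₁ t ht0 ht1 hoff
      have h2 := hW (ι p₀) h₀ (ι p₁) h₁ t ht0 ht1 (by
        intro a ha0 ha1
        have h3 := hoff a ha0 ha1
        have e1 : ι p₁ - ι p₀ = ι (p₁ - p₀) := (map_sub ι p₁ p₀).symm
        rw [e1, ι.norm_map, ← map_smul, ← map_add, ι.inner_map_map]
        exact h3)
      have e2 : ι p₀ + t • (ι p₁ - ι p₀) = ι (p₀ + t • (p₁ - p₀)) := by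
        rw [map_add, map_smul, map_sub]
      rw [e2] at h2
      exact h2)
    (ι.symm ps) (by simpa using hps) (ι ⁻¹' A) (fun p hp => hAK hp)
    (by
      intro p hp
      have h1 := hA (ι p) hp
      have e1 : ps = ι (ι.symm ps) := by simp
      rw [e1, ← map_sub, ι.inner_map_map] at h1
      simpa using h1)
    (ι ⁻¹' 𝒢) (fun q hq => h𝒢K hq)
    (by
      have e1 : ι ⁻¹' 𝒢 = ι.symm '' 𝒢 := by
        rw [image_con ι.symm]
        rfl
      rw [e1]
      exact h𝒢c.image ι.symm.continuous)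
    (by
      intro q hq
      obtain ⟨p, hp, k, hk0, hk1, e⟩ := h𝒢 (ι q) hq
      refine ⟨ι.symm p, by simpa using hp, k, hk0, hk1, ?_⟩
      rw [← map_con ι.symm, ← e]
      simp)
    (by rw [hint]; exact hne0) (by rw [hint]; exact hnet)
  refine ⟨ι zN, hzN, ι zF, hzF, ι '' W, ?_, hWc.image ι.continuous, ?_, ?_⟩
  · rintro _ ⟨w, hw, rfl⟩
    exact hWK hw
  · have e1 : ι ⁻¹' (ι '' W) = W := ι.injective.preimage_image W
    have h1 := hint (ι '' W)
    rw [e1] at h1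
    rw [← hint 𝒢, ← h1]
    exact hWm
  · rintro _ ⟨w, hw, rfl⟩
    obtain ⟨p, hp, k, hk0, hk1, r, hr, h1, h2, h3, h4⟩ := hWp w hw
    have ec : con ps (k / 4) (ι p) = ι (con (ι.symm ps) (k / 4) p) := by
      rw [map_con]; simp
    refine ⟨ι p, hp, k, hk0, hk1, ι r, ?_, ?_, ?_, ?_, ?_⟩
    · obtain ⟨a, b, ha, hb, hab, e⟩ := hr
      refine ⟨a, b, ha, hb, hab, ?_⟩
      rw [← e, map_add, map_smul, map_smul]
    · rw [ec]; exact h1
    · rw [ec, ← map_sub, ι.inner_map_map]; exact h2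
    · rw [ec, ← map_sub, ← map_smul, ← map_add, ← h3]
    · rw [h4]
      simp only [map_add, map_smul, map_sub, LinearIsometryEquiv.apply_symm_apply]

end

end Crest.Agent.R226.SegIso186
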