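/-
R226 / E (helper977): the slope law in the form used by helper544/619: `f ≥ 0` (non strict) on the
initial part of the chord, no positive part.
-/
import Crest.Agent.R226.Copy_977

set_option autoImplicit false
set_option linter.unusedSectionVars false

open MeasureTheory Bundle Set Filter Asymptotics
open scoped Manifold ContDiff Bundle ENNReal Topology
open Crest.GeometryTopology.MTW

namespace Crest.Agent.R226.SlopeLaw977

open Crest.Agent.R226 Crest.Agent.R226.Kant624 Crest.Agent.R226.Reduction624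
  Crest.Agent.R226.HolderEnd915 Crest.Agent.R226.E1Shape964 Crest.Agent.R226.Dasm290
  Crest.Agent.R226.Osc977 Crest.Agent.R226.Far977 Crest.Agent.R226.NS683
  Crest.Agent.R226.Copy977

variable {n : ℕ} {M : Type*} [MetricSpace M] [ChartedSpace (EuclideanSpace ℝ (Fin n)) M]
  [IsManifold (𝓡 n) ∞ M]
  [RiemannianBundle (fun p : M => TangentSpace (𝓡 n) p)]

/-- `gg` is `Fq` along the chord. -/
theorem gg_eq_Fq (G : GeoData n M) (x : M) (p q : TangentSpace (𝓡 n) x) (x₁ : M) (s : ℝ) :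
    gg G x p q x₁ s = Fq G x x₁ (p + s • (q - p)) := by
  unfold gg Fq
  rw [halfDistSq_comm]

/-- Loeper quasiconvexity along a chord. -/
theorem Fq_le_max [CompactSpace M] {G : GeoData n M} (hg : GoodAll G) {x : M} (x₁ : M)
    {p q : TangentSpace (𝓡 n) x} (hp : p ∈ G.K x) (hq : q ∈ G.K x) {t : ℝ} (h0 : 0 ≤ t)
    (h1 : t ≤ 1) : Fq G x x₁ (p + t • (q - p)) ≤ max (Fq G x x₁ p) (Fq G x x₁ q) := by
  have := fam hg x₁ (μ := 0) le_rfl hp hq (a := 1 - t) (b := t) (by linarith) h0 (by ring)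
  have e : (1 - t) • p + t • q = p + t • (q - p) := by module
  rw [e] at this
  simpa using this

variable [CompactSpace M] [IsContMDiffRiemannianBundle (𝓡 n) ∞ (EuclideanSpace ℝ (Fin n))
    (fun p : M => TangentSpace (𝓡 n) p)]
  [IsRiemannianManifold (𝓡 n) M]

/-- **the slope law**: `(1-t)⁴ (F(1) - F(0)) ≤ F(1) - F(t)` on a chord of `K(x₁)` if `F ≥ 0` on
`[0,t]` and `F(0) ≤ F(1)`. -/
theorem slope_law {G : GeoData n M} (hC : CutFacts G) (hg : GoodAll G) :
    ∀ (x₁ x : M) (p q : TangentSpace (𝓡 n) x₁), p ∈ G.K x₁ → q ∈ G.K x₁ →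
      ∀ t : ℝ, 0 ≤ t → t ≤ 1 → (∀ r : ℝ, 0 ≤ r → r ≤ t → 0 ≤ Fq G x₁ x (p + r • (q - p))) →
      Fq G x₁ x p ≤ Fq G x₁ x q →
      (1 - t) ^ 4 * (Fq G x₁ x q - Fq G x₁ x p) ≤
        Fq G x₁ x q - Fq G x₁ x (p + t • (q - p)) := by
  intro x₁ x p q hp hq t ht0 ht1 hpos hle
  have hgg : ∀ s, gg G x₁ p q x s = Fq G x₁ x (p + s • (q - p)) := gg_eq_Fq G x₁ p q x
  have g0 : gg G x₁ p q x 0 = Fq G x₁ x p := by rw [hgg]; simp
  have g1 : gg G x₁ p q x 1 = Fq G x₁ x q := by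
    rw [hgg]; congr 1; module
  have hqc := Fq_le_max hg x hp hq ht0 ht1
  rw [max_eq_right hle] at hqc
  set φ : ℝ → ℝ := gg G x₁ p q x with hφ
  have hφt : φ t = Fq G x₁ x (p + t • (q - p)) := hgg t
  have hcont : Continuous φ := continuous_gg' G x₁ p q x
  rw [← g0, ← g1, ← hφt]
  rw [← g0, ← g1] at hle
  rw [← g1, ← hφt] at hqc
  have hpos' : ∀ r : ℝ, 0 ≤ r → r ≤ t → 0 ≤ φ r := fun r h1 h2 => by rw [hgg]; exact hpos r h1 h2
  rcases ht1.eq_or_lt with h1 | ht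
  · rw [h1]; simp
  have h1t : 0 < 1 - t := by linarith
  have hP : 0 ≤ (1 - t) ^ 4 := by positivity
  have hP1 : (1 - t) ^ 4 ≤ 1 := pow_le_one₀ h1t.le (by linarith)
  have hmax : max 0 (φ 1 - φ t) = φ 1 - φ t := max_eq_right (by linarith)
  have hφ0 := hpos' 0 le_rfl ht0
  by_cases hS : ∃ s, (0 ≤ s ∧ s ≤ t) ∧ φ s ≤ 0
  · have hcomp : IsCompact {s : ℝ | s ∈ Icc 0 t ∧ φ s ≤ 0} :=
      isCompact_Icc.inter_right (isClosed_le hcont continuous_const)
    obtain ⟨s0, hs0, hmaxs⟩ := hcomp.exists_isGreatest (by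
      obtain ⟨s, hs1, hs2⟩ := hS
      exact ⟨s, hs1, hs2⟩)
    have hφ1 : 0 ≤ φ 1 := by linarith
    rcases hs0.1.2.lt_or_eq with hs0t | h
    · have hlim : Tendsto (fun a : ℝ => (1 - t) ^ 4 * (φ 1 - φ a)) (𝓝[>] s0)
          (𝓝 ((1 - t) ^ 4 * (φ 1 - φ s0))) :=
        ((continuous_const.mul (continuous_const.sub hcont)).tendsto s0).mono_left
          nhdsWithin_le_nhds
      have h1 : (1 - t) ^ 4 * (φ 1 - φ s0) ≤ φ 1 - φ t := by
        refine le_of_tendsto hlim ?_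
        filter_upwards [Ioo_mem_nhdsGT hs0t] with a ha
        have ha0 : 0 ≤ a := hs0.1.1.trans ha.1.le
        have h2 := slope_ineq hC hg hp hq (xp := x) ha0 ha.2.le ht (fun s hs1 hs2 => by
          by_contra hneg
          push Not at hneg
          have h3 : s ≤ s0 := hmaxs ⟨⟨by linarith, hs2⟩, hneg⟩
          have := ha.1
          linarith)
        have h4 : (1 - a) ^ 4 * max 0 (φ 1 - φ t) ≤ 1 * (φ 1 - φ t) := by
          rw [hmax]
          have h5 : (1 - a) ^ 4 ≤ 1 := pow_le_one₀ (by linarith [ha.2]) (by linarith)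
          have h6 : 0 ≤ φ 1 - φ t := by linarith
          gcongr
        rw [one_mul] at h4
        exact h2.trans h4
      have h3 : (1 - t) ^ 4 * (φ 1 - φ 0) ≤ (1 - t) ^ 4 * (φ 1 - φ s0) := by
        refine mul_le_mul_of_nonneg_left ?_ hP
        have := hs0.2
        linarith
      exact h3.trans h1
    · have h2 : φ t ≤ 0 := by
        have := hs0.2
        rwa [h] at this
      have h3 : (1 - t) ^ 4 * (φ 1 - φ 0) ≤ 1 * (φ 1 - φ 0) :=
        mul_le_mul_of_nonneg_right hP1 (by linarith)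
      linarith
  · push Not at hS
    have h2 := slope_ineq hC hg hp hq (xp := x) le_rfl ht0 ht
      (fun s hs1 hs2 => hS s ⟨hs1, hs2⟩)
    rw [sub_zero, one_pow, one_mul] at h2
    have h3 : max 0 (gg G x₁ p q x 1 - gg G x₁ p q x t) = φ 1 - φ t := hmax
    rw [h3] at h2
    exact h2

/-- **the unconditional slope law**: on every chord of `K(x₁)` with `F(0) ≤ F(1)`,
`(1-t)⁴ min (F(1) - F(0)) (F(1)) ≤ F(1) - F(t)` (no sign condition on `F`). -/
theorem slope_law_min {G : GeoData n M} (hC : CutFacts G) (hg : GoodAll G) {x₁ x : M}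
    {p q : TangentSpace (𝓡 n) x₁} (hp : p ∈ G.K x₁) (hq : q ∈ G.K x₁) {t : ℝ} (ht0 : 0 ≤ t)
    (ht1 : t ≤ 1) (hle : Fq G x₁ x p ≤ Fq G x₁ x q) :
    (1 - t) ^ 4 * min (Fq G x₁ x q - Fq G x₁ x p) (Fq G x₁ x q) ≤
      Fq G x₁ x q - Fq G x₁ x (p + t • (q - p)) := by
  have hqc := Fq_le_max hg x hp hq ht0 ht1
  rw [max_eq_right hle] at hqc
  rcases ht1.eq_or_lt with h1 | ht
  · have e : p + t • (q - p) = q := by rw [h1]; module
    rw [e, h1]; simp
  have h1t : 0 < 1 - t := by linarith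
  have hP : 0 ≤ (1 - t) ^ 4 := by positivity
  have hP1 : (1 - t) ^ 4 ≤ 1 := pow_le_one₀ h1t.le (by linarith)
  set m : ℝ := min (Fq G x₁ x q - Fq G x₁ x p) (Fq G x₁ x q) with hm
  have hm1 : m ≤ Fq G x₁ x q - Fq G x₁ x p := min_le_left _ _
  have hm2 : m ≤ Fq G x₁ x q := min_le_right _ _
  rcases le_or_gt m 0 with hm0 | hm0
  · have : (1 - t) ^ 4 * m ≤ 0 := mul_nonpos_of_nonneg_of_nonpos hP hm0
    linarith
  rcases le_or_gt (Fq G x₁ x (p + t • (q - p))) 0 with hneg | hpos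
  · have : (1 - t) ^ 4 * m ≤ 1 * m := mul_le_mul_of_nonneg_right hP1 hm0.le
    linarith
  · have g0 : gg G x₁ p q x 0 = Fq G x₁ x p := by rw [gg_eq_Fq]; simp
    have g1 : gg G x₁ p q x 1 = Fq G x₁ x q := by rw [gg_eq_Fq]; congr 1; module
    refine escape hC hg hp hq (xp := x) ht0 ht (by linarith) ?_ ?_ ?_ ?_
    · rw [g0, g1]; exact hm1
    · rw [g1]; exact hm2
    · rw [gg_eq_Fq]; exact hpos
    · rw [g1, gg_eq_Fq]

end Crest.Agent.R226.SlopeLaw977
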