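/-
R226 / (A') (helper544): one Tukey point `p₀` of the chart `K(x₁)` giving at the same time
* 487's half-space property (hence no growth on the column `exp_{x₁} p₀`), and
* the mass of the outer half of `S = Y_h(x₀) ∩ Y_h(x₁)`: `AA = {p ∈ K(x₁) | exp p ∈ S,
  0 ≤ ⟪p - p₀, p₀⟫}` is compact and `vol S ≤ (n+1) vol (exp AA) ≤ (n+1) C ∫_{AA} J`.
-/
import Crest.Agent.R226.NGcol_487
import Crest.Agent.R226.SupPair_413
import Crest.Agent.R226.YStar_544

set_option autoImplicit false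
set_option linter.unusedSectionVars false

open MeasureTheory Bundle Set Filter
open scoped Manifold ContDiff Bundle ENNReal Topology
open Crest.GeometryTopology.MTW

namespace Crest.Agent.R226.TukeyMass544

open Crest.Agent.R226 Crest.Agent.R226.Kant624 Crest.Agent.R226.E1Shape964
  Crest.Agent.R226.Dasm290 Crest.Agent.R226.Osc977 Crest.Agent.R226.Far977
  Crest.Agent.R226.NG487 Crest.Agent.R226.SupPair413 Crest.Agent.R226.YStar544

variable {n : ℕ} {M : Type*} [MetricSpace M] [ChartedSpace (EuclideanSpace ℝ (Fin n)) M]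
  [IsManifold (𝓡 n) ∞ M]
  [RiemannianBundle (fun p : M => TangentSpace (𝓡 n) p)]

/-- the outer half (with respect to `p₀`) of `log S`, `S = Y_h(x₀) ∩ Y_h(x₁)`. -/
def AA (G : GeoData n M) (u : M → ℝ) (x0 x1 : M) (p0 : TangentSpace (𝓡 n) x1) (h : ℝ) :
    Set (TangentSpace (𝓡 n) x1) :=
  {p | p ∈ G.K x1 ∧ Dd u x1 (G.ex x1 p) ≤ h ∧ Dd u x0 (G.ex x1 p) ≤ h ∧
    0 ≤ (inner ℝ (p - p0) p0 : ℝ)}

section

variable [IsContMDiffRiemannianBundle (𝓡 n) ∞ (EuclideanSpace ℝ (Fin n))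
    (fun p : M => TangentSpace (𝓡 n) p)]
  [IsRiemannianManifold (𝓡 n) M] [CompactSpace M] {G : GeoData n M}

theorem AA_subset {u : M → ℝ} {x0 x1 : M} {p0 : TangentSpace (𝓡 n) x1} {h : ℝ} :
    AA G u x0 x1 p0 h ⊆ G.K x1 := fun _ hp => hp.1

theorem isCompact_AA {u : M → ℝ} (hu : CConv u) (x0 x1 : M) (p0 : TangentSpace (𝓡 n) x1)
    (h : ℝ) : IsCompact (AA G u x0 x1 p0 h) := by
  have huc := CConv.continuous hu
  have hctr : CConv (ctr u) := CConv_ctr huc
  have h1 : ∀ x : M, Continuous (fun p : TangentSpace (𝓡 n) x1 => Dd u x (G.ex x1 p)) := by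
    intro x
    have h2 := (continuous_Dd hctr x).comp (continuous_exv G x1)
    have h3 : ((fun y => Dd (ctr u) y x) ∘ G.ex x1) =
        fun p : TangentSpace (𝓡 n) x1 => Dd u x (G.ex x1 p) := by
      funext p
      simp only [Function.comp_apply, Dd_ctr hu]
    rwa [h3] at h2
  have h4 : AA G u x0 x1 p0 h = G.K x1 ∩ ({p | Dd u x1 (G.ex x1 p) ≤ h} ∩
      ({p | Dd u x0 (G.ex x1 p) ≤ h} ∩ {p | 0 ≤ (inner ℝ (p - p0) p0 : ℝ)})) := rfl
  rw [h4]
  refine (CutTop478.isCompact_K G x1).inter_right ?_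
  refine (isClosed_le (h1 x1) continuous_const).inter
    ((isClosed_le (h1 x0) continuous_const).inter (isClosed_le continuous_const ?_))
  fun_prop

variable [MeasurableSpace M] [BorelSpace M]

/-- **Tukey column with mass**: 487's `tukey_column` with the mass of the outer half of `log S`. -/
theorem tukey_mass (hg : GoodAll G) {vol : Measure M} [IsFiniteMeasure vol]
    (hvol : vol ≪ (Measure.hausdorffMeasure (n : ℝ) : Measure M)) {u : M → ℝ} (hu : CConv u)
    (x0 x1 : M) {h : ℝ} (hh : 0 ≤ h) :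
    ∃ p0 ∈ G.K x1, Dd u x1 (G.ex x1 p0) ≤ h ∧ (∀ (x : M) (ε : ℝ), 0 < ε →
      (vol (SS u x0 x1 h)).toReal ≤ (n + 1) *
        (vol {y | Dd u x0 y ≤ h ∧ Dd u x y ≤ h + Dd u x (G.ex x1 p0) + ε}).toReal) ∧
      (vol (SS u x0 x1 h)).toReal ≤
        (n + 1) * (vol (G.ex x1 '' AA G u x0 x1 p0 h)).toReal := by
  classical
  let ms : MeasurableSpace (TangentSpace (𝓡 n) x1) := borel _
  have bs : BorelSpace (TangentSpace (𝓡 n) x1) := ⟨rfl⟩
  have hfin : FiniteDimensional ℝ (TangentSpace (𝓡 n) x1) :=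
    inferInstanceAs (FiniteDimensional ℝ (EuclideanSpace ℝ (Fin n)))
  have hrank : Module.finrank ℝ (TangentSpace (𝓡 n) x1) = n := by
    have : Module.finrank ℝ (EuclideanSpace ℝ (Fin n)) = n := by simp
    exact this
  have huc := CConv.continuous hu
  obtain ⟨L, hLm, hLK, hL⟩ := exists_log G hvol x1
  set S : Set M := SS u x0 x1 h with hS
  have hSm : MeasurableSet S := (isClosed_SS hu x0 x1 h).measurableSet
  set μ : Measure (TangentSpace (𝓡 n) x1) := (vol.restrict S).map L with hμ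
  set K0 : Set (TangentSpace (𝓡 n) x1) := QS G (ctr u) x1 h with hK0
  have hctr : CConv (ctr u) := CConv_ctr huc
  have hK0c : Convex ℝ K0 := convex_QS hg hctr x1 h
  have hK0cl : IsClosed K0 := by
    have h1 : K0 = G.K x1 ∩ {p | Dd (ctr u) (G.ex x1 p) x1 ≤ h} := rfl
    rw [h1]
    exact (CutTop478.isClosed_K G x1).inter
      (isClosed_le ((continuous_Dd hctr x1).comp (continuous_exv G x1)) continuous_const)
  have hK0ne : K0.Nonempty := by
    obtain ⟨y, hy⟩ := hu x1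
    obtain ⟨p, hp, hpy⟩ := exists_mem_K G x1 y
    refine ⟨p, hp, ?_⟩
    rw [Dd_ctr hu, hpy, (Dd_eq_zero huc).2 hy]
    exact hh
  have hK0n : μ K0ᶜ = 0 := by
    rw [hμ, Measure.map_apply hLm hK0cl.measurableSet.compl,
      Measure.restrict_apply (hLm hK0cl.measurableSet.compl)]
    refine measure_mono_null ?_ (show vol {y | ¬ (G.ex x1 (L y) = y ∧
      ∀ p ∈ G.K x1, G.ex x1 p = y → p = L y)} = 0 from hL)
    rintro y ⟨hy1, hy2⟩ ⟨hy3, -⟩
    apply hy1
    refine ⟨hLK y, ?_⟩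
    rw [Dd_ctr hu, hy3]
    exact hy2.2
  obtain ⟨z, hzK, hz⟩ := Tukey229.tukey μ hK0cl hK0c hK0ne hK0n
  have hz1 : Dd u x1 (G.ex x1 z) ≤ h := by
    have := hzK.2
    rwa [Dd_ctr hu] at this
  have h2 : μ.real univ = (vol S).toReal := by
    rw [Measure.real, hμ, Measure.map_apply hLm MeasurableSet.univ, preimage_univ,
      Measure.restrict_apply_univ]
  refine ⟨z, hzK.1, hz1, fun x ε hε => ?_, ?_⟩
  · obtain ⟨f, hf⟩ := Dd_halfspace (u := u) hg x hzK.1 hε
    have h1 := hz f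
    rw [hrank] at h1
    have h3 : μ.real (Tukey229.up f z) ≤
        (vol {y | Dd u x0 y ≤ h ∧ Dd u x y ≤ h + Dd u x (G.ex x1 z) + ε}).toReal := by
      rw [Measure.real, hμ, Measure.map_apply hLm (Tukey229.measurableSet_up f z),
        Measure.restrict_apply (hLm (Tukey229.measurableSet_up f z))]
      refine ENNReal.toReal_mono (measure_ne_top _ _) ?_
      refine measure_mono_ae ?_
      filter_upwards [hL] with y hy hyS
      obtain ⟨hy1, hy2⟩ := hyS
      have h4 := hf (L y) (hLK y) hy1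
      rw [hy.1] at h4
      have h5 := hy2.1
      have h6 := hy2.2
      have h7 := Dd_nonneg huc x1 (G.ex x1 z)
      exact ⟨h5, by linarith⟩
    rw [h2] at h1
    calc (vol S).toReal ≤ (n + 1) * μ.real (Tukey229.up f z) := h1
      _ ≤ _ := by gcongr
  · have h1 := hz (innerSL ℝ z)
    rw [hrank, h2] at h1
    have h3 : μ.real (Tukey229.up (innerSL ℝ z) z) ≤
        (vol (G.ex x1 '' AA G u x0 x1 z h)).toReal := by
      rw [Measure.real, hμ, Measure.map_apply hLm (Tukey229.measurableSet_up _ z),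
        Measure.restrict_apply (hLm (Tukey229.measurableSet_up _ z))]
      refine ENNReal.toReal_mono (measure_ne_top _ _) ?_
      refine measure_mono_ae ?_
      filter_upwards [hL] with y hy hyS
      obtain ⟨hy1, hy2⟩ := hyS
      refine ⟨L y, ⟨hLK y, ?_, ?_, ?_⟩, hy.1⟩
      · rw [hy.1]; exact hy2.2
      · rw [hy.1]; exact hy2.1
      · have h4 : (innerSL ℝ z) z ≤ (innerSL ℝ z) (L y) := hy1
        rw [innerSL_apply_apply, innerSL_apply_apply] at h4
        rw [real_inner_comm, inner_sub_right]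
        linarith
    calc (vol S).toReal ≤ (n + 1) * μ.real (Tukey229.up (innerSL ℝ z) z) := h1
      _ ≤ _ := by gcongr

/-- `∫`-form of the mass: `J` any density with the area inequality at `x₁` (second clause of
`Jac344.exists_area`). -/
theorem mass_of_area {vol : Measure M} [IsFiniteMeasure vol] {u : M → ℝ} (hu : CConv u)
    {x0 x1 : M} {p0 : TangentSpace (𝓡 n) x1} {h C : ℝ}
    [MeasurableSpace (TangentSpace (𝓡 n) x1)] {μ : Measure (TangentSpace (𝓡 n) x1)}
    {J : TangentSpace (𝓡 n) x1 → ℝ≥0∞}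
    (harea : ∀ A ⊆ G.K x1, IsCompact A → vol (G.ex x1 '' A) ≤
      ENNReal.ofReal C * ∫⁻ p in A, J p ∂μ)
    (hmass : (vol (SS u x0 x1 h)).toReal ≤
        (n + 1) * (vol (G.ex x1 '' AA G u x0 x1 p0 h)).toReal) :
    vol (SS u x0 x1 h) ≤
      ENNReal.ofReal ((n + 1) * C) * ∫⁻ p in AA G u x0 x1 p0 h, J p ∂μ := by
  have h1 := harea _ (AA_subset (G := G) (u := u) (x0 := x0) (x1 := x1) (p0 := p0) (h := h))
    (isCompact_AA hu x0 x1 p0 h)
  have h2 : vol (SS u x0 x1 h) ≤ ENNReal.ofReal (n + 1) * vol (G.ex x1 '' AA G u x0 x1 p0 h) := by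
    rw [← ENNReal.ofReal_toReal (measure_ne_top vol (SS u x0 x1 h)),
      ← ENNReal.ofReal_toReal (measure_ne_top vol (G.ex x1 '' AA G u x0 x1 p0 h)),
      ← ENNReal.ofReal_mul (by positivity)]
    exact ENNReal.ofReal_le_ofReal hmass
  calc vol (SS u x0 x1 h) ≤ ENNReal.ofReal (n + 1) * vol (G.ex x1 '' AA G u x0 x1 p0 h) := h2
    _ ≤ ENNReal.ofReal (n + 1) * (ENNReal.ofReal C * ∫⁻ p in AA G u x0 x1 p0 h, J p ∂μ) := by
        gcongr
    _ = _ := by rw [← mul_assoc, ← ENNReal.ofReal_mul (by positivity)]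

/-- **(A')**: no growth of the pair functional (`R = 1`) gives one point `p₀` with
* `D(x₁, exp p₀) ≤ h`, `u(x₀) - u(x) ≤ a'` for all `x` with `D(x, exp p₀) ≤ L`;
* `vol S ≤ (n+1) vol (exp AA)`. -/
theorem ng_mass (hg : GoodAll G) {vol : Measure M} [IsFiniteMeasure vol]
    (hvol : vol ≪ (Measure.hausdorffMeasure (n : ℝ) : Measure M)) {u : M → ℝ} (hu : CConv u)
    {x0 x1 : M} {h h' L a' : ℝ} (hh : 0 ≤ h) (hhh : h < h') (hL : h + L < h')
    (hNG : ∀ x : M, (vol (SS u x0 x1 h)).toReal ≤ (n + 1) * (vol (SS u x0 x h')).toReal →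
      u x0 - u x ≤ a') :
    ∃ p0 ∈ G.K x1, Dd u x1 (G.ex x1 p0) ≤ h ∧
      (∀ x : M, Dd u x (G.ex x1 p0) ≤ L → u x0 - u x ≤ a') ∧
      (vol (SS u x0 x1 h)).toReal ≤
        (n + 1) * (vol (G.ex x1 '' AA G u x0 x1 p0 h)).toReal := by
  obtain ⟨p0, hp0, h1, h2, h3⟩ := tukey_mass hg hvol hu x0 x1 hh
  refine ⟨p0, hp0, h1, fun x hx => hNG x ?_, h3⟩
  have h3 := h2 x (h' - h - L) (by linarith)
  refine h3.trans ?_
  have h4 : (vol {y | Dd u x0 y ≤ h ∧ Dd u x y ≤ h + Dd u x (G.ex x1 p0) + (h' - h - L)}).toReal ≤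
      (vol (SS u x0 x h')).toReal := by
    refine ENNReal.toReal_mono (measure_ne_top _ _) (measure_mono ?_)
    rintro y ⟨hy1, hy2⟩
    exact ⟨by linarith, by linarith⟩
  gcongr

/-- **(A') + (B)**: the start of the first half.  No growth of the pair functional at `(x₀, x₁)`
(fraction `1/(n+1)`, level `6h`) gives `p₀ ∈ K(x₁)` with the mass of the outer half of `log S`, and
the pole `p* = (1-s) p₀`, `s = h/(δ a)`, `a = u(x₀) - u(x₁)`. -/
theorem start_pair (hC : CutFacts G) (hD : DFacts G) (hg : GoodAll G) {vol : Measure M}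
    [IsFiniteMeasure vol] (hvol : vol ≪ (Measure.hausdorffMeasure (n : ℝ) : Measure M))
    {u : M → ℝ} (hu : CConv u) {x0 x1 : M} {h δ a s : ℝ} (hh : 0 < h) (hδ : 0 < δ)
    (ha : a = u x0 - u x1) (hs : s = h / (δ * a)) (hha : 2 * h ≤ δ * a)
    (hNG : ∀ x : M, 1 / (n + 1) * Vp vol u x0 x1 h ≤ Vp vol u x0 x (6 * h) →
      u x0 - u x ≤ (1 + δ) * a) :
    0 < s ∧ s ≤ 1 / 2 ∧ ∃ p0 ∈ G.K x1, (1 - s) • p0 ∈ G.K x1 ∧ Dd u x1 (G.ex x1 p0) ≤ h ∧
      Dd u x1 (G.ex x1 ((1 - s) • p0)) ≤ 2 * h ∧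
      (∀ x, Dd u x1 (G.ex x1 ((1 - s) • p0)) + s * (u x - u x1) - h ≤
        Dd u x (G.ex x1 ((1 - s) • p0))) ∧
      Vp vol u x0 x1 h ≤ (n + 1) * (vol (G.ex x1 '' AA G u x0 x1 p0 h)).toReal := by
  have huc := CConv.continuous hu
  have hda : 0 < δ * a := by linarith
  have hs0 : 0 < s := by rw [hs]; positivity
  have hs1 : s ≤ 1 / 2 := by
    rw [hs, div_le_iff₀ hda]; linarith
  have hsa : s * (δ * a) = h := by rw [hs, div_mul_cancel₀ _ hda.ne']
  refine ⟨hs0, hs1, ?_⟩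
  have hn : (0 : ℝ) < n + 1 := by positivity
  obtain ⟨p0, hp0, h1, h2, h3⟩ := ng_mass (G := G) hg hvol hu (x0 := x0) (x1 := x1) (h := h)
    (h' := 6 * h) (L := 4 * h) (a' := (1 + δ) * a) hh.le (by linarith) (by linarith) (by
      intro x hx
      refine hNG x ?_
      have e1 : (vol (SS u x0 x1 h)).toReal = Vp vol u x0 x1 h := rfl
      have e2 : (vol (SS u x0 x (6 * h))).toReal = Vp vol u x0 x (6 * h) := rfl
      rw [e1, e2] at hx
      rw [one_div, inv_mul_le_iff₀ hn]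
      exact hx)
  have hps : (1 - s) • p0 ∈ G.K x1 := smul_mem_K hg hp0 hs0.le (by linarith)
  obtain ⟨h4, h5⟩ := ystar (L := 4 * h) hC hD hg hu hp0 hh.le hs0.le hs1 h1 (by linarith) (by
    intro x hx
    have e1 := h2 x hx
    have e2 : u x1 - u x ≤ δ * a := by linarith [e1, ha]
    calc s * (u x1 - u x) ≤ s * (δ * a) := mul_le_mul_of_nonneg_left e2 hs0.le
      _ = h := hsa)
  refine ⟨p0, hp0, hps, h1, ?_, fun x => ?_, h3⟩
  · have : (1 - s) * h ≤ h := by nlinarith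
    linarith
  · have e1 := h5 x
    have e2 : 0 ≤ (1 - s) * Dd u x (G.ex x1 p0) :=
      mul_nonneg (by linarith) (Dd_nonneg huc _ _)
    have e3 : (1 - s) * Dd u x1 (G.ex x1 p0) ≤ h := by
      have e4 : (1 - s) * Dd u x1 (G.ex x1 p0) ≤ (1 - s) * h :=
        mul_le_mul_of_nonneg_left h1 (by linarith)
      nlinarith
    nlinarith

end

end Crest.Agent.R226.TukeyMass544
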