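/-
R226 (helper186): Half 1 of the pair dichotomy (new mass at top level) from the statement
`ParentSegC` of 881's `parent_seg` (segment trick, msg 12332): no (W0) is used.

* `seg_split`  : Loeper on the segment `[zN, zF]` of `K(x₁)`;
* `Half1Q`     : `Half1P` with a free level constant `K3`;
* `half1Q`     : the assembly;
* `pairDichR_of_halvesQ`.
-/
import Crest.Agent.R226.SegIso_186
import Crest.Agent.R226.Plan_619
import Crest.Agent.R226.Copies_301
import Crest.Agent.R226.EContact_486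
import Crest.Agent.R226.TukeyMass_544
import Crest.Agent.R226.Alex_977
import Crest.Agent.R226.SlopeLaw_977
import Crest.Agent.R226.Depth_946

set_option autoImplicit false
set_option linter.unusedSectionVars false

open MeasureTheory Bundle Set Filter
open scoped Manifold ContDiff Bundle ENNReal Topology
open Crest.GeometryTopology.MTW

namespace Crest.Agent.R226.Half1_186

open Crest.Agent.R226 Crest.Agent.R226.Kant624 Crest.Agent.R226.Reduction624
  Crest.Agent.R226.HolderEnd915 Crest.Agent.R226.E1Shape964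
  Crest.Agent.R226.Dasm290 Crest.Agent.R226.Osc977 Crest.Agent.R226.Far977
  Crest.Agent.R226.SupPair413 Crest.Agent.R226.YStar544 Crest.Agent.R226.EContact486
  Crest.Agent.R226.TukeyMass544 Crest.Agent.R226.Alex977 Crest.Agent.R226.WOff915
  Crest.Agent.R226.WNc344 Crest.Agent.R226.Copies301 Crest.Agent.R226.SegIso186
  Crest.Agent.R226.Plan619 Crest.Agent.R226.Jac344 Crest.Agent.R226.NG487
  Crest.Agent.R226.SlopeLaw977

section Top

variable {M : Type*} [MetricSpace M] [MeasurableSpace M] [BorelSpace M]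

/-- `Half1P` with a free level constant `K3`. -/
def Half1Q (vol : Measure M) (m : ℝ) : Prop :=
  ∃ K1 K3 c1 C7 : ℝ, 0 < K3 ∧ 0 < c1 ∧ 0 ≤ C7 ∧ ∀ B : ℝ, 0 < B → ∃ δ0 : ℝ, 0 < δ0 ∧
    ∀ δ : ℝ, 0 < δ → δ ≤ δ0 → ∃ C1 : ℝ, 0 < C1 ∧
      ∀ u ∈ Cls vol m, ∀ (x₀ x₁ : M) (h : ℝ), 0 < h → C1 * h ≤ u x₀ - u x₁ →
        0 < Vp vol u x₀ x₁ h →
        (∀ x : M, c1 * Vp vol u x₀ x₁ h ≤ Vp vol u x₀ x (K1 * h) →
          u x₀ - u x ≤ (1 + δ) * (u x₀ - u x₁)) →
        ∃ (yF : M) (X : Set M), IsCompact X ∧ Dd u x₀ yF ≤ K3 * h ∧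
          (∀ x ∈ X, Dd u x yF ≤ K3 * h ∧ u x ≤ u x₁ + C7 * δ * (u x₀ - u x₁)) ∧
          B * Vp vol u x₀ x₁ h ≤ (vol X).toReal

theorem pairDichR_of_halvesQ (vol : Measure M) [IsFiniteMeasure vol] (m : ℝ)
    (h1 : Half1Q vol m) (h2 : Half2P vol m) : PairDichR vol m := by
  obtain ⟨K1, K3, c1, C7, hK3, hc1, hC7, H1⟩ := h1
  obtain ⟨K2, c2, C2, hK2, hc2, hC2, H2⟩ := h2
  obtain ⟨K, hK⟩ : ∃ K : ℝ, K = max 2 (max K1 (K3 * K2)) := ⟨_, rfl⟩
  have hKa : 2 ≤ K := by rw [hK]; exact le_max_left _ _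
  have hKb : K1 ≤ K := by rw [hK]; exact (le_max_left _ _).trans (le_max_right _ _)
  have hKc : K3 * K2 ≤ K := by rw [hK]; exact (le_max_right _ _).trans (le_max_right _ _)
  refine ⟨K, c1, C7 + 1, by linarith, hc1, by linarith, ?_⟩
  intro B δm hB hδm
  obtain ⟨δ0, hδ0, H1'⟩ := H1 (B / c2) (by positivity)
  obtain ⟨δ, hδ⟩ : ∃ δ : ℝ, δ = min (min δ0 δm) (1 / (2 * (C7 + 1))) := ⟨_, rfl⟩
  have hC71 : 0 < C7 + 1 := by linarith
  have hδpos : 0 < δ := by
    rw [hδ]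
    exact lt_min (lt_min hδ0 hδm) (by positivity)
  have hδa : δ ≤ δ0 := by rw [hδ]; exact (min_le_left _ _).trans (min_le_left _ _)
  have hδb : δ ≤ δm := by rw [hδ]; exact (min_le_left _ _).trans (min_le_right _ _)
  have hδc : (C7 + 1) * δ ≤ 1 / 2 := by
    have : δ ≤ 1 / (2 * (C7 + 1)) := by rw [hδ]; exact min_le_right _ _
    calc (C7 + 1) * δ ≤ (C7 + 1) * (1 / (2 * (C7 + 1))) := by gcongr
      _ = 1 / 2 := by field_simp
  obtain ⟨C1, hC1, H1''⟩ := H1' δ hδpos hδa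
  obtain ⟨C, hC⟩ : ∃ C : ℝ, C = max C1 (max (2 * K3 * C2) (K3 * C2 / δ)) := ⟨_, rfl⟩
  have hCa : C1 ≤ C := by rw [hC]; exact le_max_left _ _
  have hCb : 2 * K3 * C2 ≤ C := by rw [hC]; exact (le_max_left _ _).trans (le_max_right _ _)
  have hCc : K3 * C2 / δ ≤ C := by rw [hC]; exact (le_max_right _ _).trans (le_max_right _ _)
  refine ⟨δ, C, hδpos, hδb, by linarith, ?_⟩
  intro u hu x₀ x₁ h hh hKh hCh hV hNG
  set a := u x₀ - u x₁ with ha
  have hCapos : 0 < C * h := mul_pos (by linarith) hh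
  have hapos : 0 < a := by linarith
  have hC1h : C1 * h ≤ a := by
    have := mul_le_mul_of_nonneg_right hCa hh.le
    linarith
  obtain ⟨yF, X, hXc, hx0, hX, hXV⟩ := H1'' u hu x₀ x₁ h hh hC1h hV (by
    intro x hx
    have e1 := Vp_mono vol u x₀ x (mul_le_mul_of_nonneg_right hKb hh.le)
    have := hNG u hu x₀ x 1 le_rfl (by rw [one_mul]; linarith)
    rwa [mul_one] at this)
  have h6 : K3 * C2 * h ≤ δ * a := by
    have e1 : K3 * C2 / δ * h ≤ a := by
      have := mul_le_mul_of_nonneg_right hCc hh.le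
      linarith
    calc K3 * C2 * h = δ * (K3 * C2 / δ * h) := by field_simp
      _ ≤ δ * a := by gcongr
  have hK3h : 0 < K3 * h := by positivity
  obtain ⟨w, hw, a₀, a₁, R, hR, hwa, hwV⟩ := H2 u hu yF x₀ (K3 * h) ((1 - C7 * δ) * a) X
    hK3h (by
      have e1 : 2 * K3 * C2 * h ≤ a := by
        have := mul_le_mul_of_nonneg_right hCb hh.le
        linarith
      have e2 : C7 * δ ≤ 1 / 2 := by nlinarith
      have e3 : (1 / 2) * a ≤ (1 - C7 * δ) * a := by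
        apply mul_le_mul_of_nonneg_right _ hapos.le
        linarith
      linarith [(by ring : 2 * K3 * C2 * h = 2 * (C2 * (K3 * h)))]) hXc (by
      have : 0 < B / c2 * Vp vol u x₀ x₁ h := by positivity
      linarith) hx0 (by
      intro x hx
      obtain ⟨e1, e2⟩ := hX x hx
      refine ⟨e1, ?_⟩
      rw [← ha] at e2
      have e3 : u x ≤ u x₀ - a + C7 * δ * a := by
        have : u x₁ = u x₀ - a := by rw [ha]; ring
        linarith
      linarith [e3, (by ring : (1 - C7 * δ) * a = a - C7 * δ * a)])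
  refine ⟨w, hw, a₀, a₁, R, hR, ?_, ?_⟩
  · have e1 : (1 - (C7 + 1) * δ) * R * a ≤ R * ((1 - C7 * δ) * a - C2 * (K3 * h)) := by
      have e3 : (1 - (C7 + 1) * δ) * R * a = R * ((1 - C7 * δ) * a - δ * a) := by ring
      rw [e3]
      have hR0 : 0 ≤ R := by linarith
      refine mul_le_mul_of_nonneg_left ?_ hR0
      linarith [(by ring : K3 * C2 * h = C2 * (K3 * h))]
    have e2 : 0 ≤ (C7 + 1) * h := by positivity
    linarith
  · have hR0 : 0 ≤ R := by linarith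
    have e1 : Vp vol w a₀ a₁ (K2 * (K3 * h)) ≤ Vp vol w a₀ a₁ (K * h) := by
      refine Vp_mono vol w a₀ a₁ ?_
      have := mul_le_mul_of_nonneg_right hKc hh.le
      linarith [(by ring : K2 * (K3 * h) = K3 * K2 * h)]
    calc B * Vp vol u x₀ x₁ h = c2 * (B / c2 * Vp vol u x₀ x₁ h) := by field_simp
      _ ≤ c2 * (vol X).toReal := by gcongr
      _ ≤ R * Vp vol w a₀ a₁ (K2 * (K3 * h)) := hwV
      _ ≤ R * Vp vol w a₀ a₁ (K * h) := by gcongr

end Top

variable {n : ℕ} {M : Type*} [MetricSpace M] [ChartedSpace (EuclideanSpace ℝ (Fin n)) M]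
  [IsManifold (𝓡 n) ∞ M]
  [RiemannianBundle (fun p : M => TangentSpace (𝓡 n) p)]

section Split

variable [IsContMDiffRiemannianBundle (𝓡 n) ∞ (EuclideanSpace ℝ (Fin n))
    (fun p : M => TangentSpace (𝓡 n) p)]
  [IsRiemannianManifold (𝓡 n) M] [CompactSpace M] {G : GeoData n M}

/-- **Loeper on a segment of `K(x₁)`**: a point which sees `r ∈ [zN, zF]` at level `L` sees one of
the ends at level `L + h`. -/
theorem seg_split (hg : GoodAll G) {u : M → ℝ} (hu : CConv u) {x1 x' : M}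
    {zN zF r : TangentSpace (𝓡 n) x1} (hN : zN ∈ G.K x1) (hF : zF ∈ G.K x1)
    (hr : r ∈ segment ℝ zN zF) {L h : ℝ} (hDN : Dd u x1 (G.ex x1 zN) ≤ h)
    (hDF : Dd u x1 (G.ex x1 zF) ≤ h) (hx : Dd u x' (G.ex x1 r) ≤ L) :
    Dd u x' (G.ex x1 zN) ≤ L + h ∨ Dd u x' (G.ex x1 zF) ≤ L + h := by
  have huc := CConv.continuous hu
  rw [segment_eq_image'] at hr
  obtain ⟨t, ⟨ht0, ht1⟩, rfl⟩ := hr
  have hmem : zN + t • (zF - zN) ∈ G.K x1 := (convex_K hg x1).add_smul_sub_mem hN hF ⟨ht0, ht1⟩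
  have h1 := Fq_le_max hg x' hN hF ht0 ht1
  have e0 := Fq_eq (u := u) (x := x') hN
  have e1 := Fq_eq (u := u) (x := x') hF
  have et := Fq_eq (u := u) (x := x') hmem
  have n1 := Dd_nonneg huc x1 (G.ex x1 (zN + t • (zF - zN)))
  rcases le_max_iff.1 h1 with h2 | h2
  · left; linarith
  · right; linarith

end Split

section Main

variable [IsContMDiffRiemannianBundle (𝓡 n) ∞ (EuclideanSpace ℝ (Fin n))
    (fun p : M => TangentSpace (𝓡 n) p)]
  [IsRiemannianManifold (𝓡 n) M] [CompactSpace M] {G : GeoData n M}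

/-- the contacts of the moved points see one of the ends and are at top level. -/
theorem contact_end (hg : GoodAll G) (hSL : SlopeLaw G) {u : M → ℝ} (hu : CConv u) {x1 x' : M}
    {ps p zN zF r pp : TangentSpace (𝓡 n) x1} {k h s δ a : ℝ} (hh : 0 < h) (hps : ps ∈ G.K x1)
    (hp : p ∈ G.K x1) (hzN : zN ∈ G.K x1) (hzF : zF ∈ G.K x1) (hk0 : 0 < k) (hk1 : k ≤ 1)
    (hr : r ∈ segment ℝ zN zF) (hDs : Dd u x1 (G.ex x1 ps) ≤ 2 * h)
    (hDp : Dd u x1 (G.ex x1 p) ≤ h) (hDN : Dd u x1 (G.ex x1 zN) ≤ h)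
    (hDF : Dd u x1 (G.ex x1 zF) ≤ h) (hs0 : 0 < s) (hs1 : s ≤ 1) (hsa : s * (δ * a) = h)
    (hstar : Dd u x1 (G.ex x1 ps) + s * (u x' - u x1) - h ≤ Dd u x' (G.ex x1 ps))
    (hout : 0 ≤ (inner ℝ (con ps (k / 4) p) (r - con ps (k / 4) p) : ℝ))
    (e1 : pp = con ps (k / 4) p + (1 / 2 : ℝ) • (r - con ps (k / 4) p))
    (e2 : pp = ps + (1 / 2 : ℝ) • (r - ps) + (k / 8) • (p - ps))
    (hx : Dd u x' (G.ex x1 pp) = 0) :
    (Dd u x' (G.ex x1 zN) ≤ 9 * h ∨ Dd u x' (G.ex x1 zF) ≤ 9 * h) ∧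
      u x' ≤ u x1 + 103 * δ * a := by
  have huc := CConv.continuous hu
  have hrow2 := convex_row hg hu x1 (2 * h)
  have hrow1 := convex_row hg hu x1 h
  have hrm : r ∈ {p : TangentSpace (𝓡 n) x1 | p ∈ G.K x1 ∧ Dd u x1 (G.ex x1 p) ≤ h} :=
    hrow1.segment_subset (x := zN) (y := zF) ⟨hzN, hDN⟩ ⟨hzF, hDF⟩ hr
  have hbm : con ps (k / 4) p ∈
      {p : TangentSpace (𝓡 n) x1 | p ∈ G.K x1 ∧ Dd u x1 (G.ex x1 p) ≤ 2 * h} := by
    have h1 := hrow2.add_smul_sub_mem (x := ps) (y := p) ⟨hps, hDs⟩ ⟨hp, by linarith⟩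
      (t := k / 4) ⟨by linarith, by linarith⟩
    exact h1
  have hsee : Dd u x' (G.ex x1 r) ≤ 8 * h := by
    have h1 := contact_sees hg hu hbm.1 hrm.1 (H := 2 * h) (ε := 0) (τ := 1 / 2) (by linarith)
      le_rfl hbm.2 (by linarith [hrm.2]) hout (by norm_num) (by norm_num) (x' := x')
      (by rw [← e1]; exact hx.le)
    linarith
  refine ⟨?_, ?_⟩
  · have h2 := seg_split hg hu hzN hzF hr hDN hDF hsee
    rcases h2 with h2 | h2
    · left; linarith
    · right; linarith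
  · have h3 := contact_top hg hSL hu hps hp hrm.1 (α := 1 / 2) (β := k / 8) (t := 5 / 8)
      (s := s) (h := h) (H1 := 2 * h) (ε := 0) (x' := x') (by norm_num) (by linarith)
      (by linarith) (by norm_num) hs0.le hs1 hh.le le_rfl hstar hDs (by linarith)
      (by linarith [hrm.2]) (by rw [← e2]; exact hx.le)
    have h4 : s * (u x' - u x1) ≤ 103 * h := by
      have h5 : (1 - 5 / 8 : ℝ) ^ 4 = 81 / 4096 := by norm_num
      rw [h5] at h3
      linarith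
    have h6 : s * (u x' - u x1) ≤ s * (103 * δ * a) := by
      have : s * (103 * δ * a) = 103 * (s * (δ * a)) := by ring
      rw [this, hsa]
      exact h4
    have h7 := le_of_mul_le_mul_left h6 hs0
    linarith

variable [MeasurableSpace M] [BorelSpace M]

/-- **Half 1** of the pair dichotomy from the segment form of the common parent. -/
theorem half1Q [IsFiniteMeasure (Measure.hausdorffMeasure (n : ℝ) : Measure M)]
    (hC : CutFacts G) (hM : MTWFacts G) (hD : DFacts G) (hg : GoodAll G)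
    (hPS : ∀ c₁ : ℝ, 0 < c₁ → ∃ C : ℝ, 0 < C ∧ ParentSegC (EuclideanSpace ℝ (Fin n)) c₁ C)
    {m : ℝ} (hm : 0 < m) :
    Half1Q (Measure.hausdorffMeasure (n : ℝ) : Measure M) m := by
  classical
  obtain ⟨CA, hCA, harea⟩ := exists_area (G := G) hC
  obtain ⟨cd, hcd, hdep⟩ := Depth946.depth_D1 hC.base347
  obtain ⟨cw, hcw, -, hwnc⟩ := wncP hC hM hg hcd
    (fun x p hp s hs hs' v => hdep x p hp s hs hs' v) (κ := 1 / 1024) (τ := 1 / 4)
    (by norm_num) (by norm_num)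
  obtain ⟨CP, hCP, hPS1⟩ := hPS cw hcw
  set vol : Measure M := (Measure.hausdorffMeasure (n : ℝ) : Measure M) with hvol
  have hSL : SlopeLaw G := slope_law hC hg
  have hn1 : (0 : ℝ) < n + 1 := by positivity
  obtain ⟨κ, hκ⟩ : ∃ κ : ℝ, κ = m * (cw * (1 / 2) ^ n) / (2 * CA * CP * ((n + 1) * CA)) :=
    ⟨_, rfl⟩
  have hκ0 : 0 < κ := by rw [hκ]; positivity
  refine ⟨6, 9, 1 / (n + 1), 103, by norm_num, by positivity, by norm_num, ?_⟩
  intro B hB
  obtain ⟨N, hN⟩ := exists_nat_gt (B / κ)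
  have hNR : (0 : ℝ) < N := lt_trans (by positivity) hN
  have hN0 : 0 < N := by exact_mod_cast hNR
  have hBN : B ≤ κ * N := by
    rw [div_lt_iff₀ hκ0] at hN
    linarith [mul_comm (N : ℝ) κ]
  refine ⟨1 / (2 * (2 * (N : ℝ)) ^ 4 + 3), by positivity, ?_⟩
  intro δ hδ hδ0
  refine ⟨2 / δ, by positivity, ?_⟩
  intro u hu x₀ x₁ h hh hCh hV hNG
  have huC : CConv u := hu.1
  have huc := CConv.continuous huC
  set a := u x₀ - u x₁ with ha
  have hda : 2 * h ≤ δ * a := by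
    have h1 : δ * (2 / δ * h) ≤ δ * a := by gcongr
    have h2 : δ * (2 / δ * h) = 2 * h := by field_simp
    linarith
  have hδa : 0 < δ * a := by linarith
  obtain ⟨s, hs⟩ : ∃ s : ℝ, s = h / (δ * a) := ⟨_, rfl⟩
  have hsa : s * (δ * a) = h := by rw [hs, div_mul_cancel₀ _ hδa.ne']
  obtain ⟨hs0, hs1, p0, hp0, hps, hD0, hDs, hstar, hmass⟩ := start_pair (G := G) hC hD hg
    (vol := vol) (Measure.AbsolutelyContinuous.refl _) huC hh hδ ha hs hda hNG
  obtain ⟨ps, hpse⟩ : ∃ ps : TangentSpace (𝓡 n) x₁, ps = (1 - s) • p0 := ⟨_, rfl⟩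
  rw [← hpse] at hps hDs hstar
  obtain ⟨ms, bs, μ, hμ, J, hJm, hJK, hup, hlow⟩ := harea x₁
  have hfin : FiniteDimensional ℝ (TangentSpace (𝓡 n) x₁) :=
    inferInstanceAs (FiniteDimensional ℝ (EuclideanSpace ℝ (Fin n)))
  have hrank : Module.finrank ℝ (TangentSpace (𝓡 n) x₁) = n := by
    have : Module.finrank ℝ (EuclideanSpace ℝ (Fin n)) = n := by simp
    exact this
  have hKc : Convex ℝ (G.K x₁) := convex_K hg x₁
  obtain ⟨A, hAe⟩ : ∃ A, A = AA G u x₀ x₁ p0 h := ⟨_, rfl⟩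
  have hAK : A ⊆ G.K x₁ := by rw [hAe]; exact AA_subset
  have hAc : IsCompact A := by rw [hAe]; exact isCompact_AA huC x₀ x₁ p0 h
  have hA1 : ∀ p ∈ A, Dd u x₁ (G.ex x₁ p) ≤ h := by
    intro p hp; rw [hAe] at hp; exact hp.2.1
  have hA0 : ∀ p ∈ A, Dd u x₀ (G.ex x₁ p) ≤ h := by
    intro p hp; rw [hAe] at hp; exact hp.2.2.1
  have hAin : ∀ p ∈ A, 0 ≤ (inner ℝ ps (p - ps) : ℝ) := by
    intro p hp
    rw [hAe] at hp
    have h1 : 0 ≤ (inner ℝ (p - p0) p0 : ℝ) := hp.2.2.2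
    have h2 : p - ps = (p - p0) + s • p0 := by rw [hpse]; module
    rw [h2, hpse, inner_smul_left, inner_add_right, inner_smul_right,
      real_inner_self_eq_norm_sq, real_inner_comm]
    simp only [conj_trivial]
    have h3 : 0 ≤ s * ‖p0‖ ^ 2 := by positivity
    exact mul_nonneg (by linarith) (by linarith)
  -- the mass of `A`
  obtain ⟨IA, hIA⟩ : ∃ I, I = ∫⁻ p in A, J p ∂μ := ⟨_, rfl⟩
  have hIAtop : IA ≠ ⊤ := by
    rw [hIA]
    exact ((hlow A hAK hAc).trans_lt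
      (ENNReal.mul_lt_top ENNReal.ofReal_lt_top (measure_lt_top _ _))).ne
  have hVA : vol (SS u x₀ x₁ h) ≤ ENNReal.ofReal ((n + 1) * CA) * IA := by
    have h1 := mass_of_area (G := G) (μ := μ) (J := J) (p0 := p0) huC hup hmass
    rw [← hAe, ← hIA] at h1
    exact h1
  have hVreal : Vp vol u x₀ x₁ h ≤ (n + 1) * CA * IA.toReal := by
    have h1 := ENNReal.toReal_mono (ENNReal.mul_ne_top ENNReal.ofReal_ne_top hIAtop) hVA
    rw [ENNReal.toReal_mul, ENNReal.toReal_ofReal (by positivity)] at h1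
    exact h1
  have hIApos : 0 < IA.toReal := by
    by_contra hneg
    push Not at hneg
    have h2 : (n + 1) * CA * IA.toReal ≤ 0 :=
      mul_nonpos_of_nonneg_of_nonpos (by positivity) hneg
    linarith
  have hIA0 : IA ≠ 0 := by
    intro h0
    rw [h0] at hIApos
    simp at hIApos
  -- the copies
  have hmono : ∀ p ∈ A, ∀ t : ℝ, 1 / 2 ≤ t → t ≤ 1 →
      ENNReal.ofReal cw * J p ≤ J (con ps t p) := by
    intro p hp t ht0 ht1
    have h1 := hwnc x₁ J hJK p (hAK hp) ps hps (1 - t) (by linarith) (by linarith)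
      (Off.inward (by
        have h2 := hAin p hp
        have e1 : p + (1 - t) • (ps - p) = ps + t • (p - ps) := by module
        have e2 : ps - p = -(p - ps) := by abel
        rw [e1, e2, norm_neg, inner_neg_right, inner_add_left, inner_smul_left,
          real_inner_self_eq_norm_sq]
        simp only [conj_trivial]
        have h3 : 1 / 1024 * ‖p - ps‖ ^ 2 ≤ t * ‖p - ps‖ ^ 2 := by
          gcongr
          linarith
        linarith))
    have e3 : p + (1 - t) • (ps - p) = con ps t p := by unfold con; module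
    rwa [e3] at h1
  have hesc : ∀ p ∈ A, ∀ t : ℝ, 0 ≤ t → t < 1 → con ps t p ∈ A →
      (1 - t) ^ 4 * (s * a - h - h) ≤ h + h := by
    intro p hp t ht0 ht1 hmem
    exact toplevel hg hSL huC hps (hAK hp) ht0 ht1.le hs0.le (by linarith) hh.le hh.le
      (hstar x₀) (hA1 p hp) (hA0 _ hmem)
  have hsa' : s * a = h / δ := by
    rw [eq_div_iff hδ.ne', ← hsa]; ring
  have hgap : h + h < (1 / (2 * (N : ℝ))) ^ 4 * (s * a - h - h) := by
    have h1 : (2 * (2 * (N : ℝ)) ^ 4 + 3) * h ≤ s * a := by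
      rw [hsa', le_div_iff₀ hδ]
      have h2 : (2 * (2 * (N : ℝ)) ^ 4 + 3) * δ ≤ 1 := by
        calc (2 * (2 * (N : ℝ)) ^ 4 + 3) * δ
            ≤ (2 * (2 * (N : ℝ)) ^ 4 + 3) * (1 / (2 * (2 * (N : ℝ)) ^ 4 + 3)) := by gcongr
          _ = 1 := by field_simp
      nlinarith
    have h3 : (2 * (2 * (N : ℝ)) ^ 4 + 1) * h ≤ s * a - h - h := by linarith
    have h4 : (0 : ℝ) < (2 * (N : ℝ)) ^ 4 := by positivity
    rw [div_pow, one_pow, div_mul_eq_mul_div, one_mul, lt_div_iff₀ h4]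
    nlinarith
  obtain ⟨𝒢, h𝒢e⟩ : ∃ 𝒢, 𝒢 = copies ps N A := ⟨_, rfl⟩
  have hmassG := mass_copies (μ := μ) (J := J) hAc.measurableSet hN0 hcw.le (by linarith)
    hmono hesc hgap
  rw [← h𝒢e, ← hIA, hrank] at hmassG
  have h𝒢c : IsCompact 𝒢 := by
    rw [h𝒢e]
    unfold copies
    exact (Finset.range N).isCompact_biUnion fun k _ => hAc.image (continuous_con ps _)
  have h𝒢 : ∀ q ∈ 𝒢, ∃ p ∈ A, ∃ k : ℝ, 1 / 2 ≤ k ∧ k ≤ 1 ∧ q = con ps k p := by
    intro q hq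
    rw [h𝒢e] at hq
    obtain ⟨t, ht0, ht1, p, hp, e⟩ := exists_of_mem_copies hN0 hq
    exact ⟨p, hp, t, ht0, ht1, e.symm⟩
  have h𝒢K : 𝒢 ⊆ G.K x₁ := by
    intro q hq
    obtain ⟨p, hp, k, hk0, hk1, rfl⟩ := h𝒢 q hq
    exact con_mem hKc hps (hAK hp) (by linarith) hk1
  obtain ⟨IG, hIG⟩ : ∃ I, I = ∫⁻ p in 𝒢, J p ∂μ := ⟨_, rfl⟩
  rw [← hIG] at hmassG
  have hIGtop : IG ≠ ⊤ := by
    rw [hIG]
    exact ((hlow 𝒢 h𝒢K h𝒢c).trans_lt
      (ENNReal.mul_lt_top ENNReal.ofReal_lt_top (measure_lt_top _ _))).ne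
  have hGreal : N * (cw * (1 / 2) ^ n * IA.toReal) ≤ IG.toReal := by
    have h1 := ENNReal.toReal_mono hIGtop hmassG
    rw [ENNReal.toReal_mul, ENNReal.toReal_mul, ENNReal.toReal_ofReal (by positivity),
      ENNReal.toReal_natCast] at h1
    exact h1
  have hIGpos : 0 < IG.toReal := lt_of_lt_of_le (by positivity) hGreal
  have hIG0 : IG ≠ 0 := by
    intro h0
    rw [h0] at hIGpos
    simp at hIGpos
  -- the parents
  obtain ⟨ι⟩ := exists_iso n x₁
  have hPS2 : ParentSegC (TangentSpace (𝓡 n) x₁) cw CP := hPS1.of_iso ι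
  obtain ⟨zN, hzN, zF, hzF, W, hWK, hWc, hWm, hWp⟩ := hPS2 μ (G.K x₁) J hKc (hwnc x₁ J hJK)
    ps hps A hAK hAin 𝒢 h𝒢K h𝒢c h𝒢 (by rw [← hIG]; exact hIG0) (by rw [← hIG]; exact hIGtop)
  obtain ⟨IW, hIW⟩ : ∃ I, I = ∫⁻ p in W, J p ∂μ := ⟨_, rfl⟩
  rw [← hIG, ← hIW] at hWm
  have hIWtop : IW ≠ ⊤ := by
    rw [hIW]
    exact ((hlow W hWK hWc).trans_lt
      (ENNReal.mul_lt_top ENNReal.ofReal_lt_top (measure_lt_top _ _))).ne
  have hWreal : IG.toReal ≤ CP * IW.toReal := by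
    have h1 := ENNReal.toReal_mono (ENNReal.mul_ne_top ENNReal.ofReal_ne_top hIWtop) hWm
    rw [ENNReal.toReal_mul, ENNReal.toReal_ofReal hCP.le] at h1
    exact h1
  -- the contacts
  obtain ⟨X, hXe⟩ : ∃ X, X = contX u (G.ex x₁ '' W) := ⟨_, rfl⟩
  have hXc : IsCompact X := by rw [hXe]; exact isCompact_contX_image G huC hWc
  have hXm : m / CA * IW.toReal ≤ (vol X).toReal := by
    rw [hXe]
    refine toReal_le_contX_image hCA hm.le huC hu.2.2 hlow hWK hWc ?_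
    rw [← hIW, ENNReal.ofReal_toReal hIWtop]
  have hXV : 2 * (κ * N) * Vp vol u x₀ x₁ h ≤ (vol X).toReal := by
    have h1 : 2 * (κ * N) * Vp vol u x₀ x₁ h ≤ 2 * (κ * N) * ((n + 1) * CA * IA.toReal) := by
      gcongr
    have h2 : 2 * (κ * N) * ((n + 1) * CA * IA.toReal) =
        m / CA * ((N * (cw * (1 / 2) ^ n * IA.toReal)) / CP) := by
      rw [hκ]
      field_simp
    have h3 : m / CA * ((N * (cw * (1 / 2) ^ n * IA.toReal)) / CP) ≤ m / CA * IW.toReal := by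
      have h4 : (N * (cw * (1 / 2) ^ n * IA.toReal)) / CP ≤ IW.toReal := by
        rw [div_le_iff₀ hCP]
        linarith [mul_comm CP IW.toReal]
      gcongr
    linarith
  have hXP : ∀ x ∈ X, (Dd u x (G.ex x₁ zN) ≤ 9 * h ∨ Dd u x (G.ex x₁ zF) ≤ 9 * h) ∧
      u x ≤ u x₁ + 103 * δ * a := by
    intro x hx
    rw [hXe, mem_contX_image] at hx
    obtain ⟨pp, hpp, hx0⟩ := hx
    obtain ⟨p, hp, k, hk0, hk1, r, hr, -, hout, e1, e2⟩ := hWp pp hpp
    exact contact_end hg hSL huC hh hps (hAK hp) (hAK hzN) (hAK hzF) hk0 hk1 hr hDs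
      (hA1 p hp) (hA1 zN hzN) (hA1 zF hzF) hs0 (by linarith) hsa (hstar x) hout e1 e2 hx0
  -- the two halves
  have hclosed : ∀ y : M, IsClosed {x : M | Dd u x y ≤ 9 * h} := fun y =>
    isClosed_le (continuous_Dd huC y) continuous_const
  have hcov : X ⊆ (X ∩ {x | Dd u x (G.ex x₁ zN) ≤ 9 * h}) ∪
      (X ∩ {x | Dd u x (G.ex x₁ zF) ≤ 9 * h}) := by
    intro x hx
    rcases (hXP x hx).1 with h1 | h1
    · exact Or.inl ⟨hx, h1⟩
    · exact Or.inr ⟨hx, h1⟩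
  have hsum : (vol X).toReal ≤ (vol (X ∩ {x | Dd u x (G.ex x₁ zN) ≤ 9 * h})).toReal +
      (vol (X ∩ {x | Dd u x (G.ex x₁ zF) ≤ 9 * h})).toReal := by
    rw [← ENNReal.toReal_add (measure_ne_top _ _) (measure_ne_top _ _)]
    exact ENNReal.toReal_mono (ENNReal.add_ne_top.2 ⟨measure_ne_top _ _, measure_ne_top _ _⟩)
      ((measure_mono hcov).trans (measure_union_le _ _))
  have hBV : B * Vp vol u x₀ x₁ h ≤ κ * N * Vp vol u x₀ x₁ h := by gcongr
  have hfinal : ∀ z ∈ A, (vol X).toReal ≤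
      2 * (vol (X ∩ {x | Dd u x (G.ex x₁ z) ≤ 9 * h})).toReal →
      ∃ (yF : M) (X : Set M), IsCompact X ∧ Dd u x₀ yF ≤ 9 * h ∧
          (∀ x ∈ X, Dd u x yF ≤ 9 * h ∧ u x ≤ u x₁ + 103 * δ * a) ∧
          B * Vp vol u x₀ x₁ h ≤ (vol X).toReal := by
    intro z hz hzm
    refine ⟨G.ex x₁ z, X ∩ {x | Dd u x (G.ex x₁ z) ≤ 9 * h}, hXc.inter_right (hclosed _),
      by linarith [hA0 z hz], fun x hx => ⟨hx.2, (hXP x hx.1).2⟩, ?_⟩
    linarith
  rcases le_total (vol (X ∩ {x | Dd u x (G.ex x₁ zN) ≤ 9 * h})).toReal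
      (vol (X ∩ {x | Dd u x (G.ex x₁ zF) ≤ 9 * h})).toReal with hle | hle
  · exact hfinal zF hzF (by linarith)
  · exact hfinal zN hzN (by linarith)

end Main

end Crest.Agent.R226.Half1_186
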