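/-
R226 / leaf L3 (helper683), part 1: real analysis.  A semiconvex function `g` with
`g'' ≥ - w |g'|` almost everywhere satisfies `g 0 - g S ≤ S e^{w S} (-g'(0+))₊`.
-/
import Mathlib

set_option autoImplicit false

open Set Filter MeasureTheory
open scoped Topology Interval

namespace Crest.Agent.R226.NS683

/-- an almost monotone function with a.e. nonnegative derivative does not decrease -/
theorem le_of_ae_deriv_nonneg {E : ℝ → ℝ} {K a b : ℝ} (hab : a ≤ b)
    (hm : MonotoneOn (fun s => E s + K * s) (Icc a b))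
    (hd : ∀ᵐ s : ℝ, s ∈ Ioo a b → DifferentiableAt ℝ E s → 0 ≤ deriv E s) : E a ≤ E b := by
  have hm' : MonotoneOn (fun s => E s + K * s) (uIcc a b) := by rwa [uIcc_of_le hab]
  have h1 := hm'.intervalIntegral_deriv_mem_uIcc
  have h2 := hm'.intervalIntegrable_deriv
  have hab' : E a + K * a ≤ E b + K * b :=
    hm (left_mem_Icc.2 hab) (right_mem_Icc.2 hab) hab
  rw [uIcc_of_le (by linarith)] at h1
  have h3 : ∫ x in a..b, (K : ℝ) ≤ ∫ x in a..b, deriv (fun s => E s + K * s) x := by
    refine intervalIntegral.integral_mono_ae_restrict hab (by simp) h2 ?_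
    rw [Filter.EventuallyLE, ← restrict_Ioo_eq_restrict_Icc,
      MeasureTheory.ae_restrict_iff' measurableSet_Ioo]
    have hdiff := hm.ae_differentiableWithinAt_of_mem
    filter_upwards [hd, hdiff] with s hs hs' hmem
    have hmem' : s ∈ Icc a b := Ioo_subset_Icc_self hmem
    have h4 : DifferentiableAt ℝ (fun s => E s + K * s) s :=
      (hs' hmem').differentiableAt (Icc_mem_nhds hmem.1 hmem.2)
    have h5 : DifferentiableAt ℝ E s := by
      have h6 : DifferentiableAt ℝ (fun s : ℝ => K * s) s := by fun_prop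
      have h7 := h4.sub h6
      have h8 : ((fun s => E s + K * s) - fun s : ℝ => K * s) = E := by
        funext t
        simp
      rwa [h8] at h7
    have h6 : HasDerivAt (fun s => E s + K * s) (deriv E s + K * 1) s :=
      h5.hasDerivAt.add ((hasDerivAt_id s).const_mul K)
    rw [h6.deriv]
    have := hs hmem h5
    linarith
  rw [intervalIntegral.integral_const, smul_eq_mul] at h3
  have h4 := h1.2
  nlinarith

/-- supporting parabolas on `[a,b]` make `g + K s²` convex. -/
theorem convexOn_of_parabola {g : ℝ → ℝ} {K a b : ℝ}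
    (h : ∀ s₀ ∈ Icc a b, ∃ κ : ℝ, ∀ s ∈ Icc a b, g s₀ + κ * (s - s₀) - K * (s - s₀) ^ 2 ≤ g s) :
    ConvexOn ℝ (Icc a b) (fun s => g s + K * s ^ 2) := by
  refine ⟨convex_Icc a b, ?_⟩
  intro x hx y hy α β hα hβ hαβ
  have hz : α • x + β • y ∈ Icc a b := convex_Icc a b hx hy hα hβ hαβ
  obtain ⟨κ, hκ⟩ := h _ hz
  have h1 := hκ x hx
  have h2 := hκ y hy
  simp only [smul_eq_mul] at *
  obtain ⟨z, hzdef⟩ : ∃ z, z = α * x + β * y := ⟨_, rfl⟩
  rw [← hzdef] at h1 h2 ⊢
  have hβ' : β = 1 - α := by linarith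
  have e1 := mul_le_mul_of_nonneg_left h1 hα
  have e2 := mul_le_mul_of_nonneg_left h2 hβ
  have e3 : α * (g z + κ * (x - z) - K * (x - z) ^ 2) + β * (g z + κ * (y - z) - K * (y - z) ^ 2) =
      g z + K * z ^ 2 - K * (α * x ^ 2 + β * y ^ 2) := by
    have e4 : α * (x - z) + β * (y - z) = 0 := by rw [hzdef, hβ']; ring
    have e5 : α * (x - z) ^ 2 + β * (y - z) ^ 2 = α * x ^ 2 + β * y ^ 2 - z ^ 2 := by
      rw [hzdef, hβ']; ring
    calc _ = (α + β) * g z + κ * (α * (x - z) + β * (y - z)) -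
          K * (α * (x - z) ^ 2 + β * (y - z) ^ 2) := by ring
      _ = _ := by rw [e4, e5, hαβ]; ring
  nlinarith

/-- **kink lemma**, in a form stable under pointwise limits. -/
theorem kink {g : ℝ → ℝ} {K w S : ℝ} (hK : 0 ≤ K) (hw : 0 ≤ w) (hS : S ≤ 1)
    (hsub : ∀ s₀ ∈ Icc (-1 : ℝ) 2, ∃ κ : ℝ, ∀ s ∈ Icc (-1 : ℝ) 2,
      g s₀ + κ * (s - s₀) - K * (s - s₀) ^ 2 ≤ g s)
    (ha : ∀ᵐ s : ℝ, s ∈ Ioo 0 S → ContDiffAt ℝ 2 g s ∧ -(w * |deriv g s|) ≤ deriv (deriv g) s)
    {a a' : ℝ} (ha0 : 0 ≤ a) (haa : a < a') (haS : a' ≤ S) :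
    g a' - g S ≤ (S - a') *
      (Real.exp (w * S) * max 0 (K * (a' - a) - (g a' - g a) / (a' - a))) := by
  have ha'0 : 0 ≤ a' := ha0.trans haa.le
  have hS0 : 0 ≤ S := ha'0.trans haS
  have hconv := convexOn_of_parabola hsub
  obtain ⟨G, hG⟩ : ∃ G : ℝ → ℝ, G = fun s => g s + K * s ^ 2 := ⟨_, rfl⟩
  rw [← hG] at hconv
  have hint : ∀ s ∈ Icc (0 : ℝ) S, s ∈ interior (Icc (-1 : ℝ) 2) := by
    intro s hs
    rw [interior_Icc]
    exact ⟨by linarith [hs.1], by linarith [hs.2]⟩
  obtain ⟨m, hm⟩ : ∃ m : ℝ → ℝ, m = fun s => derivWithin G (Ioi s) s := ⟨_, rfl⟩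
  have hmono : MonotoneOn m (interior (Icc (-1 : ℝ) 2)) := by
    rw [hm]; exact hconv.monotoneOn_rightDeriv
  obtain ⟨v, hv⟩ : ∃ v : ℝ → ℝ, v = fun s => m s - 2 * K * s := ⟨_, rfl⟩
  -- `v` is the right derivative of `g`
  have hvd : ∀ s ∈ Icc (0 : ℝ) S, HasDerivWithinAt g (v s) (Ici s) s := by
    intro s hs
    have h1 := hconv.hasDerivWithinAt_rightDeriv_of_mem_interior (hint s hs)
    rw [hasDerivWithinAt_Ioi_iff_Ici] at h1
    have h2 : HasDerivWithinAt (fun s : ℝ => K * s ^ 2) (K * (2 * s)) (Ici s) s := by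
      have := ((hasDerivAt_pow 2 s).const_mul K).hasDerivWithinAt (s := Ici s)
      simpa using this
    have h3 := h1.sub h2
    have h4 : (G - fun s : ℝ => K * s ^ 2) = g := by
      funext t
      rw [hG]
      simp
    rw [h4] at h3
    have h5 : derivWithin G (Ioi s) s - K * (2 * s) = v s := by
      rw [hv, hm]
      ring
    rwa [h5] at h3
  -- at smooth points
  have hvs : ∀ s ∈ Ioo (0 : ℝ) S, ContDiffAt ℝ 2 g s → v =ᶠ[𝓝 s] deriv g := by
    intro s hs hg
    have h1 : ∀ᶠ t in 𝓝 s, ContDiffAt ℝ 2 g t := hg.eventually (by simp)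
    have h2 : ∀ᶠ t in 𝓝 s, t ∈ Ioo (0 : ℝ) S := Ioo_mem_nhds hs.1 hs.2
    filter_upwards [h1, h2] with t ht ht2
    have h3 := hvd t (Ioo_subset_Icc_self ht2)
    have h4 : HasDerivAt g (deriv g t) t := (ht.differentiableAt (by norm_num)).hasDerivAt
    exact (uniqueDiffWithinAt_Ici t).eq_deriv _ h3 h4.hasDerivWithinAt
  obtain ⟨ψ, hψ⟩ : ∃ ψ : ℝ → ℝ, ψ = fun s => min (v s) 0 := ⟨_, rfl⟩
  have hψ0 : ∀ s, ψ s ≤ 0 := fun s => by rw [hψ]; exact min_le_right _ _
  have hψv : ∀ s, ψ s ≤ v s := fun s => by rw [hψ]; exact min_le_left _ _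
  obtain ⟨E, hE⟩ : ∃ E : ℝ → ℝ, E = fun s => Real.exp (-(w * s)) * ψ s := ⟨_, rfl⟩
  have hEmono : ∀ b ≤ S, MonotoneOn (fun s => E s + (2 * K) * s) (Icc 0 b) := by
    intro b hb s hs s' hs' hss
    have e1 : m s ≤ m s' := hmono (hint s ⟨hs.1, hs.2.trans hb⟩) (hint s' ⟨hs'.1, hs'.2.trans hb⟩) hss
    have e2 : ψ s - 2 * K * (s' - s) ≤ ψ s' := by
      rw [hψ, hv]
      simp only
      refine le_min ?_ ?_
      · have := min_le_left (m s - 2 * K * s) 0
        linarith
      · have := min_le_right (m s - 2 * K * s) 0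
        have : 0 ≤ 2 * K * (s' - s) := mul_nonneg (by linarith) (by linarith)
        linarith
    have e3 : Real.exp (-(w * s')) ≤ Real.exp (-(w * s)) :=
      Real.exp_le_exp.2 (by nlinarith)
    have e4 : Real.exp (-(w * s')) ≤ 1 := by
      rw [Real.exp_le_one_iff]
      have := mul_nonneg hw hs'.1
      linarith
    have e5 : 0 < Real.exp (-(w * s')) := Real.exp_pos _
    have e6 := hψ0 s
    have e7 : 0 ≤ 2 * K * (s' - s) := mul_nonneg (by linarith) (by linarith)
    simp only [hE]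
    have e8 : Real.exp (-(w * s')) * (ψ s - 2 * K * (s' - s)) ≤ Real.exp (-(w * s')) * ψ s' :=
      mul_le_mul_of_nonneg_left e2 e5.le
    have e9 : Real.exp (-(w * s)) * ψ s ≤ Real.exp (-(w * s')) * ψ s :=
      mul_le_mul_of_nonpos_right e3 e6
    nlinarith
  have hEd : ∀ᵐ s : ℝ, s ∈ Ioo 0 S → 0 ≤ deriv E s := by
    filter_upwards [ha] with s hs hmem
    obtain ⟨hg, hg2⟩ := hs hmem
    have h1 := hvs s hmem hg
    have hv1 : v s = deriv g s := h1.eq_of_nhds
    have hdg : ContDiffAt ℝ 1 (deriv g) s := by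
      have h := hg.fderiv_right (m := 1) (by norm_num)
      exact h.clm_apply (contDiffAt_const (c := (1 : ℝ)))
    have h2 : HasDerivAt (deriv g) (deriv (deriv g) s) s :=
      (hdg.differentiableAt (by norm_num)).hasDerivAt
    have h3 : HasDerivAt v (deriv (deriv g) s) s := h2.congr_of_eventuallyEq h1
    rcases lt_trichotomy (v s) 0 with hneg | hzero | hpos
    · have h4 : E =ᶠ[𝓝 s] fun t => Real.exp (-(w * t)) * v t := by
        have h5 : ∀ᶠ t in 𝓝 s, v t < 0 := h3.continuousAt.eventually (gt_mem_nhds hneg)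
        filter_upwards [h5] with t ht
        rw [hE, hψ]
        simp only
        rw [min_eq_left ht.le]
      have h5 : HasDerivAt (fun t : ℝ => Real.exp (-(w * t))) (Real.exp (-(w * s)) * (-(w * 1))) s :=
        (((hasDerivAt_id s).const_mul w).neg).exp
      have h6 := h5.mul h3
      have h7 : HasDerivAt E _ s := h6.congr_of_eventuallyEq h4
      rw [h7.deriv]
      have h8 : |deriv g s| = -v s := by rw [← hv1, abs_of_neg hneg]
      rw [h8] at hg2
      have h9 : 0 < Real.exp (-(w * s)) := Real.exp_pos _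
      have h10 : Real.exp (-(w * s)) * -(w * 1) * v s + Real.exp (-(w * s)) * deriv (deriv g) s =
          Real.exp (-(w * s)) * (deriv (deriv g) s - w * v s) := by ring
      rw [h10]
      refine mul_nonneg h9.le ?_
      nlinarith
    · have h4 : IsLocalMax E s := by
        refine Filter.Eventually.of_forall fun t => ?_
        have : E s = 0 := by
          rw [hE, hψ]
          simp [hzero]
        rw [this, hE]
        exact mul_nonpos_of_nonneg_of_nonpos (Real.exp_pos _).le (hψ0 t)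
      rw [h4.deriv_eq_zero]
    · have h4 : E =ᶠ[𝓝 s] fun _ => 0 := by
        have h5 : ∀ᶠ t in 𝓝 s, 0 < v t := h3.continuousAt.eventually (lt_mem_nhds hpos)
        filter_upwards [h5] with t ht
        rw [hE, hψ]
        simp only
        rw [min_eq_right ht.le, mul_zero]
      rw [h4.deriv_eq]
      simp
  obtain ⟨κ, hκ⟩ : ∃ κ, κ = (g a' - g a) / (a' - a) - K * (a' - a) := ⟨_, rfl⟩
  have hκ' : K * (a' - a) - (g a' - g a) / (a' - a) = -κ := by rw [hκ]; ring
  rw [hκ']
  have haa0 : 0 < a' - a := by linarith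
  -- lower bound of the right derivative at `a'`
  have hv0 : κ ≤ v a' := by
    have h1 : slope G a a' ≤ derivWithin G (Iio a') a' :=
      hconv.slope_le_leftDeriv_of_mem_interior (interior_subset (hint a ⟨ha0, haa.le.trans haS⟩))
        (hint a' ⟨ha'0, haS⟩) haa
    have h2 := hconv.leftDeriv_le_rightDeriv_of_mem_interior (hint a' ⟨ha'0, haS⟩)
    have h3 : slope G a a' ≤ m a' := by rw [hm]; exact h1.trans h2
    rw [slope_def_field, hG, div_le_iff₀ haa0] at h3
    simp only at h3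
    rw [hκ, hv, sub_le_iff_le_add, div_le_iff₀ haa0]
    simp only
    nlinarith
  obtain ⟨c, hc⟩ : ∃ c, c = Real.exp (w * S) * max 0 (-κ) := ⟨_, rfl⟩
  have hmx : 0 ≤ max 0 (-κ) := le_max_left _ _
  have hvl : ∀ s ∈ Icc a' S, -c ≤ v s := by
    intro s hs
    have h1 : E a' ≤ E s := by
      refine le_of_ae_deriv_nonneg hs.1 ((hEmono s hs.2).mono (Icc_subset_Icc_left ha'0)) ?_
      filter_upwards [hEd] with t ht hmem _
      exact ht ⟨ha'0.trans_lt hmem.1, hmem.2.trans_le hs.2⟩
    have h2 : E a' = Real.exp (-(w * a')) * ψ a' := by rw [hE]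
    have h3 : -(max 0 (-κ)) ≤ ψ a' := by
      rw [hψ]
      refine le_min ?_ ?_
      · have := le_max_right 0 (-κ)
        linarith
      · linarith
    have h4 : ψ s = Real.exp (w * s) * E s := by
      rw [hE]
      simp only
      rw [← mul_assoc, ← Real.exp_add]
      simp
    have h5 : Real.exp (w * s) * (Real.exp (-(w * a')) * -(max 0 (-κ))) ≤ ψ s := by
      rw [h4]
      refine mul_le_mul_of_nonneg_left ?_ (Real.exp_pos _).le
      refine le_trans ?_ h1
      rw [h2]
      exact mul_le_mul_of_nonneg_left h3 (Real.exp_pos _).le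
    rw [← mul_assoc, ← Real.exp_add] at h5
    have h6 : Real.exp (w * s + -(w * a')) ≤ Real.exp (w * S) := by
      refine Real.exp_le_exp.2 ?_
      have := mul_le_mul_of_nonneg_left hs.2 hw
      have := mul_nonneg hw ha'0
      linarith
    have h7 := mul_le_mul_of_nonneg_right h6 hmx
    have := hψv s
    rw [hc]
    linarith
  -- integrate
  have hsubIcc : Icc a' S ⊆ Icc 0 S := Icc_subset_Icc_left ha'0
  have hfin : g a' + -c * (S - a') ≤ g S := by
    have hgc : ContinuousOn g (Icc a' S) := by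
      have h1 : ContinuousOn G (interior (Icc (-1 : ℝ) 2)) := hconv.continuousOn_interior
      have h2 : ContinuousOn G (Icc a' S) := h1.mono fun s hs => hint s (hsubIcc hs)
      have h3 : ContinuousOn (fun s : ℝ => K * s ^ 2) (Icc a' S) := by fun_prop
      have h4 : (G - fun s : ℝ => K * s ^ 2) = g := by
        funext t
        rw [hG]
        simp
      have := h2.sub h3
      rw [← h4]
      exact this
    have h1 := image_le_of_deriv_right_le_deriv_boundary
      (f := fun s => g a' + -c * (s - a')) (f' := fun _ => -c) (a := a') (b := S) (B := g) (B' := v)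
      (by fun_prop) ?_ (by simp) hgc (fun x hx => hvd x (hsubIcc (Ico_subset_Icc_self hx)))
      (fun x hx => hvl x (Ico_subset_Icc_self hx)) (right_mem_Icc.2 haS)
    · exact h1
    · intro x _
      have : HasDerivAt (fun s : ℝ => g a' + -c * (s - a')) (-c * 1) x :=
        (((hasDerivAt_id x).sub_const a').const_mul (-c)).const_add (g a')
      rw [mul_one] at this
      exact this.hasDerivWithinAt
  rw [hc] at hfin
  linarith

end Crest.Agent.R226.NS683
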