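/-
R226 (helper345), task C2: uniform second order bounds of the cost near the diagonal,
uniform semiconcavity (F1) and strong convexity near the diagonal.
-/
import Crest.Agent.R226.CutFacts_484
import Crest.Agent.R226.BundleTop_345

set_option autoImplicit false

open MeasureTheory Bundle Set Filter Manifold
open scoped Manifold ContDiff Bundle ENNReal Topology
open Crest.GeometryTopology.MTW
open Crest.Agent.R226.BundleTop345

namespace Crest.Agent.R226.Semiconcave345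

section calculus

/-- Taylor lower bound -/
theorem taylor_lower {f f' f'' : ℝ → ℝ} {T m : ℝ} (hT : 0 ≤ T)
    (h1 : ∀ t ∈ Icc 0 T, HasDerivAt f (f' t) t) (h2 : ∀ t ∈ Icc 0 T, HasDerivAt f' (f'' t) t)
    (h3 : ∀ t ∈ Icc 0 T, m ≤ f'' t) : f 0 + f' 0 * T + m * T ^ 2 / 2 ≤ f T := by
  have hI : interior (Icc (0 : ℝ) T) = Ioo 0 T := interior_Icc
  -- first derivative
  have hA : MonotoneOn (fun t => f' t - m * t) (Icc 0 T) := by
    refine monotoneOn_of_deriv_nonneg (convex_Icc 0 T) ?_ ?_ ?_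
    · intro t ht
      exact ((h2 t ht).continuousAt.sub (by fun_prop)).continuousWithinAt
    · intro t ht
      rw [hI] at ht
      exact (((h2 t (Ioo_subset_Icc_self ht)).differentiableAt).sub
        (by fun_prop)).differentiableWithinAt
    · intro t ht
      rw [hI] at ht
      have ht' := Ioo_subset_Icc_self ht
      have hd : HasDerivAt (fun t => f' t - m * t) (f'' t - m * 1) t :=
        (h2 t ht').sub ((hasDerivAt_id t).const_mul m)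
      rw [hd.deriv]
      linarith [h3 t ht']
  have hB : MonotoneOn (fun t => f t - f' 0 * t - m * t ^ 2 / 2) (Icc 0 T) := by
    refine monotoneOn_of_deriv_nonneg (convex_Icc 0 T) ?_ ?_ ?_
    · intro t ht
      exact (((h1 t ht).continuousAt.sub (by fun_prop)).sub (by fun_prop)).continuousWithinAt
    · intro t ht
      rw [hI] at ht
      exact ((((h1 t (Ioo_subset_Icc_self ht)).differentiableAt).sub
        (by fun_prop)).sub (by fun_prop)).differentiableWithinAt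
    · intro t ht
      rw [hI] at ht
      have ht' := Ioo_subset_Icc_self ht
      have hd : HasDerivAt (fun t => f t - f' 0 * t - m * t ^ 2 / 2)
          (f' t - f' 0 * 1 - m * (2 * t) / 2) t := by
        have h5 : HasDerivAt (fun t : ℝ => m * t ^ 2 / 2) (m * (2 * t) / 2) t := by
          have := ((hasDerivAt_pow 2 t).const_mul m).div_const 2
          simpa using this
        exact ((h1 t ht').sub ((hasDerivAt_id t).const_mul (f' 0))).sub h5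
      rw [hd.deriv]
      have := hA (left_mem_Icc.2 hT) ht' ht'.1
      simp only [mul_zero, sub_zero] at this
      linarith
  have := hB (left_mem_Icc.2 hT) (right_mem_Icc.2 hT) hT
  simp only [mul_zero, sub_zero] at this
  have h0 : m * (0 : ℝ) ^ 2 / 2 = 0 := by ring
  rw [h0, sub_zero] at this
  linarith

/-- Taylor upper bound -/
theorem taylor_upper {f f' f'' : ℝ → ℝ} {T B : ℝ} (hT : 0 ≤ T)
    (h1 : ∀ t ∈ Icc 0 T, HasDerivAt f (f' t) t) (h2 : ∀ t ∈ Icc 0 T, HasDerivAt f' (f'' t) t)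
    (h3 : ∀ t ∈ Icc 0 T, f'' t ≤ B) : f T ≤ f 0 + f' 0 * T + B * T ^ 2 / 2 := by
  have := taylor_lower (f := fun t => -f t) (f' := fun t => -f' t) (f'' := fun t => -f'' t)
    (m := -B) hT (fun t ht => (h1 t ht).neg) (fun t ht => (h2 t ht).neg)
    (fun t ht => neg_le_neg (h3 t ht))
  linarith

end calculus

section cost

variable {n : ℕ} {M : Type*} [MetricSpace M] [ChartedSpace (EuclideanSpace ℝ (Fin n)) M]
  [IsManifold (𝓡 n) ∞ M]
  [RiemannianBundle (fun p : M => TangentSpace (𝓡 n) p)]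

/-- the cost along radial curves -/
noncomputable def Psi (G : GeoData n M) (q : TangentBundle (𝓡 n) M × M) (t : ℝ) : ℝ :=
  halfDistSq (G.ex q.1.1 (t • q.1.2)) q.2

/-- the region where `Psi` is smooth -/
def Reg (G : GeoData n M) : Set ((TangentBundle (𝓡 n) M × M) × ℝ) :=
  {q | dist (G.ex q.1.1.1 (q.2 • q.1.1.2)) q.1.2 < G.r₀}

theorem contMDiffAt_Psi (G : GeoData n M) {q : (TangentBundle (𝓡 n) M × M) × ℝ}
    (hq : q ∈ Reg G) :
    ContMDiffAt (((𝓡 n).tangent.prod (𝓡 n)).prod 𝓘(ℝ, ℝ)) 𝓘(ℝ, ℝ) ∞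
      (fun q : (TangentBundle (𝓡 n) M × M) × ℝ => Psi G q.1 q.2) q := by
  have h1 : ContMDiffAt (((𝓡 n).tangent.prod (𝓡 n)).prod 𝓘(ℝ, ℝ)) ((𝓡 n).prod (𝓡 n)) ∞
      (fun q : (TangentBundle (𝓡 n) M × M) × ℝ =>
        ((G.ex q.1.1.1 (q.2 • q.1.1.2), q.1.2) : M × M)) q := by
    refine ContMDiffAt.prodMk ?_ (contMDiffAt_snd.comp q contMDiffAt_fst)
    have h2 : ContMDiffAt (((𝓡 n).tangent.prod (𝓡 n)).prod 𝓘(ℝ, ℝ))
        ((𝓡 n).tangent.prod 𝓘(ℝ, ℝ)) ∞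
        (fun q : (TangentBundle (𝓡 n) M × M) × ℝ => ((q.1.1, q.2) : TangentBundle (𝓡 n) M × ℝ)) q :=
      (contMDiffAt_fst.comp q contMDiffAt_fst).prodMk contMDiffAt_snd
    exact ContMDiffAt.comp (g := fun q : TangentBundle (𝓡 n) M × ℝ => G.ex q.1.1 (q.2 • q.1.2)) q
      (contMDiff_ex_smul G).contMDiffAt h2
  have hopen : IsOpen {q : M × M | dist q.1 q.2 < G.r₀} :=
    isOpen_lt continuous_dist continuous_const
  have h3 : ContMDiffAt ((𝓡 n).prod (𝓡 n)) 𝓘(ℝ, ℝ) ∞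
      (fun q : M × M => halfDistSq q.1 q.2) (G.ex q.1.1.1 (q.2 • q.1.1.2), q.1.2) :=
    G.smooth_cost.contMDiffAt (hopen.mem_nhds hq)
  exact ContMDiffAt.comp (g := fun q : M × M => halfDistSq q.1 q.2) q h3 h1

theorem contMDiffAt_dPsi (G : GeoData n M) {q : (TangentBundle (𝓡 n) M × M) × ℝ}
    (hq : q ∈ Reg G) :
    ContMDiffAt (((𝓡 n).tangent.prod (𝓡 n)).prod 𝓘(ℝ, ℝ)) 𝓘(ℝ, ℝ) ∞
      (fun q : (TangentBundle (𝓡 n) M × M) × ℝ => deriv (Psi G q.1) q.2) q :=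
  contMDiffAt_deriv_snd (Psi G) q.1 q.2 (contMDiffAt_Psi G hq)

theorem contMDiffAt_ddPsi (G : GeoData n M) {q : (TangentBundle (𝓡 n) M × M) × ℝ}
    (hq : q ∈ Reg G) :
    ContMDiffAt (((𝓡 n).tangent.prod (𝓡 n)).prod 𝓘(ℝ, ℝ)) 𝓘(ℝ, ℝ) ∞
      (fun q : (TangentBundle (𝓡 n) M × M) × ℝ => deriv (deriv (Psi G q.1)) q.2) q :=
  contMDiffAt_deriv_snd (fun q => deriv (Psi G q)) q.1 q.2 (contMDiffAt_dPsi G hq)

/-- slices of smooth maps are differentiable -/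
theorem differentiableAt_slice {EN : Type*} [NormedAddCommGroup EN] [NormedSpace ℝ EN]
    {HN : Type*} [TopologicalSpace HN]
    {J : ModelWithCorners ℝ EN HN} {N : Type*} [TopologicalSpace N] [ChartedSpace HN N]
    (f : N → ℝ → ℝ) (x₀ : N) (t₀ : ℝ)
    (hf : ContMDiffAt (J.prod 𝓘(ℝ, ℝ)) 𝓘(ℝ, ℝ) ∞ (fun q : N × ℝ => f q.1 q.2) (x₀, t₀)) :
    DifferentiableAt ℝ (f x₀) t₀ := by
  have h1 : ContMDiffAt 𝓘(ℝ, ℝ) (J.prod 𝓘(ℝ, ℝ)) ∞ (fun t : ℝ => ((x₀, t) : N × ℝ)) t₀ :=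
    contMDiffAt_const.prodMk contMDiffAt_id
  have h2 : ContMDiffAt 𝓘(ℝ, ℝ) 𝓘(ℝ, ℝ) ∞ (f x₀) t₀ :=
    ContMDiffAt.comp (g := fun q : N × ℝ => f q.1 q.2) t₀ hf h1
  exact (contMDiffAt_iff_contDiffAt.1 h2).differentiableAt (by simp)

theorem hasDerivAt_Psi (G : GeoData n M) {q : (TangentBundle (𝓡 n) M × M) × ℝ}
    (hq : q ∈ Reg G) : HasDerivAt (Psi G q.1) (deriv (Psi G q.1) q.2) q.2 :=
  (differentiableAt_slice (Psi G) q.1 q.2 (contMDiffAt_Psi G hq)).hasDerivAt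

theorem hasDerivAt_dPsi (G : GeoData n M) {q : (TangentBundle (𝓡 n) M × M) × ℝ}
    (hq : q ∈ Reg G) : HasDerivAt (deriv (Psi G q.1)) (deriv (deriv (Psi G q.1)) q.2) q.2 :=
  (differentiableAt_slice (fun q => deriv (Psi G q)) q.1 q.2 (contMDiffAt_dPsi G hq)).hasDerivAt

/-- compact region of radial data near the diagonal -/
def SS (G : GeoData n M) : Set ((TangentBundle (𝓡 n) M × M) × ℝ) :=
  {q | ‖q.1.1.2‖ ≤ G.r₀ / 4 ∧ dist q.1.1.1 q.1.2 ≤ G.r₀ / 2 ∧ q.2 ∈ Icc (0 : ℝ) 1}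

theorem dist_ex_le (G : GeoData n M) (x : M) (v : TangentSpace (𝓡 n) x) (t : ℝ) :
    dist (G.ex x (t • v)) x ≤ |t| * ‖v‖ := by
  have h := G.dist_le x v t 0
  rw [zero_smul, G.ex_zero, sub_zero] at h
  exact h

theorem SS_subset_Reg (G : GeoData n M) : SS G ⊆ Reg G := by
  rintro q ⟨h1, h2, h3, h4⟩
  have hr := G.r₀_pos
  have h5 := dist_ex_le G q.1.1.1 q.1.1.2 q.2
  rw [abs_of_nonneg h3] at h5
  have h6 : q.2 * ‖q.1.1.2‖ ≤ G.r₀ / 4 := by
    calc q.2 * ‖q.1.1.2‖ ≤ 1 * (G.r₀ / 4) :=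
          mul_le_mul h4 h1 (norm_nonneg _) (by norm_num)
      _ = _ := one_mul _
  have h7 := dist_triangle (G.ex q.1.1.1 (q.2 • q.1.1.2)) q.1.1.1 q.1.2
  change dist (G.ex q.1.1.1 (q.2 • q.1.1.2)) q.1.2 < G.r₀
  linarith

theorem continuousOn_ddPsi (G : GeoData n M) :
    ContinuousOn (fun q : (TangentBundle (𝓡 n) M × M) × ℝ => deriv (deriv (Psi G q.1)) q.2)
      (SS G) := fun _ hq =>
  (contMDiffAt_ddPsi G (SS_subset_Reg G hq)).continuousAt.continuousWithinAt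

theorem cost_self (G : GeoData n M) (x : M) (w : TangentSpace (𝓡 n) x) (hw : ‖w‖ < G.r₀) :
    dist x (G.ex x w) = ‖w‖ := by
  have h := G.dist_eq x w 0 1 (by simpa using hw)
  rw [zero_smul, one_smul, G.ex_zero] at h
  simpa using h

theorem deriv_Psi_zero (G : GeoData n M) (x : M) (w ξ : TangentSpace (𝓡 n) x) (hw : ‖w‖ < G.r₀) :
    deriv (Psi G (⟨x, ξ⟩, G.ex x w)) 0 = -inner ℝ w ξ :=
  (G.hasDerivAt_cost x w ξ hw).deriv

theorem Psi_zero (G : GeoData n M) (x : M) (w ξ : TangentSpace (𝓡 n) x) (hw : ‖w‖ < G.r₀) :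
    Psi G (⟨x, ξ⟩, G.ex x w) 0 = ‖w‖ ^ 2 / 2 := by
  simp only [Psi]
  rw [zero_smul, G.ex_zero, halfDistSq, cost_self G x w hw]

variable [IsContMDiffRiemannianBundle (𝓡 n) ∞ (EuclideanSpace ℝ (Fin n))
    (fun p : M => TangentSpace (𝓡 n) p)]

theorem isClosed_SS (G : GeoData n M) : IsClosed (SS G) := by
  have h2 : Continuous (fun q : (TangentBundle (𝓡 n) M × M) × ℝ => dist q.1.1.1 q.1.2) := by
    have hp : Continuous (fun p : TangentBundle (𝓡 n) M => p.1) :=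
      FiberBundle.continuous_proj (EuclideanSpace ℝ (Fin n)) (TangentSpace (𝓡 n))
    exact (hp.comp (continuous_fst.comp continuous_fst)).dist
      (continuous_snd.comp continuous_fst)
  exact (isClosed_le (BundleTop345.continuous_norm.comp (continuous_fst.comp continuous_fst))
    continuous_const).inter ((isClosed_le h2 continuous_const).inter
      (isClosed_Icc.preimage continuous_snd))

theorem isCompact_SS [CompactSpace M] (G : GeoData n M) : IsCompact (SS G) := by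
  have h1 : IsCompact (({p : TangentBundle (𝓡 n) M | ‖p.2‖ ≤ G.r₀ / 4} ×ˢ (univ : Set M)) ×ˢ
      Icc (0 : ℝ) 1) := ((isCompact_disc (G.r₀ / 4)).prod isCompact_univ).prod isCompact_Icc
  have h2 : Continuous (fun q : (TangentBundle (𝓡 n) M × M) × ℝ => dist q.1.1.1 q.1.2) := by
    have hp : Continuous (fun p : TangentBundle (𝓡 n) M => p.1) :=
      FiberBundle.continuous_proj (EuclideanSpace ℝ (Fin n)) (TangentSpace (𝓡 n))
    exact (hp.comp (continuous_fst.comp continuous_fst)).dist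
      (continuous_snd.comp continuous_fst)
  have h3 : SS G = (({p : TangentBundle (𝓡 n) M | ‖p.2‖ ≤ G.r₀ / 4} ×ˢ (univ : Set M)) ×ˢ
      Icc (0 : ℝ) 1) ∩ {q | dist q.1.1.1 q.1.2 ≤ G.r₀ / 2} := by
    ext q
    simp only [SS, mem_ofPred_eq, mem_inter_iff, mem_prod, mem_univ, and_true]
    tauto
  rw [h3]
  exact h1.inter_right (isClosed_le h2 continuous_const)

theorem exists_bound_ddPsi [CompactSpace M] (G : GeoData n M) :
    ∃ B : ℝ, 0 ≤ B ∧ ∀ q ∈ SS G, |deriv (deriv (Psi G q.1)) q.2| ≤ B := by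
  obtain ⟨B, hB⟩ := (isCompact_SS G).exists_bound_of_continuousOn (continuousOn_ddPsi G)
  refine ⟨max B 0, le_max_right _ _, fun q hq => ?_⟩
  have := hB q hq
  rw [Real.norm_eq_abs] at this
  exact this.trans (le_max_left _ _)

/-- Second order expansion of the cost near the diagonal, uniform in all data. -/
theorem cost_taylor [CompactSpace M] (G : GeoData n M) :
    ∃ B : ℝ, 0 ≤ B ∧ ∀ x, ∀ w ξ : TangentSpace (𝓡 n) x, ‖w‖ ≤ G.r₀ / 2 → ‖ξ‖ ≤ G.r₀ / 4 →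
      |halfDistSq (G.ex x ξ) (G.ex x w) - (‖w‖ ^ 2 / 2 - inner ℝ w ξ)| ≤ B * ‖ξ‖ ^ 2 := by
  obtain ⟨B, hB0, hB⟩ := exists_bound_ddPsi G
  have hr := G.r₀_pos
  set ρ := G.r₀ / 4 with hρ
  have hρ0 : 0 < ρ := by positivity
  refine ⟨B / (2 * ρ ^ 2), by positivity, fun x w ξ hw hξ => ?_⟩
  have hw' : ‖w‖ < G.r₀ := by linarith
  rcases eq_or_ne ξ 0 with rfl | hξ0
  · rw [G.ex_zero, halfDistSq, cost_self G x w hw']
    simp
  have hn : 0 < ‖ξ‖ := norm_pos_iff.2 hξ0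
  set T := ‖ξ‖ / ρ with hT
  have hT0 : 0 < T := by positivity
  have hT1 : T ≤ 1 := (div_le_one hρ0).2 hξ
  set ξ' : TangentSpace (𝓡 n) x := (ρ / ‖ξ‖) • ξ with hξ'
  have hξ'n : ‖ξ'‖ = ρ := by
    rw [hξ', norm_smul, Real.norm_eq_abs, abs_of_pos (by positivity)]
    field_simp
  have hTξ : T • ξ' = ξ := by
    rw [hξ', smul_smul, hT]
    have : ‖ξ‖ / ρ * (ρ / ‖ξ‖) = 1 := by field_simp
    rw [this, one_smul]
  have hmem : ∀ t ∈ Icc (0 : ℝ) T,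
      (((⟨x, ξ'⟩ : TangentBundle (𝓡 n) M), G.ex x w), t) ∈ SS G := by
    intro t ht
    refine ⟨hξ'n.le, ?_, ht.1, ht.2.trans hT1⟩
    change dist x (G.ex x w) ≤ G.r₀ / 2
    rw [cost_self G x w hw']
    exact hw
  set q : TangentBundle (𝓡 n) M × M := ((⟨x, ξ'⟩ : TangentBundle (𝓡 n) M), G.ex x w) with hq
  have h1 : ∀ t ∈ Icc (0 : ℝ) T, HasDerivAt (Psi G q) (deriv (Psi G q) t) t := fun t ht =>
    hasDerivAt_Psi G (SS_subset_Reg G (hmem t ht))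
  have h2 : ∀ t ∈ Icc (0 : ℝ) T,
      HasDerivAt (deriv (Psi G q)) (deriv (deriv (Psi G q)) t) t := fun t ht =>
    hasDerivAt_dPsi G (SS_subset_Reg G (hmem t ht))
  have hup := taylor_upper hT0.le h1 h2 (fun t ht => (abs_le.1 (hB _ (hmem t ht))).2)
  have hlo := taylor_lower hT0.le h1 h2 (fun t ht => (abs_le.1 (hB _ (hmem t ht))).1)
  rw [hq, Psi_zero G x w ξ' hw', deriv_Psi_zero G x w ξ' hw'] at hup hlo
  have hval : Psi G (⟨x, ξ'⟩, G.ex x w) T = halfDistSq (G.ex x ξ) (G.ex x w) := by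
    simp only [Psi]
    rw [hTξ]
  rw [hval] at hup hlo
  have hin : inner ℝ w ξ' * T = inner ℝ w ξ := by
    have h5 : inner ℝ w (T • ξ') = T * inner ℝ w ξ' := inner_smul_right w ξ' T
    rw [hTξ] at h5
    rw [h5, mul_comm]
  have hTT : B * T ^ 2 / 2 = B / (2 * ρ ^ 2) * ‖ξ‖ ^ 2 := by
    rw [hT]; field_simp
  rw [abs_le]
  constructor
  · nlinarith
  · nlinarith

theorem exists_diam [CompactSpace M] : ∃ D : ℝ, 0 < D ∧ ∀ x y : M, dist x y ≤ D := by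
  obtain ⟨D, hD⟩ := (Metric.isBounded_iff.1 (isCompact_univ (X := M)).isBounded)
  exact ⟨max D 1, by positivity, fun x y => (hD (mem_univ x) (mem_univ y)).trans (le_max_left _ _)⟩

/-- the cost is Lipschitz -/
theorem cost_lipschitz (D : ℝ) (hD : ∀ x y : M, dist x y ≤ D) (x x' y : M) :
    |halfDistSq x y - halfDistSq x' y| ≤ D * dist x x' := by
  have h1 : |dist x y - dist x' y| ≤ dist x x' := abs_dist_sub_le x x' y
  have h2 : halfDistSq x y - halfDistSq x' y =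
      (dist x y - dist x' y) * ((dist x y + dist x' y) / 2) := by
    simp only [halfDistSq]; ring
  rw [h2, abs_mul, mul_comm D]
  refine mul_le_mul h1 ?_ (abs_nonneg _) dist_nonneg
  rw [abs_of_nonneg (by positivity)]
  linarith [hD x y, hD x' y]

/-- triangle inequality for the cost -/
theorem cost_triangle (x y z : M) {ε : ℝ} (h0 : 0 < ε) (h1 : ε < 1) :
    halfDistSq x y ≤ halfDistSq x z / ε + halfDistSq z y / (1 - ε) := by
  have h2 : dist x y ≤ dist x z + dist z y := dist_triangle x z y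
  have h3 : dist x y ^ 2 ≤ (dist x z + dist z y) ^ 2 := by
    gcongr
  have h4 : 0 < 1 - ε := by linarith
  simp only [halfDistSq]
  rw [div_div, div_div, div_add_div _ _ (by positivity) (by positivity),
    div_le_div_iff₀ (by positivity) (by positivity)]
  nlinarith [sq_nonneg ((1 - ε) * dist x z - ε * dist z y), mul_pos h0 h4,
    mul_le_mul_of_nonneg_left h3 (mul_pos h0 h4).le]

/-- (F1) uniform semiconcavity of the cost, across the cut locus. -/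
theorem semiconcave [CompactSpace M] (G : GeoData n M) :
    ∃ C₁ : ℝ, 0 < C₁ ∧ ∀ x, ∀ v ∈ G.K x, ∀ ξ : TangentSpace (𝓡 n) x,
      halfDistSq (G.ex x ξ) (G.ex x v) ≤
        halfDistSq x (G.ex x v) - inner ℝ v ξ + C₁ * ‖ξ‖ ^ 2 := by
  obtain ⟨B, hB0, hB⟩ := cost_taylor G
  obtain ⟨D, hD0, hD⟩ := exists_diam (M := M)
  have hr := G.r₀_pos
  set ε := min (1 / 2) (G.r₀ / (2 * D)) with hε
  have hε0 : 0 < ε := by positivity
  have hε1 : ε ≤ 1 / 2 := min_le_left _ _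
  have hεD : ε * D ≤ G.r₀ / 2 := by
    have : ε ≤ G.r₀ / (2 * D) := min_le_right _ _
    calc ε * D ≤ G.r₀ / (2 * D) * D := by gcongr
      _ = G.r₀ / 2 := by field_simp
  set ρ := G.r₀ / 4 with hρ
  have hρ0 : 0 < ρ := by positivity
  refine ⟨B / ε + D ^ 2 / (2 * ρ ^ 2) + D / ρ + 1, by positivity, fun x v hv ξ => ?_⟩
  have hvn : dist x (G.ex x v) = ‖v‖ := hv
  have hvD : ‖v‖ ≤ D := by rw [← hvn]; exact hD _ _
  have hcv : halfDistSq x (G.ex x v) = ‖v‖ ^ 2 / 2 := by rw [halfDistSq, hvn]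
  rw [hcv]
  have hin : |inner ℝ v ξ| ≤ ‖v‖ * ‖ξ‖ := abs_real_inner_le_norm v ξ
  rcases le_or_gt ‖ξ‖ ρ with hξ | hξ
  · -- near case
    have hw : ‖ε • v‖ ≤ G.r₀ / 2 := by
      rw [norm_smul, Real.norm_eq_abs, abs_of_pos hε0]
      calc ε * ‖v‖ ≤ ε * D := by gcongr
        _ ≤ _ := hεD
    have h1 := hB x (ε • v) ξ hw hξ
    have h2 := cost_triangle (G.ex x ξ) (G.ex x v) (G.ex x (ε • v)) hε0 (by linarith)
    have h3 : dist (G.ex x (ε • v)) (G.ex x v) ≤ (1 - ε) * ‖v‖ := by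
      have := G.dist_le x v ε 1
      rw [one_smul, abs_of_nonpos (by linarith)] at this
      linarith
    have h4 : halfDistSq (G.ex x (ε • v)) (G.ex x v) / (1 - ε) ≤ (1 - ε) * ‖v‖ ^ 2 / 2 := by
      have h5 : 0 < 1 - ε := by linarith
      rw [div_le_iff₀ h5, halfDistSq]
      have h6 : dist (G.ex x (ε • v)) (G.ex x v) ^ 2 ≤ ((1 - ε) * ‖v‖) ^ 2 := by gcongr
      nlinarith
    have h5 := (abs_le.1 h1).2
    rw [norm_smul, Real.norm_eq_abs, abs_of_pos hε0, inner_smul_left] at h5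
    have h6 : halfDistSq (G.ex x ξ) (G.ex x (ε • v)) / ε ≤
        ε * ‖v‖ ^ 2 / 2 - inner ℝ v ξ + B / ε * ‖ξ‖ ^ 2 := by
      rw [div_le_iff₀ hε0]
      have h7 : (ε * ‖v‖ ^ 2 / 2 - inner ℝ v ξ + B / ε * ‖ξ‖ ^ 2) * ε =
          (ε * ‖v‖) ^ 2 / 2 - ε * inner ℝ v ξ + B * ‖ξ‖ ^ 2 := by
        field_simp
      rw [h7]
      simp only [conj_trivial] at h5
      linarith
    have h8 : 0 ≤ (D ^ 2 / (2 * ρ ^ 2) + D / ρ + 1) * ‖ξ‖ ^ 2 := by positivity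
    nlinarith
  · -- far case
    have h1 : halfDistSq (G.ex x ξ) (G.ex x v) ≤ D ^ 2 / 2 := by
      rw [halfDistSq]
      have := hD (G.ex x ξ) (G.ex x v)
      gcongr
    have h2 : D ^ 2 / 2 ≤ D ^ 2 / (2 * ρ ^ 2) * ‖ξ‖ ^ 2 := by
      rw [div_mul_eq_mul_div, div_le_div_iff₀ (by positivity) (by positivity)]
      have : ρ ^ 2 ≤ ‖ξ‖ ^ 2 := by gcongr
      nlinarith [sq_nonneg D]
    have h3 : inner ℝ v ξ ≤ D / ρ * ‖ξ‖ ^ 2 := by
      calc inner ℝ v ξ ≤ |inner ℝ v ξ| := le_abs_self _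
        _ ≤ ‖v‖ * ‖ξ‖ := hin
        _ ≤ D * ‖ξ‖ := by gcongr
        _ = D / ρ * (ρ * ‖ξ‖) := by field_simp
        _ ≤ D / ρ * (‖ξ‖ * ‖ξ‖) := by gcongr
        _ = D / ρ * ‖ξ‖ ^ 2 := by ring
    have h4 : 0 ≤ (B / ε + 1) * ‖ξ‖ ^ 2 := by positivity
    have h5 : 0 ≤ ‖v‖ ^ 2 / 2 := by positivity
    nlinarith

omit [IsContMDiffRiemannianBundle (𝓡 n) ∞ (EuclideanSpace ℝ (Fin n))
    (fun p : M => TangentSpace (𝓡 n) p)] in
theorem ddPsi_diag (G : GeoData n M) (x : M) (ξ : TangentSpace (𝓡 n) x) (hξ : ‖ξ‖ = G.r₀ / 4)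
    (t : ℝ) (ht : t ∈ Icc (0 : ℝ) 1) :
    deriv (deriv (Psi G (⟨x, ξ⟩, x))) t = (G.r₀ / 4) ^ 2 := by
  have hr := G.r₀_pos
  have h5 : ∀ᶠ s in 𝓝 t, |s| < 2 := by
    have hct : Continuous (fun s : ℝ => |s|) := continuous_abs
    refine hct.continuousAt.eventually_lt continuousAt_const ?_
    rw [abs_of_nonneg ht.1]
    linarith [ht.2]
  have h6 : Psi G (⟨x, ξ⟩, x) =ᶠ[𝓝 t] fun s => s ^ 2 * ((G.r₀ / 4) ^ 2 / 2) := by
    filter_upwards [h5] with s hs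
    simp only [Psi, halfDistSq]
    have h6 := G.dist_eq x ξ s 0 (by
      rw [sub_zero, hξ]
      calc |s| * (G.r₀ / 4) ≤ 2 * (G.r₀ / 4) := by gcongr
        _ < G.r₀ := by linarith)
    rw [zero_smul, G.ex_zero, sub_zero] at h6
    rw [h6, hξ, mul_pow, sq_abs]
    ring
  have h7 : deriv (Psi G (⟨x, ξ⟩, x)) =ᶠ[𝓝 t] fun s => 2 * s * ((G.r₀ / 4) ^ 2 / 2) := by
    refine h6.deriv.trans (Eventually.of_forall fun s => ?_)
    have := ((hasDerivAt_pow 2 s).mul_const ((G.r₀ / 4) ^ 2 / 2)).deriv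
    simp only [Nat.cast_ofNat, Nat.add_one_sub_one, pow_one] at this
    exact this
  rw [h7.deriv_eq]
  have : HasDerivAt (fun s : ℝ => 2 * s * ((G.r₀ / 4) ^ 2 / 2)) (2 * 1 * ((G.r₀ / 4) ^ 2 / 2)) t :=
    ((hasDerivAt_id t).const_mul 2).mul_const _
  rw [this.deriv]
  ring

theorem exists_delta [CompactSpace M] (G : GeoData n M) :
    ∃ δ : ℝ, 0 < δ ∧ ∀ q ∈ SS G, ‖q.1.1.2‖ = G.r₀ / 4 → dist q.1.1.1 q.1.2 < δ →
      (G.r₀ / 4) ^ 2 / 2 ≤ deriv (deriv (Psi G q.1)) q.2 := by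
  have hr := G.r₀_pos
  have hN : Continuous (fun q : (TangentBundle (𝓡 n) M × M) × ℝ => ‖q.1.1.2‖) :=
    BundleTop345.continuous_norm.comp (continuous_fst.comp continuous_fst)
  have hclS : IsClosed (SS G ∩ {q : (TangentBundle (𝓡 n) M × M) × ℝ | ‖q.1.1.2‖ = G.r₀ / 4}) :=
    (isClosed_SS G).inter (isClosed_eq hN continuous_const)
  have hcS : IsCompact (SS G ∩ {q : (TangentBundle (𝓡 n) M × M) × ℝ | ‖q.1.1.2‖ = G.r₀ / 4}) :=
    (isCompact_SS G).inter_right (isClosed_eq hN continuous_const)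
  have hc : ContinuousOn
      (fun q : (TangentBundle (𝓡 n) M × M) × ℝ => deriv (deriv (Psi G q.1)) q.2)
      (SS G ∩ {q : (TangentBundle (𝓡 n) M × M) × ℝ | ‖q.1.1.2‖ = G.r₀ / 4}) :=
    (continuousOn_ddPsi G).mono inter_subset_left
  have hclBad := hc.preimage_isClosed_of_isClosed hclS (isClosed_Iic (a := (G.r₀ / 4) ^ 2 / 2))
  have hcBad := hcS.of_isClosed_subset hclBad inter_subset_left
  have hdist : Continuous (fun q : (TangentBundle (𝓡 n) M × M) × ℝ => dist q.1.1.1 q.1.2) := by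
    have hp : Continuous (fun p : TangentBundle (𝓡 n) M => p.1) :=
      FiberBundle.continuous_proj (EuclideanSpace ℝ (Fin n)) (TangentSpace (𝓡 n))
    exact (hp.comp (continuous_fst.comp continuous_fst)).dist
      (continuous_snd.comp continuous_fst)
  set Bad := (SS G ∩ {q : (TangentBundle (𝓡 n) M × M) × ℝ | ‖q.1.1.2‖ = G.r₀ / 4}) ∩
      (fun q : (TangentBundle (𝓡 n) M × M) × ℝ => deriv (deriv (Psi G q.1)) q.2) ⁻¹'
        Iic ((G.r₀ / 4) ^ 2 / 2) with hBad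
  have hpos : ∀ q ∈ Bad, 0 < dist q.1.1.1 q.1.2 := by
    rintro ⟨⟨⟨x, ξ⟩, z⟩, t⟩ ⟨⟨h1, h2⟩, h3⟩
    by_contra hneg
    have hz : x = z := dist_le_zero.1 (not_lt.1 hneg)
    subst hz
    have h7 := ddPsi_diag G x ξ h2 t h1.2.2
    have h8 : deriv (deriv (Psi G (⟨x, ξ⟩, x))) t ≤ (G.r₀ / 4) ^ 2 / 2 := h3
    rw [h7] at h8
    have : 0 < (G.r₀ / 4) ^ 2 := by positivity
    linarith
  obtain ⟨δ, hδ0, hδ⟩ : ∃ δ : ℝ, 0 < δ ∧ ∀ q ∈ Bad, δ ≤ dist q.1.1.1 q.1.2 := by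
    rcases Bad.eq_empty_or_nonempty with he | hne
    · exact ⟨1, one_pos, fun q hq => by rw [he] at hq; exact hq.elim⟩
    · obtain ⟨q, hq, hmin⟩ := hcBad.exists_isMinOn hne hdist.continuousOn
      exact ⟨dist q.1.1.1 q.1.2, hpos q hq, fun q' hq' => hmin hq'⟩
  refine ⟨δ, hδ0, fun q hq hqn hqd => ?_⟩
  by_contra hneg
  exact absurd (hδ q ⟨⟨hq, hqn⟩, (not_le.1 hneg).le⟩) (not_le.2 hqd)

/-- strong convexity near the diagonal -/
theorem convex_near [CompactSpace M] (G : GeoData n M) :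
    ∃ r₁ : ℝ, 0 < r₁ ∧ ∀ x, ∀ v ξ : TangentSpace (𝓡 n) x, ‖v‖ ≤ r₁ → ‖ξ‖ ≤ r₁ →
      ‖v‖ ^ 2 / 2 - inner ℝ v ξ + ‖ξ‖ ^ 2 / 4 ≤ halfDistSq (G.ex x ξ) (G.ex x v) := by
  have hr := G.r₀_pos
  obtain ⟨δ, hδ0, hδ⟩ := exists_delta G
  refine ⟨min (δ / 2) (G.r₀ / 4), by positivity, fun x v ξ hv hξ => ?_⟩
  have hvδ : ‖v‖ < δ := lt_of_le_of_lt (hv.trans (min_le_left _ _)) (by linarith)
  have hvρ : ‖v‖ ≤ G.r₀ / 4 := hv.trans (min_le_right _ _)
  have hξρ : ‖ξ‖ ≤ G.r₀ / 4 := hξ.trans (min_le_right _ _)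
  have hv' : ‖v‖ < G.r₀ := by linarith
  rcases eq_or_ne ξ 0 with rfl | hξ0
  · rw [G.ex_zero, halfDistSq, cost_self G x v hv']
    simp
  have hn : 0 < ‖ξ‖ := norm_pos_iff.2 hξ0
  obtain ⟨ρ, hρ⟩ : ∃ ρ, ρ = G.r₀ / 4 := ⟨_, rfl⟩
  rw [← hρ] at hδ hξρ hvρ
  have hρ0 : 0 < ρ := by rw [hρ]; positivity
  obtain ⟨T, hT⟩ : ∃ T, T = ‖ξ‖ / ρ := ⟨_, rfl⟩
  have hT0 : 0 < T := by rw [hT]; positivity
  have hT1 : T ≤ 1 := by rw [hT]; exact (div_le_one hρ0).2 hξρ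
  obtain ⟨ξ', hξ'⟩ : ∃ ξ' : TangentSpace (𝓡 n) x, ξ' = (ρ / ‖ξ‖) • ξ := ⟨_, rfl⟩
  have hξ'n : ‖ξ'‖ = ρ := by
    rw [hξ', norm_smul, Real.norm_eq_abs, abs_of_pos (by positivity)]
    field_simp
  have hTξ : T • ξ' = ξ := by
    rw [hξ', smul_smul, hT]
    have : ‖ξ‖ / ρ * (ρ / ‖ξ‖) = 1 := by field_simp
    rw [this, one_smul]
  have hmem : ∀ t ∈ Icc (0 : ℝ) T,
      (((⟨x, ξ'⟩ : TangentBundle (𝓡 n) M), G.ex x v), t) ∈ SS G := by
    intro t ht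
    refine ⟨(hξ'n.trans hρ).le, ?_, ht.1, ht.2.trans hT1⟩
    change dist x (G.ex x v) ≤ G.r₀ / 2
    rw [cost_self G x v hv']
    linarith
  obtain ⟨q, hq⟩ : ∃ q : TangentBundle (𝓡 n) M × M,
    q = ((⟨x, ξ'⟩ : TangentBundle (𝓡 n) M), G.ex x v) := ⟨_, rfl⟩
  rw [← hq] at hmem
  have h1 : ∀ t ∈ Icc (0 : ℝ) T, HasDerivAt (Psi G q) (deriv (Psi G q) t) t := fun t ht =>
    hasDerivAt_Psi G (SS_subset_Reg G (hmem t ht))
  have h2 : ∀ t ∈ Icc (0 : ℝ) T,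
      HasDerivAt (deriv (Psi G q)) (deriv (deriv (Psi G q)) t) t := fun t ht =>
    hasDerivAt_dPsi G (SS_subset_Reg G (hmem t ht))
  have h3 : ∀ t ∈ Icc (0 : ℝ) T, ρ ^ 2 / 2 ≤ deriv (deriv (Psi G q)) t := by
    intro t ht
    refine hδ (q, t) (hmem t ht) ?_ ?_
    · rw [hq]; exact hξ'n
    · rw [hq]
      change dist x (G.ex x v) < δ
      rw [cost_self G x v hv']; exact hvδ
  have hlo := taylor_lower hT0.le h1 h2 h3
  rw [hq, Psi_zero G x v ξ' hv', deriv_Psi_zero G x v ξ' hv'] at hlo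
  have hval : Psi G (⟨x, ξ'⟩, G.ex x v) T = halfDistSq (G.ex x ξ) (G.ex x v) := by
    simp only [Psi]
    rw [hTξ]
  rw [hval] at hlo
  have hin : inner ℝ v ξ' * T = inner ℝ v ξ := by
    have h5 : inner ℝ v (T • ξ') = T * inner ℝ v ξ' := inner_smul_right v ξ' T
    rw [hTξ] at h5
    rw [h5, mul_comm]
  have hTT : ρ ^ 2 / 2 * T ^ 2 / 2 = ‖ξ‖ ^ 2 / 4 := by
    rw [hT]; field_simp; ring
  linarith

end cost

end Crest.Agent.R226.Semiconcave345
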