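/-
R226 / leaf L3 (helper683), part 2: uniform semiconcavity of the cost along the chords of a
fixed tangent space.
-/
import Crest.Agent.R226.NS1Def_683
import Crest.Agent.R226.Semiconcave_345
import Crest.Agent.R226.CutTop_478

set_option autoImplicit false

open MeasureTheory Bundle Set Filter Manifold
open scoped Manifold ContDiff Bundle ENNReal Topology
open Crest.GeometryTopology.MTW

namespace Crest.Agent.R226.NS683

open Crest.Agent.R226.Semiconcave345 Crest.Agent.R226.BundleTop345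

variable {n : ℕ} {M : Type*} [MetricSpace M] [ChartedSpace (EuclideanSpace ℝ (Fin n)) M]
  [IsManifold (𝓡 n) ∞ M]
  [RiemannianBundle (fun p : M => TangentSpace (𝓡 n) p)]

/-- the cost along chords at `x` -/
noncomputable def Ph (G : GeoData n M) (x : M) (q : (EE n × EE n) × M) (t : ℝ) : ℝ :=
  halfDistSq (G.ex x (q.1.1 + t • q.1.2 : EE n)) q.2

/-- the region where `Ph` is smooth -/
def RegPh (G : GeoData n M) (x : M) : Set (((EE n × EE n) × M) × ℝ) :=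
  {q | dist (G.ex x (q.1.1.1 + q.2 • q.1.1.2 : EE n)) q.1.2 < G.r₀}

theorem contMDiffAt_Ph (G : GeoData n M) (x : M) {q : ((EE n × EE n) × M) × ℝ}
    (hq : q ∈ RegPh G x) :
    ContMDiffAt ((𝓘(ℝ, EE n × EE n).prod (𝓡 n)).prod 𝓘(ℝ, ℝ)) 𝓘(ℝ, ℝ) ∞
      (fun q : ((EE n × EE n) × M) × ℝ => Ph G x q.1 q.2) q := by
  have h0 : ContMDiffAt ((𝓘(ℝ, EE n × EE n).prod (𝓡 n)).prod 𝓘(ℝ, ℝ)) 𝓘(ℝ, EE n × EE n) ∞
      (fun q : ((EE n × EE n) × M) × ℝ => q.1.1) q := contMDiffAt_fst.comp q contMDiffAt_fst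
  have h0' : ContMDiffAt ((𝓘(ℝ, EE n × EE n).prod (𝓡 n)).prod 𝓘(ℝ, ℝ))
      (𝓘(ℝ, EE n × EE n).prod 𝓘(ℝ, ℝ)) ∞
      (fun q : ((EE n × EE n) × M) × ℝ => (q.1.1, q.2)) q := h0.prodMk contMDiffAt_snd
  have h1 : ContMDiffAt ((𝓘(ℝ, EE n × EE n).prod (𝓡 n)).prod 𝓘(ℝ, ℝ)) 𝓘(ℝ, EE n) ∞
      (fun q : ((EE n × EE n) × M) × ℝ => q.1.1.1 + q.2 • q.1.1.2) q := by
    have h2 : ContDiffAt ℝ ∞ (fun r : (EE n × EE n) × ℝ => r.1.1 + r.2 • r.1.2) (q.1.1, q.2) := by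
      fun_prop
    have h3 : ContMDiffAt (𝓘(ℝ, EE n × EE n).prod 𝓘(ℝ, ℝ)) 𝓘(ℝ, EE n) ∞
        (fun r : (EE n × EE n) × ℝ => r.1.1 + r.2 • r.1.2) (q.1.1, q.2) := by
      have h4 := h2.contMDiffAt
      rw [modelWithCornersSelf_prod, ← chartedSpaceSelf_prod] at h4
      exact h4
    exact ContMDiffAt.comp (g := fun r : (EE n × EE n) × ℝ => r.1.1 + r.2 • r.1.2) q h3 h0'
  have h2 : ContMDiffAt ((𝓘(ℝ, EE n × EE n).prod (𝓡 n)).prod 𝓘(ℝ, ℝ)) (𝓡 n) ∞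
      (fun q : ((EE n × EE n) × M) × ℝ => G.ex x (q.1.1.1 + q.2 • q.1.1.2 : EE n)) q :=
    ContMDiffAt.comp (g := fun v : EE n => G.ex x v) q
      (CutTop478.contMDiff_ex G x).contMDiffAt h1
  have h3 := h2.prodMk (contMDiffAt_snd.comp (f := fun q : ((EE n × EE n) × M) × ℝ => q.1) q
    contMDiffAt_fst)
  have hopen : IsOpen {q : M × M | dist q.1 q.2 < G.r₀} :=
    isOpen_lt continuous_dist continuous_const
  have h4 : ContMDiffAt ((𝓡 n).prod (𝓡 n)) 𝓘(ℝ, ℝ) ∞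
      (fun q : M × M => halfDistSq q.1 q.2) (G.ex x (q.1.1.1 + q.2 • q.1.1.2 : EE n), q.1.2) :=
    G.smooth_cost.contMDiffAt (hopen.mem_nhds hq)
  exact ContMDiffAt.comp (g := fun q : M × M => halfDistSq q.1 q.2) q h4 h3

theorem contMDiffAt_dPh (G : GeoData n M) (x : M) {q : ((EE n × EE n) × M) × ℝ}
    (hq : q ∈ RegPh G x) :
    ContMDiffAt ((𝓘(ℝ, EE n × EE n).prod (𝓡 n)).prod 𝓘(ℝ, ℝ)) 𝓘(ℝ, ℝ) ∞
      (fun q : ((EE n × EE n) × M) × ℝ => deriv (Ph G x q.1) q.2) q :=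
  contMDiffAt_deriv_snd (Ph G x) q.1 q.2 (contMDiffAt_Ph G x hq)

theorem contMDiffAt_ddPh (G : GeoData n M) (x : M) {q : ((EE n × EE n) × M) × ℝ}
    (hq : q ∈ RegPh G x) :
    ContMDiffAt ((𝓘(ℝ, EE n × EE n).prod (𝓡 n)).prod 𝓘(ℝ, ℝ)) 𝓘(ℝ, ℝ) ∞
      (fun q : ((EE n × EE n) × M) × ℝ => deriv (deriv (Ph G x q.1)) q.2) q :=
  contMDiffAt_deriv_snd (fun q => deriv (Ph G x q)) q.1 q.2 (contMDiffAt_dPh G x hq)

theorem hasDerivAt_Ph (G : GeoData n M) (x : M) {q : ((EE n × EE n) × M) × ℝ}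
    (hq : q ∈ RegPh G x) : HasDerivAt (Ph G x q.1) (deriv (Ph G x q.1) q.2) q.2 :=
  (differentiableAt_slice (Ph G x) q.1 q.2 (contMDiffAt_Ph G x hq)).hasDerivAt

theorem hasDerivAt_dPh (G : GeoData n M) (x : M) {q : ((EE n × EE n) × M) × ℝ}
    (hq : q ∈ RegPh G x) :
    HasDerivAt (deriv (Ph G x q.1)) (deriv (deriv (Ph G x q.1)) q.2) q.2 :=
  (differentiableAt_slice (fun q => deriv (Ph G x q)) q.1 q.2 (contMDiffAt_dPh G x hq)).hasDerivAt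

/-- compact region of chord data -/
def SPh (G : GeoData n M) (x : M) (R : ℝ) : Set (((EE n × EE n) × M) × ℝ) :=
  {q | ‖q.1.1.1‖ ≤ R ∧ ‖q.1.1.2‖ ≤ R ∧ q.2 ∈ Icc (-1 : ℝ) 1 ∧
    dist (G.ex x (q.1.1.1 + q.2 • q.1.1.2 : EE n)) q.1.2 ≤ G.r₀ / 2}

theorem continuous_exE (G : GeoData n M) (x : M) : Continuous (fun v : EE n => G.ex x v) :=
  (CutTop478.contMDiff_ex G x).continuous

theorem isCompact_SPh [CompactSpace M] (G : GeoData n M) (x : M) (R : ℝ) :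
    IsCompact (SPh G x R) := by
  have h1 : IsCompact (((Metric.closedBall (0 : EE n) R ×ˢ Metric.closedBall (0 : EE n) R) ×ˢ
      (univ : Set M)) ×ˢ Icc (-1 : ℝ) 1) :=
    (((isCompact_closedBall _ _).prod (isCompact_closedBall _ _)).prod isCompact_univ).prod
      isCompact_Icc
  have h2 : Continuous (fun q : ((EE n × EE n) × M) × ℝ =>
      dist (G.ex x (q.1.1.1 + q.2 • q.1.1.2 : EE n)) q.1.2) := by
    have h3 : Continuous (fun q : ((EE n × EE n) × M) × ℝ => q.1.1.1 + q.2 • q.1.1.2) := by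
      fun_prop
    exact ((continuous_exE G x).comp h3).dist (continuous_snd.comp continuous_fst)
  have h3 : SPh G x R = (((Metric.closedBall (0 : EE n) R ×ˢ Metric.closedBall (0 : EE n) R) ×ˢ
      (univ : Set M)) ×ˢ Icc (-1 : ℝ) 1) ∩
      {q | dist (G.ex x (q.1.1.1 + q.2 • q.1.1.2 : EE n)) q.1.2 ≤ G.r₀ / 2} := by
    ext q
    simp only [SPh, mem_ofPred_eq, mem_inter_iff, mem_prod, mem_univ, and_true,
      Metric.mem_closedBall, dist_zero_right]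
    tauto
  rw [h3]
  exact h1.inter_right (isClosed_le h2 continuous_const)

theorem SPh_subset (G : GeoData n M) (x : M) (R : ℝ) : SPh G x R ⊆ RegPh G x := by
  rintro q ⟨-, -, -, h⟩
  have hr := G.r₀_pos
  change dist _ _ < _
  linarith

/-- uniform continuity of the chords -/
theorem exists_delta_chord (G : GeoData n M) (x : M) (R : ℝ) {ρ : ℝ} (hρ0 : 0 < ρ) :
    ∃ δ : ℝ, 0 < δ ∧ δ ≤ 1 ∧ ∀ p Δ : EE n, ‖p‖ ≤ R → ‖Δ‖ ≤ R →
      ∀ t : ℝ, |t| ≤ δ → dist (G.ex x (p + t • Δ : EE n)) (G.ex x p) ≤ ρ := by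
  have hcomp : IsCompact ((Metric.closedBall (0 : EE n) R ×ˢ Metric.closedBall (0 : EE n) R) ×ˢ
      Icc (-1 : ℝ) 1) :=
    ((isCompact_closedBall _ _).prod (isCompact_closedBall _ _)).prod isCompact_Icc
  have hcont : Continuous (fun q : (EE n × EE n) × ℝ => G.ex x (q.1.1 + q.2 • q.1.2 : EE n)) := by
    have h3 : Continuous (fun q : (EE n × EE n) × ℝ => q.1.1 + q.2 • q.1.2) := by fun_prop
    exact (continuous_exE G x).comp h3
  have huc := hcomp.uniformContinuousOn_of_continuous hcont.continuousOn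
  rw [Metric.uniformContinuousOn_iff] at huc
  obtain ⟨δ, hδ, h⟩ := huc ρ hρ0
  refine ⟨min (δ / 2) 1, by positivity, min_le_right _ _, ?_⟩
  intro p Δ hp hΔ t ht
  have ht1 : |t| ≤ 1 := ht.trans (min_le_right _ _)
  have ht2 : |t| ≤ δ / 2 := ht.trans (min_le_left _ _)
  have h1 := h ((p, Δ), t) ⟨⟨by simpa using hp, by simpa using hΔ⟩, abs_le.1 ht1⟩
    ((p, Δ), 0) ⟨⟨by simpa using hp, by simpa using hΔ⟩, by simp⟩ (by
      simp only [Prod.dist_eq, dist_self, dist_zero_right, Real.norm_eq_abs]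
      rw [max_eq_right (by positivity)]
      linarith)
  simp only [zero_smul, add_zero] at h1
  exact h1.le

/-- bounds of the derivatives -/
theorem exists_bound_Ph [CompactSpace M] (G : GeoData n M) (x : M) (R : ℝ) :
    ∃ B : ℝ, 0 ≤ B ∧ ∀ q ∈ SPh G x R, |deriv (deriv (Ph G x q.1)) q.2| ≤ B ∧
      |deriv (Ph G x q.1) q.2| ≤ B := by
  obtain ⟨B₂, hB₂⟩ := (isCompact_SPh G x R).exists_bound_of_continuousOn
    (f := fun q : ((EE n × EE n) × M) × ℝ => deriv (deriv (Ph G x q.1)) q.2)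
    (fun q hq => (contMDiffAt_ddPh G x (SPh_subset G x R hq)).continuousAt.continuousWithinAt)
  obtain ⟨B₁, hB₁⟩ := (isCompact_SPh G x R).exists_bound_of_continuousOn
    (f := fun q : ((EE n × EE n) × M) × ℝ => deriv (Ph G x q.1) q.2)
    (fun q hq => (contMDiffAt_dPh G x (SPh_subset G x R hq)).continuousAt.continuousWithinAt)
  refine ⟨max 0 (max B₁ B₂), le_max_left _ _, fun q hq => ⟨?_, ?_⟩⟩
  · exact (hB₂ q hq).trans ((le_max_right _ _).trans (le_max_right _ _))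
  · exact (hB₁ q hq).trans ((le_max_left _ _).trans (le_max_right _ _))

/-- two-sided Taylor upper bound -/
theorem taylor_two {f f' f'' : ℝ → ℝ} {δ B : ℝ}
    (h1 : ∀ t : ℝ, |t| ≤ δ → HasDerivAt f (f' t) t) (h2 : ∀ t : ℝ, |t| ≤ δ → HasDerivAt f' (f'' t) t)
    (h3 : ∀ t : ℝ, |t| ≤ δ → f'' t ≤ B) {t : ℝ} (ht : |t| ≤ δ) :
    f t ≤ f 0 + f' 0 * t + B * t ^ 2 / 2 := by
  rcases le_total 0 t with h0 | h0
  · have hle : ∀ s ∈ Icc (0 : ℝ) t, |s| ≤ δ := by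
      intro s hs
      rw [abs_of_nonneg hs.1]
      rw [abs_of_nonneg h0] at ht
      linarith [hs.2]
    exact taylor_upper (f := f) (f' := f') (f'' := f'') (B := B) h0
      (fun s hs => h1 s (hle s hs)) (fun s hs => h2 s (hle s hs)) (fun s hs => h3 s (hle s hs))
  · have hle : ∀ s ∈ Icc (0 : ℝ) (-t), |(-s)| ≤ δ := by
      intro s hs
      rw [abs_neg, abs_of_nonneg hs.1]
      rw [abs_of_nonpos h0] at ht
      linarith [hs.2]
    have h4 := taylor_upper (f := fun s => f (-s)) (f' := fun s => -f' (-s))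
      (f'' := fun s => f'' (-s)) (B := B) (T := -t) (by linarith)
      (fun s hs => by
        have h5 : HasDerivAt (fun s => f (-s)) (f' (-s) * (-1)) s :=
          HasDerivAt.comp (h₂ := f) s (h1 (-s) (hle s hs)) (hasDerivAt_neg s)
        rwa [mul_neg_one] at h5)
      (fun s hs => by
        have h5 : HasDerivAt (fun s => -f' (-s)) (-(f'' (-s) * (-1))) s :=
          (HasDerivAt.comp (h₂ := f') s (h2 (-s) (hle s hs)) (hasDerivAt_neg s)).neg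
        rwa [mul_neg_one, neg_neg] at h5)
      (fun s hs => h3 _ (hle s hs))
    simp only [neg_neg, neg_zero] at h4
    nlinarith

theorem tay_Ph [CompactSpace M] (G : GeoData n M) (x : M) (R : ℝ) {δ B : ℝ}
    (q : (EE n × EE n) × M) (hmem : ∀ t : ℝ, |t| ≤ δ → (q, t) ∈ SPh G x R)
    (hB : ∀ q ∈ SPh G x R, |deriv (deriv (Ph G x q.1)) q.2| ≤ B ∧
      |deriv (Ph G x q.1) q.2| ≤ B) {t : ℝ} (ht : |t| ≤ δ) :
    Ph G x q t ≤ Ph G x q 0 + deriv (Ph G x q) 0 * t + B * t ^ 2 / 2 := by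
  obtain ⟨f, hf⟩ : ∃ f : ℝ → ℝ, f = Ph G x q := ⟨_, rfl⟩
  have h1 : ∀ t : ℝ, |t| ≤ δ → HasDerivAt f (deriv f t) t := by
    intro t ht
    rw [hf]
    exact hasDerivAt_Ph G x (q := (q, t)) (SPh_subset G x R (hmem t ht))
  have h2 : ∀ t : ℝ, |t| ≤ δ → HasDerivAt (deriv f) (deriv (deriv f) t) t := by
    intro t ht
    rw [hf]
    exact hasDerivAt_dPh G x (q := (q, t)) (SPh_subset G x R (hmem t ht))
  have h3 : ∀ t : ℝ, |t| ≤ δ → deriv (deriv f) t ≤ B := by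
    intro t ht
    rw [hf]
    exact (le_abs_self _).trans (hB (q, t) (hmem t ht)).1
  rw [← hf]
  exact taylor_two h1 h2 h3 ht

/-- local part of the semiconcavity -/
theorem semi_near [CompactSpace M] (G : GeoData n M) (x : M) (R : ℝ) {δ B ε D : ℝ}
    (hδ1 : δ ≤ 1)
    (hδ : ∀ p Δ : EE n, ‖p‖ ≤ R → ‖Δ‖ ≤ R →
      ∀ t : ℝ, |t| ≤ δ → dist (G.ex x (p + t • Δ : EE n)) (G.ex x p) ≤ G.r₀ / 4)
    (hB : ∀ q ∈ SPh G x R, |deriv (deriv (Ph G x q.1)) q.2| ≤ B ∧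
      |deriv (Ph G x q.1) q.2| ≤ B)
    (hδ0 : 0 < δ) (hε0 : 0 < ε) (hε1 : ε ≤ 1 / 2) (hεD : ε * D ≤ G.r₀ / 4)
    (hD : ∀ x y : M, dist x y ≤ D) (p Δ : EE n) (hp : ‖p‖ ≤ R) (hΔ : ‖Δ‖ ≤ R) (x₁ : M) :
    ∃ κ : ℝ, |κ| ≤ B / ε ∧ ∀ t : ℝ, |t| ≤ δ →
      halfDistSq x₁ (G.ex x (p + t • Δ : EE n)) ≤
        halfDistSq x₁ (G.ex x p) + κ * t + B / (2 * ε) * t ^ 2 := by
  obtain ⟨y, hy⟩ : ∃ y, y = G.ex x p := ⟨_, rfl⟩
  obtain ⟨v, hv, hvx⟩ := CutTop478.exists_mem_K G y x₁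
  have hvn : dist y x₁ = ‖v‖ := by rw [← hvx]; exact hv
  have hvD : ‖v‖ ≤ D := by rw [← hvn]; exact hD _ _
  obtain ⟨z, hz⟩ : ∃ z, z = G.ex y (ε • v) := ⟨_, rfl⟩
  have hyz : dist y z ≤ ε * ‖v‖ := by
    have h := G.dist_le y v 0 ε
    rw [zero_smul, G.ex_zero, ← hz] at h
    rwa [zero_sub, abs_neg, abs_of_pos hε0] at h
  have hyzρ : dist y z ≤ G.r₀ / 4 := hyz.trans (le_trans (by gcongr) hεD)
  have hzx : dist z x₁ ≤ (1 - ε) * ‖v‖ := by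
    have h := G.dist_le y v ε 1
    rw [one_smul, ← hz, hvx, abs_of_nonpos (by linarith)] at h
    linarith
  have hmem : ∀ t : ℝ, |t| ≤ δ → ((((p, Δ), z) : (EE n × EE n) × M), t) ∈ SPh G x R := by
    intro t ht
    refine ⟨hp, hΔ, abs_le.1 (ht.trans hδ1), ?_⟩
    change dist (G.ex x (p + t • Δ : EE n)) z ≤ G.r₀ / 2
    have h1 := hδ p Δ hp hΔ t ht
    rw [← hy] at h1
    have h2 := dist_triangle (G.ex x (p + t • Δ : EE n)) y z
    linarith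
  have hb1 : |deriv (Ph G x ((p, Δ), z)) 0| ≤ B := (hB _ (hmem 0 (by simpa using hδ0.le))).2
  have htay : ∀ t : ℝ, |t| ≤ δ → Ph G x ((p, Δ), z) t ≤ Ph G x ((p, Δ), z) 0 +
      deriv (Ph G x ((p, Δ), z)) 0 * t + B * t ^ 2 / 2 := fun t ht =>
    tay_Ph G x R ((p, Δ), z) hmem hB ht
  obtain ⟨dd, hdd⟩ : ∃ dd, dd = deriv (Ph G x ((p, Δ), z)) 0 := ⟨_, rfl⟩
  rw [← hdd] at hb1
  obtain ⟨κ, hκ⟩ : ∃ κ, κ = dd / ε := ⟨_, rfl⟩
  have hκB : |κ| ≤ B / ε := by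
    rw [hκ, abs_div, abs_of_pos hε0]
    gcongr
  refine ⟨κ, hκB, fun t ht => ?_⟩
  rw [← hy]
  have hv0 : halfDistSq x₁ y = ‖v‖ ^ 2 / 2 := by
    rw [halfDistSq, dist_comm, hvn]
  rw [hv0]
  have h1 := cost_triangle (G.ex x (p + t • Δ : EE n)) x₁ z hε0 (by linarith)
  have h2 : halfDistSq (G.ex x (p + t • Δ : EE n)) z ≤ halfDistSq y z + dd * t + B * t ^ 2 / 2 := by
    have h2 := htay t ht
    rw [← hdd] at h2
    have e1 : Ph G x ((p, Δ), z) 0 = halfDistSq y z := by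
      unfold Ph
      simp only [zero_smul, add_zero]
      rw [← hy]
    rw [e1] at h2
    exact h2
  have h3 : halfDistSq y z ≤ ε ^ 2 * ‖v‖ ^ 2 / 2 := by
    rw [halfDistSq]
    have : dist y z ^ 2 ≤ (ε * ‖v‖) ^ 2 := by gcongr
    nlinarith
  have h4 : halfDistSq z x₁ ≤ (1 - ε) ^ 2 * ‖v‖ ^ 2 / 2 := by
    rw [halfDistSq]
    have : dist z x₁ ^ 2 ≤ ((1 - ε) * ‖v‖) ^ 2 := by gcongr
    nlinarith
  have h5 : halfDistSq z x₁ / (1 - ε) ≤ (1 - ε) * ‖v‖ ^ 2 / 2 := by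
    rw [div_le_iff₀ (by linarith)]
    nlinarith
  have h6 : halfDistSq (G.ex x (p + t • Δ : EE n)) z / ε ≤
      ε * ‖v‖ ^ 2 / 2 + κ * t + B / (2 * ε) * t ^ 2 := by
    rw [div_le_iff₀ hε0]
    have h7 : (ε * ‖v‖ ^ 2 / 2 + κ * t + B / (2 * ε) * t ^ 2) * ε =
        ε ^ 2 * ‖v‖ ^ 2 / 2 + dd * t + B * t ^ 2 / 2 := by
      rw [hκ]
      field_simp
    rw [h7]
    linarith
  have h7 : halfDistSq x₁ (G.ex x (p + t • Δ : EE n)) =
      halfDistSq (G.ex x (p + t • Δ : EE n)) x₁ := by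
    rw [halfDistSq, halfDistSq, dist_comm]
  rw [h7]
  linarith

/-- semiconcavity of the cost along chords of a ball of `T_xM` (model norm), uniform in the
other point. -/
theorem semiE [CompactSpace M] (G : GeoData n M) (x : M) (R : ℝ) :
    ∃ K : ℝ, 0 ≤ K ∧ ∀ p Δ : EE n, ‖p‖ ≤ R → ‖Δ‖ ≤ R → ∀ x₁ : M, ∃ κ : ℝ,
      ∀ t : ℝ, halfDistSq x₁ (G.ex x (p + t • Δ : EE n)) ≤
        halfDistSq x₁ (G.ex x p) + κ * t + K * t ^ 2 := by
  obtain ⟨D, hD0, hD⟩ := exists_diam (M := M)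
  have hr := G.r₀_pos
  obtain ⟨ε, hε⟩ : ∃ ε, ε = min (1 / 2) (G.r₀ / 4 / D) := ⟨_, rfl⟩
  have hε0 : 0 < ε := by rw [hε]; positivity
  have hε1 : ε ≤ 1 / 2 := by rw [hε]; exact min_le_left _ _
  have hεD : ε * D ≤ G.r₀ / 4 := by
    have : ε ≤ G.r₀ / 4 / D := by rw [hε]; exact min_le_right _ _
    calc ε * D ≤ G.r₀ / 4 / D * D := by gcongr
      _ = G.r₀ / 4 := by field_simp
  obtain ⟨δ, hδ0, hδ1, hδ⟩ := exists_delta_chord G x R (ρ := G.r₀ / 4) (by positivity)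
  obtain ⟨B, hB0, hB⟩ := exists_bound_Ph G x R
  refine ⟨B / (2 * ε) + D ^ 2 / (2 * δ ^ 2) + B / (ε * δ), by positivity, ?_⟩
  intro p Δ hp hΔ x₁
  obtain ⟨κ, hκB, hκ⟩ := semi_near G x R hδ1 hδ hB hδ0 hε0 hε1 hεD hD p Δ hp hΔ x₁
  refine ⟨κ, fun t => ?_⟩
  rcases le_or_gt |t| δ with hnear | hfar
  · have h1 := hκ t hnear
    have h8 : 0 ≤ (D ^ 2 / (2 * δ ^ 2) + B / (ε * δ)) * t ^ 2 := by positivity
    nlinarith
  · have h1 : halfDistSq x₁ (G.ex x (p + t • Δ : EE n)) ≤ D ^ 2 / 2 := by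
      rw [halfDistSq]
      have := hD x₁ (G.ex x (p + t • Δ : EE n))
      gcongr
    have h2 : D ^ 2 / 2 ≤ D ^ 2 / (2 * δ ^ 2) * t ^ 2 := by
      rw [div_mul_eq_mul_div, div_le_div_iff₀ (by positivity) (by positivity)]
      have : δ ^ 2 ≤ t ^ 2 := by
        rw [← sq_abs t]
        gcongr
      nlinarith [sq_nonneg D]
    have h3 : -(κ * t) ≤ B / (ε * δ) * t ^ 2 := by
      have h4 : -(κ * t) ≤ |κ| * |t| := by
        rw [← abs_mul]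
        exact neg_le_abs _
      have h5 : |t| ≤ t ^ 2 / δ := by
        rw [le_div_iff₀ hδ0, ← sq_abs t, sq]
        exact mul_le_mul_of_nonneg_left hfar.le (abs_nonneg _)
      calc -(κ * t) ≤ |κ| * |t| := h4
        _ ≤ B / ε * (t ^ 2 / δ) := by gcongr
        _ = B / (ε * δ) * t ^ 2 := by field_simp
    have h4 : 0 ≤ B / (2 * ε) * t ^ 2 := by positivity
    have h5 : 0 ≤ halfDistSq x₁ (G.ex x p) := by
      rw [halfDistSq]; positivity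
    nlinarith

end Crest.Agent.R226.NS683
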