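/-
R226 / leaf L3 (helper683), part 3: `T1iP → NS1P` (cut points by Fubini + kink lemma + limits).
-/
import Crest.Agent.R226.NS1A_683
import Crest.Agent.R226.Kink_683
import Crest.Agent.R226.Jac5_344
import Crest.Agent.R226.VolChartB_767

set_option autoImplicit false

open MeasureTheory Bundle Set Filter Manifold
open scoped Manifold ContDiff Bundle ENNReal Topology
open Crest.GeometryTopology.MTW

namespace Crest.Agent.R226.NS683

section cut

variable {n : ℕ} {M : Type*} [MetricSpace M] [ChartedSpace (EuclideanSpace ℝ (Fin n)) M]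
  [IsManifold (𝓡 n) ∞ M]
  [RiemannianBundle (fun p : M => TangentSpace (𝓡 n) p)]

/-- pairs `(x', y)` with `x'` a cut point of `y` (a velocity in `K(y) \ I(y)`). -/
def CS (G : GeoData n M) : Set (M × M) :=
  (fun p : TangentBundle (𝓡 n) M => (G.ex p.1 p.2, p.1)) '' (G.KT \ G.IT)

theorem isCompact_CS {G : GeoData n M} (hC : CutFacts G) : IsCompact (CS G) := by
  refine (hC.isCompact_KT.diff hC.isOpen_IT).image ?_
  exact (CutTop478.continuous_ex G).prodMk
    (FiberBundle.continuous_proj (EuclideanSpace ℝ (Fin n)) (TangentSpace (𝓡 n)))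

theorem slice_CS (G : GeoData n M) (y : M) :
    {x' : M | (x', y) ∈ CS G} = G.ex y '' {v | v ∈ G.K y ∧ v ∉ G.I y} := by
  ext x'
  constructor
  · rintro ⟨⟨y', v⟩, ⟨h1, h2⟩, he⟩
    simp only [Prod.mk.injEq] at he
    obtain ⟨he1, he2⟩ := he
    subst he2
    exact ⟨v, ⟨h1, h2⟩, he1⟩
  · rintro ⟨v, ⟨h1, h2⟩, rfl⟩
    exact ⟨⟨y, v⟩, ⟨h1, h2⟩, rfl⟩

theorem exists_mem_I_of_not_CS (G : GeoData n M) {x' y : M} (h : (x', y) ∉ CS G) :
    ∃ v ∈ G.I y, G.ex y v = x' := by
  obtain ⟨v, hv, hvx⟩ := CutTop478.exists_mem_K G y x'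
  refine ⟨v, ?_, hvx⟩
  by_contra hI
  exact h ⟨⟨y, v⟩, ⟨hv, hI⟩, by simp [hvx]⟩

variable [IsContMDiffRiemannianBundle (𝓡 n) ∞ (EuclideanSpace ℝ (Fin n))
    (fun p : M => TangentSpace (𝓡 n) p)] [IsRiemannianManifold (𝓡 n) M] [CompactSpace M]

theorem null_slice [MeasurableSpace M] [BorelSpace M] {G : GeoData n M} (hC : CutFacts G) (y : M) :
    (Measure.hausdorffMeasure (n : ℝ) : Measure M) {x' : M | (x', y) ∈ CS G} = 0 := by
  obtain ⟨C, hvol⟩ := Jac344.vol_global hC
  obtain ⟨ι⟩ := Jac344.exists_iso n y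
  obtain ⟨A, hA⟩ : ∃ A : Set (EE n), A = {a | ι a ∈ G.K y ∧ ι a ∉ G.I y} := ⟨_, rfl⟩
  have hA0 : (volume : Measure (EE n)) A = 0 := by
    rw [hA]; exact Jac344.null_K_diff_I hC y ι
  have hcont : Continuous (fun a => ι a) := ι.continuous
  have hAm : MeasurableSet A := by
    rw [hA]
    have h1 : IsClosed {a : EE n | ι a ∈ G.K y} := (CutTop478.isClosed_K G y).preimage hcont
    have h2 : IsOpen {a : EE n | ι a ∈ G.I y} :=
      (CutTop478.isOpen_I_of_isOpen_IT G hC.isOpen_IT y).preimage hcont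
    exact h1.measurableSet.inter h2.measurableSet.compl
  have h1 := (hvol y ι A hAm (fun a ha => by rw [hA] at ha; exact ha.1)).1
  have h2 : (fun a => G.ex y (ι a)) '' A = {x' : M | (x', y) ∈ CS G} := by
    rw [slice_CS, hA]
    ext z
    constructor
    · rintro ⟨a, ha, rfl⟩
      exact ⟨ι a, ha, rfl⟩
    · rintro ⟨v, hv, rfl⟩
      refine ⟨ι.symm v, ?_, by simp⟩
      change ι (ι.symm v) ∈ _ ∧ ι (ι.symm v) ∉ _
      rw [ι.apply_symm_apply]
      exact hv
  rw [h2, Measure.restrict_eq_zero.2 hA0, lintegral_zero_measure, mul_zero] at h1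
  exact le_antisymm h1 zero_le

/-- for almost every `z`, almost no point of the curve is a cut point of `z`. -/
theorem ae_not_cut [MeasurableSpace M] [BorelSpace M] {G : GeoData n M} (hC : CutFacts G)
    {c : ℝ → M} (hc : Continuous c) :
    ∀ᵐ z ∂(Measure.hausdorffMeasure (n : ℝ) : Measure M), ∀ᵐ s : ℝ, (z, c s) ∉ CS G := by
  haveI : SecondCountableTopology M := EMetric.secondCountable_of_sigmaCompact M
  haveI := VolChart767.isFiniteMeasure (n := n) (M := M)
  have hm : MeasurableSet {q : M × ℝ | (q.1, c q.2) ∉ CS G} := by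
    have h1 : IsOpen {q : M × ℝ | (q.1, c q.2) ∉ CS G} :=
      (isCompact_CS hC).isClosed.isOpen_compl.preimage
        (continuous_fst.prodMk (hc.comp continuous_snd))
    exact h1.measurableSet
  rw [Measure.ae_ae_comm hm]
  refine Filter.Eventually.of_forall fun s => ?_
  rw [ae_iff]
  simpa using null_slice hC (c s)

/-- good points are dense. -/
theorem exists_good [MeasurableSpace M] [BorelSpace M] {G : GeoData n M} (hC : CutFacts G)
    {c : ℝ → M} (hc : Continuous c) {U : Set M} (hU : IsOpen U) (hne : U.Nonempty) :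
    ∃ z ∈ U, ∀ᵐ s : ℝ, (z, c s) ∉ CS G := by
  haveI := VolChart767.isOpenPosMeasure (n := n) (M := M)
  by_contra hcon
  push_neg at hcon
  have h1 : (Measure.hausdorffMeasure (n : ℝ) : Measure M) U = 0 := by
    refine measure_mono_null ?_ (ae_not_cut (n := n) hC hc)
    intro z hz
    exact hcon z hz
  exact (hU.measure_pos _ hne).ne' h1

end cut

end Crest.Agent.R226.NS683
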