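/-
R226 / leaf L3 (helper683), part 4: **`T1iP G C → NS1P G C`**.
-/
import Crest.Agent.R226.NS1B_683

set_option autoImplicit false

open MeasureTheory Bundle Set Filter Manifold
open scoped Manifold ContDiff Bundle ENNReal Topology
open Crest.GeometryTopology.MTW

namespace Crest.Agent.R226.NS683

variable {n : ℕ} {M : Type*} [MetricSpace M] [ChartedSpace (EuclideanSpace ℝ (Fin n)) M]
  [IsManifold (𝓡 n) ∞ M]
  [RiemannianBundle (fun p : M => TangentSpace (𝓡 n) p)]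

theorem contDiff_line {x : M} (p₀ p₁ : TangentSpace (𝓡 n) x) :
    ContDiff ℝ ∞ (fun s : ℝ => p₀ + s • (p₁ - p₀)) :=
  contDiff_const.add (contDiff_id.smul contDiff_const)

theorem contMDiff_chord (G : GeoData n M) {x : M} (p₀ p₁ : TangentSpace (𝓡 n) x) :
    ContMDiff 𝓘(ℝ, ℝ) (𝓡 n) ∞ (fun s : ℝ => G.ex x (p₀ + s • (p₁ - p₀))) := by
  have h1 : ContDiff ℝ ∞ (fun s : ℝ => CutTop478.idE x (p₀ + s • (p₁ - p₀))) :=
    (CutTop478.contDiff_idE x).comp (contDiff_line p₀ p₁)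
  have h2 : ContMDiff 𝓘(ℝ, ℝ) 𝓘(ℝ, EuclideanSpace ℝ (Fin n)) ∞
      (fun s : ℝ => CutTop478.idE x (p₀ + s • (p₁ - p₀))) := h1.contMDiff
  exact (CutTop478.contMDiff_ex G x).comp h2

/-- smoothness of `gg` off the cut locus -/
theorem contDiffAt_gg {G : GeoData n M} (hC : CutFacts G) {x : M} (p₀ p₁ : TangentSpace (𝓡 n) x)
    {s : ℝ} {q₁ : TangentSpace (𝓡 n) (G.ex x (p₀ + s • (p₁ - p₀)))}
    (hq : q₁ ∈ G.I (G.ex x (p₀ + s • (p₁ - p₀)))) {x₁ : M}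
    (hx : G.ex (G.ex x (p₀ + s • (p₁ - p₀))) q₁ = x₁) :
    ContDiffAt ℝ ∞ (gg G x p₀ p₁ x₁) s := by
  have h1 : ContDiffAt ℝ ∞ (fun s : ℝ => ‖p₀ + s • (p₁ - p₀)‖ ^ 2 / 2) s :=
    ((contDiff_line p₀ p₁).norm_sq ℝ).contDiffAt.div_const 2
  have h2 := hC.smooth_cost _ q₁ hq
  rw [hx] at h2
  have h3 : ContMDiffAt 𝓘(ℝ, ℝ) ((𝓡 n).prod (𝓡 n)) ∞
      (fun s : ℝ => ((G.ex x (p₀ + s • (p₁ - p₀)), x₁) : M × M)) s :=
    (contMDiff_chord G p₀ p₁).contMDiffAt.prodMk contMDiffAt_const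
  have h4 : ContMDiffAt 𝓘(ℝ, ℝ) 𝓘(ℝ, ℝ) ∞
      (fun s : ℝ => halfDistSq (G.ex x (p₀ + s • (p₁ - p₀))) x₁) s :=
    ContMDiffAt.comp (g := fun q : M × M => halfDistSq q.1 q.2) s h2 h3
  have h5 : ContDiffAt ℝ ∞ (fun s : ℝ => halfDistSq (G.ex x (p₀ + s • (p₁ - p₀))) x₁) s :=
    contMDiffAt_iff_contDiffAt.1 h4
  have h6 : gg G x p₀ p₁ x₁ = fun s : ℝ => ‖p₀ + s • (p₁ - p₀)‖ ^ 2 / 2 -
      halfDistSq (G.ex x (p₀ + s • (p₁ - p₀))) x₁ := by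
    funext s
    rw [gg, halfDistSq, halfDistSq, dist_comm]
  rw [h6]
  exact h1.sub h5

/-- joint continuity of `gg` in the scaling, the far point and the time. -/
theorem continuous_gg (G : GeoData n M) {x : M} (p₀ p₁ : TangentSpace (𝓡 n) x) :
    Continuous (fun q : (ℝ × M) × ℝ => gg G x (q.1.1 • p₀) (q.1.1 • p₁) q.1.2 q.2) := by
  have h1 : Continuous (fun q : (ℝ × M) × ℝ =>
      q.1.1 • p₀ + q.2 • (q.1.1 • p₁ - q.1.1 • p₀)) := by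
    have a1 : Continuous (fun q : (ℝ × M) × ℝ => q.1.1) := continuous_fst.comp continuous_fst
    have a2 : Continuous (fun q : (ℝ × M) × ℝ => q.2) := continuous_snd
    exact (a1.smul continuous_const).add
      (a2.smul ((a1.smul continuous_const).sub (a1.smul continuous_const)))
  have h2 : Continuous (fun v : TangentSpace (𝓡 n) x => G.ex x v) :=
    (CutTop478.contMDiff_ex G x).continuous.comp (CutTop478.idE x).continuous
  have h3 : Continuous (fun q : (ℝ × M) × ℝ => q.1.2) := continuous_snd.comp continuous_fst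
  have h4 : Continuous (fun q : (ℝ × M) × ℝ => halfDistSq q.1.2
      (G.ex x (q.1.1 • p₀ + q.2 • (q.1.1 • p₁ - q.1.1 • p₀)))) := by
    unfold halfDistSq
    exact ((h3.dist (h2.comp h1)).pow 2).div_const 2
  exact ((h1.norm.pow 2).div_const 2).sub h4

/-- supporting parabolas of `gg`, uniform in the scaling and in the far point -/
theorem exists_parabola [CompactSpace M] (G : GeoData n M) {x : M} (p₀ p₁ : TangentSpace (𝓡 n) x) :
    ∃ K : ℝ, 0 ≤ K ∧ ∀ r : ℝ, 0 ≤ r → r ≤ 1 → ∀ x₁ : M, ∀ s₀ ∈ Icc (-1 : ℝ) 2,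
      ∃ κ : ℝ, ∀ s ∈ Icc (-1 : ℝ) 2,
        gg G x (r • p₀) (r • p₁) x₁ s₀ + κ * (s - s₀) - K * (s - s₀) ^ 2 ≤
          gg G x (r • p₀) (r • p₁) x₁ s := by
  obtain ⟨a0, ha0⟩ : ∃ a0 : EE n, a0 = CutTop478.idE x p₀ := ⟨_, rfl⟩
  obtain ⟨a1, ha1⟩ : ∃ a1 : EE n, a1 = CutTop478.idE x (p₁ - p₀) := ⟨_, rfl⟩
  obtain ⟨R, hRa⟩ : ∃ R : ℝ, R = ‖a0‖ + 2 * ‖a1‖ := ⟨_, rfl⟩
  obtain ⟨K, hK0, hK⟩ := semiE G x R
  refine ⟨K, hK0, fun r hr0 hr1 x₁ s₀ hs₀ => ?_⟩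
  obtain ⟨P, hP⟩ : ∃ P : TangentSpace (𝓡 n) x, P = r • p₀ + s₀ • (r • p₁ - r • p₀) := ⟨_, rfl⟩
  obtain ⟨Δ, hΔ⟩ : ∃ Δ : TangentSpace (𝓡 n) x, Δ = r • p₁ - r • p₀ := ⟨_, rfl⟩
  have hΔ' : Δ = r • (p₁ - p₀) := by rw [hΔ, smul_sub]
  have hP' : P = r • (p₀ + s₀ • (p₁ - p₀)) := by
    rw [hP, ← hΔ, hΔ', smul_add, smul_comm r s₀]
  have hPn : ‖CutTop478.idE x P‖ ≤ R := by
    have e1 : CutTop478.idE x P = r • (a0 + s₀ • a1) := by
      rw [hP', ha0, ha1, map_smul, map_add, map_smul]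
    have e2 : ‖a0 + s₀ • a1‖ ≤ ‖a0‖ + 2 * ‖a1‖ := by
      refine (norm_add_le _ _).trans ?_
      rw [norm_smul, Real.norm_eq_abs]
      have : |s₀| ≤ 2 := abs_le.2 ⟨by linarith [hs₀.1], hs₀.2⟩
      gcongr
    rw [e1, norm_smul, Real.norm_eq_abs, abs_of_nonneg hr0, hRa]
    calc r * ‖a0 + s₀ • a1‖ ≤ 1 * (‖a0‖ + 2 * ‖a1‖) := by gcongr
      _ = _ := one_mul _
  have hΔn : ‖CutTop478.idE x Δ‖ ≤ R := by
    have e1 : CutTop478.idE x Δ = r • a1 := by rw [hΔ', ha1, map_smul]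
    rw [e1, norm_smul, Real.norm_eq_abs, abs_of_nonneg hr0, hRa]
    have h1 : r * ‖a1‖ ≤ 1 * ‖a1‖ := by gcongr
    have := norm_nonneg a0
    have := norm_nonneg a1
    linarith
  obtain ⟨κ, hκ⟩ := hK (CutTop478.idE x P) (CutTop478.idE x Δ) hPn hΔn x₁
  refine ⟨inner ℝ P Δ - κ, fun s _ => ?_⟩
  have h1 := hκ (s - s₀)
  have h2 : r • p₀ + s • (r • p₁ - r • p₀) = P + (s - s₀) • Δ := by
    rw [hP, ← hΔ, sub_smul]
    abel
  have h3 : ‖P + (s - s₀) • Δ‖ ^ 2 = ‖P‖ ^ 2 + 2 * ((s - s₀) * inner ℝ P Δ) +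
      (s - s₀) ^ 2 * ‖Δ‖ ^ 2 := by
    rw [norm_add_sq_real, inner_smul_right, norm_smul, Real.norm_eq_abs, mul_pow, sq_abs]
  have h4 : gg G x (r • p₀) (r • p₁) x₁ s₀ = ‖P‖ ^ 2 / 2 - halfDistSq x₁ (G.ex x P) := by
    rw [gg, ← hP]
  have h5 : gg G x (r • p₀) (r • p₁) x₁ s = ‖P + (s - s₀) • Δ‖ ^ 2 / 2 -
      halfDistSq x₁ (G.ex x (P + (s - s₀) • Δ)) := by
    rw [gg, h2]
  rw [h4, h5, h3]
  have h6 : 0 ≤ (s - s₀) ^ 2 * ‖Δ‖ ^ 2 := by positivity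
  have h7 : halfDistSq x₁ (G.ex x (P + (s - s₀) • Δ)) ≤
    halfDistSq x₁ (G.ex x P) + κ * (s - s₀) + K * (s - s₀) ^ 2 := h1
  linarith

variable [IsContMDiffRiemannianBundle (𝓡 n) ∞ (EuclideanSpace ℝ (Fin n))
    (fun p : M => TangentSpace (𝓡 n) p)] [IsRiemannianManifold (𝓡 n) M] [CompactSpace M]

/-- the kink lemma for the perturbed chord -/
theorem kink_pert {G : GeoData n M} (hC : CutFacts G) {C : ℝ} (hC0 : 0 ≤ C) (hT : T1iP G C)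
    {x : M} {p₀ p₁ : TangentSpace (𝓡 n) x} (hp₀ : p₀ ∈ G.K x) (hp₁ : p₁ ∈ G.K x)
    {K : ℝ} (hK0 : 0 ≤ K)
    (hK : ∀ r : ℝ, 0 ≤ r → r ≤ 1 → ∀ x₁ : M, ∀ s₀ ∈ Icc (-1 : ℝ) 2,
      ∃ κ : ℝ, ∀ s ∈ Icc (-1 : ℝ) 2,
        gg G x (r • p₀) (r • p₁) x₁ s₀ + κ * (s - s₀) - K * (s - s₀) ^ 2 ≤
          gg G x (r • p₀) (r • p₁) x₁ s)
    {r : ℝ} (hr0 : 0 ≤ r) (hr1 : r < 1) {z : M}
    (hz : ∀ᵐ s : ℝ, (z, G.ex x (r • p₀ + s • (r • p₁ - r • p₀))) ∉ CS G)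
    {fs S : ℝ} (hfs : 0 < fs) (hS : S ≤ 1)
    (hg : ∀ s ∈ Icc (0 : ℝ) S, fs ≤ gg G x (r • p₀) (r • p₁) z s)
    {a : ℝ} (ha0 : 0 < a) (haS : a ≤ S) :
    gg G x (r • p₀) (r • p₁) z a - gg G x (r • p₀) (r • p₁) z S ≤ (S - a) *
      (Real.exp (C * ‖p₁ - p₀‖ * (1 + 1 / √fs)) *
        max 0 (K * a - (gg G x (r • p₀) (r • p₁) z a - gg G x (r • p₀) (r • p₁) z 0) / a)) := by
  obtain ⟨w, hw⟩ : ∃ w, w = C * ‖r • p₁ - r • p₀‖ * (1 + 1 / √fs) := ⟨_, rfl⟩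
  have hw0 : 0 ≤ w := by rw [hw]; positivity
  have hS0 : 0 ≤ S := ha0.le.trans haS
  have h1 := kink (g := gg G x (r • p₀) (r • p₁) z) (K := K) (w := w) (S := S) hK0 hw0 hS
    (hK r hr0 hr1.le z) (by
      filter_upwards [hz] with s hs hmem
      obtain ⟨q₁, hq₁, hq₁z⟩ := exists_mem_I_of_not_CS G hs
      have hsm := contDiffAt_gg hC (r • p₀) (r • p₁) hq₁ hq₁z
      refine ⟨hsm.of_le ENat.LEInfty.out, ?_⟩
      have hpos := hg s (Ioo_subset_Icc_self hmem)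
      have h2 := hT x (r • p₀) (r • p₁) (CutTop478.smul_mem_I G hp₀ hr0 hr1)
        (CutTop478.smul_mem_I G hp₁ hr0 hr1) s hmem.1 (hmem.2.trans_le hS) q₁ hq₁ z hq₁z
        (hfs.trans_le hpos)
      refine le_trans ?_ h2
      rw [neg_le_neg_iff, hw]
      have h3 : 1 / √(gg G x (r • p₀) (r • p₁) z s) ≤ 1 / √fs := by
        gcongr
      have h4 : C * |deriv (gg G x (r • p₀) (r • p₁) z) s| * ‖r • p₁ - r • p₀‖ *
          (1 + 1 / √(gg G x (r • p₀) (r • p₁) z s)) ≤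
          C * |deriv (gg G x (r • p₀) (r • p₁) z) s| * ‖r • p₁ - r • p₀‖ * (1 + 1 / √fs) := by
        gcongr
      refine h4.trans (le_of_eq ?_)
      ring)
    (a := 0) (a' := a) le_rfl ha0 haS
  rw [sub_zero] at h1
  refine h1.trans ?_
  have h2 : w * S ≤ C * ‖p₁ - p₀‖ * (1 + 1 / √fs) := by
    have h3 : ‖r • p₁ - r • p₀‖ ≤ ‖p₁ - p₀‖ := by
      rw [← smul_sub, norm_smul, Real.norm_eq_abs, abs_of_nonneg hr0]
      exact mul_le_of_le_one_left (norm_nonneg _) hr1.le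
    have h4 : w ≤ C * ‖p₁ - p₀‖ * (1 + 1 / √fs) := by
      rw [hw]
      gcongr
    calc w * S ≤ w * 1 := by gcongr
      _ = w := mul_one _
      _ ≤ _ := h4
  have h3 : 0 ≤ S - a := by linarith
  have h4 : 0 ≤ max 0 (K * a - (gg G x (r • p₀) (r • p₁) z a -
      gg G x (r • p₀) (r • p₁) z 0) / a) := le_max_left _ _
  gcongr

/-- passage to the limit -/
theorem kink_limit [MeasurableSpace M] [BorelSpace M] {G : GeoData n M} (hC : CutFacts G)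
    {C : ℝ} (hC0 : 0 ≤ C) (hT : T1iP G C)
    {x : M} {p₀ p₁ : TangentSpace (𝓡 n) x} (hp₀ : p₀ ∈ G.K x) (hp₁ : p₁ ∈ G.K x)
    {K : ℝ} (hK0 : 0 ≤ K)
    (hK : ∀ r : ℝ, 0 ≤ r → r ≤ 1 → ∀ x₁ : M, ∀ s₀ ∈ Icc (-1 : ℝ) 2,
      ∃ κ : ℝ, ∀ s ∈ Icc (-1 : ℝ) 2,
        gg G x (r • p₀) (r • p₁) x₁ s₀ + κ * (s - s₀) - K * (s - s₀) ^ 2 ≤
          gg G x (r • p₀) (r • p₁) x₁ s)
    {x₁ : M} {fs fs' S : ℝ} (hfs' : 0 < fs') (hfs : fs' < fs) (hS : S ≤ 1)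
    (hg : ∀ s ∈ Icc (0 : ℝ) S, fs ≤ gg G x p₀ p₁ x₁ s)
    {a : ℝ} (ha0 : 0 < a) (haS : a ≤ S) :
    gg G x p₀ p₁ x₁ a - gg G x p₀ p₁ x₁ S ≤ (S - a) *
      (Real.exp (C * ‖p₁ - p₀‖ * (1 + 1 / √fs')) *
        max 0 (K * a - (gg G x p₀ p₁ x₁ a - gg G x p₀ p₁ x₁ 0) / a)) := by
  have hcont := continuous_gg G p₀ p₁
  obtain ⟨Γ, hΓ⟩ : ∃ Γ : (ℝ × M) → ℝ → ℝ, Γ = fun q s => gg G x (q.1 • p₀) (q.1 • p₁) q.2 s :=
    ⟨_, rfl⟩
  have hΓc : Continuous (fun q : (ℝ × M) × ℝ => Γ q.1 q.2) := by rw [hΓ]; exact hcont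
  have hc : ∀ s : ℝ, Continuous (fun q : ℝ × M => Γ q s) := fun s =>
    hΓc.comp (continuous_id.prodMk continuous_const)
  obtain ⟨A, hA⟩ : ∃ A, A = Real.exp (C * ‖p₁ - p₀‖ * (1 + 1 / √fs')) := ⟨_, rfl⟩
  obtain ⟨Θ, hΘ⟩ : ∃ Θ : ℝ × M → ℝ, Θ = fun q => (Γ q a - Γ q S) - (S - a) *
      (A * max 0 (K * a - (Γ q a - Γ q 0) / a)) := ⟨_, rfl⟩
  have hΘc : Continuous Θ := by
    rw [hΘ]
    have h1 : Continuous (fun q : ℝ × M => (Γ q a - Γ q 0) / a) :=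
      ((hc a).sub (hc 0)).div_const a
    have h2 : Continuous (fun q : ℝ × M => K * a - (Γ q a - Γ q 0) / a) :=
      continuous_const.sub h1
    have h3 : Continuous (fun q : ℝ × M => max 0 (K * a - (Γ q a - Γ q 0) / a)) :=
      continuous_const.max h2
    have h4 : Continuous (fun q : ℝ × M => A * max 0 (K * a - (Γ q a - Γ q 0) / a)) :=
      continuous_const.mul h3
    exact ((hc a).sub (hc S)).sub (continuous_const.mul h4)
  have hcl : IsClosed {q : ℝ × M | Θ q ≤ 0} := isClosed_le hΘc continuous_const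
  have hmem : ((1 : ℝ), x₁) ∈ closure {q : ℝ × M | Θ q ≤ 0} := by
    rw [mem_closure_iff_nhds]
    intro U hU
    have hev : ∀ᶠ q in 𝓝 ((1 : ℝ), x₁), ∀ s ∈ Icc (0 : ℝ) S, fs' < Γ q s := by
      refine (isCompact_Icc (a := (0 : ℝ)) (b := S)).eventually_forall_of_forall_eventually ?_
      intro s hs
      have h1 : fs' < Γ ((1 : ℝ), x₁) s := by
        rw [hΓ]
        simp only [one_smul]
        exact hfs.trans_le (hg s hs)
      exact hΓc.continuousAt.eventually (lt_mem_nhds h1)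
    obtain ⟨V, hV, W, hW, hVW⟩ := mem_nhds_prod_iff.1 (inter_mem hU hev)
    obtain ⟨ε, hε, hball⟩ := Metric.mem_nhds_iff.1 hV
    obtain ⟨r, hr0, hr1, hrV⟩ : ∃ r : ℝ, 0 ≤ r ∧ r < 1 ∧ r ∈ V := by
      refine ⟨max (1 / 2) (1 - ε / 2), le_trans (by norm_num) (le_max_left _ _),
        max_lt (by norm_num) (by linarith), hball ?_⟩
      rw [Metric.mem_ball, Real.dist_eq, abs_of_nonpos]
      · have := le_max_right (1 / 2) (1 - ε / 2)
        linarith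
      · have : max (1 / 2) (1 - ε / 2) < 1 := max_lt (by norm_num) (by linarith)
        linarith
    have hcc : Continuous (fun s : ℝ => G.ex x (r • p₀ + s • (r • p₁ - r • p₀))) :=
      (contMDiff_chord G (r • p₀) (r • p₁)).continuous
    obtain ⟨z, hzW, hz⟩ := exists_good hC hcc (U := interior W) isOpen_interior
      ⟨x₁, mem_interior_iff_mem_nhds.2 hW⟩
    have h2 := hVW (Set.mk_mem_prod hrV (interior_subset hzW))
    refine ⟨(r, z), h2.1, ?_⟩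
    have h3 := kink_pert hC hC0 hT hp₀ hp₁ hK0 hK hr0 hr1 hz hfs' hS
      (fun s hs => by
        have h4 := h2.2 s hs
        rw [hΓ] at h4
        exact h4.le) ha0 haS
    change Θ (r, z) ≤ 0
    rw [hΘ, hΓ]
    rw [← hA] at h3
    exact sub_nonpos.2 h3
  have hfin : Θ ((1 : ℝ), x₁) ≤ 0 := by
    rw [hcl.closure_eq] at hmem
    exact hmem
  rw [hΘ, hΓ, hA] at hfin
  simp only [one_smul] at hfin
  exact sub_nonpos.1 hfin

/-- **L3**: the pointwise inequality implies the one-variable inequality. -/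
theorem ns1P_of_T1iP [MeasurableSpace M] [BorelSpace M] {G : GeoData n M} (hC : CutFacts G)
    {C : ℝ} (hC0 : 0 ≤ C) (hT : T1iP G C) : NS1P G C := by
  intro x p₀ p₁ hp₀ hp₁ x₁ fs S hfs hS0 hS hg m hm
  obtain ⟨K, hK0, hK⟩ := exists_parabola G p₀ p₁
  rcases eq_or_lt_of_le hS0 with hS00 | hSpos
  · rw [← hS00]
    simp
  obtain ⟨g, hgdef⟩ : ∃ g, g = gg G x p₀ p₁ x₁ := ⟨_, rfl⟩
  rw [← hgdef]
  rw [← hgdef] at hm hg
  have hgc : Continuous g := by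
    have h1 := (continuous_gg G p₀ p₁).comp
      (continuous_const.prodMk continuous_id : Continuous fun s : ℝ => (((1 : ℝ), x₁), s))
    rw [hgdef]
    convert h1 using 1
    funext s
    simp [Function.comp]
  -- step B
  have hB : ∀ fs' : ℝ, 0 < fs' → fs' < fs → ∀ m' > m,
      g 0 - g S ≤ S * (Real.exp (C * ‖p₁ - p₀‖ * (1 + 1 / √fs')) * max 0 m') := by
    intro fs' hfs' hfsl m' hm'
    obtain ⟨A, hA⟩ : ∃ A, A = Real.exp (C * ‖p₁ - p₀‖ * (1 + 1 / √fs')) := ⟨_, rfl⟩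
    have hA0 : 0 < A := by rw [hA]; exact Real.exp_pos _
    rw [← hA]
    have hev : ∀ᶠ a : ℝ in 𝓝[>] 0, g a - g S ≤ (S - a) * (A * max 0 (K * a + m')) := by
      have h1 : Ioc (0 : ℝ) S ∈ 𝓝[>] (0 : ℝ) := Ioc_mem_nhdsGT hSpos
      filter_upwards [h1, hm m' hm'] with a ha hma
      have h2 := kink_limit hC hC0 hT hp₀ hp₁ hK0 hK hfs' hfsl hS
        (fun s hs => by rw [← hgdef]; exact hg s hs.1 hs.2) ha.1 ha.2 (x₁ := x₁)
      rw [← hgdef, ← hA] at h2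
      refine h2.trans ?_
      have h3 : -((g a - g 0) / a) ≤ m' := by
        rw [← neg_div, div_le_iff₀ ha.1]
        linarith
      have h4 : 0 ≤ S - a := by linarith [ha.2]
      have h5 : K * a - (g a - g 0) / a ≤ K * a + m' := by linarith
      gcongr
    have hl : Tendsto (fun a : ℝ => g a - g S) (𝓝[>] 0) (𝓝 (g 0 - g S)) :=
      ((hgc.tendsto 0).sub_const (g S)).mono_left nhdsWithin_le_nhds
    have hr : Tendsto (fun a : ℝ => (S - a) * (A * max 0 (K * a + m'))) (𝓝[>] 0)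
        (𝓝 ((S - 0) * (A * max 0 (K * 0 + m')))) := by
      have : Continuous (fun a : ℝ => (S - a) * (A * max 0 (K * a + m'))) := by fun_prop
      exact (this.tendsto 0).mono_left nhdsWithin_le_nhds
    have := le_of_tendsto_of_tendsto hl hr hev
    simpa using this
  -- step C
  have hev : ∀ᶠ t : ℝ in 𝓝[>] 0, g 0 - g S ≤
      S * (Real.exp (C * ‖p₁ - p₀‖ * (1 + 1 / √(fs - t))) * max 0 (m + t)) := by
    have h1 : Ioo (0 : ℝ) fs ∈ 𝓝[>] (0 : ℝ) := Ioo_mem_nhdsGT hfs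
    filter_upwards [h1] with t ht
    exact hB (fs - t) (by linarith [ht.2]) (by linarith [ht.1]) (m + t) (by
      show m < m + t
      linarith [ht.1])
  have hr : Tendsto (fun t : ℝ =>
      S * (Real.exp (C * ‖p₁ - p₀‖ * (1 + 1 / √(fs - t))) * max 0 (m + t))) (𝓝[>] 0)
      (𝓝 (S * (Real.exp (C * ‖p₁ - p₀‖ * (1 + 1 / √(fs - 0))) * max 0 (m + 0)))) := by
    have h1 : ContinuousAt (fun t : ℝ =>
      S * (Real.exp (C * ‖p₁ - p₀‖ * (1 + 1 / √(fs - t))) * max 0 (m + t))) 0 := by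
      have h2 : √(fs - 0) ≠ 0 := by
        rw [sub_zero]
        exact (Real.sqrt_pos.2 hfs).ne'
      have h3 : ContinuousAt (fun t : ℝ => √(fs - t)) 0 := by fun_prop
      have h4 : ContinuousAt (fun t : ℝ => 1 / √(fs - t)) 0 := continuousAt_const.div h3 h2
      have h5 : ContinuousAt (fun t : ℝ => Real.exp (C * ‖p₁ - p₀‖ * (1 + 1 / √(fs - t)))) 0 :=
        (continuousAt_const.mul (continuousAt_const.add h4)).rexp
      have h6 : ContinuousAt (fun t : ℝ => max 0 (m + t)) 0 := by fun_prop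
      exact continuousAt_const.mul (h5.mul h6)
    exact h1.tendsto.mono_left nhdsWithin_le_nhds
  have := ge_of_tendsto hr hev
  simpa using this

end Crest.Agent.R226.NS683
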