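/-
R226 / E (helper487): leaf (F-row) of the pair-functional scheme (helper579 / helper619).
* `row_pair`: if every closed half-space through `q_t` contains mass `≥ m'` of a subset `W` of the
  column `Q_H(y_F)`, then every `y₂` seen by `x_t` sees, together with `y_F`, `X`-mass `≥ m'`;
* `row_osc`: with no growth of the pair functional the row `Y_{H₁}(x_t)` has oscillation
  `≤ 2 B + H₁`.
-/
import Crest.Agent.R226.NGcol_487
import Crest.Agent.R226.SupPair_413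

set_option autoImplicit false
set_option linter.unusedSectionVars false

open MeasureTheory Bundle Set Filter
open scoped Manifold ContDiff Bundle ENNReal Topology
open Crest.GeometryTopology.MTW

namespace Crest.Agent.R226.Row487

open Crest.Agent.R226 Crest.Agent.R226.Kant624 Crest.Agent.R226.Reduction624
  Crest.Agent.R226.HolderEnd915 Crest.Agent.R226.E1Shape964 Crest.Agent.R226.Dasm290
  Crest.Agent.R226.Osc977 Crest.Agent.R226.Far977 Crest.Agent.R226.NG487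
  Crest.Agent.R226.SupPair413

variable {n : ℕ} {M : Type*} [MetricSpace M] [ChartedSpace (EuclideanSpace ℝ (Fin n)) M]
  [IsManifold (𝓡 n) ∞ M]
  [RiemannianBundle (fun p : M => TangentSpace (𝓡 n) p)]
  [IsContMDiffRiemannianBundle (𝓡 n) ∞ (EuclideanSpace ℝ (Fin n))
    (fun p : M => TangentSpace (𝓡 n) p)]
  [IsRiemannianManifold (𝓡 n) M] [CompactSpace M]
  {G : GeoData n M}

/-- the Loeper half-space in a column: targets in it see `y₂` as well as `x_t` does. -/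
theorem col_halfspace (hg : GoodAll G) {u : M → ℝ} {yF : M} (y2 : M)
    {qt : TangentSpace (𝓡 n) yF} (hqt : qt ∈ G.K yF) {ε : ℝ} (hε : 0 < ε) :
    ∃ f : TangentSpace (𝓡 n) yF →L[ℝ] ℝ, ∀ q ∈ G.K yF, f qt ≤ f q →
      Dd u (G.ex yF q) y2 ≤ Dd u (G.ex yF q) yF + Dd u (G.ex yF qt) y2
        - Dd u (G.ex yF qt) yF + ε := by
  obtain ⟨f, hf⟩ := halfspace hg y2 qt hε
  refine ⟨f, fun q hq hle => ?_⟩
  have h1 := hf q hq hle
  have h2 := Dd_sub (u := u) (y := y2) hq hqt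
  linarith

variable [MeasurableSpace M] [BorelSpace M]

/-- **(R1)** -/
theorem row_pair (hg : GoodAll G) {vol : Measure M} [IsFiniteMeasure vol] {u : M → ℝ}
    (hu : CConv u) {yF : M} {H m' : ℝ} {W : Set (TangentSpace (𝓡 n) yF)}
    (hW : W ⊆ QS G u yF H) {qt : TangentSpace (𝓡 n) yF} (hqt : qt ∈ G.K yF)
    (hmass : ∀ f : TangentSpace (𝓡 n) yF →L[ℝ] ℝ,
      m' ≤ (vol (G.ex yF '' {q | q ∈ W ∧ f qt ≤ f q})).toReal)
    (y2 : M) {ε : ℝ} (hε : 0 < ε) :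
    m' ≤ (vol {x | Dd u x yF ≤ H ∧ Dd u x y2 ≤ H + Dd u (G.ex yF qt) y2 + ε}).toReal := by
  obtain ⟨f, hf⟩ := col_halfspace (u := u) hg y2 hqt hε
  refine (hmass f).trans (ENNReal.toReal_mono (measure_ne_top _ _) (measure_mono ?_))
  rintro _ ⟨q, ⟨hqW, hqf⟩, rfl⟩
  have hq := hW hqW
  have h1 := hf q hq.1 hqf
  have h2 := Dd_nonneg (CConv.continuous hu) (G.ex yF qt) yF
  have h3 := hq.2
  exact ⟨h3, by linarith⟩

/-- the same in terms of the pair volume of the dual potential. -/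
theorem row_pair_Vp (hg : GoodAll G) {vol : Measure M} [IsFiniteMeasure vol] {u : M → ℝ}
    (hu : CConv u) {yF : M} {H H1 h' m' : ℝ} {W : Set (TangentSpace (𝓡 n) yF)}
    (hW : W ⊆ QS G u yF H) {qt : TangentSpace (𝓡 n) yF} (hqt : qt ∈ G.K yF)
    (hmass : ∀ f : TangentSpace (𝓡 n) yF →L[ℝ] ℝ,
      m' ≤ (vol (G.ex yF '' {q | q ∈ W ∧ f qt ≤ f q})).toReal)
    {y2 : M} (hy2 : Dd u (G.ex yF qt) y2 ≤ H1) (hH1 : 0 ≤ H1) (hh' : H + H1 < h') :
    m' ≤ Vp vol (ctr u) yF y2 h' ∧ m' ≤ Vp vol (ctr u) y2 yF h' := by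
  have h1 := row_pair (vol := vol) hg hu hW hqt hmass y2 (ε := h' - H - H1) (by linarith)
  have h2 : {x | Dd u x yF ≤ H ∧ Dd u x y2 ≤ H + Dd u (G.ex yF qt) y2 + (h' - H - H1)} ⊆
      YY (ctr u) yF y2 h' := by
    rintro x ⟨hx1, hx2⟩
    refine ⟨?_, ?_⟩
    · rw [Dd_ctr hu]; linarith
    · rw [Dd_ctr hu]; linarith
  have h3 : YY (ctr u) yF y2 h' = YY (ctr u) y2 yF h' := by
    ext x; exact and_comm
  have h4 : m' ≤ Vp vol (ctr u) yF y2 h' :=
    h1.trans (ENNReal.toReal_mono (measure_ne_top _ _) (measure_mono h2))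
  refine ⟨h4, ?_⟩
  unfold Vp at h4 ⊢
  rwa [← h3]

/-- **(R2)**, the row bound: no growth for the pairs containing `y_F` bounds the oscillation of the
row of `x_t`. -/
theorem row_osc (hg : GoodAll G) {vol : Measure M} [IsFiniteMeasure vol] {u : M → ℝ}
    (hu : CConv u) {yF : M} {H H1 h' m' B : ℝ} {W : Set (TangentSpace (𝓡 n) yF)}
    (hW : W ⊆ QS G u yF H) {qt : TangentSpace (𝓡 n) yF} (hqt : qt ∈ G.K yF)
    (hmass : ∀ f : TangentSpace (𝓡 n) yF →L[ℝ] ℝ,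
      m' ≤ (vol (G.ex yF '' {q | q ∈ W ∧ f qt ≤ f q})).toReal)
    (hH1 : 0 ≤ H1) (hh' : H + H1 < h') (hB : 0 ≤ B)
    (hNG : ∀ y2 : M, (m' ≤ Vp vol (ctr u) yF y2 h' → ctr u yF - ctr u y2 ≤ B) ∧
      (m' ≤ Vp vol (ctr u) y2 yF h' → ctr u y2 - ctr u yF ≤ B)) :
    osc (ctr u) (G.ex yF qt) H1 ≤ 2 * B + H1 := by
  have hcl : ∀ y2 : M, Dd (ctr u) y2 (G.ex yF qt) ≤ H1 →
      |ctr u yF - ctr u y2| ≤ B := by
    intro y2 hy2
    rw [Dd_ctr hu] at hy2
    obtain ⟨h1, h2⟩ := row_pair_Vp (vol := vol) hg hu hW hqt hmass hy2 hH1 hh'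
    have h3 := (hNG y2).1 h1
    have h4 := (hNG y2).2 h2
    rw [abs_le]
    constructor <;> linarith
  refine osc_le (by positivity) ?_
  intro y2 y3 hy2 hy3
  have h2 := hcl y2 hy2
  have h3 := hcl y3 hy3
  have hcu := CConv.continuous (CConv_ctr (CConv.continuous hu))
  have h4 : 0 ≤ Dd (ctr u) y3 (G.ex yF qt) := Dd_nonneg hcu _ _
  rw [abs_le] at h2 h3
  unfold Dd at hy2 h4
  linarith [h2.1, h2.2, h3.1, h3.2]

/-- **(R3)** from the area formula (shape of `Jac344.exists_area`): mass of the weight on every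
half-space gives the hypothesis `hmass`. -/
theorem hmass_of_lintegral {vol : Measure M} [IsFiniteMeasure vol] {yF : M}
    [MeasurableSpace (TangentSpace (𝓡 n) yF)] [BorelSpace (TangentSpace (𝓡 n) yF)]
    {μ : Measure (TangentSpace (𝓡 n) yF)} {J : TangentSpace (𝓡 n) yF → ℝ≥0∞} {C : ℝ} (hC : 0 < C)
    (harea : ∀ A ⊆ G.K yF, IsCompact A →
      ∫⁻ p in A, J p ∂μ ≤ ENNReal.ofReal C * vol (G.ex yF '' A))
    {W : Set (TangentSpace (𝓡 n) yF)} (hWc : IsCompact W) (hWK : W ⊆ G.K yF)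
    {qt : TangentSpace (𝓡 n) yF} {m' : ℝ}
    (hI : ∀ f : TangentSpace (𝓡 n) yF →L[ℝ] ℝ,
      ENNReal.ofReal (C * m') ≤ ∫⁻ q in {q | q ∈ W ∧ f qt ≤ f q}, J q ∂μ) :
    ∀ f : TangentSpace (𝓡 n) yF →L[ℝ] ℝ,
      m' ≤ (vol (G.ex yF '' {q | q ∈ W ∧ f qt ≤ f q})).toReal := by
  intro f
  have h1 : IsCompact {q | q ∈ W ∧ f qt ≤ f q} :=
    hWc.inter_right (isClosed_le continuous_const f.continuous)
  have h2 := (hI f).trans (harea _ (fun q hq => hWK hq.1) h1)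
  rw [ENNReal.ofReal_mul hC.le] at h2
  have h3 : ENNReal.ofReal m' ≤ vol (G.ex yF '' {q | q ∈ W ∧ f qt ≤ f q}) := by
    refine (ENNReal.mul_le_mul_iff_right ?_ ENNReal.ofReal_ne_top).1 h2
    exact (ENNReal.ofReal_pos.2 hC).ne'
  rcases le_or_gt m' 0 with h | h
  · exact h.trans ENNReal.toReal_nonneg
  · rw [← ENNReal.toReal_ofReal h.le]
    exact ENNReal.toReal_mono (measure_ne_top _ _) h3

end Crest.Agent.R226.Row487
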