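/-
R226 (helper114): convex / measure layer of the tall section lemma (619's (S1') + (row), message
10436 / 10578), Mathlib + `Tukey_229` only.

`Tall Q qN q1 T` : `Q` convex, `qN` its nearest point to `0`, all heights `≤ 2T`, `q1` of height
`≥ T`.  Rows `row qN q1 m τ = qN + τ (qend m - qN)`, `qend m = (8/9) q1 + (7/72) qN + (1/72) m`,
`row qN q1 m (9/16) = (1/2) q1 + (63/128) qN + (1/128) m` (= 619's `q''`).
* `inward`     : the chords `q1 → (1-s) qN + s m`, `s ≤ 1/8`, are strictly inward up to time `1/2`;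
* `row_eq`     : rows are points of those chords;
* `J_row`      : `c J(q1) ≤ J` on the rows, from WNcP based at the single point `q1`;
* `mass_core`  : mass of the core `{row qN q1 ((1/2) g + (1/2) m) (9/16) : m ∈ Q}`;
* `mass_half`  : every closed half-space through a row `3/4 ≤ τ ≤ 1` has a fixed part of the mass;
* heights of the rows.
-/
import Crest.Agent.R226.Tukey_229
import Mathlib.MeasureTheory.Measure.Lebesgue.EqHaar
import Mathlib.Analysis.InnerProductSpace.Basic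

set_option autoImplicit false
set_option linter.unusedSectionVars false

open MeasureTheory Set Module
open scoped ENNReal RealInnerProductSpace Pointwise

namespace Crest.Agent.R226.TallGeo114

universe u

variable {E : Type u} [NormedAddCommGroup E] [InnerProductSpace ℝ E]

/-- a tall convex set with a heavy point. -/
structure Tall (Q : Set E) (qN q1 : E) (T : ℝ) : Prop where
  conv : Convex ℝ Q
  memN : qN ∈ Q
  min : ∀ w ∈ Q, ‖qN‖ ≤ ‖w‖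
  mem1 : q1 ∈ Q
  pos : 0 < T
  lo : T ≤ ‖q1‖ ^ 2 / 2 - ‖qN‖ ^ 2 / 2
  hi : ∀ w ∈ Q, ‖w‖ ^ 2 / 2 - ‖qN‖ ^ 2 / 2 ≤ 2 * T

/-- the end point of the ray -/
noncomputable def qend (qN q1 m : E) : E := (8 / 9 : ℝ) • q1 + (7 / 72 : ℝ) • qN + (1 / 72 : ℝ) • m

/-- the rows -/
noncomputable def row (qN q1 m : E) (τ : ℝ) : E := qN + τ • (qend qN q1 m - qN)

theorem inner_nonneg_of_nearest {Q : Set E} (hQ : Convex ℝ Q) {p q : E} (hp : p ∈ Q)
    (hmin : ∀ w ∈ Q, ‖p‖ ≤ ‖w‖) (hq : q ∈ Q) : 0 ≤ ⟪p, q - p⟫ := by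
  by_contra hneg
  push Not at hneg
  set a : ℝ := ⟪p, q - p⟫ with ha
  set b : ℝ := ‖q - p‖ ^ 2 with hb
  have hb0 : 0 ≤ b := by positivity
  set t : ℝ := min 1 (-a / (b + 1)) with ht
  have ht0 : 0 < t := lt_min one_pos (div_pos (by linarith) (by linarith))
  have ht1 : t ≤ 1 := min_le_left _ _
  have ht2 : t * (b + 1) ≤ -a := by
    have := min_le_right 1 (-a / (b + 1))
    rw [← ht] at this
    rwa [le_div_iff₀ (by linarith)] at this
  have hw : p + t • (q - p) ∈ Q := hQ.add_smul_sub_mem hp hq ⟨ht0.le, ht1⟩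
  have h1 := hmin _ hw
  have h2 : ‖p‖ ^ 2 ≤ ‖p + t • (q - p)‖ ^ 2 := by gcongr
  have h3 : ‖p + t • (q - p)‖ ^ 2 = ‖p‖ ^ 2 + 2 * t * a + t ^ 2 * b := by
    rw [norm_add_sq_real, inner_smul_right, norm_smul, mul_pow, Real.norm_of_nonneg ht0.le]
    ring
  rw [h3] at h2
  have h5 : 2 * a + t * b ≥ 0 := by
    by_contra hc
    push Not at hc
    have := mul_neg_of_pos_of_neg ht0 hc
    nlinarith
  nlinarith

/-- height of `p + w` -/
theorem ht_add (p w : E) : ‖p + w‖ ^ 2 / 2 - ‖p‖ ^ 2 / 2 = ⟪p, w⟫ + ‖w‖ ^ 2 / 2 := by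
  rw [norm_add_sq_real]; ring

variable {Q : Set E} {qN q1 : E} {T : ℝ}

namespace Tall

theorem inn (h : Tall Q qN q1 T) {m : E} (hm : m ∈ Q) : 0 ≤ ⟪qN, m - qN⟫ :=
  inner_nonneg_of_nearest h.conv h.memN h.min hm

theorem ht_eq (m : E) : ‖m‖ ^ 2 / 2 - ‖qN‖ ^ 2 / 2 = ⟪qN, m - qN⟫ + ‖m - qN‖ ^ 2 / 2 := by
  have := ht_add qN (m - qN)
  rwa [add_sub_cancel] at this

theorem hi' (h : Tall Q qN q1 T) {m : E} (hm : m ∈ Q) :
    ⟪qN, m - qN⟫ + ‖m - qN‖ ^ 2 / 2 ≤ 2 * T := by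
  rw [← ht_eq]; exact h.hi m hm

theorem lo' (h : Tall Q qN q1 T) : T ≤ ⟪qN, q1 - qN⟫ + ‖q1 - qN‖ ^ 2 / 2 := by
  rw [← ht_eq]; exact h.lo

theorem nsq (h : Tall Q qN q1 T) {m : E} (hm : m ∈ Q) : ‖m - qN‖ ^ 2 ≤ 4 * T := by
  have h1 := h.hi' hm
  have h2 := h.inn hm
  linarith

/-- product of two displacement norms -/
theorem nmul (h : Tall Q qN q1 T) {m m' : E} (hm : m ∈ Q) (hm' : m' ∈ Q) :
    |⟪m - qN, m' - qN⟫| ≤ 4 * T := by
  have h1 := h.nsq hm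
  have h2 := h.nsq hm'
  have h3 := abs_real_inner_le_norm (m - qN) (m' - qN)
  nlinarith [sq_nonneg (‖m - qN‖ - ‖m' - qN‖)]

/-- **inwardness** of the chords `q1 → (1-s) qN + s m`, `s ≤ 1/8`, up to time `1/2`. -/
theorem inward (h : Tall Q qN q1 T) {m : E} (hm : m ∈ Q) {s b : ℝ} (hs : 0 ≤ s)
    (hs' : s ≤ 1 / 8) (hb' : b ≤ 1 / 2) :
    ⟪q1 + b • (((1 - s) • qN + s • m) - q1), ((1 - s) • qN + s • m) - q1⟫ ≤
      -(1 / 8) * ‖((1 - s) • qN + s • m) - q1‖ ^ 2 := by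
  obtain ⟨w1, hw1⟩ : ∃ w1 : E, q1 - qN = w1 := ⟨_, rfl⟩
  obtain ⟨w, hw⟩ : ∃ w : E, m - qN = w := ⟨_, rfl⟩
  have e1 : ((1 - s) • qN + s • m) - q1 = s • w - w1 := by
    rw [← hw, ← hw1]; module
  have e2 : q1 = qN + w1 := by rw [← hw1]; abel
  have ha := h.inn hm
  have ha1 := h.inn h.mem1
  have hh := h.hi' hm
  have hl1 := h.lo'
  have hn := h.nsq hm
  have hn1 := h.nsq h.mem1
  have hT := h.pos
  have hx := abs_le.1 (h.nmul hm h.mem1)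
  rw [hw] at ha hh hn hx
  rw [hw1] at ha1 hl1 hn1 hx
  rw [e1]
  have e3 : ⟪q1, s • w - w1⟫ = s * ⟪qN, w⟫ - ⟪qN, w1⟫ + s * ⟪w, w1⟫ - ‖w1‖ ^ 2 := by
    rw [e2, inner_add_left, inner_sub_right, inner_sub_right, inner_smul_right, inner_smul_right,
      real_inner_self_eq_norm_sq, real_inner_comm w w1]
    ring
  have e4 : ‖s • w - w1‖ ^ 2 = s ^ 2 * ‖w‖ ^ 2 - 2 * s * ⟪w, w1⟫ + ‖w1‖ ^ 2 := by
    rw [norm_sub_sq_real, inner_smul_left, norm_smul, mul_pow, Real.norm_eq_abs, sq_abs]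
    simp only [conj_trivial]; ring
  rw [inner_add_left, inner_smul_left, real_inner_self_eq_norm_sq, e3, e4]
  simp only [conj_trivial]
  have h0 : 0 ≤ s ^ 2 * ‖w‖ ^ 2 - 2 * s * ⟪w, w1⟫ + ‖w1‖ ^ 2 := by rw [← e4]; positivity
  -- reduce to b = 1/2
  have h1 : b * (s ^ 2 * ‖w‖ ^ 2 - 2 * s * ⟪w, w1⟫ + ‖w1‖ ^ 2) ≤
      (1 / 2) * (s ^ 2 * ‖w‖ ^ 2 - 2 * s * ⟪w, w1⟫ + ‖w1‖ ^ 2) :=
    mul_le_mul_of_nonneg_right hb' h0
  -- `s α ≤ α/8`, `s² |w|² ≤ |w|²/64`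
  have h2 : s * ⟪qN, w⟫ ≤ (1 / 8) * ⟪qN, w⟫ := mul_le_mul_of_nonneg_right hs' ha
  have hs2 : s ^ 2 ≤ (1 / 8) * (1 / 8) := by nlinarith
  have h3 : s ^ 2 * ‖w‖ ^ 2 ≤ ((1 / 8) * (1 / 8)) * ‖w‖ ^ 2 :=
    mul_le_mul_of_nonneg_right hs2 (by positivity)
  have h4 : -(s * ⟪w, w1⟫) ≤ (1 / 8) * (4 * T) := by
    have : -(s * ⟪w, w1⟫) ≤ s * (4 * T) := by nlinarith [hx.1, hx.2]
    nlinarith
  nlinarith [h0, h1, h2, h3, h4, ha, ha1, hh, hl1, hn, hn1, hT]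

/-- the hypothesis of 344's pointwise comparison. -/
theorem inward' (h : Tall Q qN q1 T) {m : E} (hm : m ∈ Q) {s b : ℝ} (hs : 0 ≤ s)
    (hs' : s ≤ 1 / 8) (hb' : b ≤ 1 / 2) :
    (1 / 8) * ‖((1 - s) • qN + s • m) - q1‖ ^ 2 ≤
      |⟪q1 + b • (((1 - s) • qN + s • m) - q1), ((1 - s) • qN + s • m) - q1⟫| := by
  have := h.inward hm hs hs' hb'
  refine le_trans ?_ (neg_le_abs _)
  linarith

theorem comb_mem (h : Tall Q qN q1 T) {m : E} (hm : m ∈ Q) {s : ℝ} (hs : 0 ≤ s) (hs' : s ≤ 1) :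
    (1 - s) • qN + s • m ∈ Q :=
  h.conv h.memN hm (by linarith) hs (by ring)

theorem qend_mem (h : Tall Q qN q1 T) {m : E} (hm : m ∈ Q) : qend qN q1 m ∈ Q := by
  have h1 := h.comb_mem hm (s := 1 / 8) (by norm_num) (by norm_num)
  have h2 := h.conv h.mem1 h1 (a := 8 / 9) (b := 1 / 9) (by norm_num) (by norm_num) (by norm_num)
  convert h2 using 1
  unfold qend
  module

theorem row_mem (h : Tall Q qN q1 T) {m : E} (hm : m ∈ Q) {τ : ℝ} (h0 : 0 ≤ τ) (h1 : τ ≤ 1) :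
    row qN q1 m τ ∈ Q :=
  h.conv.add_smul_sub_mem h.memN (h.qend_mem hm) ⟨h0, h1⟩

end Tall

/-- rows are points of the chords `q1 → (1-s) qN + s m`, at the time `t = 1 - 8τ/9`. -/
theorem row_eq (qN q1 m : E) {τ : ℝ} (hτ : τ ≤ 1) :
    row qN q1 m τ = q1 + (1 - 8 * τ / 9) •
      (((1 - τ / (72 * (1 - 8 * τ / 9))) • qN + (τ / (72 * (1 - 8 * τ / 9))) • m) - q1) := by
  have ht : (0:ℝ) < 1 - 8 * τ / 9 := by linarith
  set t : ℝ := 1 - 8 * τ / 9 with htd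
  have e1 : t * (τ / (72 * t)) = τ / 72 := by field_simp
  have e2 : t • (((1 - τ / (72 * t)) • qN + (τ / (72 * t)) • m) - q1) =
      (t - t * (τ / (72 * t))) • qN + (t * (τ / (72 * t))) • m - t • q1 := by module
  rw [e2, e1]
  unfold row qend
  rw [htd]
  module

/-- the core point is half way between `q1` and `z_e = (1-1/64) qN + (1/64) m`. -/
theorem row_core (qN q1 m : E) : row qN q1 m (9 / 16) =
    q1 + (1 / 2 : ℝ) • (((1 - 1 / 64 : ℝ) • qN + (1 / 64 : ℝ) • m) - q1) := by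
  unfold row qend
  module

/-- rows as homothetic copies -/
theorem row_affine (qN q1 m : E) (τ : ℝ) :
    row qN q1 m τ = ((1 - 65 * τ / 72) • qN + (8 * τ / 9) • q1) + (τ / 72) • m := by
  unfold row qend
  module

namespace Tall

theorem s_bounds {τ : ℝ} (h0 : 0 ≤ τ) (h1 : τ ≤ 1) :
    0 ≤ τ / (72 * (1 - 8 * τ / 9)) ∧ τ / (72 * (1 - 8 * τ / 9)) ≤ 1 / 8 := by
  have ht : (0:ℝ) < 1 - 8 * τ / 9 := by linarith
  constructor
  · positivity
  · rw [div_le_iff₀ (by positivity)]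
    linarith

/-- **`c J(q1) ≤ J` on the rows**, from the one base point comparison. -/
theorem J_row (h : Tall Q qN q1 T) {J : E → ℝ≥0∞} {c : ℝ≥0∞}
    (hJ : ∀ z ∈ Q, ∀ t : ℝ, 0 ≤ t → t ≤ 1 / 2 →
      (∀ b : ℝ, 0 ≤ b → b ≤ t → (1 / 8) * ‖z - q1‖ ^ 2 ≤ |⟪q1 + b • (z - q1), z - q1⟫|) →
      c * J q1 ≤ J (q1 + t • (z - q1)))
    {m : E} (hm : m ∈ Q) {τ : ℝ} (h0 : 9 / 16 ≤ τ) (h1 : τ ≤ 1) :
    c * J q1 ≤ J (row qN q1 m τ) := by
  rw [row_eq qN q1 m h1]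
  obtain ⟨hs, hs'⟩ := s_bounds (τ := τ) (by linarith) h1
  refine hJ _ (h.comb_mem hm hs (by linarith)) _ (by linarith) (by linarith) ?_
  intro b hb hb'
  exact h.inward' hm hs hs' (by linarith)

/-- height of the rows -/
theorem ht_row (h : Tall Q qN q1 T) {m : E} (hm : m ∈ Q) {τ : ℝ} (h0 : 9 / 16 ≤ τ) :
    T / 5 ≤ ‖row qN q1 m τ‖ ^ 2 / 2 - ‖qN‖ ^ 2 / 2 := by
  obtain ⟨w1, hw1⟩ : ∃ w1 : E, q1 - qN = w1 := ⟨_, rfl⟩
  obtain ⟨w, hw⟩ : ∃ w : E, m - qN = w := ⟨_, rfl⟩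
  have ha := h.inn hm
  have ha1 := h.inn h.mem1
  have hl1 := h.lo'
  have hn := h.nsq hm
  have hn1 := h.nsq h.mem1
  have hT := h.pos
  have hx := abs_le.1 (h.nmul hm h.mem1)
  rw [hw] at ha hn hx
  rw [hw1] at ha1 hl1 hn1 hx
  have e : row qN q1 m τ = qN + τ • ((8 / 9 : ℝ) • w1 + (1 / 72 : ℝ) • w) := by
    unfold row qend; rw [← hw, ← hw1]; module
  rw [e, ht_add, inner_smul_right, inner_add_right, inner_smul_right, inner_smul_right, norm_smul,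
    mul_pow, Real.norm_eq_abs, sq_abs, norm_add_sq_real, inner_smul_left, inner_smul_right,
    norm_smul, norm_smul, mul_pow, mul_pow, Real.norm_eq_abs, Real.norm_eq_abs, sq_abs, sq_abs]
  simp only [conj_trivial]
  rw [real_inner_comm] at hx
  -- monotone in `τ`
  have h2 : (0:ℝ) ≤ 8 / 9 * ⟪qN, w1⟫ + 1 / 72 * ⟪qN, w⟫ := by positivity
  have h3 : (0:ℝ) ≤ (8 / 9) ^ 2 * ‖w1‖ ^ 2 + 2 * (8 / 9 * (1 / 72 * ⟪w1, w⟫)) +
      (1 / 72) ^ 2 * ‖w‖ ^ 2 := by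
    have : (8 / 9 : ℝ) ^ 2 * ‖w1‖ ^ 2 + 2 * (8 / 9 * (1 / 72 * ⟪w1, w⟫)) +
        (1 / 72) ^ 2 * ‖w‖ ^ 2 = ‖(8 / 9 : ℝ) • w1 + (1 / 72 : ℝ) • w‖ ^ 2 := by
      rw [norm_add_sq_real, inner_smul_left, inner_smul_right, norm_smul, norm_smul, mul_pow,
        mul_pow, Real.norm_eq_abs, Real.norm_eq_abs, sq_abs, sq_abs]
      simp only [conj_trivial]
    rw [this]; positivity
  have h4 : (9 / 16) * (8 / 9 * ⟪qN, w1⟫ + 1 / 72 * ⟪qN, w⟫) ≤
      τ * (8 / 9 * ⟪qN, w1⟫ + 1 / 72 * ⟪qN, w⟫) := mul_le_mul_of_nonneg_right h0 h2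
  have hτ2 : (9 / 16 : ℝ) ^ 2 ≤ τ ^ 2 := by gcongr
  have h5 := mul_le_mul_of_nonneg_right hτ2 h3
  nlinarith [hx.1, hx.2]

/-- height of the low end `z_e` of the core chord -/
theorem ht_low (h : Tall Q qN q1 T) {m : E} (hm : m ∈ Q) :
    ‖(1 - 1 / 64 : ℝ) • qN + (1 / 64 : ℝ) • m‖ ^ 2 / 2 - ‖qN‖ ^ 2 / 2 ≤ T / 32 := by
  have ha := h.inn hm
  have hh := h.hi' hm
  have e : (1 - 1 / 64 : ℝ) • qN + (1 / 64 : ℝ) • m = qN + (1 / 64 : ℝ) • (m - qN) := by module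
  rw [e, ht_add, inner_smul_right, norm_smul, mul_pow, Real.norm_eq_abs, sq_abs]
  nlinarith [sq_nonneg ‖m - qN‖]

end Tall

/-! ### masses -/

section Mass

variable [FiniteDimensional ℝ E] [MeasurableSpace E] [BorelSpace E] (μ : Measure E)
  [μ.IsAddHaarMeasure]

theorem measure_affine (a : E) {r : ℝ} (hr : 0 < r) (S : Set E) :
    μ ((fun m : E => a + r • m) '' S) = ENNReal.ofReal (r ^ finrank ℝ E) * μ S := by
  have h1 : (fun m : E => a + r • m) '' S = (fun x => a + x) '' (r • S) := by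
    ext x
    simp only [mem_image, mem_smul_set]
    constructor
    · rintro ⟨m, hm, rfl⟩
      exact ⟨r • m, ⟨m, hm, rfl⟩, rfl⟩
    · rintro ⟨y, ⟨m, hm, rfl⟩, rfl⟩
      exact ⟨m, hm, rfl⟩
  rw [h1, image_add_left, measure_preimage_add, Measure.addHaar_smul, abs_of_nonneg (by positivity)]

theorem measurable_affine (a : E) {r : ℝ} {S : Set E} (hS : MeasurableSet S) :
    MeasurableSet ((fun m : E => a + r • m) '' S) := by
  have h1 : (fun m : E => a + r • m) '' S = (fun x => a + x) '' (r • S) := by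
    ext x
    simp only [mem_image, mem_smul_set]
    constructor
    · rintro ⟨m, hm, rfl⟩
      exact ⟨r • m, ⟨m, hm, rfl⟩, rfl⟩
    · rintro ⟨y, ⟨m, hm, rfl⟩, rfl⟩
      exact ⟨m, hm, rfl⟩
  rw [h1, image_add_left]
  exact (measurable_const_add (-a)) (hS.const_smul₀ r)

/-- lower bound of an integral over an affine copy. -/
theorem lintegral_affine_ge (a : E) {r : ℝ} (hr : 0 < r) {S : Set E} (hS : MeasurableSet S)
    {J : E → ℝ≥0∞} {k : ℝ≥0∞} (hk : ∀ m ∈ S, k ≤ J (a + r • m)) :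
    k * (ENNReal.ofReal (r ^ finrank ℝ E) * μ S) ≤
      ∫⁻ q in (fun m : E => a + r • m) '' S, J q ∂μ := by
  rw [← measure_affine μ a hr S, ← setLIntegral_const]
  refine setLIntegral_mono' (measurable_affine a hS) ?_
  rintro x ⟨m, hm, rfl⟩
  exact hk m hm

end Mass

namespace Tall

variable [FiniteDimensional ℝ E] [MeasurableSpace E] [BorelSpace E] (μ : Measure E)
  [μ.IsAddHaarMeasure]

/-- the core set: `{row ((1/2) g + (1/2) m) (9/16) : m ∈ Q}`. -/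
noncomputable def core (Q : Set E) (qN q1 g : E) : Set E :=
  (fun m => row qN q1 ((1 / 2 : ℝ) • g + (1 / 2 : ℝ) • m) (9 / 16)) '' Q

theorem core_eq (Q : Set E) (qN q1 g : E) : core Q qN q1 g =
    (fun m => (((63 / 128 : ℝ) • qN + (1 / 2 : ℝ) • q1) + (1 / 256 : ℝ) • g) +
      (1 / 256 : ℝ) • m) '' Q := by
  unfold core
  congr 1
  funext m
  rw [row_affine]
  module

theorem half_mem (h : Tall Q qN q1 T) {g m : E} (hg : g ∈ Q) (hm : m ∈ Q) :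
    (1 / 2 : ℝ) • g + (1 / 2 : ℝ) • m ∈ Q :=
  h.conv hg hm (by norm_num) (by norm_num) (by norm_num)

theorem isCompact_core (hc : IsCompact Q) (g : E) : IsCompact (core Q qN q1 g) := by
  rw [core_eq]
  exact hc.image (by fun_prop)

theorem core_subset (h : Tall Q qN q1 T) {g : E} (hg : g ∈ Q) : core Q qN q1 g ⊆ Q := by
  rintro x ⟨m, hm, rfl⟩
  exact h.row_mem (h.half_mem hg hm) (by norm_num) (by norm_num)

/-- **mass of the core.** -/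
theorem mass_core (h : Tall Q qN q1 T) (hQm : MeasurableSet Q) {J : E → ℝ≥0∞} {c : ℝ≥0∞}
    (hJ : ∀ z ∈ Q, ∀ t : ℝ, 0 ≤ t → t ≤ 1 / 2 →
      (∀ b : ℝ, 0 ≤ b → b ≤ t → (1 / 8) * ‖z - q1‖ ^ 2 ≤ |⟪q1 + b • (z - q1), z - q1⟫|) →
      c * J q1 ≤ J (q1 + t • (z - q1))) {g : E} (hg : g ∈ Q) :
    c * J q1 * (ENNReal.ofReal ((1 / 256) ^ finrank ℝ E) * μ Q) ≤
      ∫⁻ q in core Q qN q1 g, J q ∂μ := by
  rw [core_eq]
  refine lintegral_affine_ge μ _ (by norm_num) hQm ?_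
  intro m hm
  have h1 := h.J_row hJ (h.half_mem hg hm) (τ := 9 / 16) le_rfl (by norm_num)
  convert h1 using 2
  rw [row_affine]
  module

/-- central point of `Q` for the measure `μ`. -/
theorem exists_centre (h : Tall Q qN q1 T) (hQc : IsCompact Q) :
    ∃ g ∈ Q, ∀ a : E →L[ℝ] ℝ,
      μ Q ≤ ENNReal.ofReal (finrank ℝ E + 1) * μ (Q ∩ {q | a g ≤ a q}) := by
  have hfin : μ Q ≠ ∞ := hQc.measure_lt_top.ne
  have : IsFiniteMeasure (μ.restrict Q) := ⟨by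
    rw [Measure.restrict_apply_univ]; exact hQc.measure_lt_top⟩
  obtain ⟨g, hg, hga⟩ := Tukey229.tukey (μ.restrict Q) hQc.isClosed h.conv ⟨qN, h.memN⟩ (by
    rw [Measure.restrict_apply hQc.isClosed.measurableSet.compl]; simp)
  refine ⟨g, hg, fun a => ?_⟩
  have h1 := hga a
  have e1 : (μ.restrict Q).real univ = (μ Q).toReal := by
    simp [Measure.real]
  have hm : MeasurableSet (Tukey229.up a g) := Tukey229.measurableSet_up a g
  have e2 : (μ.restrict Q).real (Tukey229.up a g) = (μ (Q ∩ {q | a g ≤ a q})).toReal := by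
    rw [Measure.real, Measure.restrict_apply hm, inter_comm]; rfl
  rw [e1, e2] at h1
  have hfin2 : μ (Q ∩ {q | a g ≤ a q}) ≠ ∞ :=
    ((measure_mono inter_subset_left).trans_lt hQc.measure_lt_top).ne
  rw [← ENNReal.ofReal_toReal hfin, ← ENNReal.ofReal_toReal hfin2,
    ← ENNReal.ofReal_mul (by positivity)]
  exact ENNReal.ofReal_le_ofReal h1

/-- **mass of the half-spaces through the rows** `3/4 ≤ τ ≤ 1`. -/
theorem mass_half (h : Tall Q qN q1 T) (hQc : IsCompact Q) {J : E → ℝ≥0∞}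
    {c : ℝ≥0∞}
    (hJ : ∀ z ∈ Q, ∀ t : ℝ, 0 ≤ t → t ≤ 1 / 2 →
      (∀ b : ℝ, 0 ≤ b → b ≤ t → (1 / 8) * ‖z - q1‖ ^ 2 ≤ |⟪q1 + b • (z - q1), z - q1⟫|) →
      c * J q1 ≤ J (q1 + t • (z - q1))) {g : E}
    (hga : ∀ a : E →L[ℝ] ℝ,
      μ Q ≤ ENNReal.ofReal (finrank ℝ E + 1) * μ (Q ∩ {q | a g ≤ a q}))
    {m : E} (hm : m ∈ Q) {τ : ℝ} (h0 : 9 / 16 ≤ τ) (h1 : τ ≤ 1) (a : E →L[ℝ] ℝ) :
    c * J q1 * (ENNReal.ofReal ((1 / 256) ^ finrank ℝ E / (finrank ℝ E + 1)) * μ Q) ≤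
      ∫⁻ q in Q ∩ {q | a (row qN q1 ((1 / 2 : ℝ) • g + (1 / 2 : ℝ) • m) τ) ≤ a q}, J q ∂μ := by
  set S : Set E := Q ∩ {q | a g ≤ a q} with hS
  have hSm : MeasurableSet S :=
    hQc.isClosed.measurableSet.inter
      (isClosed_le continuous_const a.continuous).measurableSet
  have hr : 0 < τ / 144 := by linarith
  obtain ⟨A, hA⟩ : ∃ A : E, A = ((1 - 65 * τ / 72) • qN + (8 * τ / 9) • q1) + (τ / 144) • m :=
    ⟨_, rfl⟩
  -- the copy `{row ((1/2) q + (1/2) m) τ : q ∈ S}`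
  have hcopy : ∀ q : E, A + (τ / 144) • q =
      row qN q1 ((1 / 2 : ℝ) • q + (1 / 2 : ℝ) • m) τ := by
    intro q
    rw [row_affine, hA]
    module
  have hsub : (fun q : E => A + (τ / 144) • q) '' S ⊆
      Q ∩ {q | a (row qN q1 ((1 / 2 : ℝ) • g + (1 / 2 : ℝ) • m) τ) ≤ a q} := by
    rintro x ⟨q, hq, rfl⟩
    have hq2 : a g ≤ a q := hq.2
    refine ⟨?_, ?_⟩
    · show A + (τ / 144) • q ∈ Q
      rw [hcopy]
      exact h.row_mem (h.half_mem hq.1 hm) (by linarith) h1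
    · show a (row qN q1 ((1 / 2 : ℝ) • g + (1 / 2 : ℝ) • m) τ) ≤ a (A + (τ / 144) • q)
      rw [← hcopy g, map_add, map_add, map_smul, map_smul, smul_eq_mul, smul_eq_mul]
      have := mul_le_mul_of_nonneg_left hq2 hr.le
      linarith
  have h2 : c * J q1 * (ENNReal.ofReal ((τ / 144) ^ finrank ℝ E) * μ S) ≤
      ∫⁻ q in (fun q : E => A + (τ / 144) • q) '' S, J q ∂μ := by
    refine lintegral_affine_ge μ A hr hSm ?_
    intro q hq
    rw [hcopy]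
    exact h.J_row hJ (h.half_mem hq.1 hm) h0 h1
  refine le_trans ?_ (h2.trans (lintegral_mono_set hsub))
  refine mul_le_mul_right ?_ _
  have h3 := hga a
  rw [← hS] at h3
  have hn : (0:ℝ) < finrank ℝ E + 1 := by positivity
  calc ENNReal.ofReal ((1 / 256) ^ finrank ℝ E / (finrank ℝ E + 1)) * μ Q
      ≤ ENNReal.ofReal ((1 / 256) ^ finrank ℝ E / (finrank ℝ E + 1)) *
        (ENNReal.ofReal (finrank ℝ E + 1) * μ S) := by gcongr
    _ = ENNReal.ofReal ((1 / 256) ^ finrank ℝ E) * μ S := by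
        rw [← mul_assoc, ← ENNReal.ofReal_mul (by positivity)]
        congr 2
        field_simp
    _ ≤ ENNReal.ofReal ((τ / 144) ^ finrank ℝ E) * μ S := by
        have h5 : (1 / 256 : ℝ) ≤ τ / 144 := by linarith
        exact mul_le_mul_left (ENNReal.ofReal_le_ofReal
          (pow_le_pow_left₀ (by norm_num) h5 _)) _

/-- numbers for `far_sees` (chord `q1 → z_e`, `t = 1/2`, `t' = 1`, `r = T/6`, `N = 11`). -/
theorem drops (h : Tall Q qN q1 T) {m : E} (hm : m ∈ Q) :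
    T / 6 ≤ ‖row qN q1 m (9 / 16)‖ ^ 2 / 2 -
        ‖(1 - 1 / 64 : ℝ) • qN + (1 / 64 : ℝ) • m‖ ^ 2 / 2 ∧
      ‖q1‖ ^ 2 / 2 - ‖row qN q1 m (9 / 16)‖ ^ 2 / 2 ≤ 11 * (T / 6) := by
  have h1 := h.ht_row hm (τ := 9 / 16) le_rfl
  have h2 := h.ht_low hm
  have h3 := h.hi q1 h.mem1
  have := h.pos
  constructor <;> linarith

end Tall

end Crest.Agent.R226.TallGeo114
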