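/-
R226 / leaf (F1) + (b1) of the pair scheme (msgs 10312, 10436, 10533), helper227.

* `exists_window`   : dyadic pigeonhole on a compact set for a continuous height `≥ a > 0`;
* `continuousOn_jd` : continuity of the Jacobian determinant on `K(x)`;
* `exists_heavy`    : (F1) the dyadic window of heights and the heavy point `q₁`;
* `far_sees`        : (b1) the starting point of an inward chord is seen by every contact of the
                      intermediate points.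
-/
import Crest.Agent.R226.Far_977
import Crest.Agent.R226.Jac6_344
import Crest.Agent.R226.EStep1_700

set_option autoImplicit false
set_option linter.unusedSectionVars false

open MeasureTheory Bundle Set Filter
open scoped Manifold ContDiff Bundle ENNReal Topology NNReal
open Crest.GeometryTopology.MTW

namespace Crest.Agent.R226.TallSel227

open Crest.Agent.R226 Crest.Agent.R226.Kant624 Crest.Agent.R226.Reduction624
  Crest.Agent.R226.HolderEnd915 Crest.Agent.R226.E1Shape964 Crest.Agent.R226.Dasm290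
  Crest.Agent.R226.Osc977 Crest.Agent.R226.Far977 Crest.Agent.R226.Jac344

/-! ### dyadic pigeonhole -/

theorem tsum_half : ∑' j : ℕ, (2⁻¹ : ℝ≥0∞) ^ (j + 1) = 1 := by
  have h := ENNReal.tsum_geometric (2⁻¹ : ℝ≥0∞)
  simp_rw [pow_succ, ENNReal.tsum_mul_right, h]
  rw [ENNReal.one_sub_inv_two, inv_inv]
  exact ENNReal.mul_inv_cancel (by norm_num) (by norm_num)

/-- **dyadic pigeonhole**: a set of finite measure with a height `f ≥ a > 0` has a window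
`2^j a ≤ f ≤ 2^(j+1) a` carrying the fraction `2^-(j+1)`. -/
theorem exists_window {α : Type*} [MeasurableSpace α] (vol : Measure α) {X : Set α}
    (hfin : vol X ≠ ⊤) {f : α → ℝ} {a : ℝ} (ha : 0 < a) (hf : ∀ x ∈ X, a ≤ f x) (h0 : vol X ≠ 0) :
    ∃ j : ℕ, vol X ≤ 2 ^ (j + 1) * vol {x | x ∈ X ∧ 2 ^ j * a ≤ f x ∧ f x ≤ 2 ^ (j + 1) * a} := by
  by_contra hneg
  push Not at hneg
  have hcov : X ⊆ ⋃ j : ℕ, {x | x ∈ X ∧ 2 ^ j * a ≤ f x ∧ f x ≤ 2 ^ (j + 1) * a} := by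
    intro x hx
    have h1 : 1 ≤ f x / a := by rw [one_le_div ha]; exact hf x hx
    obtain ⟨j, hj1, hj2⟩ := exists_nat_pow_near h1 (by norm_num : (1 : ℝ) < 2)
    refine mem_iUnion.2 ⟨j, hx, ?_, ?_⟩
    · rwa [le_div_iff₀ ha] at hj1
    · have := hj2.le
      rwa [div_le_iff₀ ha] at this
  have h1 : ∀ j : ℕ, vol {x | x ∈ X ∧ 2 ^ j * a ≤ f x ∧ f x ≤ 2 ^ (j + 1) * a} <
      (2⁻¹ : ℝ≥0∞) ^ (j + 1) * vol X := by
    intro j
    have h2 := hneg j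
    rw [← ENNReal.inv_pow]
    have e : (2 : ℝ≥0∞) ^ (j + 1) ≠ 0 := by positivity
    have e' : (2 : ℝ≥0∞) ^ (j + 1) ≠ ⊤ := ENNReal.pow_ne_top (by norm_num)
    calc vol {x | x ∈ X ∧ 2 ^ j * a ≤ f x ∧ f x ≤ 2 ^ (j + 1) * a}
        = ((2 : ℝ≥0∞) ^ (j + 1))⁻¹ * (2 ^ (j + 1) *
          vol {x | x ∈ X ∧ 2 ^ j * a ≤ f x ∧ f x ≤ 2 ^ (j + 1) * a}) := by
          rw [← mul_assoc, ENNReal.inv_mul_cancel e e', one_mul]
      _ < ((2 : ℝ≥0∞) ^ (j + 1))⁻¹ * vol X := by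
          refine (ENNReal.mul_lt_mul_iff_right ?_ ?_).2 h2
          · exact ENNReal.inv_ne_zero.2 e'
          · exact ENNReal.inv_ne_top.2 e
  have h2 : ∑' j : ℕ, (2⁻¹ : ℝ≥0∞) ^ (j + 1) * vol X = vol X := by
    rw [ENNReal.tsum_mul_right, tsum_half, one_mul]
  have h3 : ∑' j : ℕ, vol {x | x ∈ X ∧ 2 ^ j * a ≤ f x ∧ f x ≤ 2 ^ (j + 1) * a} <
      ∑' j : ℕ, (2⁻¹ : ℝ≥0∞) ^ (j + 1) * vol X := by
    refine ENNReal.tsum_lt_tsum (i := 0) ?_ (fun j => (h1 j).le) (h1 0)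
    refine ne_top_of_le_ne_top hfin (le_trans (ENNReal.tsum_le_tsum fun j => (h1 j).le) h2.le)
  have h4 : vol X ≤ ∑' j : ℕ, vol {x | x ∈ X ∧ 2 ^ j * a ≤ f x ∧ f x ≤ 2 ^ (j + 1) * a} :=
    (measure_mono hcov).trans (measure_iUnion_le _)
  rw [h2] at h3
  exact absurd h4 (not_le.2 h3)

section Geo

variable {n : ℕ} {M : Type*} [MetricSpace M] [ChartedSpace (EuclideanSpace ℝ (Fin n)) M]
  [IsManifold (𝓡 n) ∞ M]
  [RiemannianBundle (fun p : M => TangentSpace (𝓡 n) p)]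

/-- **(b1)**: chord `q₁ → z` in the section, `t < t'`, levels strictly decreasing from `t` to `t'`
by `r`, `ρ(q₁) - ρ(q_t) ≤ N r`.  Every contact `y'` of `exp q_t` satisfies `D(exp q₁, y') ≤ (N+1) H`. -/
theorem far_sees {G : GeoData n M} [CompactSpace M] (hg : GoodAll G) {u : M → ℝ} (hu : CConv u)
    {y : M} {H : ℝ} (hH : 0 < H) {q₁ z : TangentSpace (𝓡 n) y} (hq₁ : q₁ ∈ QS G u y H)
    (hz : z ∈ QS G u y H) {t t' : ℝ} (ht : 0 ≤ t) (htt : t < t') (ht' : t' ≤ 1) {r N : ℝ}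
    (hr : 0 < r) (hN : 0 ≤ N)
    (h1 : r ≤ ‖q₁ + t • (z - q₁)‖ ^ 2 / 2 - ‖q₁ + t' • (z - q₁)‖ ^ 2 / 2)
    (h2 : ‖q₁‖ ^ 2 / 2 - ‖q₁ + t • (z - q₁)‖ ^ 2 / 2 ≤ N * r) {y' : M}
    (hy' : y' ∈ cSub u (G.ex y (q₁ + t • (z - q₁)))) :
    Dd u (G.ex y q₁) y' ≤ (N + 1) * H := by
  have hQ := convex_QS hg hu y H
  have htp : 0 < t' := lt_of_le_of_lt ht htt
  have hc : q₁ + t • (z - q₁) ∈ QS G u y H :=
    hQ.add_smul_sub_mem hq₁ hz ⟨ht, (htt.le.trans ht')⟩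
  have he : q₁ + t' • (z - q₁) ∈ QS G u y H :=
    hQ.add_smul_sub_mem hq₁ hz ⟨htp.le, ht'⟩
  have huc := CConv.continuous hu
  have hy0 : Dd u (G.ex y (q₁ + t • (z - q₁))) y' = 0 := (Dd_eq_zero huc).2 hy'
  have e1 : q₁ + t • (z - q₁) = (t / t') • (q₁ + t' • (z - q₁)) + (1 - t / t') • q₁ := by
    rw [smul_add, smul_smul, div_mul_cancel₀ _ htp.ne']
    module
  have hF : Fq G y y' (q₁ + t' • (z - q₁)) ≤ Fq G y y' (q₁ + t • (z - q₁)) + H := by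
    have h3 := Dd_sub (u := u) (y := y') he.1 hc.1
    have h4 := Dd_nonneg huc (G.ex y (q₁ + t' • (z - q₁))) y'
    have h5 := Dd_nonneg huc (G.ex y (q₁ + t • (z - q₁))) y
    have h6 := he.2
    linarith
  have h3 : Fq G y y' (q₁ + t • (z - q₁)) - Fq G y y' q₁ ≤ N * H := by
    have e2 := e1
    generalize hqc : q₁ + t • (z - q₁) = qc at *
    subst e1
    refine fam_bound hg y' hH hr hN he.1 hq₁.1 (by positivity) ?_ (by ring) hF h1 h2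
    have : t / t' ≤ 1 := (div_le_one htp).2 htt.le
    linarith
  have h4 := Dd_sub (u := u) (y := y') hq₁.1 hc.1
  have h5 := Dd_nonneg huc (G.ex y (q₁ + t • (z - q₁))) y
  have h6 := hq₁.2
  linarith

variable [IsContMDiffRiemannianBundle (𝓡 n) ∞ (EuclideanSpace ℝ (Fin n))
    (fun p : M => TangentSpace (𝓡 n) p)]

/-- continuity of the Jacobian determinant on `K(x)`. -/
theorem continuousOn_jd {G : GeoData n M} (hC : CutFacts G) (x : M) :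
    ContinuousOn (fun p => jd G x p) (G.K x) := by
  obtain ⟨ι⟩ := exists_iso n x
  have h1 := continuousOn_detH hC x ι
  have h2 : ContinuousOn (fun p => detH G x ι (ι.symm p)) (G.K x) := by
    refine ContinuousOn.comp (g := fun a => detH G x ι a) (f := fun p => ι.symm p) h1
      ι.symm.continuous.continuousOn ?_
    intro p hp
    change ι (ι.symm p) ∈ G.K x
    rwa [ι.apply_symm_apply]
  have h3 : (fun p => jd G x p) = fun p => |detH G x ι (ι.symm p)| := by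
    funext p
    rw [jd_eq' G x ι]
  rw [h3]
  exact h2.abs

variable [CompactSpace M]

theorem continuous_ex (G : GeoData n M) (y : M) :
    Continuous (fun q : TangentSpace (𝓡 n) y => G.ex y q) :=
  G.smooth.continuous.comp (FiberBundle.continuous_totalSpaceMk (EuclideanSpace ℝ (Fin n))
    (fun p : M => TangentSpace (𝓡 n) p) y)

/-- **(F1)**: the dyadic window of heights and the heavy point `q₁`. -/
theorem exists_heavy {G : GeoData n M} (hC : CutFacts G) [MeasurableSpace M] [BorelSpace M]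
    {vol : Measure M} [IsFiniteMeasure vol] {u : M → ℝ} {y : M}
    [MeasurableSpace (TangentSpace (𝓡 n) y)] [BorelSpace (TangentSpace (𝓡 n) y)]
    {μ : Measure (TangentSpace (𝓡 n) y)} {J : TangentSpace (𝓡 n) y → ℝ≥0∞} {C : ℝ}
    (hJ : ∀ p ∈ G.K y, J p = ENNReal.ofReal (jd G y p))
    (harea : ∀ A ⊆ G.K y, IsCompact A → vol (G.ex y '' A) ≤ ENNReal.ofReal C * ∫⁻ p in A, J p ∂μ)
    {H a : ℝ} (ha : 0 < a) {qN : TangentSpace (𝓡 n) y} {X : Set M} (hX : IsCompact X)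
    (h0 : vol X ≠ 0) (hsub : ∀ x ∈ X, Dd u x y ≤ H)
    (hlev : ∀ x ∈ X, a ≤ halfDistSq x y - ‖qN‖ ^ 2 / 2) :
    ∃ j : ℕ, ∃ q₁ ∈ QS G u y H, G.ex y q₁ ∈ X ∧ 2 ^ j * a ≤ ‖q₁‖ ^ 2 / 2 - ‖qN‖ ^ 2 / 2 ∧
      ‖q₁‖ ^ 2 / 2 - ‖qN‖ ^ 2 / 2 ≤ 2 ^ (j + 1) * a ∧
      vol X ≤ 2 ^ (j + 1) * (ENNReal.ofReal C *
        (J q₁ * μ {q ∈ QS G u y H | ‖q‖ ^ 2 / 2 - ‖qN‖ ^ 2 / 2 ≤ 2 ^ (j + 1) * a})) := by
  obtain ⟨j, hj⟩ := exists_window vol (measure_ne_top vol X)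
    (f := fun x => halfDistSq x y - ‖qN‖ ^ 2 / 2) ha hlev h0
  refine ⟨j, ?_⟩
  set A : Set (TangentSpace (𝓡 n) y) := {q | q ∈ G.K y ∧ G.ex y q ∈ X ∧
    2 ^ j * a ≤ ‖q‖ ^ 2 / 2 - ‖qN‖ ^ 2 / 2 ∧ ‖q‖ ^ 2 / 2 - ‖qN‖ ^ 2 / 2 ≤ 2 ^ (j + 1) * a} with hA
  have hex := continuous_ex G y
  have hn : Continuous (fun q : TangentSpace (𝓡 n) y => ‖q‖ ^ 2 / 2 - ‖qN‖ ^ 2 / 2) := by fun_prop
  have hAc : IsCompact A := by
    have h1 : IsClosed {q : TangentSpace (𝓡 n) y | G.ex y q ∈ X ∧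
        2 ^ j * a ≤ ‖q‖ ^ 2 / 2 - ‖qN‖ ^ 2 / 2 ∧ ‖q‖ ^ 2 / 2 - ‖qN‖ ^ 2 / 2 ≤ 2 ^ (j + 1) * a} :=
      (hX.isClosed.preimage hex).inter
        ((isClosed_le continuous_const hn).inter (isClosed_le hn continuous_const))
    exact (EStep1700.isCompact_K hC y).inter_right h1
  have hAK : A ⊆ G.K y := fun q hq => hq.1
  have himg : {x | x ∈ X ∧ 2 ^ j * a ≤ halfDistSq x y - ‖qN‖ ^ 2 / 2 ∧
      halfDistSq x y - ‖qN‖ ^ 2 / 2 ≤ 2 ^ (j + 1) * a} ⊆ G.ex y '' A := by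
    rintro x ⟨hx, h1, h2⟩
    obtain ⟨q, hq, hqx⟩ := exists_mem_K G y x
    rw [← hqx, halfDistSq_ex' hq] at h1 h2
    exact ⟨q, ⟨hq, by rw [hqx]; exact hx, h1, h2⟩, hqx⟩
  have hAne : A.Nonempty := by
    by_contra hne
    rw [not_nonempty_iff_eq_empty] at hne
    rw [hne, image_empty, subset_empty_iff] at himg
    rw [himg] at hj
    simp only [measure_empty, mul_zero, nonpos_iff_eq_zero] at hj
    exact h0 hj
  obtain ⟨q₁, hq₁, hmax⟩ := hAc.exists_isMaxOn hAne ((continuousOn_jd hC y).mono hAK)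
  have hAQ : A ⊆ {q ∈ QS G u y H | ‖q‖ ^ 2 / 2 - ‖qN‖ ^ 2 / 2 ≤ 2 ^ (j + 1) * a} :=
    fun q hq => ⟨⟨hq.1, hsub _ hq.2.1⟩, hq.2.2.2⟩
  refine ⟨q₁, ⟨hq₁.1, hsub _ hq₁.2.1⟩, hq₁.2.1, hq₁.2.2.1, hq₁.2.2.2, ?_⟩
  refine hj.trans ?_
  gcongr
  calc vol {x | x ∈ X ∧ 2 ^ j * a ≤ halfDistSq x y - ‖qN‖ ^ 2 / 2 ∧
        halfDistSq x y - ‖qN‖ ^ 2 / 2 ≤ 2 ^ (j + 1) * a} ≤ vol (G.ex y '' A) := measure_mono himg
    _ ≤ ENNReal.ofReal C * ∫⁻ p in A, J p ∂μ := harea A hAK hAc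
    _ ≤ ENNReal.ofReal C * ∫⁻ _ in A, J q₁ ∂μ := by
        refine mul_le_mul_right (setLIntegral_mono' hAc.isClosed.measurableSet fun q hq => ?_) _
        rw [hJ q (hAK hq), hJ q₁ (hAK hq₁)]
        exact ENNReal.ofReal_le_ofReal (hmax hq)
    _ = ENNReal.ofReal C * (J q₁ * μ A) := by rw [setLIntegral_const]
    _ ≤ _ := by gcongr

end Geo

end Crest.Agent.R226.TallSel227
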