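/-
R226 (helper114), leaf (F): the tall section gives a new pair (619's (S1') + (row) + (b1) + (b2)).

`WJ G c`     : pointwise non-crossing comparison of the Jacobian (344's WNcP, margin `1/8`).
`tall_pair`  : in a column `y_F` with a compact mass `X` at levels `≥ a` above the nearest point
`x_N`, if the pairs `(y_F, y₂)` of `ctr u` are bounded (no growth), there are `R ≥ 1` and `x₁` with
`R a - H ≤ u x_N - u x₁` and `c₁ vol X ≤ R Vp(u, x_N, x₁, K H)`.
-/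
import Crest.Agent.R226.TallGeo_114
import Crest.Agent.R226.TallSel_227
import Crest.Agent.R226.NGcol_487
import Crest.Agent.R226.B2_413
import Crest.Agent.R226.SupPair_413
import Crest.Agent.R226.RowBd_487

set_option autoImplicit false
set_option linter.unusedSectionVars false
set_option linter.unusedVariables false

open MeasureTheory Bundle Set Filter
open scoped Manifold ContDiff Bundle ENNReal Topology RealInnerProductSpace
open Crest.GeometryTopology.MTW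

namespace Crest.Agent.R226.TallFin114

open Crest.Agent.R226 Crest.Agent.R226.Kant624 Crest.Agent.R226.Reduction624
  Crest.Agent.R226.HolderEnd915 Crest.Agent.R226.E1Shape964 Crest.Agent.R226.Dasm290
  Crest.Agent.R226.Osc977 Crest.Agent.R226.Far977 Crest.Agent.R226.Jac344
  Crest.Agent.R226.SupPair413 Crest.Agent.R226.NS683 Crest.Agent.R226.TallGeo114
  Crest.Agent.R226.TallSel227

variable {n : ℕ} {M : Type*} [MetricSpace M] [ChartedSpace (EuclideanSpace ℝ (Fin n)) M]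
  [IsManifold (𝓡 n) ∞ M]
  [RiemannianBundle (fun p : M => TangentSpace (𝓡 n) p)]

/-- pointwise non-crossing comparison of the Jacobian, margin `1/8`, times `≤ 1/2`. -/
def WJ (G : GeoData n M) (c : ℝ) : Prop :=
  ∀ (y : M) (p₀ p₁ : TangentSpace (𝓡 n) y), p₀ ∈ G.K y → p₁ ∈ G.K y →
    ∀ t : ℝ, 0 ≤ t → t ≤ 1 / 2 →
      (∀ b : ℝ, 0 ≤ b → b ≤ t →
        (1 / 8) * ‖p₁ - p₀‖ ^ 2 ≤ |⟪p₀ + b • (p₁ - p₀), p₁ - p₀⟫|) →
      c * jd G y p₀ ≤ jd G y (p₀ + t • (p₁ - p₀))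

variable [CompactSpace M] [IsRiemannianManifold (𝓡 n) M]
  [IsContMDiffRiemannianBundle (𝓡 n) ∞ (EuclideanSpace ℝ (Fin n))
    (fun p : M => TangentSpace (𝓡 n) p)] {G : GeoData n M}

/-- the truncated section -/
def QT (G : GeoData n M) (u : M → ℝ) (y : M) (H : ℝ) (qN : TangentSpace (𝓡 n) y) (T : ℝ) :
    Set (TangentSpace (𝓡 n) y) :=
  {q ∈ QS G u y H | ‖q‖ ^ 2 / 2 - ‖qN‖ ^ 2 / 2 ≤ 2 * T}

theorem isCompact_QT (hC : CutFacts G) {u : M → ℝ} (hu : CConv u) (y : M) (H : ℝ)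
    (qN : TangentSpace (𝓡 n) y) (T : ℝ) : IsCompact (QT G u y H qN T) := by
  have hn : Continuous (fun q : TangentSpace (𝓡 n) y => ‖q‖ ^ 2 / 2 - ‖qN‖ ^ 2 / 2) := by fun_prop
  have h1 : IsClosed {q : TangentSpace (𝓡 n) y | Dd u (G.ex y q) y ≤ H ∧
      ‖q‖ ^ 2 / 2 - ‖qN‖ ^ 2 / 2 ≤ 2 * T} :=
    (isClosed_le ((continuous_Dd hu y).comp (NG487.continuous_exv G y)) continuous_const).inter
      (isClosed_le hn continuous_const)
  have h2 : QT G u y H qN T = G.K y ∩ {q : TangentSpace (𝓡 n) y | Dd u (G.ex y q) y ≤ H ∧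
      ‖q‖ ^ 2 / 2 - ‖qN‖ ^ 2 / 2 ≤ 2 * T} := by
    ext q
    simp only [QT, QS, mem_ofPred_eq, mem_inter_iff, and_assoc]
  rw [h2]
  exact (EStep1700.isCompact_K hC y).inter_right h1

theorem convex_QT (hg : GoodAll G) {u : M → ℝ} (hu : CConv u) (y : M) (H : ℝ)
    (qN : TangentSpace (𝓡 n) y) (T : ℝ) : Convex ℝ (QT G u y H qN T) := by
  rintro p ⟨hp, hp'⟩ q ⟨hq, hq'⟩ a b ha hb hab
  refine ⟨convex_QS hg hu y H hp hq ha hb hab, ?_⟩
  have h1 : ‖a • p + b • q‖ ^ 2 ≤ a * ‖p‖ ^ 2 + b * ‖q‖ ^ 2 := by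
    have h2 : ‖a • p + b • q‖ ≤ a * ‖p‖ + b * ‖q‖ := by
      refine (norm_add_le _ _).trans ?_
      rw [norm_smul, norm_smul, Real.norm_of_nonneg ha, Real.norm_of_nonneg hb]
    have h3 : ‖a • p + b • q‖ ^ 2 ≤ (a * ‖p‖ + b * ‖q‖) ^ 2 := by gcongr
    have h4 : b = 1 - a := by linarith
    subst h4
    nlinarith [mul_nonneg (mul_nonneg ha hb) (sq_nonneg (‖p‖ - ‖q‖))]
  have h4 : b = 1 - a := by linarith
  subst h4
  nlinarith

/-- levels: `u x - u x' = c(x',y) - c(x,y) + D(x,y) - D(x',y)`. -/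
theorem u_sub (u : M → ℝ) (x x' y : M) :
    u x - u x' = halfDistSq x' y - halfDistSq x y + Dd u x y - Dd u x' y := by
  unfold Dd; ring

theorem ctr_sub (u : M → ℝ) (x y y' : M) :
    ctr u y - ctr u y' = halfDistSq x y' - halfDistSq x y + Dd u x y - Dd u x y' := by
  unfold Dd; ring

/-- numbers of the mass transfer. -/
theorem mass_real {V J1 mQ : ℝ≥0∞} {CA cW κ : ℝ} (hCA : 0 < CA) (hcW : 0 ≤ cW) (hκ : 0 ≤ κ)
    {j : ℕ} (hVt : V ≠ ⊤) (hV : V ≤ 2 ^ (j + 1) * (ENNReal.ofReal CA * (J1 * mQ))) :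
    ENNReal.ofReal (cW * κ / (CA * 2 ^ (j + 1)) * V.toReal) ≤
      ENNReal.ofReal cW * J1 * (ENNReal.ofReal κ * mQ) := by
  have h2 : (0 : ℝ) < 2 ^ (j + 1) := by positivity
  have e2 : (2 : ℝ≥0∞) ^ (j + 1) = ENNReal.ofReal (2 ^ (j + 1)) := by
    rw [ENNReal.ofReal_pow (by norm_num)]; norm_num
  have h0 : 0 ≤ cW * κ / (CA * 2 ^ (j + 1)) := by positivity
  rw [ENNReal.ofReal_mul h0, ENNReal.ofReal_toReal hVt]
  calc ENNReal.ofReal (cW * κ / (CA * 2 ^ (j + 1))) * V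
      ≤ ENNReal.ofReal (cW * κ / (CA * 2 ^ (j + 1))) *
        (2 ^ (j + 1) * (ENNReal.ofReal CA * (J1 * mQ))) := by gcongr
    _ = (ENNReal.ofReal (cW * κ / (CA * 2 ^ (j + 1))) * ENNReal.ofReal (2 ^ (j + 1)) *
        ENNReal.ofReal CA) * (J1 * mQ) := by rw [e2]; ring
    _ = ENNReal.ofReal (cW * κ) * (J1 * mQ) := by
        rw [← ENNReal.ofReal_mul h0, ← ENNReal.ofReal_mul (by positivity)]
        congr 2
        field_simp
    _ = ENNReal.ofReal cW * J1 * (ENNReal.ofReal κ * mQ) := by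
        rw [ENNReal.ofReal_mul hcW]; ring

/-- the exponent of `b2` is bounded. -/
theorem exp_bound {CN B0 T H D2 : ℝ} (hCN : 0 ≤ CN) (hB0 : 0 ≤ B0) (hT : 0 < T) (hH : 0 ≤ H)
    (hHT : H ≤ T) (hTD : T ≤ D2) :
    4 * Real.exp (CN * √(8 * (2 * (B0 * T) + H)) * (1 + √(2 / (T / 5)))) ≤
      4 * Real.exp (CN * (√(8 * (2 * B0 + 1) * D2) + √(80 * (2 * B0 + 1)))) := by
  have h1 : √(8 * (2 * (B0 * T) + H)) ≤ √(8 * (2 * B0 + 1) * T) := by
    apply Real.sqrt_le_sqrt; nlinarith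
  have h2 : √(8 * (2 * B0 + 1) * T) ≤ √(8 * (2 * B0 + 1) * D2) := by
    apply Real.sqrt_le_sqrt; gcongr
  have h3 : √(8 * (2 * B0 + 1) * T) * √(2 / (T / 5)) = √(80 * (2 * B0 + 1)) := by
    rw [← Real.sqrt_mul (by positivity)]
    congr 1
    field_simp
    ring
  have h4 : √(8 * (2 * (B0 * T) + H)) * (1 + √(2 / (T / 5))) ≤
      √(8 * (2 * B0 + 1) * D2) + √(80 * (2 * B0 + 1)) := by
    calc √(8 * (2 * (B0 * T) + H)) * (1 + √(2 / (T / 5)))
        ≤ √(8 * (2 * B0 + 1) * T) * (1 + √(2 / (T / 5))) := by gcongr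
      _ = √(8 * (2 * B0 + 1) * T) + √(80 * (2 * B0 + 1)) := by rw [mul_add, mul_one, h3]
      _ ≤ _ := by gcongr
  rw [mul_assoc]
  gcongr

variable [MeasurableSpace M] [BorelSpace M]

/-- **the tall section** (leaf (F)). -/
theorem tall_pair [IsFiniteMeasure (Measure.hausdorffMeasure (n : ℝ) : Measure M)]
    (hB : Base347.Base G) (hC : CutFacts G) (hg : GoodAll G) {CN : ℝ}
    (hCN : 0 ≤ CN) (hNS : NS1P G CN) {cW : ℝ} (hcW : 0 < cW) (hW : WJ G cW) {m : ℝ}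
    (hm : 0 < m) {B0 : ℝ} (hB0 : 0 ≤ B0) :
    ∃ c c1 C1 K : ℝ, 0 < c ∧ 0 < c1 ∧ 0 < C1 ∧ 1 < K ∧
      ∀ u : M → ℝ, CConv u → AlexPinch (Measure.hausdorffMeasure (n : ℝ) : Measure M) u m →
      ∀ (yF xN : M) (H a : ℝ) (X : Set M), 0 < H → Dd u xN yF ≤ H →
      (∀ x, Dd u x yF ≤ H → halfDistSq xN yF ≤ halfDistSq x yF) → C1 * H ≤ a →
      IsCompact X → (Measure.hausdorffMeasure (n : ℝ) : Measure M) X ≠ 0 →
      (∀ x ∈ X, Dd u x yF ≤ H) → (∀ x ∈ X, a ≤ halfDistSq x yF - halfDistSq xN yF) →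
      (∀ R : ℝ, 1 ≤ R → ∀ y2 : M,
        (c * ((Measure.hausdorffMeasure (n : ℝ) : Measure M) X).toReal ≤
          R * Vp (Measure.hausdorffMeasure (n : ℝ) : Measure M) (ctr u) yF y2 (K * H) →
            ctr u yF - ctr u y2 ≤ B0 * R * a) ∧
        (c * ((Measure.hausdorffMeasure (n : ℝ) : Measure M) X).toReal ≤
          R * Vp (Measure.hausdorffMeasure (n : ℝ) : Measure M) (ctr u) y2 yF (K * H) →
            ctr u y2 - ctr u yF ≤ B0 * R * a)) →
      ∃ R : ℝ, 1 ≤ R ∧ ∃ x1 : M, R * a - H ≤ u xN - u x1 ∧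
        c1 * ((Measure.hausdorffMeasure (n : ℝ) : Measure M) X).toReal ≤
          R * Vp (Measure.hausdorffMeasure (n : ℝ) : Measure M) u xN x1 (K * H) := by
  classical
  obtain ⟨CA, hCA, harea⟩ := exists_area (G := G) hC
  set vol : Measure M := (Measure.hausdorffMeasure (n : ℝ) : Measure M) with hvol
  set D2 : ℝ := Metric.diam (univ : Set M) ^ 2 / 2 with hD2
  obtain ⟨E0, hE0⟩ : ∃ E0 : ℝ, E0 = 4 * Real.exp
    (CN * (√(8 * (2 * B0 + 1) * D2) + √(80 * (2 * B0 + 1)))) := ⟨_, rfl⟩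
  have hE0pos : 0 < E0 := by rw [hE0]; positivity
  obtain ⟨κ, hκ⟩ : ∃ κ : ℝ, κ = (1 / 256) ^ n := ⟨_, rfl⟩
  have hκpos : 0 < κ := by rw [hκ]; positivity
  refine ⟨cW * (κ / (n + 1)) / (CA ^ 2 * 2), m * (cW * κ) / (CA ^ 2 * 2), 10 * E0 + 1, E0 + 13,
    by positivity, by positivity, by positivity, by linarith, ?_⟩
  intro u hu hP yF xN H a X hH hxN hnear ha hXc hX0 hXH hXa hNG
  have huc := CConv.continuous hu
  obtain ⟨ms, bs, μ, hμ, J, hJm, hJK, hup, hlow⟩ := harea yF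
  have hfin : FiniteDimensional ℝ (TangentSpace (𝓡 n) yF) :=
    inferInstanceAs (FiniteDimensional ℝ (EuclideanSpace ℝ (Fin n)))
  have hrank : Module.finrank ℝ (TangentSpace (𝓡 n) yF) = n := by
    have : Module.finrank ℝ (EuclideanSpace ℝ (Fin n)) = n := by simp
    exact this
  have hapos : 0 < a := lt_of_lt_of_le (by positivity) ha
  -- the nearest velocity
  obtain ⟨qN, hqN, hqNx⟩ := exists_mem_QS G hxN
  have hqNd : ‖qN‖ ^ 2 / 2 = halfDistSq xN yF := by rw [← hqNx, halfDistSq_ex' hqN.1]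
  have hmin : ∀ w ∈ QS G u yF H, ‖qN‖ ≤ ‖w‖ := by
    intro w hw
    have h1 := hnear _ hw.2
    rw [halfDistSq_ex' hw.1, ← hqNd] at h1
    have h2 : ‖qN‖ ^ 2 ≤ ‖w‖ ^ 2 := by linarith
    exact (sq_le_sq₀ (norm_nonneg _) (norm_nonneg _)).1 h2
  -- the heavy window
  obtain ⟨j, q1, hq1, hq1X, hlo, hhi, hV⟩ := exists_heavy (vol := vol) (u := u) hC hJK hup hapos
    (qN := qN) hXc hX0 hXH (fun x hx => by rw [hqNd]; exact hXa x hx)
  obtain ⟨T, hT⟩ : ∃ T : ℝ, T = 2 ^ j * a := ⟨_, rfl⟩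
  have h2T : (2 : ℝ) ^ (j + 1) * a = 2 * T := by rw [hT]; ring
  rw [← hT] at hlo
  rw [h2T] at hhi hV
  have h2j : (1 : ℝ) ≤ 2 ^ j := one_le_pow₀ (by norm_num)
  have haT : a ≤ T := by rw [hT]; nlinarith
  have hTpos : 0 < T := by linarith
  have hHT : H ≤ T := by nlinarith
  obtain ⟨Q, hQ⟩ : ∃ Q, Q = QT G u yF H qN T := ⟨_, rfl⟩
  have hV' : vol X ≤ 2 ^ (j + 1) * (ENNReal.ofReal CA * (J q1 * μ Q)) := by rw [hQ]; exact hV
  have hQc : IsCompact Q := by rw [hQ]; exact isCompact_QT hC hu yF H qN T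
  have hQS : Q ⊆ QS G u yF H := by rw [hQ]; exact fun q hq => hq.1
  have hQK : Q ⊆ G.K yF := fun q hq => (hQS hq).1
  have htall : Tall Q qN q1 T := by
    refine ⟨by rw [hQ]; exact convex_QT hg hu yF H qN T, ?_, fun w hw => hmin w (hQS hw), ?_,
      hTpos, hlo, ?_⟩
    · rw [hQ]; exact ⟨hqN, by linarith⟩
    · rw [hQ]; exact ⟨hq1, hhi⟩
    · intro w hw; rw [hQ] at hw; exact hw.2
  have hJW : ∀ z ∈ Q, ∀ t : ℝ, 0 ≤ t → t ≤ 1 / 2 →
      (∀ b : ℝ, 0 ≤ b → b ≤ t → (1 / 8) * ‖z - q1‖ ^ 2 ≤ |⟪q1 + b • (z - q1), z - q1⟫|) →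
      ENNReal.ofReal cW * J q1 ≤ J (q1 + t • (z - q1)) := by
    intro z hz t ht ht' hb
    have h1 : q1 + t • (z - q1) ∈ Q :=
      htall.conv.add_smul_sub_mem htall.mem1 hz ⟨ht, by linarith⟩
    rw [hJK q1 (hQK htall.mem1), hJK _ (hQK h1), ← ENNReal.ofReal_mul hcW.le]
    exact ENNReal.ofReal_le_ofReal (hW yF q1 z (hQK htall.mem1) (hQK hz) t ht ht' hb)
  obtain ⟨g, hgQ, hga⟩ := htall.exists_centre μ hQc
  have hVt : vol X ≠ ⊤ := measure_ne_top _ _
  have hTD : T ≤ D2 := by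
    have h1 : ‖q1‖ ^ 2 / 2 ≤ D2 := by
      rw [← halfDistSq_ex' (G := G) hq1.1]; exact halfDistSq_le_diam _ _
    have h2 : 0 ≤ ‖qN‖ ^ 2 / 2 := by positivity
    linarith
  -- rows
  have hrow : ∀ mm ∈ Q, ∀ τ : ℝ, 3 / 4 ≤ τ → τ ≤ 1 →
      osc (ctr u) (G.ex yF (row qN q1 ((1 / 2 : ℝ) • g + (1 / 2 : ℝ) • mm) τ)) H ≤
        2 * (B0 * T) + H := by
    intro mm hmm τ hτ hτ'
    have hrQ : row qN q1 ((1 / 2 : ℝ) • g + (1 / 2 : ℝ) • mm) τ ∈ Q :=
      htall.row_mem (htall.half_mem hgQ hmm) (by linarith) hτ'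
    refine Row487.row_osc (vol := vol) hg hu (W := Q) hQS (hQK hrQ)
      (m' := cW * (κ / (n + 1)) / (CA ^ 2 * 2 ^ (j + 1)) * (vol X).toReal)
      (h' := (E0 + 13) * H) ?_ hH.le (by nlinarith) (by positivity) ?_
    · refine Row487.hmass_of_lintegral (μ := μ) (J := J) hCA hlow hQc hQK ?_
      intro f
      have h1 := htall.mass_half μ hQc hJW hga hmm (τ := τ) (by linarith) hτ' f
      rw [hrank, ← hκ] at h1
      refine le_trans ?_ h1
      refine le_trans (le_of_eq ?_) (mass_real hCA hcW.le (κ := κ / (n + 1)) (by positivity)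
        hVt hV')
      congr 1
      field_simp
    · intro y2
      have h1 := hNG (2 ^ j) h2j y2
      have e1 : cW * (κ / (n + 1)) / (CA ^ 2 * 2) * (vol X).toReal =
          2 ^ j * (cW * (κ / (n + 1)) / (CA ^ 2 * 2 ^ (j + 1)) * (vol X).toReal) := by
        rw [pow_succ]; field_simp; ring
      rw [e1] at h1
      have e2 : B0 * 2 ^ j * a = B0 * T := by rw [hT]; ring
      rw [e2] at h1
      have h2j0 : (0 : ℝ) ≤ 2 ^ j := by positivity
      exact ⟨fun h => h1.1 (mul_le_mul_of_nonneg_left h h2j0),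
        fun h => h1.2 (mul_le_mul_of_nonneg_left h h2j0)⟩
  -- the contacts of the core see both ends
  have hsee : ∀ x ∈ G.ex yF '' Tall.core Q qN q1 g, ∀ y' ∈ cSub u x,
      Dd u xN y' ≤ (E0 + 13) * H ∧ Dd u (G.ex yF q1) y' ≤ (E0 + 13) * H := by
    rintro x ⟨q, ⟨mm, hmm, rfl⟩, rfl⟩ y' hy'
    have hmQ := htall.half_mem hgQ hmm
    constructor
    · have hb := B2_413.b2 hB hg hCN hNS hu (y₀ := yF) (y := y') (H := H) (q₀ := qN)
        (q₁ := qend qN q1 ((1 / 2 : ℝ) • g + (1 / 2 : ℝ) • mm)) hqN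
        (hQS (htall.qend_mem hmQ)) (by
          rw [(Dd_eq_zero huc).2]
          exact hy') (R := 2 * (B0 * T) + H) (α := T / 5) (by positivity)
        (fun τ h1 h2 => hrow mm hmm τ h1 h2)
        (fun τ h1 h2 => htall.ht_row hmQ (by linarith))
      have h1 := exp_bound (H := H) hCN hB0 hTpos hH.le hHT hTD
      rw [← hE0] at h1
      have h2 : min (T / 5 / 2) (Dd u (G.ex yF qN) y' - H) ≤ E0 * H :=
        hb.trans (mul_le_mul_of_nonneg_right h1 hH.le)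
      rw [hqNx] at h2
      rcases min_le_iff.1 h2 with h | h
      · nlinarith
      · linarith
    · have h1 := htall.drops hmQ
      have hc := row_core qN q1 ((1 / 2 : ℝ) • g + (1 / 2 : ℝ) • mm)
      have hz : (1 - 1 / 64 : ℝ) • qN + (1 / 64 : ℝ) • ((1 / 2 : ℝ) • g + (1 / 2 : ℝ) • mm) ∈ Q :=
        htall.comb_mem hmQ (by norm_num) (by norm_num)
      have h2 := far_sees hg hu hH hq1 (hQS hz) (t := 1 / 2) (t' := 1) (by norm_num)
        (by norm_num) le_rfl (r := T / 6) (N := 11) (by positivity) (by norm_num)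
        (by rw [← hc, one_smul, add_sub_cancel]; exact h1.1) (by rw [← hc]; exact h1.2)
        (y' := y') (by rw [← hc]; exact hy')
      nlinarith
  refine ⟨2 ^ j, h2j, G.ex yF q1, ?_, ?_⟩
  · rw [u_sub u xN (G.ex yF q1) yF, halfDistSq_ex' hq1.1, ← hqNd, ← hT]
    have h1 := Dd_nonneg huc xN yF
    have h2 := hq1.2
    linarith
  · have hcc : IsCompact (Tall.core Q qN q1 g) := Tall.isCompact_core hQc g
    have hcQ : Tall.core Q qN q1 g ⊆ G.K yF := (htall.core_subset hgQ).trans hQK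
    have hcm : MeasurableSet (G.ex yF '' Tall.core Q qN q1 g) :=
      (hcc.image (continuous_ex G yF)).isClosed.measurableSet
    have h1 := (hP _ hcm).1
    have h2 : vol (⋃ x ∈ G.ex yF '' Tall.core Q qN q1 g, cSub u x) ≤
        vol (YY u xN (G.ex yF q1) ((E0 + 13) * H)) := by
      refine measure_mono ?_
      intro y' hy'
      simp only [mem_iUnion] at hy'
      obtain ⟨x, hx, hy'⟩ := hy'
      exact hsee x hx y' hy'
    have h3 := htall.mass_core μ hQc.isClosed.measurableSet hJW hgQ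
    rw [hrank, ← hκ] at h3
    have h4 := hlow _ hcQ hcc
    have h5 := mass_real hCA hcW.le hκpos.le hVt hV'
    have h6 : ENNReal.ofReal (m * (cW * κ) / (CA ^ 2 * 2 ^ (j + 1)) * (vol X).toReal) ≤
        vol (YY u xN (G.ex yF q1) ((E0 + 13) * H)) := by
      have e1 : m * (cW * κ) / (CA ^ 2 * 2 ^ (j + 1)) * (vol X).toReal =
          (m / CA) * (cW * κ / (CA * 2 ^ (j + 1)) * (vol X).toReal) := by field_simp
      rw [e1, ENNReal.ofReal_mul (by positivity)]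
      calc ENNReal.ofReal (m / CA) *
            ENNReal.ofReal (cW * κ / (CA * 2 ^ (j + 1)) * (vol X).toReal)
          ≤ ENNReal.ofReal (m / CA) * (ENNReal.ofReal CA *
            vol (G.ex yF '' Tall.core Q qN q1 g)) := by
            gcongr
            exact h5.trans (h3.trans h4)
        _ = ENNReal.ofReal m * vol (G.ex yF '' Tall.core Q qN q1 g) := by
            rw [← mul_assoc, ← ENNReal.ofReal_mul (by positivity), div_mul_cancel₀ _ hCA.ne']
        _ ≤ _ := h1.trans h2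
    have h7 : m * (cW * κ) / (CA ^ 2 * 2 ^ (j + 1)) * (vol X).toReal ≤
        Vp vol u xN (G.ex yF q1) ((E0 + 13) * H) := by
      unfold Vp
      rw [← ENNReal.toReal_ofReal (r := m * (cW * κ) / (CA ^ 2 * 2 ^ (j + 1)) * (vol X).toReal)
        (by positivity)]
      exact ENNReal.toReal_mono (measure_ne_top _ _) h6
    have e1 : m * (cW * κ) / (CA ^ 2 * 2) * (vol X).toReal =
        2 ^ j * (m * (cW * κ) / (CA ^ 2 * 2 ^ (j + 1)) * (vol X).toReal) := by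
      rw [pow_succ]; field_simp; ring
    rw [e1]
    exact mul_le_mul_of_nonneg_left h7 (by positivity)

end Crest.Agent.R226.TallFin114
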