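/-
R226 (helper114): `Half2P` of Plan_619 (the tall column), from `tall_pair`, W-nc (344), the depth
bound (946) and NS1 (683, from 115's T1iP).
-/
import Crest.Agent.R226.TallFin_114
import Crest.Agent.R226.Plan_619
import Crest.Agent.R226.WNc_344
import Crest.Agent.R226.Depth_946
import Crest.Agent.R226.NS1C_683

set_option autoImplicit false
set_option linter.unusedSectionVars false
set_option linter.unusedVariables false

open MeasureTheory Bundle Set Filter
open scoped Manifold ContDiff Bundle ENNReal Topology RealInnerProductSpace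
open Crest.GeometryTopology.MTW

namespace Crest.Agent.R226.Half2_114

open Crest.Agent.R226 Crest.Agent.R226.Kant624 Crest.Agent.R226.Reduction624
  Crest.Agent.R226.HolderEnd915 Crest.Agent.R226.E1Shape964 Crest.Agent.R226.Dasm290
  Crest.Agent.R226.Osc977 Crest.Agent.R226.Far977 Crest.Agent.R226.Jac344
  Crest.Agent.R226.SupPair413 Crest.Agent.R226.NS683 Crest.Agent.R226.TallFin114
  Crest.Agent.R226.WNc344

variable {n : ℕ} {M : Type*} [MetricSpace M] [ChartedSpace (EuclideanSpace ℝ (Fin n)) M]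
  [IsManifold (𝓡 n) ∞ M]
  [RiemannianBundle (fun p : M => TangentSpace (𝓡 n) p)]
  [CompactSpace M] [IsRiemannianManifold (𝓡 n) M]
  [IsContMDiffRiemannianBundle (𝓡 n) ∞ (EuclideanSpace ℝ (Fin n))
    (fun p : M => TangentSpace (𝓡 n) p)] {G : GeoData n M}

/-- 344's W-nc with margin `1/8` and times `≤ 1/2`. -/
theorem exists_WJ (hC : CutFacts G) (hM : MTWFacts G) (hg : GoodAll G) {c : ℝ} (hc : 0 < c)
    (hdep : DepthP G c) : ∃ cW : ℝ, 0 < cW ∧ WJ G cW := by
  obtain ⟨C, hC1, h⟩ := jd_wnc hC hM hg hc hdep (κ := 1 / 8) (τ := 1 / 2) (by norm_num)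
    (by norm_num)
  refine ⟨1 / C, by positivity, ?_⟩
  intro y p₀ p₁ hp₀ hp₁ t ht ht' hb
  have h1 := h y p₀ hp₀ p₁ hp₁ t ht (by linarith) hb
  rw [one_div, inv_mul_le_iff₀ (by linarith)]
  exact h1

variable [MeasurableSpace M] [BorelSpace M]

/-- **Half 2** of Plan_619. -/
theorem half2P [IsFiniteMeasure (Measure.hausdorffMeasure (n : ℝ) : Measure M)]
    (hB : Base347.Base G) (hC : CutFacts G) (hg : GoodAll G) {CN : ℝ}
    (hCN : 0 ≤ CN) (hNS : NS1P G CN) {cW : ℝ} (hcW : 0 < cW) (hW : WJ G cW) {m : ℝ}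
    (hm : 0 < m) : Plan619.Half2P (Measure.hausdorffMeasure (n : ℝ) : Measure M) m := by
  obtain ⟨c, c1, C1, K, hc, hc1, hC1, hK, H⟩ :=
    tall_pair hB hC hg hCN hNS hcW hW hm (B0 := 2) (by norm_num)
  set vol : Measure M := (Measure.hausdorffMeasure (n : ℝ) : Measure M) with hvol
  refine ⟨K, min c c1, C1 + 2, by linarith, lt_min hc hc1, by linarith, ?_⟩
  intro u hu y x₀ h a X hh ha hXc hX0 hx₀ hX
  have huC : CConv u := hu.1
  have huc := CConv.continuous huC
  have hcls : ctr u ∈ Cls vol m := Cls_ctr hu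
  -- the nearest point of the column
  obtain ⟨xN, hxN, hnear⟩ := exists_nearest huC y hh.le
  have hlev : ∀ x ∈ X, a - h ≤ halfDistSq x y - halfDistSq xN y := by
    intro x hx
    obtain ⟨h1, h2⟩ := hX x hx
    have h3 := u_sub u x₀ x y
    have h4 := Dd_nonneg huc x y
    have h5 := hnear x₀ hx₀
    linarith
  have ha' : C1 * h ≤ a - h := by nlinarith
  have hvX : vol X ≠ 0 := by
    intro h0
    rw [h0] at hX0
    simp at hX0
  have hXr : 0 ≤ (vol X).toReal := ENNReal.toReal_nonneg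
  by_cases hcase : ∀ R : ℝ, 1 ≤ R → ∀ y2 : M,
        (c * (vol X).toReal ≤ R * Vp vol (ctr u) y y2 (K * h) →
            ctr u y - ctr u y2 ≤ 2 * R * (a - h)) ∧
        (c * (vol X).toReal ≤ R * Vp vol (ctr u) y2 y (K * h) →
            ctr u y2 - ctr u y ≤ 2 * R * (a - h))
  · obtain ⟨R, hR, x1, hx1, hV⟩ := H u huC hu.2.1 y xN h (a - h) X hh hxN hnear ha' hXc hvX
      (fun x hx => (hX x hx).1) hlev hcase
    refine ⟨u, hu, xN, x1, R, hR, ?_, ?_⟩
    · have h1 : 0 ≤ (R - 1) * h := mul_nonneg (by linarith) hh.le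
      have h2 : 0 ≤ R * (C1 * h) := by positivity
      linarith [(by ring : R * (a - (C1 + 2) * h) = R * (a - h) - h - (R - 1) * h -
        R * (C1 * h))]
    · exact (mul_le_mul_of_nonneg_right (min_le_right _ _) hXr).trans hV
  · push Not at hcase
    obtain ⟨R, hR, y2, hy2⟩ := hcase
    have hapos : 0 ≤ a - h := le_trans (by positivity) ha'
    have key : R * (a - (C1 + 2) * h) ≤ 2 * R * (a - h) := by
      have h1 : 0 ≤ R * (a - h) := mul_nonneg (by linarith) hapos
      have h2 : 0 ≤ R * ((C1 + 1) * h) := by positivity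
      linarith [(by ring : R * (a - (C1 + 2) * h) = R * (a - h) - R * ((C1 + 1) * h))]
    by_cases h1 : c * (vol X).toReal ≤ R * Vp vol (ctr u) y y2 (K * h) →
        ctr u y - ctr u y2 ≤ 2 * R * (a - h)
    · obtain ⟨h2, h3⟩ := hy2 h1
      refine ⟨ctr u, hcls, y2, y, R, hR, key.trans h3.le, ?_⟩
      exact (mul_le_mul_of_nonneg_right (min_le_left _ _) hXr).trans h2
    · push Not at h1
      refine ⟨ctr u, hcls, y, y2, R, hR, key.trans h1.2.le, ?_⟩
      exact (mul_le_mul_of_nonneg_right (min_le_left _ _) hXr).trans h1.1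

/-- `Half2P` from the geometric facts and 115's `T1iP`. -/
theorem half2P_of_T1iP [IsFiniteMeasure (Measure.hausdorffMeasure (n : ℝ) : Measure M)]
    (hB : Base347.Base G) (hC : CutFacts G) (hM : MTWFacts G) (hg : GoodAll G) {CN : ℝ}
    (hCN : 0 ≤ CN) (hT : T1iP G CN) {m : ℝ} (hm : 0 < m) :
    Plan619.Half2P (Measure.hausdorffMeasure (n : ℝ) : Measure M) m := by
  obtain ⟨c, hc, hdep⟩ := Depth946.depth_D1 hB
  obtain ⟨cW, hcW, hW⟩ := exists_WJ hC hM hg hc (fun x p hp s hs hs' v => hdep x p hp s hs hs' v)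
  exact half2P hB hC hg hCN (ns1P_of_T1iP hC hCN hT) hcW hW hm

end Crest.Agent.R226.Half2_114
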