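/-
R226, layer C7 (helper128): the local Loeper maximum principle = field `MTWFacts.loeper`.
-/
import Crest.Agent.R226.LoeperUnif_128

set_option autoImplicit false

open MeasureTheory Bundle Set Filter
open scoped Manifold ContDiff Bundle ENNReal Topology
open Crest.GeometryTopology.MTW

namespace Crest.Agent.R226.Loeper128

open Crest.Agent.R226.LoeperCalc128 Crest.Agent.R226.LoeperMfd128 Crest.Agent.R226.LoeperPt128
open Crest.Agent.R226.LoeperUnif128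

variable {n : ℕ} {M : Type*} [MetricSpace M] [ChartedSpace (EuclideanSpace ℝ (Fin n)) M]
  [IsManifold (𝓡 n) ∞ M]
  [RiemannianBundle (fun p : M => TangentSpace (𝓡 n) p)]

/-- norm of a vector of the model space seen as a tangent vector at `a`. -/
noncomputable def nrm (a : M) (v : EE n) : ℝ := ‖(show TangentSpace (𝓡 n) a from v)‖

theorem gg_add (G : GeoData n M) (x x' : M) (p η : TangentSpace (𝓡 n) x) (t τ : ℝ) :
    gg G x x' (p + t • η) η τ = gg G x x' p η (t + τ) := by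
  unfold gg
  have : p + t • η + τ • η = p + (t + τ) • η := by module
  rw [this]

theorem cv_add (G : GeoData n M) (x : M) (p η : TangentSpace (𝓡 n) x) (t : ℝ) :
    cv (n := n) (fun τ : ℝ => G.ex x (p + t • η + τ • η)) 0 =
      cv (n := n) (fun τ : ℝ => G.ex x (p + τ • η)) t := by
  have h1 : (fun τ : ℝ => G.ex x (p + t • η + τ • η)) =
      (fun τ : ℝ => G.ex x (p + τ • η)) ∘ (fun τ : ℝ => t + τ) := by
    funext τ
    have : p + t • η + τ • η = p + (t + τ) • η := by module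
    simp only [Function.comp_apply, this]
  have h2 : MDifferentiableAt 𝓘(ℝ, ℝ) (𝓡 n) (fun τ : ℝ => G.ex x (p + τ • η)) ((fun τ : ℝ => t + τ) 0) :=
    (contMDiff_ex_line G x p η).contMDiffAt.mdifferentiableAt (by simp)
  have h3 : MDifferentiableAt 𝓘(ℝ, ℝ) 𝓘(ℝ, ℝ) (fun τ : ℝ => t + τ) 0 := by
    apply DifferentiableAt.mdifferentiableAt
    fun_prop
  have h4 := mfderiv_comp (0 : ℝ) h2 h3
  have h5 : mfderiv 𝓘(ℝ, ℝ) 𝓘(ℝ, ℝ) (fun τ : ℝ => t + τ) 0 (1 : ℝ) = (1 : ℝ) := by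
    rw [mfderiv_eq_fderiv]
    have : HasFDerivAt (fun τ : ℝ => t + τ) (ContinuousLinearMap.id ℝ ℝ) (0 : ℝ) :=
      (hasFDerivAt_id (0 : ℝ)).const_add t
    rw [this.fderiv]
    rfl
  unfold cv curveVel
  rw [h1]
  have h6 : (mfderiv 𝓘(ℝ, ℝ) (𝓡 n) ((fun τ : ℝ => G.ex x (p + τ • η)) ∘ (fun τ : ℝ => t + τ)) 0 :
      ℝ →L[ℝ] EE n) 1 = (mfderiv 𝓘(ℝ, ℝ) (𝓡 n) (fun τ : ℝ => G.ex x (p + τ • η))
        ((fun τ : ℝ => t + τ) 0) : ℝ →L[ℝ] EE n)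
        ((mfderiv 𝓘(ℝ, ℝ) 𝓘(ℝ, ℝ) (fun τ : ℝ => t + τ) 0 : ℝ →L[ℝ] ℝ) 1) := by
    exact congrArg (fun L : ℝ →L[ℝ] EE n => L 1) h4
  have h7 : (mfderiv 𝓘(ℝ, ℝ) 𝓘(ℝ, ℝ) (fun τ : ℝ => t + τ) 0 : ℝ →L[ℝ] ℝ) 1 = 1 := h5
  rw [h7] at h6
  have h8 : (fun τ : ℝ => t + τ) 0 = t := by simp
  rw [h8] at h6
  exact h6

variable [IsContMDiffRiemannianBundle (𝓡 n) ∞ (EuclideanSpace ℝ (Fin n))
  (fun p : M => TangentSpace (𝓡 n) p)] [CompactSpace M]

/-- reversal map on the tangent bundle -/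
noncomputable def rv (G : GeoData n M) (p : TangentBundle (𝓡 n) M) : TangentBundle (𝓡 n) M :=
  ⟨G.ex p.1 ((1 : ℝ) • p.2), -(G.vel p.1 p.2 1)⟩

omit [IsContMDiffRiemannianBundle (𝓡 n) ∞ (EuclideanSpace ℝ (Fin n))
  (fun p : M => TangentSpace (𝓡 n) p)] [CompactSpace M] in
theorem continuous_rv (G : GeoData n M) : Continuous (rv G) := by
  have h1 : Continuous (fun q : ℝ × TangentBundle (𝓡 n) M => radial G.ex q.1 q.2) :=
    (contMDiff_radial G.smooth).continuous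
  have h2 : Continuous (fun p : TangentBundle (𝓡 n) M => ((1 : ℝ), p)) := by fun_prop
  have h3 := (contMDiff_scaleT_right (n := n) (M := M) (-1)).continuous.comp (h1.comp h2)
  have h4 : rv G = (fun p : TangentBundle (𝓡 n) M => (⟨p.1, (-1 : ℝ) • p.2⟩ :
      TangentBundle (𝓡 n) M)) ∘ (fun q : ℝ × TangentBundle (𝓡 n) M => radial G.ex q.1 q.2) ∘
      fun p : TangentBundle (𝓡 n) M => ((1 : ℝ), p) := by
    funext p
    simp only [Function.comp_apply, radial, rv, GeoData.vel, neg_smul, one_smul]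
  rw [h4]
  exact h3

omit [IsContMDiffRiemannianBundle (𝓡 n) ∞ (EuclideanSpace ℝ (Fin n))
  (fun p : M => TangentSpace (𝓡 n) p)] [CompactSpace M] in
theorem ex_rv {G : GeoData n M} (hC : CutFacts G) (p : TangentBundle (𝓡 n) M) :
    G.ex (rv G p).1 (rv G p).2 = p.1 := by
  have h := hC.rev_ex p.1 p.2 1
  have e : (1 : ℝ) • (-(G.vel p.1 p.2 1)) = -(G.vel p.1 p.2 1) := one_smul _ _
  rw [e, sub_self, zero_smul, G.ex_zero] at h
  exact h

/-- local version with uniform constants. -/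
theorem local_unif {G : GeoData n M} (hC : CutFacts G)
    (hconc : ∀ x, ∀ p q ξ : TangentSpace (𝓡 n) x, segment ℝ p q ⊆ G.I x → inner ℝ (q - p) ξ = 0 →
      ∀ t : ℝ, 0 ≤ t → t ≤ 1 →
      (1 - t) * G.phi x ξ p + t * G.phi x ξ q ≤ G.phi x ξ ((1 - t) • p + t • q))
    {x : M} {w : TangentSpace (𝓡 n) x} (hw : w ∈ G.I x) :
    ∃ N ∈ 𝓝 (⟨x, w⟩ : TangentBundle (𝓡 n) M), ∃ r : ℝ, 0 < r ∧ ∃ L : ℝ, 0 ≤ L ∧
      ∀ x₁ : M, ∀ w₁ : TangentSpace (𝓡 n) x₁, (⟨x₁, w₁⟩ : TangentBundle (𝓡 n) M) ∈ N →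
      ∀ x' : M, dist x₁ x' < r → ∀ η : TangentSpace (𝓡 n) x₁,
        ContDiffAt ℝ ∞ (gg G x₁ x' w₁ η) 0 ∧
        -(L * nrm (G.ex x₁ w₁) (cv (n := n) (fun τ : ℝ => G.ex x₁ (w₁ + τ • η)) 0) *
          |deriv (gg G x₁ x' w₁ η) 0|) ≤ iteratedDeriv 2 (gg G x₁ x' w₁ η) 0 := by
  obtain ⟨p0, hp0⟩ : ∃ p0 : TangentBundle (𝓡 n) M, p0 = ⟨x, w⟩ := ⟨_, rfl⟩
  have hrv : (rv G p0).2 ∈ G.I (rv G p0).1 := by
    rw [hp0]; exact hC.rev_I x w hw
  have hrvx : G.ex (rv G p0).1 (rv G p0).2 = x := by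
    have h := ex_rv hC p0
    rw [h, hp0]
  obtain ⟨N₁, hN₁, L, hL0, hL⟩ := lip_local hC hrv
  have hN₂ : N₁ ∩ G.IT ∈ 𝓝 (⟨(rv G p0).1, (rv G p0).2⟩ : TangentBundle (𝓡 n) M) :=
    inter_mem hN₁ (hC.isOpen_IT.mem_nhds hrv)
  obtain ⟨O, hO, hball⟩ := fiber_ball hN₂
  have hnear := CutTop478.near_unique G hrv hO
  rw [hrvx] at hnear
  have hc1 : ContinuousAt (rv G) p0 := (continuous_rv G).continuousAt
  have hbase : ContinuousAt (fun p : TangentBundle (𝓡 n) M => p.1) p0 :=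
    (FiberBundle.continuous_proj (EuclideanSpace ℝ (Fin n))
      (fun p : M => TangentSpace (𝓡 n) p)).continuousAt
  have hbrv : ContinuousAt (fun p : TangentBundle (𝓡 n) M => (rv G p).1) p0 :=
    (FiberBundle.continuous_proj (EuclideanSpace ℝ (Fin n))
      (fun p : M => TangentSpace (𝓡 n) p)).continuousAt.comp hc1
  have hpair : ContinuousAt (fun z : TangentBundle (𝓡 n) M × M => ((rv G z.1).1, z.2)) (p0, x) := by
    apply ContinuousAt.prodMk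
    · exact ContinuousAt.comp (f := Prod.fst) (g := fun p : TangentBundle (𝓡 n) M => (rv G p).1)
        (x := (p0, x)) hbrv continuousAt_fst
    · exact continuousAt_snd
  have h1 := hpair.eventually hnear
  rw [nhds_prod_eq, eventually_prod_iff] at h1
  obtain ⟨pa, hpa, pb, hpb, hab⟩ := h1
  obtain ⟨r, hr, hrb⟩ := Metric.eventually_nhds_iff.1 hpb
  have hOev : ∀ᶠ p in 𝓝 p0, rv G p ∈ O := hc1 hO
  have hdist : ∀ᶠ p in 𝓝 p0, dist p.1 x < r / 2 := by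
    have h2 : ∀ᶠ z in 𝓝 p0.1, dist z x < r / 2 := by
      have : p0.1 = x := by rw [hp0]
      rw [this]
      exact Metric.ball_mem_nhds x (half_pos hr)
    exact hbase.eventually h2
  have hI : ∀ᶠ p in 𝓝 p0, p ∈ G.IT := by
    apply hC.isOpen_IT.mem_nhds
    rw [hp0]; exact hw
  refine ⟨_, by rw [← hp0]; exact hpa.and (hOev.and (hdist.and hI)), r / 2, half_pos hr, 2 * L,
    by positivity, ?_⟩
  rintro x₁ w₁ ⟨ha, hb, hc, hd⟩ x' hx' η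
  have hb' : (⟨(rv G (⟨x₁, w₁⟩ : TangentBundle (𝓡 n) M)).1,
    (rv G (⟨x₁, w₁⟩ : TangentBundle (𝓡 n) M)).2⟩ : TangentBundle (𝓡 n) M) ∈ O := hb
  obtain ⟨y, hy⟩ : ∃ y : M, y = G.ex x₁ w₁ := ⟨_, rfl⟩
  have hy1 : (rv G (⟨x₁, w₁⟩ : TangentBundle (𝓡 n) M)).1 = y := by
    rw [hy]
    simp only [rv, one_smul]
  have hw₁ : w₁ ∈ G.I x₁ := hd
  -- generalize the reversed vector
  obtain ⟨q₀, hq₀x, hq₀O⟩ : ∃ q₀ : TangentSpace (𝓡 n) y, G.ex y q₀ = x₁ ∧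
      (⟨y, q₀⟩ : TangentBundle (𝓡 n) M) ∈ O := by
    have hrv1 : G.ex (rv G (⟨x₁, w₁⟩ : TangentBundle (𝓡 n) M)).1
        (rv G (⟨x₁, w₁⟩ : TangentBundle (𝓡 n) M)).2 = x₁ := ex_rv hC _
    revert hb' hrv1
    generalize (rv G (⟨x₁, w₁⟩ : TangentBundle (𝓡 n) M)).2 = q
    revert q
    rw [hy1]
    intro q hq1 hq2
    exact ⟨q, hq2, hq1⟩
  obtain ⟨q₁, hq₁x, hq₁n⟩ := G.surj y x'
  have hq₁K : q₁ ∈ G.K y := by
    change dist y (G.ex y q₁) = ‖q₁‖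
    rw [hq₁x, hq₁n]
  have hq₁O : (⟨y, q₁⟩ : TangentBundle (𝓡 n) M) ∈ O := by
    have hx'x : dist x' x < r := by
      have h2 := dist_triangle x' x₁ x
      have h3 : dist x₁ x < r / 2 := hc
      rw [dist_comm x' x₁] at h2
      linarith
    have h4 := hab ha (hrb hx'x)
    have h5 : ∀ z : M, z = (rv G (⟨x₁, w₁⟩ : TangentBundle (𝓡 n) M)).1 → ∀ v ∈ G.K z,
        G.ex z v = x' → (⟨z, v⟩ : TangentBundle (𝓡 n) M) ∈ O := by
      rintro z rfl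
      exact h4
    exact h5 y hy1.symm q₁ hq₁K hq₁x
  have hbb : ∀ q : TangentSpace (𝓡 n) y, ‖q - q₀‖ ≤ ‖q₁ - q₀‖ →
      (⟨y, q⟩ : TangentBundle (𝓡 n) M) ∈ N₁ ∩ G.IT := fun q hq =>
    hball y q₀ q₁ q hq₀O hq₁O hq
  obtain ⟨ζ, hζ⟩ : ∃ ζ : TangentSpace (𝓡 n) y,
      ζ = cv (n := n) (fun τ : ℝ => G.ex x₁ (w₁ + τ • η)) 0 := ⟨_, rfl⟩
  have hq0I : q₀ ∈ G.I y := (hbb q₀ (by simp)).2
  have hq1I : q₁ ∈ G.I y := (hbb q₁ le_rfl).2
  have m1 := contDiffAt_gg (η := η) hC hy.symm hq₀x hw₁ hq0I hq1I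
  have m2 := hasDerivAt_gg hC hy.symm hq₀x hw₁ hq0I hq1I hζ
  have m3 := iteratedDeriv_gg_ge (η := η) hC hconc hy.symm hq₀x hw₁ hζ
    (fun q hq => (hbb q hq).2) (L := L)
    (fun q q' hq hq' => hL y q q' (hbb q hq).1 (hbb q' hq').1 ζ)
  rw [hq₁x] at m1 m2 m3
  refine ⟨m1, ?_⟩
  rw [m2.deriv]
  have hnrm : nrm (G.ex x₁ w₁) (cv (n := n) (fun τ : ℝ => G.ex x₁ (w₁ + τ • η)) 0) = ‖ζ‖ := by
    rw [← hy, hζ]
    rfl
  rw [hnrm]
  linarith

/-- uniform version on compact sets. -/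
theorem compact_unif {G : GeoData n M} (hC : CutFacts G)
    (hconc : ∀ x, ∀ p q ξ : TangentSpace (𝓡 n) x, segment ℝ p q ⊆ G.I x → inner ℝ (q - p) ξ = 0 →
      ∀ t : ℝ, 0 ≤ t → t ≤ 1 →
      (1 - t) * G.phi x ξ p + t * G.phi x ξ q ≤ G.phi x ξ ((1 - t) • p + t • q))
    {S : Set (TangentBundle (𝓡 n) M)} (hS : IsCompact S) (hSI : S ⊆ G.IT) :
    ∃ r : ℝ, 0 < r ∧ ∃ L : ℝ, 0 ≤ L ∧
      ∀ x₁ : M, ∀ w₁ : TangentSpace (𝓡 n) x₁, (⟨x₁, w₁⟩ : TangentBundle (𝓡 n) M) ∈ S →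
      ∀ x' : M, dist x₁ x' < r → ∀ η : TangentSpace (𝓡 n) x₁,
        ContDiffAt ℝ ∞ (gg G x₁ x' w₁ η) 0 ∧
        -(L * nrm (G.ex x₁ w₁) (cv (n := n) (fun τ : ℝ => G.ex x₁ (w₁ + τ • η)) 0) *
          |deriv (gg G x₁ x' w₁ η) 0|) ≤ iteratedDeriv 2 (gg G x₁ x' w₁ η) 0 := by
  apply hS.induction_on (p := fun S => ∃ r : ℝ, 0 < r ∧ ∃ L : ℝ, 0 ≤ L ∧
      ∀ x₁ : M, ∀ w₁ : TangentSpace (𝓡 n) x₁, (⟨x₁, w₁⟩ : TangentBundle (𝓡 n) M) ∈ S →
      ∀ x' : M, dist x₁ x' < r → ∀ η : TangentSpace (𝓡 n) x₁,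
        ContDiffAt ℝ ∞ (gg G x₁ x' w₁ η) 0 ∧
        -(L * nrm (G.ex x₁ w₁) (cv (n := n) (fun τ : ℝ => G.ex x₁ (w₁ + τ • η)) 0) *
          |deriv (gg G x₁ x' w₁ η) 0|) ≤ iteratedDeriv 2 (gg G x₁ x' w₁ η) 0)
  · exact ⟨1, one_pos, 0, le_rfl, fun x₁ w₁ h => absurd h (notMem_empty _)⟩
  · rintro s t hst ⟨r, hr, L, hL, h⟩
    exact ⟨r, hr, L, hL, fun x₁ w₁ hx => h x₁ w₁ (hst hx)⟩
  · rintro s t ⟨r, hr, L, hL, h⟩ ⟨r', hr', L', hL', h'⟩
    refine ⟨min r r', lt_min hr hr', max L L', le_max_of_le_left hL, ?_⟩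
    rintro x₁ w₁ (hx | hx) x' hx' η
    · obtain ⟨h1, h2⟩ := h x₁ w₁ hx x' (lt_of_lt_of_le hx' (min_le_left _ _)) η
      refine ⟨h1, le_trans (neg_le_neg ?_) h2⟩
      have h3 : 0 ≤ nrm (G.ex x₁ w₁) (cv (n := n) (fun τ : ℝ => G.ex x₁ (w₁ + τ • η)) 0) :=
        norm_nonneg _
      gcongr
      exact le_max_left _ _
    · obtain ⟨h1, h2⟩ := h' x₁ w₁ hx x' (lt_of_lt_of_le hx' (min_le_right _ _)) η
      refine ⟨h1, le_trans (neg_le_neg ?_) h2⟩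
      have h3 : 0 ≤ nrm (G.ex x₁ w₁) (cv (n := n) (fun τ : ℝ => G.ex x₁ (w₁ + τ • η)) 0) :=
        norm_nonneg _
      gcongr
      exact le_max_right _ _
  · rintro ⟨x, w⟩ hx
    obtain ⟨N, hN, r, hr, L, hL, h⟩ := local_unif hC hconc (hSI hx)
    exact ⟨N, mem_nhdsWithin_of_mem_nhds hN, r, hr, L, hL, h⟩

/-- **Local Loeper maximum principle** (field `MTWFacts.loeper`). -/
theorem loeper {G : GeoData n M} (hC : CutFacts G)
    (hconc : ∀ x, ∀ p q ξ : TangentSpace (𝓡 n) x, segment ℝ p q ⊆ G.I x → inner ℝ (q - p) ξ = 0 →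
      ∀ t : ℝ, 0 ≤ t → t ≤ 1 →
      (1 - t) * G.phi x ξ p + t * G.phi x ξ q ≤ G.phi x ξ ((1 - t) • p + t • q)) :
    ∀ S : Set (TangentBundle (𝓡 n) M), IsCompact S → S ⊆ G.IT → ∃ r : ℝ, 0 < r ∧
    ∀ x, ∀ p q : TangentSpace (𝓡 n) x,
      (∀ w ∈ segment ℝ p q, (⟨x, w⟩ : TangentBundle (𝓡 n) M) ∈ S) →
      ∀ x', dist x x' < r → ∀ t : ℝ, 0 ≤ t → t ≤ 1 →
        ‖(1 - t) • p + t • q‖ ^ 2 / 2 - halfDistSq x' (G.ex x ((1 - t) • p + t • q)) ≤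
          max (‖p‖ ^ 2 / 2 - halfDistSq x' (G.ex x p)) (‖q‖ ^ 2 / 2 - halfDistSq x' (G.ex x q)) := by
  intro S hS hSI
  obtain ⟨r, hr, L, hL, h⟩ := compact_unif hC hconc hS hSI
  refine ⟨r, hr, ?_⟩
  intro x p q hseg x' hx' t ht0 ht1
  obtain ⟨η, hη⟩ : ∃ η : TangentSpace (𝓡 n) x, η = q - p := ⟨_, rfl⟩
  have hpt : ∀ s ∈ Icc (0 : ℝ) 1, (⟨x, p + s • η⟩ : TangentBundle (𝓡 n) M) ∈ S := by
    intro s hs
    apply hseg
    rw [segment_eq_image]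
    refine ⟨s, hs, ?_⟩
    rw [hη]; module
  -- smoothness of `g`
  have hsm : ∀ s ∈ Icc (0 : ℝ) 1, ContDiffAt ℝ ∞ (gg G x x' p η) s := by
    intro s hs
    have h1 := (h x _ (hpt s hs) x' hx' η).1
    have h2 : gg G x x' p η = (gg G x x' (p + s • η) η) ∘ (fun u : ℝ => u - s) := by
      funext u
      simp only [Function.comp_apply]
      rw [gg_add]
      congr 1; ring
    rw [h2]
    apply ContDiffAt.comp
    · simpa using h1
    · fun_prop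
  -- bound on the speed
  have hspeed : ∃ B : ℝ, ∀ s ∈ Icc (0 : ℝ) 1,
      nrm (G.ex x (p + s • η)) (cv (n := n) (fun τ : ℝ => G.ex x (p + τ • η)) s) ≤ B := by
    have h1 : Continuous (fun s : ℝ => (⟨G.ex x (p + s • η),
        curveVel n (fun τ : ℝ => G.ex x (p + τ • η)) s⟩ : TangentBundle (𝓡 n) M)) :=
      BAux227.continuous_curveVel ((contMDiff_ex_line G x p η).of_le (by simp))
    have h2 := (BAux227.continuous_norm (n := n) (M := M)).comp h1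
    obtain ⟨B, hB⟩ := (isCompact_Icc (a := (0 : ℝ)) (b := 1)).bddAbove_image h2.continuousOn
    exact ⟨B, fun s hs => hB ⟨s, hs, rfl⟩⟩
  obtain ⟨B, hB⟩ := hspeed
  -- maximum principle
  have hmp := max_principle (g := gg G x x' p η) (g' := deriv (gg G x x' p η))
    (g'' := iteratedDeriv 2 (gg G x x' p η)) (C := L * B)
    (fun s hs => ((hsm s hs).differentiableAt (by simp)).hasDerivAt)
    (fun s hs => by
      have h1 : ContDiffAt ℝ 1 (deriv (gg G x x' p η)) s := by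
        have h2 := (((hsm s hs).of_le two_le_infty).fderiv_right (m := 1) (by norm_num))
        exact h2.clm_apply contDiffAt_const
      have h3 := (h1.differentiableAt (by norm_num)).hasDerivAt
      rw [iteratedDeriv_succ, iteratedDeriv_one]
      exact h3)
    (fun s hs => by
      have h1 := (h x _ (hpt s hs) x' hx' η).2
      have h2 : (fun τ => gg G x x' (p + s • η) η τ) = fun τ => gg G x x' p η (s + τ) := by
        funext τ; exact gg_add G x x' p η s τ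
      have h3 : gg G x x' (p + s • η) η = fun τ => gg G x x' p η (s + τ) := h2
      rw [h3, cv_add] at h1
      have h4 : deriv (fun τ => gg G x x' p η (s + τ)) 0 = deriv (gg G x x' p η) s := by
        rw [deriv_comp_const_add]
        simp
      have h5 : iteratedDeriv 2 (fun τ => gg G x x' p η (s + τ)) 0 =
          iteratedDeriv 2 (gg G x x' p η) s := by
        rw [iteratedDeriv_comp_const_add]
        simp
      rw [h4, h5] at h1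
      refine le_trans (neg_le_neg ?_) h1
      have h6 := hB s hs
      gcongr)
  have h1 := hmp t ⟨ht0, ht1⟩
  have e1 : gg G x x' p η t = ‖(1 - t) • p + t • q‖ ^ 2 / 2 -
      halfDistSq x' (G.ex x ((1 - t) • p + t • q)) := by
    unfold gg
    have : p + t • η = (1 - t) • p + t • q := by rw [hη]; module
    rw [this]
  have e2 : gg G x x' p η 0 = ‖p‖ ^ 2 / 2 - halfDistSq x' (G.ex x p) := by
    unfold gg
    simp
  have e3 : gg G x x' p η 1 = ‖q‖ ^ 2 / 2 - halfDistSq x' (G.ex x q) := by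
    unfold gg
    have : p + (1 : ℝ) • η = q := by rw [hη]; module
    rw [this]
  rw [e1, e2, e3] at h1
  exact h1

end Crest.Agent.R226.Loeper128
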