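/-
R226 / leaf L1 = (T1)(i) (helper115): the two geometric inputs of the pointwise inequality, as Props.
`RadP`  : strict radial monotonicity of the normal form Hessian `Hf` (Riccati/Wronskian),
`ZetaP` : `‖ζ‖ ≤ C ‖η‖` where `Hf(q₀) ζ = D exp_x(w) η` at the other end of the geodesic.
-/
import Crest.Agent.R226.NF7_946
import Crest.Agent.R226.LoeperPt_128

set_option autoImplicit false

open MeasureTheory Bundle Set Filter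
open scoped Manifold ContDiff Bundle ENNReal Topology
open Crest.GeometryTopology.MTW

namespace Crest.Agent.R226.T1i115

open Crest.Agent.R226.LoeperMfd128

variable {n : ℕ} {M : Type*} [MetricSpace M] [ChartedSpace (EuclideanSpace ℝ (Fin n)) M]
  [IsManifold (𝓡 n) ∞ M]
  [RiemannianBundle (fun p : M => TangentSpace (𝓡 n) p)]

/-- strict radial monotonicity: `D_p Hf(p)(v,v) ≤ - c ‖v‖² + C Hf(p)(v,v)` for `p ∈ K(x)` -/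
def RadP (G : GeoData n M) (c C : ℝ) : Prop :=
  ∀ (x : M) (p : TangentSpace (𝓡 n) x), p ∈ G.K x → ∀ v : TangentSpace (𝓡 n) x,
    NF946.DHf G x p p v v ≤ -(c * ‖v‖ ^ 2) + C * NF946.Hf G x p v v

/-- `w ∈ I(x)`, `y = exp_x w`, `exp_y q₀ = x`, `ξ = D exp_x(w) η`, `Hf_y(q₀) ζ = ξ` ⟹ `‖ζ‖ ≤ C ‖η‖`.
(`ζ` is characterised by `D exp_y(q₀/2) ζ = D exp_x(w/2) η`.) -/
def ZetaP (G : GeoData n M) (C : ℝ) : Prop :=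
  ∀ (x y : M) (w η : TangentSpace (𝓡 n) x), w ∈ G.I x → G.ex x w = y →
    ∀ q₀ : TangentSpace (𝓡 n) y, q₀ ∈ G.I y → G.ex y q₀ = x →
    ∀ ξ : TangentSpace (𝓡 n) y, ξ = cv (n := n) (fun τ : ℝ => G.ex x (w + τ • η)) 0 →
    ∀ ζ : TangentSpace (𝓡 n) y, (∀ θ : TangentSpace (𝓡 n) y, NF946.Hf G y q₀ ζ θ = inner ℝ ξ θ) →
      ‖ζ‖ ≤ C * ‖η‖

/-- **(T1)(i), static form** at one point `y`: `D = q₁ - q₀`, `Hf(q₀) ζ = ξ`,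
`a = D_D φ_ξ(q₀)`, `X ‖D‖ = ⟨q₀, D⟩`:
`φ_ξ(q₀) - φ_ξ(q₁) + a ≥ - C |⟨D, ξ⟩| ‖D‖ ‖ζ‖ (1 + 1/X²)`. -/
def T1iStat (G : GeoData n M) (C : ℝ) : Prop :=
  ∀ (y : M) (q₀ q₁ : TangentSpace (𝓡 n) y), q₀ ∈ G.I y → q₁ ∈ G.I y →
    ∀ ξ ζ : TangentSpace (𝓡 n) y, (∀ θ : TangentSpace (𝓡 n) y, NF946.Hf G y q₀ ζ θ = inner ℝ ξ θ) →
    ∀ a : ℝ, HasDerivAt (fun s : ℝ => G.phi y ξ (q₀ + s • (q₁ - q₀))) a 0 →
    inner ℝ q₀ (q₁ - q₀) ≠ 0 →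
    -(C * |inner ℝ (q₁ - q₀) ξ| * ‖q₁ - q₀‖ * ‖ζ‖ *
        (1 + ‖q₁ - q₀‖ ^ 2 / (inner ℝ q₀ (q₁ - q₀)) ^ 2)) ≤
      G.phi y ξ q₀ - G.phi y ξ q₁ + a

end Crest.Agent.R226.T1i115
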