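/-
R226 / leaf L1d (helper683): from the static inequality `T1iStat` (115) and `ZetaP` (186) to the
pointwise inequality `T1iP` along chords, the input of NS1.
-/
import Crest.Agent.R226.T1iDef_115
import Crest.Agent.R226.NS1Def_683
import Crest.Agent.R226.Loeper_128
import Crest.Agent.R226.Dasm_290
import Crest.Agent.R226.Semiconcave_345

set_option autoImplicit false

open MeasureTheory Bundle Set Filter
open scoped Manifold ContDiff Bundle ENNReal Topology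
open Crest.GeometryTopology.MTW

namespace Crest.Agent.R226.T1iFin683

open Crest.Agent.R226.LoeperCalc128 Crest.Agent.R226.LoeperMfd128 Crest.Agent.R226.LoeperPt128
open Crest.Agent.R226.Base347 Crest.Agent.R226.NS683 Crest.Agent.R226.T1i115
open Crest.Agent.R226.Semiconcave345 (exists_diam)
open Crest.Agent.R226.Dasm290 (GoodAll)

variable {n : ℕ} {M : Type*} [MetricSpace M] [ChartedSpace (EuclideanSpace ℝ (Fin n)) M]
  [IsManifold (𝓡 n) ∞ M]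
  [RiemannianBundle (fun p : M => TangentSpace (𝓡 n) p)]

/-- second derivative of `gg` in static form -/
theorem iteratedDeriv_gg_eq {G : GeoData n M} (hC : CutFacts G)
    {x y : M}
    {w η : TangentSpace (𝓡 n) x} {q₀ q₁ : TangentSpace (𝓡 n) y} (hy : G.ex x w = y)
    (hx : G.ex y q₀ = x) (hw : w ∈ G.I x) (hq : q₀ ∈ G.I y) (hq1 : q₁ ∈ G.I y)
    {ζ : TangentSpace (𝓡 n) y} (hζ : ζ = cv (n := n) (fun τ : ℝ => G.ex x (w + τ • η)) 0) :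
    ∃ a : ℝ, HasDerivAt (fun s : ℝ => G.phi y ζ (q₀ + s • (q₁ - q₀))) a 0 ∧
      iteratedDeriv 2 (LoeperPt128.gg G x (G.ex y q₁) w η) 0 =
        G.phi y ζ q₀ - G.phi y ζ q₁ + a := by
  obtain ⟨dq, hdq⟩ : ∃ dq, dq = q₁ - q₀ := ⟨_, rfl⟩
  have hq1' : q₁ = q₀ + dq := by rw [hdq]; abel
  have hs0 : q₀ + (0 : ℝ) • dq ∈ G.I y := by rw [zero_smul, add_zero]; exact hq
  have hs1 : q₀ + (1 : ℝ) • dq ∈ G.I y := by rw [one_smul, ← hq1']; exact hq1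
  obtain ⟨A, hA⟩ := iteratedDeriv_ff hC q₀ dq hy hζ
  -- second derivative of `gg`
  have hg2 : iteratedDeriv 2 (LoeperPt128.gg G x (G.ex y q₁) w η) 0 =
      G.phi y ζ q₀ - G.phi y ζ q₁ + inner ℝ dq A := by
    have e0 : iteratedDeriv 2 (LoeperPt128.gg G x (G.ex y q₁) w η) 0 =
        iteratedDeriv 2 (fun τ => ff G x y w η q₀ dq (0, τ) - ff G x y w η q₀ dq (1, τ)) 0 := by
      rw [hdq]
      exact (gg_eventuallyEq hC hx hw).iteratedDeriv_eq 2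
    have c0 := contDiffAt_ff (η := η) (s := 0) (q₀ := q₀) (dq := dq) hC hy hs0
    have c1 := contDiffAt_ff (η := η) (s := 1) (q₀ := q₀) (dq := dq) hC hy hs1
    have k0 : ContDiffAt ℝ ∞ (fun τ : ℝ => ((0 : ℝ), τ)) 0 := by fun_prop
    have k1 : ContDiffAt ℝ ∞ (fun τ : ℝ => ((1 : ℝ), τ)) 0 := by fun_prop
    have d0 : ContDiffAt ℝ 2 (fun τ => ff G x y w η q₀ dq (0, τ)) 0 :=
      (c0.comp (0 : ℝ) k0).of_le two_le_infty
    have d1 : ContDiffAt ℝ 2 (fun τ => ff G x y w η q₀ dq (1, τ)) 0 :=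
      (c1.comp (0 : ℝ) k1).of_le two_le_infty
    rw [e0]
    have e1 : iteratedDeriv 2 (fun τ => ff G x y w η q₀ dq (0, τ) - ff G x y w η q₀ dq (1, τ)) 0 =
        iteratedDeriv 2 (fun τ => ff G x y w η q₀ dq (0, τ)) 0 -
        iteratedDeriv 2 (fun τ => ff G x y w η q₀ dq (1, τ)) 0 :=
      iteratedDeriv_fun_sub d0 d1
    rw [e1, hA 0 hs0, hA 1 hs1, hq1']
    simp only [zero_smul, add_zero, one_smul]
    rw [inner_add_left]
    ring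
  refine ⟨inner ℝ dq A, ?_, hg2⟩
  rw [← hdq]
  have e1 := hasDerivAt_F (η := η) (q₀ := q₀) (dq := dq) hC hy hx hw hq
  have e2 : (fun s : ℝ => G.phi y ζ (q₀ + s • dq)) =ᶠ[𝓝 0]
      fun s : ℝ => iteratedDeriv 2 (fun τ => ff G x y w η q₀ dq (s, τ)) 0 +
        inner ℝ (q₀ + s • dq) A := by
    filter_upwards [eventually_mem_I hC dq hq] with s hs
    rw [hA s hs]
    ring
  have e3 : HasDerivAt (fun s : ℝ => inner ℝ (q₀ + s • dq) A) (inner ℝ dq A) 0 := by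
    have : (fun s : ℝ => inner ℝ (q₀ + s • dq) A) =
        fun s : ℝ => inner ℝ q₀ A + s * inner ℝ dq A := by
      funext s
      rw [inner_add_left, inner_smul_left]; simp
    rw [this]
    have h5 := ((hasDerivAt_id (0 : ℝ)).mul_const (inner ℝ dq A)).const_add (inner ℝ q₀ A)
    simpa using h5
  have e4 := (e1.add e3).congr_of_eventuallyEq e2
  simpa using e4

/-- the real-number estimate -/
theorem real_est {g L D : ℝ} (hg : 0 < g) (hL : 0 ≤ L) (hLD : L ≤ D) :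
    L * (1 + L ^ 2 / (g + L ^ 2 / 2) ^ 2) ≤ (D + 2) * (1 + 1 / √g) := by
  have hs : 0 < √g := Real.sqrt_pos.2 hg
  have hgs : √g ^ 2 = g := Real.sq_sqrt hg.le
  obtain ⟨r, hr⟩ : ∃ r, r = √g := ⟨_, rfl⟩
  rw [← hr] at hs hgs ⊢
  have hD : 0 ≤ D := hL.trans hLD
  have hX : 0 < g + L ^ 2 / 2 := by positivity
  have h1 : L ^ 3 / (g + L ^ 2 / 2) ^ 2 ≤ 2 / r := by
    rw [div_le_div_iff₀ (pow_pos hX 2) hs]
    have h2 : r * L ≤ g + L ^ 2 / 2 := by nlinarith [sq_nonneg (r - L), sq_nonneg r]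
    have h3 : L ^ 2 / 2 ≤ g + L ^ 2 / 2 := by linarith
    have h4 : r * L * (L ^ 2 / 2) ≤ (g + L ^ 2 / 2) * (g + L ^ 2 / 2) :=
      mul_le_mul h2 h3 (by positivity) hX.le
    nlinarith
  have h5 : L * (1 + L ^ 2 / (g + L ^ 2 / 2) ^ 2) = L + L ^ 3 / (g + L ^ 2 / 2) ^ 2 := by
    ring
  rw [h5]
  have h6 : (D + 2) * (1 + 1 / r) = D + 2 + D / r + 2 / r := by ring
  rw [h6]
  have h7 : 0 ≤ D / r := by positivity
  linarith

/-- the reversed velocity as an element of `I(y)` -/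
theorem exists_rev {G : GeoData n M} (hC : CutFacts G) {x y : M} {w : TangentSpace (𝓡 n) x}
    (hw : w ∈ G.I x) (hy : G.ex x w = y) :
    ∃ q₀ : TangentSpace (𝓡 n) y, q₀ ∈ G.I y ∧ G.ex y q₀ = x := by
  have h1 := hC.rev_I x w hw
  have h2 := hC.rev_ex x w 1
  have e : (1 : ℝ) • (-(G.vel x w 1)) = -(G.vel x w 1) := one_smul _ _
  rw [e, sub_self, zero_smul, G.ex_zero] at h2
  have hy' : G.ex x ((1 : ℝ) • w) = y := by rw [one_smul]; exact hy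
  revert h1 h2
  generalize -(G.vel x w 1) = q
  revert q
  rw [hy']
  intro q h1 h2
  exact ⟨q, h1, h2⟩

theorem t1iP_of_stat [CompactSpace M] {G : GeoData n M} (hB : Base G) (hC : CutFacts G)
    (hconv : ∀ x, Convex ℝ (G.I x)) {C₁ C₂ : ℝ} (hC1 : 0 ≤ C₁) (hC2 : 0 ≤ C₂)
    (hS : T1iStat G C₁) (hZ : ZetaP G C₂) :
    ∃ C : ℝ, 0 ≤ C ∧ T1iP G C := by
  obtain ⟨D, hD0, hD⟩ := exists_diam (M := M)
  refine ⟨C₁ * C₂ * (2 * D + 2), by positivity, ?_⟩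
  intro x p₀ p₁ hp₀ hp₁ s hs0 hs1
  obtain ⟨w, hw⟩ : ∃ w : TangentSpace (𝓡 n) x, w = p₀ + s • (p₁ - p₀) := ⟨_, rfl⟩
  obtain ⟨η, hη⟩ : ∃ η : TangentSpace (𝓡 n) x, η = p₁ - p₀ := ⟨_, rfl⟩
  have hwI : w ∈ G.I x := by
    have h1 := hconv x hp₀ hp₁ (a := 1 - s) (b := s) (by linarith) hs0.le (by ring)
    have h2 : w = (1 - s) • p₀ + s • p₁ := by rw [hw]; module
    rw [h2]; exact h1
  obtain ⟨y, hy⟩ : ∃ y, y = G.ex x w := ⟨_, rfl⟩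
  rw [← hw, ← hy]
  intro q₁ hq₁ x₁ hx₁ hpos
  obtain ⟨q₀, hq₀, hx⟩ := exists_rev hC hwI hy.symm
  obtain ⟨ξ, hξ⟩ : ∃ ξ : TangentSpace (𝓡 n) y, ξ = cv (n := n) (fun τ : ℝ => G.ex x (w + τ • η)) 0 :=
    ⟨_, rfl⟩
  obtain ⟨ζ, hζ⟩ := NF946.exists_Hf_eq hB hq₀ ξ
  obtain ⟨a, ha, hg2⟩ := iteratedDeriv_gg_eq (η := η) hC hy.symm hx hwI hq₀ hq₁ hξ
  have hd := (hasDerivAt_gg (η := η) hC hy.symm hx hwI hq₀ hq₁ hξ).deriv
  rw [hx₁] at hg2 hd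
  -- shift of the parameter
  have hsh : NS683.gg G x p₀ p₁ x₁ = fun s' : ℝ => LoeperPt128.gg G x x₁ w η (s' - s) := by
    funext s'
    unfold NS683.gg LoeperPt128.gg
    have e : w + (s' - s) • η = p₀ + s' • (p₁ - p₀) := by rw [hw, hη]; module
    rw [e]
  have hd1 : deriv (NS683.gg G x p₀ p₁ x₁) s = inner ℝ (q₁ - q₀) ξ := by
    rw [hsh, deriv_comp_sub_const, sub_self, hd]
  have hd2 : deriv (deriv (NS683.gg G x p₀ p₁ x₁)) s = G.phi y ξ q₀ - G.phi y ξ q₁ + a := by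
    have e1 : deriv (NS683.gg G x p₀ p₁ x₁) =
        fun s' : ℝ => deriv (LoeperPt128.gg G x x₁ w η) (s' - s) := by
      funext s'
      rw [hsh, deriv_comp_sub_const]
    rw [e1, deriv_comp_sub_const, sub_self, ← hg2, iteratedDeriv_succ, iteratedDeriv_one]
  -- the value of `g`
  have hnw : dist x y = ‖w‖ := by rw [hy]; exact hC.I_subset x hwI
  have hnq0 : dist x y = ‖q₀‖ := by
    have h1 : dist y (G.ex y q₀) = ‖q₀‖ := hC.I_subset y hq₀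
    rw [hx, dist_comm] at h1
    exact h1
  have hnq1 : dist x₁ y = ‖q₁‖ := by
    have h1 : dist y (G.ex y q₁) = ‖q₁‖ := hC.I_subset y hq₁
    rw [hx₁, dist_comm] at h1
    exact h1
  have hg : NS683.gg G x p₀ p₁ x₁ s = ‖q₀‖ ^ 2 / 2 - ‖q₁‖ ^ 2 / 2 := by
    unfold NS683.gg
    rw [← hw, ← hy, ← hnw, hnq0]
    unfold halfDistSq
    rw [hnq1]
  obtain ⟨g, hgg⟩ : ∃ g, g = NS683.gg G x p₀ p₁ x₁ s := ⟨_, rfl⟩
  obtain ⟨L, hL⟩ : ∃ L, L = ‖q₁ - q₀‖ := ⟨_, rfl⟩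
  have hL0 : 0 ≤ L := by rw [hL]; exact norm_nonneg _
  have hin : inner ℝ q₀ (q₁ - q₀) = -(g + L ^ 2 / 2) := by
    have e1 : ‖q₁‖ ^ 2 = ‖q₀‖ ^ 2 + 2 * inner ℝ q₀ (q₁ - q₀) + ‖q₁ - q₀‖ ^ 2 := by
      have e2 : q₁ = q₀ + (q₁ - q₀) := by abel
      conv_lhs => rw [e2]
      exact norm_add_sq_real _ _
    rw [hgg, hg, hL]
    linarith
  rw [← hgg] at hpos ⊢
  have hLD : L ≤ 2 * D := by
    rw [hL]
    have e1 : ‖q₁ - q₀‖ ≤ ‖q₁‖ + ‖q₀‖ := norm_sub_le _ _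
    have e2 := hD x y
    have e3 := hD x₁ y
    rw [hnq0] at e2
    rw [hnq1] at e3
    linarith
  have hne : inner ℝ q₀ (q₁ - q₀) ≠ 0 := by
    rw [hin]
    have : 0 < g + L ^ 2 / 2 := by positivity
    linarith
  have h1 := hS y q₀ q₁ hq₀ hq₁ ξ ζ hζ a ha hne
  have h2 := hZ x y w η hwI hy.symm q₀ hq₀ hx ξ hξ ζ hζ
  rw [hin, neg_sq, ← hL] at h1
  rw [hd1, hd2, ← hη]
  refine le_trans (neg_le_neg ?_) h1
  have h3 := real_est (g := g) (L := L) (D := 2 * D) hpos hL0 hLD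
  have hI0 : 0 ≤ |inner ℝ (q₁ - q₀) ξ| := abs_nonneg _
  have hη0 : 0 ≤ ‖η‖ := norm_nonneg _
  have hfac : 0 ≤ L * (1 + L ^ 2 / (g + L ^ 2 / 2) ^ 2) := by positivity
  calc C₁ * |inner ℝ (q₁ - q₀) ξ| * L * ‖ζ‖ * (1 + L ^ 2 / (g + L ^ 2 / 2) ^ 2)
      = C₁ * |inner ℝ (q₁ - q₀) ξ| * ‖ζ‖ * (L * (1 + L ^ 2 / (g + L ^ 2 / 2) ^ 2)) := by ring
    _ ≤ C₁ * |inner ℝ (q₁ - q₀) ξ| * (C₂ * ‖η‖) * (L * (1 + L ^ 2 / (g + L ^ 2 / 2) ^ 2)) := by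
        gcongr
    _ ≤ C₁ * |inner ℝ (q₁ - q₀) ξ| * (C₂ * ‖η‖) * ((2 * D + 2) * (1 + 1 / √g)) := by
        gcongr
    _ = C₁ * C₂ * (2 * D + 2) * |inner ℝ (q₁ - q₀) ξ| * ‖η‖ * (1 + 1 / √g) := by ring

/-- the same under `GoodAll` -/
theorem t1iP_of_stat' [CompactSpace M] {G : GeoData n M} (hB : Base G) (hC : CutFacts G)
    (hg : GoodAll G) {C₁ C₂ : ℝ} (hC1 : 0 ≤ C₁) (hC2 : 0 ≤ C₂)
    (hS : T1iStat G C₁) (hZ : ZetaP G C₂) :
    ∃ C : ℝ, 0 ≤ C ∧ T1iP G C :=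
  t1iP_of_stat hB hC (fun x => Final267.convex_I hC hg x) hC1 hC2 hS hZ

end Crest.Agent.R226.T1iFin683
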