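/-
R226 / leaf L1 = (T1)(i) (helper115): the final real-number estimate.
-/
import Mathlib

set_option autoImplicit false

namespace Crest.Agent.R226.T1i115

/-- arithmetic-geometric mean with a weight -/
theorem amgm {p x y : ℝ} (hp : 0 < p) : 2 * x * y ≤ p * x ^ 2 + y ^ 2 / p := by
  have h : 0 ≤ (p * x - y) ^ 2 / p := by positivity
  have e : (p * x - y) ^ 2 / p = p * x ^ 2 - 2 * x * y + y ^ 2 / p := by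
    field_simp
    ring
  linarith

theorem real_T' {B c T' a L Λ ρ lam μ w p1 p2 : ℝ}
    (h6 : 2 * lam * μ - lam ^ 2 * w + 2 * lam * p1 + lam ^ 2 * p2 ≤ T')
    (hμ : |μ| ≤ L * a) (hw : w ≤ L ^ 2 / (c * ρ)) (hp1 : |p1| ≤ B ^ 3 * L ^ 2 * Λ)
    (hp2 : |p2| ≤ B ^ 3 * L ^ 2) :
    -(2 * |lam| * (L * a) + lam ^ 2 * (L ^ 2 / (c * ρ)) + 2 * |lam| * (B ^ 3 * L ^ 2 * Λ) +
    lam ^ 2 * (B ^ 3 * L ^ 2)) ≤ T' := by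
  have hla : 0 ≤ |lam| := abs_nonneg _
  have e1 : -(2 * |lam| * (L * a)) ≤ 2 * lam * μ := by
    have f1 : |2 * lam * μ| ≤ 2 * |lam| * (L * a) := by
      rw [abs_mul, abs_mul, abs_two]
      exact mul_le_mul_of_nonneg_left hμ (by positivity)
    exact (abs_le.1 f1).1
  have e2 : lam ^ 2 * w ≤ lam ^ 2 * (L ^ 2 / (c * ρ)) := mul_le_mul_of_nonneg_left hw (sq_nonneg _)
  have e3 : -(2 * |lam| * (B ^ 3 * L ^ 2 * Λ)) ≤ 2 * lam * p1 := by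
    have f1 : |2 * lam * p1| ≤ 2 * |lam| * (B ^ 3 * L ^ 2 * Λ) := by
      rw [abs_mul, abs_mul, abs_two]
      exact mul_le_mul_of_nonneg_left hp1 (by positivity)
    exact (abs_le.1 f1).1
  have e4 : -(lam ^ 2 * (B ^ 3 * L ^ 2)) ≤ lam ^ 2 * p2 := by
    have f1 : |lam ^ 2 * p2| ≤ lam ^ 2 * (B ^ 3 * L ^ 2) := by
      rw [abs_mul, abs_of_nonneg (sq_nonneg lam)]
      exact mul_le_mul_of_nonneg_left hp2 (sq_nonneg _)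
    exact (abs_le.1 f1).1
  linarith

theorem real_T1 {B c C4 C5 T T' h a L Λ ρ x1 x2 x3 x4 : ℝ}
    (hB : 1 ≤ B) (hρ : 0 < ρ)
    (hT : T' - x1 - 2 * x2 + x3 - x4 ≤ T)
    (h1 : |x1| ≤ B * ρ * L ^ 2 * Λ ^ 2) (h2 : |x2| ≤ B * ρ * L * Λ * a)
    (h3 : ρ * (c * a ^ 2 - B * h) ≤ x3) (h4 : |x4| ≤ C4 * ρ * L ^ 2 * Λ ^ 2)
    (h5 : h ≤ T' + C5 * L ^ 2 * Λ ^ 2) :
    (1 - ρ * B) * T' + ρ * c * a ^ 2 - 2 * (B * ρ * L * Λ * a) -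
      (B + C4 + B * C5) * (ρ * L ^ 2 * Λ ^ 2) ≤ T := by
  have e1 := (abs_le.1 h1).2
  have e2 := (abs_le.1 h2).2
  have e4 := (abs_le.1 h4).2
  have e5 : ρ * B * h ≤ ρ * B * (T' + C5 * L ^ 2 * Λ ^ 2) :=
    mul_le_mul_of_nonneg_left h5 (by positivity)
  have e6 : ρ * (c * a ^ 2 - B * h) = ρ * c * a ^ 2 - ρ * B * h := by ring
  have e7 : ρ * B * (T' + C5 * L ^ 2 * Λ ^ 2) = ρ * B * T' + B * C5 * (ρ * L ^ 2 * Λ ^ 2) := by ring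
  have e8 : (1 - ρ * B) * T' = T' - ρ * B * T' := by ring
  have e9 : B * ρ * L ^ 2 * Λ ^ 2 = B * (ρ * L ^ 2 * Λ ^ 2) := by ring
  have e10 : C4 * ρ * L ^ 2 * Λ ^ 2 = C4 * (ρ * L ^ 2 * Λ ^ 2) := by ring
  have e11 : (B + C4 + B * C5) * (ρ * L ^ 2 * Λ ^ 2) = B * (ρ * L ^ 2 * Λ ^ 2) +
    C4 * (ρ * L ^ 2 * Λ ^ 2) + B * C5 * (ρ * L ^ 2 * Λ ^ 2) := by ring
  rw [e6] at h3
  rw [e7] at e5
  rw [e9] at e1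
  rw [e10] at e4
  rw [e8, e11]
  linarith

theorem real_lam {B c K L Λ ρ lam X Q : ℝ} (hB : 0 ≤ B) (hc : 0 < c) (hK : 0 ≤ K)
    (hL : 0 ≤ L) (hΛ : 0 ≤ Λ) (hρ : 0 < ρ) (hρ2 : ρ ≤ 1) (hX : 0 < X)
    (hlam : |lam| ≤ K * ρ * Λ / X) (hQ : Q = ρ * L ^ 2 * Λ ^ 2) :
    3 / (c * ρ) * (lam ^ 2 * L ^ 2) + 2 * |lam| * (B ^ 3 * L ^ 2 * Λ) + lam ^ 2 * (B ^ 3 * L ^ 2)
      ≤ (3 / c * K ^ 2 + 2 * B ^ 3 * K + B ^ 3 * K ^ 2) * ((1 + 1 / X ^ 2) * Q) := by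
  have hla : 0 ≤ |lam| := abs_nonneg _
  have hlam2 : lam ^ 2 ≤ K ^ 2 * ρ ^ 2 * Λ ^ 2 / X ^ 2 := by
    have e1 : lam ^ 2 = |lam| ^ 2 := (sq_abs _).symm
    have e2 : |lam| ^ 2 ≤ (K * ρ * Λ / X) ^ 2 := pow_le_pow_left₀ hla hlam 2
    rw [e1]
    refine e2.trans (le_of_eq ?_)
    rw [div_pow]; ring
  have hQ0 : 0 ≤ Q := by rw [hQ]; positivity
  have hb1 : 3 / (c * ρ) * (lam ^ 2 * L ^ 2) ≤ 3 / c * K ^ 2 * (1 / X ^ 2 * Q) := by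
    have e1 : 3 / (c * ρ) * (lam ^ 2 * L ^ 2) ≤
        3 / (c * ρ) * (K ^ 2 * ρ ^ 2 * Λ ^ 2 / X ^ 2 * L ^ 2) := by gcongr
    refine e1.trans (le_of_eq ?_)
    rw [hQ]; field_simp
  have hb2 : 2 * |lam| * (B ^ 3 * L ^ 2 * Λ) ≤ 2 * B ^ 3 * K * (1 / X * Q) := by
    have e1 : 2 * |lam| * (B ^ 3 * L ^ 2 * Λ) ≤ 2 * (K * ρ * Λ / X) * (B ^ 3 * L ^ 2 * Λ) := by
      gcongr
    refine e1.trans (le_of_eq ?_)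
    rw [hQ]; field_simp
  have hb3 : lam ^ 2 * (B ^ 3 * L ^ 2) ≤ B ^ 3 * K ^ 2 * (1 / X ^ 2 * Q) := by
    have e1 : lam ^ 2 * (B ^ 3 * L ^ 2) ≤ K ^ 2 * ρ ^ 2 * Λ ^ 2 / X ^ 2 * (B ^ 3 * L ^ 2) := by
      gcongr
    have e2 : K ^ 2 * ρ ^ 2 * Λ ^ 2 / X ^ 2 * (B ^ 3 * L ^ 2) =
        ρ * (B ^ 3 * K ^ 2 * (1 / X ^ 2 * Q)) := by
      rw [hQ]; field_simp
    have e3 : 0 ≤ B ^ 3 * K ^ 2 * (1 / X ^ 2 * Q) := by positivity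
    have e4 : ρ * (B ^ 3 * K ^ 2 * (1 / X ^ 2 * Q)) ≤ 1 * (B ^ 3 * K ^ 2 * (1 / X ^ 2 * Q)) :=
      mul_le_mul_of_nonneg_right hρ2 e3
    linarith
  have hX1 : 1 / X ≤ 1 + 1 / X ^ 2 := by
    have e1 : 1 / X ^ 2 = (1 / X) ^ 2 := by rw [div_pow, one_pow]
    rw [e1]
    nlinarith [sq_nonneg (1 / X - 1), sq_nonneg (1 / X)]
  have hX3 : 1 / X ^ 2 ≤ 1 + 1 / X ^ 2 := by linarith
  generalize 1 + 1 / X ^ 2 = Y at *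
  have hc1 : 3 / c * K ^ 2 * (1 / X ^ 2 * Q) ≤ 3 / c * K ^ 2 * (Y * Q) := by gcongr
  have hc2 : 2 * B ^ 3 * K * (1 / X * Q) ≤ 2 * B ^ 3 * K * (Y * Q) := by gcongr
  have hc3 : B ^ 3 * K ^ 2 * (1 / X ^ 2 * Q) ≤ B ^ 3 * K ^ 2 * (Y * Q) := by gcongr
  calc _ ≤ 3 / c * K ^ 2 * (Y * Q) + 2 * B ^ 3 * K * (Y * Q) + B ^ 3 * K ^ 2 * (Y * Q) := by
        linarith
    _ = _ := by ring

theorem real_final {B c K C4 C5 T T' h a L Λ ρ lam x1 x2 x3 x4 μ w p1 p2 X : ℝ}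
    (hB : 1 ≤ B) (hc : 0 < c) (hK : 0 ≤ K) (hC4 : 0 ≤ C4) (hC5 : 0 ≤ C5)
    (hL : 0 ≤ L) (hΛ : 0 ≤ Λ) (hρ : 0 < ρ) (hρ1 : ρ * B ≤ 1)
    (hX : 0 < X)
    (hT : T' - x1 - 2 * x2 + x3 - x4 ≤ T)
    (h1 : |x1| ≤ B * ρ * L ^ 2 * Λ ^ 2) (h2 : |x2| ≤ B * ρ * L * Λ * a)
    (h3 : ρ * (c * a ^ 2 - B * h) ≤ x3) (h4 : |x4| ≤ C4 * ρ * L ^ 2 * Λ ^ 2)
    (h5 : h ≤ T' + C5 * L ^ 2 * Λ ^ 2)
    (h6 : 2 * lam * μ - lam ^ 2 * w + 2 * lam * p1 + lam ^ 2 * p2 ≤ T')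
    (hμ : |μ| ≤ L * a) (hw : w ≤ L ^ 2 / (c * ρ)) (hp1 : |p1| ≤ B ^ 3 * L ^ 2 * Λ)
    (hp2 : |p2| ≤ B ^ 3 * L ^ 2) (hlam : |lam| ≤ K * ρ * Λ / X) :
    -((3 / c * K ^ 2 + 2 * B ^ 3 * K + B ^ 3 * K ^ 2 + (B + C4 + B * C5 + 2 * B ^ 2 / c)) *
      ((1 + 1 / X ^ 2) * (ρ * L ^ 2 * Λ ^ 2))) ≤ T := by
  have hρ2 : ρ ≤ 1 := by nlinarith
  have hT' := real_T' (c := c) (ρ := ρ) h6 hμ hw hp1 hp2
  have hT1 := real_T1 (c := c) hB hρ hT h1 h2 h3 h4 h5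
  obtain ⟨Q, hQ⟩ : ∃ Q, Q = ρ * L ^ 2 * Λ ^ 2 := ⟨_, rfl⟩
  have hl := real_lam (B := B) (by linarith) hc hK hL hΛ hρ hρ2 hX hlam hQ
  have hla : 0 ≤ |lam| := abs_nonneg _
  have hLa : 0 ≤ L * a := (abs_nonneg _).trans hμ
  have hA : 2 * (B * ρ * L * Λ * a) ≤ c / 2 * ρ * a ^ 2 + 2 * B ^ 2 / c * Q := by
    have e := amgm (p := c / 2 * ρ) (x := a) (y := B * ρ * L * Λ) (by positivity)
    have e' : (B * ρ * L * Λ) ^ 2 / (c / 2 * ρ) = 2 * B ^ 2 / c * Q := by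
      rw [hQ]; field_simp
    rw [e'] at e
    linarith
  have hS1 : 2 * |lam| * (L * a) ≤ c / 2 * ρ * a ^ 2 + 2 / (c * ρ) * (lam ^ 2 * L ^ 2) := by
    have e := amgm (p := c / 2 * ρ) (x := a) (y := |lam| * L) (by positivity)
    have e' : (|lam| * L) ^ 2 / (c / 2 * ρ) = 2 / (c * ρ) * (lam ^ 2 * L ^ 2) := by
      rw [mul_pow, sq_abs]
      field_simp
    rw [e'] at e
    linarith
  have hdiv : lam ^ 2 * (L ^ 2 / (c * ρ)) + 2 / (c * ρ) * (lam ^ 2 * L ^ 2) =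
      3 / (c * ρ) * (lam ^ 2 * L ^ 2) := by
    field_simp
    ring
  have hQ0 : 0 ≤ Q := by rw [hQ]; positivity
  have hX4 : (1 : ℝ) ≤ 1 + 1 / X ^ 2 := by
    have : 0 ≤ 1 / X ^ 2 := by positivity
    linarith
  rw [← hQ] at hT1 ⊢
  generalize 1 + 1 / X ^ 2 = Y at *
  have hYQ : Q ≤ Y * Q := le_mul_of_one_le_left hQ0 hX4
  have hD : (B + C4 + B * C5 + 2 * B ^ 2 / c) * Q ≤ (B + C4 + B * C5 + 2 * B ^ 2 / c) * (Y * Q) :=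
    mul_le_mul_of_nonneg_left hYQ (by positivity)
  have hS0 : 0 ≤ 2 * |lam| * (L * a) + lam ^ 2 * (L ^ 2 / (c * ρ)) + 2 * |lam| * (B ^ 3 * L ^ 2 * Λ) +
    lam ^ 2 * (B ^ 3 * L ^ 2) := by positivity
  have hT'' : -(2 * |lam| * (L * a) + lam ^ 2 * (L ^ 2 / (c * ρ)) + 2 * |lam| * (B ^ 3 * L ^ 2 * Λ) +
    lam ^ 2 * (B ^ 3 * L ^ 2)) ≤ (1 - ρ * B) * T' := by
    generalize 2 * |lam| * (L * a) + lam ^ 2 * (L ^ 2 / (c * ρ)) + 2 * |lam| * (B ^ 3 * L ^ 2 * Λ) +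
      lam ^ 2 * (B ^ 3 * L ^ 2) = S at *
    have e1 : 0 ≤ 1 - ρ * B := by linarith
    have e2 : 0 ≤ ρ * B := by positivity
    have e3 : (1 - ρ * B) * (-S) ≤ (1 - ρ * B) * T' := mul_le_mul_of_nonneg_left hT' e1
    have e4 : 0 ≤ ρ * B * S := mul_nonneg e2 hS0
    linarith
  have e : (3 / c * K ^ 2 + 2 * B ^ 3 * K + B ^ 3 * K ^ 2 + (B + C4 + B * C5 + 2 * B ^ 2 / c)) *
      (Y * Q) = (3 / c * K ^ 2 + 2 * B ^ 3 * K + B ^ 3 * K ^ 2) * (Y * Q) +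
      (B + C4 + B * C5 + 2 * B ^ 2 / c) * (Y * Q) := by ring
  rw [e]
  have e' : (B + C4 + B * C5 + 2 * B ^ 2 / c) * Q = (B + C4 + B * C5) * Q + 2 * B ^ 2 / c * Q := by
    ring
  rw [e'] at hD
  linarith

end Crest.Agent.R226.T1i115
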