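/-
R226 / leaf L1 = (T1)(i) (helper115): the algebra of the radial depth shift.
-/
import Crest.Agent.R226.T1iReal_115

set_option autoImplicit false

open Set Filter
open scoped ContDiff Topology

namespace Crest.Agent.R226.T1i115

section alg
variable {E : Type*} [NormedAddCommGroup E] [InnerProductSpace ℝ E]

local notation "⟪" x ", " y "⟫" => inner ℝ x y

variable {H0 H1 G0 P H0' H1' G0' P' : E →L[ℝ] E →L[ℝ] ℝ} {a0 d ζ ξ ξ' m z : E}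

/-- `H1' m m = T' + e' ζ ζ + P' ξ' ξ'` -/
theorem alg_o2 (hs1' : ∀ u v, H1' u v = H1' v u)
    (hm : ∀ u, H1' m u = H0' ζ u - H1' ζ u) :
    H1' m m = (-(P' ξ' ξ') + H1' (ζ + m) (ζ + m) - H0' ζ ζ + G0' ζ ζ) +
      (H1' ζ ζ - H0' ζ ζ - G0' ζ ζ) + P' ξ' ξ' := by
  simp only [map_add, add_apply]
  have e1 := hm ζ
  have e2 := hs1' ζ m
  linarith

theorem alg_o1 (hs1' : ∀ u v, H1' u v = H1' v u) (hs1 : ∀ u v, H1 u v = H1 v u)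
    (hm : ∀ u, H1' m u = H0' ζ u - H1' ζ u) :
    (-(P' ξ' ξ') + H1' (ζ + m) (ζ + m) - H0' ζ ζ + G0' ζ ζ) -
      ((H1 ζ ζ - H0 ζ ζ - G0 ζ ζ) - (H1' ζ ζ - H0' ζ ζ - G0' ζ ζ)) -
      2 * ((H1 ζ m - H0 ζ m) - (H1' ζ m - H0' ζ m)) + (H1' m m - H1 m m) -
      (P ξ ξ - P' ξ' ξ') =
    -(P ξ ξ) + (2 * H0 ζ (ζ + m) - H1 (ζ + m) (ζ + m)) - H0 ζ ζ + G0 ζ ζ := by
  simp only [map_add, add_apply]
  have e1 := hm ζ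
  have e2 := hs1' ζ m
  have e3 := hm m
  have e4 := hs1 ζ m
  linarith

/-- the quadratic polynomial of the radial moves -/
theorem alg_o3 {lam : ℝ} (hs0' : ∀ u v, H0' u v = H0' v u) (hs1' : ∀ u v, H1' u v = H1' v u)
    (hsG : ∀ u v, G0' u v = G0' v u) (hsP : ∀ u v, P' u v = P' v u)
    (hm : ∀ u, H1' m u = H0' ζ u - H1' ζ u)
    (hξ' : ∀ u, H0' ζ u = ⟪ξ', u⟫)
    (hz : ∀ u, H1' z u = ⟪d, u⟫) (hg0 : ∀ u, H0' a0 u = ⟪a0, u⟫)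
    (hg1 : ∀ u, H1' (a0 + d) u = ⟪a0 + d, u⟫) (hgG : ∀ u, G0' a0 u = ⟪d, u⟫ - H0' d u) :
    -(P' (ξ' + lam • a0) (ξ' + lam • a0)) +
      H1' ((ζ + m) + lam • ((a0 + d) - z)) ((ζ + m) + lam • ((a0 + d) - z)) -
      H0' (ζ + lam • a0) (ζ + lam • a0) + G0' (ζ + lam • a0) (ζ + lam • a0) =
    (-(P' ξ' ξ') + H1' (ζ + m) (ζ + m) - H0' ζ ζ + G0' ζ ζ) - 2 * lam * ⟪m, d⟫ +
      lam ^ 2 * (⟪d, z⟫ - ‖d‖ ^ 2) - 2 * lam * P' ξ' a0 - lam ^ 2 * P' a0 a0 := by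
  -- `u = a0 + d - z` satisfies `H1' u = ⟪a0, .⟫`
  obtain ⟨u, hu⟩ : ∃ u, u = (a0 + d) - z := ⟨_, rfl⟩
  have hu1 : ∀ w, H1' u w = ⟪a0, w⟫ := by
    intro w
    have e1 := hg1 w
    rw [hu, map_sub, sub_apply, e1, hz, inner_add_left]
    ring
  rw [← hu]
  have k1 : H1' u u = ‖a0‖ ^ 2 - ‖d‖ ^ 2 + ⟪d, z⟫ := by
    have e1 : ⟪a0, z⟫ = ⟪a0, d⟫ + ‖d‖ ^ 2 - ⟪d, z⟫ := by
      have f1 : H1' z (a0 + d) = ⟪a0 + d, z⟫ := by rw [hs1', hg1]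
      rw [hz] at f1
      rw [inner_add_right, inner_add_left, real_inner_self_eq_norm_sq] at f1
      have f2 := real_inner_comm a0 d
      linarith
    rw [hu1, hu, inner_sub_right, inner_add_right, real_inner_self_eq_norm_sq, e1]
    ring
  have k2 : ⟪a0, m⟫ = -⟪ζ, d⟫ + ⟪ξ', d⟫ - ⟪m, d⟫ := by
    have f1 : H1' m (a0 + d) = ⟪a0 + d, m⟫ := by rw [hs1', hg1]
    rw [hm] at f1
    have f2 : H1' ζ (a0 + d) = ⟪a0 + d, ζ⟫ := by rw [hs1', hg1]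
    have f3 : H0' ζ a0 = ⟪a0, ζ⟫ := by rw [hs0', hg0]
    rw [f2, map_add, f3, hξ', inner_add_left, inner_add_left] at f1
    have f4 := real_inner_comm d ζ
    have f5 := real_inner_comm d m
    linarith
  have k3 : G0' a0 ζ = ⟪ζ, d⟫ - ⟪ξ', d⟫ := by
    rw [hgG, hs0' d ζ, hξ']
    have f4 := real_inner_comm d ζ
    linarith
  have k4 : G0' a0 a0 = 0 := by
    rw [hgG, hs0' d a0, hg0]
    have f4 := real_inner_comm d a0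
    linarith
  have k5 : H0' a0 ζ = ⟪a0, ζ⟫ := hg0 ζ
  have k6 : H0' a0 a0 = ‖a0‖ ^ 2 := by rw [hg0, real_inner_self_eq_norm_sq]
  have k7 : H1' u ζ = ⟪a0, ζ⟫ := hu1 ζ
  have k8 : H1' u m = ⟪a0, m⟫ := hu1 m
  have s1 := hs1' ζ u
  have s2 := hs1' m u
  have s3 := hs0' ζ a0
  have s4 := hsG ζ a0
  have s5 := hsP a0 ξ'
  simp only [map_add, map_smul, add_apply, smul_apply, smul_eq_mul]
  rw [s1, s2, s3, s4, s5, k1, k3, k4, k5, k6, k7, k8, k2]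
  ring

theorem form_le {H : E →L[ℝ] E →L[ℝ] ℝ} {b : ℝ} (hb : ‖H‖ ≤ b) (u v : E) :
    |H u v| ≤ b * ‖u‖ * ‖v‖ := by
  rw [← Real.norm_eq_abs]
  refine (ContinuousLinearMap.le_opNorm₂ _ _ _).trans ?_
  gcongr

/-- **the static inequality, from the bounds of the two stages.** -/
theorem alg_final {B c r ρ T κ X : ℝ} (hB : 1 ≤ B) (hc : 0 < c)
    (hρ : 0 < ρ) (hρB : ρ * B ≤ 1) (hρ2 : ρ ≤ 1 / 2) {q0 D v : E} (hr : r = 1 - ρ)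
    (hv : v = ζ + m) (ha0 : a0 = r • q0) (hd : d = r • D)
    (hs0' : ∀ u v, H0' u v = H0' v u) (hs1' : ∀ u v, H1' u v = H1' v u)
    (hs1 : ∀ u v, H1 u v = H1 v u)
    (hsG : ∀ u v, G0' u v = G0' v u) (hsP : ∀ u v, P' u v = P' v u)
    (hm : ∀ u, H1' m u = H0' ζ u - H1' ζ u)
    (hξ : ∀ u, H0 ζ u = ⟪ξ, u⟫) (hξ' : ∀ u, H0' ζ u = ⟪ξ', u⟫)
    (hz : ∀ u, H1' z u = ⟪d, u⟫) (hg0 : ∀ u, H0' a0 u = ⟪a0, u⟫)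
    (hg1 : ∀ u, H1' (a0 + d) u = ⟪a0 + d, u⟫) (hgG : ∀ u, G0' a0 u = ⟪d, u⟫ - H0' d u)
    (hT : -(P ξ ξ) + (2 * ⟪v, ξ⟫ - H1 v v) - H0 ζ ζ + G0 ζ ζ ≤ T)
    (hM : ∀ lam : ℝ, ⟪d, ξ' + lam • a0⟫ = 0 →
      0 ≤ -(P' (ξ' + lam • a0) (ξ' + lam • a0)) +
      H1' ((ζ + m) + lam • ((a0 + d) - z)) ((ζ + m) + lam • ((a0 + d) - z)) -
      H0' (ζ + lam • a0) (ζ + lam • a0) + G0' (ζ + lam • a0) (ζ + lam • a0))
    (hX : X ≠ 0) (hXD : ⟪q0, D⟫ = X * ‖D‖) (hκ : κ = ⟪D, ξ⟫) (hρκ : ρ * (‖D‖ * ‖ζ‖) = |κ|)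
    (hD0 : 0 < ‖D‖)
    (hnq : ‖q0‖ ≤ B)
    (bH0' : ‖H0'‖ ≤ B) (bH0 : ‖H0‖ ≤ B) (bP' : ‖P'‖ ≤ B * ‖D‖ ^ 2)
    (bPP : ‖P - P'‖ ≤ B * ρ * ‖D‖ ^ 2)
    (be' : ‖H1' - H0' - G0'‖ ≤ B * ‖D‖ ^ 2)
    (bee : ‖(H1 - H0 - G0) - (H1' - H0' - G0')‖ ≤ B * ρ * ‖D‖ ^ 2)
    (bjj : ‖(H1 - H0) - (H1' - H0')‖ ≤ B * ρ * ‖D‖)
    (b00 : ‖H0 - H0'‖ ≤ B * ρ)
    (hpos : ρ * (c * ‖m‖ ^ 2 - B * H1' m m) ≤ H1' m m - H1 m m)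
    (hcoer : c * ρ * ‖z‖ ^ 2 ≤ H1' z z) :
    -((3 / c * (4 * (1 + B)) ^ 2 + 2 * B ^ 3 * (4 * (1 + B)) + B ^ 3 * (4 * (1 + B)) ^ 2 +
        (B + 3 * B ^ 3 + B * (B + B ^ 3) + 2 * B ^ 2 / c)) *
      ((1 + 1 / X ^ 2) * (|κ| * ‖D‖ * ‖ζ‖))) ≤ T := by
  have hB0 : 0 < B := by linarith
  have hr0 : 1 / 2 ≤ r := by rw [hr]; linarith
  have hr1 : r ≤ 1 := by rw [hr]; linarith
  obtain ⟨T', hT'⟩ : ∃ T', T' = -(P' ξ' ξ') + H1' (ζ + m) (ζ + m) - H0' ζ ζ + G0' ζ ζ := ⟨_, rfl⟩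
  -- norms
  have nD : ‖d‖ ≤ ‖D‖ := by
    rw [hd, norm_smul, Real.norm_eq_abs, abs_of_nonneg (by linarith)]
    exact mul_le_of_le_one_left (norm_nonneg _) hr1
  have na : ‖a0‖ ≤ B := by
    rw [ha0, norm_smul, Real.norm_eq_abs, abs_of_nonneg (by linarith)]
    exact (mul_le_of_le_one_left (norm_nonneg _) hr1).trans hnq
  have nξ : ‖ξ‖ ≤ B * ‖ζ‖ := by
    have e1 : ‖ξ‖ ^ 2 ≤ B * ‖ζ‖ * ‖ξ‖ := by
      rw [← real_inner_self_eq_norm_sq, ← hξ]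
      exact (le_abs_self _).trans (form_le bH0 ζ ξ)
    by_contra h
    push Not at h
    have h0 : 0 < ‖ξ‖ := lt_of_le_of_lt (by positivity) h
    nlinarith
  have nξ' : ‖ξ'‖ ≤ B * ‖ζ‖ := by
    have e1 : ‖ξ'‖ ^ 2 ≤ B * ‖ζ‖ * ‖ξ'‖ := by
      rw [← real_inner_self_eq_norm_sq, ← hξ']
      exact (le_abs_self _).trans (form_le bH0' ζ ξ')
    by_contra h
    push Not at h
    have h0 : 0 < ‖ξ'‖ := lt_of_le_of_lt (by positivity) h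
    nlinarith
  have nξξ' : ‖ξ - ξ'‖ ≤ B * ρ * ‖ζ‖ := by
    have e1 : ‖ξ - ξ'‖ ^ 2 ≤ B * ρ * ‖ζ‖ * ‖ξ - ξ'‖ := by
      have e2 : ⟪ξ - ξ', ξ - ξ'⟫ = (H0 - H0') ζ (ξ - ξ') := by
        rw [sub_apply, sub_apply, hξ, hξ', ← inner_sub_left]
      rw [← real_inner_self_eq_norm_sq, e2]
      exact (le_abs_self _).trans (form_le b00 ζ (ξ - ξ'))
    by_contra h
    push Not at h
    have h0 : 0 < ‖ξ - ξ'‖ := lt_of_le_of_lt (by positivity) h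
    nlinarith
  -- the value of `lam`
  have hda : ⟪d, a0⟫ = r ^ 2 * (X * ‖D‖) := by
    rw [hd, ha0, real_inner_smul_left, real_inner_smul_right, real_inner_comm, hXD]; ring
  have hda0 : ⟪d, a0⟫ ≠ 0 := by
    rw [hda]
    have : r ≠ 0 := by linarith
    positivity
  obtain ⟨lam, hlam⟩ : ∃ lam, lam = -⟪d, ξ'⟫ / ⟪d, a0⟫ := ⟨_, rfl⟩
  have hlam0 : ⟪d, ξ' + lam • a0⟫ = 0 := by
    rw [inner_add_right, real_inner_smul_right, hlam, div_mul_cancel₀ _ hda0]; ring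
  have hM' := hM lam hlam0
  rw [alg_o3 hs0' hs1' hsG hsP hm hξ' hz hg0 hg1 hgG, ← hT'] at hM'
  -- the bound of `lam`
  have hκ' : |⟪d, ξ'⟫| ≤ (1 + B) * |κ| := by
    have e1 : ⟪d, ξ'⟫ = r * (κ - (H0 - H0') ζ D) := by
      rw [hd, real_inner_smul_left, sub_apply, sub_apply, hξ, hξ', hκ, real_inner_comm D ξ,
        real_inner_comm D ξ']
      ring
    have e2 : |(H0 - H0') ζ D| ≤ B * |κ| := by
      refine (form_le b00 ζ D).trans (le_of_eq ?_)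
      rw [← hρκ]; ring
    rw [e1, abs_mul, abs_of_nonneg (by linarith : (0:ℝ) ≤ r)]
    have e3 : |κ - (H0 - H0') ζ D| ≤ (1 + B) * |κ| := by
      refine (abs_sub _ _).trans ?_
      linarith
    have e4 : 0 ≤ |κ - (H0 - H0') ζ D| := abs_nonneg _
    nlinarith
  have hlamb : |lam| ≤ 4 * (1 + B) * ρ * ‖ζ‖ / |X| := by
    have hX0 : 0 < |X| := abs_pos.2 hX
    rw [hlam, abs_div, abs_neg, hda, abs_mul, abs_mul, abs_norm, abs_of_nonneg (sq_nonneg r),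
      div_le_div_iff₀ (by positivity) hX0]
    have e1 : |⟪d, ξ'⟫| * |X| ≤ (1 + B) * |κ| * |X| := mul_le_mul_of_nonneg_right hκ' hX0.le
    have e2 : (1 : ℝ) ≤ 4 * r ^ 2 := by nlinarith
    have e3 : 0 ≤ (1 + B) * |κ| * |X| := by positivity
    calc |⟪d, ξ'⟫| * |X| ≤ (1 + B) * |κ| * |X| * 1 := by linarith
      _ ≤ (1 + B) * |κ| * |X| * (4 * r ^ 2) := mul_le_mul_of_nonneg_left e2 e3
      _ = 4 * (1 + B) * ρ * ‖ζ‖ * (r ^ 2 * (|X| * ‖D‖)) := by rw [← hρκ]; ring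
  -- the bound of `z`
  have hw : ⟪d, z⟫ - ‖d‖ ^ 2 ≤ ‖D‖ ^ 2 / (c * ρ) := by
    have e1 : ⟪d, z⟫ = H1' z z := (hz z).symm
    have e2 : ⟪d, z⟫ ≤ ‖D‖ * ‖z‖ :=
      (real_inner_le_norm d z).trans (mul_le_mul_of_nonneg_right nD (norm_nonneg _))
    have hcρ : 0 < c * ρ := by positivity
    have e3 : ⟪d, z⟫ ≤ ‖D‖ ^ 2 / (c * ρ) := by
      have f1 := amgm (p := c * ρ) (x := ‖z‖) (y := ‖D‖) hcρ
      rw [e1] at e2 ⊢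
      have f2 : c * ρ * ‖z‖ ^ 2 ≤ H1' z z := hcoer
      linarith
    have e4 : 0 ≤ ‖d‖ ^ 2 := by positivity
    linarith
  -- collect
  have o1 := alg_o1 (H0 := H0) (G0 := G0) (G0' := G0') (P := P) (P' := P') (ξ := ξ) (ξ' := ξ') hs1' hs1 hm
  rw [← hT'] at o1
  have o2 := alg_o2 (G0' := G0') (P' := P') (ξ' := ξ') hs1' hm
  rw [← hT'] at o2
  have hvξ : ⟪v, ξ⟫ = H0 ζ (ζ + m) := by rw [hξ, real_inner_comm, hv]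
  rw [hvξ, hv, ← o1] at hT
  have hfin := real_final (B := B) (c := c) (K := 4 * (1 + B)) (C4 := 3 * B ^ 3) (C5 := B + B ^ 3)
    (T := T) (T' := T') (h := H1' m m) (a := ‖m‖) (L := ‖D‖) (Λ := ‖ζ‖) (ρ := ρ) (lam := lam)
    (x1 := (H1 ζ ζ - H0 ζ ζ - G0 ζ ζ) - (H1' ζ ζ - H0' ζ ζ - G0' ζ ζ))
    (x2 := (H1 ζ m - H0 ζ m) - (H1' ζ m - H0' ζ m)) (x3 := H1' m m - H1 m m)
    (x4 := P ξ ξ - P' ξ' ξ') (μ := ⟪m, d⟫) (w := ⟪d, z⟫ - ‖d‖ ^ 2) (p1 := P' ξ' a0)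
    (p2 := P' a0 a0) (X := |X|) hB hc (by positivity) (by positivity) (by positivity)
    (norm_nonneg _) (norm_nonneg _) hρ hρB (abs_pos.2 hX) hT ?_ ?_ hpos ?_ ?_ ?_ ?_ hw ?_ ?_ hlamb
  · rw [sq_abs] at hfin
    have e : (1 + 1 / X ^ 2) * (ρ * ‖D‖ ^ 2 * ‖ζ‖ ^ 2) = (1 + 1 / X ^ 2) * (|κ| * ‖D‖ * ‖ζ‖) := by
      rw [← hρκ]; ring
    rw [e] at hfin
    exact hfin
  · have e1 := form_le bee ζ ζ
    simp only [sub_apply] at e1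
    refine e1.trans (le_of_eq ?_)
    ring
  · have e1 := form_le bjj ζ m
    simp only [sub_apply] at e1
    refine e1.trans (le_of_eq ?_)
    ring
  · have e1 : P ξ ξ - P' ξ' ξ' = (P - P') ξ ξ + P' (ξ - ξ') (ξ + ξ') := by
      have s := hsP ξ' ξ
      simp only [sub_apply, map_sub, map_add]
      rw [s]; ring
    have e2 := form_le bPP ξ ξ
    have e3 := form_le bP' (ξ - ξ') (ξ + ξ')
    have e4 : ‖ξ + ξ'‖ ≤ 2 * (B * ‖ζ‖) := (norm_add_le _ _).trans (by linarith)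
    have e5 : B * ρ * ‖D‖ ^ 2 * ‖ξ‖ * ‖ξ‖ ≤ B * ρ * ‖D‖ ^ 2 * (B * ‖ζ‖) * (B * ‖ζ‖) := by gcongr
    have e6 : B * ‖D‖ ^ 2 * ‖ξ - ξ'‖ * ‖ξ + ξ'‖ ≤
        B * ‖D‖ ^ 2 * (B * ρ * ‖ζ‖) * (2 * (B * ‖ζ‖)) := by gcongr
    rw [e1]
    refine (abs_add_le _ _).trans ?_
    calc |(P - P') ξ ξ| + |P' (ξ - ξ') (ξ + ξ')| ≤
        B * ρ * ‖D‖ ^ 2 * (B * ‖ζ‖) * (B * ‖ζ‖) + B * ‖D‖ ^ 2 * (B * ρ * ‖ζ‖) * (2 * (B * ‖ζ‖)) :=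
          add_le_add (e2.trans e5) (e3.trans e6)
      _ = 3 * B ^ 3 * ρ * ‖D‖ ^ 2 * ‖ζ‖ ^ 2 := by ring
  · have e1 := form_le be' ζ ζ
    simp only [sub_apply] at e1
    have e2 := form_le bP' ξ' ξ'
    have e3 : B * ‖D‖ ^ 2 * ‖ξ'‖ * ‖ξ'‖ ≤ B * ‖D‖ ^ 2 * (B * ‖ζ‖) * (B * ‖ζ‖) := by gcongr
    have e4 := (abs_le.1 e1).2
    have e5 := (abs_le.1 (e2.trans e3)).2
    rw [o2]
    have e6 : B * ‖D‖ ^ 2 * ‖ζ‖ * ‖ζ‖ + B * ‖D‖ ^ 2 * (B * ‖ζ‖) * (B * ‖ζ‖) =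
      (B + B ^ 3) * ‖D‖ ^ 2 * ‖ζ‖ ^ 2 := by ring
    linarith
  · linarith
  · rw [mul_comm]
    exact (abs_real_inner_le_norm m d).trans (mul_le_mul_of_nonneg_left nD (norm_nonneg _))
  · have e1 := form_le bP' ξ' a0
    have e3 : B * ‖D‖ ^ 2 * ‖ξ'‖ * ‖a0‖ ≤ B * ‖D‖ ^ 2 * (B * ‖ζ‖) * B := by gcongr
    refine (e1.trans e3).trans (le_of_eq ?_)
    ring
  · have e1 := form_le bP' a0 a0
    have e3 : B * ‖D‖ ^ 2 * ‖a0‖ * ‖a0‖ ≤ B * ‖D‖ ^ 2 * B * B := by gcongr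
    refine (e1.trans e3).trans (le_of_eq ?_)
    ring

end alg

end Crest.Agent.R226.T1i115
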