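/-
R226 / leaf L1 = (T1)(i) (helper115): Taylor remainders and their variation under dilations.
-/
import Mathlib

set_option autoImplicit false
set_option maxSynthPendingDepth 3

open Set Filter
open scoped ContDiff Topology

namespace Crest.Agent.R226.T1i115

variable {E : Type*} [NormedAddCommGroup E] [NormedSpace ℝ E]
variable {V : Type*} [NormedAddCommGroup V] [NormedSpace ℝ V]

/-- `C³` with derivatives bounded by `B` at `q` -/
def C3B (Φ : E → V) (B : ℝ) (q : E) : Prop :=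
  ContDiffAt ℝ 3 Φ q ∧ ∀ j ≤ 3, ‖iteratedFDeriv ℝ j Φ q‖ ≤ B

theorem C3B.n0 {Φ : E → V} {B : ℝ} {q : E} (h : C3B Φ B q) : ‖Φ q‖ ≤ B := by
  have := h.2 0 (by norm_num)
  rwa [norm_iteratedFDeriv_zero] at this

theorem C3B.n1 {Φ : E → V} {B : ℝ} {q : E} (h : C3B Φ B q) : ‖fderiv ℝ Φ q‖ ≤ B := by
  have := h.2 1 (by norm_num)
  rwa [norm_iteratedFDeriv_one] at this

theorem C3B.n2 {Φ : E → V} {B : ℝ} {q : E} (h : C3B Φ B q) : ‖fderiv ℝ (fderiv ℝ Φ) q‖ ≤ B := by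
  have := h.2 2 (by norm_num)
  rwa [← norm_iteratedFDeriv_fderiv, norm_iteratedFDeriv_one] at this

theorem C3B.n3 {Φ : E → V} {B : ℝ} {q : E} (h : C3B Φ B q) :
    ‖fderiv ℝ (fderiv ℝ (fderiv ℝ Φ)) q‖ ≤ B := by
  have := h.2 3 (by norm_num)
  rwa [← norm_iteratedFDeriv_fderiv, ← norm_iteratedFDeriv_fderiv, norm_iteratedFDeriv_one] at this

theorem C3B.c1 {Φ : E → V} {B : ℝ} {q : E} (h : C3B Φ B q) : ContDiffAt ℝ 2 (fderiv ℝ Φ) q :=
  h.1.fderiv_right (by norm_num)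

theorem C3B.c2 {Φ : E → V} {B : ℝ} {q : E} (h : C3B Φ B q) :
    ContDiffAt ℝ 1 (fderiv ℝ (fderiv ℝ Φ)) q := h.c1.fderiv_right (by norm_num)

theorem C3B.d0 {Φ : E → V} {B : ℝ} {q : E} (h : C3B Φ B q) : HasFDerivAt Φ (fderiv ℝ Φ q) q :=
  (h.1.differentiableAt (by norm_num)).hasFDerivAt

theorem C3B.d1 {Φ : E → V} {B : ℝ} {q : E} (h : C3B Φ B q) :
    HasFDerivAt (fderiv ℝ Φ) (fderiv ℝ (fderiv ℝ Φ) q) q :=
  (h.c1.differentiableAt (by norm_num)).hasFDerivAt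

theorem C3B.d2 {Φ : E → V} {B : ℝ} {q : E} (h : C3B Φ B q) :
    HasFDerivAt (fderiv ℝ (fderiv ℝ Φ)) (fderiv ℝ (fderiv ℝ (fderiv ℝ Φ)) q) q :=
  (h.c2.differentiableAt (by norm_num)).hasFDerivAt

theorem C3B.symm {Φ : E → V} {B : ℝ} {q : E} (h : C3B Φ B q) (u v : E) :
    fderiv ℝ (fderiv ℝ Φ) q u v = fderiv ℝ (fderiv ℝ Φ) q v u := by
  have h1 : ContDiffAt ℝ 2 Φ q := h.1.of_le (by norm_num)
  exact (h1.isSymmSndFDerivAt (by simp)) u v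

/-- Lipschitz bound on a segment -/
theorem lip_seg {W : Type*} [NormedAddCommGroup W] [NormedSpace ℝ W] {f : E → W} {f' : E → E →L[ℝ] W}
    {a b : E} {B : ℝ}
    (hd : ∀ q ∈ segment ℝ a b, HasFDerivAt f (f' q) q) (hb : ∀ q ∈ segment ℝ a b, ‖f' q‖ ≤ B) :
    ‖f b - f a‖ ≤ B * ‖b - a‖ :=
  (convex_segment a b).norm_image_sub_le_of_norm_hasFDerivWithin_le
    (fun q hq => (hd q hq).hasFDerivWithinAt) hb (left_mem_segment ℝ a b) (right_mem_segment ℝ a b)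

/-- first order Taylor remainder on a segment -/
theorem rem_seg {W : Type*} [NormedAddCommGroup W] [NormedSpace ℝ W] {f : E → W} {f' : E → E →L[ℝ] W}
    {f'' : E → E →L[ℝ] E →L[ℝ] W} {a b : E} {B : ℝ} (hB : 0 ≤ B)
    (hd : ∀ q ∈ segment ℝ a b, HasFDerivAt f (f' q) q)
    (hd' : ∀ q ∈ segment ℝ a b, HasFDerivAt f' (f'' q) q)
    (hb : ∀ q ∈ segment ℝ a b, ‖f'' q‖ ≤ B) :
    ‖f b - f a - f' a (b - a)‖ ≤ B * ‖b - a‖ ^ 2 := by
  have h1 : ∀ q ∈ segment ℝ a b, ‖f' q - f' a‖ ≤ B * ‖b - a‖ := by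
    intro q hq
    have hs : segment ℝ a q ⊆ segment ℝ a b :=
      (convex_segment a b).segment_subset (left_mem_segment ℝ a b) hq
    have h2 := lip_seg (f := f') (f' := f'') (a := a) (b := q) (B := B)
      (fun r hr => hd' r (hs hr)) (fun r hr => hb r (hs hr))
    refine h2.trans (mul_le_mul_of_nonneg_left ?_ hB)
    obtain ⟨θ, hθ, rfl⟩ := (segment_eq_image' ℝ a b) ▸ hq
    rw [add_sub_cancel_left, norm_smul, Real.norm_eq_abs, abs_of_nonneg hθ.1]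
    exact mul_le_of_le_one_left (norm_nonneg _) hθ.2
  have h3 := (convex_segment a b).norm_image_sub_le_of_norm_hasFDerivWithin_le' (φ := f' a)
    (fun q hq => (hd q hq).hasFDerivWithinAt) h1 (left_mem_segment ℝ a b)
    (right_mem_segment ℝ a b)
  calc _ ≤ B * ‖b - a‖ * ‖b - a‖ := h3
    _ = _ := by ring

/-- the remainder -/
noncomputable def rem (Φ : E → V) (a b : E) : V := Φ b - Φ a - fderiv ℝ Φ a (b - a)

theorem rem_le {Φ : E → V} {B : ℝ} {a b : E} (hB : 0 ≤ B)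
    (h : ∀ q ∈ segment ℝ a b, C3B Φ B q) : ‖rem Φ a b‖ ≤ B * ‖b - a‖ ^ 2 :=
  rem_seg hB (fun q hq => (h q hq).d0) (fun q hq => (h q hq).d1) (fun q hq => (h q hq).n2)

theorem rem1_le {Φ : E → V} {B : ℝ} {a b : E} (hB : 0 ≤ B)
    (h : ∀ q ∈ segment ℝ a b, C3B Φ B q) :
    ‖fderiv ℝ Φ b - fderiv ℝ Φ a - fderiv ℝ (fderiv ℝ Φ) a (b - a)‖ ≤ B * ‖b - a‖ ^ 2 :=
  rem_seg hB (fun q hq => (h q hq).d1) (fun q hq => (h q hq).d2) (fun q hq => (h q hq).n3)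

theorem lip0 {Φ : E → V} {B : ℝ} {a b : E}
    (h : ∀ q ∈ segment ℝ a b, C3B Φ B q) : ‖Φ b - Φ a‖ ≤ B * ‖b - a‖ :=
  lip_seg (fun q hq => (h q hq).d0) (fun q hq => (h q hq).n1)

theorem lip1 {Φ : E → V} {B : ℝ} {a b : E}
    (h : ∀ q ∈ segment ℝ a b, C3B Φ B q) : ‖fderiv ℝ Φ b - fderiv ℝ Φ a‖ ≤ B * ‖b - a‖ :=
  lip_seg (fun q hq => (h q hq).d1) (fun q hq => (h q hq).n2)

theorem hasDerivAt_ray (q : E) (r : ℝ) : HasDerivAt (fun r : ℝ => r • q) q r := by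
  simpa using (hasDerivAt_id r).smul_const q

theorem norm_smul_le_of {r : ℝ} (h0 : 0 ≤ r) (h1 : r ≤ 1) (q : E) : ‖r • q‖ ≤ ‖q‖ := by
  rw [norm_smul, Real.norm_eq_abs, abs_of_nonneg h0]
  exact mul_le_of_le_one_left (norm_nonneg _) h1

/-- mean value inequality on `[r₀, 1]` -/
theorem mv_ray {f f' : ℝ → V} {r₀ C : ℝ} (h0 : r₀ ≤ 1)
    (hf : ∀ r ∈ Icc r₀ 1, HasDerivAt f (f' r) r) (hb : ∀ r ∈ Icc r₀ 1, ‖f' r‖ ≤ C) :
    ‖f 1 - f r₀‖ ≤ C * (1 - r₀) :=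
  norm_image_sub_le_of_norm_deriv_le_segment' (f' := f')
    (fun r hr => (hf r hr).hasDerivWithinAt) (fun r hr => hb r (Ico_subset_Icc_self hr)) 1
    (right_mem_Icc.2 h0)

variable {Φ : E → V} {B r₀ : ℝ} {a b : E}

theorem seg_mem {r : ℝ} (hS : ∀ r ∈ Icc r₀ 1, ∀ q ∈ segment ℝ a b, C3B Φ B (r • q))
    (hr : r ∈ Icc r₀ 1) : ∀ q ∈ segment ℝ (r • a) (r • b), C3B Φ B q := by
  intro q hq
  obtain ⟨s, t, hs, ht, hst, rfl⟩ := hq
  have e : s • r • a + t • r • b = r • (s • a + t • b) := by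
    rw [smul_add, smul_comm s, smul_comm t]
  rw [e]
  exact hS r hr _ ⟨s, t, hs, ht, hst, rfl⟩

/-- variation of the value under dilation -/
theorem scale_le (hB : 0 ≤ B) (h0 : 0 ≤ r₀) (h1 : r₀ ≤ 1)
    (hS : ∀ r ∈ Icc r₀ 1, C3B Φ B (r • a)) : ‖Φ a - Φ (r₀ • a)‖ ≤ B * ‖a‖ * (1 - r₀) := by
  have h := mv_ray (f := fun r => Φ (r • a)) (f' := fun r => fderiv ℝ Φ (r • a) a) (C := B * ‖a‖) h1
    (fun r hr => (hS r hr).d0.comp_hasDerivAt r (hasDerivAt_ray a r))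
    (fun r hr => (ContinuousLinearMap.le_opNorm _ _).trans
      (mul_le_mul_of_nonneg_right (hS r hr).n1 (norm_nonneg _)))
  simpa using h

/-- variation of a difference under dilation -/
theorem diff_scale_le (hB : 0 ≤ B) (h0 : 0 ≤ r₀) (h1 : r₀ ≤ 1)
    (hS : ∀ r ∈ Icc r₀ 1, ∀ q ∈ segment ℝ a b, C3B Φ B (r • q)) :
    ‖(Φ b - Φ a) - (Φ (r₀ • b) - Φ (r₀ • a))‖ ≤ B * (‖b‖ + 1) * ‖b - a‖ * (1 - r₀) := by
  have ha := left_mem_segment ℝ a b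
  have hb := right_mem_segment ℝ a b
  have h := mv_ray (f := fun r => Φ (r • b) - Φ (r • a))
    (f' := fun r => fderiv ℝ Φ (r • b) b - fderiv ℝ Φ (r • a) a)
    (C := B * (‖b‖ + 1) * ‖b - a‖) h1
    (fun r hr => ((hS r hr b hb).d0.comp_hasDerivAt r (hasDerivAt_ray b r)).sub
      ((hS r hr a ha).d0.comp_hasDerivAt r (hasDerivAt_ray a r)))
    (fun r hr => by
      have e : fderiv ℝ Φ (r • b) b - fderiv ℝ Φ (r • a) a =
          (fderiv ℝ Φ (r • b) - fderiv ℝ Φ (r • a)) b + fderiv ℝ Φ (r • a) (b - a) := by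
        simp only [sub_apply, map_sub]; abel
      have hr0 : 0 ≤ r := h0.trans hr.1
      have e1 := lip1 (seg_mem hS hr)
      have e2 : ‖r • b - r • a‖ ≤ ‖b - a‖ := by
        rw [← smul_sub]; exact norm_smul_le_of hr0 hr.2 _
      have e3 : ‖(fderiv ℝ Φ (r • b) - fderiv ℝ Φ (r • a)) b‖ ≤ B * ‖b - a‖ * ‖b‖ :=
        (ContinuousLinearMap.le_opNorm _ _).trans (mul_le_mul_of_nonneg_right
          (e1.trans (mul_le_mul_of_nonneg_left e2 hB)) (norm_nonneg _))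
      have e4 : ‖fderiv ℝ Φ (r • a) (b - a)‖ ≤ B * ‖b - a‖ :=
        (ContinuousLinearMap.le_opNorm _ _).trans
          (mul_le_mul_of_nonneg_right (hS r hr a ha).n1 (norm_nonneg _))
      rw [e]
      calc _ ≤ _ := norm_add_le _ _
        _ ≤ B * ‖b - a‖ * ‖b‖ + B * ‖b - a‖ := add_le_add e3 e4
        _ = _ := by ring)
  simpa using h

/-- variation of the remainder under dilation -/
theorem rem_scale_le (hB : 0 ≤ B) (h0 : 0 ≤ r₀) (h1 : r₀ ≤ 1)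
    (hS : ∀ r ∈ Icc r₀ 1, ∀ q ∈ segment ℝ a b, C3B Φ B (r • q)) :
    ‖rem Φ a b - rem Φ (r₀ • a) (r₀ • b)‖ ≤ B * (‖b‖ + 1) * ‖b - a‖ ^ 2 * (1 - r₀) := by
  have ha := left_mem_segment ℝ a b
  have hb := right_mem_segment ℝ a b
  have h := mv_ray (f := fun r => Φ (r • b) - Φ (r • a) - fderiv ℝ Φ (r • a) (r • (b - a)))
    (f' := fun r => fderiv ℝ Φ (r • b) b - fderiv ℝ Φ (r • a) a -
      (fderiv ℝ (fderiv ℝ Φ) (r • a) a (r • (b - a)) + fderiv ℝ Φ (r • a) (b - a)))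
    (C := B * (‖b‖ + 1) * ‖b - a‖ ^ 2) h1
    (fun r hr => by
      have d1 := (hS r hr b hb).d0.comp_hasDerivAt r (hasDerivAt_ray b r)
      have d2 := (hS r hr a ha).d0.comp_hasDerivAt r (hasDerivAt_ray a r)
      have d3 := (hS r hr a ha).d1.comp_hasDerivAt r (hasDerivAt_ray a r)
      exact (d1.sub d2).sub (d3.clm_apply (hasDerivAt_ray (b - a) r)))
    (fun r hr => by
      have hr0 : 0 ≤ r := h0.trans hr.1
      have e : fderiv ℝ Φ (r • b) b - fderiv ℝ Φ (r • a) a -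
          (fderiv ℝ (fderiv ℝ Φ) (r • a) a (r • (b - a)) + fderiv ℝ Φ (r • a) (b - a)) =
          (fderiv ℝ Φ (r • b) - fderiv ℝ Φ (r • a) -
            fderiv ℝ (fderiv ℝ Φ) (r • a) (r • b - r • a)) b +
          fderiv ℝ (fderiv ℝ Φ) (r • a) (r • (b - a)) (b - a) := by
        rw [(hS r hr a ha).symm a (r • (b - a)), ← smul_sub]
        simp only [sub_apply, map_sub, map_smul, smul_apply]
        abel
      have e1 := rem1_le hB (seg_mem hS hr)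
      have e2 : ‖r • b - r • a‖ ≤ ‖b - a‖ := by
        rw [← smul_sub]; exact norm_smul_le_of hr0 hr.2 _
      have e2' : ‖r • b - r • a‖ ^ 2 ≤ ‖b - a‖ ^ 2 := pow_le_pow_left₀ (norm_nonneg _) e2 2
      have e3 : ‖(fderiv ℝ Φ (r • b) - fderiv ℝ Φ (r • a) -
            fderiv ℝ (fderiv ℝ Φ) (r • a) (r • b - r • a)) b‖ ≤ B * ‖b - a‖ ^ 2 * ‖b‖ :=
        (ContinuousLinearMap.le_opNorm _ _).trans (mul_le_mul_of_nonneg_right
          (e1.trans (mul_le_mul_of_nonneg_left e2' hB)) (norm_nonneg _))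
      have e4 : ‖fderiv ℝ (fderiv ℝ Φ) (r • a) (r • (b - a)) (b - a)‖ ≤ B * ‖b - a‖ ^ 2 := by
        refine (ContinuousLinearMap.le_opNorm₂ _ _ _).trans ?_
        have e5 : ‖r • (b - a)‖ ≤ ‖b - a‖ := norm_smul_le_of hr0 hr.2 _
        calc _ ≤ B * ‖b - a‖ * ‖b - a‖ := by
              gcongr
              exact (hS r hr a ha).n2
          _ = _ := by ring
      rw [e]
      calc _ ≤ _ := norm_add_le _ _
        _ ≤ B * ‖b - a‖ ^ 2 * ‖b‖ + B * ‖b - a‖ ^ 2 := add_le_add e3 e4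
        _ = _ := by ring)
  have e : rem Φ a b - rem Φ (r₀ • a) (r₀ • b) =
      (Φ ((1 : ℝ) • b) - Φ ((1 : ℝ) • a) - fderiv ℝ Φ ((1 : ℝ) • a) ((1 : ℝ) • (b - a))) -
      (Φ (r₀ • b) - Φ (r₀ • a) - fderiv ℝ Φ (r₀ • a) (r₀ • (b - a))) := by
    unfold rem
    simp only [one_smul, smul_sub]
  rw [e]
  exact h

end Crest.Agent.R226.T1i115
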