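/-
R226 / leaf L1 = (T1)(i) (helper115): the static inequality `T1iStat` from `RadP` and MTW.
-/
import Crest.Agent.R226.T1iDef_115
import Crest.Agent.R226.T1iRem_115
import Crest.Agent.R226.T1iAlg_115
import Crest.Agent.R226.NF6_946

set_option autoImplicit false
set_option maxSynthPendingDepth 3

open MeasureTheory Bundle Set Filter
open scoped Manifold ContDiff Bundle ENNReal Topology
open Crest.GeometryTopology.MTW
open Crest.Agent.R226.Calc347 Crest.Agent.R226.MTWConc117 Crest.Agent.R226.Base347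
open Crest.Agent.R226.Crit347 Crest.Agent.R226.Focal347 Crest.Agent.R226.NF946

namespace Crest.Agent.R226.T1i115

variable {n : ℕ} {M : Type*} [MetricSpace M] [ChartedSpace (EuclideanSpace ℝ (Fin n)) M]
  [IsManifold (𝓡 n) ∞ M]
  [RiemannianBundle (fun p : M => TangentSpace (𝓡 n) p)]
  [IsContMDiffRiemannianBundle (𝓡 n) ∞ (EuclideanSpace ℝ (Fin n))
    (fun p : M => TangentSpace (𝓡 n) p)] [CompactSpace M]
  {G : GeoData n M}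

local notation "⟪" x ", " y "⟫" => inner ℝ x y

/-- the first normal form (regular part): `Pf q (ξ, ξ) = φ_ξ(q)` near `K/2` -/
noncomputable def Pf (G : GeoData n M) (y : M) (q : TangentSpace (𝓡 n) y) :
    TangentSpace (𝓡 n) y →L[ℝ] TangentSpace (𝓡 n) y →L[ℝ] ℝ := PfA (F G y) q

theorem exists_C3B_Hf (hB : Base G) : ∃ B : ℝ, 0 ≤ B ∧ ∀ y : M, ∀ q ∈ G.K y, C3B (Hf G y) B q := by
  obtain ⟨δ, B, hδ, hB0, h⟩ := unif_Hf hB 3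
  refine ⟨B, hB0, fun y q hq => ?_⟩
  have h1 := h y q q hq (by simpa using hδ)
  exact ⟨by exact_mod_cast h1.1, h1.2⟩

theorem exists_C3B_Pf (hB : Base G) : ∃ B : ℝ, 0 ≤ B ∧ ∀ y : M, ∀ q ∈ G.K y,
    C3B (Pf G y) B ((1 / 2 : ℝ) • q) := by
  obtain ⟨δ, B, hδ, hB0, h⟩ := unif_F0 hB (θ := 1 / 2) (by norm_num) (by norm_num) (3 + 2)
  refine ⟨B, hB0, fun y q hq => ?_⟩
  obtain ⟨h1, h2⟩ := h y q 0 ((1 / 2 : ℝ) • q) hq (by simpa using hδ) (by simpa using hδ)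
  have h3 := PfA_bound (F := F G y) (q := (1 / 2 : ℝ) • q) (k := 3) h1 h2
  exact ⟨by exact_mod_cast h3.1, h3.2⟩

theorem phi_half (hB : Base G) {y : M} {q : TangentSpace (𝓡 n) y} (hq : q ∈ G.K y)
    (ξ : TangentSpace (𝓡 n) y) : G.phi y ξ ((1 / 2 : ℝ) • q) = Pf G y ((1 / 2 : ℝ) • q) ξ ξ :=
  phi_eq_PfA ((hB.contDiffAt_F_zero (hB.smul_mem_I hq (by norm_num) (by norm_num))).of_le
    two_le_infty) ξ

theorem Pf_symm (hB : Base G) {y : M} {q : TangentSpace (𝓡 n) y} (hq : q ∈ G.I y)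
    (u v : TangentSpace (𝓡 n) y) : Pf G y q u v = Pf G y q v u := by
  have h := (hB.contDiffAt_F_zero hq).of_le two_le_infty
  unfold Pf
  rw [PfA_apply h, PfA_apply h, hess_symm h]

theorem fderiv_form {V : Type*} [NormedAddCommGroup V] [NormedSpace ℝ V]
    {Φ : V → V →L[ℝ] V →L[ℝ] ℝ} {p : V} (h : DifferentiableAt ℝ Φ p) (θ u v : V) :
    fderiv ℝ (fun q => Φ q u v) p θ = fderiv ℝ Φ p θ u v := by
  have h1 : DifferentiableAt ℝ (fun q => Φ q u) p := h.clm_apply (differentiableAt_const u)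
  rw [fderiv_apply_gen h1, fderiv_apply_gen h]

theorem DHf_eq_form (hB : Base G) {y : M} {q : TangentSpace (𝓡 n) y} (hq : q ∈ G.K y)
    (θ u v : TangentSpace (𝓡 n) y) : DHf G y q θ u v = fderiv ℝ (Hf G y) q θ u v := by
  have h : ContDiffAt ℝ ∞ (Hf G y) q := contDiffAt_Hf hB hq
  exact fderiv_form (h.differentiableAt (by simp)) θ u v

theorem dPf_symm (hB : Base G) {y : M} {q : TangentSpace (𝓡 n) y} (hq : q ∈ G.I y)
    (hd : DifferentiableAt ℝ (Pf G y) q) (θ u v : TangentSpace (𝓡 n) y) :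
    fderiv ℝ (Pf G y) q θ u v = fderiv ℝ (Pf G y) q θ v u := by
  rw [← fderiv_form hd, ← fderiv_form hd]
  have h : (fun q => Pf G y q u v) =ᶠ[𝓝 q] fun q => Pf G y q v u := by
    filter_upwards [(hB.isOpen_I y).mem_nhds hq] with q' hq'
    exact Pf_symm hB hq' u v
  rw [h.fderiv_eq]

theorem line_mem (hB : Base G) {y : M} {q : TangentSpace (𝓡 n) y} (hq : q ∈ G.I y)
    (D : TangentSpace (𝓡 n) y) : ∀ᶠ s : ℝ in 𝓝 0, q + s • D ∈ G.I y := by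
  have hc : ContinuousAt (fun s : ℝ => q + s • D) 0 := by fun_prop
  have : G.I y ∈ 𝓝 (q + (0 : ℝ) • D) := by
    rw [zero_smul, add_zero]; exact (hB.isOpen_I y).mem_nhds hq
  exact hc this

/-- the derivative of `φ_ξ` in the direction `D`, in normal form -/
theorem deriv_phi (hB : Base G) {y : M} {q₀ : TangentSpace (𝓡 n) y} (hq₀ : q₀ ∈ G.I y)
    {ξ ζ : TangentSpace (𝓡 n) y} (hζ : ∀ θ, Hf G y q₀ ζ θ = ⟪ξ, θ⟫) (D : TangentSpace (𝓡 n) y)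
    (hP : DifferentiableAt ℝ (Pf G y) ((1 / 2 : ℝ) • q₀)) {a : ℝ}
    (ha : HasDerivAt (fun s : ℝ => G.phi y ξ (q₀ + s • D)) a 0) :
    a = 2 * fderiv ℝ (Pf G y) ((1 / 2 : ℝ) • q₀) ((1 / 2 : ℝ) • D) ξ ξ +
      fderiv ℝ (Hf G y) q₀ D ζ ζ := by
  have hK := hB.I_subset y hq₀
  have hHd : DifferentiableAt ℝ (Hf G y) q₀ :=
    ContDiffAt.differentiableAt (n := ∞) (contDiffAt_Hf hB hK) (by simp)
  have hmem := line_mem hB hq₀ D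
  -- regular part
  have h1 : HasDerivAt (fun s : ℝ => Pf G y ((1 / 2 : ℝ) • q₀ + s • ((1 / 2 : ℝ) • D)) ξ ξ)
      (fderiv ℝ (Pf G y) ((1 / 2 : ℝ) • q₀) ((1 / 2 : ℝ) • D) ξ ξ) 0 :=
    hasDerivAt_apply_gen (hasDerivAt_apply_gen (hasDerivAt_line_gen hP ((1 / 2 : ℝ) • D)) ξ) ξ
  have h2 : HasDerivAt (fun s : ℝ => G.phi y ξ ((1 / 2 : ℝ) • (q₀ + s • D)))
      (fderiv ℝ (Pf G y) ((1 / 2 : ℝ) • q₀) ((1 / 2 : ℝ) • D) ξ ξ) 0 := by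
    refine h1.congr_of_eventuallyEq ?_
    filter_upwards [hmem] with s hs
    rw [phi_half hB (hB.I_subset y hs), smul_add, smul_comm]
  have h3 : HasDerivAt (fun s : ℝ => Hf G y (q₀ + s • D) ζ ζ) (fderiv ℝ (Hf G y) q₀ D ζ ζ) 0 :=
    hasDerivAt_apply_gen (hasDerivAt_apply_gen (hasDerivAt_line_gen hHd D) ζ) ζ
  have h4 : HasDerivAt (fun s : ℝ => Rf G y ξ (q₀ + s • D) -
      (2 * ⟪ζ, ξ⟫ - Hf G y (q₀ + s • D) ζ ζ))
      ((2 * fderiv ℝ (Pf G y) ((1 / 2 : ℝ) • q₀) ((1 / 2 : ℝ) • D) ξ ξ - a) -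
        (0 - fderiv ℝ (Hf G y) q₀ D ζ ζ)) 0 :=
    ((h2.const_mul 2).sub ha).sub ((hasDerivAt_const (0 : ℝ) (2 * ⟪ζ, ξ⟫)).sub h3)
  have hmin : IsLocalMin (fun s : ℝ => Rf G y ξ (q₀ + s • D) -
      (2 * ⟪ζ, ξ⟫ - Hf G y (q₀ + s • D) ζ ζ)) 0 := by
    have h0 : Rf G y ξ (q₀ + (0 : ℝ) • D) - (2 * ⟪ζ, ξ⟫ - Hf G y (q₀ + (0 : ℝ) • D) ζ ζ) = 0 := by
      rw [zero_smul, add_zero, Rf_eq hB hq₀ hζ, hζ, real_inner_comm]; ring
    filter_upwards [hmem] with s hs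
    rw [h0]
    have := le_Rf hB hs ξ ζ
    linarith
  have h5 := hmin.hasDerivAt_eq_zero h4
  linarith

/-- **normal form of `T`** -/
theorem T_formula (hB : Base G) {y : M} {q₀ q₁ : TangentSpace (𝓡 n) y} (hq₀ : q₀ ∈ G.I y)
    (hq₁ : q₁ ∈ G.I y)
    {ξ ζ : TangentSpace (𝓡 n) y} (hζ : ∀ θ, Hf G y q₀ ζ θ = ⟪ξ, θ⟫)
    (hP : DifferentiableAt ℝ (Pf G y) ((1 / 2 : ℝ) • q₀)) {a : ℝ}
    (ha : HasDerivAt (fun s : ℝ => G.phi y ξ (q₀ + s • (q₁ - q₀))) a 0) :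
    G.phi y ξ q₀ - G.phi y ξ q₁ + a =
      -(((2 : ℝ) • rem (Pf G y) ((1 / 2 : ℝ) • q₀) ((1 / 2 : ℝ) • q₁)) ξ ξ) + Rf G y ξ q₁ -
        Hf G y q₀ ζ ζ + fderiv ℝ (Hf G y) q₀ (q₁ - q₀) ζ ζ := by
  have h1 := deriv_phi hB hq₀ hζ (q₁ - q₀) hP ha
  have h2 := phi_eq hB hq₀ hζ
  have h3 : G.phi y ξ q₁ = 2 * G.phi y ξ ((1 / 2 : ℝ) • q₁) - Rf G y ξ q₁ := by
    unfold Rf; ring
  rw [phi_half hB (hB.I_subset y hq₀)] at h2
  rw [phi_half hB (hB.I_subset y hq₁)] at h3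
  rw [h1, h2, h3]
  unfold rem
  simp only [smul_apply, sub_apply, smul_eq_mul]
  rw [smul_sub]
  ring

/-- MTW: `T ≥ 0` if `⟪D, ξ⟫ = 0` -/
theorem T_nonneg (hM : MTWFacts G) {y : M} {q₀ q₁ : TangentSpace (𝓡 n) y}
    (hseg : segment ℝ q₀ q₁ ⊆ G.I y) {ξ : TangentSpace (𝓡 n) y} (h0 : ⟪q₁ - q₀, ξ⟫ = 0) {a : ℝ}
    (ha : HasDerivAt (fun s : ℝ => G.phi y ξ (q₀ + s • (q₁ - q₀))) a 0) :
    0 ≤ G.phi y ξ q₀ - G.phi y ξ q₁ + a := by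
  have h1 := ha.tendsto_slope_zero_right
  simp only [zero_add, zero_smul, add_zero, smul_eq_mul] at h1
  have h2 : G.phi y ξ q₁ - G.phi y ξ q₀ ≤ a := by
    apply ge_of_tendsto h1
    have : ∀ᶠ t : ℝ in 𝓝[>] 0, t < 1 := by
      apply mem_nhdsWithin_of_mem_nhds
      exact Iio_mem_nhds zero_lt_one
    filter_upwards [this, self_mem_nhdsWithin] with t ht ht0
    have ht0' : 0 < t := ht0
    have h3 := hM.concave y q₀ q₁ ξ hseg h0 t ht0'.le ht.le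
    have e : (1 - t) • q₀ + t • q₁ = q₀ + t • (q₁ - q₀) := by module
    rw [e] at h3
    rw [le_inv_mul_iff₀ ht0']
    linarith
  linarith

/-- existence of the derivative of `φ_ξ` on lines of `I` -/
theorem exists_deriv_phi (hB : Base G) {y : M} {q₀ : TangentSpace (𝓡 n) y} (hq₀ : q₀ ∈ G.I y)
    (ξ D : TangentSpace (𝓡 n) y) :
    ∃ a : ℝ, HasDerivAt (fun s : ℝ => G.phi y ξ (q₀ + s • D)) a 0 := by
  have h1 := contDiffAt_phi_slice (G := G) y q₀ ξ D 0 (by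
    rw [zero_smul, add_zero]; exact hB.smooth_cost y q₀ hq₀)
  exact ⟨_, (h1.differentiableAt (by norm_num)).hasDerivAt⟩

/-- the trivial lower bound `T ≥ -C L² Λ²` -/
theorem T_ge_trivial (hB : Base G) {y : M} {q₀ q₁ : TangentSpace (𝓡 n) y} (hq₀ : q₀ ∈ G.I y)
    (hq₁ : q₁ ∈ G.I y)
    {ξ ζ : TangentSpace (𝓡 n) y} (hζ : ∀ θ, Hf G y q₀ ζ θ = ⟪ξ, θ⟫)
    (hP : DifferentiableAt ℝ (Pf G y) ((1 / 2 : ℝ) • q₀)) {a : ℝ}
    (ha : HasDerivAt (fun s : ℝ => G.phi y ξ (q₀ + s • (q₁ - q₀))) a 0) :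
    -(((2 : ℝ) • rem (Pf G y) ((1 / 2 : ℝ) • q₀) ((1 / 2 : ℝ) • q₁)) ξ ξ) -
      rem (Hf G y) q₀ q₁ ζ ζ ≤ G.phi y ξ q₀ - G.phi y ξ q₁ + a := by
  rw [T_formula hB hq₀ hq₁ hζ hP ha]
  have h1 := le_Rf hB hq₁ ξ ζ
  have h2 : ⟪ζ, ξ⟫ = Hf G y q₀ ζ ζ := by rw [hζ, real_inner_comm]
  have h3 : rem (Hf G y) q₀ q₁ ζ ζ =
      Hf G y q₁ ζ ζ - Hf G y q₀ ζ ζ - fderiv ℝ (Hf G y) q₀ (q₁ - q₀) ζ ζ := rfl
  rw [h3]
  linarith

end Crest.Agent.R226.T1i115
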