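/-
R226 / leaf L1 = (T1)(i) (helper115): the static inequality `T1iStat` from `RadP` and MTW.
-/
import Crest.Agent.R226.T1iStat_115

set_option autoImplicit false
set_option maxSynthPendingDepth 3

open MeasureTheory Bundle Set Filter
open scoped Manifold ContDiff Bundle ENNReal Topology
open Crest.GeometryTopology.MTW
open Crest.Agent.R226.Calc347 Crest.Agent.R226.MTWConc117 Crest.Agent.R226.Base347
open Crest.Agent.R226.Crit347 Crest.Agent.R226.Focal347 Crest.Agent.R226.NF946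

namespace Crest.Agent.R226.T1i115

variable {n : ℕ} {M : Type*} [MetricSpace M] [ChartedSpace (EuclideanSpace ℝ (Fin n)) M]
  [IsManifold (𝓡 n) ∞ M]
  [RiemannianBundle (fun p : M => TangentSpace (𝓡 n) p)]
  [IsContMDiffRiemannianBundle (𝓡 n) ∞ (EuclideanSpace ℝ (Fin n))
    (fun p : M => TangentSpace (𝓡 n) p)] [CompactSpace M]
  {G : GeoData n M}

local notation "⟪" x ", " y "⟫" => inner ℝ x y

omit [IsContMDiffRiemannianBundle (𝓡 n) ∞ (EuclideanSpace ℝ (Fin n))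
    (fun p : M => TangentSpace (𝓡 n) p)] in
theorem exists_norm_bound (G : GeoData n M) : ∃ Dm : ℝ, 0 ≤ Dm ∧ ∀ y : M, ∀ q ∈ G.K y, ‖q‖ ≤ Dm := by
  refine ⟨Metric.diam (univ : Set M), Metric.diam_nonneg, fun y q hq => ?_⟩
  rw [← show dist y (G.ex y q) = ‖q‖ from hq]
  exact Metric.dist_le_diam_of_mem isCompact_univ.isBounded (mem_univ _) (mem_univ _)

/-- the radial increment of `Hf` from `RadP` -/
theorem radial (hB : Base G) {c0 C0 : ℝ} (hc0 : 0 < c0) (hC0 : 0 ≤ C0)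
    (hR : RadP G c0 C0) {B1 Dm : ℝ} (hB1 : 0 ≤ B1) (hDm : 0 ≤ Dm)
    (h1 : ∀ y : M, ∀ q ∈ G.K y, C3B (Hf G y) B1 q)
    (h2 : ∀ y : M, ∀ q ∈ G.K y, ‖q‖ ≤ Dm) {y : M} {q : TangentSpace (𝓡 n) y} (hq : q ∈ G.K y)
    (v : TangentSpace (𝓡 n) y) {ρ r : ℝ} (hρ : 0 < ρ) (hρ2 : ρ ≤ 1 / 2) (hr : r = 1 - ρ)
    (hρ3 : C0 * B1 * Dm * ρ ≤ c0 / 2) (hρ4 : 2 * C0 * ρ ≤ 1) :
    ρ * (c0 / 4 * ‖v‖ ^ 2 - 2 * C0 * Hf G y (r • q) v v) ≤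
        Hf G y (r • q) v v - Hf G y q v v ∧
      c0 / 4 * ρ * ‖v‖ ^ 2 ≤ Hf G y (r • q) v v := by
  have hr1 : r < 1 := by linarith
  have hr0 : 1 / 2 ≤ r := by linarith
  have hmem : ∀ s ∈ Icc r 1, s • q ∈ G.K y := fun s hs =>
    hB.star y q hq s (by linarith [hs.1]) hs.2
  have hd : ∀ s ∈ Icc r 1, HasDerivAt (fun s : ℝ => Hf G y (s • q) v v)
      (fderiv ℝ (Hf G y) (s • q) q v v) s := by
    intro s hs
    have e0 : HasFDerivAt (Hf G y) (fderiv ℝ (Hf G y) (s • q)) (s • q) := (h1 y _ (hmem s hs)).d0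
    have e1 : HasDerivAt (fun s : ℝ => Hf G y (s • q)) (fderiv ℝ (Hf G y) (s • q) q) s :=
      HasFDerivAt.comp_hasDerivAt (f := fun s : ℝ => s • q) s e0 (hasDerivAt_ray q s)
    exact hasDerivAt_apply_gen (hasDerivAt_apply_gen e1 v) v
  have hbd : ∀ s ∈ Icc r 1, ‖fderiv ℝ (Hf G y) (s • q) q v v‖ ≤ B1 * Dm * ‖v‖ ^ 2 := by
    intro s hs
    have e1 : ‖fderiv ℝ (Hf G y) (s • q) q‖ ≤ B1 * Dm := by
      refine (ContinuousLinearMap.le_opNorm _ _).trans ?_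
      exact mul_le_mul (h1 y _ (hmem s hs)).n1 (h2 y q hq) (norm_nonneg _) hB1
    have e2 := form_le e1 v v
    rw [Real.norm_eq_abs]
    refine e2.trans (le_of_eq ?_)
    ring
  have hg0 : 0 ≤ Hf G y (r • q) v v := Hf_nonneg hB (hmem r ⟨le_rfl, hr1.le⟩) v
  have hg1 : 0 ≤ Hf G y q v v := Hf_nonneg hB hq v
  have hlip : ∀ s ∈ Icc r 1, Hf G y (s • q) v v ≤ Hf G y (r • q) v v + B1 * Dm * ρ * ‖v‖ ^ 2 := by
    intro s hs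
    have e1 := norm_image_sub_le_of_norm_deriv_le_segment' (f := fun s : ℝ => Hf G y (s • q) v v)
      (f' := fun s : ℝ => fderiv ℝ (Hf G y) (s • q) q v v) (C := B1 * Dm * ‖v‖ ^ 2)
      (fun s hs => (hd s hs).hasDerivWithinAt) (fun s hs => hbd s (Ico_subset_Icc_self hs)) s hs
    rw [Real.norm_eq_abs] at e1
    have e2 := (abs_le.1 e1).2
    have e3 : B1 * Dm * ‖v‖ ^ 2 * (s - r) ≤ B1 * Dm * ‖v‖ ^ 2 * ρ :=
      mul_le_mul_of_nonneg_left (by linarith [hs.2]) (by positivity)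
    have e4 : Hf G y (s • q) v v - Hf G y (r • q) v v ≤ B1 * Dm * ‖v‖ ^ 2 * (s - r) := e2
    linarith
  obtain ⟨s, hs, hslope⟩ := exists_hasDerivAt_eq_slope (fun s : ℝ => Hf G y (s • q) v v)
    (fun s : ℝ => fderiv ℝ (Hf G y) (s • q) q v v) hr1
    (fun s hs => (hd s hs).continuousAt.continuousWithinAt)
    (fun s hs => hd s (Ioo_subset_Icc_self hs))
  have hs' : s ∈ Icc r 1 := Ioo_subset_Icc_self hs
  have hs0 : 0 < s := by linarith [hs.1]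
  -- `g'(s) ≤ -(c0/2)‖v‖² + 2 C0 g(r)`
  have hder : fderiv ℝ (Hf G y) (s • q) q v v ≤
      -(c0 / 2 * ‖v‖ ^ 2) + 2 * C0 * Hf G y (r • q) v v := by
    have e1 := hR y (s • q) (hmem s hs') v
    rw [DHf_eq_form hB (hmem s hs'), map_smul, smul_apply, smul_apply, smul_eq_mul] at e1
    have e2 := mul_le_mul_of_nonneg_left (hlip s hs') hC0
    have e3 : C0 * B1 * Dm * ρ * ‖v‖ ^ 2 ≤ c0 / 2 * ‖v‖ ^ 2 :=
      mul_le_mul_of_nonneg_right hρ3 (by positivity)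
    have e4 : s * fderiv ℝ (Hf G y) (s • q) q v v ≤
        -(c0 / 2 * ‖v‖ ^ 2) + C0 * Hf G y (r • q) v v := by
      have e5 : C0 * (Hf G y (r • q) v v + B1 * Dm * ρ * ‖v‖ ^ 2) =
        C0 * Hf G y (r • q) v v + C0 * B1 * Dm * ρ * ‖v‖ ^ 2 := by ring
      linarith
    by_contra hcon
    push Not at hcon
    have e6 := mul_lt_mul_of_pos_left hcon hs0
    have e7 : s * (c0 / 2 * ‖v‖ ^ 2) ≤ 1 * (c0 / 2 * ‖v‖ ^ 2) :=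
      mul_le_mul_of_nonneg_right hs'.2 (by positivity)
    have e8 : 1 * (C0 * Hf G y (r • q) v v) ≤ (2 * s) * (C0 * Hf G y (r • q) v v) :=
      mul_le_mul_of_nonneg_right (by linarith [hs'.1]) (by positivity)
    nlinarith
  rw [hslope] at hder
  have hρr : 1 - r = ρ := by linarith
  rw [hρr, div_le_iff₀ hρ, one_smul] at hder
  have hfirst : ρ * (c0 / 2 * ‖v‖ ^ 2 - 2 * C0 * Hf G y (r • q) v v) ≤
        Hf G y (r • q) v v - Hf G y q v v := by linarith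
  constructor
  · have e1 : ρ * (c0 / 4 * ‖v‖ ^ 2) ≤ ρ * (c0 / 2 * ‖v‖ ^ 2) := by
      apply mul_le_mul_of_nonneg_left _ hρ.le
      have : 0 ≤ c0 * ‖v‖ ^ 2 := by positivity
      linarith
    linarith
  · have e1 : 2 * C0 * ρ * Hf G y (r • q) v v ≤ 1 * Hf G y (r • q) v v :=
      mul_le_mul_of_nonneg_right hρ4 hg0
    linarith


/-- the trivial case `|κ| ≥ ρ₀ L Λ` -/
theorem stat_triv (hB : Base G) {B : ℝ} (hB1 : 1 ≤ B) {y : M} {q₀ q₁ : TangentSpace (𝓡 n) y}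
    (hq₀ : q₀ ∈ G.I y) (hq₁ : q₁ ∈ G.I y)
    {ξ ζ : TangentSpace (𝓡 n) y} (hζ : ∀ θ, Hf G y q₀ ζ θ = ⟪ξ, θ⟫)
    (hP : DifferentiableAt ℝ (Pf G y) ((1 / 2 : ℝ) • q₀)) {a : ℝ}
    (ha : HasDerivAt (fun s : ℝ => G.phi y ξ (q₀ + s • (q₁ - q₀))) a 0)
    (bH0 : ‖Hf G y q₀‖ ≤ B)
    (bP : ‖(2 : ℝ) • rem (Pf G y) ((1 / 2 : ℝ) • q₀) ((1 / 2 : ℝ) • q₁)‖ ≤ B * ‖q₁ - q₀‖ ^ 2)
    (be : ‖rem (Hf G y) q₀ q₁‖ ≤ B * ‖q₁ - q₀‖ ^ 2) :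
    -((B ^ 3 + B) * ‖q₁ - q₀‖ ^ 2 * ‖ζ‖ ^ 2) ≤ G.phi y ξ q₀ - G.phi y ξ q₁ + a := by
  have h1 := T_ge_trivial hB hq₀ hq₁ hζ hP ha
  have nξ : ‖ξ‖ ≤ B * ‖ζ‖ := by
    have e1 : ‖ξ‖ ^ 2 ≤ B * ‖ζ‖ * ‖ξ‖ := by
      rw [← real_inner_self_eq_norm_sq, ← hζ]
      exact (le_abs_self _).trans (form_le bH0 ζ ξ)
    by_contra h
    push Not at h
    have h0 : 0 < ‖ξ‖ := lt_of_le_of_lt (by positivity) h
    nlinarith
  have e2 := (abs_le.1 (form_le bP ξ ξ)).2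
  have e3 := (abs_le.1 (form_le be ζ ζ)).2
  have e5 : B * ‖q₁ - q₀‖ ^ 2 * ‖ξ‖ * ‖ξ‖ ≤ B * ‖q₁ - q₀‖ ^ 2 * (B * ‖ζ‖) * (B * ‖ζ‖) := by gcongr
  have e6 : B * ‖q₁ - q₀‖ ^ 2 * (B * ‖ζ‖) * (B * ‖ζ‖) + B * ‖q₁ - q₀‖ ^ 2 * ‖ζ‖ * ‖ζ‖ =
    (B ^ 3 + B) * ‖q₁ - q₀‖ ^ 2 * ‖ζ‖ ^ 2 := by ring
  linarith

/-- the constants -/
structure Consts (G : GeoData n M) (B c ρ₀ : ℝ) : Prop where
  hB1 : 1 ≤ B
  hc : 0 < c
  hρ₀ : 0 < ρ₀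
  hρB : ρ₀ * B ≤ 1
  hρ2 : ρ₀ ≤ 1 / 2
  norm : ∀ y : M, ∀ q ∈ G.K y, ‖q‖ ≤ B
  nH : ∀ y : M, ∀ q ∈ G.K y, ‖Hf G y q‖ ≤ B
  dP : ∀ y : M, ∀ q ∈ G.K y, DifferentiableAt ℝ (Pf G y) ((1 / 2 : ℝ) • q)
  rP : ∀ y : M, ∀ q₀ q₁ : TangentSpace (𝓡 n) y, segment ℝ q₀ q₁ ⊆ G.K y →
    ‖(2 : ℝ) • rem (Pf G y) ((1 / 2 : ℝ) • q₀) ((1 / 2 : ℝ) • q₁)‖ ≤ B * ‖q₁ - q₀‖ ^ 2
  rH : ∀ y : M, ∀ q₀ q₁ : TangentSpace (𝓡 n) y, segment ℝ q₀ q₁ ⊆ G.K y →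
    ‖rem (Hf G y) q₀ q₁‖ ≤ B * ‖q₁ - q₀‖ ^ 2
  sP : ∀ y : M, ∀ q₀ q₁ : TangentSpace (𝓡 n) y, segment ℝ q₀ q₁ ⊆ G.K y →
    ∀ r : ℝ, 0 ≤ r → r ≤ 1 →
    ‖(2 : ℝ) • rem (Pf G y) ((1 / 2 : ℝ) • q₀) ((1 / 2 : ℝ) • q₁) -
      (2 : ℝ) • rem (Pf G y) ((1 / 2 : ℝ) • (r • q₀)) ((1 / 2 : ℝ) • (r • q₁))‖ ≤
      B * (1 - r) * ‖q₁ - q₀‖ ^ 2
  sH : ∀ y : M, ∀ q₀ q₁ : TangentSpace (𝓡 n) y, segment ℝ q₀ q₁ ⊆ G.K y →
    ∀ r : ℝ, 0 ≤ r → r ≤ 1 →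
    ‖rem (Hf G y) q₀ q₁ - rem (Hf G y) (r • q₀) (r • q₁)‖ ≤ B * (1 - r) * ‖q₁ - q₀‖ ^ 2
  sD : ∀ y : M, ∀ q₀ q₁ : TangentSpace (𝓡 n) y, segment ℝ q₀ q₁ ⊆ G.K y →
    ∀ r : ℝ, 0 ≤ r → r ≤ 1 →
    ‖(Hf G y q₁ - Hf G y q₀) - (Hf G y (r • q₁) - Hf G y (r • q₀))‖ ≤
      B * (1 - r) * ‖q₁ - q₀‖
  s0 : ∀ y : M, ∀ q ∈ G.K y, ∀ r : ℝ, 0 ≤ r → r ≤ 1 →
    ‖Hf G y q - Hf G y (r • q)‖ ≤ B * (1 - r)
  rad : ∀ y : M, ∀ q ∈ G.K y, ∀ v : TangentSpace (𝓡 n) y, ∀ ρ r : ℝ, 0 < ρ → ρ ≤ ρ₀ → r = 1 - ρ →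
    ρ * (c * ‖v‖ ^ 2 - B * Hf G y (r • q) v v) ≤ Hf G y (r • q) v v - Hf G y q v v ∧
      c * ρ * ‖v‖ ^ 2 ≤ Hf G y (r • q) v v

theorem exists_consts (hB : Base G) {c0 C0 : ℝ} (hc0 : 0 < c0) (hC0 : 0 ≤ C0)
    (hR : RadP G c0 C0) : ∃ B c ρ₀ : ℝ, Consts G B c ρ₀ := by
  obtain ⟨B1, hB1, h1⟩ := exists_C3B_Hf hB
  obtain ⟨B2, hB2, h2⟩ := exists_C3B_Pf hB
  obtain ⟨Dm, hDm, h3⟩ := exists_norm_bound G
  set B : ℝ := 1 + B1 * (Dm + 1) + B2 * (Dm + 1) + 2 * C0 + Dm with hBdef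
  have q1 : 0 ≤ B1 * Dm := by positivity
  have q2 : 0 ≤ B2 * Dm := by positivity
  have hBge : 1 ≤ B := by rw [hBdef]; nlinarith
  have hb1 : B1 * (Dm + 1) ≤ B := by rw [hBdef]; nlinarith
  have hb2 : B2 * (Dm + 1) ≤ B := by rw [hBdef]; nlinarith
  have hb1' : B1 ≤ B := by nlinarith
  have hb2' : B2 ≤ B := by nlinarith
  have hb3 : 2 * C0 ≤ B := by rw [hBdef]; nlinarith
  have hb4 : Dm ≤ B := by rw [hBdef]; nlinarith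
  have hb0 : 0 < B := by linarith
  -- the threshold
  set A : ℝ := C0 * B1 * Dm with hA
  have hA0 : 0 ≤ A := by rw [hA]; positivity
  set ρ₀ : ℝ := min (1 / (2 * B)) (c0 / (2 * (A + 1))) with hρdef
  have hρ0 : 0 < ρ₀ := lt_min (by positivity) (by positivity)
  have hρ1 : ρ₀ ≤ 1 / (2 * B) := min_le_left _ _
  have hρ1' : ρ₀ * (2 * B) ≤ 1 := by rwa [le_div_iff₀ (by positivity)] at hρ1
  have hρA : ρ₀ ≤ c0 / (2 * (A + 1)) := min_le_right _ _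
  have hρA' : ρ₀ * (2 * (A + 1)) ≤ c0 := by rwa [le_div_iff₀ (by positivity)] at hρA
  have hρB : ρ₀ * B ≤ 1 := by nlinarith
  have hρ2 : ρ₀ ≤ 1 / 2 := by nlinarith
  -- auxiliary: half segments
  have hhalf : ∀ y : M, ∀ q₀ q₁ : TangentSpace (𝓡 n) y, segment ℝ q₀ q₁ ⊆ G.K y →
      ∀ r : ℝ, 0 ≤ r → r ≤ 1 → ∀ q ∈ segment ℝ ((1 / 2 : ℝ) • q₀) ((1 / 2 : ℝ) • q₁),
      C3B (Pf G y) B2 (r • q) := by
    rintro y q₀ q₁ hseg r hr0 hr1 q ⟨s, t, hs, ht, hst, rfl⟩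
    have e : r • (s • (1 / 2 : ℝ) • q₀ + t • (1 / 2 : ℝ) • q₁) =
        (1 / 2 : ℝ) • (r • (s • q₀ + t • q₁)) := by module
    rw [e]
    exact h2 y _ (hB.star y _ (hseg ⟨s, t, hs, ht, hst, rfl⟩) r hr0 hr1)
  have hhalf1 : ∀ y : M, ∀ q₀ q₁ : TangentSpace (𝓡 n) y, segment ℝ q₀ q₁ ⊆ G.K y →
      ∀ q ∈ segment ℝ ((1 / 2 : ℝ) • q₀) ((1 / 2 : ℝ) • q₁), C3B (Pf G y) B2 q := by
    intro y q₀ q₁ hseg q hq
    have := hhalf y q₀ q₁ hseg 1 zero_le_one le_rfl q hq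
    rwa [one_smul] at this
  have hfull : ∀ y : M, ∀ q₀ q₁ : TangentSpace (𝓡 n) y, segment ℝ q₀ q₁ ⊆ G.K y →
      ∀ r : ℝ, 0 ≤ r → r ≤ 1 → ∀ q ∈ segment ℝ q₀ q₁, C3B (Hf G y) B1 (r • q) :=
    fun y q₀ q₁ hseg r hr0 hr1 q hq => h1 y _ (hB.star y _ (hseg hq) r hr0 hr1)
  have hnhalf : ∀ y : M, ∀ q : TangentSpace (𝓡 n) y, ‖(1 / 2 : ℝ) • q‖ = 1 / 2 * ‖q‖ := by
    intro y q
    rw [norm_smul]; norm_num
  refine ⟨B, c0 / 4, ρ₀, hBge, by positivity, hρ0, hρB, hρ2, fun y q hq => (h3 y q hq).trans hb4,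
    fun y q hq => (h1 y q hq).n0.trans hb1', fun y q hq => (h2 y q hq).d0.differentiableAt,
    ?_, ?_, ?_, ?_, ?_, ?_, ?_⟩
  · intro y q₀ q₁ hseg
    have e1 := rem_le hB2 (hhalf1 y q₀ q₁ hseg)
    rw [← smul_sub, hnhalf] at e1
    rw [norm_smul, Real.norm_eq_abs, abs_two]
    have e2 : B2 * ‖q₁ - q₀‖ ^ 2 ≤ B * ‖q₁ - q₀‖ ^ 2 :=
      mul_le_mul_of_nonneg_right hb2' (by positivity)
    have e3 : 0 ≤ B2 * ‖q₁ - q₀‖ ^ 2 := by positivity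
    nlinarith
  · intro y q₀ q₁ hseg
    have e1 := rem_le (a := q₀) (b := q₁) hB1 (fun q hq => h1 y q (hseg hq))
    exact e1.trans (mul_le_mul_of_nonneg_right hb1' (by positivity))
  · intro y q₀ q₁ hseg r hr0 hr1
    have e1 := rem_scale_le hB2 hr0 hr1 (fun r' hr' => hhalf y q₀ q₁ hseg r' (hr0.trans hr'.1) hr'.2)
    rw [← smul_sub, hnhalf, hnhalf] at e1
    rw [smul_comm (1 / 2 : ℝ) r q₀, smul_comm (1 / 2 : ℝ) r q₁, ← smul_sub, norm_smul,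
      Real.norm_eq_abs, abs_two]
    have e2 := h3 y q₁ (hseg (right_mem_segment ℝ q₀ q₁))
    have e3 : B2 * (1 / 2 * ‖q₁‖ + 1) ≤ B := by
      have : B2 * (1 / 2 * ‖q₁‖ + 1) ≤ B2 * (Dm + 1) :=
        mul_le_mul_of_nonneg_left (by nlinarith [norm_nonneg q₁]) hB2
      linarith
    have e4 : 0 ≤ (1 / 2 * ‖q₁ - q₀‖) ^ 2 * (1 - r) := by
      have : 0 ≤ 1 - r := by linarith
      positivity
    have e5 := mul_le_mul_of_nonneg_right e3 e4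
    have e6 : 0 ≤ B * (1 - r) * ‖q₁ - q₀‖ ^ 2 := by
      have : 0 ≤ 1 - r := by linarith
      positivity
    nlinarith
  · intro y q₀ q₁ hseg r hr0 hr1
    have e1 := rem_scale_le hB1 hr0 hr1 (fun r' hr' => hfull y q₀ q₁ hseg r' (hr0.trans hr'.1) hr'.2)
    have e2 := h3 y q₁ (hseg (right_mem_segment ℝ q₀ q₁))
    have e3 : B1 * (‖q₁‖ + 1) ≤ B := by
      have : B1 * (‖q₁‖ + 1) ≤ B1 * (Dm + 1) :=
        mul_le_mul_of_nonneg_left (by linarith) hB1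
      linarith
    have e4 : 0 ≤ ‖q₁ - q₀‖ ^ 2 * (1 - r) := by
      have : 0 ≤ 1 - r := by linarith
      positivity
    have e5 := mul_le_mul_of_nonneg_right e3 e4
    linarith
  · intro y q₀ q₁ hseg r hr0 hr1
    have e1 := diff_scale_le hB1 hr0 hr1
      (fun r' hr' => hfull y q₀ q₁ hseg r' (hr0.trans hr'.1) hr'.2)
    have e2 := h3 y q₁ (hseg (right_mem_segment ℝ q₀ q₁))
    have e3 : B1 * (‖q₁‖ + 1) ≤ B := by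
      have : B1 * (‖q₁‖ + 1) ≤ B1 * (Dm + 1) :=
        mul_le_mul_of_nonneg_left (by linarith) hB1
      linarith
    have e4 : 0 ≤ ‖q₁ - q₀‖ * (1 - r) := by
      have : 0 ≤ 1 - r := by linarith
      positivity
    have e5 := mul_le_mul_of_nonneg_right e3 e4
    linarith
  · intro y q hq r hr0 hr1
    have e1 := scale_le hB1 hr0 hr1
      (fun r' hr' => h1 y _ (hB.star y q hq r' (hr0.trans hr'.1) hr'.2))
    have e2 := h3 y q hq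
    have e3 : B1 * ‖q‖ ≤ B := by
      have : B1 * ‖q‖ ≤ B1 * (Dm + 1) :=
        mul_le_mul_of_nonneg_left (by linarith) hB1
      linarith
    have e5 := mul_le_mul_of_nonneg_right e3 (by linarith : 0 ≤ 1 - r)
    linarith
  · intro y q hq v ρ r hρ hρρ hr
    have f1 : C0 * B1 * Dm * ρ ≤ c0 / 2 := by
      have : A * ρ ≤ A * ρ₀ := mul_le_mul_of_nonneg_left hρρ hA0
      have g1 : C0 * B1 * Dm * ρ = A * ρ := by rw [hA]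
      nlinarith
    have f2 : 2 * C0 * ρ ≤ 1 := by
      have g1 : 2 * C0 * ρ ≤ B * ρ₀ := mul_le_mul hb3 hρρ hρ.le hb0.le
      linarith
    obtain ⟨r1, r2⟩ := radial hB hc0 hC0 hR hB1 hDm h1 h3 hq v hρ (hρρ.trans hρ2) hr f1 f2
    refine ⟨?_, r2⟩
    refine le_trans ?_ r1
    apply mul_le_mul_of_nonneg_left _ hρ.le
    have hrr : r • q ∈ G.K y := hB.star y q hq r (by linarith) (by linarith)
    have := mul_le_mul_of_nonneg_right hb3 (Hf_nonneg hB hrr v)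
    linarith

end Crest.Agent.R226.T1i115
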