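/-
R226 / leaf L1 = (T1)(i) (helper115): `T1iStat` from `RadP` and MTW, final assembly.
-/
import Crest.Agent.R226.T1iMain_115

set_option autoImplicit false
set_option maxSynthPendingDepth 3

open MeasureTheory Bundle Set Filter
open scoped Manifold ContDiff Bundle ENNReal Topology
open Crest.GeometryTopology.MTW
open Crest.Agent.R226.Calc347 Crest.Agent.R226.MTWConc117 Crest.Agent.R226.Base347
open Crest.Agent.R226.Crit347 Crest.Agent.R226.Focal347 Crest.Agent.R226.NF946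

namespace Crest.Agent.R226.T1i115

variable {n : ℕ} {M : Type*} [MetricSpace M] [ChartedSpace (EuclideanSpace ℝ (Fin n)) M]
  [IsManifold (𝓡 n) ∞ M]
  [RiemannianBundle (fun p : M => TangentSpace (𝓡 n) p)]
  [IsContMDiffRiemannianBundle (𝓡 n) ∞ (EuclideanSpace ℝ (Fin n))
    (fun p : M => TangentSpace (𝓡 n) p)] [CompactSpace M]
  {G : GeoData n M}

local notation "⟪" x ", " y "⟫" => inner ℝ x y

/-- symmetry of the remainder of `Pf` -/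
theorem rem_Pf_symm (hB : Base G) {y : M} {a b : TangentSpace (𝓡 n) y} (ha : a ∈ G.I y)
    (hb : b ∈ G.I y) (hd : DifferentiableAt ℝ (Pf G y) a) (u v : TangentSpace (𝓡 n) y) :
    ((2 : ℝ) • rem (Pf G y) a b) u v = ((2 : ℝ) • rem (Pf G y) a b) v u := by
  unfold rem
  simp only [smul_apply, sub_apply]
  rw [Pf_symm hB ha u v, Pf_symm hB hb u v, dPf_symm hB ha hd _ u v]

theorem exists_riesz {y : M} (L : TangentSpace (𝓡 n) y →L[ℝ] ℝ) :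
    ∃ ξ : TangentSpace (𝓡 n) y, ∀ u, L u = ⟪ξ, u⟫ := by
  have : CompleteSpace (TangentSpace (𝓡 n) y) := FiniteDimensional.complete ℝ _
  refine ⟨(InnerProductSpace.toDual ℝ (TangentSpace (𝓡 n) y)).symm L, fun u => ?_⟩
  rw [InnerProductSpace.toDual_symm_apply]

/-- the main case -/
theorem stat_main (hB : Base G) (hM : MTWFacts G) {B c ρ₀ : ℝ} (hC : Consts G B c ρ₀)
    {y : M} {q₀ q₁ : TangentSpace (𝓡 n) y}
    (hseg : segment ℝ q₀ q₁ ⊆ G.I y)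
    {ξ ζ : TangentSpace (𝓡 n) y} (hζ : ∀ θ, Hf G y q₀ ζ θ = ⟪ξ, θ⟫) {a : ℝ}
    (ha : HasDerivAt (fun s : ℝ => G.phi y ξ (q₀ + s • (q₁ - q₀))) a 0)
    {ρ : ℝ} (hρ : 0 < ρ) (hρρ : ρ ≤ ρ₀) (hX0 : ⟪q₀, q₁ - q₀⟫ ≠ 0)
    (hρκ : ρ * (‖q₁ - q₀‖ * ‖ζ‖) = |⟪q₁ - q₀, ξ⟫|) (hD0 : 0 < ‖q₁ - q₀‖) :
    -((3 / c * (4 * (1 + B)) ^ 2 + 2 * B ^ 3 * (4 * (1 + B)) + B ^ 3 * (4 * (1 + B)) ^ 2 +
        (B + 3 * B ^ 3 + B * (B + B ^ 3) + 2 * B ^ 2 / c)) *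
      ((1 + 1 / (⟪q₀, q₁ - q₀⟫ / ‖q₁ - q₀‖) ^ 2) *
        (|⟪q₁ - q₀, ξ⟫| * ‖q₁ - q₀‖ * ‖ζ‖))) ≤ G.phi y ξ q₀ - G.phi y ξ q₁ + a := by
  have hsegK : segment ℝ q₀ q₁ ⊆ G.K y := hseg.trans (hB.I_subset y)
  have hq₀ : q₀ ∈ G.I y := hseg (left_mem_segment ℝ q₀ q₁)
  have hq₁ : q₁ ∈ G.I y := hseg (right_mem_segment ℝ q₀ q₁)
  have hq₀K := hB.I_subset y hq₀
  have hq₁K := hB.I_subset y hq₁
  have hρ1 : ρ ≤ 1 / 2 := hρρ.trans hC.hρ2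
  obtain ⟨r, hr⟩ : ∃ r : ℝ, r = 1 - ρ := ⟨_, rfl⟩
  have hr0 : 0 ≤ r := by linarith
  have hr1 : r < 1 := by linarith
  have hsmulI : ∀ q ∈ G.K y, r • q ∈ G.I y := fun q hq => hB.smul_mem_I hq hr0 hr1
  have ha0 : r • q₀ ∈ G.I y := hsmulI _ hq₀K
  have ha1 : r • q₁ ∈ G.I y := hsmulI _ hq₁K
  have ha0K := hB.I_subset y ha0
  have ha1K := hB.I_subset y ha1
  have hsum : r • q₀ + r • (q₁ - q₀) = r • q₁ := by rw [← smul_add, add_sub_cancel]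
  have hsum' : r • q₁ - r • q₀ = r • (q₁ - q₀) := by rw [← smul_sub]
  have hseg' : segment ℝ (r • q₀) (r • q₁) ⊆ G.I y := by
    rintro q ⟨s, t, hs, ht, hst, rfl⟩
    have e : s • r • q₀ + t • r • q₁ = r • (s • q₀ + t • q₁) := by module
    rw [e]
    exact hsmulI _ (hsegK ⟨s, t, hs, ht, hst, rfl⟩)
  have hseg'K : segment ℝ (r • q₀) (r • q₁) ⊆ G.K y := hseg'.trans (hB.I_subset y)
  obtain ⟨ξ', hξ'⟩ := exists_riesz (Hf G y (r • q₀) ζ)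
  obtain ⟨v', hv'⟩ := exists_Hf_eq hB ha1 ξ'
  obtain ⟨z, hz⟩ := exists_Hf_eq hB ha1 (r • (q₁ - q₀))
  obtain ⟨m, hm⟩ : ∃ m, m = v' - ζ := ⟨_, rfl⟩
  have hmH : ∀ u, Hf G y (r • q₁) m u = Hf G y (r • q₀) ζ u - Hf G y (r • q₁) ζ u := by
    intro u
    rw [hm, map_sub, sub_apply, hv', hξ']
  have hg0 : ∀ u, Hf G y (r • q₀) (r • q₀) u = ⟪r • q₀, u⟫ := fun u => Hf_gauss hB ha0K u
  have hg1 : ∀ u, Hf G y (r • q₁) (r • q₀ + r • (q₁ - q₀)) u = ⟪r • q₀ + r • (q₁ - q₀), u⟫ := by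
    intro u
    rw [hsum]
    exact Hf_gauss hB ha1K u
  have hdP' : DifferentiableAt ℝ (Pf G y) ((1 / 2 : ℝ) • (r • q₀)) := hC.dP y _ ha0K
  have hhalf : ∀ q ∈ G.K y, (1 / 2 : ℝ) • q ∈ G.I y := fun q hq =>
    hB.smul_mem_I hq (by norm_num) (by norm_num)
  have hnD : ‖r • (q₁ - q₀)‖ ≤ ‖q₁ - q₀‖ := norm_smul_le_of hr0 hr1.le _
  have hnD2 : ‖r • (q₁ - q₀)‖ ^ 2 ≤ ‖q₁ - q₀‖ ^ 2 := pow_le_pow_left₀ (norm_nonneg _) hnD 2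
  have hB0 : 0 < B := by have := hC.hB1; linarith
  have h1r : 1 - r = ρ := by linarith
  refine alg_final (H0 := Hf G y q₀) (H1 := Hf G y q₁) (G0 := fderiv ℝ (Hf G y) q₀ (q₁ - q₀))
    (P := (2 : ℝ) • rem (Pf G y) ((1 / 2 : ℝ) • q₀) ((1 / 2 : ℝ) • q₁))
    (H0' := Hf G y (r • q₀)) (H1' := Hf G y (r • q₁))
    (G0' := fderiv ℝ (Hf G y) (r • q₀) (r • (q₁ - q₀)))
    (P' := (2 : ℝ) • rem (Pf G y) ((1 / 2 : ℝ) • (r • q₀)) ((1 / 2 : ℝ) • (r • q₁)))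
    (a0 := r • q₀) (d := r • (q₁ - q₀)) (ζ := ζ) (ξ := ξ) (ξ' := ξ') (m := m) (z := z)
    (B := B) (c := c) (r := r) (ρ := ρ) (X := ⟪q₀, q₁ - q₀⟫ / ‖q₁ - q₀‖) (q0 := q₀)
    (D := q₁ - q₀) (v := ζ + m) (κ := ⟪q₁ - q₀, ξ⟫)
    hC.hB1 hC.hc hρ ?_ hρ1 hr rfl rfl rfl ?_ ?_ ?_ ?_ ?_ hmH hζ hξ' hz hg0 hg1 ?_ ?_ ?_
    ?_ ?_ rfl hρκ hD0 ?_ ?_ ?_ ?_ ?_ ?_ ?_ ?_ ?_ ?_ ?_
  · exact (mul_le_mul_of_nonneg_right hρρ hB0.le).trans hC.hρB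
  · exact fun u v => Hf_symm hB ha0K u v
  · exact fun u v => Hf_symm hB ha1K u v
  · exact fun u v => Hf_symm hB hq₁K u v
  · intro u v
    rw [← DHf_eq_form hB ha0K, ← DHf_eq_form hB ha0K, DHf_symm hB ha0K]
  · exact fun u v => rem_Pf_symm hB (hhalf _ ha0K) (hhalf _ ha1K) hdP' u v
  · intro u
    rw [← DHf_eq_form hB ha0K]
    exact DHf_gauss hB ha0K _ _
  · -- hT
    rw [T_formula hB hq₀ hq₁ hζ (hC.dP y _ hq₀K) ha]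
    have := le_Rf hB hq₁ ξ (ζ + m)
    linarith
  · -- hM
    intro lam hlam
    have hζl : ∀ θ, Hf G y (r • q₀) (ζ + lam • (r • q₀)) θ = ⟪ξ' + lam • (r • q₀), θ⟫ := by
      intro θ
      have e2 : ⟪lam • (r • q₀), θ⟫ = lam * ⟪r • q₀, θ⟫ := real_inner_smul_left _ _ _
      rw [map_add, map_smul, add_apply, smul_apply, smul_eq_mul, hξ', hg0, inner_add_left, e2]
    have hvl : ∀ θ, Hf G y (r • q₁) ((ζ + m) + lam • ((r • q₀ + r • (q₁ - q₀)) - z)) θ =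
        ⟪ξ' + lam • (r • q₀), θ⟫ := by
      intro θ
      have e1 : ζ + m = v' := by rw [hm]; abel
      have e2 : ⟪lam • (r • q₀), θ⟫ = lam * ⟪r • q₀, θ⟫ := real_inner_smul_left _ _ _
      rw [e1, map_add, map_smul, map_sub, add_apply, smul_apply, sub_apply, smul_eq_mul, hv', hg1,
        hz, inner_add_left, inner_add_left, e2]
      ring
    obtain ⟨a', ha'⟩ := exists_deriv_phi hB ha0 (ξ' + lam • (r • q₀)) (r • q₁ - r • q₀)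
    have e1 := T_nonneg hM hseg' (ξ := ξ' + lam • (r • q₀)) (by rw [hsum']; exact hlam) ha'
    rw [T_formula hB ha0 ha1 hζl hdP' ha', Rf_eq hB ha1 hvl, hsum'] at e1
    exact e1
  · exact div_ne_zero hX0 hD0.ne'
  · exact (div_mul_cancel₀ _ hD0.ne').symm
  · exact hC.norm y _ hq₀K
  · exact hC.nH y _ ha0K
  · exact hC.nH y _ hq₀K
  · have e1 := hC.rP y _ _ hseg'K
    rw [hsum'] at e1
    exact e1.trans (mul_le_mul_of_nonneg_left hnD2 hB0.le)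
  · have e1 := hC.sP y _ _ hsegK r hr0 hr1.le
    rw [h1r] at e1
    exact e1
  · have e1 := hC.rH y _ _ hseg'K
    have e2 : rem (Hf G y) (r • q₀) (r • q₁) = Hf G y (r • q₁) - Hf G y (r • q₀) -
      fderiv ℝ (Hf G y) (r • q₀) (r • (q₁ - q₀)) := by unfold rem; rw [hsum']
    rw [e2, hsum'] at e1
    exact e1.trans (mul_le_mul_of_nonneg_left hnD2 hB0.le)
  · have e1 := hC.sH y _ _ hsegK r hr0 hr1.le
    have e2 : rem (Hf G y) (r • q₀) (r • q₁) = Hf G y (r • q₁) - Hf G y (r • q₀) -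
      fderiv ℝ (Hf G y) (r • q₀) (r • (q₁ - q₀)) := by unfold rem; rw [hsum']
    have e3 : rem (Hf G y) q₀ q₁ = Hf G y q₁ - Hf G y q₀ -
      fderiv ℝ (Hf G y) q₀ (q₁ - q₀) := rfl
    rw [e2, e3, h1r] at e1
    exact e1
  · have e1 := hC.sD y _ _ hsegK r hr0 hr1.le
    rw [h1r] at e1
    exact e1
  · have e1 := hC.s0 y _ hq₀K r hr0 hr1.le
    rw [h1r] at e1
    exact e1
  · exact (hC.rad y _ hq₁K m ρ r hρ hρρ hr).1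
  · exact (hC.rad y _ hq₁K z ρ r hρ hρρ hr).2

/-- **(T1)(i), static form**, from the radial monotonicity `RadP` and MTW -/
theorem t1iStat (hB : Base G) (hM : MTWFacts G) (hconv : ∀ y, Convex ℝ (G.I y)) {c0 C0 : ℝ}
    (hc0 : 0 < c0) (hR : RadP G c0 C0) : ∃ C : ℝ, 0 ≤ C ∧ T1iStat G C := by
  have hR' : RadP G c0 (max C0 0) := by
    intro x p hp v
    refine (hR x p hp v).trans ?_
    have := mul_le_mul_of_nonneg_right (le_max_left C0 0) (Hf_nonneg hB hp v)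
    linarith
  obtain ⟨B, c, ρ₀, hC⟩ := exists_consts hB hc0 (le_max_right C0 0) hR'
  have hB1 := hC.hB1
  have hB0 : 0 < B := by linarith
  have hc := hC.hc
  have hρ₀ := hC.hρ₀
  set A : ℝ := 3 / c * (4 * (1 + B)) ^ 2 + 2 * B ^ 3 * (4 * (1 + B)) + B ^ 3 * (4 * (1 + B)) ^ 2 +
        (B + 3 * B ^ 3 + B * (B + B ^ 3) + 2 * B ^ 2 / c) with hA
  have hA0 : 0 ≤ A := by positivity
  refine ⟨A + (B ^ 3 + B) / ρ₀, by positivity, ?_⟩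
  intro y q₀ q₁ hq₀ hq₁ ξ ζ hζ a ha hX0
  have hseg : segment ℝ q₀ q₁ ⊆ G.I y := (hconv y).segment_subset hq₀ hq₁
  have hD0 : 0 < ‖q₁ - q₀‖ := by
    rw [norm_pos_iff]
    intro h
    rw [h, inner_zero_right] at hX0
    exact hX0 rfl
  obtain ⟨κ, hκ⟩ : ∃ κ : ℝ, κ = ⟪q₁ - q₀, ξ⟫ := ⟨_, rfl⟩
  obtain ⟨W, hW⟩ : ∃ W : ℝ, W = 1 + ‖q₁ - q₀‖ ^ 2 / ⟪q₀, q₁ - q₀⟫ ^ 2 := ⟨_, rfl⟩
  have hW1 : 1 ≤ W := by
    rw [hW]
    have : 0 ≤ ‖q₁ - q₀‖ ^ 2 / ⟪q₀, q₁ - q₀⟫ ^ 2 := by positivity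
    linarith
  rw [← hκ, ← hW]
  rcases eq_or_ne κ 0 with h0 | h0
  · rw [h0, abs_zero]
    have := T_nonneg hM hseg (by rw [← hκ, h0]) ha
    simpa using this
  have hζ0 : 0 < ‖ζ‖ := by
    rw [norm_pos_iff]
    intro h
    apply h0
    rw [hκ, real_inner_comm, ← hζ, h, map_zero, zero_apply]
  have hLΛ : 0 < ‖q₁ - q₀‖ * ‖ζ‖ := by positivity
  have hκ0 : 0 < |κ| := abs_pos.2 h0
  have hq₀K := hB.I_subset y hq₀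
  have hsegK : segment ℝ q₀ q₁ ⊆ G.K y := hseg.trans (hB.I_subset y)
  rcases le_or_gt (ρ₀ * (‖q₁ - q₀‖ * ‖ζ‖)) |κ| with h1 | h1
  · have e1 := stat_triv hB hB1 hq₀ hq₁ hζ (hC.dP y _ hq₀K) ha (hC.nH y _ hq₀K)
      (hC.rP y _ _ hsegK) (hC.rH y _ _ hsegK)
    refine le_trans ?_ e1
    rw [neg_le_neg_iff]
    have e2 : (B ^ 3 + B) * ‖q₁ - q₀‖ ^ 2 * ‖ζ‖ ^ 2 =
        (B ^ 3 + B) / ρ₀ * (ρ₀ * (‖q₁ - q₀‖ * ‖ζ‖)) * (‖q₁ - q₀‖ * ‖ζ‖) := by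
      field_simp
    have e3 : (B ^ 3 + B) / ρ₀ * (ρ₀ * (‖q₁ - q₀‖ * ‖ζ‖)) * (‖q₁ - q₀‖ * ‖ζ‖) ≤
        (B ^ 3 + B) / ρ₀ * |κ| * (‖q₁ - q₀‖ * ‖ζ‖) := by gcongr
    have e4 : (B ^ 3 + B) / ρ₀ * |κ| * (‖q₁ - q₀‖ * ‖ζ‖) ≤
        (A + (B ^ 3 + B) / ρ₀) * |κ| * (‖q₁ - q₀‖ * ‖ζ‖) := by
      gcongr
      linarith
    have e5 : (A + (B ^ 3 + B) / ρ₀) * |κ| * (‖q₁ - q₀‖ * ‖ζ‖) * 1 ≤
        (A + (B ^ 3 + B) / ρ₀) * |κ| * (‖q₁ - q₀‖ * ‖ζ‖) * W := by gcongr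
    rw [e2]
    calc _ ≤ _ := e3
      _ ≤ _ := e4
      _ = (A + (B ^ 3 + B) / ρ₀) * |κ| * (‖q₁ - q₀‖ * ‖ζ‖) * 1 := by ring
      _ ≤ _ := e5
      _ = _ := by ring
  · have hρ : 0 < |κ| / (‖q₁ - q₀‖ * ‖ζ‖) := by positivity
    have hρρ : |κ| / (‖q₁ - q₀‖ * ‖ζ‖) ≤ ρ₀ := by
      rw [div_le_iff₀ hLΛ]; exact h1.le
    have e1 := stat_main hB hM hC hseg hζ ha hρ hρρ hX0
      (by rw [div_mul_cancel₀ _ hLΛ.ne', hκ]) hD0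
    refine le_trans ?_ e1
    rw [neg_le_neg_iff, ← hκ, ← hA]
    have e2 : 1 + 1 / (⟪q₀, q₁ - q₀⟫ / ‖q₁ - q₀‖) ^ 2 = W := by
      rw [hW, div_pow, one_div_div]
    rw [e2]
    have e3 : A * (W * (|κ| * ‖q₁ - q₀‖ * ‖ζ‖)) ≤
        (A + (B ^ 3 + B) / ρ₀) * (W * (|κ| * ‖q₁ - q₀‖ * ‖ζ‖)) := by
      apply mul_le_mul_of_nonneg_right
      · have : 0 ≤ (B ^ 3 + B) / ρ₀ := by positivity
        linarith
      · positivity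
    refine e3.trans (le_of_eq ?_)
    ring

end Crest.Agent.R226.T1i115
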