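/-
R226 / (L1b) ZetaP (helper186): `Hf_y(q₀) ζ = D exp_x(w) η` implies `‖ζ‖ ≤ C ‖η‖`.
`half_lower` (proof by helper229): uniform lower Lipschitz bound of `exp_y` near `q₀/2`, `q₀ ∈ K(y)`.
-/
import Crest.Agent.R226.T1iDef_115
import Crest.Agent.R226.SymExp_413
import Crest.Agent.R226.ExLip_659

set_option autoImplicit false
set_option linter.unusedSectionVars false
set_option linter.unusedVariables false

open MeasureTheory Bundle Set Filter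
open scoped Manifold ContDiff Bundle ENNReal Topology
open Crest.GeometryTopology.MTW
open Crest.Agent.R226.Calc347 Crest.Agent.R226.MTWConc117 Crest.Agent.R226.Base347
open Crest.Agent.R226.Crit347 Crest.Agent.R226.Focal347 Crest.Agent.R226.NF946

namespace Crest.Agent.R226.Zeta186

/-- second-order Taylor lower bound -/
theorem taylor_ge {g : ℝ → ℝ} {C : ℝ} (hg : ∀ s ∈ Icc (0 : ℝ) 1, ContDiffAt ℝ 2 g s)
    (hC : ∀ s ∈ Icc (0 : ℝ) 1, -C ≤ iteratedDeriv 2 g s) {d : ℝ} (hd : HasDerivAt g d 0) :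
    g 0 + d - C / 2 ≤ g 1 := by
  have h1 := hd.tendsto_slope_zero_right
  have h2 : Tendsto (fun t : ℝ => g 1 - g 0 + C / 2 * (1 - t)) (𝓝[>] 0)
      (𝓝 (g 1 - g 0 + C / 2 * (1 - 0))) := by
    have : Continuous fun t : ℝ => g 1 - g 0 + C / 2 * (1 - t) := by fun_prop
    exact (this.tendsto 0).mono_left nhdsWithin_le_nhds
  have h3 : ∀ᶠ t : ℝ in 𝓝[>] 0, t⁻¹ • (g (0 + t) - g 0) ≤ g 1 - g 0 + C / 2 * (1 - t) := by
    have h4 : Ioo (0 : ℝ) 1 ∈ 𝓝[>] (0 : ℝ) := Ioo_mem_nhdsGT one_pos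
    filter_upwards [h4] with t ht
    have h5 := chord_le hg hC (t := t) ⟨ht.1.le, ht.2.le⟩
    rw [zero_add, smul_eq_mul, inv_mul_le_iff₀ ht.1]
    nlinarith
  have h6 := le_of_tendsto_of_tendsto h1 h2 h3
  linarith

variable {n : ℕ} {M : Type*} [MetricSpace M] [ChartedSpace (EuclideanSpace ℝ (Fin n)) M]
  [IsManifold (𝓡 n) ∞ M]
  [RiemannianBundle (fun p : M => TangentSpace (𝓡 n) p)]
  [IsContMDiffRiemannianBundle (𝓡 n) ∞ (EuclideanSpace ℝ (Fin n))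
    (fun p : M => TangentSpace (𝓡 n) p)]
  {G : GeoData n M}

/-- lower bound of the cost near `(0, q₀/2)` -/
theorem cost_ge (hB : Base G) : ∃ B δ : ℝ, 0 ≤ B ∧ 0 < δ ∧
    ∀ (y : M) (q₀ b w : TangentSpace (𝓡 n) y), q₀ ∈ G.K y → ‖w‖ < δ → ‖b - (1 / 2 : ℝ) • q₀‖ < δ →
      b ∈ G.I y → ‖b‖ ^ 2 / 2 - inner ℝ b w - B / 2 * ‖w‖ ^ 2 ≤ F G y (w, b) := by
  obtain ⟨δ, B, hδ, hB0, hF⟩ := unif_F0 hB (θ := 1 / 2) (by norm_num) (by norm_num) 2
  refine ⟨B, δ, hB0, hδ, fun y q₀ b w hq hw hb hbI => ?_⟩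
  set g : ℝ → ℝ := fun s => F G y ((0, b) + s • (w, 0)) with hg
  have hpt : ∀ s : ℝ, ((0 : TangentSpace (𝓡 n) y), b) + s • (w, (0 : TangentSpace (𝓡 n) y)) =
      (s • w, b) := by
    intro s; simp
  have hin : ∀ s ∈ Icc (0 : ℝ) 1, ContDiffAt ℝ 2 g s ∧ -(B * ‖w‖ ^ 2) ≤ iteratedDeriv 2 g s := by
    intro s hs
    have hn : ‖s • w‖ < δ := by
      rw [norm_smul, Real.norm_of_nonneg hs.1]
      calc s * ‖w‖ ≤ 1 * ‖w‖ := by gcongr; exact hs.2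
        _ = ‖w‖ := one_mul _
        _ < δ := hw
    obtain ⟨h1, h2⟩ := hF y q₀ (s • w) b hq hn hb
    rw [← hpt] at h1 h2
    obtain ⟨h3, h4⟩ := line_bound_gen (k := 2) (g := F G y) h1 h2
    refine ⟨h3, ?_⟩
    have h5 := h4 2 le_rfl
    have h6 : ‖((w, 0) : TangentSpace (𝓡 n) y × TangentSpace (𝓡 n) y)‖ = ‖w‖ := by
      simp [Prod.norm_def]
    rw [h6, norm_iteratedFDeriv_eq_norm_iteratedDeriv, Real.norm_eq_abs] at h5
    have h7 := abs_le.1 h5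
    exact h7.1
  have hd : HasDerivAt g (-inner ℝ b w) 0 := by
    have h1 := hasDerivAt_nc hB hbI w
    refine h1.congr_of_eventuallyEq (Eventually.of_forall fun s => ?_)
    show F G y ((0, b) + s • (w, 0)) = _
    rw [hpt]; rfl
  have h1 := taylor_ge (fun s hs => (hin s hs).1) (fun s hs => (hin s hs).2) hd
  have h2 : g 0 = ‖b‖ ^ 2 / 2 := by
    show F G y ((0, b) + (0 : ℝ) • (w, 0)) = _
    rw [hpt, zero_smul]
    show halfDistSq (G.ex y 0) (G.ex y b) = _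
    rw [G.ex_zero]
    exact halfDistSq_of_mem_K (hB.I_subset y hbI)
  have h3 : g 1 = F G y (w, b) := by
    show F G y ((0, b) + (1 : ℝ) • (w, 0)) = _
    rw [hpt, one_smul]
  rw [h2, h3] at h1
  linarith

/-- **uniform lower Lipschitz bound of `exp_y` near `q₀/2`, `q₀ ∈ K(y)`.** -/
theorem half_lower (hB : Base G) : ∃ C δ : ℝ, 0 ≤ C ∧ 0 < δ ∧
    ∀ (y : M) (q₀ U : TangentSpace (𝓡 n) y), q₀ ∈ G.K y → ‖U‖ < δ →
      (1 / 2 : ℝ) • q₀ + U ∈ G.I y →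
      ‖U‖ ^ 2 ≤ C * dist (G.ex y ((1 / 2 : ℝ) • q₀)) (G.ex y ((1 / 2 : ℝ) • q₀ + U)) ^ 2 := by
  obtain ⟨C₁, hC₁, hsc⟩ := hB.semiconcave
  obtain ⟨B, δ, hB0, hδ, hF⟩ := cost_ge hB
  have hD : 0 < B + 4 * C₁ := by linarith
  set t : ℝ := 1 / (B + 4 * C₁) with ht
  have ht0 : 0 < t := by positivity
  have htD : t * (B + 4 * C₁) = 1 := by rw [ht]; field_simp
  refine ⟨6 * C₁ * (B + 4 * C₁), min δ (δ * (B + 4 * C₁)), by positivity, by positivity,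
    fun y q₀ U hq hU hI => ?_⟩
  set r : TangentSpace (𝓡 n) y := (1 / 2 : ℝ) • q₀ with hr
  have hbK := hB.I_subset y hI
  obtain ⟨z, hz⟩ : ∃ z, G.ex y r = z := ⟨_, rfl⟩
  obtain ⟨w, hwn, -, hw⟩ := CutTop478.exists_vel G y q₀ (1 / 2) (z := z) (by rw [← hz])
  -- `ex z ((1/2) w) = ex y q₀`, `ex z (-(1/2) w) = y`
  have e1 : G.ex z ((1 / 2 : ℝ) • w) = G.ex y q₀ := by
    rw [hw]; norm_num
  have e2 : G.ex z ((-(1 / 2) : ℝ) • w) = y := by
    rw [hw]; norm_num [G.ex_zero]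
  have e3 : G.ex z ((-(1 / 4) : ℝ) • w) = G.ex y ((1 / 4 : ℝ) • q₀) := by
    rw [hw]; norm_num
  have hzy : dist z y = 1 / 2 * ‖q₀‖ := by
    have := dist_of_mem_K hq (s := 0) (t := 1 / 2) le_rfl (by norm_num) (by norm_num)
    rw [zero_smul, G.ex_zero, ← hr, hz] at this
    rw [dist_comm, this]; ring
  have hzx : dist z (G.ex y q₀) = 1 / 2 * ‖q₀‖ := by
    have := dist_of_mem_K hq (s := 1 / 2) (t := 1) (by norm_num) (by norm_num) le_rfl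
    rw [one_smul, ← hr, hz] at this
    rw [this]; ring
  have hfK : (1 / 2 : ℝ) • w ∈ G.K z := by
    show dist z (G.ex z _) = _
    rw [e1, hzx, norm_smul, hwn]; norm_num
  have hpK : (-(1 / 2) : ℝ) • w ∈ G.K z := by
    show dist z (G.ex z _) = _
    rw [e2, hzy, norm_smul, hwn]; norm_num
  have hp4K : (-(1 / 4) : ℝ) • w ∈ G.K z := by
    have := hB.star z _ hpK (1 / 2) (by norm_num) (by norm_num)
    rw [smul_smul] at this
    norm_num at this ⊢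
    exact this
  have hq4K : (1 / 4 : ℝ) • q₀ ∈ G.K y := hB.star y _ hq (1 / 4) (by norm_num) (by norm_num)
  -- the minimiser from `z` to `z'`
  obtain ⟨V, hVK, hV⟩ := CutTop478.exists_mem_K G z (G.ex y (r + U))
  have hVn : ‖V‖ = dist z (G.ex y (r + U)) := CutTop478.norm_of_mem_K G hVK hV
  -- (2)
  have h2 : ‖q₀‖ ^ 2 / 8 - inner ℝ ((-(1 / 2) : ℝ) • w) V - C₁ * ‖V‖ ^ 2 ≤ ‖r + U‖ ^ 2 / 2 := by
    have a1 := halfDistSq_le_two y (G.ex y (r + U)) (G.ex y q₀)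
    rw [halfDistSq_of_mem_K hq, halfDistSq_of_mem_K hbK] at a1
    have a2 := hsc z _ hfK V
    rw [e1, hV] at a2
    have a3 : halfDistSq z (G.ex y q₀) = ‖q₀‖ ^ 2 / 8 := by
      unfold halfDistSq; rw [hzx]; ring
    rw [a3, real_inner_smul_left] at a2
    rw [real_inner_smul_left]
    linarith
  -- (1)
  have h1 : F G y (-(t • U), r + U) ≤ ‖q₀‖ ^ 2 / 8 + t * inner ℝ r U -
      inner ℝ ((-(1 / 2) : ℝ) • w) V + 2 * C₁ * (t ^ 2 * ‖U‖ ^ 2 + ‖V‖ ^ 2) := by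
    have a1 := halfDistSq_le_two (G.ex y (-(t • U))) (G.ex y ((1 / 4 : ℝ) • q₀)) (G.ex z V)
    have a2 := hsc y _ hq4K (-(t • U))
    have a3 := hsc z _ hp4K V
    rw [e3] at a3
    rw [halfDistSq_of_mem_K hq4K] at a2
    have a4 : halfDistSq z (G.ex y ((1 / 4 : ℝ) • q₀)) = ‖q₀‖ ^ 2 / 32 := by
      rw [← e3, halfDistSq_of_mem_K hp4K, norm_smul, hwn, mul_pow]
      norm_num
      ring
    rw [a4] at a3
    rw [halfDistSq_comm (G.ex z V)] at a3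
    have a5 : F G y (-(t • U), r + U) = halfDistSq (G.ex y (-(t • U))) (G.ex z V) := by
      rw [hV]; rfl
    rw [a5]
    have a6 : ‖(1 / 4 : ℝ) • q₀‖ ^ 2 = ‖q₀‖ ^ 2 / 16 := by
      rw [norm_smul, mul_pow]; norm_num; ring
    have a7 : inner ℝ ((1 / 4 : ℝ) • q₀) (-(t • U)) = -(t * inner ℝ r U / 2) := by
      rw [hr, inner_neg_right, real_inner_smul_left, inner_smul_right, real_inner_smul_left]; ring
    have a8 : ‖-(t • U)‖ ^ 2 = t ^ 2 * ‖U‖ ^ 2 := by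
      rw [norm_neg, norm_smul, mul_pow, Real.norm_of_nonneg ht0.le]
    rw [a6, a7, a8] at a2
    have a10 : inner ℝ ((-(1 / 2) : ℝ) • w) V = -(1 / 2) * inner ℝ w V := real_inner_smul_left _ _ _
    rw [real_inner_smul_left] at a3
    rw [a10]
    linarith
  -- (3)
  have hn1 : ‖-(t • U)‖ < δ := by
    rw [norm_neg, norm_smul, Real.norm_of_nonneg ht0.le]
    have := hU.trans_le (min_le_right _ _)
    calc t * ‖U‖ < t * (δ * (B + 4 * C₁)) := by gcongr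
      _ = t * (B + 4 * C₁) * δ := by ring
      _ = δ := by rw [htD, one_mul]
  have hn2 : ‖r + U - (1 / 2 : ℝ) • q₀‖ < δ := by
    rw [← hr, add_sub_cancel_left]
    exact hU.trans_le (min_le_left _ _)
  have h3 := hF y q₀ (r + U) (-(t • U)) hq hn1 hn2 hI
  have a8 : ‖-(t • U)‖ ^ 2 = t ^ 2 * ‖U‖ ^ 2 := by
    rw [norm_neg, norm_smul, mul_pow, Real.norm_of_nonneg ht0.le]
  have a9 : inner ℝ (r + U) (-(t • U)) = -(t * inner ℝ r U) - t * ‖U‖ ^ 2 := by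
    rw [inner_neg_right, inner_smul_right, inner_add_left, real_inner_self_eq_norm_sq]; ring
  rw [a8, a9] at h3
  rw [hz, ← hVn]
  have h4 : t * ‖U‖ ^ 2 - (B / 2 + 2 * C₁) * t ^ 2 * ‖U‖ ^ 2 ≤ 3 * C₁ * ‖V‖ ^ 2 := by
    nlinarith
  have h5 : (B / 2 + 2 * C₁) * t ^ 2 = t / 2 := by
    have : (B / 2 + 2 * C₁) * t ^ 2 = t / 2 * (t * (B + 4 * C₁)) := by ring
    rw [this, htD, mul_one]
  rw [h5] at h4
  have h6 : t * ‖U‖ ^ 2 ≤ 6 * C₁ * ‖V‖ ^ 2 := by linarith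
  calc ‖U‖ ^ 2 = (B + 4 * C₁) * (t * ‖U‖ ^ 2) := by
        rw [← mul_assoc, mul_comm (B + 4 * C₁) t, htD, one_mul]
    _ ≤ (B + 4 * C₁) * (6 * C₁ * ‖V‖ ^ 2) := by gcongr
    _ = 6 * C₁ * (B + 4 * C₁) * ‖V‖ ^ 2 := by ring


section main
variable [CompactSpace M]

/-- the two-step energy from the moving point `exp_x (w + τ η)` to `exp_y q₀` through `exp_y (p'/2)` -/
noncomputable def Phi (G : GeoData n M) (x y : M) (w η : TangentSpace (𝓡 n) x)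
    (q₀ : TangentSpace (𝓡 n) y) (a : ℝ × TangentSpace (𝓡 n) y) : ℝ :=
  2 * halfDistSq (G.ex x (w + a.1 • η)) (G.ex y ((1 / 2 : ℝ) • a.2)) +
    2 * halfDistSq (G.ex y ((1 / 2 : ℝ) • a.2)) (G.ex y q₀)

theorem contDiffAt_Phi (hB : Base G) {x y : M} {w η : TangentSpace (𝓡 n) x}
    {q₀ : TangentSpace (𝓡 n) y} (hy : G.ex x w = y) (hq : q₀ ∈ G.K y) :
    ContDiffAt ℝ ∞ (Phi G x y w η q₀) (0, q₀) := by
  have hI : (1 / 2 : ℝ) • q₀ ∈ G.I y := hB.smul_mem_I hq (by norm_num) (by norm_num)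
  have c1 := hB.smooth_cost y _ hI
  have m1 : ContMDiffAt 𝓘(ℝ, ℝ × TangentSpace (𝓡 n) y) (𝓡 n) ∞
      (fun a : ℝ × TangentSpace (𝓡 n) y => G.ex x (w + a.1 • η)) (0, q₀) :=
    SymExp413.contMDiffAt_ex_comp (by fun_prop)
  have m2 : ContMDiffAt 𝓘(ℝ, ℝ × TangentSpace (𝓡 n) y) (𝓡 n) ∞
      (fun a : ℝ × TangentSpace (𝓡 n) y => G.ex y ((1 / 2 : ℝ) • a.2)) (0, q₀) :=
    SymExp413.contMDiffAt_ex_comp (by fun_prop)
  have d1 : ContDiffAt ℝ ∞ (fun a : ℝ × TangentSpace (𝓡 n) y =>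
      halfDistSq (G.ex x (w + a.1 • η)) (G.ex y ((1 / 2 : ℝ) • a.2))) (0, q₀) := by
    refine SymExp413.contDiffAt_pair (x := x) (y := y) (z := y) ?_ m1 m2
    simp only [zero_smul, add_zero, hy]
    exact c1
  have d2 : ContDiffAt ℝ ∞ (fun a : ℝ × TangentSpace (𝓡 n) y =>
      halfDistSq (G.ex y ((1 / 2 : ℝ) • a.2)) (G.ex y q₀)) (0, q₀) := by
    have h1 := contDiffAt_F_half hB hq
    have h2 : ContDiffAt ℝ ∞ (fun a : ℝ × TangentSpace (𝓡 n) y => ((1 / 2 : ℝ) • a.2, q₀))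
      (0, q₀) := by fun_prop
    exact ContDiffAt.comp (0, q₀) (g := F G y) (f := fun a : ℝ × TangentSpace (𝓡 n) y =>
      ((1 / 2 : ℝ) • a.2, q₀)) h1 h2
  exact (contDiffAt_const.mul d1).add (contDiffAt_const.mul d2)


/-- vertical part of the Hessian of `Phi`: the normal form `Hf` -/
theorem hess_Phi_snd (hB : Base G) {x y : M} {w η : TangentSpace (𝓡 n) x}
    {q₀ : TangentSpace (𝓡 n) y} (hy : G.ex x w = y) (hq : q₀ ∈ G.K y)
    (u v : TangentSpace (𝓡 n) y) :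
    hess (Phi G x y w η q₀) (0, q₀) (0, u) (0, v) = Hf G y q₀ u v := by
  have hI : (1 / 2 : ℝ) • q₀ ∈ G.I y := hB.smul_mem_I hq (by norm_num) (by norm_num)
  rw [SymExp413.hess_snd_snd ((contDiffAt_Phi hB hy hq).of_le two_le_infty)]
  have hev : (fun b' => Phi G x y w η q₀ (0, b')) =ᶠ[𝓝 q₀] rho G y q₀ := by
    have hc : ContinuousAt (fun b' : TangentSpace (𝓡 n) y => (1 / 2 : ℝ) • b') q₀ := by fun_prop
    have h1 := hc.eventually ((hB.isOpen_I y).mem_nhds hI)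
    filter_upwards [h1] with b' hb'
    show 2 * halfDistSq (G.ex x (w + (0 : ℝ) • η)) (G.ex y ((1 / 2 : ℝ) • b')) +
      2 * halfDistSq (G.ex y ((1 / 2 : ℝ) • b')) (G.ex y q₀) =
      ‖b'‖ ^ 2 / 4 + 2 * halfDistSq (G.ex y ((1 / 2 : ℝ) • b')) (G.ex y q₀)
    rw [zero_smul, add_zero, hy, halfDistSq_of_mem_K (hB.I_subset y hb'), norm_smul, mul_pow]
    norm_num
    ring
  unfold hess
  rw [(hev.fderiv (𝕜 := ℝ)).fderiv_eq]
  rfl

/-- mixed part of the Hessian of `Phi` -/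
theorem hess_Phi_mixed (hC : CutFacts G) {x y : M} {w η : TangentSpace (𝓡 n) x}
    {q₀ : TangentSpace (𝓡 n) y} (hy : G.ex x w = y) (hq : q₀ ∈ G.K y)
    {ξ : TangentSpace (𝓡 n) y}
    (hξ : ξ = LoeperMfd128.cv (n := n) (fun τ : ℝ => G.ex x (w + τ • η)) 0)
    (v : TangentSpace (𝓡 n) y) :
    hess (Phi G x y w η q₀) (0, q₀) (1, 0) (0, v) = -inner ℝ ξ v := by
  have hB := hC.base347
  have hI : (1 / 2 : ℝ) • q₀ ∈ G.I y := hB.smul_mem_I hq (by norm_num) (by norm_num)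
  have hs2 : ContDiffAt ℝ 2 (Phi G x y w η q₀) (0, q₀) :=
    (contDiffAt_Phi hB hy hq).of_le two_le_infty
  rw [hess_symm hs2]
  have hc1 : HasDerivAt (fun s : ℝ => q₀ + s • v) v 0 := by
    simpa using ((hasDerivAt_id (0 : ℝ)).smul_const v).const_add q₀
  have hc : HasDerivAt (fun s : ℝ => ((0 : ℝ), q₀ + s • v)) ((0 : ℝ), v) 0 :=
    (hasDerivAt_const (0 : ℝ) (0 : ℝ)).prodMk hc1
  have h1 := hess_curve hs2 hc (by simp) ((1 : ℝ), (0 : TangentSpace (𝓡 n) y))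
  have hct : Tendsto (fun s : ℝ => ((0 : ℝ), q₀ + s • v)) (𝓝 0) (𝓝 (0, q₀)) := by
    have := hc.continuousAt.tendsto
    simpa using this
  have hdiff : ∀ᶠ a in 𝓝 ((0 : ℝ), q₀), DifferentiableAt ℝ (Phi G x y w η q₀) a := by
    filter_upwards [hs2.eventually (by simp)] with a ha
    exact ha.differentiableAt (by norm_num)
  have hIev : ∀ᶠ s : ℝ in 𝓝 0, (1 / 2 : ℝ) • (q₀ + s • v) ∈ G.I y := by
    have hcc : ContinuousAt (fun s : ℝ => (1 / 2 : ℝ) • (q₀ + s • v)) 0 := by fun_prop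
    apply hcc.eventually
    simp only [zero_smul, add_zero]
    exact (hB.isOpen_I y).mem_nhds hI
  have h2 : HasDerivAt (fun s : ℝ => -inner ℝ (q₀ + s • v) ξ) (-inner ℝ v ξ) 0 := by
    have h5 : (fun s : ℝ => -inner ℝ (q₀ + s • v) ξ) =
        fun s : ℝ => -inner ℝ q₀ ξ + s * (-inner ℝ v ξ) := by
      funext s
      rw [inner_add_left, real_inner_smul_left]; ring
    rw [h5]
    have := ((hasDerivAt_id (0 : ℝ)).mul_const (-inner ℝ v ξ)).const_add (-inner ℝ q₀ ξ)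
    simpa using this
  rw [real_inner_comm]
  refine h1.unique (h2.congr_of_eventuallyEq ?_)
  filter_upwards [hIev, hct.eventually hdiff] with s b1 b2
  -- the `τ`-derivative
  have e : (1 / 2 : ℝ) • (q₀ + s • v) = (1 / 2 : ℝ) • q₀ + s • ((1 / 2 : ℝ) • v) := by
    rw [smul_add, smul_comm]
  have b1' := b1
  rw [e] at b1'
  have h3 := LoeperPt128.hasDerivAt_ff_right hC hy hξ b1'
  have h4 := (h3.const_mul 2).add_const
    (2 * halfDistSq (G.ex y ((1 / 2 : ℝ) • (q₀ + s • v))) (G.ex y q₀))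
  have h5 : HasDerivAt (fun τ : ℝ => (τ, q₀ + s • v)) ((1 : ℝ), (0 : TangentSpace (𝓡 n) y)) 0 :=
    (hasDerivAt_id (0 : ℝ)).prodMk (hasDerivAt_const (0 : ℝ) (q₀ + s • v))
  have h6 : HasDerivAt (Phi G x y w η q₀ ∘ fun τ : ℝ => (τ, q₀ + s • v))
      (fderiv ℝ (Phi G x y w η q₀) (0, q₀ + s • v) (1, 0)) 0 :=
    b2.hasFDerivAt.comp_hasDerivAt (0 : ℝ) h5
  have h7 : HasDerivAt (Phi G x y w η q₀ ∘ fun τ : ℝ => (τ, q₀ + s • v))
      (2 * -inner ℝ ((1 / 2 : ℝ) • q₀ + s • ((1 / 2 : ℝ) • v)) ξ) 0 := by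
    refine h4.congr_of_eventuallyEq (Eventually.of_forall fun τ => ?_)
    show 2 * halfDistSq (G.ex x (w + τ • η)) (G.ex y ((1 / 2 : ℝ) • (q₀ + s • v))) + _ =
      2 * halfDistSq (G.ex x (w + τ • η)) (G.ex y ((1 / 2 : ℝ) • q₀ + s • ((1 / 2 : ℝ) • v))) + _
    rw [e]
  rw [h6.unique h7, ← e, real_inner_smul_left]
  ring

/-- minimality of the midpoints -/
theorem Phi_ge {x y : M} {w η : TangentSpace (𝓡 n) x} {q₀ : TangentSpace (𝓡 n) y}
    (hx : G.ex y q₀ = x) {τ : ℝ} (hτ : w + τ • η ∈ G.K x) (p' : TangentSpace (𝓡 n) y) :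
    ‖w + τ • η‖ ^ 2 / 2 ≤ Phi G x y w η q₀ (τ, p') := by
  have h1 := halfDistSq_le_two (G.ex x (w + τ • η)) (G.ex y ((1 / 2 : ℝ) • p')) (G.ex y q₀)
  rw [hx, halfDistSq_comm _ x, halfDistSq_of_mem_K hτ] at h1
  show _ ≤ 2 * halfDistSq (G.ex x (w + τ • η)) (G.ex y ((1 / 2 : ℝ) • p')) +
    2 * halfDistSq (G.ex y ((1 / 2 : ℝ) • p')) (G.ex y q₀)
  rw [hx]
  exact h1

theorem Phi_mid (hB : Base G) {x y : M} {w η : TangentSpace (𝓡 n) x} {q₀ : TangentSpace (𝓡 n) y}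
    (hx : G.ex y q₀ = x) {τ : ℝ} (hτ : w + τ • η ∈ G.K x) {r : TangentSpace (𝓡 n) y}
    (hr : G.ex y r = G.ex x ((1 / 2 : ℝ) • (w + τ • η))) :
    Phi G x y w η q₀ (τ, (2 : ℝ) • r) = ‖w + τ • η‖ ^ 2 / 2 := by
  show 2 * halfDistSq (G.ex x (w + τ • η)) (G.ex y ((1 / 2 : ℝ) • ((2 : ℝ) • r))) +
    2 * halfDistSq (G.ex y ((1 / 2 : ℝ) • ((2 : ℝ) • r))) (G.ex y q₀) = _
  have e : (1 / 2 : ℝ) • ((2 : ℝ) • r) = r := by rw [smul_smul]; norm_num
  have h1 := halfDistSq_of_mem_K' hτ (s := 1 / 2) (t := 1) (by norm_num) (by norm_num) le_rfl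
  have h2 := halfDistSq_of_mem_K (hB.star x _ hτ (1 / 2) (by norm_num) (by norm_num))
  rw [one_smul] at h1
  rw [norm_smul, mul_pow, Real.norm_eq_abs, sq_abs] at h2
  rw [e, hr, hx, halfDistSq_comm (G.ex x (w + τ • η)), h1, halfDistSq_comm _ x, h2]
  ring

theorem Phi_crit (hB : Base G) {x y : M} {w η : TangentSpace (𝓡 n) x} {q₀ : TangentSpace (𝓡 n) y}
    (hx : G.ex y q₀ = x) {τ : ℝ} (hτ : w + τ • η ∈ G.K x) {r : TangentSpace (𝓡 n) y}
    (hr : G.ex y r = G.ex x ((1 / 2 : ℝ) • (w + τ • η)))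
    (hd : DifferentiableAt ℝ (Phi G x y w η q₀) (τ, (2 : ℝ) • r)) (θ : TangentSpace (𝓡 n) y) :
    fderiv ℝ (Phi G x y w η q₀) (τ, (2 : ℝ) • r) (0, θ) = 0 := by
  have h4 : HasDerivAt (fun t : ℝ => (τ, (2 : ℝ) • r + t • θ)) ((0 : ℝ), θ) 0 := by
    have h5 : HasDerivAt (fun t : ℝ => (2 : ℝ) • r + t • θ) θ 0 := by
      have := ((hasDerivAt_id (0 : ℝ)).smul_const θ).const_add ((2 : ℝ) • r)
      simpa using this
    exact (hasDerivAt_const (0 : ℝ) τ).prodMk h5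
  have h6 : HasFDerivAt (Phi G x y w η q₀) (fderiv ℝ (Phi G x y w η q₀) (τ, (2 : ℝ) • r))
      (τ, (2 : ℝ) • r + (0 : ℝ) • θ) := by
    rw [zero_smul, add_zero]; exact hd.hasFDerivAt
  have h7 := h6.comp_hasDerivAt (0 : ℝ) h4
  have h8 : IsLocalMin (Phi G x y w η q₀ ∘ fun t : ℝ => (τ, (2 : ℝ) • r + t • θ)) 0 := by
    refine Eventually.of_forall fun t => ?_
    show Phi G x y w η q₀ (τ, (2 : ℝ) • r + (0 : ℝ) • θ) ≤ Phi G x y w η q₀ (τ, (2 : ℝ) • r + t • θ)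
    rw [zero_smul, add_zero, Phi_mid hB hx hτ hr]
    exact Phi_ge hx hτ _
  exact h8.hasDerivAt_eq_zero h7

/-- **(L1b) `ZetaP`** -/
theorem zetaP [IsRiemannianManifold (𝓡 n) M] (hC : CutFacts G) :
    ∃ C : ℝ, 0 ≤ C ∧ T1i115.ZetaP G C := by
  have hB := hC.base347
  obtain ⟨A, δ, hA, hδ, hhalf⟩ := half_lower hB
  obtain ⟨L, hL, hlip⟩ := ExLip659.ex_lip G (Metric.diam (univ : Set M))
  refine ⟨√A * L, by positivity, ?_⟩
  intro x y w η hw hy q₀ hq hx ξ hξ ζ hζ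
  have hwK := hB.I_subset x hw
  have hqK := hB.I_subset y hq
  have hhI : (1 / 2 : ℝ) • q₀ ∈ G.I y := hB.smul_mem_I hqK (by norm_num) (by norm_num)
  -- the midpoint
  have hmid : G.ex y ((1 / 2 : ℝ) • q₀) = G.ex x ((1 / 2 : ℝ) • w) := by
    obtain ⟨p, hpK, hp⟩ := SymExp413.exists_rev hB hwK hy
    have h1 : p = q₀ := by
      refine CutTop478.uniq G y q₀ hq p hpK ?_
      have := hp 1
      rw [one_smul, sub_self, zero_smul, G.ex_zero] at this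
      rw [this, hx]
    rw [← h1, hp]; norm_num
  set z : ℝ → M := fun τ => G.ex x ((1 / 2 : ℝ) • (w + τ • η)) with hz
  set r : ℝ → TangentSpace (𝓡 n) y := fun τ => CutSmooth77.wt G (y, z τ) with hr
  have hrK : ∀ τ, r τ ∈ G.K y := fun τ => CutSmooth77.wt_mem G (y, z τ)
  have hre : ∀ τ, G.ex y (r τ) = z τ := fun τ => CutSmooth77.wt_ex G (y, z τ)
  have hzt : Tendsto z (𝓝 0) (𝓝 (G.ex y ((1 / 2 : ℝ) • q₀))) := by
    have h1 : Continuous z := (MTWConc117.contMDiff_ex G x).continuous.comp (by fun_prop)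
    have h2 := h1.tendsto 0
    rw [hmid]
    simpa [hz] using h2
  have hrt : Tendsto r (𝓝 0) (𝓝 ((1 / 2 : ℝ) • q₀)) := by
    apply tendsto_fiber
    exact (CutSmooth77.tendsto_Wt G hhI).comp (tendsto_const_nhds.prodMk_nhds hzt)
  -- the bound
  have hrb : ∀ᶠ τ : ℝ in 𝓝 0, ‖r τ - (1 / 2 : ℝ) • q₀‖ ≤ √A * (L * (|τ| / 2 * ‖η‖)) := by
    have h1 : ∀ᶠ τ : ℝ in 𝓝 0, ‖r τ - (1 / 2 : ℝ) • q₀‖ < δ := by
      have h2 : Tendsto (fun τ => ‖r τ - (1 / 2 : ℝ) • q₀‖) (𝓝 0) (𝓝 0) := by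
        have := (hrt.sub_const ((1 / 2 : ℝ) • q₀)).norm
        simpa using this
      exact h2.eventually (gt_mem_nhds hδ)
    filter_upwards [h1, hrt.eventually ((hB.isOpen_I y).mem_nhds hhI)] with τ a1 a2
    have a3 := hhalf y q₀ (r τ - (1 / 2 : ℝ) • q₀) hqK a1 (by rwa [add_sub_cancel])
    rw [add_sub_cancel, hre, hmid] at a3
    have a4 : dist (G.ex x ((1 / 2 : ℝ) • w)) (z τ) ≤ L * (|τ| / 2 * ‖η‖) := by
      have h3 := hlip x ((1 / 2 : ℝ) • w) ((1 / 2 : ℝ) • (w + τ • η)) (by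
        rw [norm_smul, ← (CutTop478.mem_K G).1 hwK]
        have h5 : dist x (G.ex x w) ≤ Metric.diam (univ : Set M) :=
          Metric.dist_le_diam_of_mem isCompact_univ.isBounded (mem_univ _) (mem_univ _)
        have h6 : (0 : ℝ) ≤ dist x (G.ex x w) := dist_nonneg
        norm_num
        linarith)
      refine h3.trans (le_of_eq ?_)
      congr 1
      rw [smul_add, sub_add_cancel_left, norm_neg, smul_smul, norm_smul, Real.norm_eq_abs, abs_mul,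
        abs_of_pos (by norm_num : (0 : ℝ) < 1 / 2)]
      ring
    have a5 : ‖r τ - (1 / 2 : ℝ) • q₀‖ ^ 2 ≤ (√A * (L * (|τ| / 2 * ‖η‖))) ^ 2 := by
      rw [mul_pow, Real.sq_sqrt hA]
      refine a3.trans ?_
      gcongr
    exact le_of_sq_le_sq a5 (by positivity)
  set R : ℝ := √A * L * ‖η‖ with hR
  have hR0 : 0 ≤ R := by positivity
  set D : ℝ → TangentSpace (𝓡 n) y := fun τ => τ⁻¹ • ((2 : ℝ) • r τ - q₀) with hD
  have hDb : ∀ᶠ τ : ℝ in 𝓝[>] 0, D τ ∈ Metric.closedBall (0 : TangentSpace (𝓡 n) y) R := by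
    filter_upwards [hrb.filter_mono nhdsWithin_le_nhds, self_mem_nhdsWithin] with τ a1 a2
    have a2' : 0 < τ := a2
    rw [abs_of_pos a2'] at a1
    have e : (2 : ℝ) • r τ - q₀ = (2 : ℝ) • (r τ - (1 / 2 : ℝ) • q₀) := by
      rw [smul_sub, smul_smul]; norm_num
    rw [mem_closedBall_zero_iff]
    show ‖τ⁻¹ • ((2 : ℝ) • r τ - q₀)‖ ≤ R
    rw [e, norm_smul, norm_smul, norm_inv, Real.norm_of_nonneg a2'.le,
      Real.norm_of_nonneg (by norm_num : (0 : ℝ) ≤ 2), inv_mul_le_iff₀ a2']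
    calc 2 * ‖r τ - (1 / 2 : ℝ) • q₀‖ ≤ 2 * (√A * (L * (τ / 2 * ‖η‖))) := by gcongr
      _ = τ * R := by rw [hR]; ring
  have hne : (𝓝[>] (0 : ℝ)).NeBot := inferInstance
  obtain ⟨U, hU⟩ : ∃ U : Ultrafilter ℝ, (U : Filter ℝ) ≤ 𝓝[>] 0 :=
    ⟨Ultrafilter.of (𝓝[>] (0 : ℝ)), Ultrafilter.of_le _⟩
  have hU0 : (U : Filter ℝ) ≤ 𝓝 0 := hU.trans nhdsWithin_le_nhds
  obtain ⟨Ds, hDs, hDt⟩ := (isCompact_closedBall (0 : TangentSpace (𝓡 n) y) R).ultrafilter_le_nhds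
    (U.map D) (by
      rw [Filter.le_principal_iff]
      exact hU hDb)
  have hDt' : Tendsto D U (𝓝 Ds) := hDt
  -- little-o
  have hs2 : ContDiffAt ℝ 2 (Phi G x y w η q₀) (0, q₀) :=
    (contDiffAt_Phi hB hy hqK).of_le two_le_infty
  have ho := (hasFDerivAt_fderiv' hs2).isLittleO
  set a : ℝ → ℝ × TangentSpace (𝓡 n) y := fun τ => (τ, (2 : ℝ) • r τ) with ha
  have hat : Tendsto a (𝓝 0) (𝓝 (0, q₀)) := by
    have h1 : Tendsto (fun τ => (2 : ℝ) • r τ) (𝓝 0) (𝓝 q₀) := by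
      have := hrt.const_smul (2 : ℝ)
      rw [smul_smul] at this
      norm_num at this
      exact this
    exact tendsto_id.prodMk_nhds h1
  have hsub : ∀ᶠ τ : ℝ in U, a τ - ((0 : ℝ), q₀) = τ • ((1 : ℝ), D τ) := by
    filter_upwards [hU self_mem_nhdsWithin] with τ hτ
    have hτ' : (0 : ℝ) < τ := hτ
    show ((τ - 0 : ℝ), (2 : ℝ) • r τ - q₀) = (τ • (1 : ℝ), τ • (τ⁻¹ • ((2 : ℝ) • r τ - q₀)))
    rw [smul_inv_smul₀ hτ'.ne', sub_zero, smul_eq_mul, mul_one]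
  have ho2 : (fun τ => fderiv ℝ (Phi G x y w η q₀) (a τ) -
      fderiv ℝ (Phi G x y w η q₀) (0, q₀) -
      hess (Phi G x y w η q₀) (0, q₀) (a τ - (0, q₀))) =o[(U : Filter ℝ)] fun τ => τ := by
    refine (ho.comp_tendsto (hat.mono_left hU0)).trans_isBigO ?_
    refine Asymptotics.IsBigO.of_bound (1 + R) ?_
    filter_upwards [hsub, hU hDb] with τ a1 a2
    rw [mem_closedBall_zero_iff] at a2
    show ‖a τ - (0, q₀)‖ ≤ _
    rw [a1, norm_smul, mul_comm]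
    gcongr
    rw [Prod.norm_def]
    refine max_le ?_ ?_
    · simp [hR0]
    · show ‖D τ‖ ≤ 1 + R
      linarith
  have hdiff : ∀ᶠ b in 𝓝 ((0 : ℝ), q₀), DifferentiableAt ℝ (Phi G x y w η q₀) b := by
    filter_upwards [hs2.eventually (by simp)] with b hb
    exact hb.differentiableAt (by norm_num)
  have hKev : ∀ᶠ τ : ℝ in 𝓝 0, w + τ • η ∈ G.K x := by
    filter_upwards [LoeperPt128.eventually_mem_I hC η hw] with τ hτ
    exact hB.I_subset x hτ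
  have hcrit : ∀ θ : TangentSpace (𝓡 n) y, ∀ᶠ τ : ℝ in 𝓝 0,
      fderiv ℝ (Phi G x y w η q₀) (a τ) (0, θ) = 0 := by
    intro θ
    filter_upwards [hKev, hat.eventually hdiff] with τ b1 b2
    exact Phi_crit hB hx b1 (hre τ) b2 θ
  have hr0 : (2 : ℝ) • r 0 = q₀ := by
    have h1 : r 0 = (1 / 2 : ℝ) • q₀ := by
      refine CutTop478.uniq G y _ hhI _ (hrK 0) ?_
      rw [hre, hmid]
      show G.ex x ((1 / 2 : ℝ) • (w + (0 : ℝ) • η)) = _
      rw [zero_smul, add_zero]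
    rw [h1, smul_smul]; norm_num
  have hcrit0 : ∀ θ : TangentSpace (𝓡 n) y,
      fderiv ℝ (Phi G x y w η q₀) (0, q₀) (0, θ) = 0 := by
    intro θ
    have h1 := (hcrit θ).self_of_nhds
    have h2 : a 0 = (0, q₀) := by
      show ((0 : ℝ), (2 : ℝ) • r 0) = _
      rw [hr0]
    rwa [h2] at h1
  have hlin : ∀ v θ : TangentSpace (𝓡 n) y,
      hess (Phi G x y w η q₀) (0, q₀) ((1 : ℝ), v) (0, θ) = Hf G y q₀ v θ - inner ℝ ξ θ := by
    intro v θ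
    have e : ((1 : ℝ), v) = ((1 : ℝ), (0 : TangentSpace (𝓡 n) y)) + ((0 : ℝ), v) := by simp
    rw [e, map_add, add_apply, hess_Phi_mixed hC hy hqK hξ, hess_Phi_snd hB hy hqK]
    ring
  have hlim : ∀ θ : TangentSpace (𝓡 n) y, Hf G y q₀ Ds θ = inner ℝ ξ θ := by
    intro θ
    have h1 : (fun τ : ℝ => (fderiv ℝ (Phi G x y w η q₀) (a τ) -
      fderiv ℝ (Phi G x y w η q₀) (0, q₀) -
      hess (Phi G x y w η q₀) (0, q₀) (a τ - (0, q₀))) ((0 : ℝ), θ)) =o[(U : Filter ℝ)]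
        fun τ => τ := by
      rw [Asymptotics.isLittleO_iff]
      intro c hc
      have hk : 0 < ‖((0 : ℝ), θ)‖ + 1 := by positivity
      filter_upwards [(Asymptotics.isLittleO_iff.1 ho2) (show 0 < c / (‖((0 : ℝ), θ)‖ + 1) by
        positivity)] with τ h
      refine (ContinuousLinearMap.le_opNorm _ _).trans ?_
      calc _ ≤ (c / (‖((0 : ℝ), θ)‖ + 1) * ‖τ‖) * (‖((0 : ℝ), θ)‖ + 1) := by
            gcongr
            linarith
        _ = c * ‖τ‖ := by field_simp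
    have h2 := h1.tendsto_inv_smul_nhds_zero
    have h5 : Tendsto (fun τ : ℝ => -(Hf G y q₀ (D τ) θ - inner ℝ ξ θ)) U (𝓝 0) := by
      refine h2.congr' ?_
      filter_upwards [hsub, hU self_mem_nhdsWithin, hU0 (hcrit θ)] with τ a1 a2 a3
      have a2' : (0 : ℝ) < τ := a2
      have a3' : fderiv ℝ (Phi G x y w η q₀) (a τ) (0, θ) = 0 := a3
      rw [a1, sub_apply, sub_apply, a3', hcrit0, map_smul, smul_apply, hlin,
        smul_eq_mul, smul_eq_mul]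
      field_simp
      ring
    have h6 : Tendsto (fun τ : ℝ => -(Hf G y q₀ (D τ) θ - inner ℝ ξ θ)) U
        (𝓝 (-(Hf G y q₀ Ds θ - inner ℝ ξ θ))) := by
      have h7 : Continuous fun v : TangentSpace (𝓡 n) y => -(Hf G y q₀ v θ - inner ℝ ξ θ) := by
        have : Continuous fun v : TangentSpace (𝓡 n) y => Hf G y q₀ v θ :=
          ((ContinuousLinearMap.apply ℝ ℝ θ).continuous.comp (Hf G y q₀).continuous)
        fun_prop
      exact (h7.tendsto Ds).comp hDt'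
    have h8 := tendsto_nhds_unique h5 h6
    linarith
  have hfin : Ds = ζ := by
    by_contra hne'
    have h1 : Ds - ζ ≠ 0 := sub_ne_zero.2 hne'
    have h2 := Hf_pos hB hq h1
    have h3 : Hf G y q₀ (Ds - ζ) (Ds - ζ) = 0 := by
      rw [map_sub (Hf G y q₀), sub_apply, hlim, hζ, sub_self]
    linarith
  rw [← hfin]
  have := mem_closedBall_zero_iff.1 hDs
  exact this

end main

end Crest.Agent.R226.Zeta186
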