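/-
R226 (helper115): **(T1)(i) and NS1 unconditionally** (from `CutFacts`, `MTWFacts`, `GoodAll`):
RadP (946) + ZetaP (186) + T1iStat (115) + T1iFin, NS1C (683); and `Half2P` (114) from them.
-/
import Crest.Agent.R226.T1iTop_115
import Crest.Agent.R226.T1iFin_683
import Crest.Agent.R226.ZetaP_186
import Crest.Agent.R226.Depth_946
import Crest.Agent.R226.NS1C_683
import Crest.Agent.R226.Half2_114

set_option autoImplicit false

open MeasureTheory Bundle Set Filter
open scoped Manifold ContDiff Bundle ENNReal Topology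
open Crest.GeometryTopology.MTW

namespace Crest.Agent.R226.NS1Top115

open Crest.Agent.R226.NS683 Crest.Agent.R226.T1i115 Crest.Agent.R226.Dasm290

variable {n : ℕ} {M : Type*} [MetricSpace M] [ChartedSpace (EuclideanSpace ℝ (Fin n)) M]
  [IsManifold (𝓡 n) ∞ M]
  [RiemannianBundle (fun p : M => TangentSpace (𝓡 n) p)]
  [IsContMDiffRiemannianBundle (𝓡 n) ∞ (EuclideanSpace ℝ (Fin n))
    (fun p : M => TangentSpace (𝓡 n) p)] [CompactSpace M] [IsRiemannianManifold (𝓡 n) M]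
  {G : GeoData n M}

/-- `RadP` (946) -/
theorem exists_radP (hC : CutFacts G) : ∃ c C : ℝ, 0 < c ∧ 0 ≤ C ∧ RadP G c C := by
  obtain ⟨c, hc, C, hC0, h⟩ := Depth946.depth_D2 hC.base347
  exact ⟨c, C, hc, hC0, h⟩

/-- **(T1)(i)** -/
theorem exists_t1iP (hC : CutFacts G) (hM : MTWFacts G) (hg : GoodAll G) :
    ∃ C : ℝ, 0 ≤ C ∧ T1iP G C := by
  obtain ⟨c, C, hc, -, hR⟩ := exists_radP hC
  obtain ⟨C₁, hC1, hS⟩ := t1iStat hC.base347 hM (fun y => Final267.convex_I hC hg y) hc hR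
  obtain ⟨C₂, hC2, hZ⟩ := Zeta186.zetaP hC
  exact T1iFin683.t1iP_of_stat' hC.base347 hC hg hC1 hC2 hS hZ

/-- **NS1** -/
theorem exists_ns1P [MeasurableSpace M] [BorelSpace M] (hC : CutFacts G) (hM : MTWFacts G)
    (hg : GoodAll G) : ∃ C : ℝ, 0 ≤ C ∧ NS1P G C := by
  obtain ⟨C, hC0, hT⟩ := exists_t1iP hC hM hg
  exact ⟨C, hC0, ns1P_of_T1iP hC hC0 hT⟩

/-- **Half 2** of the pair dichotomy, unconditionally (114's `half2P_of_T1iP`). -/
theorem half2P [MeasurableSpace M] [BorelSpace M]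
    [IsFiniteMeasure (Measure.hausdorffMeasure (n : ℝ) : Measure M)]
    (hC : CutFacts G) (hM : MTWFacts G) (hg : GoodAll G) {m : ℝ} (hm : 0 < m) :
    Plan619.Half2P (Measure.hausdorffMeasure (n : ℝ) : Measure M) m := by
  obtain ⟨C, hC0, hT⟩ := exists_t1iP hC hM hg
  exact Half2_114.half2P_of_T1iP hC.base347 hC hM hg hC0 hT hm

end Crest.Agent.R226.NS1Top115
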