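/-
R226 (helper464): the common parent on a segment (helper881's SEGMENT TRICK, msg 12332), second
typist.

`parent_seg`: `𝒢 ⊆ K` compact, made of copies `p* + k (p - p*)`, `k ≥ 1/2`, of points `p ∈ A`; then
there are `zN, zF ∈ A` and a compact set `W ⊆ K` of points `p' = p_b + (1/2)(r - p_b)`,
`p_b = p* + (k/4)(p - p*)`, `r ∈ [zN, zF]`, `⟪p_b, r - p_b⟫ ≥ 0`, with `∫_𝒢 J ≤ C ∫_W J`.
Only the monotonicity off the foot `WNcP` is used.
-/
import Crest.Agent.R226.Parent_433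

set_option autoImplicit false
set_option linter.unusedSectionVars false
set_option linter.unusedVariables false

open MeasureTheory Set Filter Topology Module
open scoped ENNReal RealInnerProductSpace

namespace Crest.Agent.R226.ParentSeg464

open Crest.Agent.R226.WOff915 Crest.Agent.R226.WNc344 Crest.Agent.R226.PairLem433
open Crest.Agent.R226.Parent433

section alg

variable {E : Type*} [NormedAddCommGroup E] [InnerProductSpace ℝ E]

theorem cone_smul {u v : E} (hv : v ∈ cone u) {k : ℝ} (hk : 0 ≤ k) : k • v ∈ cone u := by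
  unfold cone at hv ⊢
  rw [mem_ofPred_eq] at hv ⊢
  have e : k • v - ‖k • v‖ • u = k • (v - ‖v‖ • u) := by
    rw [norm_smul, Real.norm_of_nonneg hk, smul_sub, smul_smul]
  rw [e, norm_smul, norm_smul, Real.norm_of_nonneg hk]
  calc k * ‖v - ‖v‖ • u‖ ≤ k * (‖v‖ / 2) := by gcongr
    _ = k * ‖v‖ / 2 := by ring

theorem cone_of_smul {u v : E} {k : ℝ} (hk : 0 < k) (hv : k • v ∈ cone u) : v ∈ cone u := by
  have h := cone_smul hv (k := k⁻¹) (by positivity)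
  rwa [smul_smul, inv_mul_cancel₀ hk.ne', one_smul] at h

theorem inner_expand (ps w ρ : E) :
    ⟪ps + (1 / 4 : ℝ) • w, ρ - (1 / 4 : ℝ) • w⟫ =
      ⟪ps, ρ⟫ - 1 / 4 * ⟪ps, w⟫ + 1 / 4 * ⟪w, ρ⟫ - 1 / 16 * ‖w‖ ^ 2 := by
  rw [inner_add_left, inner_sub_right, inner_sub_right, real_inner_smul_left, real_inner_smul_left,
    real_inner_smul_right, real_inner_smul_right, real_inner_self_eq_norm_sq]
  ring

theorem norm_expand (w ρ : E) :
    ‖ρ - (1 / 4 : ℝ) • w‖ ^ 2 = ‖ρ‖ ^ 2 - 1 / 2 * ⟪w, ρ⟫ + 1 / 16 * ‖w‖ ^ 2 := by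
  rw [norm_sub_sq_real, real_inner_smul_right, norm_smul, mul_pow, Real.norm_eq_abs, sq_abs,
    real_inner_comm w ρ]
  ring

/-- lateral margin -/
theorem margin_lat {ps w ρ : E} (hg : 0 ≤ ⟪ps, ρ⟫) (hw : 8 * ⟪ps, w⟫ ≤ ‖w‖ ^ 2)
    (hc : ‖w‖ * ‖ρ‖ ≤ 2 * ⟪w, ρ⟫) (h1 : ‖w‖ ≤ ‖ρ‖) (h2 : ‖ρ‖ ≤ 2 * ‖w‖) :
    (1 / 1024 : ℝ) * ‖ρ - (1 / 4 : ℝ) • w‖ ^ 2 ≤ ⟪ps + (1 / 4 : ℝ) • w, ρ - (1 / 4 : ℝ) • w⟫ := by
  rw [inner_expand, norm_expand]
  have hw0 := norm_nonneg w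
  have h3 : ‖w‖ ^ 2 ≤ ‖w‖ * ‖ρ‖ := by nlinarith
  have h4 : ‖ρ‖ ^ 2 ≤ 4 * ‖w‖ ^ 2 := by nlinarith [norm_nonneg ρ]
  have h5 : 0 ≤ ‖w‖ ^ 2 := by positivity
  linarith

/-- radial margin -/
theorem margin_rad {ps w z : E} (gw : 0 ≤ ⟪ps, w⟫) (hle : ⟪ps, w⟫ ≤ ⟪ps, z⟫)
    (hw : ‖w‖ ^ 2 ≤ 8 * ⟪ps, w⟫) (hz : ‖z‖ ^ 2 ≤ 16 * ⟪ps, z⟫) (hc : 0 ≤ ⟪w, z⟫) :
    (1 / 1024 : ℝ) * ‖z - (1 / 4 : ℝ) • w‖ ^ 2 ≤ ⟪ps + (1 / 4 : ℝ) • w, z - (1 / 4 : ℝ) • w⟫ := by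
  rw [inner_expand, norm_expand]
  linarith

theorem seg_cone {u w zN zF ρ : E} (hw : w ∈ cone u) (hN : zN ∈ cone u) (hF : zF ∈ cone u)
    (hρ : ρ ∈ segment ℝ zN zF) : ‖w‖ * ‖ρ‖ ≤ 2 * ⟪w, ρ⟫ := by
  obtain ⟨a, b, ha, hb, hab, rfl⟩ := hρ
  have h1 := cone_angle hw hN
  have h2 := cone_angle hw hF
  rw [inner_add_right, real_inner_smul_right, real_inner_smul_right]
  have h3 : ‖a • zN + b • zF‖ ≤ a * ‖zN‖ + b * ‖zF‖ := by
    refine (norm_add_le _ _).trans (le_of_eq ?_)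
    rw [norm_smul, norm_smul, Real.norm_of_nonneg ha, Real.norm_of_nonneg hb]
  calc ‖w‖ * ‖a • zN + b • zF‖ ≤ ‖w‖ * (a * ‖zN‖ + b * ‖zF‖) := by gcongr
    _ = a * (‖w‖ * ‖zN‖) + b * (‖w‖ * ‖zF‖) := by ring
    _ ≤ a * (2 * ⟪w, zN⟫) + b * (2 * ⟪w, zF⟫) := by gcongr
    _ = _ := by ring

theorem seg_sub {ps zN zF r : E} (hr : r ∈ segment ℝ zN zF) :
    r - ps ∈ segment ℝ (zN - ps) (zF - ps) := by
  obtain ⟨a, b, ha, hb, hab, rfl⟩ := hr
  refine ⟨a, b, ha, hb, hab, ?_⟩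
  have : ps = (a + b) • ps := by rw [hab, one_smul]
  conv_rhs => rw [this]
  module

theorem seg_nonneg {ps zN zF ρ : E} (hN : 0 ≤ ⟪ps, zN⟫) (hF : 0 ≤ ⟪ps, zF⟫)
    (hρ : ρ ∈ segment ℝ zN zF) : 0 ≤ ⟪ps, ρ⟫ := by
  obtain ⟨a, b, ha, hb, hab, rfl⟩ := hρ
  rw [inner_add_right, real_inner_smul_right, real_inner_smul_right]
  positivity

/-- a point of the segment at a comparable distance of `ps`. -/
theorem exists_seg {ps zN zF : E} {b c : ℝ} (h1 : ‖zN - ps‖ ≤ c) (h2 : b ≤ ‖zF - ps‖)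
    (h3 : b ≤ c) : ∃ r ∈ segment ℝ zN zF, b ≤ ‖r - ps‖ ∧ ‖r - ps‖ ≤ c := by
  rcases le_or_gt b ‖zN - ps‖ with h | h
  · exact ⟨zN, left_mem_segment ℝ _ _, h, h1⟩
  · have hc : ContinuousOn (fun t : ℝ => ‖zN + t • (zF - zN) - ps‖) (Icc 0 1) := by fun_prop
    have hiv := intermediate_value_Icc (zero_le_one' ℝ) hc
    have hb : b ∈ Icc (‖zN + (0 : ℝ) • (zF - zN) - ps‖) (‖zN + (1 : ℝ) • (zF - zN) - ps‖) := by
      constructor
      · simpa using h.le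
      · simpa using h2
    obtain ⟨t, ht, hbt⟩ := hiv hb
    have hbt' : ‖zN + t • (zF - zN) - ps‖ = b := hbt
    refine ⟨zN + t • (zF - zN), ⟨1 - t, t, by linarith [ht.2], ht.1, by ring, by module⟩, ?_, ?_⟩
    · rw [hbt']
    · rw [hbt']; exact h3

end alg

section meas

variable {E : Type*} [NormedAddCommGroup E] [InnerProductSpace ℝ E] [FiniteDimensional ℝ E]
  [MeasurableSpace E] [BorelSpace E]

/-- one move: contraction by `1/4` to `ps`, then by `1/2` to `r`. -/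
theorem move (μ : Measure E) [μ.IsAddHaarMeasure] {K : Set E} {J : E → ℝ≥0∞} {c₁ : ℝ}
    (hc₁ : 0 < c₁) (hK : Convex ℝ K) (hW : WNcP K J (1 / 1024) (1 / 4) c₁) {ps : E} (hps : ps ∈ K)
    {S : Set E} (hSK : S ⊆ K) (hSc : IsCompact S) (hg : ∀ q ∈ S, 0 ≤ ⟪ps, q - ps⟫) {r : E}
    (hr : r ∈ K)
    (hm : ∀ q ∈ S, (1 / 1024 : ℝ) * ‖r - con ps (1 / 4) q‖ ^ 2 ≤
      ⟪con ps (1 / 4) q, r - con ps (1 / 4) q⟫) :
    ENNReal.ofReal ((1 / 2 : ℝ) ^ finrank ℝ E * c₁ * ((1 / 4 : ℝ) ^ finrank ℝ E * c₁)) *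
      ∫⁻ p in S, J p ∂μ ≤ ∫⁻ p in con r (1 / 2) '' (con ps (1 / 4) '' S), J p ∂μ := by
  have hb : ∀ q ∈ S, con ps (1 / 4) q ∈ K := fun q hq =>
    con_mem hK hps (hSK hq) (by norm_num) (by norm_num)
  have hstep1 : ∀ q ∈ S, ENNReal.ofReal c₁ * J q ≤ J (con ps (1 / 4) q) := by
    intro q hq
    have h1 := hW q (hSK hq) ps hps (3 / 4) (by norm_num) (by norm_num)
      (Off.inward (by
        have hg' := hg q hq
        have e1 : q + (3 / 4 : ℝ) • (ps - q) = ps + (1 / 4 : ℝ) • (q - ps) := by module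
        have e2 : ps - q = -(q - ps) := by abel
        rw [e1, e2, inner_neg_right, inner_add_left, real_inner_smul_left,
          real_inner_self_eq_norm_sq, norm_neg]
        have : 0 ≤ ‖q - ps‖ ^ 2 := by positivity
        linarith))
    have e1 : q + (3 / 4 : ℝ) • (ps - q) = con ps (1 / 4) q := by unfold con; module
    rw [e1] at h1
    exact h1
  have hVb : MeasurableSet (con ps (1 / 4) '' S) :=
    (hSc.image (continuous_con _ _)).measurableSet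
  have hstep2 : ∀ p ∈ con ps (1 / 4) '' S, ENNReal.ofReal c₁ * J p ≤ J (con r (1 / 2) p) := by
    rintro _ ⟨q, hq, rfl⟩
    have h1 := hW _ (hb q hq) r hr (1 / 2) (by norm_num) (by norm_num) (Off.outward (hm q hq))
    have e1 : con ps (1 / 4) q + (1 / 2 : ℝ) • (r - con ps (1 / 4) q) =
        con r (1 / 2) (con ps (1 / 4) q) := by unfold con; module
    rw [e1] at h1
    exact h1
  have h1 := lintegral_con_ge μ ps (a := 1 / 4) (by norm_num) hSc.measurableSet hstep1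
  have h2 := lintegral_con_ge μ r (a := 1 / 2) (by norm_num) hVb hstep2
  refine le_trans (le_of_eq ?_) (le_trans (mul_le_mul_right (mul_le_mul_right h1 _) _) h2)
  rw [ENNReal.ofReal_mul (by positivity), ENNReal.ofReal_mul (by positivity),
    ENNReal.ofReal_mul (by positivity)]
  ring

/-- bounded overlap -/
theorem sum_measure_le {α : Type*} [MeasurableSpace α] (ν : Measure α) (N : ℕ) (W : ℕ → Set α)
    (hW : ∀ j, MeasurableSet (W j)) (f : α → ℝ) {δ : ℝ} (hδ : 0 < δ)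
    (h1 : ∀ j, ∀ x ∈ W j, 3 / 8 * (δ * 2 ^ j) ≤ f x)
    (h2 : ∀ j, ∀ x ∈ W j, f x ≤ 5 / 2 * (δ * 2 ^ j)) :
    ∑ j ∈ Finset.range N, ν (W j) ≤ 3 * ν (⋃ j ∈ Finset.range N, W j) := by
  classical
  have hmU : MeasurableSet (⋃ j ∈ Finset.range N, W j) :=
    Finset.measurableSet_biUnion _ fun j _ => hW j
  have hpt : ∀ x, ∑ j ∈ Finset.range N, (W j).indicator (1 : α → ℝ≥0∞) x ≤
      3 * (⋃ j ∈ Finset.range N, W j).indicator (1 : α → ℝ≥0∞) x := by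
    intro x
    set F := (Finset.range N).filter (fun j => x ∈ W j) with hF
    have e1 : ∑ j ∈ Finset.range N, (W j).indicator (1 : α → ℝ≥0∞) x = (F.card : ℝ≥0∞) := by
      rw [hF, Finset.card_filter, Nat.cast_sum]
      refine Finset.sum_congr rfl fun j _ => ?_
      by_cases hx : x ∈ W j <;> simp [hx]
    rw [e1]
    rcases F.eq_empty_or_nonempty with h0 | hne
    · rw [h0]; simp
    · set j0 := F.min' hne with hj0
      have hj0F : j0 ∈ F := F.min'_mem hne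
      have hx0 : x ∈ W j0 := (Finset.mem_filter.1 hj0F).2
      have hxU : x ∈ ⋃ j ∈ Finset.range N, W j :=
        mem_iUnion₂.2 ⟨j0, (Finset.mem_filter.1 hj0F).1, hx0⟩
      rw [indicator_of_mem hxU, Pi.one_apply, mul_one]
      have hsub : F ⊆ Finset.Icc j0 (j0 + 2) := by
        intro j hj
        have hle : j0 ≤ j := F.min'_le j hj
        rw [Finset.mem_Icc]
        refine ⟨hle, ?_⟩
        by_contra hlt
        push Not at hlt
        have a1 := h1 j x (Finset.mem_filter.1 hj).2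
        have a2 := h2 j0 x hx0
        have a3 : (2 : ℝ) ^ (j0 + 3) ≤ 2 ^ j := pow_le_pow_right₀ (by norm_num) (by omega)
        rw [pow_add] at a3
        have a4 : 0 < δ * 2 ^ j0 := by positivity
        have a5 : δ * ((2 : ℝ) ^ j0 * 2 ^ 3) ≤ δ * 2 ^ j := by gcongr
        nlinarith
      have hcard : F.card ≤ 3 := by
        refine (Finset.card_le_card hsub).trans ?_
        rw [Nat.card_Icc]; omega
      exact_mod_cast hcard
  calc ∑ j ∈ Finset.range N, ν (W j)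
      = ∑ j ∈ Finset.range N, ∫⁻ x, (W j).indicator (1 : α → ℝ≥0∞) x ∂ν := by
        refine Finset.sum_congr rfl fun j _ => ?_
        rw [lintegral_indicator_one (hW j)]
    _ = ∫⁻ x, ∑ j ∈ Finset.range N, (W j).indicator (1 : α → ℝ≥0∞) x ∂ν := by
        rw [lintegral_finsetSum]
        exact fun j _ => measurable_one.indicator (hW j)
    _ ≤ ∫⁻ x, 3 * (⋃ j ∈ Finset.range N, W j).indicator (1 : α → ℝ≥0∞) x ∂ν := lintegral_mono hpt
    _ = 3 * ν (⋃ j ∈ Finset.range N, W j) := by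
        rw [lintegral_const_mul _ (measurable_one.indicator hmU), lintegral_indicator_one hmU]

/-- the classes (radial or lateral, in a cone), in compact form. -/
theorem exists_class (t : Finset E) (ht : ∀ v : E, ∃ u ∈ t, v ∈ cone u) (ν : Measure E) (ps : E)
    (𝒢 : Set E) (hc : IsCompact 𝒢) (h0 : ν 𝒢 ≠ 0) (hf : ν 𝒢 ≠ ∞) :
    ∃ (u : E) (S : Set E), S ⊆ 𝒢 ∧ IsCompact S ∧
      ν 𝒢 ≤ (2 * t.card + 1) * ν S ∧ (∀ q ∈ S, q - ps ∈ cone u) ∧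
      ((∀ q ∈ S, ‖q - ps‖ ^ 2 ≤ 8 * ⟪ps, q - ps⟫) ∨
        ∃ δ : ℝ, 0 < δ ∧ ∀ q ∈ S, 8 * ⟪ps, q - ps⟫ ≤ ‖q - ps‖ ^ 2 ∧ δ ≤ ‖q - ps‖) := by
  classical
  set C0 : ℝ≥0∞ := 2 * t.card + 1 with hC0
  by_contra hcon
  have hcc : ∀ u : E, IsClosed {q : E | q - ps ∈ cone u} := fun u =>
    (isClosed_cone u).preimage (continuous_id.sub continuous_const)
  -- the radial class
  set R : E → Set E := fun u => {q | q ∈ 𝒢 ∧ q - ps ∈ cone u ∧ ‖q - ps‖ ^ 2 ≤ 8 * ⟪ps, q - ps⟫}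
    with hR
  set L : E → ℝ → Set E := fun u δ => {q | q ∈ 𝒢 ∧ q - ps ∈ cone u ∧
    8 * ⟪ps, q - ps⟫ ≤ ‖q - ps‖ ^ 2 ∧ δ ≤ ‖q - ps‖} with hL
  have hRc : ∀ u, IsCompact (R u) := by
    intro u
    have h1 : IsClosed {q : E | ‖q - ps‖ ^ 2 ≤ 8 * ⟪ps, q - ps⟫} :=
      isClosed_le (by fun_prop) (by fun_prop)
    exact hc.inter_right ((hcc u).inter h1)
  have hLc : ∀ u δ, IsCompact (L u δ) := by
    intro u δ
    have h1 : IsClosed {q : E | 8 * ⟪ps, q - ps⟫ ≤ ‖q - ps‖ ^ 2} :=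
      isClosed_le (by fun_prop) (by fun_prop)
    have h2 : IsClosed {q : E | δ ≤ ‖q - ps‖} := isClosed_le (by fun_prop) (by fun_prop)
    exact hc.inter_right ((hcc u).inter (h1.inter h2))
  have hR1 : ∀ u, C0 * ν (R u) ≤ ν 𝒢 := by
    intro u
    by_contra h
    push Not at h
    exact hcon ⟨u, R u, fun q hq => hq.1, hRc u, h.le, fun q hq => hq.2.1,
      Or.inl fun q hq => hq.2.2⟩
  have hL1 : ∀ u δ, 0 < δ → C0 * ν (L u δ) ≤ ν 𝒢 := by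
    intro u δ hδ
    by_contra h
    push Not at h
    exact hcon ⟨u, L u δ, fun q hq => hq.1, hLc u δ, h.le, fun q hq => hq.2.1,
      Or.inr ⟨δ, hδ, fun q hq => hq.2.2⟩⟩
  have hL2 : ∀ u, C0 * ν (⋃ m : ℕ, L u (1 / ((m : ℝ) + 1))) ≤ ν 𝒢 := by
    intro u
    have hmono : Monotone fun m : ℕ => L u (1 / ((m : ℝ) + 1)) := by
      intro m m' hm q hq
      refine ⟨hq.1, hq.2.1, hq.2.2.1, le_trans ?_ hq.2.2.2⟩
      have : (m : ℝ) ≤ m' := by exact_mod_cast hm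
      exact one_div_le_one_div_of_le (by positivity) (by linarith)
    rw [hmono.measure_iUnion, ENNReal.mul_iSup]
    exact iSup_le fun m => hL1 u _ (by positivity)
  have hcov : 𝒢 ⊆ ⋃ u ∈ t, (R u ∪ ⋃ m : ℕ, L u (1 / ((m : ℝ) + 1))) := by
    intro q hq
    obtain ⟨u, hu, hqu⟩ := ht (q - ps)
    refine mem_iUnion₂.2 ⟨u, hu, ?_⟩
    rcases le_total (‖q - ps‖ ^ 2) (8 * ⟪ps, q - ps⟫) with h | h
    · exact Or.inl ⟨hq, hqu, h⟩
    · by_cases hz : q - ps = 0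
      · left
        refine ⟨hq, hqu, ?_⟩
        rw [hz]; simp
      · right
        have hn : 0 < ‖q - ps‖ := norm_pos_iff.2 hz
        obtain ⟨m, hm⟩ := exists_nat_one_div_lt hn
        exact mem_iUnion.2 ⟨m, hq, hqu, h, hm.le⟩
  have h1 : ν 𝒢 ≤ ∑ u ∈ t, (ν (R u) + ν (⋃ m : ℕ, L u (1 / ((m : ℝ) + 1)))) := by
    refine (measure_mono hcov).trans ((measure_biUnion_finset_le _ _).trans ?_)
    exact Finset.sum_le_sum fun u _ => measure_union_le _ _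
  have h2 : C0 * ν 𝒢 ≤ 2 * t.card * ν 𝒢 := by
    calc C0 * ν 𝒢 ≤ C0 * ∑ u ∈ t, (ν (R u) + ν (⋃ m : ℕ, L u (1 / ((m : ℝ) + 1)))) := by gcongr
      _ = ∑ u ∈ t, (C0 * ν (R u) + C0 * ν (⋃ m : ℕ, L u (1 / ((m : ℝ) + 1)))) := by
          rw [Finset.mul_sum]
          exact Finset.sum_congr rfl fun u _ => mul_add _ _ _
      _ ≤ ∑ _u ∈ t, (ν 𝒢 + ν 𝒢) := Finset.sum_le_sum fun u _ => add_le_add (hR1 u) (hL2 u)
      _ = 2 * t.card * ν 𝒢 := by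
          rw [Finset.sum_const, nsmul_eq_mul]; ring
  have h3 : C0 * ν 𝒢 = 2 * t.card * ν 𝒢 + ν 𝒢 := by rw [hC0]; ring
  rw [h3] at h2
  have hfin : 2 * (t.card : ℝ≥0∞) * ν 𝒢 ≠ ∞ :=
    ENNReal.mul_ne_top (ENNReal.mul_ne_top (by norm_num) (ENNReal.natCast_ne_top _)) hf
  have h4 : 2 * (t.card : ℝ≥0∞) * ν 𝒢 < 2 * t.card * ν 𝒢 + ν 𝒢 :=
    ENNReal.lt_add_right hfin h0
  exact absurd h2 (not_le.2 h4)

variable (E) in
/-- the body of the statement `parent_seg`. -/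
def SegC (c₁ C : ℝ) : Prop :=
    ∀ (μ : Measure E) [μ.IsAddHaarMeasure] (K : Set E) (J : E → ℝ≥0∞), Convex ℝ K →
    WNcP K J (1 / 1024) (1 / 4) c₁ →
    ∀ ps ∈ K, ∀ A ⊆ K, (∀ p ∈ A, 0 ≤ ⟪ps, p - ps⟫) →
    ∀ 𝒢 ⊆ K, IsCompact 𝒢 → (∀ q ∈ 𝒢, ∃ p ∈ A, ∃ k : ℝ, 1 / 2 ≤ k ∧ k ≤ 1 ∧ q = con ps k p) →
    ∫⁻ p in 𝒢, J p ∂μ ≠ 0 → ∫⁻ p in 𝒢, J p ∂μ ≠ ∞ →
    ∃ zN ∈ A, ∃ zF ∈ A, ∃ W ⊆ K, IsCompact W ∧
      ∫⁻ p in 𝒢, J p ∂μ ≤ ENNReal.ofReal C * ∫⁻ p in W, J p ∂μ ∧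
      ∀ p' ∈ W, ∃ p ∈ A, ∃ k : ℝ, 0 < k ∧ k ≤ 1 ∧ ∃ r ∈ segment ℝ zN zF,
        con ps (k / 4) p ∈ K ∧ 0 ≤ ⟪con ps (k / 4) p, r - con ps (k / 4) p⟫ ∧
        p' = con ps (k / 4) p + (1 / 2 : ℝ) • (r - con ps (k / 4) p) ∧
        p' = ps + (1 / 2 : ℝ) • (r - ps) + (k / 8) • (p - ps)

set_option maxHeartbeats 1600000 in
/-- **Common parent on a segment**, explicit constant in terms of a family of cones. -/
theorem segC_of_cones {c₁ : ℝ} (hc₁ : 0 < c₁) (t : Finset E) (ht : ∀ v : E, ∃ u ∈ t, v ∈ cone u)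
    {N : ℕ} (hN : t.card ≤ N) {L : ℝ}
    (hL : L = (1 / 2 : ℝ) ^ finrank ℝ E * c₁ * ((1 / 4 : ℝ) ^ finrank ℝ E * c₁)) :
    SegC E c₁ ((3 * (2 * (N : ℝ) + 1) + 1) / L) := by
  set d := finrank ℝ E with hd
  have hL0 : 0 < L := by rw [hL]; positivity
  obtain ⟨C0, hC0e⟩ : ∃ C0 : ℝ≥0∞, C0 = 2 * N + 1 := ⟨_, rfl⟩
  have hC0t : C0 ≠ ∞ := by
    rw [hC0e]
    exact ENNReal.add_ne_top.2 ⟨ENNReal.mul_ne_top (by norm_num) (ENNReal.natCast_ne_top _),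
      ENNReal.one_ne_top⟩
  have hC0r : C0.toReal = 2 * (N : ℝ) + 1 := by
    rw [hC0e, ENNReal.toReal_add (ENNReal.mul_ne_top (by norm_num) (ENNReal.natCast_ne_top _))
      ENNReal.one_ne_top, ENNReal.toReal_mul]
    simp
  have hC0 : ∀ (ν : Measure E) (ps : E) (𝒢 : Set E), IsCompact 𝒢 → ν 𝒢 ≠ 0 → ν 𝒢 ≠ ∞ →
      ∃ (u : E) (S : Set E), S ⊆ 𝒢 ∧ IsCompact S ∧
      ν 𝒢 ≤ C0 * ν S ∧ (∀ q ∈ S, q - ps ∈ cone u) ∧
      ((∀ q ∈ S, ‖q - ps‖ ^ 2 ≤ 8 * ⟪ps, q - ps⟫) ∨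
        ∃ δ : ℝ, 0 < δ ∧ ∀ q ∈ S, 8 * ⟪ps, q - ps⟫ ≤ ‖q - ps‖ ^ 2 ∧ δ ≤ ‖q - ps‖) := by
    intro ν ps 𝒢 hc h0 hf
    obtain ⟨u, S, a1, a2, a3, a4, a5⟩ := exists_class t ht ν ps 𝒢 hc h0 hf
    refine ⟨u, S, a1, a2, a3.trans ?_, a4, a5⟩
    rw [hC0e]
    gcongr
  rw [← hC0r]
  intro μ _ K J hK hW ps hps A hAK hA 𝒢 h𝒢K h𝒢c h𝒢 hne0 hnet
  set ν : Measure E := μ.withDensity J with hν
  have hνS : ∀ S : Set E, MeasurableSet S → ν S = ∫⁻ p in S, J p ∂μ := fun S hS => by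
    rw [hν, withDensity_apply _ hS]
  rw [← hνS 𝒢 h𝒢c.measurableSet] at hne0 hnet ⊢
  obtain ⟨u, S, hSG, hSc, hSm, hSu, hcase⟩ := hC0 ν ps 𝒢 h𝒢c hne0 hnet
  have hSK : S ⊆ K := hSG.trans h𝒢K
  have hgS : ∀ q ∈ S, 0 ≤ ⟪ps, q - ps⟫ := by
    intro q hq
    obtain ⟨p, hp, k, hk0, hk1, hqk⟩ := h𝒢 q (hSG hq)
    have e : q - ps = k • (p - ps) := by rw [hqk]; unfold con; abel
    rw [e, real_inner_smul_right]
    exact mul_nonneg (by linarith) (hA p hp)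
  have hSne : S.Nonempty := by
    rw [nonempty_iff_ne_empty]
    intro h
    rw [h, measure_empty, mul_zero] at hSm
    exact hne0 (le_antisymm hSm zero_le)
  -- the output
  have hout : ∀ q ∈ S, ∀ r ∈ K,
      (1 / 1024 : ℝ) * ‖r - con ps (1 / 4) q‖ ^ 2 ≤ ⟪con ps (1 / 4) q, r - con ps (1 / 4) q⟫ →
      ∃ p ∈ A, ∃ k : ℝ, 0 < k ∧ k ≤ 1 ∧
        con ps (k / 4) p ∈ K ∧ 0 ≤ ⟪con ps (k / 4) p, r - con ps (k / 4) p⟫ ∧
        con r (1 / 2) (con ps (1 / 4) q) =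
          con ps (k / 4) p + (1 / 2 : ℝ) • (r - con ps (k / 4) p) ∧
        con r (1 / 2) (con ps (1 / 4) q) =
          ps + (1 / 2 : ℝ) • (r - ps) + (k / 8) • (p - ps) := by
    intro q hq r hr hm
    obtain ⟨p, hp, k, hk0, hk1, hqk⟩ := h𝒢 q (hSG hq)
    have e0 : con ps (1 / 4) q = con ps (k / 4) p := by
      rw [hqk, con_con]; congr 1; ring
    refine ⟨p, hp, k, by linarith, hk1, ?_, ?_, ?_, ?_⟩
    · rw [← e0]; exact con_mem hK hps (hSK hq) (by norm_num) (by norm_num)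
    · rw [← e0]
      exact le_trans (by positivity) hm
    · rw [← e0]; unfold con; module
    · rw [e0]; unfold con; module
  -- the constants
  have hfin : ∀ W : Set E, ENNReal.ofReal L * ν S ≤ 3 * ν W →
      ν 𝒢 ≤ ENNReal.ofReal ((3 * C0.toReal + 1) / L) * ν W := by
    intro W hW
    have h1 : ENNReal.ofReal L * ν 𝒢 ≤ C0 * (3 * ν W) := by
      calc ENNReal.ofReal L * ν 𝒢 ≤ ENNReal.ofReal L * (C0 * ν S) := by gcongr
        _ = C0 * (ENNReal.ofReal L * ν S) := by ring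
        _ ≤ C0 * (3 * ν W) := by gcongr
    have h2 : ENNReal.ofReal (1 / L) * ENNReal.ofReal L = 1 := by
      rw [← ENNReal.ofReal_mul (by positivity), one_div_mul_cancel hL0.ne', ENNReal.ofReal_one]
    have h3 : 3 * C0 ≤ ENNReal.ofReal (3 * C0.toReal + 1) := by
      rw [ENNReal.ofReal_add (by positivity) zero_le_one, ENNReal.ofReal_mul (by norm_num),
        ENNReal.ofReal_toReal hC0t]
      refine le_trans (le_of_eq ?_) le_self_add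
      norm_num
    calc ν 𝒢 = ENNReal.ofReal (1 / L) * (ENNReal.ofReal L * ν 𝒢) := by
          rw [← mul_assoc, h2, one_mul]
      _ ≤ ENNReal.ofReal (1 / L) * (C0 * (3 * ν W)) := by gcongr
      _ = ENNReal.ofReal (1 / L) * (3 * C0) * ν W := by ring
      _ ≤ ENNReal.ofReal (1 / L) * ENNReal.ofReal (3 * C0.toReal + 1) * ν W := by gcongr
      _ = ENNReal.ofReal ((3 * C0.toReal + 1) / L) * ν W := by
          rw [← ENNReal.ofReal_mul (by positivity)]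
          congr 2
          ring
  rcases hcase with hrad | ⟨δ, hδ, hlat⟩
  · -- radial class
    obtain ⟨qz, hqz, hmax⟩ := hSc.exists_isMaxOn hSne
      (f := fun q => ⟪ps, q - ps⟫) (by fun_prop)
    obtain ⟨pz, hpz, kz, hk0, hk1, hqk⟩ := h𝒢 qz (hSG hqz)
    have ez : qz - ps = kz • (pz - ps) := by rw [hqk]; unfold con; abel
    have hgz : 0 ≤ ⟪ps, pz - ps⟫ := hA pz hpz
    have hzu : pz - ps ∈ cone u := by
      have := hSu qz hqz
      rw [ez] at this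
      exact cone_of_smul (by linarith) this
    have hz16 : ‖pz - ps‖ ^ 2 ≤ 16 * ⟪ps, pz - ps⟫ := by
      have h1 := hrad qz hqz
      rw [ez, real_inner_smul_right, norm_smul, mul_pow, Real.norm_eq_abs, sq_abs] at h1
      have h2 : kz * (kz * ‖pz - ps‖ ^ 2) ≤ kz * (8 * ⟪ps, pz - ps⟫) := by nlinarith
      have h3 := le_of_mul_le_mul_left h2 (by linarith)
      have h4 : 1 / 2 * ‖pz - ps‖ ^ 2 ≤ kz * ‖pz - ps‖ ^ 2 := by gcongr
      linarith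
    have hmarg : ∀ q ∈ S, (1 / 1024 : ℝ) * ‖pz - con ps (1 / 4) q‖ ^ 2 ≤
        ⟪con ps (1 / 4) q, pz - con ps (1 / 4) q⟫ := by
      intro q hq
      have h1 : ⟪ps, q - ps⟫ ≤ ⟪ps, pz - ps⟫ := by
        have h2 : ⟪ps, q - ps⟫ ≤ ⟪ps, qz - ps⟫ := hmax hq
        rw [ez, real_inner_smul_right] at h2
        have h3 : kz * ⟪ps, pz - ps⟫ ≤ 1 * ⟪ps, pz - ps⟫ := by gcongr
        linarith
      have h4 : 0 ≤ ⟪q - ps, pz - ps⟫ := by
        have := cone_angle (hSu q hq) hzu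
        have h5 : 0 ≤ ‖q - ps‖ * ‖pz - ps‖ := by positivity
        linarith
      have h5 := margin_rad (hgS q hq) h1 (hrad q hq) hz16 h4
      have e1 : pz - ps - (1 / 4 : ℝ) • (q - ps) = pz - con ps (1 / 4) q := by unfold con; abel
      rw [e1] at h5
      exact h5
    refine ⟨pz, hpz, pz, hpz, con pz (1 / 2) '' (con ps (1 / 4) '' S), ?_,
      (hSc.image (continuous_con _ _)).image (continuous_con _ _), ?_, ?_⟩
    · rintro _ ⟨_, ⟨q, hq, rfl⟩, rfl⟩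
      exact con_mem hK (hAK hpz) (con_mem hK hps (hSK hq) (by norm_num) (by norm_num))
        (by norm_num) (by norm_num)
    · have h1 := move μ hc₁ hK hW hps hSK hSc hgS (hAK hpz) hmarg
      have hWm : MeasurableSet (con pz (1 / 2) '' (con ps (1 / 4) '' S)) :=
        ((hSc.image (continuous_con _ _)).image (continuous_con _ _)).measurableSet
      rw [← hd, ← hL, ← hνS S hSc.measurableSet, ← hνS _ hWm] at h1
      rw [← hνS _ hWm]
      refine hfin _ (h1.trans ?_)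
      calc ν (con pz (1 / 2) '' (con ps (1 / 4) '' S)) =
            1 * ν (con pz (1 / 2) '' (con ps (1 / 4) '' S)) := (one_mul _).symm
        _ ≤ 3 * ν (con pz (1 / 2) '' (con ps (1 / 4) '' S)) := by gcongr; norm_num
    · rintro _ ⟨_, ⟨q, hq, rfl⟩, rfl⟩
      obtain ⟨p, hp, k, hk0, hk1, a1, a2, a3, a4⟩ := hout q hq pz (hAK hpz) (hmarg q hq)
      exact ⟨p, hp, k, hk0, hk1, pz, left_mem_segment ℝ _ _, a1, a2, a3, a4⟩
  · -- lateral class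
    obtain ⟨qN, hqN, hmin⟩ := hSc.exists_isMinOn hSne (f := fun q => ‖q - ps‖) (by fun_prop)
    obtain ⟨qF, hqF, hmax⟩ := hSc.exists_isMaxOn hSne (f := fun q => ‖q - ps‖) (by fun_prop)
    obtain ⟨pN, hpN, kN, hkN0, hkN1, hqkN⟩ := h𝒢 qN (hSG hqN)
    obtain ⟨pF, hpF, kF, hkF0, hkF1, hqkF⟩ := h𝒢 qF (hSG hqF)
    have eN : qN - ps = kN • (pN - ps) := by rw [hqkN]; unfold con; abel
    have eF : qF - ps = kF • (pF - ps) := by rw [hqkF]; unfold con; abel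
    have hNu : pN - ps ∈ cone u := by
      have := hSu qN hqN
      rw [eN] at this
      exact cone_of_smul (by linarith) this
    have hFu : pF - ps ∈ cone u := by
      have := hSu qF hqF
      rw [eF] at this
      exact cone_of_smul (by linarith) this
    have hNn : ‖pN - ps‖ ≤ 2 * ‖qN - ps‖ := by
      rw [eN, norm_smul, Real.norm_of_nonneg (by linarith)]
      nlinarith [norm_nonneg (pN - ps)]
    have hFn : ‖qF - ps‖ ≤ ‖pF - ps‖ := by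
      rw [eF, norm_smul, Real.norm_of_nonneg (by linarith)]
      nlinarith [norm_nonneg (pF - ps)]
    -- the targets
    have hr : ∀ j : ℕ, ∃ r ∈ segment ℝ pN pF, min (δ * 2 ^ (j + 1)) ‖qF - ps‖ ≤ ‖r - ps‖ ∧
        ‖r - ps‖ ≤ 2 * max (δ * 2 ^ j) ‖qN - ps‖ := by
      intro j
      refine exists_seg (hNn.trans ?_) ((min_le_right _ _).trans hFn) ?_
      · gcongr; exact le_max_right _ _
      · calc min (δ * 2 ^ (j + 1)) ‖qF - ps‖ ≤ δ * 2 ^ (j + 1) := min_le_left _ _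
          _ = 2 * (δ * 2 ^ j) := by ring
          _ ≤ 2 * max (δ * 2 ^ j) ‖qN - ps‖ := by gcongr; exact le_max_left _ _
    choose r hrseg hrb hrc using hr
    have hrK : ∀ j, r j ∈ K := fun j => hK.segment_subset (hAK hpN) (hAK hpF) (hrseg j)
    -- the shells
    set G : ℕ → Set E := fun j => {q | q ∈ S ∧ δ * 2 ^ j ≤ ‖q - ps‖ ∧ ‖q - ps‖ ≤ δ * 2 ^ (j + 1)}
      with hG
    have hGc : ∀ j, IsCompact (G j) := by
      intro j
      have h1 : IsClosed {q : E | δ * 2 ^ j ≤ ‖q - ps‖} :=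
        isClosed_le (by fun_prop) (by fun_prop)
      have h2 : IsClosed {q : E | ‖q - ps‖ ≤ δ * 2 ^ (j + 1)} :=
        isClosed_le (by fun_prop) (by fun_prop)
      exact hSc.inter_right (h1.inter h2)
    have hGS : ∀ j, G j ⊆ S := fun j q hq => hq.1
    have hcmp : ∀ j, ∀ q ∈ G j, ‖q - ps‖ ≤ ‖r j - ps‖ ∧ ‖r j - ps‖ ≤ 2 * ‖q - ps‖ := by
      rintro j q ⟨hq, h1, h2⟩
      have h3 : ‖q - ps‖ ≤ ‖qF - ps‖ := hmax hq
      have h4 : ‖qN - ps‖ ≤ ‖q - ps‖ := hmin hq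
      refine ⟨(le_min h2 h3).trans (hrb j), (hrc j).trans ?_⟩
      gcongr
      exact max_le h1 h4
    have hmarg : ∀ j, ∀ q ∈ G j, (1 / 1024 : ℝ) * ‖r j - con ps (1 / 4) q‖ ^ 2 ≤
        ⟪con ps (1 / 4) q, r j - con ps (1 / 4) q⟫ := by
      intro j q hq
      obtain ⟨h1, h2⟩ := hcmp j q hq
      have hs := seg_sub (ps := ps) (hrseg j)
      have h3 := seg_cone (hSu q hq.1) hNu hFu hs
      have h4 := seg_nonneg (hA pN hpN) (hA pF hpF) hs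
      have h5 := margin_lat h4 (hlat q hq.1).1 h3 h1 h2
      have e1 : r j - ps - (1 / 4 : ℝ) • (q - ps) = r j - con ps (1 / 4) q := by unfold con; abel
      rw [e1] at h5
      exact h5
    obtain ⟨N, hN⟩ := pow_unbounded_of_one_lt (‖qF - ps‖ / δ) (one_lt_two (α := ℝ))
    rw [div_lt_iff₀ hδ] at hN
    set W : ℕ → Set E := fun j => con (r j) (1 / 2) '' (con ps (1 / 4) '' G j) with hWd
    have hWc : ∀ j, IsCompact (W j) := fun j =>
      ((hGc j).image (continuous_con _ _)).image (continuous_con _ _)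
    have hUc : IsCompact (⋃ j ∈ Finset.range N, W j) :=
      (Finset.range N).isCompact_biUnion fun j _ => hWc j
    refine ⟨pN, hpN, pF, hpF, ⋃ j ∈ Finset.range N, W j, ?_, hUc, ?_, ?_⟩
    · intro p' hp'
      obtain ⟨j, -, hp'⟩ := mem_iUnion₂.1 hp'
      obtain ⟨_, ⟨q, hq, rfl⟩, rfl⟩ := hp'
      exact con_mem hK (hrK j) (con_mem hK hps (hSK hq.1) (by norm_num) (by norm_num))
        (by norm_num) (by norm_num)
    · have hmv : ∀ j, ENNReal.ofReal L * ν (G j) ≤ ν (W j) := by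
        intro j
        have h1 := move μ hc₁ hK hW hps ((hGS j).trans hSK) (hGc j)
          (fun q hq => hgS q hq.1) (hrK j) (hmarg j)
        rw [← hd, ← hL, ← hνS _ (hGc j).measurableSet, ← hνS _ (hWc j).measurableSet] at h1
        exact h1
      have hcov : S ⊆ ⋃ j ∈ Finset.range N, G j := by
        intro q hq
        obtain ⟨h1, h2⟩ := hlat q hq
        have h3 : ‖q - ps‖ ≤ ‖qF - ps‖ := hmax hq
        have h4 : 1 ≤ ‖q - ps‖ / δ := by rwa [one_le_div hδ]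
        obtain ⟨j, hj1, hj2⟩ := exists_nat_pow_near h4 (one_lt_two (α := ℝ))
        rw [le_div_iff₀ hδ] at hj1
        rw [div_lt_iff₀ hδ] at hj2
        refine mem_iUnion₂.2 ⟨j, ?_, hq, by linarith, by linarith⟩
        rw [Finset.mem_range]
        have h5 : (2 : ℝ) ^ j * δ < 2 ^ N * δ := by linarith
        have h6 := lt_of_mul_lt_mul_right h5 hδ.le
        exact (pow_lt_pow_iff_right₀ (one_lt_two (α := ℝ))).1 h6
      have h1 : ENNReal.ofReal L * ν S ≤ ∑ j ∈ Finset.range N, ν (W j) := by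
        calc ENNReal.ofReal L * ν S ≤ ENNReal.ofReal L * ∑ j ∈ Finset.range N, ν (G j) := by
              gcongr
              exact (measure_mono hcov).trans (measure_biUnion_finset_le _ _)
          _ = ∑ j ∈ Finset.range N, ENNReal.ofReal L * ν (G j) := Finset.mul_sum _ _ _
          _ ≤ _ := Finset.sum_le_sum fun j _ => hmv j
      have hnorm : ∀ j, ∀ x ∈ W j, 3 / 8 * (δ * 2 ^ j) ≤ ‖x - ps‖ ∧
          ‖x - ps‖ ≤ 5 / 2 * (δ * 2 ^ j) := by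
        rintro j _ ⟨_, ⟨q, hq, rfl⟩, rfl⟩
        obtain ⟨h1, h2⟩ := hcmp j q hq
        obtain ⟨-, h3, h4⟩ := hq
        have e1 : con (r j) (1 / 2) (con ps (1 / 4) q) - ps =
            (1 / 2 : ℝ) • (r j - ps) + (1 / 8 : ℝ) • (q - ps) := by unfold con; module
        have n1 : ‖(1 / 2 : ℝ) • (r j - ps)‖ = 1 / 2 * ‖r j - ps‖ := by
          rw [norm_smul, Real.norm_of_nonneg (by norm_num)]
        have n2 : ‖(1 / 8 : ℝ) • (q - ps)‖ = 1 / 8 * ‖q - ps‖ := by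
          rw [norm_smul, Real.norm_of_nonneg (by norm_num)]
        rw [e1]
        have h5 : δ * 2 ^ (j + 1) = 2 * (δ * 2 ^ j) := by ring
        rw [h5] at h4
        constructor
        · have h6 := norm_sub_norm_le ((1 / 2 : ℝ) • (r j - ps)) (-((1 / 8 : ℝ) • (q - ps)))
          rw [norm_neg, sub_neg_eq_add, n1, n2] at h6
          linarith
        · have h6 := norm_add_le ((1 / 2 : ℝ) • (r j - ps)) ((1 / 8 : ℝ) • (q - ps))
          rw [n1, n2] at h6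
          linarith
      have h2 := sum_measure_le ν N W (fun j => (hWc j).measurableSet) (fun x => ‖x - ps‖) hδ
        (fun j x hx => (hnorm j x hx).1) (fun j x hx => (hnorm j x hx).2)
      rw [← hνS _ hUc.measurableSet]
      exact hfin _ (h1.trans h2)
    · intro p' hp'
      obtain ⟨j, -, hp'⟩ := mem_iUnion₂.1 hp'
      obtain ⟨_, ⟨q, hq, rfl⟩, rfl⟩ := hp'
      obtain ⟨p, hp, k, hk0, hk1, a1, a2, a3, a4⟩ := hout q hq.1 (r j) (hrK j) (hmarg j q hq)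
      exact ⟨p, hp, k, hk0, hk1, r j, hrseg j, a1, a2, a3, a4⟩

variable (E) in
/-- **Common parent on a segment.** -/
theorem parent_seg {c₁ : ℝ} (hc₁ : 0 < c₁) : ∃ C : ℝ, 0 < C ∧
    ∀ (μ : Measure E) [μ.IsAddHaarMeasure] (K : Set E) (J : E → ℝ≥0∞), Convex ℝ K →
    WNcP K J (1 / 1024) (1 / 4) c₁ →
    ∀ ps ∈ K, ∀ A ⊆ K, (∀ p ∈ A, 0 ≤ ⟪ps, p - ps⟫) →
    ∀ 𝒢 ⊆ K, IsCompact 𝒢 → (∀ q ∈ 𝒢, ∃ p ∈ A, ∃ k : ℝ, 1 / 2 ≤ k ∧ k ≤ 1 ∧ q = con ps k p) →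
    ∫⁻ p in 𝒢, J p ∂μ ≠ 0 → ∫⁻ p in 𝒢, J p ∂μ ≠ ∞ →
    ∃ zN ∈ A, ∃ zF ∈ A, ∃ W ⊆ K, IsCompact W ∧
      ∫⁻ p in 𝒢, J p ∂μ ≤ ENNReal.ofReal C * ∫⁻ p in W, J p ∂μ ∧
      ∀ p' ∈ W, ∃ p ∈ A, ∃ k : ℝ, 0 < k ∧ k ≤ 1 ∧ ∃ r ∈ segment ℝ zN zF,
        con ps (k / 4) p ∈ K ∧ 0 ≤ ⟪con ps (k / 4) p, r - con ps (k / 4) p⟫ ∧
        p' = con ps (k / 4) p + (1 / 2 : ℝ) • (r - con ps (k / 4) p) ∧
        p' = ps + (1 / 2 : ℝ) • (r - ps) + (k / 8) • (p - ps) := by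
  obtain ⟨t, ht⟩ := exists_cones (E := E)
  exact ⟨_, by positivity, segC_of_cones hc₁ t ht le_rfl rfl⟩

/-- **Common parent on a segment**, with a constant which depends only on the dimension. -/
theorem parent_seg_unif (n : ℕ) {c₁ : ℝ} (hc₁ : 0 < c₁) : ∃ C : ℝ, 0 < C ∧
    ∀ (F : Type*) [NormedAddCommGroup F] [InnerProductSpace ℝ F] [FiniteDimensional ℝ F]
      [MeasurableSpace F] [BorelSpace F], finrank ℝ F = n → SegC F c₁ C := by
  classical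
  obtain ⟨t, ht⟩ := exists_cones (E := EuclideanSpace ℝ (Fin n))
  refine ⟨(3 * (2 * (t.card : ℝ) + 1) + 1) /
    ((1 / 2 : ℝ) ^ n * c₁ * ((1 / 4 : ℝ) ^ n * c₁)), by positivity, ?_⟩
  intro F _ _ _ _ _ hF
  let ι : F ≃ₗᵢ[ℝ] EuclideanSpace ℝ (Fin n) :=
    (stdOrthonormalBasis ℝ F).repr.trans
      (LinearIsometryEquiv.piLpCongrLeft 2 ℝ ℝ (finCongr hF))
  refine segC_of_cones hc₁ (t.image ι.symm) ?_ Finset.card_image_le (by rw [hF])
  intro v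
  obtain ⟨u, hu, hv⟩ := ht (ι v)
  refine ⟨ι.symm u, Finset.mem_image_of_mem _ hu, ?_⟩
  unfold cone at hv ⊢
  rw [mem_ofPred_eq] at hv ⊢
  have e : v - ‖v‖ • ι.symm u = ι.symm (ι v - ‖ι v‖ • u) := by
    rw [map_sub, map_smul, ι.symm_apply_apply, ι.norm_map]
  rw [e, ι.symm.norm_map]
  rwa [ι.norm_map] at hv ⊢

end meas

end Crest.Agent.R226.ParentSeg464
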