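/-
R226 (helper186): the dichotomy for pairs `PairDichR` for the Hausdorff measure, no open hypothesis
(`parent_seg` of helper464 + `half1Q` + `half2P` of helper115/114).
-/
import Crest.Agent.R226.Half1_186
import Crest.Agent.R226.ParentSeg_464
import Crest.Agent.R226.NS1Top_115

set_option autoImplicit false
set_option linter.unusedSectionVars false

open MeasureTheory Bundle Set Filter
open scoped Manifold ContDiff Bundle ENNReal Topology
open Crest.GeometryTopology.MTW

namespace Crest.Agent.R226.Half1Top186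

open Crest.Agent.R226 Crest.Agent.R226.Kant624 Crest.Agent.R226.Reduction624
  Crest.Agent.R226.HolderEnd915 Crest.Agent.R226.E1Shape964
  Crest.Agent.R226.Dasm290 Crest.Agent.R226.Osc977 Crest.Agent.R226.Far977
  Crest.Agent.R226.SupPair413 Crest.Agent.R226.SegIso186 Crest.Agent.R226.Half1_186

/-- `parent_seg` (helper464) in the form of `ParentSegC`. -/
theorem parentSegC (n : ℕ) (c₁ : ℝ) (hc₁ : 0 < c₁) :
    ∃ C : ℝ, 0 < C ∧ ParentSegC (EuclideanSpace ℝ (Fin n)) c₁ C :=
  ParentSeg464.parent_seg (EuclideanSpace ℝ (Fin n)) hc₁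

variable {n : ℕ} {M : Type*} [MetricSpace M] [ChartedSpace (EuclideanSpace ℝ (Fin n)) M]
  [IsManifold (𝓡 n) ∞ M]
  [RiemannianBundle (fun p : M => TangentSpace (𝓡 n) p)]
  [IsContMDiffRiemannianBundle (𝓡 n) ∞ (EuclideanSpace ℝ (Fin n))
    (fun p : M => TangentSpace (𝓡 n) p)]
  [IsRiemannianManifold (𝓡 n) M] [CompactSpace M] [MeasurableSpace M] [BorelSpace M]
  {G : GeoData n M}

/-- **Half 1**. -/
theorem half1Q_top [IsFiniteMeasure (Measure.hausdorffMeasure (n : ℝ) : Measure M)]
    (hC : CutFacts G) (hM : MTWFacts G) (hD : DFacts G) (hg : GoodAll G) {m : ℝ} (hm : 0 < m) :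
    Half1Q (Measure.hausdorffMeasure (n : ℝ) : Measure M) m :=
  half1Q hC hM hD hg (fun c₁ hc₁ => parentSegC n c₁ hc₁) hm

/-- **Half 1** in the form of `Plan_619`. -/
theorem half1P_top [IsFiniteMeasure (Measure.hausdorffMeasure (n : ℝ) : Measure M)]
    (hC : CutFacts G) (hM : MTWFacts G) (hD : DFacts G) (hg : GoodAll G) {m : ℝ} (hm : 0 < m) :
    Plan619.Half1P (Measure.hausdorffMeasure (n : ℝ) : Measure M) m := by
  obtain ⟨K1, K3, c1, C7, hK3, hc1, hC7, h⟩ := half1Q_top hC hM hD hg hm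
  exact ⟨K1, c1, C7, K3, hc1, hC7, hK3, h⟩

/-- **the dichotomy for pairs**. -/
theorem pairDichR [IsFiniteMeasure (Measure.hausdorffMeasure (n : ℝ) : Measure M)]
    (hC : CutFacts G) (hM : MTWFacts G) (hD : DFacts G) (hg : GoodAll G) {m : ℝ} (hm : 0 < m) :
    PairDichR (Measure.hausdorffMeasure (n : ℝ) : Measure M) m :=
  pairDichR_of_halvesQ _ m (half1Q_top hC hM hD hg hm) (NS1Top115.half2P hC hM hg hm)

end Crest.Agent.R226.Half1Top186
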