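/-
R226 (helper879), the SEGMENT TRICK of helper881: Loeper along a segment of the row section of `x₁`.

`x'` sees the endpoint `exp r` of a velocity `r ∈ [z_N, z_F]`, with `z_N`, `z_F` in the row section
of `x₁` at height `h`; then `x'` sees `exp z_N` or `exp z_F`.
-/
import Crest.Agent.R226.EContact_486
import Crest.Agent.R226.SlopeLaw_977

set_option autoImplicit false
set_option linter.unusedSectionVars false

open MeasureTheory Bundle Set Filter
open scoped Manifold ContDiff Bundle ENNReal Topology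
open Crest.GeometryTopology.MTW

namespace Crest.Agent.R226.SegSplit879

open Crest.Agent.R226 Crest.Agent.R226.Kant624 Crest.Agent.R226.E1Shape964
  Crest.Agent.R226.Dasm290 Crest.Agent.R226.Osc977 Crest.Agent.R226.Far977
  Crest.Agent.R226.YStar544 Crest.Agent.R226.SlopeLaw977 Crest.Agent.R226.EContact486

variable {n : ℕ} {M : Type*} [MetricSpace M] [ChartedSpace (EuclideanSpace ℝ (Fin n)) M]
  [IsManifold (𝓡 n) ∞ M]
  [RiemannianBundle (fun p : M => TangentSpace (𝓡 n) p)]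
  [CompactSpace M] {G : GeoData n M}

/-- a velocity of the segment `[z_N, z_F]` is in the row section. -/
theorem seg_row (hg : GoodAll G) {u : M → ℝ} (hu : CConv u) {x1 : M}
    {zN zF r : TangentSpace (𝓡 n) x1} (hN : zN ∈ G.K x1) (hF : zF ∈ G.K x1)
    (hr : r ∈ segment ℝ zN zF) {h : ℝ} (hDN : Dd u x1 (G.ex x1 zN) ≤ h)
    (hDF : Dd u x1 (G.ex x1 zF) ≤ h) : r ∈ G.K x1 ∧ Dd u x1 (G.ex x1 r) ≤ h :=
  (convex_row hg hu x1 h).segment_subset ⟨hN, hDN⟩ ⟨hF, hDF⟩ hr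

/-- **Loeper on the segment**: `min_i (D(x',y_i) - D(x₁,y_i)) ≤ D(x',exp r) - D(x₁,exp r)`. -/
theorem seg_loeper (hg : GoodAll G) {u : M → ℝ} (hu : CConv u) {x1 x' : M}
    {zN zF r : TangentSpace (𝓡 n) x1} (hN : zN ∈ G.K x1) (hF : zF ∈ G.K x1)
    (hr : r ∈ segment ℝ zN zF) :
    Dd u x' (G.ex x1 zN) - Dd u x1 (G.ex x1 zN) ≤ Dd u x' (G.ex x1 r) - Dd u x1 (G.ex x1 r) ∨
    Dd u x' (G.ex x1 zF) - Dd u x1 (G.ex x1 zF) ≤ Dd u x' (G.ex x1 r) - Dd u x1 (G.ex x1 r) := by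
  obtain ⟨a, b, ha, hb, hab, rfl⟩ := hr
  have hrK : a • zN + b • zF ∈ G.K x1 := convex_K hg x1 hN hF ha hb hab
  have h1 := Fq_le_max hg (x := x1) x' hN hF (t := b) hb (by linarith)
  have e : zN + b • (zF - zN) = a • zN + b • zF := by
    have : a = 1 - b := by linarith
    rw [this]; module
  rw [e] at h1
  have eN := Fq_eq (G := G) (u := u) (x := x') hN
  have eF := Fq_eq (G := G) (u := u) (x := x') hF
  have er := Fq_eq (G := G) (u := u) (x := x') hrK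
  rcases le_max_iff.1 h1 with h | h
  · left; linarith
  · right; linarith

/-- **the split**: `x'` sees `y_N` or `y_F`, at height `H' + h`. -/
theorem seg_split (hg : GoodAll G) {u : M → ℝ} (hu : CConv u) {x1 x' : M}
    {zN zF r : TangentSpace (𝓡 n) x1} (hN : zN ∈ G.K x1) (hF : zF ∈ G.K x1)
    (hr : r ∈ segment ℝ zN zF) {h H' : ℝ} (hDN : Dd u x1 (G.ex x1 zN) ≤ h)
    (hDF : Dd u x1 (G.ex x1 zF) ≤ h) (hx : Dd u x' (G.ex x1 r) ≤ H') :
    Dd u x' (G.ex x1 zN) ≤ H' + h ∨ Dd u x' (G.ex x1 zF) ≤ H' + h := by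
  have h0 := Dd_nonneg (CConv.continuous hu) x1 (G.ex x1 r)
  rcases seg_loeper hg hu (x' := x') hN hF hr with h1 | h1
  · left; linarith
  · right; linarith

/-- **the contacts of `p' = (1-τ) p_b + τ r`, `r ∈ [z_N, z_F]`, see `y_N` or `y_F`**, at height
`h/τ² + h`. -/
theorem contact_split (hg : GoodAll G) {u : M → ℝ} (hu : CConv u) {x1 x' : M}
    {pb zN zF r : TangentSpace (𝓡 n) x1} (hpb : pb ∈ G.K x1) (hN : zN ∈ G.K x1) (hF : zF ∈ G.K x1)
    (hr : r ∈ segment ℝ zN zF) {h τ : ℝ} (hh : 0 < h) (hDb : Dd u x1 (G.ex x1 pb) ≤ h)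
    (hDN : Dd u x1 (G.ex x1 zN) ≤ h) (hDF : Dd u x1 (G.ex x1 zF) ≤ h)
    (hout : 0 ≤ inner ℝ pb (r - pb)) (hτ0 : 0 < τ) (hτ1 : τ ≤ 1)
    (hx : G.ex x1 (pb + τ • (r - pb)) ∈ cSub u x') :
    Dd u x' (G.ex x1 zN) ≤ h / τ ^ 2 + h ∨ Dd u x' (G.ex x1 zF) ≤ h / τ ^ 2 + h := by
  obtain ⟨hrK, hDr⟩ := seg_row hg hu hN hF hr hDN hDF
  exact seg_split hg hu hN hF hr hDN hDF
    (contact_sees' hg hu hpb hrK hh hDb hDr hout hτ0 hτ1 hx)

/-- near-contact version. -/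
theorem contact_split_eps (hg : GoodAll G) {u : M → ℝ} (hu : CConv u) {x1 x' : M}
    {pb zN zF r : TangentSpace (𝓡 n) x1} (hpb : pb ∈ G.K x1) (hN : zN ∈ G.K x1) (hF : zF ∈ G.K x1)
    (hr : r ∈ segment ℝ zN zF) {h ε τ : ℝ} (hh : 0 < h) (hε : 0 ≤ ε)
    (hDb : Dd u x1 (G.ex x1 pb) ≤ h)
    (hDN : Dd u x1 (G.ex x1 zN) ≤ h) (hDF : Dd u x1 (G.ex x1 zF) ≤ h)
    (hout : 0 ≤ inner ℝ pb (r - pb)) (hτ0 : 0 < τ) (hτ1 : τ ≤ 1)
    (hx : Dd u x' (G.ex x1 (pb + τ • (r - pb))) ≤ ε) :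
    Dd u x' (G.ex x1 zN) ≤ (h + ε) / τ ^ 2 + h ∨ Dd u x' (G.ex x1 zF) ≤ (h + ε) / τ ^ 2 + h := by
  obtain ⟨hrK, hDr⟩ := seg_row hg hu hN hF hr hDN hDF
  refine seg_split hg hu hN hF hr hDN hDF ?_
  have h1 := contact_sees hg hu hpb hrK hh hε hDb hDr hout hτ0 hτ1 hx
  rw [le_div_iff₀ (by positivity)]
  linarith

/-- **the volume split**: of the points of a compact set that see `y_N` or `y_F`, at least half (in
volume) see the same one. -/
theorem vol_split [MeasurableSpace M] [BorelSpace M] (vol : Measure M) [IsFiniteMeasure vol]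
    {u : M → ℝ} (huc : Continuous u) {X : Set M} (hX : IsCompact X) {yN yF : M} {H : ℝ}
    (h : ∀ x ∈ X, Dd u x yN ≤ H ∨ Dd u x yF ≤ H) :
    ∃ y, (y = yN ∨ y = yF) ∧ ∃ X' ⊆ X, IsCompact X' ∧ (∀ x ∈ X', Dd u x y ≤ H) ∧
      (vol X).toReal ≤ 2 * (vol X').toReal := by
  have hcl : ∀ y : M, IsClosed {x : M | Dd u x y ≤ H} := by
    intro y
    refine isClosed_le ?_ continuous_const
    unfold Dd halfDistSq
    fun_prop
  set XN : Set M := X ∩ {x | Dd u x yN ≤ H} with hXN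
  set XF : Set M := X ∩ {x | Dd u x yF ≤ H} with hXF
  have hsub : X ⊆ XN ∪ XF := by
    intro x hx
    rcases h x hx with h1 | h1
    · exact Or.inl ⟨hx, h1⟩
    · exact Or.inr ⟨hx, h1⟩
  have h1 : (vol X).toReal ≤ (vol XN).toReal + (vol XF).toReal := by
    rw [← ENNReal.toReal_add (measure_ne_top _ _) (measure_ne_top _ _)]
    refine ENNReal.toReal_mono ?_ ((measure_mono hsub).trans (measure_union_le _ _))
    exact ENNReal.add_ne_top.2 ⟨measure_ne_top _ _, measure_ne_top _ _⟩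
  rcases le_total (vol XN).toReal (vol XF).toReal with h2 | h2
  · exact ⟨yF, Or.inr rfl, XF, inter_subset_left, hX.inter_right (hcl yF), fun x hx => hx.2,
      by linarith⟩
  · exact ⟨yN, Or.inl rfl, XN, inter_subset_left, hX.inter_right (hcl yN), fun x hx => hx.2,
      by linarith⟩

end Crest.Agent.R226.SegSplit879
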