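/-
R226 (helper464): **Half 1** of the crossing-free pair scheme (`Plan619.Half1P`), assembled from
`start_pair` (544), `mass_copies_AA` (301), `parent_seg_unif` (464, segment trick of 881),
`contact_top` (486), `contact_split`/`vol_split` (879), `lintegral_le_contX` (977), `wncP` (344),
`depth_D1` (946) and the area formula (344).
-/
import Crest.Agent.R226.Plan_619
import Crest.Agent.R226.TukeyMass_544
import Crest.Agent.R226.CopiesGeo_301
import Crest.Agent.R226.ParentSeg_464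
import Crest.Agent.R226.SegSplit_879
import Crest.Agent.R226.Alex_977
import Crest.Agent.R226.Depth_946

set_option autoImplicit false
set_option linter.unusedSectionVars false
set_option linter.unusedVariables false

open MeasureTheory Bundle Set Filter
open scoped Manifold ContDiff Bundle ENNReal Topology RealInnerProductSpace
open Crest.GeometryTopology.MTW

namespace Crest.Agent.R226.Half1_464

open Crest.Agent.R226 Crest.Agent.R226.Kant624 Crest.Agent.R226.Reduction624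
  Crest.Agent.R226.HolderEnd915 Crest.Agent.R226.E1Shape964 Crest.Agent.R226.Dasm290
  Crest.Agent.R226.Osc977 Crest.Agent.R226.Far977 Crest.Agent.R226.NG487
  Crest.Agent.R226.YStar544 Crest.Agent.R226.Copies301 Crest.Agent.R226.WOff915
  Crest.Agent.R226.SupPair413 Crest.Agent.R226.EContact486 Crest.Agent.R226.SegSplit879
  Crest.Agent.R226.Alex977 Crest.Agent.R226.CopiesGeo301

variable {n : ℕ} {M : Type*} [MetricSpace M] [ChartedSpace (EuclideanSpace ℝ (Fin n)) M]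
  [IsManifold (𝓡 n) ∞ M]
  [RiemannianBundle (fun p : M => TangentSpace (𝓡 n) p)]
  [CompactSpace M] [IsRiemannianManifold (𝓡 n) M]
  [IsContMDiffRiemannianBundle (𝓡 n) ∞ (EuclideanSpace ℝ (Fin n))
    (fun p : M => TangentSpace (𝓡 n) p)] {G : GeoData n M}

theorem isCompact_copies {E : Type*} [NormedAddCommGroup E] [InnerProductSpace ℝ E]
    [FiniteDimensional ℝ E] [MeasurableSpace E] [BorelSpace E] (p₀ : E) (N : ℕ) {A : Set E}
    (hA : IsCompact A) : IsCompact (copies p₀ N A) := by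
  unfold copies
  exact (Finset.range N).isCompact_biUnion fun k _ => hA.image (continuous_con _ _)

/-- the two definitions of the outer half agree. -/
theorem AA_eq (G : GeoData n M) (u : M → ℝ) (x0 x1 : M) (p0 : TangentSpace (𝓡 n) x1) (h : ℝ) :
    TukeyMass544.AA G u x0 x1 p0 h = CopiesGeo301.AA G u x0 x1 h p0 := by
  ext p
  simp only [TukeyMass544.AA, CopiesGeo301.AA, mem_ofPred_eq]
  rw [real_inner_comm p0 (p - p0), inner_sub_right]
  constructor
  · rintro ⟨a1, a2, a3, a4⟩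
    exact ⟨a1, a3, a2, by linarith⟩
  · rintro ⟨a1, a2, a3, a4⟩
    exact ⟨a1, a3, a2, by linarith⟩

variable [MeasurableSpace M] [BorelSpace M]

set_option maxHeartbeats 3200000 in
/-- **Half 1**: new mass at top level. -/
theorem half1P [IsFiniteMeasure (Measure.hausdorffMeasure (n : ℝ) : Measure M)]
    (hC : CutFacts G) (hD : DFacts G) (hM : MTWFacts G) (hg : GoodAll G) {m : ℝ} (hm : 0 < m) :
    Plan619.Half1P (Measure.hausdorffMeasure (n : ℝ) : Measure M) m := by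
  have hB := hC.base347
  obtain ⟨cd, hcd, hdep⟩ := Depth946.depth_D1 hB
  obtain ⟨c₁, hc₁, hc₁1, hW⟩ := WNc344.wncP hC hM hg hcd hdep (κ := 1 / 1024) (τ := 1 / 4)
    (by norm_num) (by norm_num)
  obtain ⟨Ca, hCa, harea⟩ := Jac344.exists_area hC
  obtain ⟨Cp, hCp, hpar⟩ := ParentSeg464.parent_seg_unif n hc₁
  have hS : SlopeLaw G := SlopeLaw977.slope_law hC hg
  set vol : Measure M := (Measure.hausdorffMeasure (n : ℝ) : Measure M) with hvol
  have hn1 : (0 : ℝ) < n + 1 := by positivity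
  refine ⟨6, 1 / (n + 1), 103, 10, by positivity, by norm_num, by norm_num, ?_⟩
  intro B hB0
  -- the number of copies
  obtain ⟨c', hc'⟩ : ∃ c' : ℝ, c' = c₁ * (1 / 2) ^ n := ⟨_, rfl⟩
  have hc'0 : 0 < c' := by rw [hc']; positivity
  obtain ⟨N0, hN0⟩ := exists_nat_ge (B * (2 * ((n + 1) * Ca * Cp)) / (m / Ca * c'))
  obtain ⟨N, hN⟩ : ∃ N : ℕ, N = N0 + 1 := ⟨_, rfl⟩
  have hNpos : 0 < N := by omega
  have hNR : (0 : ℝ) < N := by exact_mod_cast hNpos
  have hNB : B * (2 * ((n + 1) * Ca * Cp)) ≤ m / Ca * (N * c') := by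
    have h1 : B * (2 * ((n + 1) * Ca * Cp)) / (m / Ca * c') ≤ N := by
      refine hN0.trans ?_
      rw [hN]; push_cast; linarith
    rw [div_le_iff₀ (by positivity)] at h1
    calc B * (2 * ((n + 1) * Ca * Cp)) ≤ N * (m / Ca * c') := h1
      _ = m / Ca * (N * c') := by ring
  refine ⟨1 / (3 + 2 * (2 * (N : ℝ)) ^ 4), by positivity, ?_⟩
  intro δ hδ hδ0
  refine ⟨2 / δ + 2, by positivity, ?_⟩
  intro u hu x₀ x₁ h hh hCh hV hNG
  obtain ⟨huC, huA, huA'⟩ := hu
  have huc := CConv.continuous huC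
  set a := u x₀ - u x₁ with ha
  have hδh : 0 < 2 / δ * h := by positivity
  have h2h : 2 * h ≤ a := by
    have : (2 / δ + 2) * h = 2 / δ * h + 2 * h := by ring
    linarith
  have hda : 2 * h ≤ δ * a := by
    have h1 : 2 / δ * h ≤ a := by
      have : (2 / δ + 2) * h = 2 / δ * h + 2 * h := by ring
      linarith
    calc 2 * h = δ * (2 / δ * h) := by field_simp
      _ ≤ δ * a := by gcongr
  have ha0 : 0 < a := by linarith
  obtain ⟨s, hs⟩ : ∃ s : ℝ, s = h / (δ * a) := ⟨_, rfl⟩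
  have hda0 : 0 < δ * a := by positivity
  have hsa : s * (δ * a) = h := by rw [hs, div_mul_cancel₀ _ hda0.ne']
  obtain ⟨hs0, hs1, p0, hp0, hpsK, hD0, hDs, hstar, hVA⟩ :=
    TukeyMass544.start_pair hC hD hg (vol := vol) Measure.AbsolutelyContinuous.rfl huC hh hδ ha hs
      hda hNG
  -- the measure data at `x₁`
  obtain ⟨ms, bs, μ, hμ, J, hJm, hJ, hA1, hA2⟩ := harea x₁
  have hfd : FiniteDimensional ℝ (TangentSpace (𝓡 n) x₁) :=
    inferInstanceAs (FiniteDimensional ℝ (EuclideanSpace ℝ (Fin n)))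
  have hrank : Module.finrank ℝ (TangentSpace (𝓡 n) x₁) = n := by
    have : Module.finrank ℝ (EuclideanSpace ℝ (Fin n)) = n := by simp
    exact this
  have hWJ := hW x₁ J hJ
  set ps : TangentSpace (𝓡 n) x₁ := (1 - s) • p0 with hps
  set A : Set (TangentSpace (𝓡 n) x₁) := CopiesGeo301.AA G u x₀ x₁ h p0 with hAdef
  have hAc : IsCompact A := CopiesGeo301.isCompact_AA huC x₀ x₁ h p0
  have hAK : A ⊆ G.K x₁ := fun p hp => hp.1
  have hKc : Convex ℝ (G.K x₁) := convex_K hg x₁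
  -- masses
  have hVA' : (vol (SS u x₀ x₁ h)).toReal ≤ (n + 1) * (vol (G.ex x₁ ''
      TukeyMass544.AA G u x₀ x₁ p0 h)).toReal := hVA
  have e1 : vol (SS u x₀ x₁ h) ≤ ENNReal.ofReal ((n + 1) * Ca) * ∫⁻ p in A, J p ∂μ := by
    have h1 := TukeyMass544.mass_of_area (G := G) (vol := vol) huC (C := Ca) hA1 hVA'
    rw [AA_eq] at h1
    exact h1
  have hN4 : 0 < (1 / (2 * (N : ℝ))) ^ 4 := by positivity
  have hgap : 2 * h < (1 / (2 * (N : ℝ))) ^ 4 * (s * (u x₀ - u x₁) - 2 * h) := by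
    rw [← ha]
    have h1 : s * a = h * (1 / δ) := by
      have : s * a * δ = h := by linarith
      field_simp
      linarith
    have h2 : 3 + 2 * (2 * (N : ℝ)) ^ 4 ≤ 1 / δ := by
      rw [le_one_div (by positivity) hδ]; exact hδ0
    have h3 : h * (1 + 2 * (2 * (N : ℝ)) ^ 4) ≤ s * a - 2 * h := by
      rw [h1]; nlinarith
    have h4 : (1 / (2 * (N : ℝ))) ^ 4 * (2 * (N : ℝ)) ^ 4 = 1 := by
      rw [← mul_pow, one_div, inv_mul_cancel₀ (by positivity), one_pow]
    calc 2 * h < (1 / (2 * (N : ℝ))) ^ 4 * h + 2 * h := by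
          have : 0 < (1 / (2 * (N : ℝ))) ^ 4 * h := by positivity
          linarith
      _ = (1 / (2 * (N : ℝ))) ^ 4 * h + 2 * h * ((1 / (2 * (N : ℝ))) ^ 4 * (2 * (N : ℝ)) ^ 4) := by
          rw [h4, mul_one]
      _ = (1 / (2 * (N : ℝ))) ^ 4 * (h * (1 + 2 * (2 * (N : ℝ)) ^ 4)) := by ring
      _ ≤ (1 / (2 * (N : ℝ))) ^ 4 * (s * a - 2 * h) := by gcongr
  have e2 : (N : ℝ≥0∞) * (ENNReal.ofReal c' * ∫⁻ p in A, J p ∂μ) ≤
      ∫⁻ p in copies ps N A, J p ∂μ := by
    rw [hc']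
    exact CopiesGeo301.mass_copies_AA hC hg huC hh.le (by linarith) hs0.le (by linarith) hp0 hD0
      hNpos hgap hc₁.le (by norm_num) (CopiesGeo301.WNcJ.of_WNcP hWJ (by norm_num))
  set 𝒢 : Set (TangentSpace (𝓡 n) x₁) := copies ps N A with h𝒢def
  have h𝒢c : IsCompact 𝒢 := isCompact_copies ps N hAc
  have h𝒢 : ∀ q ∈ 𝒢, ∃ p ∈ A, ∃ k : ℝ, 1 / 2 ≤ k ∧ k ≤ 1 ∧ q = con ps k p := by
    intro q hq
    obtain ⟨k, hk0, hk1, p, hp, hqk⟩ := exists_of_mem_copies hNpos hq
    exact ⟨p, hp, k, hk0, hk1, hqk.symm⟩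
  have h𝒢K : 𝒢 ⊆ G.K x₁ := by
    intro q hq
    obtain ⟨p, hp, k, hk0, hk1, rfl⟩ := h𝒢 q hq
    exact con_mem hKc hpsK (hAK hp) (by linarith) hk1
  have hSS0 : vol (SS u x₀ x₁ h) ≠ 0 := by
    intro h0
    have : Vp vol u x₀ x₁ h = (vol (SS u x₀ x₁ h)).toReal := rfl
    rw [this, h0] at hV
    simp at hV
  have hIA0 : ∫⁻ p in A, J p ∂μ ≠ 0 := by
    intro h0
    rw [h0, mul_zero] at e1
    exact hSS0 (le_antisymm e1 zero_le)
  have hne0 : ∫⁻ p in 𝒢, J p ∂μ ≠ 0 := by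
    intro h0
    rw [h0] at e2
    have h1 : (N : ℝ≥0∞) * (ENNReal.ofReal c' * ∫⁻ p in A, J p ∂μ) ≠ 0 := by
      refine mul_ne_zero (by exact_mod_cast hNpos.ne') (mul_ne_zero ?_ hIA0)
      rw [Ne, ENNReal.ofReal_eq_zero, not_le]
      exact hc'0
    exact h1 (le_antisymm e2 zero_le)
  have hnet : ∫⁻ p in 𝒢, J p ∂μ ≠ ⊤ := by
    refine ne_top_of_le_ne_top ?_ (hA2 𝒢 h𝒢K h𝒢c)
    exact ENNReal.mul_ne_top ENNReal.ofReal_ne_top (measure_ne_top _ _)
  -- the parent
  obtain ⟨zN, hzN, zF, hzF, W, hWK, hWc, e3, hWp⟩ :=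
    hpar (TangentSpace (𝓡 n) x₁) hrank μ (G.K x₁) J hKc hWJ ps hpsK A hAK
      (fun p hp => CopiesGeo301.inward_AA hp hs0.le (by linarith)) 𝒢 h𝒢K h𝒢c h𝒢 hne0 hnet
  -- the contacts
  set X0 : Set M := contX u (G.ex x₁ '' W) with hX0
  have hX0c : IsCompact X0 := isCompact_contX_image G huC hWc
  have e4 := lintegral_le_contX (G := G) hCa huC huA' hA2 hWK hWc
  rw [← hX0] at e4
  have hrow := convex_row (G := G) hg huC x₁ (2 * h)
  have hkey : ∀ x ∈ X0, (Dd u x (G.ex x₁ zN) ≤ 10 * h ∨ Dd u x (G.ex x₁ zF) ≤ 10 * h) ∧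
      u x ≤ u x₁ + 103 * δ * a := by
    intro x hx
    obtain ⟨p', hp', hxp⟩ := (mem_contX_image G u x₁ W x).1 hx
    obtain ⟨p, hp, k, hk0, hk1, r, hr, hpbK, hout, hp1, hp2⟩ := hWp p' hp'
    have hDN : Dd u x₁ (G.ex x₁ zN) ≤ 2 * h := by
      have := hzN.2.2.1; linarith
    have hDF : Dd u x₁ (G.ex x₁ zF) ≤ 2 * h := by
      have := hzF.2.2.1; linarith
    have hDp : Dd u x₁ (G.ex x₁ p) ≤ 2 * h := by
      have := hp.2.2.1; linarith
    have hDb : Dd u x₁ (G.ex x₁ (con ps (k / 4) p)) ≤ 2 * h := by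
      have h1 : con ps (k / 4) p ∈ {p : TangentSpace (𝓡 n) x₁ | p ∈ G.K x₁ ∧
          Dd u x₁ (G.ex x₁ p) ≤ 2 * h} := by
        have h2 := hrow (show ps ∈ {p : TangentSpace (𝓡 n) x₁ | p ∈ G.K x₁ ∧
          Dd u x₁ (G.ex x₁ p) ≤ 2 * h} from ⟨hpsK, hDs⟩) (show p ∈ _ from ⟨hAK hp, hDp⟩)
          (a := 1 - k / 4) (b := k / 4) (by linarith) (by linarith) (by ring)
        convert h2 using 1
        unfold con; module
      exact h1.2
    obtain ⟨hrK, hDr⟩ := seg_row hg huC (hAK hzN) (hAK hzF) hr hDN hDF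
    constructor
    · have h1 := contact_split (x' := x) hg huC hpbK (hAK hzN) (hAK hzF) hr (τ := 1 / 2)
        (by linarith : 0 < 2 * h) hDb hDN hDF hout (by norm_num) (by norm_num) (by
          rw [← hp1]
          exact (Dd_eq_zero huc).1 hxp)
      have e : 2 * h / (1 / 2 : ℝ) ^ 2 + 2 * h = 10 * h := by ring
      rw [e] at h1
      exact h1
    · have h1 := contact_top (x' := x) hg hS huC hpsK (hAK hp) hrK (α := 1 / 2) (β := k / 8)
        (t := 5 / 8) (s := s) (h := h) (H1 := 2 * h) (ε := 0) (by norm_num) (by linarith)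
        (by linarith) (by norm_num) hs0.le (by linarith) hh.le le_rfl (hstar x) hDs hDp hDr (by
          rw [← hp2]
          exact hxp.le)
      have h2 : s * (u x - u x₁) ≤ 103 * h := by nlinarith
      have h3 : s * (u x - u x₁) ≤ s * (103 * δ * a) := by
        calc s * (u x - u x₁) ≤ 103 * h := h2
          _ = s * (103 * δ * a) := by rw [← hsa]; ring
      have h4 := le_of_mul_le_mul_left h3 hs0
      linarith
  obtain ⟨y, hy, X, hXX, hXc, hXy, hXv⟩ := vol_split vol huc hX0c (fun x hx => (hkey x hx).1)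
  refine ⟨y, X, hXc, ?_, fun x hx => ⟨hXy x hx, (hkey x (hXX hx)).2⟩, ?_⟩
  · rcases hy with rfl | rfl
    · have := hzN.2.1; linarith
    · have := hzF.2.1; linarith
  · -- the volume
    have h1 : ENNReal.ofReal (m / Ca * (N * c')) * vol (SS u x₀ x₁ h) ≤
        ENNReal.ofReal ((n + 1) * Ca * Cp) * vol X0 := by
      calc ENNReal.ofReal (m / Ca * (N * c')) * vol (SS u x₀ x₁ h)
          ≤ ENNReal.ofReal (m / Ca * (N * c')) *
            (ENNReal.ofReal ((n + 1) * Ca) * ∫⁻ p in A, J p ∂μ) := by gcongr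
        _ = ENNReal.ofReal (m / Ca) * ENNReal.ofReal ((n + 1) * Ca) *
            ((N : ℝ≥0∞) * (ENNReal.ofReal c' * ∫⁻ p in A, J p ∂μ)) := by
            rw [ENNReal.ofReal_mul (by positivity), ENNReal.ofReal_mul (by positivity),
              ENNReal.ofReal_natCast]
            ring
        _ ≤ ENNReal.ofReal (m / Ca) * ENNReal.ofReal ((n + 1) * Ca) *
            (ENNReal.ofReal Cp * ∫⁻ p in W, J p ∂μ) := mul_le_mul' le_rfl (e2.trans e3)
        _ = ENNReal.ofReal ((n + 1) * Ca * Cp) *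
            (ENNReal.ofReal (m / Ca) * ∫⁻ p in W, J p ∂μ) := by
            rw [ENNReal.ofReal_mul (p := (n + 1) * Ca) (by positivity)]
            ring
        _ ≤ ENNReal.ofReal ((n + 1) * Ca * Cp) * vol X0 := by gcongr
    have h2 := ENNReal.toReal_mono
      (ENNReal.mul_ne_top ENNReal.ofReal_ne_top (measure_ne_top _ _)) h1
    rw [ENNReal.toReal_mul, ENNReal.toReal_mul, ENNReal.toReal_ofReal (by positivity),
      ENNReal.toReal_ofReal (by positivity)] at h2
    have hVe : Vp vol u x₀ x₁ h = (vol (SS u x₀ x₁ h)).toReal := rfl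
    rw [hVe]
    have h3 : (0 : ℝ) < (n + 1) * Ca * Cp := by positivity
    have h4 : (n + 1) * Ca * Cp * (2 * (B * (vol (SS u x₀ x₁ h)).toReal)) ≤
        (n + 1) * Ca * Cp * (2 * (vol X).toReal) := by
      calc (n + 1) * Ca * Cp * (2 * (B * (vol (SS u x₀ x₁ h)).toReal))
          = B * (2 * ((n + 1) * Ca * Cp)) * (vol (SS u x₀ x₁ h)).toReal := by ring
        _ ≤ m / Ca * (N * c') * (vol (SS u x₀ x₁ h)).toReal := by gcongr
        _ ≤ (n + 1) * Ca * Cp * (vol X0).toReal := h2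
        _ ≤ (n + 1) * Ca * Cp * (2 * (vol X).toReal) := by gcongr
    have h5 := le_of_mul_le_mul_left h4 h3
    linarith

end Crest.Agent.R226.Half1_464
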