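/-
R226 (helper486): linear mass lemma, closed cones of small opening, one piece of a finite closed cover.
-/
import Crest.Agent.R226.WOff_915

set_option autoImplicit false
set_option linter.unusedSectionVars false
set_option linter.unusedVariables false

open MeasureTheory Set Filter Topology Module
open scoped ENNReal RealInnerProductSpace

namespace Crest.Agent.R226.LinMass486

variable {E : Type*} [NormedAddCommGroup E] [InnerProductSpace ℝ E]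

/-! ### cones -/

theorem cone_angle {e v w : E} (he : ‖e‖ ≤ 1) (hv : 15 / 16 * ‖v‖ ≤ ⟪e, v⟫)
    (hw : 15 / 16 * ‖w‖ ≤ ⟪e, w⟫) : 3 / 4 * (‖v‖ * ‖w‖) ≤ ⟪v, w⟫ := by
  have key : ∀ x : E, 15 / 16 * ‖x‖ ≤ ⟪e, x⟫ → ‖x - ‖x‖ • e‖ ^ 2 ≤ ‖x‖ ^ 2 / 8 := by
    intro x hx
    rw [norm_sub_sq_real, norm_smul, norm_norm, real_inner_smul_right, real_inner_comm e x]
    have h1 : (‖x‖ * ‖e‖) ^ 2 ≤ ‖x‖ ^ 2 := by
      have : ‖x‖ * ‖e‖ ≤ ‖x‖ * 1 := mul_le_mul_of_nonneg_left he (norm_nonneg _)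
      rw [mul_one] at this
      gcongr
    have h2 : ‖x‖ * (15 / 16 * ‖x‖) ≤ ‖x‖ * ⟪e, x⟫ := mul_le_mul_of_nonneg_left hx (norm_nonneg _)
    nlinarith
  have h1 : ‖‖w‖ • v - ‖v‖ • w‖ ^ 2 ≤ (‖v‖ * ‖w‖) ^ 2 / 2 := by
    have e1 : ‖w‖ • v - ‖v‖ • w = ‖w‖ • (v - ‖v‖ • e) - ‖v‖ • (w - ‖w‖ • e) := by
      rw [smul_sub, smul_sub, smul_smul, smul_smul, mul_comm ‖w‖ ‖v‖]; abel
    have h3 : ‖‖w‖ • (v - ‖v‖ • e)‖ ^ 2 ≤ ‖w‖ ^ 2 * (‖v‖ ^ 2 / 8) := by
      rw [norm_smul, norm_norm, mul_pow]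
      exact mul_le_mul_of_nonneg_left (key v hv) (by positivity)
    have h4 : ‖‖v‖ • (w - ‖w‖ • e)‖ ^ 2 ≤ ‖v‖ ^ 2 * (‖w‖ ^ 2 / 8) := by
      rw [norm_smul, norm_norm, mul_pow]
      exact mul_le_mul_of_nonneg_left (key w hw) (by positivity)
    rw [e1]
    have h5 := norm_sub_le (‖w‖ • (v - ‖v‖ • e)) (‖v‖ • (w - ‖w‖ • e))
    have h6 : ‖‖w‖ • (v - ‖v‖ • e) - ‖v‖ • (w - ‖w‖ • e)‖ ^ 2 ≤
        (‖‖w‖ • (v - ‖v‖ • e)‖ + ‖‖v‖ • (w - ‖w‖ • e)‖) ^ 2 := by gcongr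
    nlinarith [sq_nonneg (‖‖w‖ • (v - ‖v‖ • e)‖ - ‖‖v‖ • (w - ‖w‖ • e)‖)]
  have h3 : ‖‖w‖ • v - ‖v‖ • w‖ ^ 2 = 2 * (‖v‖ * ‖w‖) ^ 2 - 2 * (‖v‖ * ‖w‖) * ⟪v, w⟫ := by
    rw [norm_sub_sq_real, norm_smul, norm_smul, inner_smul_left, inner_smul_right, norm_norm,
      norm_norm]
    simp only [conj_trivial]
    ring
  rw [h3] at h1
  have h4 : (‖v‖ * ‖w‖) * (3 / 4 * (‖v‖ * ‖w‖)) ≤ (‖v‖ * ‖w‖) * ⟪v, w⟫ := by nlinarith
  rcases (mul_nonneg (norm_nonneg v) (norm_nonneg w)).lt_or_eq with h | h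
  · exact le_of_mul_le_mul_left h4 h
  · rw [← h]
    have h7 : v = 0 ∨ w = 0 := by
      rcases mul_eq_zero.1 h.symm with h | h
      · exact Or.inl (norm_eq_zero.1 h)
      · exact Or.inr (norm_eq_zero.1 h)
    rcases h7 with h7 | h7 <;> simp [h7]

theorem exists_cones [FiniteDimensional ℝ E] :
    ∃ t : Finset E, (∀ e ∈ t, ‖e‖ ≤ 1) ∧ ∀ v : E, ∃ e ∈ t, 15 / 16 * ‖v‖ ≤ ⟪e, v⟫ := by
  classical
  have hs : IsCompact (Metric.sphere (0 : E) 1) := isCompact_sphere _ _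
  obtain ⟨t, ht0, ht⟩ := hs.elim_nhds_subcover (fun u => {v : E | 15 / 16 < ⟪u, v⟫})
    (fun u hu => by
      refine IsOpen.mem_nhds (isOpen_lt (by fun_prop) (by fun_prop)) ?_
      rw [mem_ofPred_eq, real_inner_self_eq_norm_sq, mem_sphere_zero_iff_norm.1 hu]
      norm_num)
  refine ⟨insert 0 t, fun e he => ?_, fun v => ?_⟩
  · rcases Finset.mem_insert.1 he with h | h
    · rw [h]; simp
    · exact (mem_sphere_zero_iff_norm.1 (ht0 e h)).le
  · by_cases hv : v = 0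
    · exact ⟨0, Finset.mem_insert_self _ _, by simp [hv]⟩
    · have hn : 0 < ‖v‖ := norm_pos_iff.2 hv
      have hu : ‖v‖⁻¹ • v ∈ Metric.sphere (0 : E) 1 := by
        rw [mem_sphere_zero_iff_norm, norm_smul, norm_inv, norm_norm, inv_mul_cancel₀ hn.ne']
      obtain ⟨u, hu1, hu2⟩ := mem_iUnion₂.1 (ht hu)
      refine ⟨u, Finset.mem_insert_of_mem hu1, ?_⟩
      rw [mem_ofPred_eq, real_inner_smul_right] at hu2
      have h1 : ‖v‖ * (15 / 16) ≤ ‖v‖ * (‖v‖⁻¹ * ⟪u, v⟫) :=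
        mul_le_mul_of_nonneg_left hu2.le hn.le
      rw [← mul_assoc, mul_inv_cancel₀ hn.ne', one_mul] at h1
      linarith

/-! ### measure -/

variable [FiniteDimensional ℝ E] [MeasurableSpace E] [BorelSpace E]

/-- lower bound for the determinant of an expanding map. -/
theorem det_ge (L : E →L[ℝ] E) {R : ℝ} (hR : 0 < R) (h : ∀ v, ‖v‖ ≤ R * ‖L v‖) :
    (1 / R) ^ finrank ℝ E ≤ |L.det| := by
  have hinj : Function.Injective L := by
    intro v w hvw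
    have h1 := h (v - w)
    rw [map_sub, hvw, sub_self, norm_zero, mul_zero] at h1
    exact sub_eq_zero.1 (norm_eq_zero.1 (le_antisymm h1 (norm_nonneg _)))
  have hsurj : Function.Surjective L := by
    have := (LinearMap.injective_iff_surjective (f := (L : E →ₗ[ℝ] E))).1 hinj
    exact this
  set μ : Measure E := Measure.addHaar with hμ
  have h0 : Metric.ball (0 : E) (1 / R) ⊆ L '' Metric.ball (0 : E) 1 := by
    intro y hy
    obtain ⟨x, rfl⟩ := hsurj y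
    refine ⟨x, ?_, rfl⟩
    rw [mem_ball_zero_iff] at hy ⊢
    calc ‖x‖ ≤ R * ‖L x‖ := h x
      _ < R * (1 / R) := by gcongr
      _ = 1 := by field_simp
  have h1 := measure_mono (μ := μ) h0
  have h2 : μ (L '' Metric.ball (0 : E) 1) = ENNReal.ofReal |L.det| * μ (Metric.ball (0 : E) 1) :=
    Measure.addHaar_image_linearMap μ (L : E →ₗ[ℝ] E) _
  have h3 : μ (Metric.ball (0 : E) (1 / R)) =
      ENNReal.ofReal ((1 / R) ^ finrank ℝ E) * μ (Metric.ball (0 : E) 1) := by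
    have := Measure.addHaar_ball_of_pos μ (0 : E) (r := 1 / R) (by positivity)
    exact this
  rw [h2, h3] at h1
  have hpos : μ (Metric.ball (0 : E) 1) ≠ 0 := (Metric.measure_ball_pos μ _ one_pos).ne'
  have hfin : μ (Metric.ball (0 : E) 1) ≠ ∞ := measure_ball_lt_top.ne
  have h4 := (ENNReal.mul_le_mul_iff_left hpos hfin).1 h1
  exact (ENNReal.ofReal_le_ofReal_iff (abs_nonneg _)).1 h4

/-- **Linear mass lemma.** -/
theorem lin_mass (μ : Measure E) [μ.IsAddHaarMeasure] {J : E → ℝ≥0∞} (L : E →L[ℝ] E) {R c : ℝ}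
    (hR : 0 < R) (h : ∀ v, ‖v‖ ≤ R * ‖L v‖) {T : E → E} {a : E} (hT : ∀ p, T p = a + L p)
    {A : Set E} (hA : MeasurableSet A) (hJ : ∀ p ∈ A, ENNReal.ofReal c * J p ≤ J (T p)) :
    ENNReal.ofReal ((1 / R) ^ finrank ℝ E) * (ENNReal.ofReal c * ∫⁻ p in A, J p ∂μ) ≤
      ∫⁻ p in T '' A, J p ∂μ := by
  have hd := det_ge L hR h
  have hT' : T = fun p => a + L p := funext hT
  have hder : ∀ x ∈ A, HasFDerivWithinAt T L A x := by
    intro x _
    rw [hT']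
    exact (L.hasFDerivWithinAt).const_add a
  have hinj : InjOn T A := by
    intro v _ w _ hvw
    rw [hT, hT] at hvw
    have hvw' : L v = L w := add_left_cancel hvw
    have h1 := h (v - w)
    rw [map_sub, hvw', sub_self, norm_zero, mul_zero] at h1
    exact sub_eq_zero.1 (norm_eq_zero.1 (le_antisymm h1 (norm_nonneg _)))
  rw [lintegral_image_eq_lintegral_abs_det_fderiv_mul μ hA hder hinj]
  rw [lintegral_const_mul' _ _ ENNReal.ofReal_ne_top]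
  gcongr
  calc ENNReal.ofReal c * ∫⁻ p in A, J p ∂μ ≤ ∫⁻ p in A, ENNReal.ofReal c * J p ∂μ :=
        lintegral_const_mul_le _ _
    _ ≤ ∫⁻ p in A, J (T p) ∂μ := setLIntegral_mono_ae' hA (Eventually.of_forall hJ)

/-- one piece of a finite cover carries a fixed part of the integral. -/
theorem exists_piece {ι : Type*} (μ : Measure E) (J : E → ℝ≥0∞) {G : Set E} (t : Finset ι)
    (ht : t.Nonempty) (P : ι → Set E) (h : ∀ q ∈ G, ∃ i ∈ t, q ∈ P i) :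
    ∃ i ∈ t, ∫⁻ p in G, J p ∂μ ≤ (t.card : ℝ≥0∞) * ∫⁻ p in P i, J p ∂μ := by
  obtain ⟨i, hi, hmax⟩ := t.exists_max_image (fun i => ∫⁻ p in P i, J p ∂μ) ht
  refine ⟨i, hi, ?_⟩
  calc ∫⁻ p in G, J p ∂μ ≤ ∫⁻ p in ⋃ i ∈ t, P i, J p ∂μ := by
        refine lintegral_mono_set ?_
        intro q hq
        obtain ⟨i, hi, hq⟩ := h q hq
        exact mem_iUnion₂.2 ⟨i, hi, hq⟩
    _ ≤ ∑ i ∈ t, ∫⁻ p in P i, J p ∂μ := by
        have h1 : (μ.restrict (⋃ i ∈ t, P i)) ≤ ∑ i ∈ t, μ.restrict (P i) := by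
          refine Measure.le_iff.2 fun s hs => ?_
          rw [Measure.restrict_apply hs, Measure.finsetSum_apply]
          simp only [Measure.restrict_apply hs]
          rw [inter_iUnion₂]
          exact measure_biUnion_finset_le _ _
        calc _ ≤ ∫⁻ p, J p ∂(∑ i ∈ t, μ.restrict (P i)) := lintegral_mono' h1 le_rfl
          _ = _ := lintegral_finsetSum_measure _ _ _
    _ ≤ t.card • ∫⁻ p in P i, J p ∂μ := Finset.sum_le_card_nsmul _ _ _ hmax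
    _ = _ := nsmul_eq_mul _ _

end Crest.Agent.R226.LinMass486
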