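/-
R226 task C3 (helper347): F3, strict monotonicity of `t ↦ phi(ξ, t p) / t`.
-/
import Crest.Agent.R226.Base_347

set_option autoImplicit false

open MeasureTheory Bundle Set Filter
open scoped Manifold ContDiff Bundle ENNReal Topology
open Crest.GeometryTopology.MTW
open Crest.Agent.R226.Calc347 Crest.Agent.R226.MTWConc117 Crest.Agent.R226.Base347

namespace Crest.Agent.R226.Mono347

variable {n : ℕ} {M : Type*} [MetricSpace M] [ChartedSpace (EuclideanSpace ℝ (Fin n)) M]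
  [IsManifold (𝓡 n) ∞ M]
  [RiemannianBundle (fun p : M => TangentSpace (𝓡 n) p)]
  {G : GeoData n M}

/-- second order inequality from the weighted triangle inequality with a moving intermediate
point -/
theorem key (hB : Base G) {x : M} {p : TangentSpace (𝓡 n) x} (hp : p ∈ G.I x)
    (ξ w : TangentSpace (𝓡 n) x) {t : ℝ} (h0 : 0 < t) (h1 : t < 1) :
    0 ≤ t⁻¹ * (G.phi x ξ (t • p) - 2 * inner ℝ w ξ + ‖w‖ ^ 2) +
      (1 - t)⁻¹ * hess (F G x) (t • p, p) (w, 0) (w, 0) - G.phi x ξ p := by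
  have hpK := hB.I_subset x hp
  have htp : t • p ∈ G.I x := hB.smul_mem_I hpK h0.le h1
  have hA := (hB.sec_F htp ξ w).const_mul t⁻¹
  have h2 : ContDiffAt ℝ 2 (F G x) (t • p, p) :=
    contDiffAt_infty.1 (hB.contDiffAt_F_mid hpK h0 h1.le) 2
  have hC := (hess_fst h2 w).const_mul (1 - t)⁻¹
  have hD := hB.sec_phi hp ξ
  have hE := (hA.add hC).sub hD
  refine hE.nonneg (Eventually.of_forall fun s => ?_)
  have hzero : t⁻¹ * F G x ((0 : ℝ) • ξ, t • p + (0 : ℝ) • w) +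
      (1 - t)⁻¹ * F G x (t • p + (0 : ℝ) • w, p) - F G x ((0 : ℝ) • ξ, p) = 0 := by
    simp only [zero_smul, add_zero]
    have e1 : F G x (0, t • p) = t ^ 2 * ‖p‖ ^ 2 / 2 := by
      have := halfDistSq_of_mem_K' hpK (le_refl 0) h0.le h1.le
      simp only [zero_smul, sub_zero] at this
      exact this
    have e2 : F G x (t • p, p) = (1 - t) ^ 2 * ‖p‖ ^ 2 / 2 := by
      have := halfDistSq_of_mem_K' hpK h0.le h1.le (le_refl 1)
      simp only [one_smul] at this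
      exact this
    have e3 : F G x (0, p) = ‖p‖ ^ 2 / 2 := by
      have := halfDistSq_of_mem_K' hpK (le_refl 0) zero_le_one (le_refl 1)
      simp only [zero_smul, one_smul, sub_zero, one_pow, one_mul] at this
      exact this
    rw [e1, e2, e3]
    have h3 : (1 - t) ≠ 0 := by linarith
    field_simp
    ring
  show t⁻¹ * F G x ((0 : ℝ) • ξ, t • p + (0 : ℝ) • w) +
      (1 - t)⁻¹ * F G x (t • p + (0 : ℝ) • w, p) - F G x ((0 : ℝ) • ξ, p) ≤ _
  rw [hzero]
  have h4 := halfDistSq_le (G.ex x (s • ξ)) (G.ex x (t • p + s • w)) (G.ex x p) h0 h1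
  show 0 ≤ t⁻¹ * F G x (s • ξ, t • p + s • w) + (1 - t)⁻¹ * F G x (t • p + s • w, p)
    - F G x (s • ξ, p)
  unfold F
  linarith

/-- **F3** (exact field `CutFacts.mono`) -/
theorem mono (hB : Base G) : ∀ x, ∀ p ∈ G.I x, ∀ ξ : TangentSpace (𝓡 n) x, ξ ≠ 0 →
    ∀ t : ℝ, 0 < t → t < 1 → G.phi x ξ p < G.phi x ξ (t • p) / t := by
  intro x p hp ξ hξ t h0 h1
  by_contra hcon
  push Not at hcon
  have hn : 0 < ‖ξ‖ ^ 2 := by positivity
  set H := hess (F G x) (t • p, p) (ξ, 0) (ξ, 0) with hH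
  have hk : ∀ μ : ℝ, 0 ≤ -(2 * μ) * (t⁻¹ * ‖ξ‖ ^ 2) + μ ^ 2 * (t⁻¹ * ‖ξ‖ ^ 2 + (1 - t)⁻¹ * H) := by
    intro μ
    have h := key hB hp ξ (μ • ξ) h0 h1
    have e1 : ((μ • ξ, 0) : TangentSpace (𝓡 n) x × TangentSpace (𝓡 n) x) = μ • (ξ, 0) := by simp
    have e2 : hess (F G x) (t • p, p) (μ • (ξ, 0)) (μ • (ξ, 0)) = μ * (μ * H) := by
      rw [map_smul, map_smul, smul_apply, smul_eq_mul, smul_eq_mul, hH]
    rw [e1, e2, norm_smul, real_inner_smul_left, real_inner_self_eq_norm_sq, mul_pow,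
      Real.norm_eq_abs, sq_abs] at h
    have h5 : G.phi x ξ (t • p) / t = t⁻¹ * G.phi x ξ (t • p) := by
      rw [div_eq_inv_mul]
    rw [h5] at hcon
    nlinarith
  set a := t⁻¹ * ‖ξ‖ ^ 2 with ha
  have hapos : 0 < a := by positivity
  set b := a + (1 - t)⁻¹ * H with hb
  -- take `μ = a / (|b| + 1)`
  have hb1 : 0 < |b| + 1 := by positivity
  have h := hk (a / (|b| + 1))
  have h6 : (a / (|b| + 1)) ^ 2 * b ≤ (a / (|b| + 1)) * a := by
    have h7 : (a / (|b| + 1)) * b ≤ a := by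
      rw [div_mul_eq_mul_div, div_le_iff₀ hb1]
      have : b ≤ |b| := le_abs_self b
      nlinarith
    have h8 : 0 ≤ a / (|b| + 1) := by positivity
    calc (a / (|b| + 1)) ^ 2 * b = (a / (|b| + 1)) * ((a / (|b| + 1)) * b) := by ring
      _ ≤ (a / (|b| + 1)) * a := mul_le_mul_of_nonneg_left h7 h8
  have h9 : 0 < a / (|b| + 1) * a := by positivity
  nlinarith

end Crest.Agent.R226.Mono347
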