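/-
R226, layer A5 (helper996): from local near-diagonal geometry around every point (`LocalNear x₀`)
to the uniform structure `NearDiag n M` on a compact manifold.
-/
import Crest.Agent.R226.NearLem_90
import Crest.Agent.R226.RadialSmooth_542

set_option autoImplicit false
set_option linter.unusedSectionVars false

open MeasureTheory Bundle Set
open scoped Manifold ContDiff Bundle ENNReal Topology
open Crest.GeometryTopology.MTW
open Crest.Agent.R226.NearLem90 (dL hasDerivAt_comp_curve)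

namespace Crest.Agent.R226.NearDiagThm996

section
variable (n : ℕ) (M : Type*) [MetricSpace M] [ChartedSpace (EuclideanSpace ℝ (Fin n)) M]
  [IsManifold (𝓡 n) ∞ M]
  [RiemannianBundle (fun p : M => TangentSpace (𝓡 n) p)]

/-- Near-diagonal geometry around one point `x₀`: base points in the open set `W ∋ x₀`,
velocities of norm `< r`. -/
structure LocalNear (x₀ : M) where
  W : Set M
  isOpen_W : IsOpen W
  mem_W : x₀ ∈ W
  r : ℝ
  r_pos : 0 < r
  e : ∀ x : M, TangentSpace (𝓡 n) x → M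
  smooth : ∀ p : TangentBundle (𝓡 n) M, p.1 ∈ W → ‖p.2‖ < r →
    ContMDiffAt (𝓡 n).tangent (𝓡 n) ∞ (fun p : TangentBundle (𝓡 n) M => e p.1 p.2) p
  smooth_cost : ∀ x ∈ W, ∀ y, dist x y < r →
    ContMDiffAt ((𝓡 n).prod (𝓡 n)) 𝓘(ℝ) ∞ (fun q : M × M => halfDistSq q.1 q.2) (x, y)
  e_zero : ∀ x ∈ W, e x 0 = x
  vel_zero : ∀ x ∈ W, ∀ v : TangentSpace (𝓡 n) x, ‖v‖ < r →
    curveVel n (fun t : ℝ => e x (t • v)) 0 = v
  norm_vel : ∀ x ∈ W, ∀ v : TangentSpace (𝓡 n) x, ‖v‖ < r → ∀ t : ℝ, |t| ≤ 1 →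
    ‖curveVel n (fun t : ℝ => e x (t • v)) t‖ = ‖v‖
  dist_eq : ∀ x ∈ W, ∀ v : TangentSpace (𝓡 n) x, ‖v‖ < r → ∀ s t : ℝ, |s| ≤ 1 → |t| ≤ 1 →
    dist (e x (s • v)) (e x (t • v)) = |s - t| * ‖v‖
  surj : ∀ x ∈ W, ∀ y, dist x y < r → ∃ v : TangentSpace (𝓡 n) x, ‖v‖ = dist x y ∧ e x v = y
  inj : ∀ x ∈ W, ∀ v w : TangentSpace (𝓡 n) x, ‖v‖ < r → ‖w‖ < r → e x v = e x w → v = w
  grad : ∀ x ∈ W, ∀ v : TangentSpace (𝓡 n) x, ‖v‖ < r → ∀ ξ : TangentSpace (𝓡 n) x,
    dL n (fun x' : M => halfDistSq x' (e x v)) x ξ = -inner ℝ v ξ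

end

variable {n : ℕ} {M : Type*} [MetricSpace M] [ChartedSpace (EuclideanSpace ℝ (Fin n)) M]
  [IsManifold (𝓡 n) ∞ M]
  [RiemannianBundle (fun p : M => TangentSpace (𝓡 n) p)]

/-- the local exponential maps agree where both are defined -/
theorem LocalNear.agree {a b : M} (A : LocalNear n M a) (B : LocalNear n M b) {x : M}
    (hxa : x ∈ A.W) (hxb : x ∈ B.W) {v : TangentSpace (𝓡 n) x} (hva : ‖v‖ < A.r)
    (hvb : ‖v‖ < B.r) : A.e x v = B.e x v := by
  have hd : dist x (A.e x v) = ‖v‖ := by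
    have := A.dist_eq x hxa v hva 0 1 (by simp) (by simp)
    rw [zero_smul, one_smul, A.e_zero x hxa] at this
    rw [this]; simp
  obtain ⟨w, hw, hwe⟩ := B.surj x hxb (A.e x v) (by rw [hd]; exact hvb)
  have hwb : ‖w‖ < B.r := by rw [hw, hd]; exact hvb
  have hvw : v = w := by
    refine ext_inner_right ℝ (fun ξ => ?_)
    have h1 := A.grad x hxa v hva ξ
    have h2 := B.grad x hxb w hwb ξ
    rw [hwe] at h2
    have := h1.symm.trans h2
    linarith
  rw [← hwe, hvw]

theorem exists_pos_le {ι : Type*} (s : Finset ι) (f : ι → ℝ) (hf : ∀ i ∈ s, 0 < f i) :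
    ∃ r : ℝ, 0 < r ∧ ∀ i ∈ s, r ≤ f i := by
  classical
  induction s using Finset.induction_on with
  | empty => exact ⟨1, one_pos, by simp⟩
  | insert i s hi ih =>
    obtain ⟨r, hr, h⟩ := ih (fun j hj => hf j (Finset.mem_insert_of_mem hj))
    refine ⟨min r (f i), lt_min hr (hf i (Finset.mem_insert_self _ _)), ?_⟩
    intro j hj
    rcases Finset.mem_insert.1 hj with rfl | hj
    · exact min_le_right _ _
    · exact (min_le_left _ _).trans (h j hj)

/-- **A5**: local near-diagonal geometry around every point gives `NearDiag`. -/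
theorem nonempty_nearDiag_of_localNear [CompactSpace M]
    [IsContMDiffRiemannianBundle (𝓡 n) ∞ (EuclideanSpace ℝ (Fin n))
      (fun p : M => TangentSpace (𝓡 n) p)]
    (hL : ∀ x₀ : M, Nonempty (LocalNear n M x₀)) : Nonempty (NearDiag n M) := by
  classical
  have L : ∀ x₀ : M, LocalNear n M x₀ := fun x₀ => (hL x₀).some
  obtain ⟨s, -, hs⟩ := isCompact_univ.elim_nhds_subcover (fun x₀ => (L x₀).W)
    (fun x₀ _ => (L x₀).isOpen_W.mem_nhds (L x₀).mem_W)
  have hcov : ∀ x : M, ∃ i ∈ s, x ∈ (L i).W := by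
    intro x
    have := hs (mem_univ x)
    simpa using this
  choose i his hiW using hcov
  obtain ⟨r, hr, hrle⟩ := exists_pos_le s (fun j => (L j).r) (fun j _ => (L j).r_pos)
  have hri : ∀ x : M, r ≤ (L (i x)).r := fun x => hrle _ (his x)
  set e : ∀ x : M, TangentSpace (𝓡 n) x → M := fun x v => (L (i x)).e x v with he
  have hgrad : ∀ x : M, ∀ v : TangentSpace (𝓡 n) x, ‖v‖ < r → ∀ ξ : TangentSpace (𝓡 n) x,
      dL n (fun x' : M => halfDistSq x' (e x v)) x ξ = -inner ℝ v ξ := by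
    intro x v hv ξ
    exact (L (i x)).grad x (hiW x) v (hv.trans_le (hri x)) ξ
  have hsm : ∀ p : TangentBundle (𝓡 n) M, ‖p.2‖ < r →
      ContMDiffAt (𝓡 n).tangent (𝓡 n) ∞ (fun p : TangentBundle (𝓡 n) M => e p.1 p.2) p := by
    intro p hp
    have h1 := (L (i p.1)).smooth p (hiW p.1) (hp.trans_le (hri p.1))
    refine h1.congr_of_eventuallyEq ?_
    have hW : ∀ᶠ q : TangentBundle (𝓡 n) M in 𝓝 p, q.1 ∈ (L (i p.1)).W := by
      have hc : Continuous (fun q : TangentBundle (𝓡 n) M => q.1) :=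
        FiberBundle.continuous_proj (EuclideanSpace ℝ (Fin n)) (TangentSpace (𝓡 n))
      exact hc.continuousAt.preimage_mem_nhds ((L (i p.1)).isOpen_W.mem_nhds (hiW p.1))
    have hN : ∀ᶠ q : TangentBundle (𝓡 n) M in 𝓝 p, ‖q.2‖ < r :=
      (isOpen_disc (n := n) (M := M) r).mem_nhds hp
    filter_upwards [hW, hN] with q hq1 hq2
    exact LocalNear.agree _ _ (hiW q.1) hq1 (hq2.trans_le (hri q.1)) (hq2.trans_le (hri p.1))
  refine ⟨{
    r₀ := r
    r₀_pos := hr
    e := e
    smooth := fun p hp => (hsm p hp).contMDiffWithinAt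
    smooth_cost := ?_
    e_zero := fun x => (L (i x)).e_zero x (hiW x)
    vel_zero := fun x v hv => (L (i x)).vel_zero x (hiW x) v (hv.trans_le (hri x))
    norm_vel := fun x v hv t ht => (L (i x)).norm_vel x (hiW x) v (hv.trans_le (hri x)) t ht
    dist_eq := fun x v hv s t hs ht =>
      (L (i x)).dist_eq x (hiW x) v (hv.trans_le (hri x)) s t hs ht
    surj := fun x y hxy => (L (i x)).surj x (hiW x) y (hxy.trans_le (hri x))
    inj := fun x v w hv hw h => (L (i x)).inj x (hiW x) v w (hv.trans_le (hri x))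
      (hw.trans_le (hri x)) h
    hasDerivAt_cost := ?_ }⟩
  · rintro ⟨x, y⟩ hq
    have hxy : dist x y < r := hq
    exact ((L (i x)).smooth_cost x (hiW x) y (hxy.trans_le (hri x))).contMDiffWithinAt
  · intro x v ξ hv hξ
    have hvr := hv.trans_le (hri x)
    have hd : dist x (e x v) < r := by
      have := (L (i x)).dist_eq x (hiW x) v hvr 0 1 (by simp) (by simp)
      rw [zero_smul, one_smul, (L (i x)).e_zero x (hiW x)] at this
      rw [he]; dsimp only
      rw [this]; simpa using hv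
    -- the cost is differentiable at `x`
    have hf : MDifferentiableAt (𝓡 n) 𝓘(ℝ) (fun x' : M => halfDistSq x' (e x v)) x := by
      have h1 := (L (i x)).smooth_cost x (hiW x) (e x v) (hd.trans_le (hri x))
      have h2 : ContMDiffAt (𝓡 n) ((𝓡 n).prod (𝓡 n)) ∞ (fun x' : M => (x', e x v)) x :=
        contMDiffAt_id.prodMk contMDiffAt_const
      exact (h1.comp x h2).mdifferentiableAt (by simp)
    -- the curve is differentiable at `0`
    have hγ : MDifferentiableAt 𝓘(ℝ, ℝ) (𝓡 n) (fun t : ℝ => e x (t • ξ)) 0 := by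
      have h1 : ContMDiffAt (𝓡 n).tangent (𝓡 n) ∞
          (fun p : TangentBundle (𝓡 n) M => e p.1 p.2)
          (⟨x, (0 : ℝ) • ξ⟩ : TangentBundle (𝓡 n) M) :=
        hsm _ (by simpa using hr)
      have h2 := (contMDiff_scaleT_left (⟨x, ξ⟩ : TangentBundle (𝓡 n) M)).contMDiffAt (x := (0 : ℝ))
      exact (h1.comp (0 : ℝ) h2).mdifferentiableAt (by simp)
    have hx0 : (fun t : ℝ => e x (t • ξ)) 0 = x := by
      dsimp only
      rw [zero_smul]; exact (L (i x)).e_zero x (hiW x)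
    have h3 := hasDerivAt_comp_curve (n := n) hx0 hf hγ
    have h4 : curveVel n (fun t : ℝ => e x (t • ξ)) 0 = ξ :=
      (L (i x)).vel_zero x (hiW x) ξ (hξ.trans_le (hri x))
    rw [h4, hgrad x v hv ξ] at h3
    exact h3

end Crest.Agent.R226.NearDiagThm996
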