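/-
R226, Layer B, task B0 (helper90): the logarithm near the diagonal, its smoothness, reversal,
end-point derivative of the cost.
-/
import Crest.Agent.R226.GradSmooth_90
import Crest.Agent.R226.SmallFlow3_90

set_option autoImplicit false
set_option linter.unusedSectionVars false

open MeasureTheory Bundle Set Filter
open scoped Manifold ContDiff Bundle ENNReal Topology
open Crest.GeometryTopology.MTW

namespace Crest.Agent.R226.NearLog90

open NearLem90 SmallFlow90 GradSmooth90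

variable {n : ℕ} {M : Type*} [MetricSpace M] [ChartedSpace (EuclideanSpace ℝ (Fin n)) M]
  [IsManifold (𝓡 n) ∞ M]
  [RiemannianBundle (fun p : M => TangentSpace (𝓡 n) p)]

variable (N : NearDiag n M)

open Classical in
/-- the logarithm near the diagonal -/
noncomputable def lg (x y : M) : TangentSpace (𝓡 n) x :=
  if h : dist x y < N.r₀ then Classical.choose (N.surj x y h) else 0

theorem lg_spec {x y : M} (h : dist x y < N.r₀) : ‖lg N x y‖ = dist x y ∧ N.e x (lg N x y) = y := by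
  unfold lg
  rw [dif_pos h]
  exact Classical.choose_spec (N.surj x y h)

theorem norm_lg {x y : M} (h : dist x y < N.r₀) : ‖lg N x y‖ = dist x y := (lg_spec N h).1

theorem e_lg {x y : M} (h : dist x y < N.r₀) : N.e x (lg N x y) = y := (lg_spec N h).2

theorem lg_e {x : M} {v : TangentSpace (𝓡 n) x} (hv : ‖v‖ < N.r₀) : lg N x (N.e x v) = v := by
  have h1 : dist x (N.e x v) < N.r₀ := by rw [dist_e N hv]; exact hv
  apply N.inj x _ _ _ hv (e_lg N h1)
  rw [norm_lg N h1]; exact h1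

theorem eq_lg {x y : M} {v : TangentSpace (𝓡 n) x} (hv : ‖v‖ < N.r₀) (h : N.e x v = y) :
    v = lg N x y := by
  rw [← h, lg_e N hv]

/-- the gradient of the cost in the first variable is `-log` -/
theorem dL_cost {x y : M} (h : dist x y < N.r₀) (ξ : TangentSpace (𝓡 n) x) :
    dL n (fun x' : M => halfDistSq x' y) x ξ = -inner ℝ (lg N x y) ξ := by
  have h1 := mfderiv_cost_left N (x := x) (v := lg N x y) (by rw [norm_lg N h]; exact h) ξ
  rwa [e_lg N h] at h1

/-- reversal -/
theorem reversal {x : M} {v : TangentSpace (𝓡 n) x} (hv : ‖v‖ < N.r₀) :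
    N.e (N.e x ((1 : ℝ) • v)) (-(curveVel n (fun t : ℝ => N.e x (t • v)) 1)) = x := by
  have h := small_flow N x v hv 1 (-1) (by simp) (by simp) (by simp)
  have h2 : (1 : ℝ) + -1 = 0 := by norm_num
  rw [h2, zero_smul, N.e_zero, neg_one_smul] at h
  exact h

/-- the logarithm at the end point is minus the end velocity -/
theorem lg_reversal {x : M} {v : TangentSpace (𝓡 n) x} (hv : ‖v‖ < N.r₀) :
    lg N (N.e x ((1 : ℝ) • v)) x = -(curveVel n (fun t : ℝ => N.e x (t • v)) 1) := by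
  symm
  apply eq_lg N _ (reversal N hv)
  rw [norm_neg, N.norm_vel x v hv 1 (by simp)]
  exact hv

/-- first variation at the end point: `d/dy c(x,·) at exp_x v = ⟪vel_1, ·⟫` -/
theorem dL_cost_right {x : M} {v : TangentSpace (𝓡 n) x} (hv : ‖v‖ < N.r₀)
    (η : TangentSpace (𝓡 n) (N.e x ((1 : ℝ) • v))) :
    dL n (fun y' : M => halfDistSq x y') (N.e x ((1 : ℝ) • v)) η =
      inner ℝ (curveVel n (fun t : ℝ => N.e x (t • v)) 1) η := by
  have h0 : dist (N.e x ((1 : ℝ) • v)) x < N.r₀ := by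
    rw [one_smul, dist_comm, dist_e N hv]; exact hv
  have h1 := dL_cost N h0 η
  rw [lg_reversal N hv, inner_neg_left, neg_neg] at h1
  rw [← h1]
  congr 2
  funext y'
  exact halfDistSq_comm x y'

section smooth
variable [IsContMDiffRiemannianBundle (𝓡 n) ∞ (EuclideanSpace ℝ (Fin n))
    (fun p : M => TangentSpace (𝓡 n) p)]

/-- smoothness of minus the gradient in the first variable -/
theorem contMDiffAt_neg_gradX {f : M × M → ℝ} {q₀ : M × M}
    (hf : ContMDiffAt ((𝓡 n).prod (𝓡 n)) 𝓘(ℝ) ∞ f q₀)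
    {w : ∀ q : M × M, TangentSpace (𝓡 n) q.1}
    (hw : ∀ᶠ q in 𝓝 q₀, ∀ ξ : TangentSpace (𝓡 n) q.1,
      dL n (fun x' => f (x', q.2)) q.1 ξ = -inner ℝ (w q) ξ) :
    ContMDiffAt ((𝓡 n).prod (𝓡 n)) (𝓡 n).tangent ∞
      (fun q => (⟨q.1, w q⟩ : TangentBundle (𝓡 n) M)) q₀ := by
  have h1 : ContMDiffAt ((𝓡 n).prod (𝓡 n)) (𝓡 n).tangent ∞
      (fun q => (⟨q.1, -w q⟩ : TangentBundle (𝓡 n) M)) q₀ := by
    apply contMDiffAt_gradX hf
    filter_upwards [hw] with q hq ξ
    rw [hq ξ, inner_neg_left]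
  have h2 := (contMDiff_scaleT_right (n := n) (M := M) (-1)).contMDiffAt.comp q₀ h1
  refine h2.congr_of_eventuallyEq (Eventually.of_forall fun q => ?_)
  change (⟨q.1, w q⟩ : TangentBundle (𝓡 n) M) = ⟨q.1, (-1 : ℝ) • (-w q)⟩
  rw [neg_smul, one_smul, neg_neg]

/-- the logarithm is smooth near the diagonal -/
theorem contMDiffAt_lg {x y : M} (h : dist x y < N.r₀) :
    ContMDiffAt ((𝓡 n).prod (𝓡 n)) (𝓡 n).tangent ∞
      (fun q : M × M => (⟨q.1, lg N q.1 q.2⟩ : TangentBundle (𝓡 n) M)) (x, y) := by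
  apply contMDiffAt_neg_gradX (w := fun q => lg N q.1 q.2) (contMDiffAt_cost N h)
  have : ∀ᶠ q : M × M in 𝓝 (x, y), dist q.1 q.2 < N.r₀ :=
    (isOpen_lt (continuous_fst.dist continuous_snd) continuous_const).mem_nhds h
  filter_upwards [this] with q hq ξ
  exact dL_cost N hq ξ

theorem contMDiffOn_lg :
    ContMDiffOn ((𝓡 n).prod (𝓡 n)) (𝓡 n).tangent ∞
      (fun q : M × M => (⟨q.1, lg N q.1 q.2⟩ : TangentBundle (𝓡 n) M))
      {q | dist q.1 q.2 < N.r₀} :=
  fun _ hq => (contMDiffAt_lg N hq).contMDiffWithinAt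

end smooth

/-- uniqueness of near intermediate points -/
theorem mid_unique {x y m : M} {s : ℝ} (h : dist x y < N.r₀) (hs : 0 ≤ s) (hs1 : s ≤ 1)
    (h1 : dist x m = s * dist x y) (h2 : dist m y = (1 - s) * dist x y) :
    m = N.e x (s • lg N x y) := by
  rcases hs.eq_or_lt with h0 | h0
  · rw [← h0, zero_mul, dist_eq_zero] at h1
    rw [← h0, zero_smul, N.e_zero]; exact h1.symm
  rcases hs1.eq_or_lt with h01 | h01
  · rw [h01, sub_self, zero_mul, dist_eq_zero] at h2
    rw [h01, one_smul, e_lg N h]; exact h2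
  -- gradients
  have hd : dist x m < N.r₀ := by
    rw [h1]
    calc s * dist x y ≤ 1 * dist x y := by gcongr
      _ < N.r₀ := by rwa [one_mul]
  set v := lg N x y with hv
  set w := lg N x m with hw
  have hvn : ‖v‖ < N.r₀ := by rw [norm_lg N h]; exact h
  have hwn : ‖w‖ < N.r₀ := by rw [norm_lg N hd]; exact hd
  have key : ∀ ξ : TangentSpace (𝓡 n) x, ‖ξ‖ < N.r₀ → inner ℝ (v - s⁻¹ • w) ξ = 0 := by
    intro ξ hξ
    have d1 := N.hasDerivAt_cost x w ξ hwn hξ
    have d2 := N.hasDerivAt_cost x v ξ hvn hξ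
    rw [e_lg N hd] at d1
    rw [e_lg N h] at d2
    have d3 := (d1.mul_const s⁻¹).sub d2
    have hmin : IsLocalMin (fun t : ℝ => halfDistSq (N.e x (t • ξ)) m * s⁻¹ -
        halfDistSq (N.e x (t • ξ)) y) 0 := by
      refine Eventually.of_forall fun t => ?_
      have hz : N.e x ((0 : ℝ) • ξ) = x := by rw [zero_smul, N.e_zero]
      simp only [hz]
      set z := N.e x (t • ξ)
      unfold halfDistSq
      have htri : dist z y ≤ dist z m + (1 - s) * dist x y := by
        rw [← h2]; exact dist_triangle _ _ _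
      rw [h1]
      set D := dist x y
      set a := dist z m
      have ha : 0 ≤ a := dist_nonneg
      have hD : 0 ≤ D := dist_nonneg
      have hzy : dist z y ^ 2 ≤ (a + (1 - s) * D) ^ 2 := by
        have h01' : 0 ≤ 1 - s := by linarith
        gcongr
      have hconv : (a + (1 - s) * D) ^ 2 ≤ a ^ 2 * s⁻¹ + (1 - s) * D ^ 2 := by
        have hid : a ^ 2 * s⁻¹ + (1 - s) * D ^ 2 - (a + (1 - s) * D) ^ 2 =
            (1 - s) * s⁻¹ * (a - s * D) ^ 2 := by
          field_simp
          ring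
        have hpos : 0 ≤ (1 - s) * s⁻¹ * (a - s * D) ^ 2 := by
          have h01' : 0 ≤ 1 - s := by linarith
          positivity
        linarith
      have hs' : (s * D) ^ 2 / 2 * s⁻¹ = s * D ^ 2 / 2 := by
        field_simp
      rw [hs']
      have : a ^ 2 / 2 * s⁻¹ = a ^ 2 * s⁻¹ / 2 := by ring
      rw [this]
      nlinarith
    have h4 := hmin.hasDerivAt_eq_zero d3
    rw [inner_sub_left, inner_smul_left]
    simp only [conj_trivial]
    linarith
  have hvw : v - s⁻¹ • w = 0 := by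
    obtain ⟨δ, hδ, hδξ⟩ : ∃ δ : ℝ, 0 < δ ∧ ‖δ • (v - s⁻¹ • w)‖ < N.r₀ := by
      refine ⟨N.r₀ / 2 / (‖v - s⁻¹ • w‖ + 1), ?_, ?_⟩
      · have := N.r₀_pos; positivity
      · have h0 := N.r₀_pos
        rw [norm_smul, Real.norm_of_nonneg (by positivity)]
        rw [div_mul_eq_mul_div, div_lt_iff₀ (by positivity)]
        nlinarith [norm_nonneg (v - s⁻¹ • w)]
    have h5 := key _ hδξ
    rw [inner_smul_right] at h5
    have h6 := (mul_eq_zero.1 h5).resolve_left hδ.ne'
    exact inner_self_eq_zero.1 h6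
  have h7 : w = s • v := by
    rw [sub_eq_zero] at hvw
    rw [hvw, smul_smul, mul_inv_cancel₀ h0.ne', one_smul]
  rw [← h7, hw, e_lg N hd]

end Crest.Agent.R226.NearLog90
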