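import Mathlib

/-!
The PAIR lemma (crossing-free selection of the base point).

`Sees n0 th v z` : the chord `n0 + th v → n0 + z` is outward from its start.
* `three`   : of three vectors (pairwise angles `≤ 60°`, `⟪n0, ·⟫ ≥ 0`) one ordered pair sees;
* `exists_base` : for a finite measure on `{⟪n0, ·⟫ ≥ 0}` there is a base point `z` of the carrier
  seen by a fixed proportion of the mass.
-/

set_option autoImplicit false
open MeasureTheory Set Module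
open scoped ENNReal InnerProductSpace Topology

namespace Crest.Agent.R226.PairLem433

section alg

variable {E : Type*} [NormedAddCommGroup E] [InnerProductSpace ℝ E]

/-- `v` sees `z` from `n0` at ratio `th`. -/
def Sees (n0 : E) (th : ℝ) (v z : E) : Prop :=
  th * ⟪n0, v⟫_ℝ + th ^ 2 * ‖v‖ ^ 2 ≤ ⟪n0, z⟫_ℝ + th * ⟪v, z⟫_ℝ

theorem sees_iff (n0 : E) (th : ℝ) (v z : E) :
    Sees n0 th v z ↔ 0 ≤ ⟪n0 + th • v, z - th • v⟫_ℝ := by
  have h : ⟪n0 + th • v, z - th • v⟫_ℝ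
      = (⟪n0, z⟫_ℝ + th * ⟪v, z⟫_ℝ) - (th * ⟪n0, v⟫_ℝ + th ^ 2 * ‖v‖ ^ 2) := by
    rw [inner_add_left, inner_sub_right, inner_sub_right, inner_smul_left, inner_smul_left,
      inner_smul_right, inner_smul_right, real_inner_self_eq_norm_sq]
    simp only [conj_trivial]
    ring
  rw [h]
  exact sub_nonneg.symm

theorem sees_self {n0 : E} {th : ℝ} (h0 : 0 ≤ th) (h1 : th ≤ 1) {v : E} (g : 0 ≤ ⟪n0, v⟫_ℝ) :
    Sees n0 th v v := by
  unfold Sees
  rw [real_inner_self_eq_norm_sq]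
  have hv : 0 ≤ ‖v‖ ^ 2 := by positivity
  nlinarith [mul_le_mul_of_nonneg_right h1 g, mul_nonneg h0 hv, mul_nonneg (mul_nonneg h0 hv)
    (sub_nonneg.2 h1)]

/-- Top copy: a point that sees `k z` sees `z`. -/
theorem sees_up {n0 : E} {th : ℝ} (h0 : 0 ≤ th) {v z : E} (g : 0 ≤ ⟪n0, v⟫_ℝ) {k : ℝ}
    (hk : 0 < k) (hk1 : k ≤ 1) (h : Sees n0 th v (k • z)) : Sees n0 th v z := by
  unfold Sees at h ⊢
  rw [inner_smul_right, inner_smul_right] at h
  have hL : 0 ≤ th * ⟪n0, v⟫_ℝ + th ^ 2 * ‖v‖ ^ 2 := by positivity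
  have h2 : th * ⟪n0, v⟫_ℝ + th ^ 2 * ‖v‖ ^ 2 ≤ k * (⟪n0, z⟫_ℝ + th * ⟪v, z⟫_ℝ) := by
    linarith
  have h3 : 0 ≤ ⟪n0, z⟫_ℝ + th * ⟪v, z⟫_ℝ := by
    by_contra hneg
    rw [not_le] at hneg
    have := mul_neg_of_pos_of_neg hk hneg
    linarith
  calc _ ≤ k * (⟪n0, z⟫_ℝ + th * ⟪v, z⟫_ℝ) := h2
    _ ≤ 1 * (⟪n0, z⟫_ℝ + th * ⟪v, z⟫_ℝ) := by gcongr
    _ = _ := one_mul _

/-- Lower copy: if `v` sees `z` then `k v` sees `z`. -/
theorem sees_down {n0 : E} {th : ℝ} {v z : E}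
    (gz : 0 ≤ ⟪n0, z⟫_ℝ) {k : ℝ} (hk : 0 ≤ k) (hk1 : k ≤ 1) (h : Sees n0 th v z) :
    Sees n0 th (k • v) z := by
  unfold Sees at h ⊢
  rw [inner_smul_right, inner_smul_left, norm_smul, Real.norm_of_nonneg hk]
  simp only [conj_trivial]
  have hv : 0 ≤ th ^ 2 * ‖v‖ ^ 2 := by positivity
  have h1 : k * (th * ⟪n0, v⟫_ℝ + th ^ 2 * ‖v‖ ^ 2) ≤ k * (⟪n0, z⟫_ℝ + th * ⟪v, z⟫_ℝ) := by
    gcongr
  have h2 : k ^ 2 * (th ^ 2 * ‖v‖ ^ 2) ≤ k * (th ^ 2 * ‖v‖ ^ 2) := by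
    have : k ^ 2 ≤ k := by nlinarith
    gcongr
  have h3 : k * ⟪n0, z⟫_ℝ ≤ 1 * ⟪n0, z⟫_ℝ := by gcongr
  nlinarith

private theorem arith {th a b c p q g1 g2 g3 : ℝ} (h0 : 0 ≤ th) (h1 : th ≤ 1 / 4)
    (ha : 0 ≤ a) (hb : 0 ≤ b) (hc : 0 ≤ c) (g1n : 0 ≤ g1) (g12 : g1 ≤ g2) (g23 : g2 ≤ g3)
    (hp : a * b ≤ 2 * p) (hq : b * c ≤ 2 * q)
    (i1 : g2 + th * p < th * g1 + th ^ 2 * a ^ 2)
    (i2 : g1 + th * p < th * g2 + th ^ 2 * b ^ 2)
    (i3 : g3 + th * q < th * g2 + th ^ 2 * b ^ 2)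
    (i4 : g2 + th * q < th * g3 + th ^ 2 * c ^ 2) : False := by
  have hth : 0 < th := by
    rcases h0.lt_or_eq with h | h
    · exact h
    · subst h; norm_num at i1; linarith
  have g2n : 0 ≤ g2 := g1n.trans g12
  have g3n : 0 ≤ g3 := g2n.trans g23
  -- `b < 2 th a`
  have e1 : th * p < th * (th * a ^ 2) := by nlinarith
  have e2 : p < th * a ^ 2 := lt_of_mul_lt_mul_left e1 hth.le
  have e3 : a * b < a * (2 * th * a) := by nlinarith
  have e4 : b < 2 * th * a := lt_of_mul_lt_mul_left e3 ha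
  -- `c < 2 th b`
  have f1 : th * q < th * (th * b ^ 2) := by nlinarith
  have f2 : q < th * b ^ 2 := lt_of_mul_lt_mul_left f1 hth.le
  have f3 : b * c < b * (2 * th * b) := by nlinarith
  have f4 : c < 2 * th * b := lt_of_mul_lt_mul_left f3 hb
  have hqn : 0 ≤ q := by nlinarith [mul_nonneg hb hc]
  have hbpos : 0 < b := by
    rcases hb.lt_or_eq with h | h
    · exact h
    · rw [← h] at f3; norm_num at f3
  -- `c² ≤ b²/4`
  have c2 : c ^ 2 ≤ (b / 2) ^ 2 := by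
    have : c ≤ b / 2 := by nlinarith
    gcongr
  -- `g2` small
  have k1 : g3 ≤ th * g2 + th ^ 2 * b ^ 2 := by nlinarith [mul_nonneg h0 hqn]
  have k2 : g2 ≤ th * g3 + th ^ 2 * c ^ 2 := by nlinarith [mul_nonneg h0 hqn]
  have k3 : g2 ≤ b ^ 2 / 16 := by
    have hb2 : 0 ≤ b ^ 2 := by positivity
    have t1 : th ^ 2 * b ^ 2 ≤ (1 / 4) ^ 2 * b ^ 2 := by gcongr
    have t2 : th * g2 ≤ 1 / 4 * g2 := by gcongr
    have t3 : g3 ≤ 1 / 4 * g2 + b ^ 2 / 16 := by linarith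
    have t4 : th * g3 ≤ 1 / 4 * g3 := by gcongr
    have t5 : th ^ 2 * c ^ 2 ≤ (1 / 4) ^ 2 * (b / 2) ^ 2 := by gcongr
    nlinarith
  -- contradiction from `i2`
  have l1 : 2 * b ≤ a := by nlinarith
  have l2 : th * (a * b) ≤ 2 * (th * g2 + th ^ 2 * b ^ 2) := by nlinarith
  have l3 : th * (2 * b * b) ≤ th * (a * b) := by gcongr
  have l4 : th * (2 * b ^ 2) ≤ th * (2 * (g2 + th * b ^ 2)) := by nlinarith
  have l5 : 2 * b ^ 2 ≤ 2 * (g2 + th * b ^ 2) := le_of_mul_le_mul_left l4 hth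
  have l6 : th * b ^ 2 ≤ 1 / 4 * b ^ 2 := by gcongr
  have hb2 : 0 < b ^ 2 := by positivity
  linarith

/-- Three vectors, ordered by `⟪n0, ·⟫`. -/
theorem three_ord {n0 : E} {th : ℝ} (h0 : 0 ≤ th) (h1 : th ≤ 1 / 4) {v1 v2 v3 : E}
    (g1 : 0 ≤ ⟪n0, v1⟫_ℝ) (g12 : ⟪n0, v1⟫_ℝ ≤ ⟪n0, v2⟫_ℝ) (g23 : ⟪n0, v2⟫_ℝ ≤ ⟪n0, v3⟫_ℝ)
    (c12 : ‖v1‖ * ‖v2‖ ≤ 2 * ⟪v1, v2⟫_ℝ) (c23 : ‖v2‖ * ‖v3‖ ≤ 2 * ⟪v2, v3⟫_ℝ) :
    Sees n0 th v1 v2 ∨ Sees n0 th v2 v1 ∨ Sees n0 th v2 v3 ∨ Sees n0 th v3 v2 := by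
  by_contra hne
  push Not at hne
  obtain ⟨n1, n2, n3, n4⟩ := hne
  unfold Sees at n1 n2 n3 n4
  rw [real_inner_comm v1 v2] at n2
  rw [real_inner_comm v2 v3] at n4
  exact arith h0 h1 (norm_nonneg v1) (norm_nonneg v2) (norm_nonneg v3) g1 g12 g23 c12 c23
    (not_le.1 n1) (not_le.1 n2) (not_le.1 n3) (not_le.1 n4)

/-- The pair lemma. -/
theorem three {n0 : E} {th : ℝ} (h0 : 0 ≤ th) (h1 : th ≤ 1 / 4) {v1 v2 v3 : E}
    (g1 : 0 ≤ ⟪n0, v1⟫_ℝ) (g2 : 0 ≤ ⟪n0, v2⟫_ℝ) (g3 : 0 ≤ ⟪n0, v3⟫_ℝ)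
    (c12 : ‖v1‖ * ‖v2‖ ≤ 2 * ⟪v1, v2⟫_ℝ) (c13 : ‖v1‖ * ‖v3‖ ≤ 2 * ⟪v1, v3⟫_ℝ)
    (c23 : ‖v2‖ * ‖v3‖ ≤ 2 * ⟪v2, v3⟫_ℝ) :
    Sees n0 th v1 v2 ∨ Sees n0 th v2 v1 ∨ Sees n0 th v1 v3 ∨ Sees n0 th v3 v1 ∨
      Sees n0 th v2 v3 ∨ Sees n0 th v3 v2 := by
  have c21 : ‖v2‖ * ‖v1‖ ≤ 2 * ⟪v2, v1⟫_ℝ := by rw [mul_comm, real_inner_comm]; exact c12
  have c31 : ‖v3‖ * ‖v1‖ ≤ 2 * ⟪v3, v1⟫_ℝ := by rw [mul_comm, real_inner_comm]; exact c13
  have c32 : ‖v3‖ * ‖v2‖ ≤ 2 * ⟪v3, v2⟫_ℝ := by rw [mul_comm, real_inner_comm]; exact c23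
  rcases le_total ⟪n0, v1⟫_ℝ ⟪n0, v2⟫_ℝ with h12 | h12 <;>
  rcases le_total ⟪n0, v2⟫_ℝ ⟪n0, v3⟫_ℝ with h23 | h23 <;>
  rcases le_total ⟪n0, v1⟫_ℝ ⟪n0, v3⟫_ℝ with h13 | h13
  · have := three_ord h0 h1 g1 h12 h23 c12 c23; tauto
  · have := three_ord h0 h1 g1 h12 h23 c12 c23; tauto
  · have := three_ord h0 h1 g1 h13 h23 c13 c32; tauto
  · have := three_ord h0 h1 g3 h13 h12 c31 c12; tauto
  · have := three_ord h0 h1 g2 h12 h13 c21 c13; tauto
  · have := three_ord h0 h1 g2 h23 h13 c23 c31; tauto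
  · have := three_ord h0 h1 g3 h23 h12 c32 c21; tauto
  · have := three_ord h0 h1 g3 h23 h12 c32 c21; tauto

/-- A closed cone of opening `≤ 60°` around `u`. -/
def cone (u : E) : Set E := {v | ‖v - ‖v‖ • u‖ ≤ ‖v‖ / 2}

theorem isClosed_cone (u : E) : IsClosed (cone u) := by
  unfold cone
  exact isClosed_le (by fun_prop) (by fun_prop)

theorem cone_angle {u v w : E} (hv : v ∈ cone u) (hw : w ∈ cone u) :
    ‖v‖ * ‖w‖ ≤ 2 * ⟪v, w⟫_ℝ := by
  unfold cone at hv hw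
  rw [mem_ofPred_eq] at hv hw
  have h1 : ‖‖w‖ • v - ‖v‖ • w‖ ≤ ‖v‖ * ‖w‖ := by
    have e : ‖w‖ • v - ‖v‖ • w = ‖w‖ • (v - ‖v‖ • u) - ‖v‖ • (w - ‖w‖ • u) := by
      rw [smul_sub, smul_sub, smul_smul, smul_smul, mul_comm ‖w‖ ‖v‖]; abel
    rw [e]
    calc _ ≤ ‖‖w‖ • (v - ‖v‖ • u)‖ + ‖‖v‖ • (w - ‖w‖ • u)‖ := norm_sub_le _ _
      _ = ‖w‖ * ‖v - ‖v‖ • u‖ + ‖v‖ * ‖w - ‖w‖ • u‖ := by
          rw [norm_smul, norm_smul, norm_norm, norm_norm]
      _ ≤ ‖w‖ * (‖v‖ / 2) + ‖v‖ * (‖w‖ / 2) := by gcongr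
      _ = ‖v‖ * ‖w‖ := by ring
  have h2 : ‖‖w‖ • v - ‖v‖ • w‖ ^ 2 ≤ (‖v‖ * ‖w‖) ^ 2 := by gcongr
  have h3 : ‖‖w‖ • v - ‖v‖ • w‖ ^ 2 = 2 * (‖v‖ * ‖w‖) ^ 2 - 2 * (‖v‖ * ‖w‖) * ⟪v, w⟫_ℝ := by
    rw [norm_sub_sq_real, norm_smul, norm_smul, inner_smul_left, inner_smul_right, norm_norm,
      norm_norm]
    simp only [conj_trivial]
    ring
  rw [h3] at h2
  have h4 : (‖v‖ * ‖w‖) * (‖v‖ * ‖w‖) ≤ (‖v‖ * ‖w‖) * (2 * ⟪v, w⟫_ℝ) := by nlinarith
  rcases (mul_nonneg (norm_nonneg v) (norm_nonneg w)).lt_or_eq with h | h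
  · exact le_of_mul_le_mul_left h4 h
  · rw [← h]
    have := abs_real_inner_le_norm v w
    rw [← h] at this
    have := abs_nonpos_iff.1 this
    rw [this]; simp

theorem exists_cones [FiniteDimensional ℝ E] : ∃ t : Finset E, ∀ v : E, ∃ u ∈ t, v ∈ cone u := by
  classical
  have hs : IsCompact (Metric.sphere (0 : E) 1) := isCompact_sphere _ _
  obtain ⟨t, -, ht⟩ := hs.elim_nhds_subcover (fun u => Metric.ball u (1 / 2))
    (fun u _ => Metric.ball_mem_nhds u (by norm_num))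
  refine ⟨insert 0 t, fun v => ?_⟩
  by_cases hv : v = 0
  · exact ⟨0, Finset.mem_insert_self _ _, by simp [cone, hv]⟩
  · have hn : 0 < ‖v‖ := norm_pos_iff.2 hv
    have hu : ‖v‖⁻¹ • v ∈ Metric.sphere (0 : E) 1 := by
      rw [mem_sphere_zero_iff_norm, norm_smul, norm_inv, norm_norm, inv_mul_cancel₀ hn.ne']
    obtain ⟨u, hu1, hu2⟩ := mem_iUnion₂.1 (ht hu)
    refine ⟨u, Finset.mem_insert_of_mem hu1, ?_⟩
    rw [Metric.mem_ball, dist_eq_norm] at hu2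
    unfold cone
    rw [mem_ofPred_eq]
    have e : v - ‖v‖ • u = ‖v‖ • (‖v‖⁻¹ • v - u) := by
      rw [smul_sub, smul_smul, mul_inv_cancel₀ hn.ne', one_smul]
    rw [e, norm_smul, norm_norm]
    calc ‖v‖ * ‖‖v‖⁻¹ • v - u‖ ≤ ‖v‖ * (1 / 2) := by gcongr
      _ = ‖v‖ / 2 := by ring

end alg

section meas

/-- Triple counting: if among any three points of the carrier some ordered pair is in `S`, then
some point of the carrier is the second entry for a sixth of the mass. -/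
theorem exists_of_triple {α : Type*} [MeasurableSpace α] (ν : Measure α) [IsFiniteMeasure ν]
    (hν : ν ≠ 0) {S : Set (α × α)} (hS : MeasurableSet S) {B : Set α} (hB : ν Bᶜ = 0)
    (h3 : ∀ a ∈ B, ∀ b ∈ B, ∀ c ∈ B, (a, b) ∈ S ∨ (b, a) ∈ S ∨ (a, c) ∈ S ∨ (c, a) ∈ S ∨
      (b, c) ∈ S ∨ (c, b) ∈ S) : ∃ z ∈ B, ν univ ≤ 6 * ν {v | (v, z) ∈ S} := by
  set s : α → α → ℝ≥0∞ := fun a b => S.indicator 1 (a, b) with hs
  have hsm : Measurable (fun p : α × α => s p.1 p.2) := by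
    simp only [hs]
    exact measurable_one.indicator hS
  have hsm' : Measurable (fun p : α × α => s p.2 p.1) := hsm.comp measurable_swap
  have hs1 : ∀ a, Measurable (fun b => s a b) := fun a => hsm.comp measurable_prodMk_left
  have hs2 : ∀ a, Measurable (fun b => s b a) := fun a => hsm.comp measurable_prodMk_right
  set F : α → ℝ≥0∞ := fun a => ∫⁻ b, s a b ∂ν with hF
  set f : α → ℝ≥0∞ := fun a => ∫⁻ b, s b a ∂ν with hf
  have hFm : Measurable F := hsm.lintegral_prod_right'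
  have hfm : Measurable f := hsm'.lintegral_prod_right'
  have hBae : ∀ᵐ a ∂ν, a ∈ B := by
    rw [ae_iff]; exact hB
  have hpt : ∀ a ∈ B, ∀ b ∈ B, ∀ c ∈ B,
      (1 : ℝ≥0∞) ≤ s a b + s b a + (s a c + (s c a + (s b c + s c b))) := by
    intro a ha b hb c hc
    simp only [hs]
    rcases h3 a ha b hb c hc with h | h | h | h | h | h <;>
      simp only [indicator_of_mem h, Pi.one_apply] <;>
      · first
        | exact le_add_right (le_add_right le_rfl)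
        | exact le_add_right (le_add_left le_rfl)
        | exact le_add_left (le_add_right le_rfl)
        | exact le_add_left (le_add_left (le_add_right le_rfl))
        | exact le_add_left (le_add_left (le_add_left (le_add_right le_rfl)))
        | exact le_add_left (le_add_left (le_add_left (le_add_left le_rfl)))
  set m := ν univ with hm
  have hm0 : m ≠ 0 := by rw [hm]; exact (Measure.measure_univ_ne_zero).2 hν
  have hmt : m ≠ ∞ := measure_ne_top _ _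
  -- integrate over the third variable
  have h1 : ∀ a ∈ B, ∀ b ∈ B, m ≤ (s a b + s b a) * m + (F a + (f a + (F b + f b))) := by
    intro a ha b hb
    calc m = ∫⁻ _c, (1 : ℝ≥0∞) ∂ν := by rw [lintegral_const, one_mul]
      _ ≤ ∫⁻ c, (s a b + s b a + (s a c + (s c a + (s b c + s c b)))) ∂ν := by
          refine lintegral_mono_ae ?_
          filter_upwards [hBae] with c hc using hpt a ha b hb c hc
      _ = _ := by
          rw [lintegral_add_left measurable_const, lintegral_const,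
            lintegral_add_left (hs1 a), lintegral_add_left (hs2 a), lintegral_add_left (hs1 b)]
  have h2 : ∀ a ∈ B, m * m ≤ (F a + f a) * m + ((F a + f a) * m
      + (∫⁻ b, F b ∂ν + ∫⁻ b, f b ∂ν)) := by
    intro a ha
    have q1 : Measurable (fun b => s a b + s b a) := (hs1 a).add (hs2 a)
    have q2 : Measurable (fun b => (s a b + s b a) * m) := q1.mul_const m
    calc m * m = ∫⁻ _b, m ∂ν := by rw [lintegral_const]
      _ ≤ ∫⁻ b, ((s a b + s b a) * m + ((F a + f a) + (F b + f b))) ∂ν := by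
          refine lintegral_mono_ae ?_
          filter_upwards [hBae] with b hb
          refine (h1 a ha b hb).trans (le_of_eq ?_)
          ring
      _ = _ := by
          rw [lintegral_add_left q2, lintegral_mul_const _ q1, lintegral_add_left (hs1 a),
            lintegral_add_left measurable_const, lintegral_const, lintegral_add_left hFm]
  have hFf : ∫⁻ b, F b ∂ν = ∫⁻ b, f b ∂ν := by
    simp only [hF, hf]
    exact lintegral_lintegral_swap hsm.aemeasurable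
  have q3 : Measurable (fun a => F a + f a) := hFm.add hfm
  have q4 : Measurable (fun a => (F a + f a) * (2 * m)) := q3.mul_const _
  have h4 : m * m * m ≤ 6 * m * ∫⁻ b, f b ∂ν := by
    calc m * m * m = ∫⁻ _a, m * m ∂ν := by rw [lintegral_const]
      _ ≤ ∫⁻ a, ((F a + f a) * (2 * m) + (∫⁻ b, F b ∂ν + ∫⁻ b, f b ∂ν)) ∂ν := by
          refine lintegral_mono_ae ?_
          filter_upwards [hBae] with a ha
          refine (h2 a ha).trans (le_of_eq ?_)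
          ring
      _ = (∫⁻ b, F b ∂ν + ∫⁻ b, f b ∂ν) * (2 * m) + (∫⁻ b, F b ∂ν + ∫⁻ b, f b ∂ν) * m := by
          rw [lintegral_add_left q4, lintegral_mul_const _ q3, lintegral_add_left hFm,
            lintegral_const]
      _ = 6 * m * ∫⁻ b, f b ∂ν := by rw [hFf]; ring
  have h5 : m * m ≤ ∫⁻ b, 6 * f b ∂ν := by
    rw [lintegral_const_mul _ hfm]
    have : m * (m * m) ≤ m * (6 * ∫⁻ b, f b ∂ν) := by
      calc m * (m * m) = m * m * m := by ring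
        _ ≤ _ := h4
        _ = _ := by ring
    exact (ENNReal.mul_le_mul_iff_right hm0 hmt).1 this
  have hft : ∫⁻ b, 6 * f b ∂ν ≠ ∞ := by
    rw [lintegral_const_mul _ hfm]
    refine ENNReal.mul_ne_top (by norm_num) ?_
    have : ∫⁻ b, f b ∂ν ≤ m * m := by
      calc ∫⁻ b, f b ∂ν ≤ ∫⁻ _b, m ∂ν := by
            refine lintegral_mono fun b => ?_
            calc f b ≤ ∫⁻ _a, (1 : ℝ≥0∞) ∂ν := by
                  refine lintegral_mono fun a => ?_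
                  simp only [hs]
                  exact indicator_le_self' (fun _ _ => zero_le) _
              _ = m := by rw [lintegral_const, one_mul]
        _ = m * m := by rw [lintegral_const]
    exact ne_top_of_le_ne_top (ENNReal.mul_ne_top hmt hmt) this
  obtain ⟨z, hz, hzf⟩ := exists_notMem_null_laverage_le hν hft hB
  rw [notMem_compl_iff] at hz
  refine ⟨z, hz, ?_⟩
  have hfz : f z = ν {v | (v, z) ∈ S} := by
    have hmz : MeasurableSet {v | (v, z) ∈ S} := measurable_prodMk_right hS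
    rw [← lintegral_indicator_one hmz]
    rfl
  rw [← hfz]
  rw [laverage_eq] at hzf
  refine le_trans ?_ hzf
  rw [ENNReal.le_div_iff_mul_le (Or.inl hm0) (Or.inl hmt)]
  exact h5

variable {E : Type*} [NormedAddCommGroup E] [InnerProductSpace ℝ E] [FiniteDimensional ℝ E]
  [MeasurableSpace E] [BorelSpace E]

theorem measurableSet_sees (n0 : E) (th : ℝ) :
    MeasurableSet {p : E × E | Sees n0 th p.1 p.2} := by
  unfold Sees
  exact measurableSet_le (Continuous.measurable (by fun_prop)) (Continuous.measurable (by fun_prop))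

variable (E) in
/-- **Base point selection**: a fixed proportion of the mass sees one point of the carrier. -/
theorem exists_base : ∃ C : ℝ≥0∞, C ≠ ∞ ∧ ∀ (n0 : E) (th : ℝ), 0 ≤ th → th ≤ 1 / 4 →
    ∀ (μ : Measure E) [IsFiniteMeasure μ] (A : Set E), MeasurableSet A → μ Aᶜ = 0 →
    μ univ ≠ 0 → (∀ v ∈ A, 0 ≤ ⟪n0, v⟫_ℝ) →
    ∃ z ∈ A, μ univ ≤ C * μ {v | v ∈ A ∧ Sees n0 th v z} := by
  classical
  obtain ⟨t, ht⟩ := exists_cones (E := E)
  refine ⟨6 * t.card, ENNReal.mul_ne_top (by norm_num) (ENNReal.natCast_ne_top _), ?_⟩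
  intro n0 th h0 h1 μ _ A hA hA0 hμ hg
  have hcov : μ univ ≤ ∑ u ∈ t, μ (A ∩ cone u) := by
    calc μ univ ≤ μ (Aᶜ ∪ ⋃ u ∈ t, (A ∩ cone u)) := by
          refine measure_mono fun v _ => ?_
          by_cases hv : v ∈ A
          · right
            obtain ⟨u, hu, hvu⟩ := ht v
            simp only [mem_iUnion]
            exact ⟨u, hu, hv, hvu⟩
          · left; exact hv
      _ ≤ μ Aᶜ + μ (⋃ u ∈ t, (A ∩ cone u)) := measure_union_le _ _
      _ ≤ 0 + ∑ u ∈ t, μ (A ∩ cone u) := by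
          rw [hA0]; gcongr; exact measure_biUnion_finset_le _ _
      _ = _ := zero_add _
  have htne : t.Nonempty := by
    obtain ⟨u, hu, _⟩ := ht 0
    exact ⟨u, hu⟩
  obtain ⟨u, hu, hmax⟩ := Finset.exists_max_image t (fun u => μ (A ∩ cone u)) htne
  have hbig : μ univ ≤ t.card * μ (A ∩ cone u) := by
    calc μ univ ≤ ∑ w ∈ t, μ (A ∩ cone w) := hcov
      _ ≤ ∑ _w ∈ t, μ (A ∩ cone u) := Finset.sum_le_sum fun w hw => hmax w hw
      _ = _ := by rw [Finset.sum_const, nsmul_eq_mul]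
  have hmeas : MeasurableSet (A ∩ cone u) := hA.inter (isClosed_cone u).measurableSet
  set ν := μ.restrict (A ∩ cone u) with hν
  have hν0 : ν ≠ 0 := by
    intro h
    have : μ (A ∩ cone u) = 0 := by
      rw [← Measure.restrict_apply_univ, ← hν, h]; rfl
    rw [this, mul_zero] at hbig
    exact hμ (le_antisymm hbig zero_le)
  have hνB : ν (A ∩ cone u)ᶜ = 0 := by
    rw [hν, Measure.restrict_apply hmeas.compl, compl_inter_self, measure_empty]
  obtain ⟨z, hz, hzν⟩ := exists_of_triple ν hν0 (measurableSet_sees n0 th) hνB (by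
    intro a ha b hb c hc
    exact three h0 h1 (hg a ha.1) (hg b hb.1) (hg c hc.1) (cone_angle ha.2 hb.2)
      (cone_angle ha.2 hc.2) (cone_angle hb.2 hc.2))
  refine ⟨z, hz.1, ?_⟩
  have hmz : MeasurableSet {v | (v, z) ∈ {p : E × E | Sees n0 th p.1 p.2}} :=
    measurable_prodMk_right (measurableSet_sees n0 th)
  rw [hν, Measure.restrict_apply_univ, Measure.restrict_apply hmz] at hzν
  calc μ univ ≤ t.card * μ (A ∩ cone u) := hbig
    _ ≤ t.card * (6 * μ ({v | (v, z) ∈ {p : E × E | Sees n0 th p.1 p.2}} ∩ (A ∩ cone u))) := by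
        gcongr
    _ ≤ t.card * (6 * μ {v | v ∈ A ∧ Sees n0 th v z}) := by
        gcongr
        intro v hv
        exact ⟨hv.2.1, hv.1⟩
    _ = _ := by ring

end meas

end Crest.Agent.R226.PairLem433
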