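/-
R226 (helper486): `parent_seg` (helper881's segment trick, msg 12332; helper80's affine form; no
quantiles: the pieces are compact and `z_N`, `z_F` are the parents of the nearest and farthest point).
-/
import Crest.Agent.R226.LinMass_486
import Crest.Agent.R226.WNc_344

set_option autoImplicit false
set_option linter.unusedSectionVars false
set_option linter.unusedVariables false

open MeasureTheory Set Filter Topology Module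
open scoped ENNReal RealInnerProductSpace

namespace Crest.Agent.R226.ParentSeg486

open Crest.Agent.R226.WOff915 Crest.Agent.R226.WNc344 Crest.Agent.R226.LinMass486

variable {E : Type*} [NormedAddCommGroup E] [InnerProductSpace ℝ E]

/-- the parameter of the moving target on the segment `[e, z]`. -/
noncomputable def tau (z w : E) : ℝ := ⟪z, w⟫ / ‖z‖ ^ 2

/-- the moving target (seen from `ps`). -/
noncomputable def tgt (e z w : E) : E := e + tau z w • (z - e)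

theorem tau_nonneg {z w : E} (h : 0 ≤ ⟪z, w⟫) : 0 ≤ tau z w := div_nonneg h (by positivity)

theorem tau_le {z w : E} (h : ‖w‖ ≤ ‖z‖) : tau z w ≤ 1 := by
  unfold tau
  refine div_le_one_of_le₀ ?_ (by positivity)
  calc ⟪z, w⟫ ≤ ‖z‖ * ‖w‖ := real_inner_le_norm _ _
    _ ≤ ‖z‖ * ‖z‖ := by gcongr
    _ = ‖z‖ ^ 2 := by ring

/-- margin in the lateral class. -/
theorem margin_lat {ps e z w : E} (he : 0 ≤ ⟪ps, e⟫) (hz : 0 ≤ ⟪ps, z⟫)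
    (hw : 8 * ⟪ps, w⟫ ≤ ‖w‖ ^ 2) (hzw : 3 / 4 * (‖z‖ * ‖w‖) ≤ ⟪z, w⟫) (hew : 0 ≤ ⟪e, w⟫)
    (h1 : ‖e‖ ≤ 2 * ‖w‖) (h2 : ‖w‖ ≤ ‖z‖) :
    1 / 1024 * ‖tgt e z w - (1 / 4 : ℝ) • w‖ ^ 2 ≤
      ⟪ps + (1 / 4 : ℝ) • w, tgt e z w - (1 / 4 : ℝ) • w⟫ := by
  have hzw0 : 0 ≤ ⟪z, w⟫ := le_trans (by positivity) hzw
  have t0 := tau_nonneg hzw0
  have t1 := tau_le h2
  set t := tau z w with ht
  have etgt : tgt e z w = (1 - t) • e + t • z := by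
    unfold tgt; rw [← ht]; module
  have htz : t * ‖z‖ ^ 2 = ⟪z, w⟫ := by
    by_cases h : ‖z‖ = 0
    · have hz0 : z = 0 := norm_eq_zero.1 h
      rw [hz0]; simp
    · rw [ht]; unfold tau; field_simp
  -- `⟪tgt, w⟫ ≥ 9/16 ‖w‖²`
  have k1 : 9 / 16 * ‖w‖ ^ 2 ≤ t * ⟪z, w⟫ := by
    by_cases h : ‖z‖ = 0
    · have : ‖w‖ = 0 := le_antisymm (by rw [h] at h2; exact h2) (norm_nonneg _)
      rw [this]
      have := mul_nonneg t0 hzw0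
      simpa using this
    · have hzpos : 0 < ‖z‖ := lt_of_le_of_ne (norm_nonneg _) (Ne.symm h)
      have hz2 : 0 < ‖z‖ ^ 2 := by positivity
      have e1 : (3 / 4 * (‖z‖ * ‖w‖)) ^ 2 ≤ ⟪z, w⟫ ^ 2 := by
        have : 0 ≤ 3 / 4 * (‖z‖ * ‖w‖) := by positivity
        gcongr
      have e2 : ‖z‖ ^ 2 * (t * ⟪z, w⟫) = ⟪z, w⟫ ^ 2 := by rw [← htz]; ring
      have e3 : ‖z‖ ^ 2 * (9 / 16 * ‖w‖ ^ 2) ≤ ‖z‖ ^ 2 * (t * ⟪z, w⟫) := by
        rw [e2]; nlinarith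
      exact le_of_mul_le_mul_left e3 hz2
  have k2 : 9 / 16 * ‖w‖ ^ 2 ≤ ⟪tgt e z w, w⟫ := by
    rw [etgt, inner_add_left, real_inner_smul_left, real_inner_smul_left]
    have : 0 ≤ (1 - t) * ⟪e, w⟫ := mul_nonneg (by linarith) hew
    linarith
  have k3 : 0 ≤ ⟪ps, tgt e z w⟫ := by
    rw [etgt, inner_add_right, real_inner_smul_right, real_inner_smul_right]
    have := mul_nonneg (by linarith : 0 ≤ 1 - t) he
    have := mul_nonneg t0 hz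
    linarith
  have k4 : ‖tgt e z w‖ ≤ 3 * ‖w‖ := by
    have e1 : t * ‖z‖ ≤ ‖w‖ := by
      by_cases h : ‖z‖ = 0
      · rw [h, mul_zero]; positivity
      · have hzpos : 0 < ‖z‖ := lt_of_le_of_ne (norm_nonneg _) (Ne.symm h)
        have e2 : ‖z‖ * (t * ‖z‖) ≤ ‖z‖ * ‖w‖ := by
          have : ‖z‖ * (t * ‖z‖) = ⟪z, w⟫ := by rw [← htz]; ring
          rw [this]
          exact real_inner_le_norm _ _
        exact le_of_mul_le_mul_left e2 hzpos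
    calc ‖tgt e z w‖ = ‖(1 - t) • e + t • z‖ := by rw [etgt]
      _ ≤ ‖(1 - t) • e‖ + ‖t • z‖ := norm_add_le _ _
      _ = (1 - t) * ‖e‖ + t * ‖z‖ := by
          rw [norm_smul, norm_smul, Real.norm_of_nonneg t0, Real.norm_of_nonneg (by linarith)]
      _ ≤ 1 * ‖e‖ + ‖w‖ := by
          gcongr
          linarith
      _ ≤ 3 * ‖w‖ := by linarith
  have k5 : ‖tgt e z w - (1 / 4 : ℝ) • w‖ ≤ 13 / 4 * ‖w‖ := by
    have := norm_sub_le (tgt e z w) ((1 / 4 : ℝ) • w)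
    rw [norm_smul, Real.norm_of_nonneg (by norm_num : (0 : ℝ) ≤ 1 / 4)] at this
    linarith
  have k6 : ‖tgt e z w - (1 / 4 : ℝ) • w‖ ^ 2 ≤ (13 / 4 * ‖w‖) ^ 2 := by gcongr
  have k7 : ⟪ps + (1 / 4 : ℝ) • w, tgt e z w - (1 / 4 : ℝ) • w⟫ =
      ⟪ps, tgt e z w⟫ - 1 / 4 * ⟪ps, w⟫ + 1 / 4 * ⟪tgt e z w, w⟫ - 1 / 16 * ‖w‖ ^ 2 := by
    rw [inner_sub_right, inner_add_left, inner_add_left, real_inner_smul_left,
      real_inner_smul_left, real_inner_smul_right, real_inner_smul_right,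
      real_inner_self_eq_norm_sq, real_inner_comm (tgt e z w) w]
    ring
  rw [k7]
  nlinarith [sq_nonneg ‖w‖]

/-- margin in the radial class. -/
theorem margin_rad {ps z w : E} (hw : ‖w‖ ^ 2 ≤ 8 * ⟪ps, w⟫) (hzw : 0 ≤ ⟪z, w⟫)
    (h1 : ⟪ps, w⟫ ≤ ⟪ps, z⟫) (h2 : ‖z‖ ^ 2 ≤ 32 * ⟪ps, z⟫) :
    1 / 1024 * ‖z - (1 / 4 : ℝ) • w‖ ^ 2 ≤ ⟪ps + (1 / 4 : ℝ) • w, z - (1 / 4 : ℝ) • w⟫ := by
  have k7 : ⟪ps + (1 / 4 : ℝ) • w, z - (1 / 4 : ℝ) • w⟫ =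
      ⟪ps, z⟫ - 1 / 4 * ⟪ps, w⟫ + 1 / 4 * ⟪z, w⟫ - 1 / 16 * ‖w‖ ^ 2 := by
    rw [inner_sub_right, inner_add_left, inner_add_left, real_inner_smul_left,
      real_inner_smul_left, real_inner_smul_right, real_inner_smul_right,
      real_inner_self_eq_norm_sq, real_inner_comm z w]
    ring
  have k8 : ‖z - (1 / 4 : ℝ) • w‖ ^ 2 = ‖z‖ ^ 2 - 1 / 2 * ⟪z, w⟫ + 1 / 16 * ‖w‖ ^ 2 := by
    rw [norm_sub_sq_real, norm_smul, real_inner_smul_right,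
      Real.norm_of_nonneg (by norm_num : (0 : ℝ) ≤ 1 / 4)]
    ring
  rw [k7, k8]
  nlinarith

/-! ### the affine map -/

/-- its linear part. -/
noncomputable def lin (e z : E) : E →L[ℝ] E :=
  (1 / 8 : ℝ) • ContinuousLinearMap.id ℝ E +
    ((1 / 2 : ℝ) * (‖z‖ ^ 2)⁻¹) • (innerSL ℝ z).smulRight (z - e)

theorem lin_apply (e z w : E) :
    lin e z w = (1 / 8 : ℝ) • w + ((1 / 2 : ℝ) * tau z w) • (z - e) := by
  unfold lin tau
  simp only [add_apply, smul_apply, ContinuousLinearMap.id_apply,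
    ContinuousLinearMap.smulRight_apply, innerSL_apply_apply]
  rw [smul_smul]
  congr 2
  rw [div_eq_mul_inv]
  ring

theorem lin_bound {e z : E} (h : ‖e‖ ≤ ‖z‖) (w : E) : ‖w‖ ≤ 72 * ‖lin e z w‖ := by
  have e1 : w = (8 : ℝ) • lin e z w - (4 * tau z w) • (z - e) := by
    rw [lin_apply]
    module
  by_cases hz : ‖z‖ = 0
  · have hz0 : z = 0 := norm_eq_zero.1 hz
    have ht : tau z w = 0 := by unfold tau; rw [hz0]; simp
    rw [ht, mul_zero, zero_smul, sub_zero] at e1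
    calc ‖w‖ = ‖(8 : ℝ) • lin e z w‖ := by rw [← e1]
      _ = 8 * ‖lin e z w‖ := by rw [norm_smul, Real.norm_of_nonneg (by norm_num)]
      _ ≤ 72 * ‖lin e z w‖ := by
          have := norm_nonneg (lin e z w)
          linarith
  · have hzpos : 0 < ‖z‖ := lt_of_le_of_ne (norm_nonneg _) (Ne.symm hz)
    have hz2 : 0 < ‖z‖ ^ 2 := by positivity
    -- `⟪z, L w⟫ = τ ‖z‖² (1/8 + s/2)`
    have hs : 0 ≤ ⟪z, z - e⟫ := by
      rw [inner_sub_right, real_inner_self_eq_norm_sq]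
      have h1 : ⟪z, e⟫ ≤ ‖z‖ * ‖e‖ := real_inner_le_norm _ _
      have h2 : ‖z‖ * ‖e‖ ≤ ‖z‖ * ‖z‖ := by gcongr
      nlinarith
    have htz : tau z w * ‖z‖ ^ 2 = ⟪z, w⟫ := by unfold tau; field_simp
    have h3 : ⟪z, lin e z w⟫ = tau z w * (1 / 8 * ‖z‖ ^ 2 + 1 / 2 * ⟪z, z - e⟫) := by
      rw [lin_apply, inner_add_right, real_inner_smul_right, real_inner_smul_right, ← htz]
      ring
    have h4 : |tau z w| * (1 / 8 * ‖z‖ ^ 2) ≤ ‖z‖ * ‖lin e z w‖ := by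
      calc |tau z w| * (1 / 8 * ‖z‖ ^ 2)
          ≤ |tau z w| * (1 / 8 * ‖z‖ ^ 2 + 1 / 2 * ⟪z, z - e⟫) := by
            refine mul_le_mul_of_nonneg_left ?_ (abs_nonneg _)
            linarith
        _ = |⟪z, lin e z w⟫| := by
            rw [h3, abs_mul, abs_of_nonneg (a := 1 / 8 * ‖z‖ ^ 2 + 1 / 2 * ⟪z, z - e⟫)
              (by positivity)]
        _ ≤ ‖z‖ * ‖lin e z w‖ := abs_real_inner_le_norm _ _
    have h5 : |tau z w| * ‖z‖ ≤ 8 * ‖lin e z w‖ := by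
      have : ‖z‖ * (|tau z w| * ‖z‖) ≤ ‖z‖ * (8 * ‖lin e z w‖) := by nlinarith
      exact le_of_mul_le_mul_left this hzpos
    have h6 : ‖z - e‖ ≤ 2 * ‖z‖ := by
      have := norm_sub_le z e
      linarith
    calc ‖w‖ = ‖(8 : ℝ) • lin e z w - (4 * tau z w) • (z - e)‖ := by rw [← e1]
      _ ≤ ‖(8 : ℝ) • lin e z w‖ + ‖(4 * tau z w) • (z - e)‖ := norm_sub_le _ _
      _ = 8 * ‖lin e z w‖ + 4 * |tau z w| * ‖z - e‖ := by
          rw [norm_smul, norm_smul, Real.norm_of_nonneg (by norm_num : (0 : ℝ) ≤ 8),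
            Real.norm_eq_abs, abs_mul, abs_of_nonneg (by norm_num : (0 : ℝ) ≤ 4)]
      _ ≤ 8 * ‖lin e z w‖ + 4 * |tau z w| * (2 * ‖z‖) := by gcongr
      _ = 8 * ‖lin e z w‖ + 8 * (|tau z w| * ‖z‖) := by ring
      _ ≤ 8 * ‖lin e z w‖ + 8 * (8 * ‖lin e z w‖) := by gcongr
      _ = 72 * ‖lin e z w‖ := by ring


/-! ### one piece -/

theorem con_mem' {K : Set E} (hK : Convex ℝ K) {b r : E} (hb : b ∈ K) (hr : r ∈ K) :
    b + (1 / 2 : ℝ) • (r - b) ∈ K := by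
  have h1 := hK hb hr (by norm_num : (0 : ℝ) ≤ 1 / 2) (by norm_num : (0 : ℝ) ≤ 1 / 2) (by norm_num)
  have e1 : b + (1 / 2 : ℝ) • (r - b) = (1 / 2 : ℝ) • b + (1 / 2 : ℝ) • r := by module
  rw [e1]; exact h1

theorem con_sub (ps : E) (k : ℝ) (p : E) : con ps k p - ps = k • (p - ps) := by
  unfold con; abel

theorem tgt_mem {ps zN zF q : E} (h0 : 0 ≤ tau (zF - ps) (q - ps))
    (h1 : tau (zF - ps) (q - ps) ≤ 1) :
    ps + tgt (zN - ps) (zF - ps) (q - ps) ∈ segment ℝ zN zF := by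
  refine ⟨1 - tau (zF - ps) (q - ps), tau (zF - ps) (q - ps), by linarith, h0, by ring, ?_⟩
  unfold tgt
  module

variable [FiniteDimensional ℝ E] [MeasurableSpace E] [BorelSpace E]

theorem move {c₁ : ℝ} (hc₁ : 0 ≤ c₁) (μ : Measure E) [μ.IsAddHaarMeasure] {K : Set E}
    {J : E → ℝ≥0∞} (hK : Convex ℝ K) (hW : WNcP K J (1 / 1024) (1 / 4) c₁) {ps : E} (hps : ps ∈ K)
    {A : Set E} (hAK : A ⊆ K) {P : Set E} (hPK : P ⊆ K) (hPc : IsCompact P)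
    (hP : ∀ q ∈ P, ∃ p ∈ A, ∃ k : ℝ, 1 / 2 ≤ k ∧ k ≤ 1 ∧ q = con ps k p)
    (hg : ∀ q ∈ P, 0 ≤ ⟪ps, q - ps⟫) {zN zF : E} (hzN : zN ∈ A) (hzF : zF ∈ A)
    (hle : ‖zN - ps‖ ≤ ‖zF - ps‖)
    (hr : ∀ q ∈ P, ps + tgt (zN - ps) (zF - ps) (q - ps) ∈ segment ℝ zN zF)
    (hm : ∀ q ∈ P, 1 / 1024 * ‖tgt (zN - ps) (zF - ps) (q - ps) - (1 / 4 : ℝ) • (q - ps)‖ ^ 2 ≤
      ⟪ps + (1 / 4 : ℝ) • (q - ps),
        tgt (zN - ps) (zF - ps) (q - ps) - (1 / 4 : ℝ) • (q - ps)⟫) :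
    ∃ W ⊆ K, IsCompact W ∧
      ENNReal.ofReal ((1 / 72) ^ finrank ℝ E) * (ENNReal.ofReal (c₁ * c₁) * ∫⁻ p in P, J p ∂μ) ≤
        ∫⁻ p in W, J p ∂μ ∧
      ∀ p' ∈ W, ∃ p ∈ A, ∃ k : ℝ, 0 < k ∧ k ≤ 1 ∧ ∃ r ∈ segment ℝ zN zF, con ps (k / 4) p ∈ K ∧
        0 ≤ ⟪con ps (k / 4) p, r - con ps (k / 4) p⟫ ∧
        p' = con ps (k / 4) p + (1 / 2 : ℝ) • (r - con ps (k / 4) p) ∧
        p' = ps + (1 / 2 : ℝ) • (r - ps) + (k / 8) • (p - ps) := by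
  set e := zN - ps with he
  set z := zF - ps with hz
  obtain ⟨a, ha⟩ : ∃ a : E, a = ps + (1 / 2 : ℝ) • e - lin e z ps := ⟨_, rfl⟩
  obtain ⟨T, hT⟩ : ∃ T : E → E, ∀ q, T q = a + lin e z q := ⟨fun q => a + lin e z q, fun q => rfl⟩
  have hTc : Continuous T := by
    have : T = fun q => a + lin e z q := funext hT
    rw [this]; fun_prop
  -- the base point and the target of `q`
  have eb : ∀ q : E, con ps (1 / 4) q = ps + (1 / 4 : ℝ) • (q - ps) := fun q => rfl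
  have erb : ∀ q : E, ps + tgt e z (q - ps) - con ps (1 / 4) q =
      tgt e z (q - ps) - (1 / 4 : ℝ) • (q - ps) := by
    intro q; rw [eb]; abel
  have eT : ∀ q : E, T q = con ps (1 / 4) q +
      (1 / 2 : ℝ) • (ps + tgt e z (q - ps) - con ps (1 / 4) q) := by
    intro q
    have h1 : lin e z q = lin e z ps + lin e z (q - ps) := by rw [← map_add]; congr 1; abel
    rw [erb, eb, hT, ha, h1, lin_apply e z (q - ps)]
    unfold tgt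
    module
  have hsegK : ∀ r ∈ segment ℝ zN zF, r ∈ K := fun r hr => hK.segment_subset (hAK hzN) (hAK hzF) hr
  have hbK : ∀ q ∈ P, con ps (1 / 4) q ∈ K := fun q hq =>
    con_mem hK hps (hPK hq) (by norm_num) (by norm_num)
  have hrK : ∀ q ∈ P, ps + tgt e z (q - ps) ∈ K := fun q hq => hsegK _ (hr q hq)
  have hmar : ∀ q ∈ P, 1 / 1024 * ‖ps + tgt e z (q - ps) - con ps (1 / 4) q‖ ^ 2 ≤
      ⟪con ps (1 / 4) q, ps + tgt e z (q - ps) - con ps (1 / 4) q⟫ := by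
    intro q hq
    rw [erb, eb]
    exact hm q hq
  have hstep1 : ∀ q ∈ P, ENNReal.ofReal c₁ * J q ≤ J (con ps (1 / 4) q) := by
    intro q hq
    have h1 := hW q (hPK hq) ps hps (3 / 4) (by norm_num) (by norm_num)
      (Off.inward (by
        have hg' := hg q hq
        have e1 : q + (3 / 4 : ℝ) • (ps - q) = ps + (1 / 4 : ℝ) • (q - ps) := by module
        have e2 : ps - q = -(q - ps) := by abel
        rw [e1, e2, inner_neg_right, inner_add_left, real_inner_smul_left,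
          real_inner_self_eq_norm_sq, norm_neg]
        have := sq_nonneg ‖q - ps‖
        linarith))
    have e1 : q + (3 / 4 : ℝ) • (ps - q) = con ps (1 / 4) q := by unfold con; module
    rw [e1] at h1
    exact h1
  have hstep2 : ∀ q ∈ P, ENNReal.ofReal c₁ * J (con ps (1 / 4) q) ≤ J (T q) := by
    intro q hq
    have h1 := hW _ (hbK q hq) _ (hrK q hq) (1 / 2) (by norm_num) (by norm_num)
      (Off.outward (hmar q hq))
    rw [← eT] at h1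
    exact h1
  refine ⟨T '' P, ?_, hPc.image hTc, ?_, ?_⟩
  · rintro _ ⟨q, hq, rfl⟩
    rw [eT]
    exact con_mem' hK (hbK q hq) (hrK q hq)
  · have h1 := lin_mass μ (lin e z) (R := 72) (c := c₁ * c₁) (by norm_num) (lin_bound hle) hT
      hPc.measurableSet (J := J) (fun q hq => ?_)
    · exact h1
    · calc ENNReal.ofReal (c₁ * c₁) * J q
          = ENNReal.ofReal c₁ * (ENNReal.ofReal c₁ * J q) := by
            rw [ENNReal.ofReal_mul hc₁, mul_assoc]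
        _ ≤ ENNReal.ofReal c₁ * J (con ps (1 / 4) q) := by gcongr; exact hstep1 q hq
        _ ≤ J (T q) := hstep2 q hq
  · rintro _ ⟨q, hq, rfl⟩
    obtain ⟨p, hp, k, hk0, hk1, hqk⟩ := hP q hq
    have e0 : con ps (1 / 4) q = con ps (k / 4) p := by
      rw [hqk, con_con]; congr 1; ring
    refine ⟨p, hp, k, by linarith, hk1, ps + tgt e z (q - ps), hr q hq, ?_, ?_, ?_, ?_⟩
    · rw [← e0]; exact hbK q hq
    · rw [← e0]
      exact le_trans (by positivity) (hmar q hq)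
    · rw [← e0]; exact eT q
    · rw [eT, e0]; unfold con; module


/-- the conclusion of the parent step for the piece `P` with constant `C`. -/
def Concl (μ : Measure E) (K : Set E) (J : E → ℝ≥0∞) (ps : E) (A P : Set E) (C : ℝ) : Prop :=
  ∃ zN ∈ A, ∃ zF ∈ A, ∃ W ⊆ K, IsCompact W ∧
    ∫⁻ p in P, J p ∂μ ≤ ENNReal.ofReal C * ∫⁻ p in W, J p ∂μ ∧
    ∀ p' ∈ W, ∃ p ∈ A, ∃ k : ℝ, 0 < k ∧ k ≤ 1 ∧ ∃ r ∈ segment ℝ zN zF, con ps (k / 4) p ∈ K ∧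
      0 ≤ ⟪con ps (k / 4) p, r - con ps (k / 4) p⟫ ∧
      p' = con ps (k / 4) p + (1 / 2 : ℝ) • (r - con ps (k / 4) p) ∧
      p' = ps + (1 / 2 : ℝ) • (r - ps) + (k / 8) • (p - ps)

/-- the constant of one piece. -/
noncomputable def cst (E : Type*) [NormedAddCommGroup E] [InnerProductSpace ℝ E] (c₁ : ℝ) : ℝ :=
  ((1 / 72) ^ finrank ℝ E * (c₁ * c₁))⁻¹

theorem cst_pos {c₁ : ℝ} (hc₁ : 0 < c₁) : 0 < cst E c₁ := by unfold cst; positivity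

theorem Concl.of_move {c₁ : ℝ} (hc₁ : 0 < c₁) {μ : Measure E} {K : Set E} {J : E → ℝ≥0∞} {ps : E}
    {A P : Set E} {zN zF : E} (hzN : zN ∈ A) (hzF : zF ∈ A)
    (h : ∃ W ⊆ K, IsCompact W ∧
      ENNReal.ofReal ((1 / 72) ^ finrank ℝ E) * (ENNReal.ofReal (c₁ * c₁) * ∫⁻ p in P, J p ∂μ) ≤
        ∫⁻ p in W, J p ∂μ ∧
      ∀ p' ∈ W, ∃ p ∈ A, ∃ k : ℝ, 0 < k ∧ k ≤ 1 ∧ ∃ r ∈ segment ℝ zN zF, con ps (k / 4) p ∈ K ∧
        0 ≤ ⟪con ps (k / 4) p, r - con ps (k / 4) p⟫ ∧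
        p' = con ps (k / 4) p + (1 / 2 : ℝ) • (r - con ps (k / 4) p) ∧
        p' = ps + (1 / 2 : ℝ) • (r - ps) + (k / 8) • (p - ps)) :
    Concl μ K J ps A P (cst E c₁) := by
  obtain ⟨W, hWK, hWc, hW, hp⟩ := h
  refine ⟨zN, hzN, zF, hzF, W, hWK, hWc, ?_, hp⟩
  have hpos : 0 < (1 / 72 : ℝ) ^ finrank ℝ E * (c₁ * c₁) := by positivity
  rw [← mul_assoc, ← ENNReal.ofReal_mul (by positivity)] at hW
  calc ∫⁻ p in P, J p ∂μ = ENNReal.ofReal (cst E c₁) *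
        (ENNReal.ofReal ((1 / 72) ^ finrank ℝ E * (c₁ * c₁)) * ∫⁻ p in P, J p ∂μ) := by
        rw [← mul_assoc, ← ENNReal.ofReal_mul (cst_pos hc₁).le]
        unfold cst
        rw [inv_mul_cancel₀ hpos.ne', ENNReal.ofReal_one, one_mul]
    _ ≤ _ := by gcongr

theorem radial {c₁ : ℝ} (hc₁ : 0 < c₁) (μ : Measure E) [μ.IsAddHaarMeasure] {K : Set E}
    {J : E → ℝ≥0∞} (hK : Convex ℝ K) (hW : WNcP K J (1 / 1024) (1 / 4) c₁) {ps : E} (hps : ps ∈ K)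
    {A : Set E} (hAK : A ⊆ K) (hA : ∀ p ∈ A, 0 ≤ ⟪ps, p - ps⟫) {P : Set E} (hPK : P ⊆ K)
    (hPc : IsCompact P) (hPne : P.Nonempty)
    (hP : ∀ q ∈ P, ∃ p ∈ A, ∃ k : ℝ, 1 / 2 ≤ k ∧ k ≤ 1 ∧ q = con ps k p)
    {e : E} (he : ‖e‖ ≤ 1) (hcone : ∀ q ∈ P, 15 / 16 * ‖q - ps‖ ≤ ⟪e, q - ps⟫)
    (hR : ∀ q ∈ P, ‖q - ps‖ ^ 2 ≤ 8 * ⟪ps, q - ps⟫) : Concl μ K J ps A P (cst E c₁) := by
  obtain ⟨qF, hqF, hmax⟩ := hPc.exists_isMaxOn hPne
    (f := fun q => ⟪ps, q - ps⟫) (Continuous.continuousOn (by fun_prop))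
  obtain ⟨zF, hzF, k, hk0, hk1, hqk⟩ := hP qF hqF
  have hkpos : 0 < k := by linarith
  have ew : qF - ps = k • (zF - ps) := by rw [hqk, con_sub]
  have hzc : 15 / 16 * ‖zF - ps‖ ≤ ⟪e, zF - ps⟫ := by
    have h1 := hcone qF hqF
    rw [ew, norm_smul, Real.norm_of_nonneg hkpos.le, real_inner_smul_right] at h1
    refine le_of_mul_le_mul_left (?_ : k * _ ≤ k * _) hkpos
    linarith
  have hz0 := hA zF hzF
  have htgt : ∀ w : E, tgt (zF - ps) (zF - ps) w = zF - ps := by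
    intro w; unfold tgt; rw [sub_self, smul_zero, add_zero]
  refine Concl.of_move hc₁ hzF hzF (move hc₁.le μ hK hW hps hAK hPK hPc hP ?_ hzF hzF le_rfl ?_ ?_)
  · intro q hq
    have := hR q hq
    have := sq_nonneg ‖q - ps‖
    linarith
  · intro q hq
    rw [htgt]
    have : ps + (zF - ps) = zF := by abel
    rw [this]
    exact left_mem_segment ℝ _ _
  · intro q hq
    rw [htgt]
    refine margin_rad (hR q hq) ?_ ?_ ?_
    · have := cone_angle he hzc (hcone q hq)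
      exact le_trans (by positivity) this
    · have h1 : ⟪ps, q - ps⟫ ≤ ⟪ps, qF - ps⟫ := hmax hq
      rw [ew, real_inner_smul_right] at h1
      have : k * ⟪ps, zF - ps⟫ ≤ 1 * ⟪ps, zF - ps⟫ := by gcongr
      linarith
    · have h1 := hR qF hqF
      rw [ew, norm_smul, Real.norm_of_nonneg hkpos.le, real_inner_smul_right] at h1
      have h2 : k * (k * ‖zF - ps‖ ^ 2) ≤ k * (8 * ⟪ps, zF - ps⟫) := by nlinarith
      have h3 : k * ‖zF - ps‖ ^ 2 ≤ 8 * ⟪ps, zF - ps⟫ := le_of_mul_le_mul_left h2 hkpos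
      have h4 : 1 / 2 * ‖zF - ps‖ ^ 2 ≤ k * ‖zF - ps‖ ^ 2 := by gcongr
      linarith

theorem lateral {c₁ : ℝ} (hc₁ : 0 < c₁) (μ : Measure E) [μ.IsAddHaarMeasure] {K : Set E}
    {J : E → ℝ≥0∞} (hK : Convex ℝ K) (hW : WNcP K J (1 / 1024) (1 / 4) c₁) {ps : E} (hps : ps ∈ K)
    {A : Set E} (hAK : A ⊆ K) (hA : ∀ p ∈ A, 0 ≤ ⟪ps, p - ps⟫) {P : Set E} (hPK : P ⊆ K)
    (hPc : IsCompact P) (hPne : P.Nonempty)
    (hP : ∀ q ∈ P, ∃ p ∈ A, ∃ k : ℝ, 1 / 2 ≤ k ∧ k ≤ 1 ∧ q = con ps k p)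
    {e : E} (he : ‖e‖ ≤ 1) (hcone : ∀ q ∈ P, 15 / 16 * ‖q - ps‖ ≤ ⟪e, q - ps⟫)
    (hL : ∀ q ∈ P, 8 * ⟪ps, q - ps⟫ ≤ ‖q - ps‖ ^ 2) : Concl μ K J ps A P (cst E c₁) := by
  obtain ⟨qF, hqF, hmax⟩ := hPc.exists_isMaxOn hPne
    (f := fun q => ‖q - ps‖) (Continuous.continuousOn (by fun_prop))
  obtain ⟨qN, hqN, hmin⟩ := hPc.exists_isMinOn hPne
    (f := fun q => ‖q - ps‖) (Continuous.continuousOn (by fun_prop))
  obtain ⟨zF, hzF, k, hk0, hk1, hqk⟩ := hP qF hqF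
  obtain ⟨z0, hz0, k', hk0', hk1', hqk'⟩ := hP qN hqN
  have hkpos : 0 < k := by linarith
  have hkpos' : 0 < k' := by linarith
  have ew : qF - ps = k • (zF - ps) := by rw [hqk, con_sub]
  have ew' : qN - ps = k' • (z0 - ps) := by rw [hqk', con_sub]
  have hzc : 15 / 16 * ‖zF - ps‖ ≤ ⟪e, zF - ps⟫ := by
    have h1 := hcone qF hqF
    rw [ew, norm_smul, Real.norm_of_nonneg hkpos.le, real_inner_smul_right] at h1
    refine le_of_mul_le_mul_left (?_ : k * _ ≤ k * _) hkpos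
    linarith
  have hzc' : 15 / 16 * ‖z0 - ps‖ ≤ ⟪e, z0 - ps⟫ := by
    have h1 := hcone qN hqN
    rw [ew', norm_smul, Real.norm_of_nonneg hkpos'.le, real_inner_smul_right] at h1
    refine le_of_mul_le_mul_left (?_ : k' * _ ≤ k' * _) hkpos'
    linarith
  have hn0 : ‖z0 - ps‖ ≤ 2 * ‖qN - ps‖ := by
    rw [ew', norm_smul, Real.norm_of_nonneg hkpos'.le]
    have : 1 / 2 * ‖z0 - ps‖ ≤ k' * ‖z0 - ps‖ := by gcongr
    linarith
  have hnF : ‖qF - ps‖ ≤ ‖zF - ps‖ := by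
    rw [ew, norm_smul, Real.norm_of_nonneg hkpos.le]
    have : k * ‖zF - ps‖ ≤ 1 * ‖zF - ps‖ := by gcongr
    linarith
  -- the near end
  obtain ⟨zN, hzN, hzcN, hle, h2⟩ : ∃ zN ∈ A, 15 / 16 * ‖zN - ps‖ ≤ ⟪e, zN - ps⟫ ∧
      ‖zN - ps‖ ≤ ‖zF - ps‖ ∧ ‖zN - ps‖ ≤ 2 * ‖qN - ps‖ := by
    by_cases h : ‖z0 - ps‖ ≤ ‖zF - ps‖
    · exact ⟨z0, hz0, hzc', h, hn0⟩
    · exact ⟨zF, hzF, hzc, le_rfl, (lt_of_not_ge h).le.trans hn0⟩
  have hqn : ∀ q ∈ P, ‖q - ps‖ ≤ ‖zF - ps‖ := fun q hq => (hmax hq : _ ≤ _).trans hnF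
  have hzq : ∀ q ∈ P, 3 / 4 * (‖zF - ps‖ * ‖q - ps‖) ≤ ⟪zF - ps, q - ps⟫ := fun q hq =>
    cone_angle he hzc (hcone q hq)
  refine Concl.of_move hc₁ hzN hzF (move hc₁.le μ hK hW hps hAK hPK hPc hP ?_ hzN hzF hle ?_ ?_)
  · intro q hq
    obtain ⟨p, hp, κ, hκ0, -, hqκ⟩ := hP q hq
    rw [hqκ, con_sub, real_inner_smul_right]
    exact mul_nonneg (by linarith) (hA p hp)
  · intro q hq
    exact tgt_mem (tau_nonneg (le_trans (by positivity) (hzq q hq))) (tau_le (hqn q hq))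
  · intro q hq
    refine margin_lat (hA zN hzN) (hA zF hzF) (hL q hq) (hzq q hq) ?_ ?_ (hqn q hq)
    · exact le_trans (by positivity) (cone_angle he hzcN (hcone q hq))
    · have h3 : ‖qN - ps‖ ≤ ‖q - ps‖ := hmin hq
      linarith

theorem Concl.mono {μ : Measure E} {K : Set E} {J : E → ℝ≥0∞} {ps : E} {A P Q : Set E}
    {C D : ℝ} (hD : 0 ≤ D) (hC : 0 ≤ C) (h : Concl μ K J ps A P C)
    (hQ : ∫⁻ p in Q, J p ∂μ ≤ ENNReal.ofReal D * ∫⁻ p in P, J p ∂μ) :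
    Concl μ K J ps A Q (D * C) := by
  obtain ⟨zN, hzN, zF, hzF, W, hWK, hWc, hW, hp⟩ := h
  refine ⟨zN, hzN, zF, hzF, W, hWK, hWc, ?_, hp⟩
  calc ∫⁻ p in Q, J p ∂μ ≤ ENNReal.ofReal D * ∫⁻ p in P, J p ∂μ := hQ
    _ ≤ ENNReal.ofReal D * (ENNReal.ofReal C * ∫⁻ p in W, J p ∂μ) := by gcongr
    _ = ENNReal.ofReal (D * C) * ∫⁻ p in W, J p ∂μ := by
        rw [ENNReal.ofReal_mul hD, mul_assoc]

variable (E) in
/-- **Common parents on a segment** (helper881, msg 12332). -/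
theorem parent_seg {c₁ : ℝ} (hc₁ : 0 < c₁) : ∃ C : ℝ, 0 < C ∧
    ∀ (μ : Measure E) [μ.IsAddHaarMeasure] (K : Set E) (J : E → ℝ≥0∞), Convex ℝ K →
    WNcP K J (1 / 1024) (1 / 4) c₁ →
    ∀ ps ∈ K, ∀ A ⊆ K, (∀ p ∈ A, 0 ≤ ⟪ps, p - ps⟫) →
    ∀ 𝒢 ⊆ K, IsCompact 𝒢 →
    (∀ q ∈ 𝒢, ∃ p ∈ A, ∃ k : ℝ, 1 / 2 ≤ k ∧ k ≤ 1 ∧ q = con ps k p) →
    ∫⁻ p in 𝒢, J p ∂μ ≠ 0 → ∫⁻ p in 𝒢, J p ∂μ ≠ ∞ →
    ∃ zN ∈ A, ∃ zF ∈ A, ∃ W ⊆ K, IsCompact W ∧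
      ∫⁻ p in 𝒢, J p ∂μ ≤ ENNReal.ofReal C * ∫⁻ p in W, J p ∂μ ∧
      ∀ p' ∈ W, ∃ p ∈ A, ∃ k : ℝ, 0 < k ∧ k ≤ 1 ∧ ∃ r ∈ segment ℝ zN zF, con ps (k / 4) p ∈ K ∧
        0 ≤ ⟪con ps (k / 4) p, r - con ps (k / 4) p⟫ ∧
        p' = con ps (k / 4) p + (1 / 2 : ℝ) • (r - con ps (k / 4) p) ∧
        p' = ps + (1 / 2 : ℝ) • (r - ps) + (k / 8) • (p - ps) := by
  obtain ⟨t, ht1, ht2⟩ := exists_cones (E := E)
  have htne : t.Nonempty := by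
    obtain ⟨e, he, -⟩ := ht2 0
    exact ⟨e, he⟩
  have hcard : 0 < (t.card : ℝ) := by exact_mod_cast htne.card_pos
  refine ⟨t.card * (2 * cst E c₁), by have := cst_pos (E := E) hc₁; positivity, ?_⟩
  intro μ _ K J hK hW ps hps A hAK hA 𝒢 h𝒢K h𝒢c h𝒢 hne0 _
  obtain ⟨e, he, h1⟩ := exists_piece μ J (G := 𝒢) t htne
    (fun e => {q | q ∈ 𝒢 ∧ 15 / 16 * ‖q - ps‖ ≤ ⟪e, q - ps⟫}) (fun q hq => by
      obtain ⟨e, he, h⟩ := ht2 (q - ps)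
      exact ⟨e, he, hq, h⟩)
  set P : Set E := {q | q ∈ 𝒢 ∧ 15 / 16 * ‖q - ps‖ ≤ ⟪e, q - ps⟫} with hP
  have hcl : IsClosed {q : E | 15 / 16 * ‖q - ps‖ ≤ ⟪e, q - ps⟫} :=
    isClosed_le (by fun_prop) (by fun_prop)
  have hPc : IsCompact P := h𝒢c.inter_right hcl
  have h1' : ∫⁻ p in 𝒢, J p ∂μ ≤ ENNReal.ofReal t.card * ∫⁻ p in P, J p ∂μ := by
    rw [ENNReal.ofReal_natCast]; exact h1
  have hP0 : ∫⁻ p in P, J p ∂μ ≠ 0 := by
    intro h0; rw [h0, mul_zero] at h1'; exact hne0 (le_antisymm h1' bot_le)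
  have hcst : 0 ≤ cst E c₁ := (cst_pos hc₁).le
  suffices hPC : Concl μ K J ps A P (2 * cst E c₁) from
    Concl.mono (Nat.cast_nonneg _) (by positivity) hPC h1'
  obtain ⟨b, -, h2⟩ := exists_piece μ J (G := P) (Finset.univ : Finset Bool)
    (Finset.univ_nonempty)
    (fun b => if b then {q | q ∈ P ∧ ‖q - ps‖ ^ 2 ≤ 8 * ⟪ps, q - ps⟫} else
      {q | q ∈ P ∧ 8 * ⟪ps, q - ps⟫ ≤ ‖q - ps‖ ^ 2}) (fun q hq => by
      rcases le_total (‖q - ps‖ ^ 2) (8 * ⟪ps, q - ps⟫) with h | h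
      · exact ⟨true, Finset.mem_univ _, by rw [if_pos rfl]; exact ⟨hq, h⟩⟩
      · exact ⟨false, Finset.mem_univ _, by rw [if_neg (by simp)]; exact ⟨hq, h⟩⟩)
  have hc2 : ((Finset.univ : Finset Bool).card : ℝ≥0∞) = ENNReal.ofReal 2 := by simp
  rw [hc2] at h2
  cases b with
  | true =>
    rw [if_pos rfl] at h2
    refine Concl.mono (by norm_num) hcst ?_ h2
    have hcl2 : IsClosed {q : E | ‖q - ps‖ ^ 2 ≤ 8 * ⟪ps, q - ps⟫} :=
      isClosed_le (by fun_prop) (by fun_prop)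
    have hQc : IsCompact {q | q ∈ P ∧ ‖q - ps‖ ^ 2 ≤ 8 * ⟪ps, q - ps⟫} := hPc.inter_right hcl2
    refine radial hc₁ μ hK hW hps hAK hA (fun q hq => h𝒢K hq.1.1) hQc ?_
      (fun q hq => h𝒢 q hq.1.1) (ht1 e he) (fun q hq => hq.1.2) (fun q hq => hq.2)
    rw [nonempty_iff_ne_empty]
    intro h0
    rw [h0, Measure.restrict_empty, lintegral_zero_measure, mul_zero] at h2
    exact hP0 (le_antisymm h2 bot_le)
  | false =>
    rw [if_neg (by simp)] at h2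
    refine Concl.mono (by norm_num) hcst ?_ h2
    have hcl2 : IsClosed {q : E | 8 * ⟪ps, q - ps⟫ ≤ ‖q - ps‖ ^ 2} :=
      isClosed_le (by fun_prop) (by fun_prop)
    have hQc : IsCompact {q | q ∈ P ∧ 8 * ⟪ps, q - ps⟫ ≤ ‖q - ps‖ ^ 2} := hPc.inter_right hcl2
    refine lateral hc₁ μ hK hW hps hAK hA (fun q hq => h𝒢K hq.1.1) hQc ?_
      (fun q hq => h𝒢 q hq.1.1) (ht1 e he) (fun q hq => hq.1.2) (fun q hq => hq.2)
    rw [nonempty_iff_ne_empty]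
    intro h0
    rw [h0, Measure.restrict_empty, lintegral_zero_measure, mul_zero] at h2
    exact hP0 (le_antisymm h2 bot_le)

end Crest.Agent.R226.ParentSeg486
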