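/-
R226 (helper433): the common parent, leaf (D').

`parent`: `𝒢 ⊆ K` compact, made of copies `p* + k (p - p*)` of points `p ∈ A`; then there are
`p_F ∈ A` and a compact set `W' ⊆ K` of points `p' = p_b + (1/2)(p_F - p_b)`, `p_b = p* + (k/4)(p - p*)`,
`⟪p_b, p_F - p_b⟫ ≥ 0`, with `∫_𝒢 J ≤ C ∫_{W'} J`.
-/
import Crest.Agent.R226.PairLem_433
import Crest.Agent.R226.WNc_344

set_option autoImplicit false
set_option linter.unusedSectionVars false
set_option linter.unusedVariables false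

open MeasureTheory Set Filter Topology Module
open scoped ENNReal RealInnerProductSpace

namespace Crest.Agent.R226.Parent433

open Crest.Agent.R226.WOff915 Crest.Agent.R226.WNc344 Crest.Agent.R226.PairLem433

variable {E : Type*} [NormedAddCommGroup E] [InnerProductSpace ℝ E]

/-- (W0): chords that start at or behind the foot. -/
def W0P (K : Set E) (J : E → ℝ≥0∞) (τ c : ℝ) : Prop :=
  ∀ p₀ ∈ K, ∀ p₁ ∈ K, 0 ≤ ⟪p₀, p₁ - p₀⟫ → ∀ t : ℝ, 0 ≤ t → t ≤ 1 - τ →
    ENNReal.ofReal c * J p₀ ≤ J (p₀ + t • (p₁ - p₀))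

variable [FiniteDimensional ℝ E] [MeasurableSpace E] [BorelSpace E]

/-- one homothety with a pointwise comparison of the density. -/
theorem lintegral_con_ge (μ : Measure E) [μ.IsAddHaarMeasure] {J : E → ℝ≥0∞} (z : E) {a : ℝ}
    (ha : 0 < a) {A : Set E} (hA : MeasurableSet A) {c : ℝ}
    (h : ∀ p ∈ A, ENNReal.ofReal c * J p ≤ J (con z a p)) :
    ENNReal.ofReal (a ^ finrank ℝ E) * (ENNReal.ofReal c * ∫⁻ p in A, J p ∂μ) ≤
      ∫⁻ p in con z a '' A, J p ∂μ := by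
  rw [lintegral_con μ z ha hA]
  gcongr
  calc ENNReal.ofReal c * ∫⁻ p in A, J p ∂μ ≤ ∫⁻ p in A, ENNReal.ofReal c * J p ∂μ :=
        lintegral_const_mul_le _ _
    _ ≤ ∫⁻ p in A, J (con z a p) ∂μ := setLIntegral_mono_ae' hA (Eventually.of_forall h)

variable (E) in
/-- **Common parent.** -/
theorem parent {c₀ c₁ : ℝ} (hc₀ : 0 < c₀) (hc₁ : 0 < c₁) : ∃ C : ℝ, 0 < C ∧
    ∀ (μ : Measure E) [μ.IsAddHaarMeasure] (K : Set E) (J : E → ℝ≥0∞), Convex ℝ K →
    WNcP K J (1 / 4) (1 / 4) c₁ → W0P K J (1 / 2) c₀ →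
    ∀ ps ∈ K, ∀ A ⊆ K, (∀ p ∈ A, 0 ≤ ⟪ps, p - ps⟫) →
    ∀ 𝒢 ⊆ K, IsCompact 𝒢 → (∀ q ∈ 𝒢, ∃ p ∈ A, ∃ k : ℝ, 0 < k ∧ k ≤ 1 ∧ q = con ps k p) →
    ∫⁻ p in 𝒢, J p ∂μ ≠ 0 → ∫⁻ p in 𝒢, J p ∂μ ≠ ∞ →
    ∃ pF ∈ A, ∃ W ⊆ K, IsCompact W ∧ ∫⁻ p in 𝒢, J p ∂μ ≤ ENNReal.ofReal C * ∫⁻ p in W, J p ∂μ ∧
      ∀ p' ∈ W, ∃ p ∈ A, ∃ k : ℝ, 0 < k ∧ k ≤ 1 ∧ con ps (k / 4) p ∈ K ∧
        0 ≤ ⟪con ps (k / 4) p, pF - con ps (k / 4) p⟫ ∧
        p' = con ps (k / 4) p + (1 / 2 : ℝ) • (pF - con ps (k / 4) p) ∧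
        p' = ps + (1 / 2 : ℝ) • (pF - ps) + (k / 8) • (p - ps) := by
  obtain ⟨C, hCt, hC⟩ := exists_base E
  set d := finrank ℝ E with hd
  have hL : 0 < (1 / 2 : ℝ) ^ d * c₀ * ((1 / 4 : ℝ) ^ d * c₁) := by positivity
  refine ⟨(C.toReal + 1) / ((1 / 2 : ℝ) ^ d * c₀ * ((1 / 4 : ℝ) ^ d * c₁)), by positivity, ?_⟩
  intro μ _ K J hK hW1 hW0 ps hps A hAK hA 𝒢 h𝒢K h𝒢c h𝒢 hne0 hnet
  -- the measure of the copies, seen from `ps`
  set ν : Measure E := (μ.restrict 𝒢).withDensity J with hν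
  have hsub : Measurable (fun q : E => q - ps) := measurable_id.sub_const ps
  set ν' : Measure E := ν.map (fun q => q - ps) with hν'
  have hνu : ν univ = ∫⁻ p in 𝒢, J p ∂μ := by
    rw [hν, withDensity_apply _ MeasurableSet.univ, Measure.restrict_univ]
  have : IsFiniteMeasure ν := ⟨by rw [hνu]; exact lt_top_iff_ne_top.2 hnet⟩
  have : IsFiniteMeasure ν' := by rw [hν']; infer_instance
  have hν'u : ν' univ = ∫⁻ p in 𝒢, J p ∂μ := by
    rw [hν', Measure.map_apply hsub MeasurableSet.univ, preimage_univ, hνu]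
  set A' : Set E := {v | v + ps ∈ 𝒢} with hA'
  have hA'm : MeasurableSet A' := (measurable_id.add_const ps) h𝒢c.measurableSet
  have hA'0 : ν' A'ᶜ = 0 := by
    rw [hν', Measure.map_apply hsub hA'm.compl]
    have e : (fun q : E => q - ps) ⁻¹' A'ᶜ = 𝒢ᶜ := by
      ext q
      simp only [hA', mem_preimage, mem_compl_iff, mem_ofPred_eq, sub_add_cancel]
    rw [e, hν, withDensity_apply _ h𝒢c.measurableSet.compl,
      Measure.restrict_restrict h𝒢c.measurableSet.compl, compl_inter_self, Measure.restrict_empty,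
      lintegral_zero_measure]
  have hg : ∀ v ∈ A', 0 ≤ ⟪ps, v⟫ := by
    intro v hv
    obtain ⟨p, hp, k, hk0, hk1, hq⟩ := h𝒢 _ hv
    have e : v = k • (p - ps) := by
      have : v = con ps k p - ps := by rw [← hq]; abel
      rw [this]; unfold con; abel
    rw [e, inner_smul_right]
    exact mul_nonneg hk0.le (hA p hp)
  obtain ⟨z, hz, hzm⟩ := hC ps (1 / 4) (by norm_num) (by norm_num) ν' A' hA'm hA'0
    (by rw [hν'u]; exact hne0) hg
  obtain ⟨pF, hpF, kF, hkF0, hkF1, hzF⟩ := h𝒢 _ hz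
  have ez : z = kF • (pF - ps) := by
    have : z = con ps kF pF - ps := by rw [← hzF]; abel
    rw [this]; unfold con; abel
  have hpFK := hAK hpF
  -- the visible copies
  set V : Set E := {q | q ∈ 𝒢 ∧ Sees ps (1 / 4) (q - ps) (pF - ps)} with hV
  have hVc : IsCompact V := by
    have hcl : IsClosed {q : E | Sees ps (1 / 4) (q - ps) (pF - ps)} := by
      unfold Sees
      exact isClosed_le (by fun_prop) (by fun_prop)
    exact h𝒢c.inter_right hcl
  have hVm : ∫⁻ p in 𝒢, J p ∂μ ≤ C * ∫⁻ p in V, J p ∂μ := by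
    rw [hν'u] at hzm
    refine hzm.trans ?_
    gcongr
    have hms : MeasurableSet {v | v ∈ A' ∧ Sees ps (1 / 4) v z} := by
      have h0 : MeasurableSet {v : E | Sees ps (1 / 4) v z} := by
        unfold Sees
        exact measurableSet_le (Continuous.measurable (by fun_prop))
          (Continuous.measurable (by fun_prop))
      exact hA'm.inter h0
    rw [hν', Measure.map_apply hsub hms]
    have hsubset : (fun q : E => q - ps) ⁻¹' {v | v ∈ A' ∧ Sees ps (1 / 4) v z} ⊆ V := by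
      rintro q ⟨hq1, hq2⟩
      have hq1' : q ∈ 𝒢 := by
        simp only [hA', mem_ofPred_eq, sub_add_cancel] at hq1
        exact hq1
      refine ⟨hq1', ?_⟩
      have hg' : 0 ≤ ⟪ps, q - ps⟫ := by
        refine hg _ ?_
        simp only [hA', mem_ofPred_eq, sub_add_cancel]
        exact hq1'
      rw [ez] at hq2
      exact sees_up (by norm_num) hg' hkF0 hkF1 hq2
    calc ν ((fun q : E => q - ps) ⁻¹' {v | v ∈ A' ∧ Sees ps (1 / 4) v z}) ≤ ν V :=
          measure_mono hsubset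
      _ = ∫⁻ p in V, J p ∂μ := by
          rw [hν, withDensity_apply _ hVc.measurableSet,
            Measure.restrict_restrict hVc.measurableSet]
          congr 2
          ext q
          exact ⟨fun h => h.1, fun h => ⟨h, h.1⟩⟩
  -- first move, towards `ps`
  have hVK : ∀ q ∈ V, q ∈ K := fun q hq => h𝒢K hq.1
  have hb : ∀ q ∈ V, con ps (1 / 4) q ∈ K := fun q hq =>
    con_mem hK hps (hVK q hq) (by norm_num) (by norm_num)
  have hin : ∀ q ∈ V, 0 ≤ ⟪con ps (1 / 4) q, pF - con ps (1 / 4) q⟫ := by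
    intro q hq
    have h1 := (sees_iff ps (1 / 4) (q - ps) (pF - ps)).1 hq.2
    have e : pF - ps - (1 / 4 : ℝ) • (q - ps) = pF - con ps (1 / 4) q := by
      unfold con; abel
    rw [e] at h1
    exact h1
  have hstep1 : ∀ q ∈ V, ENNReal.ofReal c₁ * J q ≤ J (con ps (1 / 4) q) := by
    intro q hq
    have h1 := hW1 q (hVK q hq) ps hps (3 / 4) (by norm_num) (by norm_num)
      (Off.inward (by
        have hg' : 0 ≤ ⟪ps, q - ps⟫ := by
          refine hg _ ?_
          simp only [hA', mem_ofPred_eq, sub_add_cancel]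
          exact hq.1
        have e1 : q + (3 / 4 : ℝ) • (ps - q) = ps + (1 / 4 : ℝ) • (q - ps) := by module
        have e2 : ps - q = -(q - ps) := by abel
        rw [e1, e2, inner_neg_right, inner_add_left, real_inner_smul_left,
          real_inner_self_eq_norm_sq, norm_neg]
        linarith))
    have e1 : q + (3 / 4 : ℝ) • (ps - q) = con ps (1 / 4) q := by unfold con; module
    rw [e1] at h1
    exact h1
  have hVb : MeasurableSet (con ps (1 / 4) '' V) :=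
    (hVc.image (continuous_con _ _)).measurableSet
  have hstep2 : ∀ p ∈ con ps (1 / 4) '' V, ENNReal.ofReal c₀ * J p ≤ J (con pF (1 / 2) p) := by
    rintro _ ⟨q, hq, rfl⟩
    have h1 := hW0 _ (hb q hq) pF hpFK (hin q hq) (1 / 2) (by norm_num) (by norm_num)
    have e1 : con ps (1 / 4) q + (1 / 2 : ℝ) • (pF - con ps (1 / 4) q) =
        con pF (1 / 2) (con ps (1 / 4) q) := by unfold con; module
    rw [e1] at h1
    exact h1
  refine ⟨pF, hpF, con pF (1 / 2) '' (con ps (1 / 4) '' V), ?_,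
    (hVc.image (continuous_con _ _)).image (continuous_con _ _), ?_, ?_⟩
  · rintro _ ⟨_, ⟨q, hq, rfl⟩, rfl⟩
    exact con_mem hK hpFK (hb q hq) (by norm_num) (by norm_num)
  · have h1 := lintegral_con_ge μ ps (a := 1 / 4) (by norm_num) hVc.measurableSet hstep1
    have h2 := lintegral_con_ge μ pF (a := 1 / 2) (by norm_num) hVb hstep2
    have h3 : ENNReal.ofReal ((1 / 2 : ℝ) ^ d * c₀ * ((1 / 4 : ℝ) ^ d * c₁)) *
        ∫⁻ p in V, J p ∂μ ≤ ∫⁻ p in con pF (1 / 2) '' (con ps (1 / 4) '' V), J p ∂μ := by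
      refine le_trans (le_of_eq ?_) (le_trans (mul_le_mul_right (mul_le_mul_right h1 _) _) h2)
      rw [ENNReal.ofReal_mul (by positivity), ENNReal.ofReal_mul (by positivity),
        ENNReal.ofReal_mul (by positivity)]
      ring
    have hCle : C ≤ ENNReal.ofReal (C.toReal + 1) := by
      rw [ENNReal.ofReal_add ENNReal.toReal_nonneg zero_le_one, ENNReal.ofReal_toReal hCt]
      exact le_self_add
    calc ∫⁻ p in 𝒢, J p ∂μ ≤ C * ∫⁻ p in V, J p ∂μ := hVm
      _ ≤ ENNReal.ofReal (C.toReal + 1) * ∫⁻ p in V, J p ∂μ := by gcongr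
      _ = ENNReal.ofReal ((C.toReal + 1) / ((1 / 2 : ℝ) ^ d * c₀ * ((1 / 4 : ℝ) ^ d * c₁))) *
          (ENNReal.ofReal ((1 / 2 : ℝ) ^ d * c₀ * ((1 / 4 : ℝ) ^ d * c₁)) *
            ∫⁻ p in V, J p ∂μ) := by
          rw [← mul_assoc, ← ENNReal.ofReal_mul (by positivity), div_mul_cancel₀ _ hL.ne']
      _ ≤ _ := by gcongr
  · rintro _ ⟨_, ⟨q, hq, rfl⟩, rfl⟩
    obtain ⟨p, hp, k, hk0, hk1, hqk⟩ := h𝒢 q hq.1
    have e0 : con ps (1 / 4) q = con ps (k / 4) p := by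
      rw [hqk, con_con]; congr 1; ring
    refine ⟨p, hp, k, hk0, hk1, ?_, ?_, ?_, ?_⟩
    · rw [← e0]; exact hb q hq
    · rw [← e0]; exact hin q hq
    · rw [← e0]; unfold con; module
    · rw [e0]; unfold con; module

end Crest.Agent.R226.Parent433
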