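/-
R226 (helper881): the common parent WITHOUT (W0): the segment trick
(affine form of the targets: helper80; extreme points instead of quantiles: helper486).

`parent_seg`: `𝒢 ⊆ K` compact, made of copies `p* + k (p - p*)`, `1/2 ≤ k ≤ 1`, of points `p ∈ A`;
then there are TWO points `z_N, z_F ∈ A` and a compact set `W ⊆ K` of points
`p' = p_b + (1/2)(r - p_b)`, `p_b = p* + (k/4)(p - p*)`, `r ∈ [z_N, z_F]`, `⟪p_b, r - p_b⟫ ≥ 0`,
with `∫_𝒢 J ≤ C ∫_W J`.  Only (W) strictly off the foot is used: the target `r` is always at a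
distance from `p*` comparable with `|p - p*|`.
-/
import Crest.Agent.R226.Parent_433

set_option autoImplicit false
set_option linter.unusedSectionVars false
set_option linter.unusedVariables false

open MeasureTheory Set Filter Topology Module
open scoped ENNReal RealInnerProductSpace

namespace Crest.Agent.R226.ParentSeg881

open Crest.Agent.R226.WOff915 Crest.Agent.R226.WNc344

section alg

variable {E : Type*} [NormedAddCommGroup E] [InnerProductSpace ℝ E]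

theorem inner_expand (n0 w r : E) :
    ⟪n0 + (1 / 4 : ℝ) • w, r - (1 / 4 : ℝ) • w⟫ =
      ⟪n0, r⟫ - 1 / 4 * ⟪n0, w⟫ + 1 / 4 * ⟪w, r⟫ - 1 / 16 * ‖w‖ ^ 2 := by
  rw [inner_add_left, inner_sub_right, inner_sub_right, real_inner_smul_left,
    real_inner_smul_left, real_inner_smul_right, real_inner_smul_right,
    real_inner_self_eq_norm_sq]
  ring

theorem norm_expand (w r : E) :
    ‖r - (1 / 4 : ℝ) • w‖ ^ 2 = ‖r‖ ^ 2 - 1 / 2 * ⟪w, r⟫ + 1 / 16 * ‖w‖ ^ 2 := by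
  rw [norm_sub_sq_real, real_inner_smul_right, norm_smul, real_inner_comm, mul_pow,
    Real.norm_eq_abs, sq_abs]
  ring

/-- the margin of the second move, lateral class. -/
theorem margin_lat {n0 w r : E} (hw : 8 * ⟪n0, w⟫ ≤ ‖w‖ ^ 2) (hr0 : 0 ≤ ⟪n0, r⟫)
    (hc : 49 / 64 * ‖w‖ ^ 2 ≤ ⟪w, r⟫) (h2 : ‖r‖ ≤ 3 * ‖w‖) :
    1 / 1024 * ‖r - (1 / 4 : ℝ) • w‖ ^ 2 ≤ ⟪n0 + (1 / 4 : ℝ) • w, r - (1 / 4 : ℝ) • w⟫ := by
  rw [inner_expand, norm_expand]
  have hw0 := norm_nonneg w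
  have hr1 := norm_nonneg r
  have e2 : ‖r‖ ^ 2 ≤ 9 * ‖w‖ ^ 2 := by nlinarith
  have e4 : 0 ≤ ‖w‖ ^ 2 := by positivity
  nlinarith

/-- the margin of the second move, radial class. -/
theorem margin_rad {n0 w r : E} (hw : ‖w‖ ^ 2 ≤ 8 * ⟪n0, w⟫) (hr : ‖r‖ ^ 2 ≤ 16 * ⟪n0, r⟫)
    (hwr : ⟪n0, w⟫ ≤ ⟪n0, r⟫) (e3 : 0 ≤ ⟪w, r⟫) :
    1 / 1024 * ‖r - (1 / 4 : ℝ) • w‖ ^ 2 ≤ ⟪n0 + (1 / 4 : ℝ) • w, r - (1 / 4 : ℝ) • w⟫ := by
  rw [inner_expand, norm_expand]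
  have e4 : 0 ≤ ‖w‖ ^ 2 := by positivity
  have e5 : 0 ≤ ‖r‖ ^ 2 := by positivity
  nlinarith

/-- a closed narrow cone. -/
def ncone (u : E) : Set E := {v | ‖v - ‖v‖ • u‖ ≤ ‖v‖ / 4}

theorem isClosed_ncone (u : E) : IsClosed (ncone u) := by
  unfold ncone
  exact isClosed_le (by fun_prop) (by fun_prop)

theorem ncone_smul {u v : E} (hv : v ∈ ncone u) {c : ℝ} (hc : 0 ≤ c) : c • v ∈ ncone u := by
  unfold ncone at hv ⊢
  rw [mem_ofPred_eq] at hv ⊢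
  rw [norm_smul, Real.norm_of_nonneg hc]
  have e : c • v - (c * ‖v‖) • u = c • (v - ‖v‖ • u) := by
    rw [smul_sub, smul_smul]
  rw [e, norm_smul, Real.norm_of_nonneg hc]
  have := mul_le_mul_of_nonneg_left hv hc
  linarith

theorem ncone_angle {u v w : E} (hv : v ∈ ncone u) (hw : w ∈ ncone u) :
    7 / 8 * (‖v‖ * ‖w‖) ≤ ⟪v, w⟫ := by
  unfold ncone at hv hw
  rw [mem_ofPred_eq] at hv hw
  have h1 : ‖‖w‖ • v - ‖v‖ • w‖ ≤ ‖v‖ * ‖w‖ / 2 := by
    have e : ‖w‖ • v - ‖v‖ • w = ‖w‖ • (v - ‖v‖ • u) - ‖v‖ • (w - ‖w‖ • u) := by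
      rw [smul_sub, smul_sub, smul_smul, smul_smul, mul_comm ‖w‖ ‖v‖]; abel
    rw [e]
    calc _ ≤ ‖‖w‖ • (v - ‖v‖ • u)‖ + ‖‖v‖ • (w - ‖w‖ • u)‖ := norm_sub_le _ _
      _ = ‖w‖ * ‖v - ‖v‖ • u‖ + ‖v‖ * ‖w - ‖w‖ • u‖ := by
          rw [norm_smul, norm_smul, norm_norm, norm_norm]
      _ ≤ ‖w‖ * (‖v‖ / 4) + ‖v‖ * (‖w‖ / 4) := by gcongr
      _ = ‖v‖ * ‖w‖ / 2 := by ring
  have h2 : ‖‖w‖ • v - ‖v‖ • w‖ ^ 2 ≤ (‖v‖ * ‖w‖ / 2) ^ 2 := by gcongr
  have h3 : ‖‖w‖ • v - ‖v‖ • w‖ ^ 2 = 2 * (‖v‖ * ‖w‖) ^ 2 - 2 * (‖v‖ * ‖w‖) * ⟪v, w⟫ := by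
    rw [norm_sub_sq_real, norm_smul, norm_smul, real_inner_smul_left, real_inner_smul_right,
      norm_norm, norm_norm]
    ring
  rw [h3] at h2
  have h4 : (‖v‖ * ‖w‖) * (7 / 8 * (‖v‖ * ‖w‖)) ≤ (‖v‖ * ‖w‖) * ⟪v, w⟫ := by nlinarith
  rcases (mul_nonneg (norm_nonneg v) (norm_nonneg w)).lt_or_eq with h | h
  · exact le_of_mul_le_mul_left h4 h
  · rw [← h]
    have h5 := abs_real_inner_le_norm v w
    rw [← h] at h5
    have h6 := abs_nonpos_iff.1 h5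
    rw [h6]; simp

theorem exists_ncones [FiniteDimensional ℝ E] :
    ∃ t : Finset E, ∀ v : E, ∃ u ∈ t, v ∈ ncone u := by
  classical
  have hs : IsCompact (Metric.sphere (0 : E) 1) := isCompact_sphere _ _
  obtain ⟨t, -, ht⟩ := hs.elim_nhds_subcover (fun u => Metric.ball u (1 / 4))
    (fun u _ => Metric.ball_mem_nhds u (by norm_num))
  refine ⟨insert 0 t, fun v => ?_⟩
  by_cases hv : v = 0
  · exact ⟨0, Finset.mem_insert_self _ _, by simp [ncone, hv]⟩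
  · have hn : 0 < ‖v‖ := norm_pos_iff.2 hv
    have hu : ‖v‖⁻¹ • v ∈ Metric.sphere (0 : E) 1 := by
      rw [mem_sphere_zero_iff_norm, norm_smul, norm_inv, norm_norm, inv_mul_cancel₀ hn.ne']
    obtain ⟨u, hu1, hu2⟩ := mem_iUnion₂.1 (ht hu)
    refine ⟨u, Finset.mem_insert_of_mem hu1, ?_⟩
    rw [Metric.mem_ball, dist_eq_norm] at hu2
    unfold ncone
    rw [mem_ofPred_eq]
    have e : v - ‖v‖ • u = ‖v‖ • (‖v‖⁻¹ • v - u) := by
      rw [smul_sub, smul_smul, mul_inv_cancel₀ hn.ne', one_smul]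
    rw [e, norm_smul, norm_norm]
    calc ‖v‖ * ‖‖v‖⁻¹ • v - u‖ ≤ ‖v‖ * (1 / 4) := by gcongr
      _ = ‖v‖ / 4 := by ring

/-- the foot parameter of `w` on the line of `z`. -/
noncomputable def fz (z : E) : Dual ℝ E := (‖z‖ ^ 2)⁻¹ • (innerₛₗ ℝ z : E →ₗ[ℝ] ℝ)

theorem fz_apply (z w : E) : fz z w = ⟪w, z⟫ / ‖z‖ ^ 2 := by
  unfold fz
  rw [LinearMap.smul_apply, innerₛₗ_apply_apply, smul_eq_mul, real_inner_comm, div_eq_inv_mul]

/-- facts about the moving target `r = (1-τ) zN + τ zF`, `τ = fz zF w`. -/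
theorem target {w zN zF : E} (h1 : ‖w‖ ≤ ‖zF‖) (h2 : ‖zN‖ ≤ 2 * ‖w‖)
    (cF : 7 / 8 * (‖w‖ * ‖zF‖) ≤ ⟪w, zF⟫) (cN : 7 / 8 * (‖w‖ * ‖zN‖) ≤ ⟪w, zN⟫) :
    0 ≤ fz zF w ∧ fz zF w ≤ 1 ∧
      49 / 64 * ‖w‖ ^ 2 ≤ ⟪w, (1 - fz zF w) • zN + fz zF w • zF⟫ ∧
      ‖(1 - fz zF w) • zN + fz zF w • zF‖ ≤ 3 * ‖w‖ := by
  rcases (norm_nonneg zF).eq_or_lt with hz | hz
  · have hz0 : zF = 0 := norm_eq_zero.1 hz.symm
    have hw0 : w = 0 := norm_eq_zero.1 (le_antisymm (by rw [hz]; exact h1) (norm_nonneg _))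
    have hN0 : zN = 0 := norm_eq_zero.1 (le_antisymm (by
      rw [hw0, norm_zero, mul_zero] at h2; exact h2) (norm_nonneg _))
    rw [fz_apply, hw0, hz0, hN0]
    simp
  · have hz2 : 0 < ‖zF‖ ^ 2 := by positivity
    have hw0 := norm_nonneg w
    have hwz : ⟪w, zF⟫ ≤ ‖w‖ * ‖zF‖ := real_inner_le_norm _ _
    have hp : 0 ≤ ⟪w, zF⟫ := le_trans (by positivity) cF
    have hpN : 0 ≤ ⟪w, zN⟫ := le_trans (by positivity) cN
    have hτ0 : 0 ≤ fz zF w := by rw [fz_apply]; positivity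
    have hτw : fz zF w * ‖zF‖ ≤ ‖w‖ := by
      rw [fz_apply, div_mul_eq_mul_div, div_le_iff₀ hz2]
      nlinarith
    have hτ1 : fz zF w ≤ 1 := by
      have h3 : fz zF w * ‖zF‖ ≤ 1 * ‖zF‖ := by linarith
      exact le_of_mul_le_mul_right h3 hz
    refine ⟨hτ0, hτ1, ?_, ?_⟩
    · rw [inner_add_right, real_inner_smul_right, real_inner_smul_right]
      have h3 : 0 ≤ (1 - fz zF w) * ⟪w, zN⟫ := mul_nonneg (by linarith) hpN
      have h4 : 49 / 64 * ‖w‖ ^ 2 ≤ fz zF w * ⟪w, zF⟫ := by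
        have e1 : fz zF w * ⟪w, zF⟫ = ⟪w, zF⟫ ^ 2 / ‖zF‖ ^ 2 := by
          rw [fz_apply]; ring
        rw [e1, le_div_iff₀ hz2]
        have h5 : (7 / 8 * (‖w‖ * ‖zF‖)) ^ 2 ≤ ⟪w, zF⟫ ^ 2 := by
          have : 0 ≤ 7 / 8 * (‖w‖ * ‖zF‖) := by positivity
          gcongr
        calc 49 / 64 * ‖w‖ ^ 2 * ‖zF‖ ^ 2 = (7 / 8 * (‖w‖ * ‖zF‖)) ^ 2 := by ring
          _ ≤ _ := h5
      linarith
    · calc ‖(1 - fz zF w) • zN + fz zF w • zF‖
          ≤ ‖(1 - fz zF w) • zN‖ + ‖fz zF w • zF‖ := norm_add_le _ _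
        _ = (1 - fz zF w) * ‖zN‖ + fz zF w * ‖zF‖ := by
            rw [norm_smul, norm_smul, Real.norm_of_nonneg hτ0,
              Real.norm_of_nonneg (by linarith)]
        _ ≤ 1 * ‖zN‖ + fz zF w * ‖zF‖ := by
            gcongr
            linarith
        _ ≤ 3 * ‖w‖ := by linarith

end alg

section meas

variable {E : Type*} [NormedAddCommGroup E] [InnerProductSpace ℝ E]
  [FiniteDimensional ℝ E] [MeasurableSpace E] [BorelSpace E]

/-- an affine change of variables with a pointwise comparison of the density. -/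
theorem affine_ge (μ : Measure E) [μ.IsAddHaarMeasure] {J : E → ℝ≥0∞} (a ps : E) (f : Dual ℝ E)
    (v : E) (hf : 0 ≤ f v) {V : Set E} (hV : MeasurableSet V) {c : ℝ}
    (h : ∀ q ∈ V, ENNReal.ofReal c * J q ≤
      J (a + (1 / 8 : ℝ) • LinearMap.transvection f v (q - ps))) :
    ENNReal.ofReal ((1 / 8 : ℝ) ^ finrank ℝ E) * (ENNReal.ofReal c * ∫⁻ p in V, J p ∂μ) ≤
      ∫⁻ p in (fun q => a + (1 / 8 : ℝ) • LinearMap.transvection f v (q - ps)) '' V, J p ∂μ := by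
  set L : E →ₗ[ℝ] E := (1 / 8 : ℝ) • LinearMap.transvection f v with hL
  set L' : E →L[ℝ] E := LinearMap.toContinuousLinearMap L with hL'
  have hdet : LinearMap.det L = (1 / 8 : ℝ) ^ finrank ℝ E * (1 + f v) := by
    rw [hL, LinearMap.det_smul, LinearMap.transvection.det]
  have hpos : 0 < (1 / 8 : ℝ) ^ finrank ℝ E := by positivity
  have hdet1 : (1 / 8 : ℝ) ^ finrank ℝ E ≤ LinearMap.det L := by
    rw [hdet]
    nlinarith
  have hne : LinearMap.det L ≠ 0 := (lt_of_lt_of_le hpos hdet1).ne'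
  have hinj : Function.Injective L := by
    have := LinearMap.isUnit_iff_isUnit_det L |>.2 (isUnit_iff_ne_zero.2 hne)
    exact ((LinearMap.isUnit_iff_ker_eq_bot L).1 this |> LinearMap.ker_eq_bot.1)
  have hT : (fun q => a + (1 / 8 : ℝ) • LinearMap.transvection f v (q - ps)) =
      fun q => a + L' (q - ps) := by
    funext q
    rfl
  rw [hT]
  have hder : ∀ x ∈ V, HasFDerivWithinAt (fun q => a + L' (q - ps)) L' V x := by
    intro x _
    have h1 : HasFDerivAt (fun q : E => q - ps) (ContinuousLinearMap.id ℝ E) x :=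
      (hasFDerivAt_id x).sub_const ps
    have h2 : HasFDerivAt (fun q => L' (q - ps)) L' x := by
      have h3 := L'.hasFDerivAt.comp x h1
      rw [ContinuousLinearMap.comp_id] at h3
      exact h3
    exact (h2.const_add a).hasFDerivWithinAt
  have hio : InjOn (fun q => a + L' (q - ps)) V := by
    intro x _ y _ hxy
    have h1 : L' (x - ps) = L' (y - ps) := add_left_cancel hxy
    have h2 : x - ps = y - ps := hinj h1
    exact sub_left_injective h2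
  rw [lintegral_image_eq_lintegral_abs_det_fderiv_mul μ hV hder hio J]
  have hd' : L'.det = LinearMap.det L := rfl
  calc ENNReal.ofReal ((1 / 8 : ℝ) ^ finrank ℝ E) * (ENNReal.ofReal c * ∫⁻ p in V, J p ∂μ)
      ≤ ENNReal.ofReal |L'.det| * ∫⁻ p in V, ENNReal.ofReal c * J p ∂μ := by
        gcongr
        · rw [hd']
          exact hdet1.trans (le_abs_self _)
        · exact lintegral_const_mul_le _ _
    _ ≤ ENNReal.ofReal |L'.det| * ∫⁻ p in V, J (a + L' (p - ps)) ∂μ :=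
        mul_le_mul' le_rfl (setLIntegral_mono_ae' hV (Eventually.of_forall h))
    _ ≤ _ := lintegral_const_mul_le _ _

/-- **two moves** with a strict margin. -/
theorem two_moves (μ : Measure E) [μ.IsAddHaarMeasure] {K : Set E} {J : E → ℝ≥0∞} {c₁ : ℝ}
    (hc₁ : 0 < c₁) (hK : Convex ℝ K) (hW : WNcP K J (1 / 1024) (1 / 4) c₁) {ps : E}
    (hps : ps ∈ K) {V : Set E} (hVc : IsCompact V) (hVK : V ⊆ K) (r : E → E)
    (hr : ∀ q ∈ V, r q ∈ K) (hin : ∀ q ∈ V, 0 ≤ ⟪ps, q - ps⟫)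
    (hm : ∀ q ∈ V, 1 / 1024 * ‖r q - con ps (1 / 4) q‖ ^ 2 ≤
      ⟪con ps (1 / 4) q, r q - con ps (1 / 4) q⟫)
    (a : E) (f : Dual ℝ E) (v : E) (hf : 0 ≤ f v)
    (hT : ∀ q ∈ V, con ps (1 / 4) q + (1 / 2 : ℝ) • (r q - con ps (1 / 4) q) =
      a + (1 / 8 : ℝ) • LinearMap.transvection f v (q - ps)) :
    ∃ W : Set E, IsCompact W ∧ W ⊆ K ∧
      ENNReal.ofReal ((1 / 8 : ℝ) ^ finrank ℝ E * (c₁ * c₁)) * ∫⁻ p in V, J p ∂μ ≤
        ∫⁻ p in W, J p ∂μ ∧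
      ∀ p' ∈ W, ∃ q ∈ V, p' = con ps (1 / 4) q + (1 / 2 : ℝ) • (r q - con ps (1 / 4) q) := by
  have hb : ∀ q ∈ V, con ps (1 / 4) q ∈ K := fun q hq =>
    con_mem hK hps (hVK hq) (by norm_num) (by norm_num)
  have hstep1 : ∀ q ∈ V, ENNReal.ofReal c₁ * J q ≤ J (con ps (1 / 4) q) := by
    intro q hq
    have h1 := hW q (hVK hq) ps hps (3 / 4) (by norm_num) (by norm_num)
      (Off.inward (by
        have hg' := hin q hq
        have e1 : q + (3 / 4 : ℝ) • (ps - q) = ps + (1 / 4 : ℝ) • (q - ps) := by module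
        have e2 : ps - q = -(q - ps) := by abel
        rw [e1, e2, inner_neg_right, inner_add_left, real_inner_smul_left,
          real_inner_self_eq_norm_sq, norm_neg]
        have : 0 ≤ ‖q - ps‖ ^ 2 := by positivity
        linarith))
    have e1 : q + (3 / 4 : ℝ) • (ps - q) = con ps (1 / 4) q := by unfold con; module
    rw [e1] at h1
    exact h1
  have hstep2 : ∀ q ∈ V, ENNReal.ofReal c₁ * J (con ps (1 / 4) q) ≤
      J (con ps (1 / 4) q + (1 / 2 : ℝ) • (r q - con ps (1 / 4) q)) := fun q hq =>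
    hW _ (hb q hq) (r q) (hr q hq) (1 / 2) (by norm_num) (by norm_num) (Off.outward (hm q hq))
  have hst : ∀ q ∈ V, ENNReal.ofReal (c₁ * c₁) * J q ≤
      J (a + (1 / 8 : ℝ) • LinearMap.transvection f v (q - ps)) := by
    intro q hq
    rw [← hT q hq]
    refine le_trans ?_ (hstep2 q hq)
    rw [ENNReal.ofReal_mul hc₁.le, mul_assoc]
    gcongr
    exact hstep1 q hq
  refine ⟨(fun q => a + (1 / 8 : ℝ) • LinearMap.transvection f v (q - ps)) '' V, ?_, ?_, ?_, ?_⟩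
  · refine hVc.image ?_
    have hc : Continuous (LinearMap.transvection f v) :=
      LinearMap.continuous_of_finiteDimensional _
    fun_prop
  · rintro _ ⟨q, hq, rfl⟩
    show a + (1 / 8 : ℝ) • LinearMap.transvection f v (q - ps) ∈ K
    rw [← hT q hq]
    exact hK.add_smul_sub_mem (hb q hq) (hr q hq) ⟨by norm_num, by norm_num⟩
  · have := affine_ge μ (J := J) a ps f v hf hVc.measurableSet (c := c₁ * c₁) hst
    refine le_trans (le_of_eq ?_) this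
    rw [ENNReal.ofReal_mul (by positivity), mul_assoc]
  · rintro _ ⟨q, hq, rfl⟩
    exact ⟨q, hq, (hT q hq).symm⟩

/-- a compact piece moves by one affine map. -/
theorem piece (μ : Measure E) [μ.IsAddHaarMeasure] {K : Set E} {J : E → ℝ≥0∞} {c₁ : ℝ}
    (hc₁ : 0 < c₁) (hK : Convex ℝ K) (hW : WNcP K J (1 / 1024) (1 / 4) c₁) {ps : E}
    (hps : ps ∈ K) {A : Set E} (hAK : A ⊆ K) (hA : ∀ p ∈ A, 0 ≤ ⟪ps, p - ps⟫) {u : E}
    {V : Set E} (hVc : IsCompact V) (hVne : V.Nonempty) (hVK : V ⊆ K)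
    (hVA : ∀ q ∈ V, ∃ p ∈ A, ∃ k : ℝ, 1 / 2 ≤ k ∧ k ≤ 1 ∧ q = con ps k p)
    (hcone : ∀ q ∈ V, q - ps ∈ ncone u)
    (hcl : (∀ q ∈ V, ‖q - ps‖ ^ 2 ≤ 8 * ⟪ps, q - ps⟫) ∨
      (∀ q ∈ V, 8 * ⟪ps, q - ps⟫ ≤ ‖q - ps‖ ^ 2)) :
    ∃ zN ∈ A, ∃ zF ∈ A, ∃ W : Set E, IsCompact W ∧ W ⊆ K ∧
      ENNReal.ofReal ((1 / 8 : ℝ) ^ finrank ℝ E * (c₁ * c₁)) * ∫⁻ p in V, J p ∂μ ≤
        ∫⁻ p in W, J p ∂μ ∧
      ∀ p' ∈ W, ∃ q ∈ V, ∃ r ∈ segment ℝ zN zF, 0 ≤ ⟪con ps (1 / 4) q, r - con ps (1 / 4) q⟫ ∧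
        p' = con ps (1 / 4) q + (1 / 2 : ℝ) • (r - con ps (1 / 4) q) := by
  have hin : ∀ q ∈ V, 0 ≤ ⟪ps, q - ps⟫ := by
    intro q hq
    obtain ⟨p, hp, k, hk0, hk1, rfl⟩ := hVA q hq
    have e : con ps k p - ps = k • (p - ps) := by unfold con; abel
    rw [e, real_inner_smul_right]
    exact mul_nonneg (by linarith) (hA p hp)
  -- the parent of a point
  have hpar : ∀ q ∈ V, ∃ p ∈ A, p - ps ∈ ncone u ∧ ‖q - ps‖ ≤ ‖p - ps‖ ∧
      ‖p - ps‖ ≤ 2 * ‖q - ps‖ ∧ ⟪ps, q - ps⟫ ≤ ⟪ps, p - ps⟫ ∧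
      (‖q - ps‖ ^ 2 ≤ 8 * ⟪ps, q - ps⟫ → ‖p - ps‖ ^ 2 ≤ 16 * ⟪ps, p - ps⟫) := by
    intro q hq
    have hc := hcone q hq
    obtain ⟨p, hp, k, hk0, hk1, rfl⟩ := hVA q hq
    have hk : 0 < k := by linarith
    have e : con ps k p - ps = k • (p - ps) := by unfold con; abel
    have hn : ‖con ps k p - ps‖ = k * ‖p - ps‖ := by
      rw [e, norm_smul, Real.norm_of_nonneg hk.le]
    have hg : ⟪ps, con ps k p - ps⟫ = k * ⟪ps, p - ps⟫ := by
      rw [e, real_inner_smul_right]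
    have h0 := hA p hp
    have h1 := norm_nonneg (p - ps)
    refine ⟨p, hp, ?_, ?_, ?_, ?_, ?_⟩
    · have h2 := ncone_smul hc (c := k⁻¹) (by positivity)
      rw [e, smul_smul, inv_mul_cancel₀ hk.ne', one_smul] at h2
      exact h2
    · rw [hn]; nlinarith
    · rw [hn]; nlinarith
    · rw [hg]; nlinarith
    · rw [hn, hg]
      intro h2
      have h3 : k * (k * ‖p - ps‖ ^ 2) ≤ k * (8 * ⟪ps, p - ps⟫) := by
        calc k * (k * ‖p - ps‖ ^ 2) = (k * ‖p - ps‖) ^ 2 := by ring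
          _ ≤ 8 * (k * ⟪ps, p - ps⟫) := h2
          _ = _ := by ring
      have h4 : k * ‖p - ps‖ ^ 2 ≤ 8 * ⟪ps, p - ps⟫ := le_of_mul_le_mul_left h3 hk
      have h5 : 0 ≤ ‖p - ps‖ ^ 2 := by positivity
      nlinarith
  have hcN : Continuous fun q : E => ‖q - ps‖ := by fun_prop
  have hcG : Continuous fun q : E => ⟪ps, q - ps⟫ := by fun_prop
  rcases hcl with hcl | hcl
  · -- radial class
    obtain ⟨qF, hqF, hmax⟩ := hVc.exists_isMaxOn hVne hcG.continuousOn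
    obtain ⟨zF, hzF, hc, -, -, hg, h16⟩ := hpar qF hqF
    have hmar : ∀ q ∈ V, 1 / 1024 * ‖zF - con ps (1 / 4) q‖ ^ 2 ≤
        ⟪con ps (1 / 4) q, zF - con ps (1 / 4) q⟫ := by
      intro q hq
      have h1 := margin_rad (n0 := ps) (w := q - ps) (r := zF - ps) (hcl q hq)
        (h16 (hcl qF hqF)) ((hmax hq).trans hg)
        (le_trans (by positivity) (ncone_angle (hcone q hq) hc))
      have e : zF - ps - (1 / 4 : ℝ) • (q - ps) = zF - con ps (1 / 4) q := by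
        unfold con; abel
      rw [e] at h1
      exact h1
    obtain ⟨W, hWc, hWK, hWm, hWp⟩ := two_moves μ hc₁ hK hW hps hVc hVK (fun _ => zF)
      (fun _ _ => hAK hzF) hin hmar (ps + (1 / 2 : ℝ) • (zF - ps)) 0 0 (by simp) (by
        intro q hq
        show _ = ps + (1 / 2 : ℝ) • (zF - ps) + (1 / 8 : ℝ) • (q - ps + (0 : ℝ) • (0 : E))
        unfold con
        module)
    refine ⟨zF, hzF, zF, hzF, W, hWc, hWK, hWm, ?_⟩
    intro p' hp'
    obtain ⟨q, hq, e⟩ := hWp p' hp'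
    refine ⟨q, hq, zF, left_mem_segment ℝ zF zF, ?_, e⟩
    exact le_trans (by positivity) (hmar q hq)
  · -- lateral class
    obtain ⟨qF, hqF, hmax⟩ := hVc.exists_isMaxOn hVne hcN.continuousOn
    obtain ⟨qN, hqN, hmin⟩ := hVc.exists_isMinOn hVne hcN.continuousOn
    obtain ⟨zF, hzF, hcF, hF1, hF2, -, -⟩ := hpar qF hqF
    obtain ⟨zN, hzN, hcN', hNF, hN2⟩ : ∃ zN ∈ A, zN - ps ∈ ncone u ∧ ‖zN - ps‖ ≤ ‖zF - ps‖ ∧
        ∀ q ∈ V, ‖zN - ps‖ ≤ 2 * ‖q - ps‖ := by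
      obtain ⟨zN, hzN, hcN', hN1, hN2, -, -⟩ := hpar qN hqN
      rcases le_total ‖zN - ps‖ ‖zF - ps‖ with h | h
      · refine ⟨zN, hzN, hcN', h, fun q hq => ?_⟩
        have := hmin hq
        simp only [mem_ofPred_eq] at this
        linarith
      · refine ⟨zF, hzF, hcF, le_rfl, fun q hq => ?_⟩
        have := hmin hq
        simp only [mem_ofPred_eq] at this
        linarith
    set f : Dual ℝ E := fz (zF - ps) with hf
    have htar : ∀ q ∈ V, 0 ≤ f (q - ps) ∧ f (q - ps) ≤ 1 ∧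
        49 / 64 * ‖q - ps‖ ^ 2 ≤
          ⟪q - ps, (1 - f (q - ps)) • (zN - ps) + f (q - ps) • (zF - ps)⟫ ∧
        ‖(1 - f (q - ps)) • (zN - ps) + f (q - ps) • (zF - ps)‖ ≤ 3 * ‖q - ps‖ := by
      intro q hq
      have h1 : ‖q - ps‖ ≤ ‖zF - ps‖ := by
        have := hmax hq
        simp only [mem_ofPred_eq] at this
        linarith
      exact target h1 (hN2 q hq) (ncone_angle (hcone q hq) hcF) (ncone_angle (hcone q hq) hcN')
    have hseg : ∀ q ∈ V, (1 - f (q - ps)) • zN + f (q - ps) • zF ∈ segment ℝ zN zF := by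
      intro q hq
      obtain ⟨h0, h1, -, -⟩ := htar q hq
      exact ⟨1 - f (q - ps), f (q - ps), by linarith, h0, by ring, rfl⟩
    have hrps : ∀ q : E, (1 - f (q - ps)) • zN + f (q - ps) • zF - ps =
        (1 - f (q - ps)) • (zN - ps) + f (q - ps) • (zF - ps) := by
      intro q; module
    have hmar : ∀ q ∈ V,
        1 / 1024 * ‖((1 - f (q - ps)) • zN + f (q - ps) • zF) - con ps (1 / 4) q‖ ^ 2 ≤
        ⟪con ps (1 / 4) q, ((1 - f (q - ps)) • zN + f (q - ps) • zF) - con ps (1 / 4) q⟫ := by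
      intro q hq
      obtain ⟨h0, h1, h2, h3⟩ := htar q hq
      have h4 : 0 ≤ ⟪ps, (1 - f (q - ps)) • (zN - ps) + f (q - ps) • (zF - ps)⟫ := by
        rw [inner_add_right, real_inner_smul_right, real_inner_smul_right]
        have h5 := mul_nonneg (by linarith : 0 ≤ 1 - f (q - ps)) (hA zN hzN)
        have h6 := mul_nonneg h0 (hA zF hzF)
        linarith
      have h7 := margin_lat (n0 := ps) (w := q - ps)
        (r := (1 - f (q - ps)) • (zN - ps) + f (q - ps) • (zF - ps)) (hcl q hq) h4 h2 h3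
      have e : (1 - f (q - ps)) • (zN - ps) + f (q - ps) • (zF - ps) - (1 / 4 : ℝ) • (q - ps) =
          ((1 - f (q - ps)) • zN + f (q - ps) • zF) - con ps (1 / 4) q := by
        unfold con; module
      rw [e] at h7
      exact h7
    have hfv : 0 ≤ f ((4 : ℝ) • (zF - zN)) := by
      have e1 : zF - zN = (zF - ps) - (zN - ps) := by abel
      rw [map_smul, smul_eq_mul, e1, map_sub, hf, fz_apply, fz_apply]
      rcases (norm_nonneg (zF - ps)).eq_or_lt with hz | hz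
      · rw [← hz]; simp
      · have hz2 : 0 < ‖zF - ps‖ ^ 2 := by positivity
        have h1 : ⟪zN - ps, zF - ps⟫ ≤ ⟪zF - ps, zF - ps⟫ := by
          rw [real_inner_self_eq_norm_sq]
          refine (real_inner_le_norm _ _).trans ?_
          nlinarith
        have h2 := div_le_div_of_nonneg_right h1 hz2.le
        linarith
    obtain ⟨W, hWc, hWK, hWm, hWp⟩ := two_moves μ hc₁ hK hW hps hVc hVK
      (fun q => (1 - f (q - ps)) • zN + f (q - ps) • zF)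
      (fun q hq => hK.segment_subset (hAK hzN) (hAK hzF) (hseg q hq)) hin hmar
      (ps + (1 / 2 : ℝ) • (zN - ps)) f ((4 : ℝ) • (zF - zN)) hfv (by
        intro q hq
        show _ = ps + (1 / 2 : ℝ) • (zN - ps) +
          (1 / 8 : ℝ) • (q - ps + f (q - ps) • (4 : ℝ) • (zF - zN))
        unfold con
        module)
    refine ⟨zN, hzN, zF, hzF, W, hWc, hWK, hWm, ?_⟩
    intro p' hp'
    obtain ⟨q, hq, e⟩ := hWp p' hp'
    exact ⟨q, hq, _, hseg q hq, le_trans (by positivity) (hmar q hq), e⟩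

variable (E) in
/-- **Common parents, without (W0).** -/
theorem parent_seg {c₁ : ℝ} (hc₁ : 0 < c₁) : ∃ C : ℝ, 0 < C ∧
    ∀ (μ : Measure E) [μ.IsAddHaarMeasure] (K : Set E) (J : E → ℝ≥0∞), Convex ℝ K →
    WNcP K J (1 / 1024) (1 / 4) c₁ →
    ∀ ps ∈ K, ∀ A ⊆ K, (∀ p ∈ A, 0 ≤ ⟪ps, p - ps⟫) →
    ∀ 𝒢 ⊆ K, IsCompact 𝒢 → (∀ q ∈ 𝒢, ∃ p ∈ A, ∃ k : ℝ, 1 / 2 ≤ k ∧ k ≤ 1 ∧ q = con ps k p) →
    ∫⁻ p in 𝒢, J p ∂μ ≠ 0 → ∫⁻ p in 𝒢, J p ∂μ ≠ ∞ →
    ∃ zN ∈ A, ∃ zF ∈ A, ∃ W ⊆ K, IsCompact W ∧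
      ∫⁻ p in 𝒢, J p ∂μ ≤ ENNReal.ofReal C * ∫⁻ p in W, J p ∂μ ∧
      ∀ p' ∈ W, ∃ p ∈ A, ∃ k : ℝ, 0 < k ∧ k ≤ 1 ∧ ∃ r ∈ segment ℝ zN zF,
        con ps (k / 4) p ∈ K ∧ 0 ≤ ⟪con ps (k / 4) p, r - con ps (k / 4) p⟫ ∧
        p' = con ps (k / 4) p + (1 / 2 : ℝ) • (r - con ps (k / 4) p) ∧
        p' = ps + (1 / 2 : ℝ) • (r - ps) + (k / 8) • (p - ps) := by
  classical
  obtain ⟨t, ht⟩ := exists_ncones (E := E)
  set d := finrank ℝ E with hd
  have hL : 0 < (1 / 8 : ℝ) ^ d * (c₁ * c₁) := by positivity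
  have htne : t.Nonempty := by
    obtain ⟨u, hu, _⟩ := ht 0
    exact ⟨u, hu⟩
  have hcard : 0 < (t.card : ℝ) := by exact_mod_cast htne.card_pos
  refine ⟨2 * t.card / ((1 / 8 : ℝ) ^ d * (c₁ * c₁)), by positivity, ?_⟩
  intro μ _ K J hK hW ps hps A hAK hA 𝒢 h𝒢K h𝒢c h𝒢 hne0 hnet
  -- the pieces
  set P : E × Bool → Set E := fun i => 𝒢 ∩ ({q | q - ps ∈ ncone i.1} ∩
    (if i.2 then {q | ‖q - ps‖ ^ 2 ≤ 8 * ⟪ps, q - ps⟫} else
      {q | 8 * ⟪ps, q - ps⟫ ≤ ‖q - ps‖ ^ 2})) with hP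
  have hPc : ∀ i, IsCompact (P i) := by
    intro i
    refine h𝒢c.inter_right (IsClosed.inter ?_ ?_)
    · exact (isClosed_ncone i.1).preimage (by fun_prop)
    · split_ifs
      · exact isClosed_le (by fun_prop) (by fun_prop)
      · exact isClosed_le (by fun_prop) (by fun_prop)
  set ν : Measure E := μ.withDensity J with hν
  have hνP : ∀ i, ν (P i) = ∫⁻ p in P i, J p ∂μ := fun i =>
    withDensity_apply _ (hPc i).measurableSet
  have hν𝒢 : ν 𝒢 = ∫⁻ p in 𝒢, J p ∂μ := withDensity_apply _ h𝒢c.measurableSet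
  set T : Finset (E × Bool) := t ×ˢ Finset.univ with hT
  have hTcard : T.card = 2 * t.card := by
    rw [hT, Finset.card_product, Finset.card_univ, Fintype.card_bool, mul_comm]
  have hcov : ν 𝒢 ≤ ∑ i ∈ T, ν (P i) := by
    refine le_trans (measure_mono ?_) (measure_biUnion_finset_le T P)
    intro q hq
    obtain ⟨u, hu, hqu⟩ := ht (q - ps)
    simp only [mem_iUnion]
    rcases le_total (‖q - ps‖ ^ 2) (8 * ⟪ps, q - ps⟫) with h | h
    · refine ⟨(u, true), ?_, hq, hqu, ?_⟩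
      · rw [hT, Finset.mem_product]; exact ⟨hu, Finset.mem_univ _⟩
      · exact h
    · refine ⟨(u, false), ?_, hq, hqu, ?_⟩
      · rw [hT, Finset.mem_product]; exact ⟨hu, Finset.mem_univ _⟩
      · exact h
  have hTne : T.Nonempty := by
    rw [← Finset.card_pos, hTcard]
    have := htne.card_pos
    omega
  obtain ⟨i, hi, hmax⟩ := Finset.exists_max_image T (fun i => ν (P i)) hTne
  have hbig : ν 𝒢 ≤ (2 * t.card : ℕ) * ν (P i) := by
    calc ν 𝒢 ≤ ∑ w ∈ T, ν (P w) := hcov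
      _ ≤ ∑ _w ∈ T, ν (P i) := Finset.sum_le_sum fun w hw => hmax w hw
      _ = _ := by rw [Finset.sum_const, nsmul_eq_mul, hTcard]
  have hPne : (P i).Nonempty := by
    rw [nonempty_iff_ne_empty]
    intro h
    rw [h, measure_empty, mul_zero, hν𝒢] at hbig
    exact hne0 (le_antisymm hbig zero_le)
  obtain ⟨zN, hzN, zF, hzF, W, hWc, hWK, hWm, hWp⟩ := piece μ hc₁ hK hW hps hAK hA (u := i.1)
    (hPc i) hPne (fun q hq => h𝒢K hq.1) (fun q hq => h𝒢 q hq.1) (fun q hq => hq.2.1) (by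
      by_cases hb : i.2 = true
      · left
        intro q hq
        have h1 := hq.2.2
        rw [if_pos hb] at h1
        exact h1
      · right
        intro q hq
        have h1 := hq.2.2
        rw [if_neg hb] at h1
        exact h1)
  refine ⟨zN, hzN, zF, hzF, W, hWK, hWc, ?_, ?_⟩
  · rw [← hν𝒢]
    calc ν 𝒢 ≤ (2 * t.card : ℕ) * ν (P i) := hbig
      _ = ENNReal.ofReal (2 * t.card) * ∫⁻ p in P i, J p ∂μ := by
          rw [hνP]
          congr 1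
          rw [← ENNReal.ofReal_natCast]
          push_cast
          ring_nf
      _ = ENNReal.ofReal (2 * t.card / ((1 / 8 : ℝ) ^ d * (c₁ * c₁))) *
          (ENNReal.ofReal ((1 / 8 : ℝ) ^ d * (c₁ * c₁)) * ∫⁻ p in P i, J p ∂μ) := by
          rw [← mul_assoc, ← ENNReal.ofReal_mul (by positivity), div_mul_cancel₀ _ hL.ne']
      _ ≤ _ := mul_le_mul' le_rfl hWm
  · intro p' hp'
    obtain ⟨q, hq, r, hr, h0, e⟩ := hWp p' hp'
    obtain ⟨p, hp, k, hk0, hk1, hqk⟩ := h𝒢 q hq.1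
    have e0 : con ps (1 / 4) q = con ps (k / 4) p := by
      rw [hqk, con_con]; congr 1; ring
    rw [e0] at h0 e
    refine ⟨p, hp, k, by linarith, hk1, r, hr, ?_, h0, e, ?_⟩
    · rw [← e0]
      exact con_mem hK hps (h𝒢K hq.1) (by norm_num) (by norm_num)
    · rw [e]; unfold con; module

end meas

end Crest.Agent.R226.ParentSeg881
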