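/-
R226 task C3 (helper347): the two-point version of F3 (`CutFacts.seg`).
-/
import Crest.Agent.R226.Base_347

set_option autoImplicit false

open MeasureTheory Bundle Set Filter
open scoped Manifold ContDiff Bundle ENNReal Topology
open Crest.GeometryTopology.MTW
open Crest.Agent.R226.Calc347 Crest.Agent.R226.MTWConc117 Crest.Agent.R226.Base347

namespace Crest.Agent.R226.Seg347

variable {n : ℕ} {M : Type*} [MetricSpace M] [ChartedSpace (EuclideanSpace ℝ (Fin n)) M]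
  [IsManifold (𝓡 n) ∞ M]
  [RiemannianBundle (fun p : M => TangentSpace (𝓡 n) p)]
  {G : GeoData n M}

theorem continuousAt_hess {E : Type*} [NormedAddCommGroup E] [NormedSpace ℝ E] {g : E → ℝ} {a : E}
    (hg : ContDiffAt ℝ ∞ g a) : ContinuousAt (hess g) a := by
  have h1 : ContDiffAt ℝ 1 (fderiv ℝ g) a := (contDiffAt_infty.1 hg 2).fderiv_right (by norm_num)
  have h2 : ContDiffAt ℝ 0 (fderiv ℝ (fderiv ℝ g)) a := h1.fderiv_right (by norm_num)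
  exact h2.continuousAt

/-- the partial second derivative of the cost along a curve in normal coordinates -/
theorem sec_curve (hB : Base G) {x : M} {b : TangentSpace (𝓡 n) x} (hb : b ∈ G.I x)
    {ζ : ℝ → TangentSpace (𝓡 n) x} (hζ : ContDiffAt ℝ 2 ζ 0) (h0 : ζ 0 = 0) :
    Sec (fun τ => F G x (ζ τ, b)) (G.phi x (deriv ζ 0) b - inner ℝ b (deriv (deriv ζ) 0)) := by
  have h2 : ContDiffAt ℝ 2 (F G x) (0, b) := contDiffAt_infty.1 (hB.contDiffAt_F_zero hb) 2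
  have hg : ContDiffAt ℝ 2 (fun a : TangentSpace (𝓡 n) x => F G x (a, b)) 0 := by
    have h3 : ContDiffAt ℝ 2 (fun a : TangentSpace (𝓡 n) x => (a, b)) 0 := by fun_prop
    exact ContDiffAt.comp (0 : TangentSpace (𝓡 n) x) h2 h3
  have h4 := Sec.comp_curve hg hζ h0
  have h5 : hess (fun a : TangentSpace (𝓡 n) x => F G x (a, b)) 0 (deriv ζ 0) (deriv ζ 0) =
      G.phi x (deriv ζ 0) b := by
    have h6 := Sec.comp_line hg (deriv ζ 0)
    simp only [zero_add] at h6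
    exact h6.unique (hB.sec_phi hb (deriv ζ 0))
  have h7 : fderiv ℝ (fun a : TangentSpace (𝓡 n) x => F G x (a, b)) 0 (deriv (deriv ζ) 0) =
      -inner ℝ b (deriv (deriv ζ) 0) := hB.nc_fderiv x b hb _
  rw [h5, h7, ← sub_eq_add_neg] at h4
  exact h4

/-- **two-point version of F3** (exact field `CutFacts.seg`) -/
theorem seg (hB : Base G) : ∀ y, ∀ q₀ q' : TangentSpace (𝓡 n) y,
    (∀ᶠ τ : ℝ in 𝓝 0, q₀ + τ • q' ∈ G.K y) →
    ∀ ζ : ℝ → TangentSpace (𝓡 n) (G.ex y ((1 : ℝ) • q₀)), ContDiffAt ℝ 2 ζ 0 → ζ 0 = 0 →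
    (∀ᶠ τ : ℝ in 𝓝 0, G.ex (G.ex y ((1 : ℝ) • q₀)) (ζ τ) = G.ex y (q₀ + τ • q')) →
    ∀ ε : ℝ, 0 < ε → ∃ r₁ : ℝ, r₁ < 1 ∧ ∀ r : ℝ, r₁ < r → r < 1 →
      G.phi (G.ex y ((1 : ℝ) • q₀)) (deriv ζ 0) (r • (-(G.vel y q₀ 1))) ≤
        ‖q'‖ ^ 2 + inner ℝ (-(G.vel y q₀ 1)) (deriv (deriv ζ) 0) + ε := by
  intro y q₀ q' hseg ζ hζ hζ0 hex ε hε
  have hq₀ : q₀ ∈ G.K y := by
    have := hseg.self_of_nhds
    simpa using this
  have hp₀ : -(G.vel y q₀ 1) ∈ G.K (G.ex y ((1 : ℝ) • q₀)) := hB.rev y q₀ hq₀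
  have hrev := hB.rev_ex y q₀
  have hnorm : ‖-(G.vel y q₀ 1)‖ = ‖q₀‖ := by
    rw [norm_neg]; exact G.norm_vel y q₀ 1
  generalize -(G.vel y q₀ 1) = p₀ at hp₀ hrev hnorm ⊢
  generalize G.ex y ((1 : ℝ) • q₀) = x at *
  have hhalf : (1 / 2 : ℝ) • q₀ ∈ G.I y := hB.smul_mem_I hq₀ (by norm_num) (by norm_num)
  have hFy : ContDiffAt ℝ ∞ (F G y) ((1 / 2 : ℝ) • q₀, 0) := by
    apply contDiffAt_F G
    rw [G.ex_zero]
    exact contMDiffAt_swap (hB.smooth_cost y _ hhalf)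
  -- the path `r ↦ (q₀/2, (1-r) q₀)`
  have hpath : ContinuousAt (fun r : ℝ => (((1 / 2 : ℝ) • q₀, (1 - r) • q₀) :
      TangentSpace (𝓡 n) y × TangentSpace (𝓡 n) y)) 1 := by fun_prop
  have hpath1 : (((1 / 2 : ℝ) • q₀, ((1 : ℝ) - 1) • q₀) :
      TangentSpace (𝓡 n) y × TangentSpace (𝓡 n) y) = ((1 / 2 : ℝ) • q₀, 0) := by simp
  have hevF : ∀ᶠ r in 𝓝 (1 : ℝ), ContDiffAt ℝ 2 (F G y) ((1 / 2 : ℝ) • q₀, (1 - r) • q₀) := by
    apply hpath.eventually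
    show ∀ᶠ z in 𝓝 (((1 / 2 : ℝ) • q₀, ((1 : ℝ) - 1) • q₀) :
      TangentSpace (𝓡 n) y × TangentSpace (𝓡 n) y), ContDiffAt ℝ 2 (F G y) z
    rw [hpath1]
    exact (contDiffAt_infty.1 hFy 2).eventually (by simp)
  let w : TangentSpace (𝓡 n) y := (1 / 2 : ℝ) • q'
  let h : ℝ → ℝ := fun r => hess (F G y) ((1 / 2 : ℝ) • q₀, (1 - r) • q₀) (w, 0) (w, 0)
  have hhess : ContinuousAt (fun r : ℝ => hess (F G y) ((1 / 2 : ℝ) • q₀, (1 - r) • q₀)) 1 := by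
    apply ContinuousAt.comp (g := hess (F G y)) _ hpath
    show ContinuousAt (hess (F G y)) (((1 / 2 : ℝ) • q₀, ((1 : ℝ) - 1) • q₀) :
      TangentSpace (𝓡 n) y × TangentSpace (𝓡 n) y)
    rw [hpath1]
    exact continuousAt_hess hFy
  have hcont : ContinuousAt h 1 :=
    (hhess.clm_apply continuousAt_const).clm_apply continuousAt_const
  have hh1 : h 1 = ‖q'‖ ^ 2 / 4 := by
    show hess (F G y) ((1 / 2 : ℝ) • q₀, ((1 : ℝ) - 1) • q₀) (w, 0) (w, 0) = _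
    rw [hpath1]
    have h3 := hess_fst (contDiffAt_infty.1 hFy 2) w
    have h4 : Sec (fun s : ℝ => F G y ((1 / 2 : ℝ) • q₀ + s • w, 0)) (‖w‖ ^ 2) := by
      refine (sec_norm_sq ((1 / 2 : ℝ) • q₀) w).congr ?_
      filter_upwards [hseg] with s hs
      have e1 : (1 / 2 : ℝ) • q₀ + s • w = (1 / 2 : ℝ) • (q₀ + s • q') := by
        rw [smul_add, smul_comm s]
      rw [e1]
      show halfDistSq (G.ex y ((1 / 2 : ℝ) • (q₀ + s • q'))) (G.ex y 0) = _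
      rw [G.ex_zero, halfDistSq_comm]
      exact halfDistSq_of_mem_K (hB.star y _ hs _ (by norm_num) (by norm_num))
    rw [h3.unique h4, norm_smul, mul_pow]
    norm_num
    ring
  -- the limiting right-hand side
  let R : ℝ → ℝ := fun r => r / 2 * ‖q'‖ ^ 2 + (1 - 1 / (2 * r))⁻¹ * h r +
    r * inner ℝ p₀ (deriv (deriv ζ) 0)
  have hR : ContinuousAt R 1 := by
    have h5 : ContinuousAt (fun r : ℝ => (1 - 1 / (2 * r))⁻¹) 1 := by
      apply ContinuousAt.inv₀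
      · apply ContinuousAt.sub continuousAt_const
        apply ContinuousAt.div continuousAt_const (by fun_prop) (by norm_num)
      · norm_num
    have h6 : ContinuousAt (fun r : ℝ => r / 2 * ‖q'‖ ^ 2) 1 := by fun_prop
    have h7 : ContinuousAt (fun r : ℝ => r * inner ℝ p₀ (deriv (deriv ζ) 0)) 1 := by fun_prop
    exact (h6.add (h5.mul hcont)).add h7
  have hR1 : R 1 = ‖q'‖ ^ 2 + inner ℝ p₀ (deriv (deriv ζ) 0) := by
    show (1 : ℝ) / 2 * ‖q'‖ ^ 2 + (1 - 1 / (2 * (1 : ℝ)))⁻¹ * h 1 +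
      1 * inner ℝ p₀ (deriv (deriv ζ) 0) = _
    rw [hh1]; norm_num; ring
  have hevR : ∀ᶠ r in 𝓝 (1 : ℝ), R r < ‖q'‖ ^ 2 + inner ℝ p₀ (deriv (deriv ζ) 0) + ε := by
    have hlt : R 1 < ‖q'‖ ^ 2 + inner ℝ p₀ (deriv (deriv ζ) 0) + ε := by rw [hR1]; linarith
    exact hR.preimage_mem_nhds (Iio_mem_nhds hlt)
  have hev2 : ∀ᶠ r in 𝓝 (1 : ℝ), (1 / 2 : ℝ) < r := Ioi_mem_nhds (by norm_num)
  obtain ⟨δ, hδ, hball⟩ := Metric.eventually_nhds_iff.1 (hevF.and (hevR.and hev2))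
  refine ⟨1 - δ, by linarith, fun r hr1 hr2 => ?_⟩
  have hdist : dist r 1 < δ := by
    rw [Real.dist_eq, abs_sub_comm, abs_of_pos (by linarith)]; linarith
  obtain ⟨hF, hRr, hr3⟩ := hball hdist
  -- the main inequality at `r`
  have hrI : r • p₀ ∈ G.I x := hB.smul_mem_I hp₀ (by linarith) hr2
  have hA := sec_curve hB hrI hζ hζ0
  have hθ0 : 0 < 1 / (2 * r) := by positivity
  have hθ1 : 1 / (2 * r) < 1 := by rw [div_lt_one (by linarith)]; linarith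
  have hC := ((sec_norm_sq q₀ q').const_mul (r / 2)).add
    ((hess_fst hF w).const_mul (1 - 1 / (2 * r))⁻¹)
  have hmain := hA.le hC ?_ ?_
  · have h8 : G.phi x (deriv ζ 0) (r • p₀) ≤ R r := by
      show _ ≤ r / 2 * ‖q'‖ ^ 2 + (1 - 1 / (2 * r))⁻¹ * h r + r * inner ℝ p₀ (deriv (deriv ζ) 0)
      rw [real_inner_smul_left] at hmain
      have : h r = hess (F G y) ((1 / 2 : ℝ) • q₀, (1 - r) • q₀) (w, 0) (w, 0) := rfl
      rw [this]; linarith
    linarith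
  · -- equality at `0`
    show F G x (ζ 0, r • p₀) = r / 2 * (‖q₀ + (0 : ℝ) • q'‖ ^ 2 / 2) + (1 - 1 / (2 * r))⁻¹ *
      F G y ((1 / 2 : ℝ) • q₀ + (0 : ℝ) • w, (1 - r) • q₀)
    rw [hζ0, zero_smul, add_zero, zero_smul, add_zero]
    have e1 : F G x (0, r • p₀) = r ^ 2 * ‖q₀‖ ^ 2 / 2 := by
      have := halfDistSq_of_mem_K' hp₀ (le_refl 0) (by linarith) hr2.le
      simp only [zero_smul, sub_zero] at this
      rw [hnorm] at this
      exact this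
    have e2 : F G y ((1 / 2 : ℝ) • q₀, (1 - r) • q₀) = (r - 1 / 2) ^ 2 * ‖q₀‖ ^ 2 / 2 := by
      have := halfDistSq_of_mem_K' hq₀ (s := 1 - r) (t := 1 / 2) (by linarith) (by linarith)
        (by norm_num)
      rw [halfDistSq_comm] at this
      show halfDistSq (G.ex y ((1 / 2 : ℝ) • q₀)) (G.ex y ((1 - r) • q₀)) = _
      rw [this]; ring
    rw [e1, e2]
    have h9 : (2 * r - 1) ≠ 0 := by linarith
    have h10 : r ≠ 0 := by linarith
    have h11 : (1 - 1 / (2 * r))⁻¹ = 2 * r / (2 * r - 1) := by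
      field_simp
    rw [h11]
    field_simp
    ring
  · filter_upwards [hseg, hex] with τ hτ hτ'
    have e3 : halfDistSq (G.ex y (q₀ + τ • q')) (G.ex y ((1 / 2 : ℝ) • (q₀ + τ • q'))) =
        ‖q₀ + τ • q'‖ ^ 2 / 8 := by
      have := halfDistSq_of_mem_K' hτ (s := 1 / 2) (t := 1) (by norm_num) (by norm_num) le_rfl
      rw [halfDistSq_comm, one_smul] at this
      rw [this]; ring
    have e4 := halfDistSq_le (G.ex y (q₀ + τ • q')) (G.ex y ((1 / 2 : ℝ) • (q₀ + τ • q')))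
      (G.ex y ((1 - r) • q₀)) hθ0 hθ1
    have e5 : (1 / (2 * r))⁻¹ = 2 * r := by rw [one_div, inv_inv]
    rw [e3, e5] at e4
    have e6 : F G x (ζ τ, r • p₀) = halfDistSq (G.ex y (q₀ + τ • q')) (G.ex y ((1 - r) • q₀)) := by
      show halfDistSq (G.ex x (ζ τ)) (G.ex x (r • p₀)) = _
      rw [hτ', hrev r]
    have e7 : F G y ((1 / 2 : ℝ) • q₀ + τ • w, (1 - r) • q₀) =
        halfDistSq (G.ex y ((1 / 2 : ℝ) • (q₀ + τ • q'))) (G.ex y ((1 - r) • q₀)) := by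
      show halfDistSq (G.ex y ((1 / 2 : ℝ) • q₀ + τ • w)) _ = _
      have e8 : (1 / 2 : ℝ) • q₀ + τ • w = (1 / 2 : ℝ) • (q₀ + τ • q') := by
        rw [smul_add, smul_comm τ]
      rw [e8]
    rw [e6, e7]
    linarith

end Crest.Agent.R226.Seg347
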