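/-
R226, group E1, leaf E1.3 (helper892): Step 2 of Theorem 1 of doc 848.
For a `c`-convex `u`, a section `S = {D(·,y₀) ≤ h}` and `x̂ ∈ {D(·,y₀) ≤ h/2}`, the set
`So_B = {y : F_y(x) - F_y(x̂) ≤ B h  on S}`, `F_y(x) = c(x,y₀) - c(x,y)`, satisfies
`vol (So_B) ≤ C_B vol (∂_c u (S))`.
-/
import Crest.Agent.R226.CutFacts_484
import Crest.Agent.R226.Kant_624

set_option autoImplicit false
set_option linter.unusedSectionVars false

open MeasureTheory Bundle Set Filter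
open scoped Manifold ContDiff Bundle ENNReal Topology
open Crest.GeometryTopology.MTW

namespace Crest.Agent.R226.Step2_892

open Crest.Agent.R226 Crest.Agent.R226.Kant624

section Metric

variable {M : Type*} [MetricSpace M]

/-- `D(x,y) = u(x) + u^c(y) + c(x,y) ≥ 0`. -/
noncomputable def DD (u : M → ℝ) (x y : M) : ℝ := u x + ctr u y + halfDistSq x y

/-- the section `{x : D(x,y₀) ≤ h}`. -/
def Sec (u : M → ℝ) (y₀ : M) (h : ℝ) : Set M := {x | DD u x y₀ ≤ h}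

/-- `F_y(x) = c(x,y₀) - c(x,y)`. -/
noncomputable def FF (y₀ y x : M) : ℝ := halfDistSq x y₀ - halfDistSq x y

/-- `So_B = {y : F_y(x) - F_y(x̂) ≤ b for x ∈ S}` (`b = B h`). -/
def So (S : Set M) (y₀ xh : M) (b : ℝ) : Set M := {y | ∀ x ∈ S, FF y₀ y x - FF y₀ y xh ≤ b}

theorem So_mono {S : Set M} {y₀ xh : M} {b b' : ℝ} (h : b ≤ b') : So S y₀ xh b ⊆ So S y₀ xh b' :=
  fun _ hy x hx => (hy x hx).trans h

theorem mem_So_self {S : Set M} {y₀ xh : M} {b : ℝ} (h : 0 ≤ b) : y₀ ∈ So S y₀ xh b := by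
  intro x _
  unfold FF
  simp only [sub_self]
  exact h

theorem isClosed_So (S : Set M) (y₀ xh : M) (b : ℝ) : IsClosed (So S y₀ xh b) := by
  have : So S y₀ xh b = ⋂ x ∈ S, {y | FF y₀ y x - FF y₀ y xh ≤ b} := by
    ext y; simp [So]
  rw [this]
  refine isClosed_biInter fun x _ => ?_
  refine isClosed_le ?_ continuous_const
  unfold FF halfDistSq
  fun_prop

section Compact

variable [CompactSpace M]

theorem continuous_DD {u : M → ℝ} (hu : CConv u) (y : M) : Continuous (fun x => DD u x y) := by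
  have h1 := CConv.continuous hu
  unfold DD halfDistSq
  fun_prop

theorem DD_nonneg {u : M → ℝ} (hu : CConv u) (x y : M) : 0 ≤ DD u x y := by
  have := le_ctr (CConv.continuous hu) x y
  unfold DD
  linarith

theorem isClosed_Sec {u : M → ℝ} (hu : CConv u) (y₀ : M) (h : ℝ) : IsClosed (Sec u y₀ h) :=
  isClosed_le (continuous_DD hu y₀) continuous_const

/-- local minimality implies global minimality for `u + c(·,y)` (consequence of `Good 1`, E1.1). -/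
def LocGlob (u : M → ℝ) : Prop :=
  ∀ x y : M, IsLocalMin (fun x' => u x' + halfDistSq x' y) x → y ∈ cSub u x

/-- **Step 2 (b)**: `So_{1/4} ⊆ ∂_c u (S)`. -/
theorem So_quarter_subset {u : M → ℝ} (hu : CConv u) (hLG : LocGlob u) {y₀ xh : M} {h : ℝ}
    (hh : 0 < h) (hxh : DD u xh y₀ ≤ h / 2) :
    So (Sec u y₀ h) y₀ xh (h / 4) ⊆ ⋃ x ∈ Sec u y₀ h, cSub u x := by
  intro y hy
  have hS : IsCompact (Sec u y₀ h) := (isClosed_Sec hu y₀ h).isCompact
  have hxS : xh ∈ Sec u y₀ h := by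
    show DD u xh y₀ ≤ h
    linarith
  obtain ⟨x, hxS', hxmin⟩ := hS.exists_isMinOn ⟨xh, hxS⟩ (continuous_DD hu y).continuousOn
  have h1 : DD u x y ≤ DD u xh y := hxmin hxS
  have h2 := hy x hxS'
  have h3 : DD u x y₀ < h := by
    have e1 : FF y₀ y x - FF y₀ y xh =
        (DD u x y₀ - DD u xh y₀) - (DD u x y - DD u xh y) := by
      unfold FF DD; ring
    rw [e1] at h2
    linarith
  have h4 : Sec u y₀ h ∈ 𝓝 x := by
    have : {x' | DD u x' y₀ < h} ∈ 𝓝 x :=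
      (isOpen_lt (continuous_DD hu y₀) continuous_const).mem_nhds h3
    exact Filter.mem_of_superset this fun x' (hx' : DD u x' y₀ < h) => (hx'.le : DD u x' y₀ ≤ h)
  have h5 : IsLocalMin (fun x' => u x' + halfDistSq x' y) x := by
    filter_upwards [h4] with x' hx'
    have := hxmin hx'
    have h6 : DD u x y ≤ DD u x' y := this
    unfold DD at h6
    linarith
  exact mem_iUnion₂.2 ⟨x, hxS', hLG x y h5⟩

end Compact

end Metric

section Mfd

variable {n : ℕ} {M : Type*} [MetricSpace M] [ChartedSpace (EuclideanSpace ℝ (Fin n)) M]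
  [IsManifold (𝓡 n) ∞ M]
  [RiemannianBundle (fun p : M => TangentSpace (𝓡 n) p)]

variable (G : GeoData n M)

/-- `f_{x'}(p) = |p|²/2 - c(x', exp_x p)`. -/
noncomputable def ff (x x' : M) (p : TangentSpace (𝓡 n) x) : ℝ :=
  ‖p‖ ^ 2 / 2 - halfDistSq x' (G.ex x p)

/-- weak form of (Q) with constant `t₀`. -/
def QQc (t₀ : ℝ) : Prop :=
  ∀ x x' : M, ∀ p₀ ∈ G.K x, ∀ p₁ ∈ G.K x, ∀ t : ℝ, 0 ≤ t → t ≤ t₀ →
    ff G x x' ((1 - t) • p₀ + t • p₁) - ff G x x' p₀ ≤ max (ff G x x' p₁ - ff G x x' p₀) 0 / 2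

/-- (W') in volume form with constant `cW`. -/
def JMonoc [MeasurableSpace M] (vol : Measure M) (cW : ℝ≥0∞) : Prop :=
  ∀ x : M, ∀ A : Set (TangentSpace (𝓡 n) x), IsCompact A → A ⊆ G.K x → ∀ p₁ ∈ G.K x,
    ∀ t : ℝ, 0 ≤ t → t ≤ 1 / 2 →
    cW * vol (G.ex x '' A) ≤ vol (G.ex x '' ((fun p => (1 - t) • p + t • p₁) '' A))

end Mfd

section Contract

/-- the homothety `p ↦ a p + (1-a) p₁`. -/
def hom {E : Type*} [AddCommGroup E] [Module ℝ E] (a : ℝ) (p₁ p : E) : E := a • p + (1 - a) • p₁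

variable {E : Type*} [AddCommGroup E] [Module ℝ E]

theorem hom_one (p₁ p : E) : hom (1 : ℝ) p₁ p = p := by unfold hom; module

theorem hom_hom (a b : ℝ) (p₁ p : E) : hom a p₁ (hom b p₁ p) = hom (a * b) p₁ p := by
  unfold hom; module

theorem hom_image_image (a b : ℝ) (p₁ : E) (A : Set E) :
    hom a p₁ '' (hom b p₁ '' A) = hom (a * b) p₁ '' A := by
  rw [image_image]
  simp_rw [hom_hom]

theorem hom_image_one (p₁ : E) (A : Set E) : hom (1 : ℝ) p₁ '' A = A := by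
  have : hom (1 : ℝ) p₁ = id := by funext p; exact hom_one p₁ p
  rw [this, image_id]

theorem hom_mem {K : Set E} (hK : Convex ℝ K) {p₁ p : E} (h₁ : p₁ ∈ K) (h : p ∈ K) {a : ℝ}
    (h0 : 0 ≤ a) (h1 : a ≤ 1) : hom a p₁ p ∈ K :=
  hK h h₁ h0 (by linarith) (by ring)

end Contract

section Mfd2

variable {n : ℕ} {M : Type*} [MetricSpace M] [ChartedSpace (EuclideanSpace ℝ (Fin n)) M]
  [IsManifold (𝓡 n) ∞ M]
  [RiemannianBundle (fun p : M => TangentSpace (𝓡 n) p)]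

variable (G : GeoData n M)

/-- `Q_b = K(x̂) ∩ exp⁻¹ So_b`. -/
def QB (S : Set M) (y₀ xh : M) (b : ℝ) : Set (TangentSpace (𝓡 n) xh) :=
  {p | p ∈ G.K xh ∧ G.ex xh p ∈ So S y₀ xh b}

theorem ex_image_QB (S : Set M) (y₀ xh : M) (b : ℝ) : G.ex xh '' QB G S y₀ xh b = So S y₀ xh b := by
  ext y
  constructor
  · rintro ⟨p, hp, rfl⟩
    exact hp.2
  · intro hy
    obtain ⟨v, hv, hn⟩ := G.surj xh y
    refine ⟨v, ⟨?_, ?_⟩, hv⟩
    · show dist xh (G.ex xh v) = ‖v‖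
      rw [hv, hn]
    · rw [hv]; exact hy

theorem FF_eq_ff {y₀ xh x : M} {p : TangentSpace (𝓡 n) xh} (hp : p ∈ G.K xh) :
    FF y₀ (G.ex xh p) x - FF y₀ (G.ex xh p) xh =
      ff G xh x p + (halfDistSq x y₀ - halfDistSq xh y₀) := by
  have h1 : halfDistSq xh (G.ex xh p) = ‖p‖ ^ 2 / 2 := by
    have : dist xh (G.ex xh p) = ‖p‖ := hp
    unfold halfDistSq; rw [this]
  unfold FF ff
  rw [h1]; ring

/-- convexity of `Q_b` from quasiconvexity (DASM) at `x̂`. -/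
theorem convex_QB {S : Set M} {y₀ xh : M} {b : ℝ} (hK : Convex ℝ (G.K xh))
    (hdasm : ∀ x' : M, ∀ p₀ ∈ G.K xh, ∀ p₁ ∈ G.K xh, ∀ t : ℝ, 0 ≤ t → t ≤ 1 →
      ff G xh x' ((1 - t) • p₀ + t • p₁) ≤ max (ff G xh x' p₀) (ff G xh x' p₁)) :
    Convex ℝ (QB G S y₀ xh b) := by
  intro p hp q hq s t hs ht hst
  have hs' : s = 1 - t := by linarith
  subst hs'
  have hmem : (1 - t) • p + t • q ∈ G.K xh := hK hp.1 hq.1 hs ht hst
  refine ⟨hmem, fun x hx => ?_⟩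
  rw [FF_eq_ff G hmem]
  have h1 := hp.2 x hx
  have h2 := hq.2 x hx
  rw [FF_eq_ff G hp.1] at h1
  rw [FF_eq_ff G hq.1] at h2
  have h3 := hdasm x p hp.1 q hq.1 t ht (by linarith)
  have h4 : max (ff G xh x p) (ff G xh x q) ≤ b - (halfDistSq x y₀ - halfDistSq xh y₀) :=
    max_le (by linarith) (by linarith)
  linarith

/-- one contraction step: `Q_b → Q_{b/2}`. -/
theorem contract_QB {t₀ : ℝ} (hQ : QQc G t₀) {S : Set M} {y₀ xh : M} {b : ℝ} (hb : 0 ≤ b)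
    (hK : Convex ℝ (G.K xh)) {p₀ : TangentSpace (𝓡 n) xh} (hp₀ : p₀ ∈ G.K xh)
    (hy₀ : G.ex xh p₀ = y₀) {p : TangentSpace (𝓡 n) xh} (hp : p ∈ QB G S y₀ xh b) {t : ℝ}
    (h0 : 0 ≤ t) (ht : t ≤ t₀) (h1 : t ≤ 1) : hom t p₀ p ∈ QB G S y₀ xh (b / 2) := by
  have hmem : hom t p₀ p ∈ G.K xh := hom_mem hK hp₀ hp.1 h0 h1
  refine ⟨hmem, fun x hx => ?_⟩
  rw [FF_eq_ff G hmem]
  have h2 := hQ xh x p₀ hp₀ p hp.1 t h0 ht
  have h3 := hp.2 x hx
  rw [FF_eq_ff G hp.1] at h3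
  have e1 : ff G xh x p₀ = halfDistSq xh y₀ - halfDistSq x y₀ := by
    have : dist xh (G.ex xh p₀) = ‖p₀‖ := hp₀
    unfold ff
    rw [← this, hy₀]
    unfold halfDistSq; ring
  have e2 : hom t p₀ p = (1 - t) • p₀ + t • p := by unfold hom; module
  rw [e2]
  rw [e1] at h2
  have h4 : max (ff G xh x p - (halfDistSq xh y₀ - halfDistSq x y₀)) 0 ≤ b :=
    max_le (by linarith) hb
  linarith

theorem contract_QB_pow {t₀ : ℝ} (h0 : 0 ≤ t₀) (h1 : t₀ ≤ 1) (hQ : QQc G t₀) {S : Set M}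
    {y₀ xh : M} {b : ℝ} (hb : 0 ≤ b) (hK : Convex ℝ (G.K xh)) {p₀ : TangentSpace (𝓡 n) xh}
    (hp₀ : p₀ ∈ G.K xh) (hy₀ : G.ex xh p₀ = y₀) {p : TangentSpace (𝓡 n) xh}
    (hp : p ∈ QB G S y₀ xh b) (k : ℕ) : hom (t₀ ^ k) p₀ p ∈ QB G S y₀ xh (b / 2 ^ k) := by
  induction k with
  | zero => simpa [hom_one] using hp
  | succ k ih =>
    have h2 := contract_QB G hQ (by positivity) hK hp₀ hy₀ ih h0 le_rfl h1
    rw [hom_hom] at h2
    have e1 : t₀ * t₀ ^ k = t₀ ^ (k + 1) := by ring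
    have e2 : b / 2 ^ k / 2 = b / 2 ^ (k + 1) := by
      rw [pow_succ]; field_simp
    rwa [e1, e2] at h2

section Vol

variable [MeasurableSpace M]

theorem continuous_hom {x : M} (a : ℝ) (p₁ : TangentSpace (𝓡 n) x) : Continuous (hom a p₁) := by
  unfold hom
  fun_prop

theorem vol_contract_half {vol : Measure M} {cW : ℝ≥0∞} (hJ : JMonoc G vol cW) {x : M}
    {A : Set (TangentSpace (𝓡 n) x)} (hA : IsCompact A) (hAK : A ⊆ G.K x)
    {p₁ : TangentSpace (𝓡 n) x} (hp₁ : p₁ ∈ G.K x) {a : ℝ} (h0 : 1 / 2 ≤ a) (h1 : a ≤ 1) :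
    cW * vol (G.ex x '' A) ≤ vol (G.ex x '' (hom a p₁ '' A)) := by
  have h2 := hJ x A hA hAK p₁ hp₁ (1 - a) (by linarith) (by linarith)
  have e1 : (fun p : TangentSpace (𝓡 n) x => (1 - (1 - a)) • p + (1 - a) • p₁) = hom a p₁ := by
    funext p; unfold hom; module
  rwa [e1] at h2

/-- contraction by any factor `a ∈ (0,1]` changes the volume of the image at most by a factor. -/
theorem vol_contract {vol : Measure M} {cW : ℝ} (hcW : 0 < cW)
    (hJ : JMonoc G vol (ENNReal.ofReal cW)) (hKc : ∀ x, Convex ℝ (G.K x)) {a : ℝ} (ha : 0 < a)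
    (ha1 : a ≤ 1) : ∃ c : ℝ, 0 < c ∧ ∀ x : M, ∀ A : Set (TangentSpace (𝓡 n) x), IsCompact A →
      A ⊆ G.K x → ∀ p₁ ∈ G.K x,
      ENNReal.ofReal c * vol (G.ex x '' A) ≤ vol (G.ex x '' (hom a p₁ '' A)) := by
  have key : ∀ j : ℕ, ∀ a : ℝ, (1 / 2 : ℝ) ^ j ≤ a → a ≤ 1 → ∃ c : ℝ, 0 < c ∧ ∀ x : M,
      ∀ A : Set (TangentSpace (𝓡 n) x), IsCompact A → A ⊆ G.K x → ∀ p₁ ∈ G.K x,
      ENNReal.ofReal c * vol (G.ex x '' A) ≤ vol (G.ex x '' (hom a p₁ '' A)) := by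
    intro j
    induction j with
    | zero =>
      intro a h0 h1
      have : a = 1 := by simp at h0; linarith
      subst this
      refine ⟨1, one_pos, fun x A _ _ p₁ _ => ?_⟩
      rw [hom_image_one]
      simp
    | succ j ih =>
      intro a h0 h1
      by_cases h2 : 1 / 2 ≤ a
      · exact ⟨cW, hcW, fun x A hA hAK p₁ hp₁ => vol_contract_half G hJ hA hAK hp₁ h2 h1⟩
      · push Not at h2
        obtain ⟨c, hc, hc'⟩ := ih (2 * a) (by rw [pow_succ] at h0; linarith) (by linarith)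
        refine ⟨cW * c, by positivity, fun x A hA hAK p₁ hp₁ => ?_⟩
        have h3 := hc' x A hA hAK p₁ hp₁
        have ha0 : 0 ≤ 2 * a := by
          have : (0:ℝ) < (1 / 2 : ℝ) ^ (j + 1) := by positivity
          linarith
        have hA' : IsCompact (hom (2 * a) p₁ '' A) := hA.image (continuous_hom _ _)
        have hAK' : hom (2 * a) p₁ '' A ⊆ G.K x := by
          rintro _ ⟨p, hp, rfl⟩
          exact hom_mem (hKc x) hp₁ (hAK hp) ha0 (by linarith)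
        have h4 := vol_contract_half G hJ hA' hAK' hp₁ (a := 1 / 2) le_rfl (by norm_num)
        rw [hom_image_image] at h4
        have e1 : (1 / 2 : ℝ) * (2 * a) = a := by ring
        rw [e1] at h4
        refine le_trans ?_ h4
        rw [ENNReal.ofReal_mul hcW.le, mul_assoc]
        gcongr
  obtain ⟨j, hj⟩ := exists_pow_lt_of_lt_one ha (by norm_num : (1 / 2 : ℝ) < 1)
  exact key j a hj.le ha1

end Vol

end Mfd2

section Final

variable {n : ℕ} {M : Type*} [MetricSpace M] [CompactSpace M]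
  [ChartedSpace (EuclideanSpace ℝ (Fin n)) M]
  [IsManifold (𝓡 n) ∞ M]
  [RiemannianBundle (fun p : M => TangentSpace (𝓡 n) p)]

variable (G : GeoData n M)

/-- fibre maps `exp_x` are continuous. -/
theorem continuous_ex (x : M) : Continuous (G.ex x) := by
  have h1 : Continuous (fun p : TangentBundle (𝓡 n) M => G.ex p.1 p.2) := G.smooth.continuous
  have h2 : Continuous (fun v : TangentSpace (𝓡 n) x => (⟨x, v⟩ : TangentBundle (𝓡 n) M)) :=
    FiberBundle.continuous_totalSpaceMk (EuclideanSpace ℝ (Fin n)) (TangentSpace (𝓡 n)) x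
  exact h1.comp h2

theorem isClosed_K (x : M) : IsClosed (G.K x) :=
  isClosed_eq (continuous_const.dist (continuous_ex G x)) continuous_norm

theorem isCompact_K (x : M) : IsCompact (G.K x) := by
  have : FiniteDimensional ℝ (TangentSpace (𝓡 n) x) :=
    inferInstanceAs (FiniteDimensional ℝ (EuclideanSpace ℝ (Fin n)))
  have := FiniteDimensional.proper ℝ (TangentSpace (𝓡 n) x)
  refine (isCompact_closedBall (0 : TangentSpace (𝓡 n) x)
    (Metric.diam (univ : Set M))).of_isClosed_subset (isClosed_K G x) ?_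
  intro v hv
  rw [mem_closedBall_zero_iff]
  have h1 : dist x (G.ex x v) = ‖v‖ := hv
  rw [← h1]
  exact Metric.dist_le_diam_of_mem isCompact_univ.isBounded (mem_univ _) (mem_univ _)

theorem isCompact_QB (S : Set M) (y₀ xh : M) (b : ℝ) : IsCompact (QB G S y₀ xh b) :=
  (isCompact_K G xh).inter_right ((isClosed_So S y₀ xh b).preimage (continuous_ex G xh))

variable [MeasurableSpace M] [BorelSpace M]

/-- **Step 2**: `vol (So_B) ≤ C_B vol (∂_c u (S))`, uniformly in `u`, `y₀`, `x̂`, `h`. -/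
theorem step2 {vol : Measure M} {cW t₀ : ℝ} (hcW : 0 < cW) (hJ : JMonoc G vol (ENNReal.ofReal cW))
    (ht₀ : 0 < t₀) (ht₁ : t₀ ≤ 1) (hQ : QQc G t₀) (hKc : ∀ x, Convex ℝ (G.K x)) (B : ℝ) :
    ∃ c : ℝ, 0 < c ∧ ∀ u : M → ℝ, CConv u → LocGlob u → ∀ y₀ xh : M, ∀ h : ℝ, 0 < h →
      DD u xh y₀ ≤ h / 2 →
      ENNReal.ofReal c * vol (So (Sec u y₀ h) y₀ xh (B * h)) ≤
        vol (⋃ x ∈ Sec u y₀ h, cSub u x) := by
  -- number of steps
  obtain ⟨k, hk⟩ : ∃ k : ℕ, max B 0 / 2 ^ k ≤ 1 / 4 := by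
    obtain ⟨k, hk⟩ := pow_unbounded_of_one_lt (4 * max B 0) (by norm_num : (1 : ℝ) < 2)
    refine ⟨k, ?_⟩
    rw [div_le_iff₀ (by positivity)]
    linarith
  obtain ⟨c, hc, hc'⟩ := vol_contract G hcW hJ hKc (a := t₀ ^ k) (by positivity)
    (pow_le_one₀ ht₀.le ht₁)
  refine ⟨c, hc, ?_⟩
  intro u hu hLG y₀ xh h hh hxh
  obtain ⟨p₀, hp₀, hn₀⟩ := G.surj xh y₀
  have hp₀K : p₀ ∈ G.K xh := by
    show dist xh (G.ex xh p₀) = ‖p₀‖
    rw [hp₀, hn₀]
  set S := Sec u y₀ h with hS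
  have h1 := hc' xh (QB G S y₀ xh (max B 0 * h)) (isCompact_QB G S y₀ xh _) (fun p hp => hp.1)
    p₀ hp₀K
  rw [ex_image_QB] at h1
  have h2 : So S y₀ xh (B * h) ⊆ So S y₀ xh (max B 0 * h) :=
    So_mono (mul_le_mul_of_nonneg_right (le_max_left _ _) hh.le)
  have h3 : G.ex xh '' (hom (t₀ ^ k) p₀ '' QB G S y₀ xh (max B 0 * h)) ⊆
      So S y₀ xh (h / 4) := by
    rintro _ ⟨_, ⟨p, hp, rfl⟩, rfl⟩
    have h4 := contract_QB_pow G ht₀.le ht₁ hQ
      (mul_nonneg (le_max_right B 0) hh.le) (hKc xh) hp₀K hp₀ hp k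
    refine So_mono ?_ h4.2
    rw [mul_div_right_comm]
    nlinarith
  calc ENNReal.ofReal c * vol (So S y₀ xh (B * h))
      ≤ ENNReal.ofReal c * vol (So S y₀ xh (max B 0 * h)) := by gcongr
    _ ≤ vol (G.ex xh '' (hom (t₀ ^ k) p₀ '' QB G S y₀ xh (max B 0 * h))) := h1
    _ ≤ vol (So S y₀ xh (h / 4)) := measure_mono h3
    _ ≤ vol (⋃ x ∈ S, cSub u x) := measure_mono (So_quarter_subset hu hLG hh hxh)

/-- the combination with the Alexandrov pinching: if `S' ⊆ M` is a Borel set with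
`vol S' ≥ c' vol S`, then `vol So_B ≤ C vol (∂_c u (S'))`. -/
theorem step2' {vol : Measure M} {cW t₀ : ℝ} (hcW : 0 < cW) (hJ : JMonoc G vol (ENNReal.ofReal cW))
    (ht₀ : 0 < t₀) (ht₁ : t₀ ≤ 1) (hQ : QQc G t₀) (hKc : ∀ x, Convex ℝ (G.K x)) (B : ℝ)
    {m c' : ℝ} (hm : 0 < m) (hc' : 0 < c') :
    ∃ c : ℝ, 0 < c ∧ ∀ u : M → ℝ, CConv u → LocGlob u → AlexPinch vol u m →
      ∀ y₀ xh : M, ∀ h : ℝ, 0 < h → DD u xh y₀ ≤ h / 2 → ∀ S' : Set M, MeasurableSet S' →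
      ENNReal.ofReal c' * vol (Sec u y₀ h) ≤ vol S' →
      ENNReal.ofReal c * vol (So (Sec u y₀ h) y₀ xh (B * h)) ≤ vol (⋃ x ∈ S', cSub u x) := by
  obtain ⟨c, hc, H⟩ := step2 G hcW hJ ht₀ ht₁ hQ hKc B
  refine ⟨m * (c' * (m * c)), by positivity, ?_⟩
  intro u hu hLG hA y₀ xh h hh hxh S' hS' hvol
  have h1 := H u hu hLG y₀ xh h hh hxh
  have h2 := (hA (Sec u y₀ h) (isClosed_Sec hu y₀ h).measurableSet).2
  have h3 := (hA S' hS').1
  rw [ENNReal.ofReal_mul hm.le, ENNReal.ofReal_mul hc'.le, ENNReal.ofReal_mul hm.le, mul_assoc,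
    mul_assoc, mul_assoc]
  calc ENNReal.ofReal m * (ENNReal.ofReal c' * (ENNReal.ofReal m *
        (ENNReal.ofReal c * vol (So (Sec u y₀ h) y₀ xh (B * h)))))
      ≤ ENNReal.ofReal m * (ENNReal.ofReal c' * (ENNReal.ofReal m *
        vol (⋃ x ∈ Sec u y₀ h, cSub u x))) := by gcongr
    _ ≤ ENNReal.ofReal m * (ENNReal.ofReal c' * vol (Sec u y₀ h)) := by gcongr
    _ ≤ ENNReal.ofReal m * vol S' := by gcongr
    _ ≤ vol (⋃ x ∈ S', cSub u x) := h3

end Final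

end Crest.Agent.R226.Step2_892
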