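/-
R226, task D3 (helper229): step (H) of docs 350: if `Good u s` then `P_φ(y)` is convex, where
`φ = (s u)^c`.  The input (L-C) is taken as a hypothesis `LC G`.
-/
import Crest.Agent.R226.CC2_229
import Crest.Agent.R226.Kant_624
import Crest.Agent.R226.DDefs_267

set_option autoImplicit false

open MeasureTheory Bundle Set Filter
open scoped Manifold ContDiff Bundle ENNReal Topology
open Crest.GeometryTopology.MTW

namespace Crest.Agent.R226.StepH229

variable {n : ℕ} {M : Type*} [MetricSpace M] [ChartedSpace (EuclideanSpace ℝ (Fin n)) M]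
  [IsManifold (𝓡 n) ∞ M]
  [RiemannianBundle (fun p : M => TangentSpace (𝓡 n) p)]

/-- the statement (L-C): at a minimum `x` of `s u + c(·,y)/T`, every minimising velocity
`v ∈ W_{x,y}` satisfies `v = (T s) p` with `p ∈ H_u(x)`. -/
def LC (G : GeoData n M) : Prop :=
  ∀ u : M → ℝ, CConv u → ∀ s T : ℝ, 0 < s → 0 < T → ∀ x y : M,
    (∀ x', s * u x + halfDistSq x y / T ≤ s * u x' + halfDistSq x' y / T) →
    ∀ v ∈ G.K x, G.ex x v = y → ∃ p ∈ G.H u x, v = (T * s) • p

/-- `ctr` at a contact point. -/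
theorem ctr_eq_of_mem [CompactSpace M] {U : M → ℝ} (hU : Continuous U) {x y : M}
    (h : ∀ x', U x + halfDistSq x y ≤ U x' + halfDistSq x' y) :
    ctr U y = -U x - halfDistSq x y := by
  obtain ⟨z, hz, hz'⟩ := Kant624.exists_ctr hU y
  have h1 := Kant624.le_ctr hU x y
  have h2 := h z
  linarith

/-- the reversed vector of `w ∈ P_U(x)` is in `P_φ(exp_x w)`, `φ = U^c`. -/
theorem rev_mem_P_ctr [CompactSpace M] {G : GeoData n M} (CF : CutFacts G) {U : M → ℝ}
    (hU : Continuous U) {x : M} {w : TangentSpace (𝓡 n) x} (hw : w ∈ G.P U x) :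
    -(G.vel x w 1) ∈ G.P (ctr U) (G.ex x ((1 : ℝ) • w)) := by
  refine ⟨CF.rev x w hw.1, fun y' => ?_⟩
  have he : G.ex (G.ex x ((1 : ℝ) • w)) (-(G.vel x w 1)) = x := by
    have := CF.rev_ex x w 1
    rw [sub_self, zero_smul, G.ex_zero, one_smul ℝ (-(G.vel x w 1))] at this
    exact this
  rw [he]
  have h1 : ctr U (G.ex x ((1 : ℝ) • w)) = -U x - halfDistSq x (G.ex x ((1 : ℝ) • w)) := by
    apply ctr_eq_of_mem hU
    intro x'
    have := hw.2 x'
    rwa [← one_smul ℝ w] at this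
  have h2 := Kant624.le_ctr hU x y'
  rw [h1, Kant624.halfDistSq_comm _ x, Kant624.halfDistSq_comm y' x]
  linarith

/-- existence of a minimiser of `U + c(·,z)/T`. -/
theorem exists_min [CompactSpace M] {U : M → ℝ} (hU : Continuous U) (z : M) (T : ℝ) :
    ∃ x, ∀ x', U x + halfDistSq x z / T ≤ U x' + halfDistSq x' z / T := by
  have hc : Continuous (fun x => U x + halfDistSq x z / T) := by
    unfold halfDistSq; fun_prop
  obtain ⟨x, -, hx⟩ := isCompact_univ.exists_isMinOn ⟨z, mem_univ z⟩ hc.continuousOn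
  exact ⟨x, fun x' => hx (mem_univ x')⟩

/-- **Step (H)**, pointwise form: `H_φ(y) ⊆ P_φ(y)` for `φ = (s u)^c`. -/
theorem H_ctr_subset [CompactSpace M] {G : GeoData n M} (CF : CutFacts G) (hLC : LC G)
    {u : M → ℝ} (hu : CConv u) {s : ℝ} (hs : 0 < s) (hgood : G.Good u s) (y : M) :
    G.H (ctr fun z => s * u z) y ⊆ G.P (ctr fun z => s * u z) y := by
  intro q hq
  have hb : Bornology.IsBounded (univ : Set M) := isCompact_univ.isBounded
  have hD : ∀ x y : M, dist x y ≤ Metric.diam (univ : Set M) := fun x y =>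
    Metric.dist_le_diam_of_mem hb (mem_univ _) (mem_univ _)
  obtain ⟨ε₀, hε₀, hinj⟩ := CC2229.inj_small CF hD
  set U : M → ℝ := fun z => s * u z with hUdef
  have hUc : Continuous U := continuous_const.mul (Kant624.CConv.continuous hu)
  -- choose ε
  obtain ⟨ε, hε, hεle, hε1⟩ : ∃ ε : ℝ, 0 < ε ∧ ε ≤ ε₀ ∧ ε < 1 :=
    ⟨min ε₀ (1 / 2), by positivity, min_le_left _ _,
      lt_of_le_of_lt (min_le_right _ _) (by norm_num)⟩
  have hT : 0 < 1 - ε := by linarith
  obtain ⟨x, hx⟩ := exists_min hUc (G.ex y (ε • q)) (1 - ε)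
  obtain ⟨v, hv, hvn⟩ := G.surj x (G.ex y (ε • q))
  have hvK : v ∈ G.K x := by
    show dist x (G.ex x v) = ‖v‖
    rw [hv, hvn]
  obtain ⟨p, hp, hvp⟩ := hLC u hu s (1 - ε) hs hT x (G.ex y (ε • q)) hx v hvK hv
  -- w = s • p ∈ P_U(x)
  have hw := hgood x p hp
  set w : TangentSpace (𝓡 n) x := s • p with hwdef
  have hvw : v = (1 - ε) • w := by rw [hvp, hwdef, smul_smul]
  have hq1 := rev_mem_P_ctr CF hUc hw
  have hexp : G.ex (G.ex x ((1 : ℝ) • w)) (ε • (-(G.vel x w 1))) = G.ex y (ε • q) := by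
    rw [CF.rev_ex x w ε, ← hvw, hv]
  have hq1H : -(G.vel x w 1) ∈ G.H (ctr U) (G.ex x ((1 : ℝ) • w)) := subset_convexHull ℝ _ hq1
  have heq := hinj ε hε hεle (ctr U) _ y _ hq1H q hq hexp
  -- transport membership along the equality in the tangent bundle
  have key : ∀ a b : TangentBundle (𝓡 n) M, a = b → a.2 ∈ G.P (ctr U) a.1 →
      b.2 ∈ G.P (ctr U) b.1 := by
    rintro a b rfl h; exact h
  exact key _ _ heq hq1

/-- **Step (H)**: `P_φ(y)` is convex for `φ = (s u)^c`, if `Good u s`. -/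
theorem convex_P_ctr [CompactSpace M] {G : GeoData n M} (CF : CutFacts G) (hLC : LC G)
    {u : M → ℝ} (hu : CConv u) {s : ℝ} (hs : 0 < s) (hgood : G.Good u s) (y : M) :
    Convex ℝ (G.P (ctr fun z => s * u z) y) := by
  have h1 := H_ctr_subset CF hLC hu hs hgood y
  have h2 : G.P (ctr fun z => s * u z) y ⊆ G.H (ctr fun z => s * u z) y := subset_convexHull ℝ _
  rw [subset_antisymm h2 h1]
  exact convex_convexHull ℝ _

/-- Output of D3 in the interface form of `DDefs_267`. -/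
theorem stepH [CompactSpace M] {G : GeoData n M} (CF : CutFacts G) (DF : DFacts G) : StepH G := by
  intro u hu s hs _ hgood y
  refine convex_P_ctr CF ?_ hu hs hgood y
  intro u hu s T hs hT x y hmin v hv hvy
  obtain ⟨p, hp, hpv⟩ := DF.LC u hu s hs.le T hT x y hmin v hv hvy
  refine ⟨p, hp, ?_⟩
  rw [mul_smul, ← hpv, smul_smul, mul_one_div_cancel hT.ne', one_smul]

end Crest.Agent.R226.StepH229
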