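/-
R226, layer D, task D4: step (I) in the interface form of `DDefs_267` (helper371).
-/
import Crest.Agent.R226.StepI_371
import Crest.Agent.R226.DDefs_267

set_option autoImplicit false

open MeasureTheory Bundle Set Filter
open scoped Manifold ContDiff Bundle ENNReal Topology
open Crest.GeometryTopology.MTW

namespace Crest.Agent.R226.StepI371

variable {n : ℕ} {M : Type*} [MetricSpace M] [ChartedSpace (EuclideanSpace ℝ (Fin n)) M]
  [IsManifold (𝓡 n) ∞ M]
  [RiemannianBundle (fun p : M => TangentSpace (𝓡 n) p)]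

/-- Step (I) from the interface structures. -/
theorem stepI_fin {G : GeoData n M} (hC : CutFacts G) (hM : MTWFacts G) (hD : DFacts G) :
    StepI G := by
  intro u hu s hs0 hs1 hgood hconv y
  have hcc : CConv (scal s u) := hD.cconv_smul u hu s hs0.le hs1.le
  have hset : G.P (ctr (scal s u)) y =
      {q | q ∈ G.K y ∧ G.ex y q ∈ Cset (fun z => s * u z) y} := by
    ext q
    exact hD.mem_P_ctr (scal s u) hcc y q
  rw [hset]
  refine stepI hC hM hs0 hs1 hgood y ?_ (hset ▸ hconv y)
  intro x hx v hv hvy
  obtain ⟨p, hp, hpv⟩ := hD.LC u hu s hs0.le 1 one_pos x y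
    (fun x' => by simpa using hx x') v hv hvy
  refine ⟨p, hp, ?_⟩
  simpa using hpv

end Crest.Agent.R226.StepI371
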