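import Mathlib

/-!
R226, layer D, task D5 (step J), helper416: the pure two-dimensional lemma.

`f` is a function on the open triangle `0 < x < R`, `|y| ≤ m x`, such that along every segment
`[q₀,q₁]` of the triangle the function `τ ↦ ⟪q_τ, q₁-q₀⟫² f(q_τ)` is convex.  If `f(R-t,0) ≥ c/t`
and `f(R-t, m(R-t)) ≤ C` for small `t > 0`, we get a contradiction.
-/

set_option autoImplicit false

open Set

namespace Crest.Agent.R226.StepJ2D416

/-- convexity on `[0,1]` with value `0` at `0`. -/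
lemma convex_zero {g : ℝ → ℝ} (hg : ConvexOn ℝ (Icc (0 : ℝ) 1) g) (h0 : g 0 = 0) {τ : ℝ}
    (h1 : 0 ≤ τ) (h2 : τ ≤ 1) : g τ ≤ τ * g 1 := by
  have := hg.2 (left_mem_Icc.2 zero_le_one) (right_mem_Icc.2 zero_le_one)
    (sub_nonneg.2 h2) h1 (by ring)
  simpa [h0] using this

/-- the convexity hypothesis of the plane lemma -/
def PlaneConv (R m : ℝ) (f : ℝ → ℝ → ℝ) : Prop :=
  ∀ x₀ y₀ x₁ y₁ : ℝ, 0 < x₀ → x₀ < R → |y₀| ≤ m * x₀ → 0 < x₁ → x₁ < R →
      |y₁| ≤ m * x₁ → ConvexOn ℝ (Icc (0 : ℝ) 1) (fun τ =>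
        ((x₀ + τ * (x₁ - x₀)) * (x₁ - x₀) + (y₀ + τ * (y₁ - y₀)) * (y₁ - y₀)) ^ 2 *
          f (x₀ + τ * (x₁ - x₀)) (y₀ + τ * (y₁ - y₀)))

/-- horizontal lines: `y f(x,y)` is increasing -/
lemma horizontal {R m : ℝ} {f : ℝ → ℝ → ℝ} (hm : 0 < m) (hconv : PlaneConv R m f)
    {x y : ℝ} (hx0 : 0 < x) (hxR : x < R) (hy : 0 < y) (hy' : y ≤ m * x) :
    y * f x y ≤ (m * x) * f x (m * x) := by
  have hmx : 0 < m * x := mul_pos hm hx0
  have h := hconv x 0 x (m * x) hx0 hxR (by simpa using hmx.le) hx0 hxR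
    (by rw [abs_of_pos hmx])
  obtain ⟨τ, hτ⟩ : ∃ τ, τ = y / (m * x) := ⟨_, rfl⟩
  have hτ0 : 0 < τ := hτ ▸ div_pos hy hmx
  have hτ1 : τ ≤ 1 := hτ ▸ (div_le_one hmx).2 hy'
  have h1 := convex_zero h (by simp) hτ0.le hτ1
  have hτy : τ * (m * x) = y := by rw [hτ]; field_simp
  simp only [sub_self, mul_zero, add_zero, zero_add, sub_zero, one_mul] at h1
  rw [hτy] at h1
  have e1 : (y * (m * x)) ^ 2 * f x y = (y * f x y) * (y * (m * x) ^ 2) := by ring
  have e2 : τ * ((m * x * (m * x)) ^ 2 * f x (m * x)) =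
      ((m * x) * f x (m * x)) * (y * (m * x) ^ 2) := by
    rw [← hτy]; ring
  rw [e1, e2] at h1
  exact le_of_mul_le_mul_right h1 (by positivity)

/-- tilted lines through `(R-t,0)` and `(R-t/2,σ)` -/
lemma tilted {R m : ℝ} {f : ℝ → ℝ → ℝ} (hconv : PlaneConv R m f)
    {t σ l : ℝ} (hσ0 : 0 < σ) (hl0 : 0 < l)
    (hlN : l * (t ^ 2 / 4 + σ ^ 2) = (R - t) * (t / 2))
    (hex0 : 0 < R - t - l * (t / 2)) (hexR : R - t - l * (t / 2) < R)
    (hlσ : l * σ ≤ m * (R - t - l * (t / 2)))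
    (hbx0 : 0 < R - t / 2) (hbxR : R - t / 2 < R) (hσb : σ ≤ m * (R - t / 2)) :
    l / (1 + l) * f (R - t) 0 ≤ f (R - t / 2) σ := by
  have h := hconv (R - t - l * (t / 2)) (-(l * σ)) (R - t / 2) σ hex0 hexR
    (by rw [abs_neg, abs_of_pos (mul_pos hl0 hσ0)]; exact hlσ) hbx0 hbxR
    (by rw [abs_of_pos hσ0]; exact hσb)
  have hd1 : R - t / 2 - (R - t - l * (t / 2)) = (1 + l) * (t / 2) := by ring
  have hd2 : σ - -(l * σ) = (1 + l) * σ := by ring
  rw [hd1, hd2] at h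
  have hfoot : (R - t - l * (t / 2)) * ((1 + l) * (t / 2)) + -(l * σ) * ((1 + l) * σ) = 0 := by
    linear_combination -(1 + l) * hlN
  obtain ⟨τ, hτ⟩ : ∃ τ, τ = l / (1 + l) := ⟨_, rfl⟩
  have h1l : 0 < 1 + l := by linarith
  have hτ0 : 0 < τ := hτ ▸ div_pos hl0 h1l
  have hτ1 : τ ≤ 1 := hτ ▸ (div_le_one h1l).2 (by linarith)
  have hτl : τ * (1 + l) = l := by rw [hτ]; field_simp
  have key := convex_zero h (by
    simp only [zero_mul, add_zero]
    rw [hfoot]; ring) hτ0.le hτ1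
  have ea : R - t - l * (t / 2) + τ * ((1 + l) * (t / 2)) = R - t := by
    rw [← mul_assoc, hτl]; ring
  have eb : -(l * σ) + τ * ((1 + l) * σ) = 0 := by
    rw [← mul_assoc, hτl]; ring
  have ec : R - t - l * (t / 2) + 1 * ((1 + l) * (t / 2)) = R - t / 2 := by ring
  have ed : -(l * σ) + 1 * ((1 + l) * σ) = σ := by ring
  simp only [ea, eb, ec, ed] at key
  obtain ⟨N, hN⟩ : ∃ N, N = t ^ 2 / 4 + σ ^ 2 := ⟨_, rfl⟩
  have hN0 : 0 < N := by rw [hN]; positivity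
  have i1 : (R - t) * ((1 + l) * (t / 2)) + 0 * ((1 + l) * σ) = τ * ((1 + l) ^ 2 * N) := by
    have : τ * ((1 + l) ^ 2 * N) = (τ * (1 + l)) * (1 + l) * N := by ring
    rw [this, hτl, hN]
    linear_combination -(1 + l) * hlN
  have i2 : (R - t / 2) * ((1 + l) * (t / 2)) + σ * ((1 + l) * σ) = (1 + l) ^ 2 * N := by
    rw [hN]
    linear_combination -(1 + l) * hlN
  rw [i1, i2] at key
  have e1 : (τ * ((1 + l) ^ 2 * N)) ^ 2 * f (R - t) 0 =
      (τ * f (R - t) 0) * (τ * ((1 + l) ^ 2 * N) ^ 2) := by ring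
  have e2 : τ * (((1 + l) ^ 2 * N) ^ 2 * f (R - t / 2) σ) =
      f (R - t / 2) σ * (τ * ((1 + l) ^ 2 * N) ^ 2) := by ring
  rw [e1, e2] at key
  rw [← hτ]
  exact le_of_mul_le_mul_right key (by positivity)

/-- arithmetic choice of the parameters -/
lemma choose_params {R m c C t₀ : ℝ} (hR : 0 < R) (hm : 0 < m) (hc : 0 < c) (hC : 0 < C)
    (ht₀ : 0 < t₀) : ∃ t σ l : ℝ, 0 < t ∧ t < t₀ ∧ 0 < σ ∧ 0 < l ∧
      l * (t ^ 2 / 4 + σ ^ 2) = (R - t) * (t / 2) ∧ 0 < R - t - l * (t / 2) ∧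
      R - t - l * (t / 2) < R ∧ l * σ ≤ m * (R - t - l * (t / 2)) ∧ 0 < R - t / 2 ∧
      σ ≤ m * (R - t / 2) ∧ m * R * C < σ * (l / (1 + l) * (c / t)) := by
  obtain ⟨σ, hσ0, hσ1, hσ2⟩ : ∃ σ : ℝ, 0 < σ ∧ σ ≤ m * R / 4 ∧ σ ≤ c / (32 * m * C) :=
    ⟨min (m * R / 4) (c / (32 * m * C)), lt_min (by positivity) (by positivity),
      min_le_left _ _, min_le_right _ _⟩
  obtain ⟨t, ht0, ht1, ht2, ht3, ht4⟩ : ∃ t : ℝ, 0 < t ∧ t ≤ t₀ / 2 ∧ t ≤ R / 2 ∧ t ≤ σ ∧
      t ≤ σ ^ 2 / R := by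
    refine ⟨min (min (t₀ / 2) (R / 2)) (min σ (σ ^ 2 / R)), ?_, ?_, ?_, ?_, ?_⟩
    · exact lt_min (lt_min (by positivity) (by positivity)) (lt_min hσ0 (by positivity))
    · exact (min_le_left _ _).trans (min_le_left _ _)
    · exact (min_le_left _ _).trans (min_le_right _ _)
    · exact (min_le_right _ _).trans (min_le_left _ _)
    · exact (min_le_right _ _).trans (min_le_right _ _)
  have ht4' : t * R ≤ σ ^ 2 := by
    have := mul_le_mul_of_nonneg_right ht4 hR.le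
    rwa [div_mul_cancel₀ _ hR.ne'] at this
  have hN0 : 0 < t ^ 2 / 4 + σ ^ 2 := by positivity
  obtain ⟨N, hN⟩ : ∃ N, N = t ^ 2 / 4 + σ ^ 2 := ⟨_, rfl⟩
  rw [← hN] at hN0
  have hNσ : σ ^ 2 ≤ N := by rw [hN]; nlinarith [sq_nonneg t]
  have hNσ' : N ≤ 2 * σ ^ 2 := by
    have : t ^ 2 ≤ σ ^ 2 := by nlinarith
    rw [hN]; nlinarith
  have htR : 0 < R - t := by linarith
  obtain ⟨l, hl⟩ : ∃ l, l = (R - t) * (t / 2) / N := ⟨_, rfl⟩
  have hl0 : 0 < l := by rw [hl]; positivity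
  have hlN : l * N = (R - t) * (t / 2) := by rw [hl]; field_simp
  have hl1' : l ≤ 1 / 2 := by
    rw [hl, div_le_iff₀ hN0]
    nlinarith
  have h1l : 0 < 1 + l := by linarith
  have hlt : l * (t / 2) ≤ R / 8 := by
    calc l * (t / 2) ≤ 1 / 2 * (R / 4) := by
          apply mul_le_mul hl1' (by linarith) (by linarith) (by norm_num)
      _ = R / 8 := by ring
  have hlt0 : 0 < l * (t / 2) := by positivity
  have hex : R / 4 ≤ R - t - l * (t / 2) := by linarith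
  refine ⟨t, σ, l, ht0, by linarith, hσ0, hl0, by rw [← hN]; exact hlN, by linarith,
    by linarith, ?_, by linarith, ?_, ?_⟩
  · have h1 : l * σ ≤ 1 / 2 * σ := mul_le_mul_of_nonneg_right hl1' hσ0.le
    have h2 : m * (R / 4) ≤ m * (R - t - l * (t / 2)) := mul_le_mul_of_nonneg_left hex hm.le
    linarith
  · have h2 : m * (R / 2) ≤ m * (R - t / 2) := mul_le_mul_of_nonneg_left (by linarith) hm.le
    have h3 : m * R / 4 ≤ m * (R / 2) := by nlinarith [mul_pos hm hR]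
    linarith
  · have h3 : l / 2 ≤ l / (1 + l) := by
      rw [div_le_div_iff₀ (by norm_num) h1l]
      exact mul_le_mul_of_nonneg_left (by linarith) hl0.le
    have h4 : R * t / (8 * σ ^ 2) ≤ l := by
      rw [hl, div_le_div_iff₀ (by positivity) hN0]
      calc R * t * N ≤ R * t * (2 * σ ^ 2) := mul_le_mul_of_nonneg_left hNσ' (by positivity)
        _ = (R / 2) * (t / 2) * (8 * σ ^ 2) := by ring
        _ ≤ (R - t) * (t / 2) * (8 * σ ^ 2) := by
            apply mul_le_mul_of_nonneg_right _ (by positivity)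
            apply mul_le_mul_of_nonneg_right _ (by positivity)
            linarith
    have h5 : R * t / (16 * σ ^ 2) ≤ l / (1 + l) := by
      have : R * t / (16 * σ ^ 2) = (R * t / (8 * σ ^ 2)) / 2 := by
        field_simp
        norm_num
      rw [this]
      linarith
    have h6 : c * R / (16 * σ) ≤ σ * (l / (1 + l) * (c / t)) := by
      calc c * R / (16 * σ) = σ * (R * t / (16 * σ ^ 2) * (c / t)) := by
            field_simp
        _ ≤ σ * (l / (1 + l) * (c / t)) := by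
            apply mul_le_mul_of_nonneg_left _ hσ0.le
            exact mul_le_mul_of_nonneg_right h5 (by positivity)
    refine lt_of_lt_of_le ?_ h6
    rw [lt_div_iff₀ (by positivity)]
    have h10 : σ * (32 * m * C) ≤ c := by
      rwa [le_div_iff₀ (by positivity)] at hσ2
    have h11 : m * R * C * (16 * σ) = R / 2 * (σ * (32 * m * C)) := by ring
    have h12 : R / 2 * (σ * (32 * m * C)) ≤ R / 2 * c := mul_le_mul_of_nonneg_left h10 (by positivity)
    have h13 : 0 < R * c := mul_pos hR hc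
    rw [h11]
    linarith

/-- **the plane lemma** -/
theorem plane_contradiction {R m c C t₀ : ℝ} (hR : 0 < R) (hm : 0 < m) (hc : 0 < c)
    (ht₀ : 0 < t₀) (f : ℝ → ℝ → ℝ) (hconv : PlaneConv R m f)
    (hblow : ∀ t, 0 < t → t < t₀ → c / t ≤ f (R - t) 0)
    (hbd : ∀ t, 0 < t → t < t₀ → f (R - t) (m * (R - t)) ≤ C) : False := by
  obtain ⟨C', hC'0, hCC'⟩ : ∃ C', 0 < C' ∧ C ≤ C' := ⟨max C 1, lt_max_of_lt_right one_pos,
    le_max_left _ _⟩
  obtain ⟨t, σ, l, ht0, htt₀, hσ0, hl0, hlN, hex0, hexR, hlσ, hbx0, hσb, hfin⟩ :=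
    choose_params hR hm hc hC'0 ht₀
  have hbxR : R - t / 2 < R := by linarith
  have h1 := tilted hconv hσ0 hl0 hlN hex0 hexR hlσ hbx0 hbxR hσb
  have h2 := horizontal hm hconv hbx0 hbxR hσ0 hσb
  have h3 := hblow t ht0 htt₀
  have h4 := hbd (t / 2) (by linarith) (by linarith)
  have hl1 : 0 < l / (1 + l) := div_pos hl0 (by linarith)
  have h5 : σ * (l / (1 + l) * (c / t)) ≤ σ * f (R - t / 2) σ :=
    mul_le_mul_of_nonneg_left ((mul_le_mul_of_nonneg_left h3 hl1.le).trans h1) hσ0.le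
  have h6 : (m * (R - t / 2)) * f (R - t / 2) (m * (R - t / 2)) ≤ m * R * C' := by
    have hp : 0 < m * (R - t / 2) := mul_pos hm hbx0
    calc (m * (R - t / 2)) * f (R - t / 2) (m * (R - t / 2))
        ≤ (m * (R - t / 2)) * C' := mul_le_mul_of_nonneg_left (h4.trans hCC') hp.le
      _ ≤ (m * R) * C' := by
          apply mul_le_mul_of_nonneg_right _ hC'0.le
          exact mul_le_mul_of_nonneg_left hbxR.le hm.le
  linarith

end Crest.Agent.R226.StepJ2D416
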