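import Crest.Agent.R226.StepJ2D_416

/-!
R226, layer D, task D5 (step J), helper416: the abstract inner-product-space part.
-/

set_option autoImplicit false

open Set Filter
open scoped Topology

namespace Crest.Agent.R226.StepJA416

open StepJ2D416

variable {V : Type*} [NormedAddCommGroup V] [InnerProductSpace ℝ V]

/-- the concavity hypothesis, at a fixed base point -/
def ConcHyp (I : Set V) (φ : V → V → ℝ) : Prop :=
  ∀ p q ξ : V, segment ℝ p q ⊆ I → inner ℝ (q - p) ξ = 0 →
    ∀ t : ℝ, 0 ≤ t → t ≤ 1 → (1 - t) * φ ξ p + t * φ ξ q ≤ φ ξ ((1 - t) • p + t • q)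

/-- the blow-up hypothesis -/
def Blow (φ : V → V → ℝ) (p k : V) : Prop :=
  ∃ C c r₁ : ℝ, 0 < c ∧ r₁ < 1 ∧ ∀ r : ℝ, r₁ < r → r < 1 → ∀ ξ : V,
    φ ξ (r • p) ≤ C * ‖ξ‖ ^ 2 - c * (inner ℝ ξ k) ^ 2 / (1 - r)

/-- The blow-up direction lies in the span of the differences. -/
theorem mem_span {ι : Type*} [Fintype ι] {I : Set V} {φ : V → V → ℝ}
    (hcont : ∀ ξ, ContinuousOn (φ ξ) I) (hIo : IsOpen I) (hconc : ConcHyp I φ)
    (z : ι → V) (θ : ι → ℝ) (hθ : ∀ i, 0 ≤ θ i) (hθ1 : ∑ i, θ i = 1) {p : V}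
    (hp : ∑ i, θ i • z i = p) (hz : ∀ i, z i ∈ I)
    (hI : ∀ r : ℝ, 0 < r → r < 1 → convexHull ℝ (range fun i => r • z i) ⊆ I)
    {k : V} (hblow : Blow φ p k) : k ∈ Submodule.span ℝ (range fun i => z i - p) := by
  by_contra hk
  obtain ⟨C, c, r₁, hc, hr₁, hblow⟩ := hblow
  set U := Submodule.span ℝ (range fun i => z i - p) with hU
  haveI : FiniteDimensional ℝ U := FiniteDimensional.span_of_finite ℝ (Set.finite_range _)
  haveI : CompleteSpace U := FiniteDimensional.complete ℝ U
  -- the orthogonal component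
  obtain ⟨ξ, hξdef⟩ : ∃ ξ, ξ = k - U.starProjection k := ⟨_, rfl⟩
  have hξU : ∀ v ∈ U, inner ℝ v ξ = 0 := by
    intro v hv
    have h := U.sub_starProjection_mem_orthogonal k
    rw [← hξdef, Submodule.mem_orthogonal] at h
    exact h v hv
  have hξ0 : ξ ≠ 0 := by
    intro h0
    apply hk
    have : k = U.starProjection k := by
      rw [h0] at hξdef
      exact (sub_eq_zero.1 hξdef.symm)
    rw [this]
    exact U.starProjection_apply_mem k
  have hξk : inner ℝ ξ k = ‖ξ‖ ^ 2 := by
    have h1 : k = ξ + U.starProjection k := by rw [hξdef]; abel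
    have h2 : inner ℝ ξ (U.starProjection k) = 0 := by
      rw [real_inner_comm]
      exact hξU _ (U.starProjection_apply_mem k)
    calc inner ℝ ξ k = inner ℝ ξ (ξ + U.starProjection k) := by rw [← h1]
      _ = ‖ξ‖ ^ 2 := by rw [inner_add_right, h2, add_zero, real_inner_self_eq_norm_sq]
  have hξn : 0 < ‖ξ‖ := norm_pos_iff.2 hξ0
  -- Jensen
  have hJ : ∀ r : ℝ, 0 < r → r < 1 → ∑ i, θ i * φ ξ (r • z i) ≤ φ ξ (r • p) := by
    intro r hr0 hr1
    have hcv : ConcaveOn ℝ (convexHull ℝ (range fun i => r • z i)) (φ ξ) := by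
      refine ⟨convex_convexHull ℝ _, ?_⟩
      intro a ha b hb α β hα hβ hαβ
      have hseg : segment ℝ a b ⊆ I :=
        ((convex_convexHull ℝ _).segment_subset ha hb).trans (hI r hr0 hr1)
      have hperp : inner ℝ (b - a) ξ = 0 := by
        -- elements of the hull are in `r • p + U`
        have key : ∀ v ∈ convexHull ℝ (range fun i => r • z i), inner ℝ (v - r • p) ξ = 0 := by
          intro v hv
          have hsub : convexHull ℝ (range fun i => r • z i) ⊆
              {v | inner ℝ (v - r • p) ξ = 0} := by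
            apply convexHull_min
            · rintro _ ⟨i, rfl⟩
              simp only [Set.mem_setOf_eq]
              rw [← smul_sub, real_inner_smul_left,
                hξU _ (Submodule.subset_span (mem_range_self i)), mul_zero]
            · intro v hv w hw α β hα hβ hαβ
              simp only [Set.mem_setOf_eq] at hv hw ⊢
              have : α • v + β • w - r • p = α • (v - r • p) + β • (w - r • p) := by
                rw [smul_sub, smul_sub]
                have : r • p = α • r • p + β • r • p := by rw [← add_smul, hαβ, one_smul]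
                nth_rewrite 1 [this]
                abel
              rw [this, inner_add_left, real_inner_smul_left, real_inner_smul_left, hv, hw]
              ring
          exact hsub hv
        have : b - a = (b - r • p) - (a - r • p) := by abel
        rw [this, inner_sub_left, key b hb, key a ha, sub_zero]
      have hβ1 : β ≤ 1 := by linarith
      have := hconc a b ξ hseg hperp β hβ hβ1
      have hα' : 1 - β = α := by linarith
      rw [hα'] at this
      simpa [smul_eq_mul] using this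
    have h := hcv.le_map_sum (t := Finset.univ) (w := θ) (p := fun i => r • z i)
      (fun i _ => hθ i) hθ1 (fun i _ => subset_convexHull ℝ _ (mem_range_self i))
    have e : ∑ i, θ i • r • z i = r • p := by
      rw [← hp, Finset.smul_sum]
      exact Finset.sum_congr rfl fun i _ => smul_comm _ _ _
    rw [e] at h
    simpa [smul_eq_mul] using h
  -- limit
  have hlim : Tendsto (fun r : ℝ => ∑ i, θ i * φ ξ (r • z i)) (𝓝[<] 1)
      (𝓝 (∑ i, θ i * φ ξ (z i))) := by
    apply tendsto_finset_sum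
    intro i _
    apply Tendsto.const_mul
    have h1 : ContinuousAt (φ ξ) (z i) := (hcont ξ).continuousAt (hIo.mem_nhds (hz i))
    have h2 : Tendsto (fun r : ℝ => r • z i) (𝓝[<] 1) (𝓝 (z i)) := by
      have : Tendsto (fun r : ℝ => r • z i) (𝓝 1) (𝓝 ((1 : ℝ) • z i)) :=
        (continuous_id.smul continuous_const).tendsto 1
      rw [one_smul] at this
      exact this.mono_left nhdsWithin_le_nhds
    exact h1.tendsto.comp h2
  have hbot : Tendsto (fun r : ℝ => C * ‖ξ‖ ^ 2 - c * (inner ℝ ξ k) ^ 2 / (1 - r)) (𝓝[<] 1)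
      atBot := by
    have h1 : Tendsto (fun r : ℝ => (1 - r)) (𝓝[<] 1) (𝓝[>] 0) := by
      rw [tendsto_nhdsWithin_iff]
      refine ⟨?_, ?_⟩
      · have : Tendsto (fun r : ℝ => 1 - r) (𝓝 1) (𝓝 (1 - 1)) :=
          (continuous_const.sub continuous_id).tendsto 1
        rw [sub_self] at this
        exact this.mono_left nhdsWithin_le_nhds
      · filter_upwards [self_mem_nhdsWithin] with r hr
        simpa using hr
    have h2 : Tendsto (fun r : ℝ => (1 - r)⁻¹) (𝓝[<] 1) atTop := tendsto_inv_nhdsGT_zero.comp h1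
    have h3 : 0 < c * (inner ℝ ξ k) ^ 2 := by rw [hξk]; positivity
    have h4 := h2.const_mul_atTop h3
    have h5 : Tendsto (fun r : ℝ => C * ‖ξ‖ ^ 2 - c * (inner ℝ ξ k) ^ 2 * (1 - r)⁻¹) (𝓝[<] 1)
        atBot := by
      simp only [sub_eq_add_neg]
      exact tendsto_atBot_add_const_left _ _ (tendsto_neg_atTop_atBot.comp h4)
    simpa [div_eq_mul_inv] using h5
  have hev : ∀ᶠ r : ℝ in 𝓝[<] 1, ∑ i, θ i * φ ξ (r • z i) ≤
      C * ‖ξ‖ ^ 2 - c * (inner ℝ ξ k) ^ 2 / (1 - r) := by
    have hmem : Ioo (max 0 r₁) 1 ∈ 𝓝[<] (1 : ℝ) := Ioo_mem_nhdsLT (max_lt one_pos hr₁)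
    filter_upwards [hmem] with r hr
    have hr0 : 0 < r := (le_max_left _ _).trans_lt hr.1
    have hrr : r₁ < r := (le_max_right _ _).trans_lt hr.1
    exact (hJ r hr0 hr.2).trans (hblow r hrr hr.2 ξ)
  have : Tendsto (fun r : ℝ => ∑ i, θ i * φ ξ (r • z i)) (𝓝[<] 1) atBot :=
    tendsto_atBot_mono' _ hev hbot
  exact not_tendsto_nhds_of_tendsto_atBot this _ hlim

/-- if `k` is in the span of the `z i - p` then `p ± σ k` is in the hull for small `σ`. -/
theorem exists_sigma {ι : Type*} [Fintype ι] (z : ι → V) (θ : ι → ℝ) (hθ : ∀ i, 0 < θ i)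
    (hθ1 : ∑ i, θ i = 1) {p : V} (hp : ∑ i, θ i • z i = p) {k : V}
    (hk : k ∈ Submodule.span ℝ (range fun i => z i - p)) :
    ∃ σ : ℝ, 0 < σ ∧ ∀ τ : ℝ, |τ| ≤ σ → p + τ • k ∈ convexHull ℝ (range z) := by
  rw [Submodule.mem_span_range_iff_exists_fun] at hk
  obtain ⟨a, ha⟩ := hk
  -- the coefficients
  set S := ∑ i, a i with hS
  have hcoef : ∀ τ : ℝ, p + τ • k = ∑ i, (θ i + τ * (a i - S * θ i)) • z i := by
    intro τ
    have h1 : k = ∑ i, a i • z i - S • p := by
      rw [← ha]
      simp only [smul_sub, Finset.sum_sub_distrib, hS, Finset.sum_smul]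
    have h2 : ∑ i, (θ i + τ * (a i - S * θ i)) • z i =
        ∑ i, θ i • z i + τ • (∑ i, a i • z i - S • ∑ i, θ i • z i) := by
      simp only [add_smul, mul_smul, sub_smul, Finset.sum_add_distrib, smul_sub,
        Finset.sum_sub_distrib, Finset.smul_sum]
    rw [h2, hp, ← h1]
  have hsum : ∀ τ : ℝ, ∑ i, (θ i + τ * (a i - S * θ i)) = 1 := by
    intro τ
    rw [Finset.sum_add_distrib, ← Finset.mul_sum, Finset.sum_sub_distrib, ← Finset.mul_sum, hθ1]
    simp [hS]
  -- nonnegativity for small τ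
  have hev : ∀ᶠ σ : ℝ in 𝓝[>] 0, ∀ i, σ * |a i - S * θ i| ≤ θ i := by
    rw [eventually_all]
    intro i
    have : Tendsto (fun σ : ℝ => σ * |a i - S * θ i|) (𝓝[>] 0) (𝓝 (0 * |a i - S * θ i|)) :=
      ((continuous_id.mul continuous_const).tendsto 0).mono_left nhdsWithin_le_nhds
    rw [zero_mul] at this
    exact (this.eventually (gt_mem_nhds (hθ i))).mono fun _ h => le_of_lt h
  obtain ⟨σ, hσ, hσ0⟩ := (hev.and self_mem_nhdsWithin).exists
  refine ⟨σ, hσ0, fun τ hτ => ?_⟩
  rw [hcoef τ]
  apply (convex_convexHull ℝ (range z)).sum_mem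
  · intro i _
    have h1 : |τ * (a i - S * θ i)| ≤ θ i := by
      rw [abs_mul]
      exact (mul_le_mul_of_nonneg_right hτ (abs_nonneg _)).trans (hσ i)
    have := neg_abs_le (τ * (a i - S * θ i))
    linarith
  · exact hsum τ
  · intro i _
    exact subset_convexHull ℝ _ (mem_range_self i)

end Crest.Agent.R226.StepJA416
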