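import Crest.Agent.R226.StepJA_416

/-!
R226, layer D, task D5 (step J), helper416: the plane spanned by `p` and the focal direction `k`,
and the abstract form of step (J).
-/

set_option autoImplicit false

open Set Filter
open scoped Topology

namespace Crest.Agent.R226.StepJB416

open StepJ2D416 StepJA416

variable {V : Type*} [NormedAddCommGroup V] [InnerProductSpace ℝ V]

/-- the plane parametrised by coordinates -/
noncomputable def pl (p k : V) (x y : ℝ) : V := (x / ‖p‖) • p + y • k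

/-- the function `f` of step (J) in the coordinates of the plane -/
noncomputable def ff (φ : V → V → ℝ) (p k : V) (x y : ℝ) : ℝ :=
  (x ^ 2 + y ^ 2 - φ (pl p k (-y) x) (pl p k x y)) / (x ^ 2 + y ^ 2) ^ 2

section
variable {p k : V}

lemma inner_pl (hp : p ≠ 0) (hk1 : ‖k‖ = 1) (hkp : inner ℝ k p = 0) (x y x' y' : ℝ) :
    inner ℝ (pl p k x y) (pl p k x' y') = x * x' + y * y' := by
  have hR : ‖p‖ ≠ 0 := norm_ne_zero_iff.2 hp
  have hpk : inner ℝ p k = 0 := by rw [real_inner_comm]; exact hkp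
  unfold pl
  simp only [inner_add_left, inner_add_right, real_inner_smul_left, real_inner_smul_right, hkp, hpk,
    real_inner_self_eq_norm_sq, hk1]
  field_simp
  ring

lemma norm_pl_sq (hp : p ≠ 0) (hk1 : ‖k‖ = 1) (hkp : inner ℝ k p = 0) (x y : ℝ) :
    ‖pl p k x y‖ ^ 2 = x ^ 2 + y ^ 2 := by
  rw [← real_inner_self_eq_norm_sq, inner_pl hp hk1 hkp]; ring

lemma pl_add (p k : V) (a b x y x' y' : ℝ) :
    pl p k (a * x + b * x') (a * y + b * y') = a • pl p k x y + b • pl p k x' y' := by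
  unfold pl
  simp only [smul_add, smul_smul, add_div, add_smul]
  have e1 : a * x / ‖p‖ = a * (x / ‖p‖) := by ring
  have e2 : b * x' / ‖p‖ = b * (x' / ‖p‖) := by ring
  rw [e1, e2]
  abel

lemma pl_norm (hp : p ≠ 0) : pl p k ‖p‖ 0 = p := by
  unfold pl
  rw [div_self (norm_ne_zero_iff.2 hp), one_smul, zero_smul, add_zero]

/-- the formula `φ_ξ(q) = |ξ|² - ⟪ξ,Jq⟫² f(q)` -/
lemma phi_formula {I : Set V} {φ : V → V → ℝ} (hp : p ≠ 0) (hk1 : ‖k‖ = 1)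
    (hkp : inner ℝ k p = 0)
    (hsmul : ∀ v ∈ I, ∀ ξ : V, ∀ t : ℝ, φ (t • ξ) v = t ^ 2 * φ ξ v)
    (hgauss : ∀ q ∈ I, ∀ η : V, inner ℝ q η = 0 → ∀ a : ℝ,
      φ (a • q + η) q = a ^ 2 * ‖q‖ ^ 2 + φ η q)
    {x y : ℝ} (hq : pl p k x y ∈ I) (hxy : 0 < x ^ 2 + y ^ 2) (u v : ℝ) :
    φ (pl p k u v) (pl p k x y) = u ^ 2 + v ^ 2 - (-y * u + x * v) ^ 2 * ff φ p k x y := by
  have hN : x ^ 2 + y ^ 2 ≠ 0 := hxy.ne'
  obtain ⟨a, ha⟩ : ∃ a, a = (u * x + v * y) / (x ^ 2 + y ^ 2) := ⟨_, rfl⟩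
  obtain ⟨b, hb⟩ : ∃ b, b = (-y * u + x * v) / (x ^ 2 + y ^ 2) := ⟨_, rfl⟩
  have hu : u = a * x + b * (-y) := by
    rw [ha, hb]; field_simp; ring
  have hv : v = a * y + b * x := by
    rw [ha, hb]; field_simp; ring
  have e1 : pl p k u v = a • pl p k x y + b • pl p k (-y) x := by
    rw [← pl_add, ← hu, ← hv]
  have hperp : inner ℝ (pl p k x y) (b • pl p k (-y) x) = 0 := by
    rw [real_inner_smul_right, inner_pl hp hk1 hkp]; ring
  rw [e1, hgauss _ hq _ hperp, hsmul _ hq, norm_pl_sq hp hk1 hkp]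
  have hf : φ (pl p k (-y) x) (pl p k x y) =
      (x ^ 2 + y ^ 2) - (x ^ 2 + y ^ 2) ^ 2 * ff φ p k x y := by
    unfold ff
    field_simp
    ring
  rw [hf]
  have hbN : b * (x ^ 2 + y ^ 2) = -y * u + x * v := by rw [hb]; field_simp
  have h3 : b ^ 2 * ((x ^ 2 + y ^ 2) ^ 2 * ff φ p k x y) =
      (-y * u + x * v) ^ 2 * ff φ p k x y := by
    rw [← hbN]; ring
  have h4 : a ^ 2 * (x ^ 2 + y ^ 2) + b ^ 2 * (x ^ 2 + y ^ 2) = u ^ 2 + v ^ 2 := by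
    rw [hu, hv]; ring
  linear_combination h4 - h3

/-- the triangle lies in `I` -/
lemma pl_mem {I : Set V} (hp : p ≠ 0) {σ : ℝ}
    (hT : ∀ τ : ℝ, |τ| ≤ σ → ∀ r : ℝ, 0 ≤ r → r < 1 → r • (p + τ • k) ∈ I)
    {x y : ℝ} (hx : 0 < x) (hxR : x < ‖p‖) (hy : |y| ≤ σ / ‖p‖ * x) : pl p k x y ∈ I := by
  have hR : 0 < ‖p‖ := norm_pos_iff.2 hp
  have h := hT (y * ‖p‖ / x) (by
    rw [abs_div, abs_mul, abs_of_pos hx, abs_of_pos hR, div_le_iff₀ hx]
    calc |y| * ‖p‖ ≤ σ / ‖p‖ * x * ‖p‖ := mul_le_mul_of_nonneg_right hy hR.le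
      _ = σ * x := by field_simp) (x / ‖p‖) (by positivity) ((div_lt_one hR).2 hxR)
  have e : (x / ‖p‖) • (p + (y * ‖p‖ / x) • k) = pl p k x y := by
    unfold pl
    rw [smul_add, smul_smul]
    congr 2
    field_simp
  rwa [e] at h

/-- the convexity hypothesis of the plane lemma holds -/
lemma planeConv_ff {I : Set V} {φ : V → V → ℝ} (hp : p ≠ 0) (hk1 : ‖k‖ = 1)
    (hkp : inner ℝ k p = 0)
    (hsmul : ∀ v ∈ I, ∀ ξ : V, ∀ t : ℝ, φ (t • ξ) v = t ^ 2 * φ ξ v)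
    (hgauss : ∀ q ∈ I, ∀ η : V, inner ℝ q η = 0 → ∀ a : ℝ,
      φ (a • q + η) q = a ^ 2 * ‖q‖ ^ 2 + φ η q)
    (hconc : ConcHyp I φ) {σ : ℝ}
    (hT : ∀ τ : ℝ, |τ| ≤ σ → ∀ r : ℝ, 0 ≤ r → r < 1 → r • (p + τ • k) ∈ I) :
    PlaneConv ‖p‖ (σ / ‖p‖) (ff φ p k) := by
  intro x₀ y₀ x₁ y₁ hx₀ hx₀R hy₀ hx₁ hx₁R hy₁
  obtain ⟨dx, hdx⟩ : ∃ dx, dx = x₁ - x₀ := ⟨_, rfl⟩
  obtain ⟨dy, hdy⟩ : ∃ dy, dy = y₁ - y₀ := ⟨_, rfl⟩
  rw [← hdx, ← hdy]
  -- points of the segment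
  have hpt : ∀ τ ∈ Icc (0 : ℝ) 1, 0 < x₀ + τ * dx ∧ x₀ + τ * dx < ‖p‖ ∧
      |y₀ + τ * dy| ≤ σ / ‖p‖ * (x₀ + τ * dx) := by
    intro τ hτ
    have e1 : x₀ + τ * dx = (1 - τ) * x₀ + τ * x₁ := by rw [hdx]; ring
    have e2 : y₀ + τ * dy = (1 - τ) * y₀ + τ * y₁ := by rw [hdy]; ring
    have h0 : 0 ≤ 1 - τ := by linarith [hτ.2]
    rw [e1, e2]
    refine ⟨?_, ?_, ?_⟩
    · rcases hτ.1.eq_or_lt with h | h
      · rw [← h]; simpa using hx₀
      · have := mul_nonneg h0 hx₀.le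
        have := mul_pos h hx₁
        linarith
    · rcases hτ.1.eq_or_lt with h | h
      · rw [← h]; simpa using hx₀R
      · have h1 := mul_le_mul_of_nonneg_left hx₀R.le h0
        have h2 := mul_lt_mul_of_pos_left hx₁R h
        nlinarith
    · calc |(1 - τ) * y₀ + τ * y₁| ≤ |(1 - τ) * y₀| + |τ * y₁| := abs_add_le _ _
        _ = (1 - τ) * |y₀| + τ * |y₁| := by
            rw [abs_mul, abs_mul, abs_of_nonneg h0, abs_of_nonneg hτ.1]
        _ ≤ (1 - τ) * (σ / ‖p‖ * x₀) + τ * (σ / ‖p‖ * x₁) :=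
            add_le_add (mul_le_mul_of_nonneg_left hy₀ h0) (mul_le_mul_of_nonneg_left hy₁ hτ.1)
        _ = _ := by ring
  have hmemI : ∀ τ ∈ Icc (0 : ℝ) 1, pl p k (x₀ + τ * dx) (y₀ + τ * dy) ∈ I := fun τ hτ =>
    pl_mem hp hT (hpt τ hτ).1 (hpt τ hτ).2.1 (hpt τ hτ).2.2
  -- formula
  have hform : ∀ τ ∈ Icc (0 : ℝ) 1,
      ((x₀ + τ * dx) * dx + (y₀ + τ * dy) * dy) ^ 2 *
        ff φ p k (x₀ + τ * dx) (y₀ + τ * dy) =
      dx ^ 2 + dy ^ 2 - φ (pl p k (-dy) dx) (pl p k (x₀ + τ * dx) (y₀ + τ * dy)) := by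
    intro τ hτ
    have hpos : 0 < (x₀ + τ * dx) ^ 2 + (y₀ + τ * dy) ^ 2 := by
      have := (hpt τ hτ).1
      positivity
    rw [phi_formula hp hk1 hkp hsmul hgauss (hmemI τ hτ) hpos]
    ring
  refine ⟨convex_Icc 0 1, ?_⟩
  intro a ha b hb α β hα hβ hαβ
  have hab : α * a + β * b ∈ Icc (0 : ℝ) 1 := (convex_Icc 0 1) ha hb hα hβ hαβ
  simp only [smul_eq_mul]
  rw [hform _ ha, hform _ hb, hform _ hab]
  have hα1 : α = 1 - β := by linarith
  -- concavity along the sub-segment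
  have hlin : ∀ τ τ' s : ℝ, pl p k (x₀ + ((1 - s) * τ + s * τ') * dx)
      (y₀ + ((1 - s) * τ + s * τ') * dy) =
      (1 - s) • pl p k (x₀ + τ * dx) (y₀ + τ * dy) + s • pl p k (x₀ + τ' * dx) (y₀ + τ' * dy) := by
    intro τ τ' s
    rw [← pl_add]
    congr 1 <;> ring
  have hseg : segment ℝ (pl p k (x₀ + a * dx) (y₀ + a * dy))
      (pl p k (x₀ + b * dx) (y₀ + b * dy)) ⊆ I := by
    rintro _ ⟨α', β', hα', hβ', hαβ', rfl⟩
    have e : α' = 1 - β' := by linarith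
    rw [e, ← hlin]
    apply hmemI
    have := (convex_Icc (0 : ℝ) 1) ha hb hα' hβ' hαβ'
    rw [e] at this
    simpa using this
  have hperp : inner ℝ (pl p k (x₀ + b * dx) (y₀ + b * dy) - pl p k (x₀ + a * dx) (y₀ + a * dy))
      (pl p k (-dy) dx) = 0 := by
    rw [inner_sub_left, inner_pl hp hk1 hkp, inner_pl hp hk1 hkp]
    ring
  have h := hconc _ _ _ hseg hperp β hβ (by linarith)
  rw [← hlin, ← hα1] at h
  have : α * (dx ^ 2 + dy ^ 2 - φ (pl p k (-dy) dx) (pl p k (x₀ + a * dx) (y₀ + a * dy))) +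
      β * (dx ^ 2 + dy ^ 2 - φ (pl p k (-dy) dx) (pl p k (x₀ + b * dx) (y₀ + b * dy))) =
      (dx ^ 2 + dy ^ 2) - (α * φ (pl p k (-dy) dx) (pl p k (x₀ + a * dx) (y₀ + a * dy)) +
        β * φ (pl p k (-dy) dx) (pl p k (x₀ + b * dx) (y₀ + b * dy))) := by
    have : (α + β) * (dx ^ 2 + dy ^ 2) = dx ^ 2 + dy ^ 2 := by rw [hαβ, one_mul]
    linear_combination this
  rw [this]
  linarith

/-- **the plane argument** -/
theorem plane_false {I : Set V} {φ : V → V → ℝ} (hp : p ≠ 0) (hk1 : ‖k‖ = 1)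
    (hkp : inner ℝ k p = 0) (hIo : IsOpen I)
    (hcont : ContinuousOn (fun q : V × V => φ q.1 q.2) {q | q.2 ∈ I})
    (hsmul : ∀ v ∈ I, ∀ ξ : V, ∀ t : ℝ, φ (t • ξ) v = t ^ 2 * φ ξ v)
    (hgauss : ∀ q ∈ I, ∀ η : V, inner ℝ q η = 0 → ∀ a : ℝ,
      φ (a • q + η) q = a ^ 2 * ‖q‖ ^ 2 + φ η q)
    (hconc : ConcHyp I φ) {σ : ℝ} (hσ : 0 < σ)
    (hT : ∀ τ : ℝ, |τ| ≤ σ → ∀ r : ℝ, 0 ≤ r → r < 1 → r • (p + τ • k) ∈ I)
    (hend : p + σ • k ∈ I) (hblow : Blow φ p k) : False := by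
  have hR : 0 < ‖p‖ := norm_pos_iff.2 hp
  have hm : 0 < σ / ‖p‖ := div_pos hσ hR
  have hPC := planeConv_ff hp hk1 hkp hsmul hgauss hconc hT
  obtain ⟨C, c, r₁, hc, hr₁, hbl⟩ := hblow
  -- boundedness near the corner
  have hcorner : pl p k ‖p‖ (σ / ‖p‖ * ‖p‖) = p + σ • k := by
    unfold pl
    rw [div_self hR.ne', one_smul, div_mul_cancel₀ _ hR.ne']
  have hcontpl : Continuous fun t : ℝ => pl p k (‖p‖ - t) (σ / ‖p‖ * (‖p‖ - t)) := by
    unfold pl; fun_prop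
  have hcontpl' : Continuous fun t : ℝ => pl p k (-(σ / ‖p‖ * (‖p‖ - t))) (‖p‖ - t) := by
    unfold pl; fun_prop
  have hffc : ContinuousAt (fun t : ℝ => ff φ p k (‖p‖ - t) (σ / ‖p‖ * (‖p‖ - t))) 0 := by
    unfold ff
    apply ContinuousAt.div
    · apply ContinuousAt.sub (by fun_prop)
      have h1 : ContinuousAt (fun q : V × V => φ q.1 q.2)
          (pl p k (-(σ / ‖p‖ * (‖p‖ - 0))) (‖p‖ - 0), pl p k (‖p‖ - 0) (σ / ‖p‖ * (‖p‖ - 0))) := by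
        apply hcont.continuousAt
        apply (hIo.preimage continuous_snd).mem_nhds
        simp only [mem_preimage, sub_zero]
        rw [hcorner]; exact hend
      exact ContinuousAt.comp (f := fun t : ℝ =>
        (pl p k (-(σ / ‖p‖ * (‖p‖ - t))) (‖p‖ - t), pl p k (‖p‖ - t) (σ / ‖p‖ * (‖p‖ - t))))
        h1 (hcontpl'.prodMk hcontpl).continuousAt
    · fun_prop
    · simp only [sub_zero]
      positivity
  obtain ⟨B, hB⟩ : ∃ B, B = ff φ p k (‖p‖ - 0) (σ / ‖p‖ * (‖p‖ - 0)) + 1 := ⟨_, rfl⟩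
  have hev1 : ∀ᶠ t : ℝ in 𝓝[>] 0, ff φ p k (‖p‖ - t) (σ / ‖p‖ * (‖p‖ - t)) ≤ B := by
    have : ∀ᶠ t : ℝ in 𝓝 0, ff φ p k (‖p‖ - t) (σ / ‖p‖ * (‖p‖ - t)) < B :=
      hffc.eventually_lt continuousAt_const (by rw [hB]; linarith)
    exact (this.filter_mono nhdsWithin_le_nhds).mono fun _ h => h.le
  -- blow up on the axis
  have hev2 : ∀ᶠ t : ℝ in 𝓝[>] 0, c / (2 * ‖p‖) / t ≤ ff φ p k (‖p‖ - t) 0 := by
    have hmem : Ioo (0 : ℝ) (min (‖p‖ * (1 - r₁)) (min ‖p‖ (c * ‖p‖ / (2 * (|C| + 1))))) ∈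
        𝓝[>] (0 : ℝ) := by
      apply Ioo_mem_nhdsGT
      apply lt_min
      · apply mul_pos hR; linarith
      · apply lt_min hR; positivity
    filter_upwards [hmem] with t ht
    have ht0 : 0 < t := ht.1
    have ht1 : t < ‖p‖ * (1 - r₁) := ht.2.trans_le (min_le_left _ _)
    have ht2 : t < ‖p‖ := ht.2.trans_le ((min_le_right _ _).trans (min_le_left _ _))
    have ht3 : t < c * ‖p‖ / (2 * (|C| + 1)) :=
      ht.2.trans_le ((min_le_right _ _).trans (min_le_right _ _))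
    obtain ⟨x, hx⟩ : ∃ x, x = ‖p‖ - t := ⟨_, rfl⟩
    have hx0 : 0 < x := by rw [hx]; linarith
    rw [← hx]
    have hq : pl p k x 0 = (1 - t / ‖p‖) • p := by
      unfold pl
      rw [zero_smul, add_zero, hx, sub_div, div_self hR.ne']
    have hr1 : 1 - t / ‖p‖ < 1 := by
      have : 0 < t / ‖p‖ := div_pos ht0 hR
      linarith
    have hrr : r₁ < 1 - t / ‖p‖ := by
      have : t / ‖p‖ < 1 - r₁ := by rw [div_lt_iff₀ hR]; linarith
      linarith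
    have hqI : pl p k x 0 ∈ I := by
      apply pl_mem hp hT hx0 (by rw [hx]; linarith)
      rw [abs_zero]; positivity
    have hb := hbl (1 - t / ‖p‖) hrr hr1 (pl p k (-0) x)
    have hnorm : ‖pl p k (-0) x‖ ^ 2 = x ^ 2 := by
      rw [norm_pl_sq hp hk1 hkp]; ring
    have hin : inner ℝ (pl p k (-0) x) k = x := by
      unfold pl
      rw [neg_zero, zero_div, zero_smul, zero_add, real_inner_smul_left,
        real_inner_self_eq_norm_sq, hk1]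
      ring
    have e1 : 1 - (1 - t / ‖p‖) = t / ‖p‖ := by ring
    rw [hnorm, hin, e1, ← hq] at hb
    have hff : ff φ p k x 0 = (x ^ 2 - φ (pl p k (-0) x) (pl p k x 0)) / (x ^ 2) ^ 2 := by
      unfold ff
      simp
    rw [hff, le_div_iff₀ (by positivity)]
    -- goal: c/(2‖p‖)/t * (x^2)^2 ≤ x^2 - φ
    have h1 : x ^ 2 - C * x ^ 2 + c * x ^ 2 * (‖p‖ / t) ≤ x ^ 2 - φ (pl p k (-0) x) (pl p k x 0) := by
      have e2 : c * x ^ 2 / (t / ‖p‖) = c * x ^ 2 * (‖p‖ / t) := by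
        field_simp
      rw [e2] at hb
      linarith
    refine le_trans ?_ h1
    have hxR : x ^ 2 ≤ ‖p‖ ^ 2 := by
      have : x ≤ ‖p‖ := by rw [hx]; linarith
      exact pow_le_pow_left₀ hx0.le this 2
    have h2 : c / (2 * ‖p‖) / t * (x ^ 2) ^ 2 ≤ c * x ^ 2 * (‖p‖ / t) / 2 := by
      have e3 : c / (2 * ‖p‖) / t * (x ^ 2) ^ 2 = (c * x ^ 2 / (2 * ‖p‖ * t)) * x ^ 2 := by
        field_simp
      have e4 : c * x ^ 2 * (‖p‖ / t) / 2 = (c * x ^ 2 / (2 * ‖p‖ * t)) * ‖p‖ ^ 2 := by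
        field_simp
      rw [e3, e4]
      exact mul_le_mul_of_nonneg_left hxR (by positivity)
    have h3 : (|C| + 1) ≤ c * (‖p‖ / t) / 2 := by
      rw [lt_div_iff₀ (by positivity)] at ht3
      have e5 : c * (‖p‖ / t) / 2 = c * ‖p‖ / (2 * t) := by field_simp
      rw [e5, le_div_iff₀ (by positivity)]
      linarith
    have h4 : (C - 1) * x ^ 2 ≤ (|C| + 1) * x ^ 2 := by
      apply mul_le_mul_of_nonneg_right _ (by positivity)
      linarith [le_abs_self C]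
    have h5 : (|C| + 1) * x ^ 2 ≤ c * (‖p‖ / t) / 2 * x ^ 2 :=
      mul_le_mul_of_nonneg_right h3 (by positivity)
    have e6 : c * x ^ 2 * (‖p‖ / t) = c * (‖p‖ / t) / 2 * x ^ 2 + c * x ^ 2 * (‖p‖ / t) / 2 := by
      ring
    linarith
  -- conclusion
  obtain ⟨t₀, ht₀, hall⟩ := mem_nhdsGT_iff_exists_Ioo_subset.1 (hev1.and hev2)
  exact plane_contradiction hR hm (c := c / (2 * ‖p‖)) (by positivity) ht₀ (ff φ p k) hPC
    (fun t h1 h2 => (hall ⟨h1, h2⟩).2) (fun t h1 h2 => (hall ⟨h1, h2⟩).1)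

end

/-- **Step (J), abstract form** at a fixed base point: `Q ⊆ K`, `0 ≤ s < 1`, `s • conv Q ⊆ K`
compact, and every focal point of `s • conv Q` has a blow-up direction; then
`s • conv Q ⊆ I`. -/
theorem stepJ_abs {K I : Set V} {φ : V → V → ℝ} (hIo : IsOpen I)
    (hKI : ∀ v ∈ K, ∀ r : ℝ, 0 ≤ r → r < 1 → r • v ∈ I)
    (hcont : ContinuousOn (fun q : V × V => φ q.1 q.2) {q | q.2 ∈ I})
    (hsmul : ∀ v ∈ I, ∀ ξ : V, ∀ t : ℝ, φ (t • ξ) v = t ^ 2 * φ ξ v)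
    (hgauss : ∀ q ∈ I, ∀ η : V, inner ℝ q η = 0 → ∀ a : ℝ,
      φ (a • q + η) q = a ^ 2 * ‖q‖ ^ 2 + φ η q)
    (hconc : ConcHyp I φ) {Q : Set V} (hQ : Q ⊆ K) {s : ℝ} (hs0 : 0 ≤ s) (hs1 : s < 1)
    (hSK : ∀ w ∈ convexHull ℝ Q, s • w ∈ K) (hcomp : IsCompact (convexHull ℝ Q))
    (hfoc : ∀ w ∈ convexHull ℝ Q, s • w ∉ I →
      ∃ k : V, ‖k‖ = 1 ∧ inner ℝ k (s • w) = 0 ∧ Blow φ (s • w) k) :
    ∀ w ∈ convexHull ℝ Q, s • w ∈ I := by
  by_contra hcon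
  push Not at hcon
  obtain ⟨w₀, hw₀, hw₀I⟩ := hcon
  -- the compact set of bad points
  set B : Set V := ((fun w => s • w) '' convexHull ℝ Q) ∩ Iᶜ with hB
  have hBc : IsCompact B :=
    (hcomp.image (continuous_const_smul s)).inter_right hIo.isClosed_compl
  have hBne : B.Nonempty := ⟨s • w₀, ⟨w₀, hw₀, rfl⟩, hw₀I⟩
  obtain ⟨p, hpB, hpmax⟩ := hBc.exists_isMaxOn hBne continuous_norm.continuousOn
  obtain ⟨⟨w, hw, hwp⟩, hpI⟩ := hpB
  simp only at hwp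
  have hmax : ∀ v ∈ convexHull ℝ Q, ‖p‖ < ‖s • v‖ → s • v ∈ I := by
    intro v hv hlt
    by_contra hv'
    exact absurd (hpmax (a := s • v) ⟨⟨v, hv, rfl⟩, hv'⟩) (not_le.2 hlt)
  obtain ⟨k, hk1, hkp, hblow⟩ := hfoc w hw (by rw [hwp]; exact hpI)
  rw [hwp] at hkp hblow
  have hp0 : p ≠ 0 := by
    intro h0
    apply hpI
    have := hKI _ (hSK w hw) 0 le_rfl one_pos
    rw [zero_smul] at this
    rw [h0]; exact this
  -- positive convex combination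
  obtain ⟨ι, _, z, θ, hzQ, -, hθ, hθ1, hzw⟩ := eq_pos_convex_span_of_mem_convexHull hw
  have hzp : ∑ i, θ i • (s • z i) = p := by
    rw [← hwp, ← hzw, Finset.smul_sum]
    exact Finset.sum_congr rfl fun i _ => smul_comm _ _ _
  have hzI : ∀ i, s • z i ∈ I := fun i => hKI _ (hQ (hzQ (mem_range_self i))) s hs0 hs1
  -- hulls
  have hull : ∀ v ∈ convexHull ℝ (range fun i => s • z i), ∃ u ∈ convexHull ℝ Q, s • u = v := by
    intro v hv
    have : (range fun i => s • z i) ⊆ (fun u : V => s • u) '' convexHull ℝ Q := by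
      rintro _ ⟨i, rfl⟩
      exact ⟨z i, subset_convexHull ℝ _ (hzQ (mem_range_self i)), rfl⟩
    have hc : Convex ℝ ((fun u : V => s • u) '' convexHull ℝ Q) :=
      (convex_convexHull ℝ Q).smul s
    obtain ⟨u, hu, huv⟩ := convexHull_min this hc hv
    exact ⟨u, hu, huv⟩
  have hullr : ∀ r : ℝ, 0 < r → r < 1 →
      convexHull ℝ (range fun i => r • (s • z i)) ⊆ I := by
    intro r hr0 hr1 v hv
    have : (range fun i => r • (s • z i)) ⊆
        (fun u : V => r • u) '' convexHull ℝ (range fun i => s • z i) := by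
      rintro _ ⟨i, rfl⟩
      exact ⟨s • z i, subset_convexHull ℝ _ (mem_range_self i), rfl⟩
    have hc : Convex ℝ ((fun u : V => r • u) '' convexHull ℝ (range fun i => s • z i)) :=
      (convex_convexHull ℝ _).smul r
    obtain ⟨v', hv', rfl⟩ := convexHull_min this hc hv
    obtain ⟨u, hu, rfl⟩ := hull v' hv'
    exact hKI _ (hSK u hu) r hr0.le hr1
  have hcξ : ∀ ξ, ContinuousOn (φ ξ) I := by
    intro ξ
    exact hcont.comp (f := fun q : V => (ξ, q)) (by fun_prop) (fun q hq => hq)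
  have hspan := mem_span hcξ hIo hconc (fun i => s • z i) θ (fun i => (hθ i).le) hθ1 hzp hzI
    hullr hblow
  obtain ⟨σ, hσ, hσh⟩ := exists_sigma (fun i => s • z i) θ hθ hθ1 hzp hspan
  refine plane_false hp0 hk1 hkp hIo hcont hsmul hgauss hconc hσ ?_ ?_ hblow
  · intro τ hτ r hr0 hr1
    obtain ⟨u, hu, huv⟩ := hull _ (hσh τ hτ)
    rw [← huv]
    exact hKI _ (hSK u hu) r hr0 hr1
  · obtain ⟨u, hu, huv⟩ := hull _ (hσh σ (by rw [abs_of_pos hσ]))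
    rw [← huv]
    apply hmax u hu
    rw [huv]
    have h1 : ‖p + σ • k‖ ^ 2 = ‖p‖ ^ 2 + σ ^ 2 := by
      have hpk : inner ℝ p k = 0 := by rw [real_inner_comm]; exact hkp
      rw [norm_add_sq_real, real_inner_smul_right, hpk, norm_smul, hk1, Real.norm_eq_abs,
        mul_one, sq_abs]
      ring
    have h2 : ‖p‖ ^ 2 < ‖p + σ • k‖ ^ 2 := by
      rw [h1]; have := pow_pos hσ 2; linarith
    exact lt_of_pow_lt_pow_left₀ 2 (norm_nonneg _) h2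

end Crest.Agent.R226.StepJB416
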