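import Crest.Agent.R226.StepJ_416
import Crest.Agent.R226.DDefs_267

/-!
R226, layer D, task D5, helper416: **step (J)** in the interface form of `DDefs_267`.
-/

set_option autoImplicit false

open Set Filter Bundle
open scoped Manifold ContDiff Topology
open Crest.GeometryTopology.MTW

namespace Crest.Agent.R226.StepJ416

variable {n : ℕ} {M : Type*} [MetricSpace M] [ChartedSpace (EuclideanSpace ℝ (Fin n)) M]
  [IsManifold (𝓡 n) ∞ M]
  [RiemannianBundle (fun p : M => TangentSpace (𝓡 n) p)]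

/-- two elements of the total space over a family of subsingletons, with equal base, are equal -/
lemma eq_of_subsingleton {S : ∀ y : M, Set (TangentSpace (𝓡 n) y)}
    (hS : ∀ y, (S y).Subsingleton) (p q : TangentBundle (𝓡 n) M) (h : p.1 = q.1)
    (hp : p.2 ∈ S p.1) (hq : q.2 ∈ S q.1) : p = q := by
  obtain ⟨x, v⟩ := p
  obtain ⟨y, w⟩ := q
  dsimp only at h hp hq
  subst h
  rw [hS x hp hq]

/-- **Step (J)**, interface form. -/
theorem stepJ_fin {G : GeoData n M} (hC : CutFacts G) (hM : MTWFacts G) (hD : DFacts G) :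
    StepJ G := by
  intro u hu s hs0 hs1 hgood hsub x p hp
  have hU : CConv (scal s u) := hD.cconv_smul u hu s hs0.le hs1.le
  refine stepJ_H hC hM u x hs0.le hs1 (fun w hw => (hgood x w hw).1)
    (hD.isCompact_H u (hD.cont u hu) x) ?_ p hp
  intro w hw w' hw'K he
  -- both `s • w` and `w'` are in `P_{s u}(x)`
  have h1 : s • w ∈ G.P (scal s u) x := hgood x w hw
  have h2 : w' ∈ G.P (scal s u) x := by
    refine ⟨hw'K, fun x' => ?_⟩
    have := h1.2 x'
    rw [he]
    exact this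
  -- reversal
  have h3 := hD.P_rev (scal s u) hU (⟨x, s • w⟩ : TangentBundle (𝓡 n) M) h1
  have h4 := hD.P_rev (scal s u) hU (⟨x, w'⟩ : TangentBundle (𝓡 n) M) h2
  have h5 : (G.revT (⟨x, s • w⟩ : TangentBundle (𝓡 n) M)).1 =
      (G.revT (⟨x, w'⟩ : TangentBundle (𝓡 n) M)).1 := by
    rw [hD.revT_fst, hD.revT_fst]
    exact he.symm
  have h6 := eq_of_subsingleton (S := fun y => G.P (ctr (scal s u)) y) hsub _ _ h5 h3 h4
  have h7 := hD.revT_revT (⟨x, s • w⟩ : TangentBundle (𝓡 n) M) h1.1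
  have h8 := hD.revT_revT (⟨x, w'⟩ : TangentBundle (𝓡 n) M) h2.1
  have h9 : (⟨x, s • w⟩ : TangentBundle (𝓡 n) M) = ⟨x, w'⟩ := by
    rw [← h7, ← h8, h6]
  have h10 := (TotalSpace.mk_inj).1 h9
  exact h10.symm

end Crest.Agent.R226.StepJ416
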