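import Crest.Agent.R226.CutFacts_484
import Crest.Agent.R226.StepJB_416

/-!
R226, layer D, task D5, helper416: **step (J)** of docs 350 on the manifold:
`s • conv Q ⊆ I(x)`.
-/

set_option autoImplicit false

open Set Filter Bundle
open scoped Manifold ContDiff Topology
open Crest.GeometryTopology.MTW

namespace Crest.Agent.R226.StepJ416

variable {n : ℕ} {M : Type*} [MetricSpace M] [ChartedSpace (EuclideanSpace ℝ (Fin n)) M]
  [IsManifold (𝓡 n) ∞ M]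
  [RiemannianBundle (fun p : M => TangentSpace (𝓡 n) p)]

/-- `I(x)` is open. -/
lemma isOpen_I {G : GeoData n M} (hC : CutFacts G) (x : M) : IsOpen (G.I x) := by
  have h1 : Continuous (fun v : TangentSpace (𝓡 n) x => (⟨x, v⟩ : TangentBundle (𝓡 n) M)) :=
    FiberBundle.continuous_totalSpaceMk (EuclideanSpace ℝ (Fin n))
      (fun p : M => TangentSpace (𝓡 n) p) x
  exact hC.isOpen_IT.preimage h1

/-- `r K(x) ⊆ I(x)` for `0 ≤ r < 1`. -/
lemma smul_mem_I {G : GeoData n M} (x : M) (v : TangentSpace (𝓡 n) x) (hv : v ∈ G.K x) (r : ℝ)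
    (hr0 : 0 ≤ r) (hr1 : r < 1) : r • v ∈ G.I x := by
  rcases hr0.eq_or_lt with h | h
  · refine ⟨2, by norm_num, ?_⟩
    rw [← h, zero_smul, smul_zero]
    show dist x (G.ex x 0) = ‖(0 : TangentSpace (𝓡 n) x)‖
    rw [G.ex_zero, dist_self, norm_zero]
  · refine ⟨r⁻¹, (one_lt_inv₀ h).2 hr1, ?_⟩
    rw [smul_smul, inv_mul_cancel₀ h.ne', one_smul]
    exact hv

/-- **Step (J)**. -/
theorem stepJ {G : GeoData n M} (hC : CutFacts G) (hM : MTWFacts G) (x : M)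
    {Q : Set (TangentSpace (𝓡 n) x)} (hQ : Q ⊆ G.K x) {s : ℝ} (hs0 : 0 ≤ s) (hs1 : s < 1)
    (hSK : ∀ w ∈ convexHull ℝ Q, s • w ∈ G.K x) (hcomp : IsCompact (convexHull ℝ Q))
    (huniq : ∀ w ∈ convexHull ℝ Q, ∀ w' ∈ G.K x, G.ex x w' = G.ex x (s • w) → w' = s • w) :
    ∀ w ∈ convexHull ℝ Q, s • w ∈ G.I x := by
  refine StepJB416.stepJ_abs (K := G.K x) (I := G.I x) (φ := G.phi x) (isOpen_I hC x)
    (fun v hv r h0 h1 => smul_mem_I x v hv r h0 h1) (hC.phi_cont x)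
    (fun v hv ξ t => hC.phi_smul x v hv ξ t) (fun q hq η hη a => hC.gauss x q hq η hη a)
    (fun p q ξ h1 h2 t h3 h4 => hM.concave x p q ξ h1 h2 t h3 h4) hQ hs0 hs1 hSK hcomp ?_
  intro w hw hwI
  obtain ⟨k, hk1, hkp, C, c, r₁, hc, hr₁, hb⟩ := hC.focal x (s • w) (hSK w hw) hwI
    (fun w' hw' he => huniq w hw w' hw' he)
  exact ⟨k, hk1, hkp, C, c, r₁, hc, hr₁, hb⟩

/-- Step (J) for `H_u(x)`. -/
theorem stepJ_H {G : GeoData n M} (hC : CutFacts G) (hM : MTWFacts G) (u : M → ℝ) (x : M)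
    {s : ℝ} (hs0 : 0 ≤ s) (hs1 : s < 1) (hSK : ∀ w ∈ G.H u x, s • w ∈ G.K x)
    (hcomp : IsCompact (G.H u x))
    (huniq : ∀ w ∈ G.H u x, ∀ w' ∈ G.K x, G.ex x w' = G.ex x (s • w) → w' = s • w) :
    ∀ w ∈ G.H u x, s • w ∈ G.I x :=
  stepJ hC hM x (fun _ hw => hw.1) hs0 hs1 hSK hcomp huniq

end Crest.Agent.R226.StepJ416
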