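/-
R226, Layer D, task D7 (helper881): step (K) (openness), the continuity argument in `s`, and the
conclusion "all tangent injectivity domains are convex" (S0349) from `CutFacts` and `MTWFacts`.
-/
import Crest.Agent.R226.CutFacts_484

set_option autoImplicit false

open MeasureTheory Bundle Set Filter
open scoped Manifold ContDiff Bundle ENNReal Topology
open Crest.GeometryTopology.MTW

namespace Crest.Agent.R226.StepK881

variable {n : ℕ} {M : Type*} [MetricSpace M] [ChartedSpace (EuclideanSpace ℝ (Fin n)) M]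
  [IsManifold (𝓡 n) ∞ M]

/-- scaling on the tangent bundle is jointly continuous -/
theorem continuous_scale :
    Continuous (fun q : ℝ × TangentBundle (𝓡 n) M =>
      (⟨q.2.1, q.1 • q.2.2⟩ : TangentBundle (𝓡 n) M)) := by
  rw [continuous_iff_continuousAt]
  intro q₀
  rw [FiberBundle.continuousAt_totalSpace]
  have hproj : Continuous (fun q : ℝ × TangentBundle (𝓡 n) M => q.2.1) :=
    (FiberBundle.continuous_proj (EE n) (TangentSpace (𝓡 n) : M → Type _)).comp continuous_snd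
  refine ⟨hproj.continuousAt, ?_⟩
  set e := trivializationAt (EE n) (TangentSpace (𝓡 n) : M → Type _) q₀.2.1 with he
  have hmem : q₀.2.1 ∈ e.baseSet := FiberBundle.mem_baseSet_trivializationAt' q₀.2.1
  have hcont : ContinuousAt (fun q : ℝ × TangentBundle (𝓡 n) M => (e q.2).2) q₀ := by
    have h1 : ContinuousAt e q₀.2 := e.continuousAt (e.mem_source.2 hmem)
    exact (continuous_snd.continuousAt.comp h1).comp continuous_snd.continuousAt
  have hsm : ContinuousAt (fun q : ℝ × TangentBundle (𝓡 n) M => q.1 • (e q.2).2) q₀ :=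
    continuous_fst.continuousAt.smul hcont
  refine hsm.congr_of_eventuallyEq ?_
  have hev : ∀ᶠ q : ℝ × TangentBundle (𝓡 n) M in 𝓝 q₀, q.2.1 ∈ e.baseSet :=
    hproj.continuousAt.eventually (e.open_baseSet.mem_nhds hmem)
  filter_upwards [hev] with q hq
  exact ((e.linear ℝ hq).map_smul q.1 q.2.2)

theorem continuous_projTM : Continuous (fun p : TangentBundle (𝓡 n) M => p.1) :=
  FiberBundle.continuous_proj (EE n) (TangentSpace (𝓡 n) : M → Type _)

theorem continuous_halfDistSq : Continuous (fun q : M × M => halfDistSq q.1 q.2) := by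
  unfold halfDistSq
  fun_prop

variable [RiemannianBundle (fun p : M => TangentSpace (𝓡 n) p)]
variable (G : GeoData n M)

theorem continuous_exT : Continuous (fun p : TangentBundle (𝓡 n) M => G.ex p.1 p.2) :=
  G.smooth.continuous

/-- `(t, p) ↦ exp (t p)` is continuous on `ℝ × TM`. -/
theorem continuous_ex_smul :
    Continuous (fun q : ℝ × TangentBundle (𝓡 n) M => G.ex q.2.1 (q.1 • q.2.2)) :=
  (continuous_exT G).comp continuous_scale

/-- radial curves are continuous -/
theorem continuous_ex_radial (x : M) (v : TangentSpace (𝓡 n) x) :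
    Continuous (fun t : ℝ => G.ex x (t • v)) :=
  (continuous_ex_smul G).comp
    (Continuous.prodMk_left (⟨x, v⟩ : TangentBundle (𝓡 n) M))

/-- (L-D) for `0 < t ≤ 1`: `w ∈ P_u(x)` implies `t w ∈ P_{tu}(x)`. -/
theorem smul_mem_P (hK : ∀ x, ∀ v ∈ G.K x, ∀ t : ℝ, 0 ≤ t → t ≤ 1 → t • v ∈ G.K x)
    {u : M → ℝ} {x : M} {w : TangentSpace (𝓡 n) x} (hw : w ∈ G.P u x) {t : ℝ} (ht : 0 ≤ t)
    (ht1 : t ≤ 1) : t • w ∈ G.P (fun z => t * u z) x := by
  have hKt : t • w ∈ G.K x := hK x w hw.1 t ht ht1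
  refine ⟨hKt, fun x' => ?_⟩
  rcases ht.eq_or_lt with h0 | h0
  · subst h0
    have h1 : dist x (G.ex x ((0 : ℝ) • w)) = 0 := by
      rw [zero_smul, G.ex_zero, dist_self]
    have : 0 ≤ halfDistSq x' (G.ex x ((0 : ℝ) • w)) := by unfold halfDistSq; positivity
    have h2 : halfDistSq x (G.ex x ((0 : ℝ) • w)) = 0 := by unfold halfDistSq; rw [h1]; norm_num
    simp only [zero_mul, zero_add]
    rw [h2]; exact this
  · have hz : dist x (G.ex x (t • w)) = t * ‖w‖ := by
      have := hKt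
      simp only [GeoData.K, mem_ofPred_eq] at this
      rw [this, norm_smul, Real.norm_eq_abs, abs_of_nonneg ht]
    have hy : dist x (G.ex x w) = ‖w‖ := hw.1
    have hzy : dist (G.ex x (t • w)) (G.ex x w) ≤ (1 - t) * ‖w‖ := by
      have := G.dist_le x w t 1
      rw [one_smul] at this
      refine this.trans (le_of_eq ?_)
      rw [abs_sub_comm, abs_of_nonneg (by linarith)]
    have htri : dist x' (G.ex x w) ≤ dist x' (G.ex x (t • w)) + (1 - t) * ‖w‖ :=
      (dist_triangle _ _ _).trans (by linarith)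
    have hmain := hw.2 x'
    unfold halfDistSq at hmain ⊢
    rw [hy] at hmain
    simp only
    rw [hz]
    set a := dist x' (G.ex x (t • w)) with ha
    set b := dist x' (G.ex x w) with hb
    set L := ‖w‖ with hL
    have ha0 : 0 ≤ a := dist_nonneg
    have hb0 : 0 ≤ b := dist_nonneg
    have hL0 : 0 ≤ L := norm_nonneg _
    -- t b² ≤ a² + t (1-t) L²
    have hb2 : b ^ 2 ≤ (a + (1 - t) * L) ^ 2 := by
      apply pow_le_pow_left₀ hb0 htri
    have h1t : 0 ≤ 1 - t := by linarith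
    have key : t * b ^ 2 ≤ a ^ 2 + t * (1 - t) * L ^ 2 := by
      have h3 : t * (a + (1 - t) * L) ^ 2 ≤ a ^ 2 + t * (1 - t) * L ^ 2 := by
        have : a ^ 2 + t * (1 - t) * L ^ 2 - t * (a + (1 - t) * L) ^ 2
            = (1 - t) * (a - t * L) ^ 2 := by ring
        nlinarith [mul_nonneg h1t (sq_nonneg (a - t * L))]
      nlinarith [mul_le_mul_of_nonneg_left hb2 ht]
    have h4 : t * (u x + L ^ 2 / 2) ≤ t * (u x' + b ^ 2 / 2) :=
      mul_le_mul_of_nonneg_left hmain ht
    nlinarith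

/-- `Good` at `0` is trivial. -/
theorem good_zero (u : M → ℝ) : G.Good u 0 := by
  intro x w _
  refine ⟨?_, fun x' => ?_⟩
  · simp only [GeoData.K, mem_ofPred_eq, zero_smul, G.ex_zero, dist_self, norm_zero]
  · simp only [zero_mul, zero_add, zero_smul, G.ex_zero]
    unfold halfDistSq
    rw [dist_self]
    have := sq_nonneg (dist x' x)
    linarith

/-- the set of `s` with `Good u s` is closed. -/
theorem isClosed_good (u : M → ℝ) : IsClosed {s : ℝ | G.Good u s} := by
  have : {s : ℝ | G.Good u s} = ⋂ (x : M) (w : TangentSpace (𝓡 n) x) (_ : w ∈ G.H u x),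
      ({s : ℝ | dist x (G.ex x (s • w)) = |s| * ‖w‖} ∩
      ⋂ x' : M, {s : ℝ | s * u x + halfDistSq x (G.ex x (s • w)) ≤
        s * u x' + halfDistSq x' (G.ex x (s • w))}) := by
    ext s
    simp only [mem_ofPred_eq, mem_iInter, mem_inter_iff, GeoData.Good, GeoData.P, GeoData.K]
    refine forall_congr' fun x => forall_congr' fun w => forall_congr' fun hw => ?_
    rw [norm_smul, Real.norm_eq_abs]
  rw [this]
  refine isClosed_iInter fun x => isClosed_iInter fun w => isClosed_iInter fun _ => ?_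
  have hc := continuous_ex_radial G x w
  refine IsClosed.inter ?_ ?_
  · exact isClosed_eq (continuous_const.dist hc) (continuous_abs.mul continuous_const)
  · refine isClosed_iInter fun x' => ?_
    refine isClosed_le ?_ ?_
    · exact (continuous_id.mul continuous_const).add
        (continuous_halfDistSq.comp (continuous_const.prodMk hc))
    · exact (continuous_id.mul continuous_const).add
        (continuous_halfDistSq.comp (continuous_const.prodMk hc))

/-- the local support property from the Loeper principle: on `S` (a set of the tangent bundle) on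
which the local Loeper principle holds with radius `r`, every `t w`, `w ∈ H_u(x)`, is a support on
`B_r(x)`. -/
theorem local_support (hK : ∀ x, ∀ v ∈ G.K x, ∀ t : ℝ, 0 ≤ t → t ≤ 1 → t • v ∈ G.K x)
    {u : M → ℝ} {S : Set (TangentBundle (𝓡 n) M)} {r : ℝ}
    (hL : ∀ x, ∀ p q : TangentSpace (𝓡 n) x,
      (∀ w ∈ segment ℝ p q, (⟨x, w⟩ : TangentBundle (𝓡 n) M) ∈ S) →
      ∀ x', dist x x' < r → ∀ t : ℝ, 0 ≤ t → t ≤ 1 →
        ‖(1 - t) • p + t • q‖ ^ 2 / 2 - halfDistSq x' (G.ex x ((1 - t) • p + t • q)) ≤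
          max (‖p‖ ^ 2 / 2 - halfDistSq x' (G.ex x p)) (‖q‖ ^ 2 / 2 - halfDistSq x' (G.ex x q)))
    {t : ℝ} (ht : 0 ≤ t) (ht1 : t ≤ 1)
    (hS : ∀ x, ∀ w ∈ G.H u x, (⟨x, t • w⟩ : TangentBundle (𝓡 n) M) ∈ S)
    {x x' : M} (hx : dist x x' < r) {w : TangentSpace (𝓡 n) x} (hw : w ∈ G.H u x) :
    t * u x + ‖t • w‖ ^ 2 / 2 ≤ t * u x' + halfDistSq x' (G.ex x (t • w)) := by
  set C : Set (TangentSpace (𝓡 n) x) := {w | w ∈ G.H u x ∧
    ‖t • w‖ ^ 2 / 2 - halfDistSq x' (G.ex x (t • w)) ≤ t * u x' - t * u x} with hC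
  have hconvH : Convex ℝ (G.H u x) := convex_convexHull ℝ _
  have hsub : G.P u x ⊆ C := by
    intro v hv
    refine ⟨subset_convexHull ℝ _ hv, ?_⟩
    have h1 := smul_mem_P G hK hv ht ht1
    have h2 := h1.2 x'
    have h3 : dist x (G.ex x (t • v)) = ‖t • v‖ := h1.1
    simp only at h2
    have h4 : halfDistSq x (G.ex x (t • v)) = ‖t • v‖ ^ 2 / 2 := by
      unfold halfDistSq; rw [h3]
    rw [h4] at h2
    linarith
  have hconvC : Convex ℝ C := by
    rw [convex_iff_forall_pos]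
    intro p hp q hq a b ha hb hab
    refine ⟨hconvH hp.1 hq.1 ha.le hb.le hab, ?_⟩
    have hseg : ∀ v ∈ segment ℝ (t • p) (t • q), (⟨x, v⟩ : TangentBundle (𝓡 n) M) ∈ S := by
      intro v hv
      obtain ⟨a', b', ha', hb', hab', rfl⟩ := hv
      have : a' • t • p + b' • t • q = t • (a' • p + b' • q) := by
        rw [smul_add, smul_comm a' t, smul_comm b' t]
      rw [this]
      exact hS x _ (hconvH hp.1 hq.1 ha' hb' hab')
    have h1 := hL x (t • p) (t • q) hseg x' hx b hb.le (by linarith)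
    have ha1 : 1 - b = a := by linarith
    rw [ha1] at h1
    have h2 : a • t • p + b • t • q = t • (a • p + b • q) := by
      rw [smul_add, smul_comm a t, smul_comm b t]
    rw [h2] at h1
    exact h1.trans (max_le hp.2 hq.2)
  have hmem : w ∈ C := convexHull_min hsub hconvC hw
  have := hmem.2
  linarith

/-- **Step (K), openness.** -/
theorem openness [CompactSpace M] (hC : CutFacts G) (hM : MTWFacts G) {u : M → ℝ}
    (hu : Continuous u)
    (hHT : IsCompact {p : TangentBundle (𝓡 n) M | p.2 ∈ G.H u p.1})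
    {s : ℝ} (hs0 : 0 ≤ s) (hs1 : s < 1) (hgood : G.Good u s)
    (hI : ∀ y, (Cset (fun z => s * u z) y).Subsingleton)
    (hJ : ∀ x, ∀ w ∈ G.H u x, s • w ∈ G.I x) :
    ∃ δ : ℝ, 0 < δ ∧ ∀ t, s ≤ t → t < s + δ → G.Good u t := by
  set HT : Set (TangentBundle (𝓡 n) M) := {p | p.2 ∈ G.H u p.1} with hHTdef
  -- first tube: `t • HT ⊆ IT` for `t` near `s`
  set sc : ℝ × TangentBundle (𝓡 n) M → TangentBundle (𝓡 n) M :=
    fun q => ⟨q.2.1, q.1 • q.2.2⟩ with hsc
  have hsc_cont : Continuous sc := continuous_scale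
  have hO1 : IsOpen (sc ⁻¹' G.IT) := hC.isOpen_IT.preimage hsc_cont
  have hsub1 : ({s} : Set ℝ) ×ˢ HT ⊆ sc ⁻¹' G.IT := by
    rintro ⟨t, p⟩ ⟨ht, hp⟩
    rw [mem_singleton_iff] at ht
    simp only at ht hp
    subst ht
    exact hJ p.1 p.2 hp
  obtain ⟨U₁, V₁, hU₁, hV₁, hsU₁, hHV₁, hUV₁⟩ :=
    generalized_tube_lemma isCompact_singleton hHT hO1 hsub1
  obtain ⟨δ₁, hδ₁, hball₁⟩ := Metric.isOpen_iff.1 hU₁ s (hsU₁ rfl)
  set δ' : ℝ := min (δ₁ / 2) (1 - s) with hδ'
  have hδ'pos : 0 < δ' := lt_min (by positivity) (by linarith)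
  set S : Set (TangentBundle (𝓡 n) M) := sc '' (Icc s (s + δ') ×ˢ HT) with hSdef
  have hScomp : IsCompact S := (isCompact_Icc.prod hHT).image hsc_cont
  have hSsub : S ⊆ G.IT := by
    rintro _ ⟨⟨t, p⟩, ⟨ht, hp⟩, rfl⟩
    apply hUV₁
    refine ⟨hball₁ ?_, hHV₁ hp⟩
    rw [Metric.mem_ball, Real.dist_eq, abs_lt]
    simp only at ht
    have h1 : δ' ≤ δ₁ / 2 := min_le_left _ _
    constructor
    · linarith [ht.1]
    · linarith [ht.2]
  obtain ⟨r, hr, hL⟩ := hM.loeper S hScomp hSsub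
  -- second tube
  set T' : Set (TangentBundle (𝓡 n) M × M) := (HT ×ˢ univ) ∩ {q | r ≤ dist q.1.1 q.2} with hT'
  have hT'comp : IsCompact T' := by
    refine (hHT.prod isCompact_univ).inter_right ?_
    exact isClosed_le continuous_const
      ((continuous_projTM.comp continuous_fst).dist continuous_snd)
  set F : ℝ × (TangentBundle (𝓡 n) M × M) → ℝ := fun q =>
    q.1 * u q.2.2 + halfDistSq q.2.2 (G.ex q.2.1.1 (q.1 • q.2.1.2))
      - (q.1 * u q.2.1.1 + halfDistSq q.2.1.1 (G.ex q.2.1.1 (q.1 • q.2.1.2))) with hF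
  have hFcont : Continuous F := by
    have hE : Continuous (fun q : ℝ × (TangentBundle (𝓡 n) M × M) =>
        G.ex q.2.1.1 (q.1 • q.2.1.2)) :=
      (continuous_ex_smul G).comp
        (continuous_fst.prodMk (continuous_fst.comp continuous_snd))
    have hx : Continuous (fun q : ℝ × (TangentBundle (𝓡 n) M × M) => q.2.1.1) :=
      continuous_projTM.comp (continuous_fst.comp continuous_snd)
    have hx' : Continuous (fun q : ℝ × (TangentBundle (𝓡 n) M × M) => q.2.2) :=
      continuous_snd.comp continuous_snd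
    refine Continuous.sub (Continuous.add (continuous_fst.mul (hu.comp hx')) ?_)
      (Continuous.add (continuous_fst.mul (hu.comp hx)) ?_)
    · exact continuous_halfDistSq.comp (hx'.prodMk hE)
    · exact continuous_halfDistSq.comp (hx.prodMk hE)
  have hO2 : IsOpen (F ⁻¹' Ioi 0) := isOpen_Ioi.preimage hFcont
  have hsub2 : ({s} : Set ℝ) ×ˢ T' ⊆ F ⁻¹' Ioi 0 := by
    rintro ⟨t, ⟨p, x'⟩⟩ ⟨ht, ⟨⟨hp, -⟩, hd⟩⟩
    rw [mem_singleton_iff] at ht
    simp only at ht hp hd
    subst ht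
    simp only [mem_preimage, mem_Ioi, hF]
    have h1 : p.1 ∈ Cset (fun z => t * u z) (G.ex p.1 (t • p.2)) := (hgood p.1 p.2 hp).2
    by_contra hcon
    push Not at hcon
    have h2 : x' ∈ Cset (fun z => t * u z) (G.ex p.1 (t • p.2)) := by
      intro z
      have := h1 z
      simp only at this ⊢
      linarith
    have h3 : p.1 = x' := hI _ h1 h2
    have h4 : r ≤ dist p.1 x' := hd
    rw [h3, dist_self] at h4
    linarith
  obtain ⟨U₂, V₂, hU₂, hV₂, hsU₂, hHV₂, hUV₂⟩ :=
    generalized_tube_lemma isCompact_singleton hT'comp hO2 hsub2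
  obtain ⟨δ₂, hδ₂, hball₂⟩ := Metric.isOpen_iff.1 hU₂ s (hsU₂ rfl)
  refine ⟨min δ' δ₂, lt_min hδ'pos hδ₂, fun t hst hts => ?_⟩
  have ht0 : 0 ≤ t := hs0.trans hst
  have htδ' : t ≤ s + δ' := by
    have := min_le_left δ' δ₂
    linarith
  have htδ₂ : t < s + δ₂ := by
    have := min_le_right δ' δ₂
    linarith
  have ht1 : t ≤ 1 := by
    have := min_le_right (δ₁ / 2) (1 - s)
    linarith
  have hSt : ∀ x, ∀ w ∈ G.H u x, (⟨x, t • w⟩ : TangentBundle (𝓡 n) M) ∈ S := by
    intro x w hw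
    exact ⟨(t, ⟨x, w⟩), ⟨⟨hst, htδ'⟩, hw⟩, rfl⟩
  intro x w hw
  have hIw : t • w ∈ G.I x := hSsub (hSt x w hw)
  have hKw : t • w ∈ G.K x := hC.I_subset x hIw
  refine ⟨hKw, fun x' => ?_⟩
  by_cases hd : dist x x' < r
  · have h1 := local_support G hC.star hL ht0 ht1 hSt hd hw
    have h2 : halfDistSq x (G.ex x (t • w)) = ‖t • w‖ ^ 2 / 2 := by
      have h3 : dist x (G.ex x (t • w)) = ‖t • w‖ := hKw
      unfold halfDistSq; rw [h3]
    simp only
    rw [h2]; exact h1
  · push Not at hd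
    have hmem : ((t, (⟨x, w⟩, x')) : ℝ × (TangentBundle (𝓡 n) M × M)) ∈ F ⁻¹' Ioi 0 := by
      apply hUV₂
      refine ⟨hball₂ ?_, hHV₂ ⟨⟨hw, mem_univ _⟩, hd⟩⟩
      rw [Metric.mem_ball, Real.dist_eq, abs_lt]
      constructor <;> linarith
    simp only [mem_preimage, mem_Ioi, hF] at hmem
    simp only
    linarith

/-- **The continuity argument.** -/
theorem good_all [CompactSpace M] (hC : CutFacts G) (hM : MTWFacts G) {u : M → ℝ}
    (hu : Continuous u)
    (hHT : IsCompact {p : TangentBundle (𝓡 n) M | p.2 ∈ G.H u p.1})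
    (hI : ∀ s : ℝ, 0 < s → s < 1 → G.Good u s → ∀ y, (Cset (fun z => s * u z) y).Subsingleton)
    (hJ : ∀ s : ℝ, 0 < s → s < 1 → G.Good u s → ∀ x, ∀ w ∈ G.H u x, s • w ∈ G.I x) :
    ∀ s : ℝ, 0 ≤ s → s ≤ 1 → G.Good u s := by
  have hclosed : IsClosed ({s : ℝ | G.Good u s} ∩ Icc 0 1) :=
    (isClosed_good G u).inter isClosed_Icc
  have key : Icc (0 : ℝ) 1 ⊆ {s : ℝ | G.Good u s} := by
    refine hclosed.Icc_subset_of_forall_exists_gt (good_zero G u) ?_
    rintro s ⟨hs, hs0, hs1⟩ y hy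
    have hI' : ∀ y, (Cset (fun z => s * u z) y).Subsingleton := by
      rcases hs0.eq_or_lt with h | h
      · subst h
        intro y a ha b hb
        have h1 := ha y
        have h2 := hb y
        simp only [halfDistSq, zero_mul, zero_add, dist_self] at h1 h2
        have h3 : dist a y = 0 := by nlinarith [dist_nonneg (x := a) (y := y)]
        have h4 : dist b y = 0 := by nlinarith [dist_nonneg (x := b) (y := y)]
        rw [dist_eq_zero.1 h3, dist_eq_zero.1 h4]
      · exact hI s h hs1 hs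
    have hJ' : ∀ x, ∀ w ∈ G.H u x, s • w ∈ G.I x := by
      rcases hs0.eq_or_lt with h | h
      · subst h
        intro x w _
        refine ⟨2, by norm_num, ?_⟩
        simp only [GeoData.K, mem_ofPred_eq, zero_smul, smul_zero, G.ex_zero, dist_self, norm_zero]
      · exact hJ s h hs1 hs
    obtain ⟨δ, hδ, hgd⟩ := openness G hC hM hu hHT hs0 hs1 hs hI' hJ'
    refine ⟨min y (s + δ / 2), hgd _ (le_min hy.le (by linarith)) ?_, ?_, min_le_left _ _⟩
    · exact (min_le_right _ _).trans_lt (by linarith)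
    · exact lt_min hy (by linarith)
  intro s h0 h1
  exact key ⟨h0, h1⟩

/-- the `c`-convex function attached to two points -/
noncomputable def twoPt (x₀ y₀ y₁ : M) : M → ℝ := fun z =>
  max (halfDistSq x₀ y₀ - halfDistSq z y₀) (halfDistSq x₀ y₁ - halfDistSq z y₁)

omit [ChartedSpace (EuclideanSpace ℝ (Fin n)) M] [IsManifold (𝓡 n) ∞ M]
  [RiemannianBundle (fun p : M => TangentSpace (𝓡 n) p)] in
theorem twoPt_cconv (x₀ y₀ y₁ : M) : CConv (twoPt x₀ y₀ y₁) := by
  intro x
  rcases le_total (halfDistSq x₀ y₀ - halfDistSq x y₀) (halfDistSq x₀ y₁ - halfDistSq x y₁) with h | h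
  · refine ⟨y₁, fun x' => ?_⟩
    have h1 : twoPt x₀ y₀ y₁ x = halfDistSq x₀ y₁ - halfDistSq x y₁ := max_eq_right h
    have h2 : halfDistSq x₀ y₁ - halfDistSq x' y₁ ≤ twoPt x₀ y₀ y₁ x' := le_max_right _ _
    linarith
  · refine ⟨y₀, fun x' => ?_⟩
    have h1 : twoPt x₀ y₀ y₁ x = halfDistSq x₀ y₀ - halfDistSq x y₀ := max_eq_left h
    have h2 : halfDistSq x₀ y₀ - halfDistSq x' y₀ ≤ twoPt x₀ y₀ y₁ x' := le_max_left _ _
    linarith

/-- **Conclusion.** If `Good u 1` holds for every `c`-convex `u`, then every `K(x)` is convex. -/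
theorem convex_K (hall : ∀ u : M → ℝ, CConv u → G.Good u 1) (x : M) : Convex ℝ (G.K x) := by
  rw [convex_iff_forall_pos]
  intro v₀ hv₀ v₁ hv₁ a b ha hb hab
  set u := twoPt x (G.ex x v₀) (G.ex x v₁) with hu
  have hux : u x = 0 := by simp [hu, twoPt]
  have h0 : v₀ ∈ G.P u x := by
    refine ⟨hv₀, fun x' => ?_⟩
    rw [hux]
    have h2 : halfDistSq x (G.ex x v₀) - halfDistSq x' (G.ex x v₀) ≤ u x' := le_max_left _ _
    linarith
  have h1 : v₁ ∈ G.P u x := by
    refine ⟨hv₁, fun x' => ?_⟩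
    rw [hux]
    have h2 : halfDistSq x (G.ex x v₁) - halfDistSq x' (G.ex x v₁) ≤ u x' := le_max_right _ _
    linarith
  have hmem : a • v₀ + b • v₁ ∈ G.H u x :=
    (convex_convexHull ℝ (G.P u x)) (subset_convexHull ℝ _ h0) (subset_convexHull ℝ _ h1)
      ha.le hb.le hab
  have := (hall u (twoPt_cconv x _ _) x _ hmem).1
  rwa [one_smul] at this

/-- convexity of `K(x)` gives convexity of `I(x)` -/
theorem convex_I (hK : ∀ x, ∀ v ∈ G.K x, ∀ t : ℝ, 0 ≤ t → t ≤ 1 → t • v ∈ G.K x) (x : M)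
    (hconv : Convex ℝ (G.K x)) : Convex ℝ (G.I x) := by
  rw [convex_iff_forall_pos]
  rintro v₀ ⟨a₀, ha₀, hv₀⟩ v₁ ⟨a₁, ha₁, hv₁⟩ a b ha hb hab
  refine ⟨min a₀ a₁, lt_min ha₀ ha₁, ?_⟩
  have hm : 0 < min a₀ a₁ := lt_min (by linarith) (by linarith)
  have h0 : min a₀ a₁ • v₀ ∈ G.K x := by
    have := hK x _ hv₀ (min a₀ a₁ / a₀) (by positivity)
      ((div_le_one (by linarith)).2 (min_le_left _ _))
    rwa [smul_smul, div_mul_cancel₀ _ (by linarith : a₀ ≠ 0)] at this
  have h1 : min a₀ a₁ • v₁ ∈ G.K x := by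
    have := hK x _ hv₁ (min a₀ a₁ / a₁) (by positivity)
      ((div_le_one (by linarith)).2 (min_le_right _ _))
    rwa [smul_smul, div_mul_cancel₀ _ (by linarith : a₁ ≠ 0)] at this
  have := hconv h0 h1 ha.le hb.le hab
  rwa [smul_comm a, smul_comm b, ← smul_add] at this

/-- `G.I x` is the frozen `injDomain n x`. -/
theorem I_eq_injDomain (x : M) : G.I x = injDomain n x := by
  rw [G.injDomain_eq]
  ext v
  simp only [GeoData.I, GeoData.K, mem_ofPred_eq]
  refine exists_congr fun a => and_congr_right fun ha => ?_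
  rw [norm_smul, Real.norm_eq_abs, abs_of_pos (by linarith)]

/-- **Layer D, final theorem modulo steps (I), (J) and the elementary facts D0.** -/
theorem convex_injDomain [CompactSpace M] (hC : CutFacts G) (hM : MTWFacts G)
    (hcont : ∀ u : M → ℝ, CConv u → Continuous u)
    (hHT : ∀ u : M → ℝ, CConv u → IsCompact {p : TangentBundle (𝓡 n) M | p.2 ∈ G.H u p.1})
    (hI : ∀ u : M → ℝ, CConv u → ∀ s : ℝ, 0 < s → s < 1 → G.Good u s →
      ∀ y, (Cset (fun z => s * u z) y).Subsingleton)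
    (hJ : ∀ u : M → ℝ, CConv u → ∀ s : ℝ, 0 < s → s < 1 → G.Good u s →
      ∀ x, ∀ w ∈ G.H u x, s • w ∈ G.I x) (x : M) :
    Convex ℝ (injDomain n x) := by
  rw [← I_eq_injDomain G x]
  refine convex_I G hC.star x (convex_K G (fun u hu => ?_) x)
  exact good_all G hC hM (hcont u hu) (hHT u hu) (hI u hu) (hJ u hu) 1 zero_le_one le_rfl

end Crest.Agent.R226.StepK881
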