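/-
R226, Layer D, tasks D6 + D7 (helper881): `StepK1 G`, `StepK G` in the form of `DDefs_267`.
-/
import Crest.Agent.R226.DDefs_267
import Crest.Agent.R226.StepK_881

set_option autoImplicit false

open MeasureTheory Bundle Set Filter
open scoped Manifold ContDiff Bundle ENNReal Topology
open Crest.GeometryTopology.MTW

namespace Crest.Agent.R226.StepK881

variable {n : ℕ} {M : Type*} [MetricSpace M] [ChartedSpace (EuclideanSpace ℝ (Fin n)) M]
  [IsManifold (𝓡 n) ∞ M]
  [RiemannianBundle (fun p : M => TangentSpace (𝓡 n) p)]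
variable (G : GeoData n M)

/-- Step (K), first half: uniform local supports slightly beyond `s`. -/
theorem stepK1 (hC : CutFacts G) (hM : MTWFacts G) (hD : DFacts G) : StepK1 G := by
  intro u hu s hs0 hs1 hgood hJ
  have hHT := hD.isCompact_HT u (hD.cont u hu)
  set HT : Set (TangentBundle (𝓡 n) M) := {p | p.2 ∈ G.H u p.1} with hHTdef
  set sc : ℝ × TangentBundle (𝓡 n) M → TangentBundle (𝓡 n) M :=
    fun q => ⟨q.2.1, q.1 • q.2.2⟩ with hsc
  have hsc_cont : Continuous sc := continuous_scale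
  have hO1 : IsOpen (sc ⁻¹' G.IT) := hC.isOpen_IT.preimage hsc_cont
  have hsub1 : ({s} : Set ℝ) ×ˢ HT ⊆ sc ⁻¹' G.IT := by
    rintro ⟨t, p⟩ ⟨ht, hp⟩
    rw [mem_singleton_iff] at ht
    simp only at ht hp
    subst ht
    exact hJ p.1 p.2 hp
  obtain ⟨U₁, V₁, hU₁, hV₁, hsU₁, hHV₁, hUV₁⟩ :=
    generalized_tube_lemma isCompact_singleton hHT hO1 hsub1
  obtain ⟨δ₁, hδ₁, hball₁⟩ := Metric.isOpen_iff.1 hU₁ s (hsU₁ rfl)
  set δ' : ℝ := min (δ₁ / 2) (1 - s) with hδ'
  have hδ'pos : 0 < δ' := lt_min (by positivity) (by linarith)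
  set S : Set (TangentBundle (𝓡 n) M) := sc '' (Icc s (s + δ') ×ˢ HT) with hSdef
  have hScomp : IsCompact S := (isCompact_Icc.prod hHT).image hsc_cont
  have hSsub : S ⊆ G.IT := by
    rintro _ ⟨⟨t, p⟩, ⟨ht, hp⟩, rfl⟩
    apply hUV₁
    refine ⟨hball₁ ?_, hHV₁ hp⟩
    rw [Metric.mem_ball, Real.dist_eq, abs_lt]
    simp only at ht
    have h1 : δ' ≤ δ₁ / 2 := min_le_left _ _
    constructor
    · linarith [ht.1]
    · linarith [ht.2]
  obtain ⟨r, hr, hL⟩ := hM.loeper S hScomp hSsub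
  refine ⟨δ', r, hδ'pos, hr, fun t hst hts x w hw => ?_⟩
  have ht0 : 0 ≤ t := hs0.le.trans hst
  have ht1 : t ≤ 1 := by
    have := min_le_right (δ₁ / 2) (1 - s)
    linarith
  have hSt : ∀ x, ∀ w ∈ G.H u x, (⟨x, t • w⟩ : TangentBundle (𝓡 n) M) ∈ S := by
    intro x w hw
    exact ⟨(t, ⟨x, w⟩), ⟨⟨hst, hts⟩, hw⟩, rfl⟩
  have hIw : t • w ∈ G.I x := hSsub (hSt x w hw)
  refine ⟨hIw, fun x' hd => ?_⟩
  have h1 := local_support G hC.star hL ht0 ht1 hSt hd hw
  have h2 : halfDistSq x (G.ex x (t • w)) = ‖t • w‖ ^ 2 / 2 := by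
    have h3 : dist x (G.ex x (t • w)) = ‖t • w‖ := hC.I_subset x hIw
    unfold halfDistSq; rw [h3]
  rw [h2]; exact h1

/-- uniqueness of minimising velocities at `y` gives uniqueness of contact points -/
theorem cset_subsingleton (hD : DFacts G) {u : M → ℝ} (hu : CConv u) {y : M}
    (h : (G.P (ctr u) y).Subsingleton) : (Cset u y).Subsingleton := by
  intro a ha b hb
  obtain ⟨v, hv, hvn⟩ := G.surj y a
  obtain ⟨w, hw, hwn⟩ := G.surj y b
  have hv' : v ∈ G.P (ctr u) y := by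
    rw [hD.mem_P_ctr u hu y v]
    refine ⟨?_, by rwa [hv]⟩
    show dist y (G.ex y v) = ‖v‖
    rw [hv, hvn]
  have hw' : w ∈ G.P (ctr u) y := by
    rw [hD.mem_P_ctr u hu y w]
    refine ⟨?_, by rwa [hw]⟩
    show dist y (G.ex y w) = ‖w‖
    rw [hw, hwn]
  rw [← hv, ← hw, h hv' hw']

/-- **Step (K)** in the form of `DDefs_267`. -/
theorem stepK [CompactSpace M] (hC : CutFacts G) (hM : MTWFacts G) (hD : DFacts G) : StepK G := by
  intro u hu s hs0 hs1 hgood hI hJ
  have hI' : ∀ y, (Cset (fun z => s * u z) y).Subsingleton := fun y =>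
    cset_subsingleton G hD (hD.cconv_smul u hu s hs0.le hs1.le) (hI y)
  obtain ⟨δ, hδ, h⟩ := openness G hC hM (hD.cont u hu) (hD.isCompact_HT u (hD.cont u hu))
    hs0.le hs1 hgood hI' hJ
  exact ⟨δ / 2, by positivity, fun t h1 h2 => h t h1 (by linarith)⟩

/-- the second half of step (K) from the first (no MTW). -/
theorem stepK_of_stepK1 [CompactSpace M] (hC : CutFacts G) (hD : DFacts G) (hK1 : StepK1 G) :
    StepK G := by
  intro u hu s hs0 hs1 hgood hI hJ
  obtain ⟨δ', r, hδ', hr, hloc⟩ := hK1 u hu s hs0 hs1 hgood hJ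
  have hcu := hD.cont u hu
  have hHT := hD.isCompact_HT u hcu
  have hI' : ∀ y, (Cset (fun z => s * u z) y).Subsingleton := fun y =>
    cset_subsingleton G hD (hD.cconv_smul u hu s hs0.le hs1.le) (hI y)
  set HT : Set (TangentBundle (𝓡 n) M) := {p | p.2 ∈ G.H u p.1} with hHTdef
  set T' : Set (TangentBundle (𝓡 n) M × M) := (HT ×ˢ univ) ∩ {q | r ≤ dist q.1.1 q.2} with hT'
  have hT'comp : IsCompact T' := by
    refine (hHT.prod isCompact_univ).inter_right ?_
    exact isClosed_le continuous_const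
      ((continuous_projTM.comp continuous_fst).dist continuous_snd)
  set F : ℝ × (TangentBundle (𝓡 n) M × M) → ℝ := fun q =>
    q.1 * u q.2.2 + halfDistSq q.2.2 (G.ex q.2.1.1 (q.1 • q.2.1.2))
      - (q.1 * u q.2.1.1 + halfDistSq q.2.1.1 (G.ex q.2.1.1 (q.1 • q.2.1.2))) with hF
  have hFcont : Continuous F := by
    have hE : Continuous (fun q : ℝ × (TangentBundle (𝓡 n) M × M) =>
        G.ex q.2.1.1 (q.1 • q.2.1.2)) :=
      (continuous_ex_smul G).comp
        (continuous_fst.prodMk (continuous_fst.comp continuous_snd))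
    have hx : Continuous (fun q : ℝ × (TangentBundle (𝓡 n) M × M) => q.2.1.1) :=
      continuous_projTM.comp (continuous_fst.comp continuous_snd)
    have hx' : Continuous (fun q : ℝ × (TangentBundle (𝓡 n) M × M) => q.2.2) :=
      continuous_snd.comp continuous_snd
    refine Continuous.sub (Continuous.add (continuous_fst.mul (hcu.comp hx')) ?_)
      (Continuous.add (continuous_fst.mul (hcu.comp hx)) ?_)
    · exact continuous_halfDistSq.comp (hx'.prodMk hE)
    · exact continuous_halfDistSq.comp (hx.prodMk hE)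
  have hO2 : IsOpen (F ⁻¹' Ioi 0) := isOpen_Ioi.preimage hFcont
  have hsub2 : ({s} : Set ℝ) ×ˢ T' ⊆ F ⁻¹' Ioi 0 := by
    rintro ⟨t, ⟨p, x'⟩⟩ ⟨ht, ⟨⟨hp, -⟩, hd⟩⟩
    rw [mem_singleton_iff] at ht
    simp only at ht hp hd
    subst ht
    simp only [mem_preimage, mem_Ioi, hF]
    have h1 : p.1 ∈ Cset (fun z => t * u z) (G.ex p.1 (t • p.2)) := (hgood p.1 p.2 hp).2
    by_contra hcon
    push Not at hcon
    have h2 : x' ∈ Cset (fun z => t * u z) (G.ex p.1 (t • p.2)) := by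
      intro z
      have := h1 z
      simp only at this ⊢
      linarith
    have h3 : p.1 = x' := hI' _ h1 h2
    have h4 : r ≤ dist p.1 x' := hd
    rw [h3, dist_self] at h4
    linarith
  obtain ⟨U₂, V₂, hU₂, hV₂, hsU₂, hHV₂, hUV₂⟩ :=
    generalized_tube_lemma isCompact_singleton hT'comp hO2 hsub2
  obtain ⟨δ₂, hδ₂, hball₂⟩ := Metric.isOpen_iff.1 hU₂ s (hsU₂ rfl)
  refine ⟨min δ' (δ₂ / 2), lt_min hδ' (by positivity), fun t hst hts => ?_⟩
  have htδ' : t ≤ s + δ' := by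
    have := min_le_left δ' (δ₂ / 2)
    linarith
  have htδ₂ : t < s + δ₂ := by
    have := min_le_right δ' (δ₂ / 2)
    linarith
  intro x w hw
  obtain ⟨hIw, hsup⟩ := hloc t hst htδ' x w hw
  refine ⟨hC.I_subset x hIw, fun x' => ?_⟩
  by_cases hd : dist x x' < r
  · exact hsup x' hd
  · push Not at hd
    have hmem : ((t, (⟨x, w⟩, x')) : ℝ × (TangentBundle (𝓡 n) M × M)) ∈ F ⁻¹' Ioi 0 := by
      apply hUV₂
      refine ⟨hball₂ ?_, hHV₂ ⟨⟨hw, mem_univ _⟩, hd⟩⟩
      rw [Metric.mem_ball, Real.dist_eq, abs_lt]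
      constructor <;> linarith
    simp only [mem_preimage, mem_Ioi, hF] at hmem
    simp only
    linarith

end Crest.Agent.R226.StepK881
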