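/-
R226 / E (helper487): volume glue of the pair-functional scheme.  For a compact set `Q ⊆ K(z)` of
velocities, the set of contacts `contacts G w z Q = {z' | ∃ q ∈ Q, z' ∈ ∂_c w (exp_z q)}` is compact
and `m ∫_Q J ≤ C vol (contacts)`.
-/
import Crest.Agent.R226.NGcol_487

set_option autoImplicit false
set_option linter.unusedSectionVars false

open MeasureTheory Bundle Set Filter
open scoped Manifold ContDiff Bundle ENNReal Topology
open Crest.GeometryTopology.MTW

namespace Crest.Agent.R226.VolGlue487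

open Crest.Agent.R226 Crest.Agent.R226.Kant624 Crest.Agent.R226.Reduction624
  Crest.Agent.R226.HolderEnd915 Crest.Agent.R226.E1Shape964 Crest.Agent.R226.Dasm290
  Crest.Agent.R226.Osc977 Crest.Agent.R226.Far977 Crest.Agent.R226.NG487

variable {n : ℕ} {M : Type*} [MetricSpace M] [ChartedSpace (EuclideanSpace ℝ (Fin n)) M]
  [IsManifold (𝓡 n) ∞ M]
  [RiemannianBundle (fun p : M => TangentSpace (𝓡 n) p)]

/-- the set of contacts of the points `exp_z q`, `q ∈ Q`. -/
def contacts (G : GeoData n M) (w : M → ℝ) (z : M) (Q : Set (TangentSpace (𝓡 n) z)) : Set M :=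
  {z' | ∃ q ∈ Q, z' ∈ cSub w (G.ex z q)}

theorem contacts_eq (G : GeoData n M) (w : M → ℝ) (z : M) (Q : Set (TangentSpace (𝓡 n) z)) :
    contacts G w z Q = ⋃ x ∈ G.ex z '' Q, cSub w x := by
  ext z'
  simp only [contacts, mem_ofPred_eq, mem_iUnion, mem_image, exists_prop]
  constructor
  · rintro ⟨q, hq, h⟩
    exact ⟨G.ex z q, ⟨q, hq, rfl⟩, h⟩
  · rintro ⟨x, ⟨q, hq, rfl⟩, h⟩
    exact ⟨q, hq, h⟩

variable [IsContMDiffRiemannianBundle (𝓡 n) ∞ (EuclideanSpace ℝ (Fin n))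
    (fun p : M => TangentSpace (𝓡 n) p)]
  [IsRiemannianManifold (𝓡 n) M] [CompactSpace M]
  {G : GeoData n M}

theorem isCompact_contacts {w : M → ℝ} (hw : Continuous w) {z : M}
    {Q : Set (TangentSpace (𝓡 n) z)} (hQ : IsCompact Q) : IsCompact (contacts G w z Q) := by
  have h1 : IsCompact (G.ex z '' Q) := hQ.image (continuous_exv G z)
  have h2 : IsClosed {p : M × M | p.2 ∈ cSub w p.1} := isClosed_contact hw
  have h3 : IsCompact ({p : M × M | p.2 ∈ cSub w p.1} ∩ Prod.fst ⁻¹' (G.ex z '' Q)) :=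
    (h2.inter (h1.isClosed.preimage continuous_fst)).isCompact
  have h4 : contacts G w z Q =
      Prod.snd '' ({p : M × M | p.2 ∈ cSub w p.1} ∩ Prod.fst ⁻¹' (G.ex z '' Q)) := by
    ext z'
    simp only [contacts, mem_ofPred_eq, mem_image, mem_inter_iff, mem_preimage, Prod.exists,
      exists_eq_right]
    constructor
    · rintro ⟨q, hq, h⟩
      exact ⟨G.ex z q, h, q, hq, rfl⟩
    · rintro ⟨x, h, q, hq, rfl⟩
      exact ⟨q, hq, h⟩
  rw [h4]
  exact h3.image continuous_snd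

variable [MeasurableSpace M] [BorelSpace M]

/-- volume of the contacts against the volume of the image. -/
theorem vol_contacts_ge {vol : Measure M} {w : M → ℝ} {m : ℝ} (hA : AlexPinch vol w m) {z : M}
    {Q : Set (TangentSpace (𝓡 n) z)} (hQ : IsCompact Q) :
    ENNReal.ofReal m * vol (G.ex z '' Q) ≤ vol (contacts G w z Q) := by
  rw [contacts_eq]
  exact (hA _ (hQ.image (continuous_exv G z)).measurableSet).1

/-- volume of the contacts against the mass `∫_Q J` (`harea` is the last clause of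
`Jac344.exists_area`). -/
theorem lintegral_le_contacts {vol : Measure M} {w : M → ℝ} {m : ℝ} (hA : AlexPinch vol w m)
    {z : M} [MeasurableSpace (TangentSpace (𝓡 n) z)]
    {μ : Measure (TangentSpace (𝓡 n) z)} {J : TangentSpace (𝓡 n) z → ℝ≥0∞} {C : ℝ}
    (harea : ∀ A ⊆ G.K z, IsCompact A →
      ∫⁻ p in A, J p ∂μ ≤ ENNReal.ofReal C * vol (G.ex z '' A))
    {Q : Set (TangentSpace (𝓡 n) z)} (hQ : IsCompact Q) (hQK : Q ⊆ G.K z) :
    ENNReal.ofReal m * ∫⁻ p in Q, J p ∂μ ≤ ENNReal.ofReal C * vol (contacts G w z Q) := by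
  calc ENNReal.ofReal m * ∫⁻ p in Q, J p ∂μ
      ≤ ENNReal.ofReal m * (ENNReal.ofReal C * vol (G.ex z '' Q)) := by
        gcongr
        exact harea Q hQK hQ
    _ = ENNReal.ofReal C * (ENNReal.ofReal m * vol (G.ex z '' Q)) := by ring
    _ ≤ _ := by
        gcongr
        exact vol_contacts_ge hA hQ

/-- real version: `m * m' / C ≤ vol (contacts)` if `m' ≤ ∫_Q J`. -/
theorem toReal_contacts_ge {vol : Measure M} [IsFiniteMeasure vol] {w : M → ℝ} {m : ℝ}
    (hm : 0 < m) (hA : AlexPinch vol w m)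
    {z : M} [MeasurableSpace (TangentSpace (𝓡 n) z)]
    {μ : Measure (TangentSpace (𝓡 n) z)} {J : TangentSpace (𝓡 n) z → ℝ≥0∞} {C : ℝ} (hC : 0 < C)
    (harea : ∀ A ⊆ G.K z, IsCompact A →
      ∫⁻ p in A, J p ∂μ ≤ ENNReal.ofReal C * vol (G.ex z '' A))
    {Q : Set (TangentSpace (𝓡 n) z)} (hQ : IsCompact Q) (hQK : Q ⊆ G.K z) {m' : ℝ}
    (hm' : ENNReal.ofReal m' ≤ ∫⁻ p in Q, J p ∂μ) :
    m / C * m' ≤ (vol (contacts G w z Q)).toReal := by
  have h1 := lintegral_le_contacts hA harea hQ hQK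
  have h2 : ENNReal.ofReal (m * m') ≤ ENNReal.ofReal (C * (vol (contacts G w z Q)).toReal) := by
    calc ENNReal.ofReal (m * m') = ENNReal.ofReal m * ENNReal.ofReal m' := ENNReal.ofReal_mul hm.le
      _ ≤ ENNReal.ofReal m * ∫⁻ p in Q, J p ∂μ := by gcongr
      _ ≤ ENNReal.ofReal C * vol (contacts G w z Q) := h1
      _ = ENNReal.ofReal (C * (vol (contacts G w z Q)).toReal) := by
          rw [ENNReal.ofReal_mul hC.le, ENNReal.ofReal_toReal (measure_ne_top _ _)]
  have h3 : m * m' ≤ C * (vol (contacts G w z Q)).toReal :=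
    (ENNReal.ofReal_le_ofReal_iff (by positivity)).1 h2
  rw [div_mul_eq_mul_div, div_le_iff₀ hC]
  linarith

/-- **new pair from contacts**: if all contacts of the points of `Q` see `a₀` and `a₁` at the level
`h'`, then the pair volume is `≥ (m/C) m'`. -/
theorem pair_of_contacts {vol : Measure M} [IsFiniteMeasure vol] {w : M → ℝ} {m : ℝ}
    (hm : 0 < m) (hA : AlexPinch vol w m)
    {z : M} [MeasurableSpace (TangentSpace (𝓡 n) z)]
    {μ : Measure (TangentSpace (𝓡 n) z)} {J : TangentSpace (𝓡 n) z → ℝ≥0∞} {C : ℝ} (hC : 0 < C)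
    (harea : ∀ A ⊆ G.K z, IsCompact A →
      ∫⁻ p in A, J p ∂μ ≤ ENNReal.ofReal C * vol (G.ex z '' A))
    {Q : Set (TangentSpace (𝓡 n) z)} (hQ : IsCompact Q) (hQK : Q ⊆ G.K z) {m' : ℝ}
    (hm' : ENNReal.ofReal m' ≤ ∫⁻ p in Q, J p ∂μ) {a0 a1 : M} {h' : ℝ}
    (hsee : ∀ q ∈ Q, ∀ y ∈ cSub w (G.ex z q), Dd w a0 y ≤ h' ∧ Dd w a1 y ≤ h') :
    m / C * m' ≤ (vol {y | Dd w a0 y ≤ h' ∧ Dd w a1 y ≤ h'}).toReal := by
  refine (toReal_contacts_ge hm hA hC harea hQ hQK hm').trans ?_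
  refine ENNReal.toReal_mono (measure_ne_top _ _) (measure_mono ?_)
  rintro y ⟨q, hq, hy⟩
  exact hsee q hq y hy

end Crest.Agent.R226.VolGlue487
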